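import Vale.Agent.P107.Basic

/-! Problem P107: bounds for the acceleration and for the Lienard-Wiechert force. -/

open MeasureTheory Set Filter Topology
open scoped ENNReal RealInnerProductSpace

noncomputable section
namespace Vale.Agent.P107

namespace A12X

theorem inner_nn {n : V3} (hn : ‖n‖ = 1) : ⟪n, n⟫ = 1 := by
  rw [real_inner_self_eq_norm_sq, hn, one_pow]

theorem cross_le {n : V3} (hn : ‖n‖ = 1) (x : V3) : ‖cross n x‖ ≤ ‖x‖ := by
  have := norm_cross_le n x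
  rwa [hn, one_mul] at this

theorem kg_ge (n : V3) (k : Z) : |⟪k.1, n⟫| ≤ Kg n k ∧ |⟪k.2, n⟫| ≤ Kg n k ∧
    ‖k.1 - ⟪k.1, n⟫ • n + cross n k.2‖ ≤ Kg n k := by
  have h := Kg_sq n k
  have h0 := Kg_nonneg n k
  have a1 := sq_nonneg ⟪k.1, n⟫
  have a2 := sq_nonneg ⟪k.2, n⟫
  have a3 := sq_nonneg ‖k.1 - ⟪k.1, n⟫ • n + cross n k.2‖
  exact ⟨abs_le_of_sq_le_sq' (by linarith) h0 |> abs_le.2,
    abs_le_of_sq_le_sq' (by linarith) h0 |> abs_le.2,
    (abs_le_of_sq_le_sq' (by linarith) h0).2⟩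

/-- decomposition of the force -/
theorem split {n u : V3} (hn : ‖n‖ = 1) (hu : ‖u‖ ≤ 1) (k : Z) : ∃ (α : ℝ) (G : V3),
    k.1 + cross u k.2 = α • n + G ∧ |α| ≤ Kg n k + 3 / 2 * dd n u * ‖k.2‖ ∧
      ‖G‖ ≤ 4 * (Kg n k + dd n u ^ 2 * ‖k.2‖) := by
  obtain ⟨k1, k2, k3⟩ := kg_ge n k
  have hnn := inner_nn hn
  have hb := dd_sq hn.le hu
  have hb0 := dd_nonneg n u
  have hb1 := dd_le_three_halves hn.le hu
  obtain ⟨p, hp⟩ : ∃ p, p = u - ⟪n, u⟫ • n := ⟨_, rfl⟩
  have hnp : ⟪n, p⟫ = 0 := by rw [hp, inner_sub_right, real_inner_smul_right, hnn]; ring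
  have hp1 : ‖p‖ ≤ 3 / 2 * dd n u := by
    have e : ‖p‖ ^ 2 = ‖u‖ ^ 2 - ⟪n, u⟫ ^ 2 := by
      rw [hp, norm_sub_sq_real, real_inner_smul_right, norm_smul, hn, real_inner_comm,
        Real.norm_eq_abs, mul_one, sq_abs]
      ring
    have e2 : ‖u‖ ^ 2 ≤ 1 := pow_le_one₀ (norm_nonneg _) hu
    refine (abs_le_of_sq_le_sq' ?_ (by positivity)).2
    rw [mul_pow, hb, e]
    nlinarith [sq_nonneg (1 - ⟪n, u⟫), sq_nonneg (dd n u)]
  have h1 : cross n (cross p k.2) = ⟪n, k.2⟫ • p := by rw [cross_cross, hnp, zero_smul, sub_zero]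
  have h2 : cross p k.2 = ⟪n, cross p k.2⟫ • n - ⟪n, k.2⟫ • cross n p := by
    have := cross_cross n n (cross p k.2)
    rw [h1, cross_smul_right, hnn, one_smul] at this
    rw [this, sub_sub_cancel]
  have h3 : cross u k.2 = cross p k.2 + ⟪n, u⟫ • cross n k.2 := by
    rw [hp, cross_sub_left, cross_smul_left, sub_add_cancel]
  refine ⟨⟪k.1, n⟫ + ⟪n, cross p k.2⟫, (k.1 - ⟪k.1, n⟫ • n + cross n k.2) -
    dd n u ^ 2 • cross n k.2 - ⟪n, k.2⟫ • cross n p, ?_, ?_, ?_⟩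
  · rw [h3, hb]
    conv_lhs => rw [h2]
    module
  · refine (abs_add_le _ _).trans (add_le_add k1 ?_)
    have a1 := abs_real_inner_le_norm n (cross p k.2)
    rw [hn, one_mul] at a1
    exact a1.trans ((norm_cross_le _ _).trans (mul_le_mul_of_nonneg_right hp1 (norm_nonneg _)))
  · have a1 : ‖dd n u ^ 2 • cross n k.2‖ ≤ dd n u ^ 2 * ‖k.2‖ := by
      rw [norm_smul, Real.norm_of_nonneg (sq_nonneg _)]
      exact mul_le_mul_of_nonneg_left (cross_le hn _) (sq_nonneg _)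
    have a2 : ‖⟪n, k.2⟫ • cross n p‖ ≤ Kg n k * (9 / 4) := by
      rw [norm_smul, Real.norm_eq_abs, real_inner_comm]
      exact mul_le_mul k2 ((cross_le hn _).trans (by linarith)) (norm_nonneg _) (Kg_nonneg n k)
    have a3 : 0 ≤ dd n u ^ 2 * ‖k.2‖ := by positivity
    have a4 := Kg_nonneg n k
    refine (norm_sub_le _ _).trans ((add_le_add (norm_sub_le _ _) a2).trans ?_)
    linarith

theorem core {n u F : V3} (hn : ‖n‖ = 1) (hu : ‖u‖ ≤ 1) {α K B : ℝ} {G : V3} (hF : F = α • n + G)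
    (hK : 0 ≤ K) (hB : 0 ≤ B) (hα : |α| ≤ K + 3 / 2 * dd n u * B)
    (hG : ‖G‖ ≤ 4 * (K + dd n u ^ 2 * B)) :
    ‖F - ⟪u, F⟫ • u‖ ≤ 15 * (K + dd n u ^ 2 * B) ∧
      |⟪n, F - ⟪u, F⟫ • u⟫| ≤ 15 * dd n u * (K + dd n u ^ 2 * B) := by
  have hnn := inner_nn hn
  have hb := dd_sq hn.le hu
  have hb0 := dd_nonneg n u
  have hb1 := dd_le_three_halves hn.le hu
  have h1 := norm_sub_le_dd hn.le hu
  have hN : ‖n - ⟪n, u⟫ • u‖ ≤ 3 * dd n u := by
    have e : n - ⟪n, u⟫ • u = (n - u) + dd n u ^ 2 • u := by rw [hb]; module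
    have a1 : ‖dd n u ^ 2 • u‖ ≤ dd n u ^ 2 := by
      rw [norm_smul, Real.norm_of_nonneg (sq_nonneg _)]
      exact mul_le_of_le_one_right (sq_nonneg _) hu
    rw [e]
    refine (norm_add_le _ _).trans ?_
    nlinarith
  have hi : |1 - ⟪n, u⟫ ^ 2| ≤ 2 * dd n u ^ 2 := by
    have a1 := abs_le.1 (abs_inner_le_one hn.le hu)
    rw [hb, abs_le]
    constructor <;> nlinarith [a1.1, a1.2]
  have e1 : F - ⟪u, F⟫ • u = α • (n - ⟪n, u⟫ • u) + (G - ⟪u, G⟫ • u) := by
    rw [hF, inner_add_right, real_inner_smul_right, real_inner_comm]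
    module
  have e2 : ⟪n, F - ⟪u, F⟫ • u⟫ = α * (1 - ⟪n, u⟫ ^ 2) + ⟪n - ⟪n, u⟫ • u, G⟫ := by
    rw [e1]
    simp only [inner_add_right, inner_sub_right, inner_sub_left, real_inner_smul_right,
      real_inner_smul_left, hnn]
    ring
  have a1 : ‖⟪u, G⟫ • u‖ ≤ ‖G‖ := by
    rw [norm_smul, Real.norm_eq_abs]
    exact (mul_le_of_le_one_right (abs_nonneg _) hu).trans ((abs_real_inner_le_norm u G).trans
      (mul_le_of_le_one_left (norm_nonneg _) hu))
  generalize dd n u = b at *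
  have p1 : 0 ≤ b ^ 2 * B := by positivity
  have p2 := mul_le_mul_of_nonneg_right hb1 hK
  constructor
  · have a2 : ‖α • (n - ⟪n, u⟫ • u)‖ ≤ (K + 3 / 2 * b * B) * (3 * b) := by
      rw [norm_smul, Real.norm_eq_abs]
      exact mul_le_mul hα hN (norm_nonneg _) (by positivity)
    rw [e1]
    refine (norm_add_le _ _).trans ((add_le_add a2 (norm_sub_le _ _)).trans ?_)
    linarith
  · have a2 : |α * (1 - ⟪n, u⟫ ^ 2)| ≤ (K + 3 / 2 * b * B) * (2 * b ^ 2) := by
      rw [abs_mul]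
      exact mul_le_mul hα hi (abs_nonneg _) (by positivity)
    have a3 : |⟪n - ⟪n, u⟫ • u, G⟫| ≤ 3 * b * (4 * (K + b ^ 2 * B)) :=
      (abs_real_inner_le_norm _ _).trans (mul_le_mul hN hG (norm_nonneg _) (by positivity))
    have p3 := mul_le_mul_of_nonneg_left p2 hb0
    rw [e2]
    refine (abs_add_le _ _).trans ((add_le_add a2 a3).trans ?_)
    linarith

end A12X

open A12X

theorem a1 : A1 := by
  refine ⟨15, by norm_num, fun n v k hn => ?_⟩
  obtain ⟨α, G, hF, hα, hG⟩ := split hn (norm_uu_le v) k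
  obtain ⟨h1, h2⟩ := core (F := frc v k) hn (norm_uu_le v) hF (Kg_nonneg n k) (norm_nonneg _) hα hG
  have hq := (inv_pos.2 (q_pos v)).le
  constructor
  · rw [acc, norm_smul, Real.norm_of_nonneg hq, div_eq_inv_mul]
    exact mul_le_mul_of_nonneg_left h1 hq
  · rw [acc, real_inner_smul_right, abs_mul, abs_of_nonneg hq, div_eq_inv_mul]
    exact mul_le_mul_of_nonneg_left h2 hq

theorem a2 (h : A1) : A2 := by
  obtain ⟨C, hC, h⟩ := h
  refine ⟨8 * C + 5, by positivity, fun U w v k hU hw => ?_⟩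
  have hn := norm_hat hw
  have hu := norm_uu_le v
  have hnn := inner_nn hn
  obtain ⟨h1, h2⟩ := h (hat w) v k hn
  have hr : 0 < ‖w‖ := norm_pos_iff.2 hw
  have hq := q_pos v
  have hκ := kap_nonneg (hat w) v k
  have hb0 := dd_uu_pos hn.le v
  have hb := dd_sq hn.le hu
  have ha0 := dd_nonneg (hat w) U
  have ha1 := dd_le_three_halves hn.le hU
  have hnu := norm_sub_le_dd hn.le hu
  have hnU : ‖U - hat w‖ ≤ 3 / 2 * dd (hat w) U := by
    rw [norm_sub_rev]; exact norm_sub_le_dd hn.le hU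
  have hl : ∀ x, lor U (hat w) x = dd (hat w) U ^ 2 • x + ⟪U, x⟫ • hat w := fun x => by
    rw [lor, cross_cross, dd_sq hn.le hU, real_inner_comm U]
    module
  have hl' : ∀ x, ‖lor U (hat w) x‖ ≤ dd (hat w) U ^ 2 * ‖x‖ +
      (3 / 2 * dd (hat w) U * ‖x‖ + |⟪hat w, x⟫|) := fun x => by
    have e : ⟪U, x⟫ = ⟪U - hat w, x⟫ + ⟪hat w, x⟫ := by rw [inner_sub_left, sub_add_cancel]
    rw [hl]
    refine (norm_add_le _ _).trans (add_le_add ?_ ?_)
    · rw [norm_smul, Real.norm_of_nonneg (sq_nonneg _)]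
    · rw [norm_smul, hn, mul_one, Real.norm_eq_abs, e]
      exact (abs_add_le _ _).trans (add_le_add ((abs_real_inner_le_norm _ _).trans
        (mul_le_mul_of_nonneg_right hnU (norm_nonneg _))) le_rfl)
  have h0 : ⟪hat w, ES w v k⟫ = 0 := by
    rw [ES, real_inner_smul_right, inner_sub_right, real_inner_smul_right, real_inner_smul_right,
      inner_sub_right, hnn, b2]
    ring
  have hES : ‖ES w v k‖ ≤
      5 / 2 * C * (kap (hat w) v k / (q v * dd (hat w) (uu v) ^ 4 * ‖w‖)) := by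
    have a1 : ‖⟪hat w, acc v k⟫ • (hat w - uu v)‖ ≤
        C * dd (hat w) (uu v) * kap (hat w) v k / q v * (3 / 2 * dd (hat w) (uu v)) := by
      rw [norm_smul, Real.norm_eq_abs]
      exact mul_le_mul h2 hnu (norm_nonneg _) (by positivity)
    have a2 : ‖dd (hat w) (uu v) ^ 2 • acc v k‖ ≤
        dd (hat w) (uu v) ^ 2 * (C * kap (hat w) v k / q v) := by
      rw [norm_smul, Real.norm_of_nonneg (sq_nonneg _)]
      exact mul_le_mul_of_nonneg_left h1 (sq_nonneg _)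
    rw [ES, b2_eq, norm_smul, Real.norm_of_nonneg (by positivity)]
    refine (mul_le_mul_of_nonneg_left ((norm_sub_le _ _).trans (add_le_add a1 a2))
      (by positivity)).trans (le_of_eq ?_)
    field_simp
    ring
  refine ⟨hl, h0, ?_, ?_, ?_⟩
  · rw [mul_div_assoc]
    exact hES.trans (mul_le_mul_of_nonneg_right (by linarith) (by positivity))
  · have e1 : lor U (hat w) (ET w v) =
        (q v ^ 2 * b2 w v ^ 3 * ‖w‖ ^ 2)⁻¹ • lor U (hat w) (hat w - uu v) := by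
      rw [ET, lor, lor, cross_smul_right, cross_smul_right, ← smul_add]
    have a1 := hl' (hat w - uu v)
    rw [inner_sub_right, hnn, ← hb, abs_of_nonneg (sq_nonneg _)] at a1
    have a2 : ‖lor U (hat w) (hat w - uu v)‖ ≤
        5 * dd (hat w) (uu v) * (dd (hat w) U + dd (hat w) (uu v)) := by
      generalize dd (hat w) U = a at *
      generalize dd (hat w) (uu v) = b at *
      have p1 : a ^ 2 ≤ 3 / 2 * a := by nlinarith
      have p2 := mul_le_mul p1 hnu (norm_nonneg _) (by positivity)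
      have p3 := mul_le_mul_of_nonneg_left hnu ha0
      have p4 := mul_nonneg ha0 hb0.le
      have p5 := sq_nonneg b
      linarith
    rw [e1, b2_eq, norm_smul, Real.norm_of_nonneg (by positivity)]
    refine (mul_le_mul_of_nonneg_left a2 (by positivity)).trans
      (le_trans (le_of_eq ?_) (mul_le_mul_of_nonneg_right (by linarith : 5 ≤ 8 * C + 5)
        (kT_nonneg U w v)))
    unfold kT
    field_simp
  · have a1 := hl' (ES w v k)
    rw [h0, abs_zero, add_zero] at a1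
    have e : kS U w v k =
        dd (hat w) U * (kap (hat w) v k / (q v * dd (hat w) (uu v) ^ 4 * ‖w‖)) := by
      rw [kS, mul_div_assoc]
    have p0 : 0 ≤ kap (hat w) v k / (q v * dd (hat w) (uu v) ^ 4 * ‖w‖) := by positivity
    rw [e]
    generalize kap (hat w) v k / (q v * dd (hat w) (uu v) ^ 4 * ‖w‖) = y at hES p0 ⊢
    generalize dd (hat w) U = a at *
    have p1 : a ^ 2 ≤ 3 / 2 * a := by nlinarith
    have p2 := mul_le_mul_of_nonneg_right p1 (norm_nonneg (ES w v k))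
    have p3 := mul_le_mul_of_nonneg_left hES ha0
    have p4 := mul_nonneg ha0 p0
    have p5 := mul_nonneg hC.le p4
    linarith

end Vale.Agent.P107
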