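import Vale.Agent.P107.Basic

open MeasureTheory Set Filter Topology
open scoped ENNReal RealInnerProductSpace

noncomputable section
namespace Vale.Agent.P107
namespace A3X

lemma lor_add (U n x y : V3) : lor U n (x + y) = lor U n x + lor U n y := by
  unfold lor; rw [cross_add_right, cross_add_right]; abel

lemma vs_eq (δ a₀ : ℝ) {e w : V3} (v : V3) (he : ‖e‖ = 1) (hw : w ≠ 0) :
    vs δ a₀ e w (uu v) =
      δ ^ 2 * dd (hat w) e ^ 2 / (dd (hat w) (uu v) ^ 2 + δ ^ 2 * a₀ ^ 2) := by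
  unfold vs
  rw [norm_sub_inner w e he.le, norm_sub_inner w _ (norm_uu_le v)]
  have h1 : ‖w‖ ≠ 0 := norm_ne_zero_iff.2 hw
  have h2 := dd_uu_pos (norm_hat_le w) v
  field_simp

lemma rd {δ a₀ ε a b c : ℝ} (hδ : 0 < δ) (h0 : 0 < a₀) (hε : 16 * ε ≤ a₀) (hb : 0 < b)
    (ha : a ≤ c + ε) (h : δ ^ 2 * c ^ 2 / (b ^ 2 + δ ^ 2 * a₀ ^ 2) ≤ 2) :
    δ * a ≤ 4 * b ∨ a ≤ 4 * a₀ := by
  rw [div_le_iff₀ (by positivity)] at h
  by_contra hc
  push Not at hc
  obtain ⟨h1, h2⟩ := hc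
  have h3 : δ * (a / 2) ≤ δ * c := mul_le_mul_of_nonneg_left (by linarith) hδ.le
  have h4 : δ * (4 * a₀) < δ * a := mul_lt_mul_of_pos_left h2 hδ
  have h5 : 0 < δ * a₀ := by positivity
  have h6 : (δ * (a / 2)) ^ 2 ≤ (δ * c) ^ 2 := pow_le_pow_left₀ (by linarith) h3 2
  have h7 : (4 * b) ^ 2 < (δ * a) ^ 2 := pow_lt_pow_left₀ h1 (by positivity) two_ne_zero
  have h8 : (δ * (4 * a₀)) ^ 2 < (δ * a) ^ 2 := pow_lt_pow_left₀ h4 (by positivity) two_ne_zero
  nlinarith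

lemma ri {δ a₀ b c : ℝ} (hδ : 0 < δ) (h0 : 0 < a₀) (hb : 0 < b) (hc : 0 ≤ c)
    (h : 1 ≤ δ ^ 2 * c ^ 2 / (b ^ 2 + δ ^ 2 * a₀ ^ 2)) : b ≤ δ * c ∧ a₀ ≤ c := by
  rw [le_div_iff₀ (by positivity)] at h
  have h1 : 0 < δ ^ 2 * a₀ ^ 2 := by positivity
  refine ⟨(pow_le_pow_iff_left₀ hb.le (by positivity) two_ne_zero).1 (by nlinarith), ?_⟩
  refine (pow_le_pow_iff_left₀ h0.le hc two_ne_zero).1
    (le_of_mul_le_mul_left (a := δ ^ 2) ?_ (by positivity))
  nlinarith [sq_nonneg b]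

end A3X
open A3X

theorem a3 (h2 : A2) (ha : A3a) (hb : A3b) : A3 := by
  obtain ⟨C2, hC2, h2⟩ := h2
  obtain ⟨Ca, hCa, ha⟩ := ha
  obtain ⟨Cb, hCb, hb⟩ := hb
  obtain ⟨Ce, hCe, he', -⟩ := exists_deriv_eta_le
  refine ⟨Ce * Ca * Cb + Ca + 2 * C2, by positivity,
    fun e U v k δ a₀ ε s w u he hU hUe hw hu hδ hδ8 h0 hε dw du => ?_⟩
  obtain ⟨-, -, -, bT, bS⟩ := h2 U (w s) v k hU hw
  obtain ⟨D1, hD1, bD1⟩ := hb e U v k δ a₀ ε s w u he hU hUe hw hu hδ hδ8 h0 hε dw du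
  have ha' := ha e U v k ε s w u he hU hUe hw hu
  have hn := norm_hat_le (w s)
  have hε0 : 0 ≤ ε := (dd_nonneg _ _).trans hUe
  have t1 : dd (hat (w s)) U ≤ dd (hat (w s)) e + ε := by
    have := dd_tri hn he.le hU
    rw [dd_comm e U] at this
    linarith
  have t2 : dd (hat (w s)) e ≤ dd (hat (w s)) U + ε := by linarith [dd_tri hn hU he.le]
  have hb0 := dd_uu_pos hn v
  have hvs := vs_eq δ a₀ v he hw
  rw [← hu] at hvs
  have hRD : vs δ a₀ e (w s) (u s) ≤ 2 → RD δ a₀ U (w s) v := fun h =>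
    rd hδ h0 hε hb0 t1 (by rw [hvs, hu] at h; exact h)
  have kT0 := kT_nonneg U (w s) v
  have kS0 := kS_nonneg U (w s) v k
  have hF : FLW U (w s) v k =
      lor U (hat (w s)) (ET (w s) v) + lor U (hat (w s)) (ES (w s) v k) := lor_add _ _ _ _
  have a0 := dd_nonneg (hat (w s)) U
  have hK0 := KK_nonneg δ a₀ hε0 U (w s) v k
  have c1 : 0 ≤ Ce * Ca * Cb * KK δ a₀ ε U (w s) v k := by positivity
  have c2 : 0 ≤ Ca * KK δ a₀ ε U (w s) v k := by positivity
  have c3 : 0 ≤ C2 * KK δ a₀ ε U (w s) v k := by positivity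
  by_cases h1 : vs δ a₀ e (w s) (u s) < 1
  · refine ⟨0, ?_, ?_⟩
    · refine (hasDerivAt_const s (0 : V3)).congr_of_eventuallyEq ?_
      filter_upwards [hD1.continuousAt.eventually_lt continuousAt_const h1] with t ht
      unfold CG
      rw [eta_of_le_one ht.le, zero_smul]
    · have hK : kT U (w s) v + kS U (w s) v k ≤ KK δ a₀ ε U (w s) v k := by
        unfold KK
        rw [if_pos (hRD (by linarith))]
        split_ifs
        · have b1 : 0 ≤ ε / dd (hat (w s)) U * kS U (w s) v k := by positivity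
          have b2 : 0 ≤ (1 / dd (hat (w s)) (uu v) ^ 2 +
            1 / (δ ^ 2 * dd (hat (w s)) U * dd (hat (w s)) (uu v))) / ‖w s‖ ^ 2 := by positivity
          linarith
        · linarith
      rw [zero_sub, norm_neg, hF]
      have := mul_le_mul_of_nonneg_left hK hC2.le
      linarith [norm_add_le (lor U (hat (w s)) (ET (w s) v)) (lor U (hat (w s)) (ES (w s) v k))]
  push Not at h1
  obtain ⟨r1, r2⟩ := ri hδ h0 hb0 (dd_nonneg _ _) (by rw [hvs, hu] at h1; exact h1)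
  have e0 := dd_nonneg (hat (w s)) e
  have r3 : δ * dd (hat (w s)) e ≤ 1 / 8 * dd (hat (w s)) e := mul_le_mul_of_nonneg_right hδ8 e0
  obtain ⟨bG, D2, hD2, bD2⟩ := ha' (by linarith) (by linarith) dw du
  have r4 : δ * dd (hat (w s)) e ≤ δ * (2 * dd (hat (w s)) U) :=
    mul_le_mul_of_nonneg_left (by linarith) hδ.le
  have hRI : RI δ a₀ U (w s) v := ⟨by linarith, by linarith⟩
  refine ⟨_, ((hasDerivAt_eta _).comp s hD1).smul hD2, ?_⟩
  simp only [Function.comp]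
  set η := eta (vs δ a₀ e (w s) (u s)) with hη
  set η' := deriv eta (vs δ a₀ e (w s) (u s)) with hη'
  have η0 : 0 ≤ η := eta_nonneg _
  have η1 : η ≤ 1 := eta_le_one _
  set X := (1 / dd (hat (w s)) (uu v) ^ 2 +
    1 / (δ ^ 2 * dd (hat (w s)) U * dd (hat (w s)) (uu v))) / ‖w s‖ ^ 2 with hX
  have X0 : 0 ≤ X := by positivity
  have X1 : 1 / (dd (hat (w s)) (uu v) ^ 2 * ‖w s‖ ^ 2) ≤ X := by
    rw [hX, ← div_div]
    refine div_le_div_of_nonneg_right (le_add_of_nonneg_right (by positivity)) (sq_nonneg _)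
  have b1 : 0 ≤ ε / dd (hat (w s)) U * kS U (w s) v k := by positivity
  have K1 : kT U (w s) v + X + ε / dd (hat (w s)) U * kS U (w s) v k ≤
      KK δ a₀ ε U (w s) v k := by
    unfold KK
    rw [if_pos hRI, if_pos hRI]
    split_ifs <;> linarith
  have K2 : vs δ a₀ e (w s) (u s) ≤ 2 →
      kT U (w s) v + X + kS U (w s) v k ≤ KK δ a₀ ε U (w s) v k := fun h => by
    unfold KK
    rw [if_pos hRI, if_pos hRI, if_pos (hRD h)]
    linarith
  have eq : η • D2 + (η' * D1) • GG e (w s) (u s) - FLW U (w s) v k =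
      (η' * D1) • GG e (w s) (u s) + η • (D2 - lor U (hat (w s)) (ES (w s) v k)) -
        (1 - η) • lor U (hat (w s)) (ES (w s) v k) - lor U (hat (w s)) (ET (w s) v) := by
    rw [hF]; module
  have n1 : ‖(η' * D1) • GG e (w s) (u s)‖ ≤ Ce * Ca * Cb * KK δ a₀ ε U (w s) v k := by
    by_cases h : vs δ a₀ e (w s) (u s) ≤ 2
    · rw [norm_smul, norm_mul, Real.norm_eq_abs, Real.norm_eq_abs]
      calc |η'| * |D1| * ‖GG e (w s) (u s)‖
          ≤ Ce * |D1| * (Ca / (dd (hat (w s)) U * dd (hat (w s)) (uu v) * ‖w s‖)) := by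
            gcongr; exact he' _
        _ = Ce * Ca * (|D1| / (dd (hat (w s)) U * dd (hat (w s)) (uu v) * ‖w s‖)) := by ring
        _ ≤ Ce * Ca * (Cb * KK δ a₀ ε U (w s) v k) :=
            mul_le_mul_of_nonneg_left ((bD1 h1 h).trans
              (mul_le_mul_of_nonneg_left (K2 h) hCb.le)) (by positivity)
        _ = _ := by ring
    · rw [hη', deriv_eta_of_two_lt (not_le.1 h), zero_mul, zero_smul, norm_zero]
      exact c1
  have n2 : ‖η • (D2 - lor U (hat (w s)) (ES (w s) v k))‖ ≤ Ca * KK δ a₀ ε U (w s) v k := by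
    rw [norm_smul, Real.norm_of_nonneg η0]
    exact (mul_le_of_le_one_left (norm_nonneg _) η1).trans
      (bD2.trans (mul_le_mul_of_nonneg_left (by linarith) hCa.le))
  have n3 : ‖(1 - η) • lor U (hat (w s)) (ES (w s) v k)‖ ≤ C2 * KK δ a₀ ε U (w s) v k := by
    by_cases h : vs δ a₀ e (w s) (u s) ≤ 2
    · rw [norm_smul, Real.norm_of_nonneg (by linarith)]
      exact (mul_le_of_le_one_left (norm_nonneg _) (by linarith)).trans
        (bS.trans (mul_le_mul_of_nonneg_left (by linarith [K2 h]) hC2.le))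
    · rw [hη, eta_of_two_le (not_le.1 h).le, sub_self, zero_smul, norm_zero]
      exact c3
  have n4 : ‖lor U (hat (w s)) (ET (w s) v)‖ ≤ C2 * KK δ a₀ ε U (w s) v k :=
    bT.trans (mul_le_mul_of_nonneg_left (by linarith) hC2.le)
  rw [eq]
  refine (norm_sub_le _ _).trans ?_
  have m1 := norm_sub_le ((η' * D1) • GG e (w s) (u s) +
    η • (D2 - lor U (hat (w s)) (ES (w s) v k))) ((1 - η) • lor U (hat (w s)) (ES (w s) v k))
  have m2 := norm_add_le ((η' * D1) • GG e (w s) (u s))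
    (η • (D2 - lor U (hat (w s)) (ES (w s) v k)))
  linarith

end Vale.Agent.P107
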