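import Vale.Agent.P107.Basic

/-! Problem P107, part I: the derivative of the vector potential `GG` along the test particle. -/

open MeasureTheory Set Filter Topology
open scoped ENNReal RealInnerProductSpace

noncomputable section
namespace Vale.Agent.P107
namespace A3aX

theorem hasDerivAt_norm {w : ℝ → V3} {w' : V3} {s : ℝ} (h : HasDerivAt w w' s) (h0 : w s ≠ 0) :
    HasDerivAt (fun t => ‖w t‖) ⟪hat (w s), w'⟫ s := by
  have hr : 0 < ‖w s‖ := norm_pos_iff.2 h0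
  have h1 := h.norm_sq.sqrt (by positivity)
  have e1 : (fun t => √(‖w t‖ ^ 2)) = fun t => ‖w t‖ := by
    funext t
    exact Real.sqrt_sq (norm_nonneg _)
  rw [e1, Real.sqrt_sq (norm_nonneg _)] at h1
  refine h1.congr_deriv ?_
  rw [inner_eq_norm_mul_hat]
  field_simp

theorem hasDerivAt_GG {w u : ℝ → V3} {w' u' : V3} (e : V3) {s α β γ α' β' γ' : ℝ}
    (hw : HasDerivAt w w' s) (hu : HasDerivAt u u' s) (h0 : w s ≠ 0)
    (eα : ‖w s‖ - ⟪w s, e⟫ = α) (eβ : ‖w s‖ - ⟪w s, u s⟫ = β) (eγ : 1 - ⟪e, u s⟫ = γ)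
    (eα' : ⟪hat (w s), w'⟫ - ⟪w', e⟫ = α')
    (eβ' : ⟪hat (w s), w'⟫ - (⟪w s, u'⟫ + ⟪w', u s⟫) = β') (eγ' : -⟪e, u'⟫ = γ')
    (hα : α ≠ 0) (hβ : β ≠ 0) :
    HasDerivAt (fun t => GG e (w t) (u t))
      (-(β⁻¹ • u' + (-β' / β ^ 2) • u s) + ((γ / (α * β)) • w' +
        ((γ' * (α * β) - γ * (α' * β + α * β')) / (α * β) ^ 2) • w s)) s := by
  have hn := hasDerivAt_norm hw h0
  have h1 : HasDerivAt (fun t => ‖w t‖ - ⟪w t, e⟫) α' s := by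
    refine (hn.sub (hw.inner ℝ (hasDerivAt_const s e))).congr_deriv ?_
    rw [inner_zero_right, zero_add, eα']
  have h2 : HasDerivAt (fun t => ‖w t‖ - ⟪w t, u t⟫) β' s :=
    (hn.sub (hw.inner ℝ hu)).congr_deriv eβ'
  have h3 : HasDerivAt (fun t => 1 - ⟪e, u t⟫) γ' s := by
    refine (((hasDerivAt_const s e).inner ℝ hu).const_sub 1).congr_deriv ?_
    rw [inner_zero_left, add_zero, eγ']
  have h4 := ((h2.inv (by rw [eβ]; exact hβ)).smul hu).neg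
  have h5 := (h3.div (h1.mul h2) (by
    show (‖w s‖ - ⟪w s, e⟫) * (‖w s‖ - ⟪w s, u s⟫) ≠ 0
    rw [eα, eβ]; exact mul_ne_zero hα hβ)).smul hw
  refine (h4.add h5).congr_deriv ?_
  simp only [Pi.mul_apply, Pi.inv_apply, Pi.div_apply, eα, eβ, eγ]

theorem ident (n u U A : V3) {r a2 b2 g2 e2 c2 m2 γ N P : ℝ} (hr : r ≠ 0) (hb : b2 ≠ 0)
    (hg : g2 ≠ 0) :
    -((r * b2)⁻¹ • ((a2 / b2) • A) +
        (-(c2 - a2 / b2 * m2 - r * (a2 / b2 * N)) / (r * b2) ^ 2) • u) +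
      ((γ / (r * g2 * (r * b2))) • (U - (a2 / b2) • u) +
        ((-(a2 / b2 * P) * (r * g2 * (r * b2)) - γ * ((e2 - a2 / b2 * γ) * (r * b2) +
          r * g2 * (c2 - a2 / b2 * m2 - r * (a2 / b2 * N)))) / (r * g2 * (r * b2)) ^ 2) • r • n) =
    ((γ * a2 / g2 - c2) / (r * b2) + a2 * m2 / (r * b2 ^ 2)) •
        ((r * b2)⁻¹ • ((n - u) + ((γ - g2) / g2) • n)) +
      (γ / (r * g2 * (r * b2))) • (U - (e2 / g2) • n) +
      a2 • ((b2 ^ 3 * r)⁻¹ • (N • (n - u) - b2 • A)) +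
      ((b2 ^ 3 * r)⁻¹ * (N * (γ - g2) - b2 * P) * a2 / g2) • n := by
  match_scalars <;> field_simp <;> ring

theorem identG (n u : V3) {r b2 g2 γ : ℝ} (hr : r ≠ 0) (hb : b2 ≠ 0) (hg : g2 ≠ 0) :
    -((r * b2)⁻¹ • u) + (γ / (r * g2 * (r * b2))) • r • n =
      (r * b2)⁻¹ • ((n - u) + ((γ - g2) / g2) • n) := by
  match_scalars
  · field_simp
  · field_simp
    ring

theorem abs_inner_le {x y : V3} {a b : ℝ} (hx : ‖x‖ ≤ a) (hy : ‖y‖ ≤ b) : |⟪x, y⟫| ≤ a * b :=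
  (abs_real_inner_le_norm x y).trans (mul_le_mul hx hy (norm_nonneg _) ((norm_nonneg _).trans hx))

/-- the scalar estimates -/
theorem scal1 {a b g ε d x : ℝ} (hb : 0 < b) (hbg : 8 * b ≤ g) (hg : g ≤ 3 / 2) (hε : 16 * ε ≤ g)
    (ha : a ≤ g + ε) (ha0 : 0 < a) (hd : |d| ≤ 3 * g * b) (hx : x ≤ 3 / 2 * b + |d / g ^ 2|) :
    x ≤ 7 * b / a := by
  have hg0 : 0 < g := by linarith
  have h1 : |d / g ^ 2| ≤ 3 * b / g := by
    rw [abs_div, abs_of_pos (pow_pos hg0 2), div_le_div_iff₀ (pow_pos hg0 2) hg0]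
    calc |d| * g ≤ 3 * g * b * g := mul_le_mul_of_nonneg_right hd hg0.le
      _ = 3 * b * g ^ 2 := by ring
  have h2 : 3 / 2 * b ≤ 3 * b / g := by
    rw [le_div_iff₀ hg0]
    nlinarith only [hb, hg]
  have h3 : 6 * b / g ≤ 7 * b / a := by
    rw [div_le_div_iff₀ hg0 ha0]
    nlinarith only [hb, hε, ha, hg0]
  have h4 : 3 * b / g + 3 * b / g = 6 * b / g := by ring
  linarith

theorem scal2 {b g ε d y p : ℝ} (hb : 0 < b) (hg0 : 0 < g) (hε : 0 ≤ ε) (hd : |d| ≤ 3 * g * b)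
    (hy : |y| ≤ 3 * g * ε) (hp : |p| ≤ 3 / 2 * ε * (3 / 2 * b)) :
    |p + y * d / g ^ 2| ≤ 12 * ε * b := by
  have h1 : |y * d / g ^ 2| ≤ 9 * ε * b := by
    rw [abs_div, abs_of_pos (pow_pos hg0 2), div_le_iff₀ (pow_pos hg0 2), abs_mul]
    calc |y| * |d| ≤ 3 * g * ε * (3 * g * b) :=
          mul_le_mul hy hd (abs_nonneg _) (by positivity)
      _ = 9 * ε * b * g ^ 2 := by ring
  have h2 := abs_add_le p (y * d / g ^ 2)
  have h3 : 0 ≤ ε * b := by positivity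
  linarith

theorem scal3 {g ε S y p p' : ℝ} (hg0 : 0 < g) (hy : |y| ≤ 3 * g * ε)
    (hp : |p| ≤ 3 / 2 * ε * S) (hp' : |p'| ≤ 3 / 2 * g * S) : |p + p' * y / g ^ 2| ≤ 6 * ε * S := by
  have h1 : |p' * y / g ^ 2| ≤ 9 / 2 * ε * S := by
    rw [abs_div, abs_of_pos (pow_pos hg0 2), div_le_iff₀ (pow_pos hg0 2), abs_mul]
    calc |p'| * |y| ≤ 3 / 2 * g * S * (3 * g * ε) :=
          mul_le_mul hp' hy (abs_nonneg _) ((abs_nonneg _).trans hp')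
      _ = 9 / 2 * ε * S * g ^ 2 := by ring
  have h2 := abs_add_le p (p' * y / g ^ 2)
  linarith

theorem scal4 {a b r ε Q t : ℝ} (ha : 0 < a) (hb : 0 < b) (hr : 0 < r) (hQ : 0 < Q)
    (hεa : 15 * ε ≤ a) (ht : |t| ≤ 12 * ε * b) :
    |t / (r * b ^ 2) + a ^ 2 * (1 / Q ^ 2) / (r * (b ^ 2) ^ 2)| * (7 / (a * b * r)) ≤
      6 * (1 / (b ^ 2 * r ^ 2)) + 7 * ((a + b) / (Q ^ 2 * b ^ 5 * r ^ 2)) := by
  have h1 : |t / (r * b ^ 2) + a ^ 2 * (1 / Q ^ 2) / (r * (b ^ 2) ^ 2)| ≤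
      (4 / 5 * a * b) / (r * b ^ 2) + a ^ 2 * (1 / Q ^ 2) / (r * (b ^ 2) ^ 2) := by
    refine (abs_add_le _ _).trans (add_le_add ?_ (abs_of_nonneg (by positivity)).le)
    rw [abs_div, abs_of_pos (by positivity : 0 < r * b ^ 2)]
    refine div_le_div_of_nonneg_right (ht.trans ?_) (by positivity)
    nlinarith only [hεa, hb]
  refine (mul_le_mul_of_nonneg_right h1 (by positivity)).trans ?_
  have e1 : ((4 / 5 * a * b) / (r * b ^ 2) + a ^ 2 * (1 / Q ^ 2) / (r * (b ^ 2) ^ 2)) *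
      (7 / (a * b * r)) = 28 / 5 * (1 / (b ^ 2 * r ^ 2)) + 7 * (a / (Q ^ 2 * b ^ 5 * r ^ 2)) := by
    field_simp
    ring
  rw [e1]
  have h2 : a / (Q ^ 2 * b ^ 5 * r ^ 2) ≤ (a + b) / (Q ^ 2 * b ^ 5 * r ^ 2) :=
    div_le_div_of_nonneg_right (by linarith) (by positivity)
  have h3 : 0 < 1 / (b ^ 2 * r ^ 2) := by positivity
  linarith

theorem scal5 {b g r γ : ℝ} (hb : 0 < b) (hg : 0 < g) (hr : 0 < r) (h0 : 0 ≤ γ)
    (h1 : γ ≤ 2 * g ^ 2) : |γ / (r * g ^ 2 * (r * b ^ 2))| * 2 ≤ 4 * (1 / (b ^ 2 * r ^ 2)) := by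
  rw [abs_of_nonneg (by positivity)]
  have h2 : γ / (r * g ^ 2 * (r * b ^ 2)) ≤ 2 * g ^ 2 / (r * g ^ 2 * (r * b ^ 2)) :=
    div_le_div_of_nonneg_right h1 (by positivity)
  have e1 : 2 * g ^ 2 / (r * g ^ 2 * (r * b ^ 2)) = 2 * (1 / (b ^ 2 * r ^ 2)) := by
    field_simp
  linarith

end A3aX

open A3aX in
theorem a3a (h1 : A1) (h2 : A2) : A3a := by
  have _ := h1
  obtain ⟨C, hC, h2⟩ := h2
  refine ⟨10 + 6 * C, by positivity, ?_⟩
  intro e U v k ε s w u he hU hε h0 hus hεg hbg hw hu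
  obtain ⟨hlor, hnES, hES, -, -⟩ := h2 U (w s) v k hU h0
  have hn : ‖hat (w s)‖ = 1 := norm_hat h0
  have hr : 0 < ‖w s‖ := norm_pos_iff.2 h0
  have hwn := norm_smul_hat (w s)
  have hα := norm_sub_inner (w s) e he.le
  have hβ := norm_sub_inner (w s) (uu v) (norm_uu_le v)
  have hN := inner_eq_norm_mul_hat (w s) (sgp U (w s) v • acc v k)
  have hD := hasDerivAt_GG e hw hu h0 hα ((congrArg (fun x => ‖w s‖ - ⟪w s, x⟫) hus).trans hβ)
    (γ := 1 - ⟪e, uu v⟫)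
    (by rw [hus]) rfl rfl rfl
  have hb2 := b2_eq (w s) v
  unfold GG kT kS
  unfold ES at hnES hES ⊢
  unfold sgp at hN hD
  unfold GG at hD
  rw [hb2] at hnES hES ⊢
  rw [hus] at hD ⊢
  rw [hα, hβ, hlor]
  rw [hN] at hD
  generalize hat (w s) = n at *
  generalize ‖w s‖ = r at *
  have hu1 := norm_uu_le v
  have hb := dd_uu_pos hn.le v
  have hκ := kap_nonneg n v k
  have hq := q_pos v
  have hm : ⟪uu v, uu v⟫ = 1 - 1 / q v ^ 2 := by rw [real_inner_self_eq_norm_sq, norm_uu_sq]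
  generalize uu v = u₀ at *
  generalize acc v k = A at *
  generalize kap n v k = κ at *
  generalize q v = Q at *
  have ea := dd_sq hn.le hU
  have eb := dd_sq hn.le hu1
  have eg := dd_sq hn.le he.le
  have ee := dd_sq hU he.le
  have eγ := dd_sq he.le hu1
  have t1 := dd_tri hn.le he.le hU
  have t2 := dd_tri hn.le hU he.le
  rw [dd_comm e U] at t1
  have n1 := norm_sub_le_dd hn.le hu1
  have n2 := norm_sub_le_dd he.le hn.le
  have n3 := norm_sub_le_dd he.le hU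
  rw [dd_comm e n] at n2
  rw [dd_comm e U] at n3
  have g32 := dd_le_three_halves hn.le he.le
  have hε0 := dd_nonneg U e
  have hγ0 : 0 ≤ 1 - ⟪e, u₀⟫ := by rw [← eγ]; positivity
  generalize dd n U = a at *
  generalize dd n u₀ = b at *
  generalize dd n e = g at *
  generalize dd U e = ε' at *
  have hg : 0 < g := by linarith
  have ha : 0 < a := by linarith
  have hε1 : 0 ≤ ε := hε0.trans hε
  have hεa : 15 * ε ≤ a := by linarith
  have n3' : ‖e - U‖ ≤ 3 / 2 * ε := by linarith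
  have hnn : ⟪n, n⟫ = 1 := by rw [real_inner_self_eq_norm_sq, hn]; norm_num
  have hen : ⟪e, n⟫ = 1 - g ^ 2 := by rw [real_inner_comm]; linarith
  have hUn : ⟪U, n⟫ = 1 - a ^ 2 := by rw [real_inner_comm]; linarith
  have hd : |1 - ⟪e, u₀⟫ - g ^ 2| ≤ 3 * g * b := by
    have a1 := abs_inner_le n2 n1
    have a2 : 1 - ⟪e, u₀⟫ - g ^ 2 = ⟪e - n, n - u₀⟫ + b ^ 2 := by
      rw [inner_sub_left, inner_sub_right, inner_sub_right, hen, hnn]
      linarith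
    have a3 := abs_add_le ⟪e - n, n - u₀⟫ (b ^ 2)
    rw [abs_of_pos (pow_pos hb 2)] at a3
    rw [a2]
    nlinarith only [a1, a3, hb, hbg]
  have hy : |a ^ 2 - g ^ 2| ≤ 3 * g * ε := by
    rw [abs_le]
    constructor
    · nlinarith only [t1, t2, hε, hεg, hg, ha, hε1]
    · nlinarith only [t1, t2, hε, hεg, hg, ha, hε1]
  have hX : ‖(n - u₀) + ((1 - ⟪e, u₀⟫ - g ^ 2) / g ^ 2) • n‖ ≤ 7 * b / a := by
    refine scal1 hb hbg g32 hεg (by linarith) ha hd ((norm_add_le _ _).trans (add_le_add n1 ?_))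
    rw [norm_smul, hn, mul_one, Real.norm_eq_abs]
  have hG : ‖(r * b ^ 2)⁻¹ • ((n - u₀) + ((1 - ⟪e, u₀⟫ - g ^ 2) / g ^ 2) • n)‖ ≤
      7 / (a * b * r) := by
    rw [norm_smul, Real.norm_of_nonneg (by positivity)]
    refine (mul_le_mul_of_nonneg_left hX (by positivity)).trans (le_of_eq ?_)
    field_simp
  have hb' : b ^ 2 ≠ 0 := by positivity
  have hg' : g ^ 2 ≠ 0 := by positivity
  refine ⟨?_, _, hD (by positivity) (by positivity), ?_⟩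
  · rw [← hwn, identG n u₀ hr.ne' hb' hg']
    exact hG.trans (div_le_div_of_nonneg_right (by linarith) (by positivity))
  have e1 : ⟪n, U - (a ^ 2 / b ^ 2) • u₀⟫ - ⟪U - (a ^ 2 / b ^ 2) • u₀, e⟫ =
      ε' ^ 2 - a ^ 2 / b ^ 2 * (1 - ⟪e, u₀⟫) := by
    rw [inner_sub_right, inner_sub_left, real_inner_smul_right, real_inner_smul_left,
      real_inner_comm e u₀]
    have b1 : ⟪n, u₀⟫ = 1 - b ^ 2 := by linarith
    have b2 : ⟪n, U⟫ = 1 - a ^ 2 := by linarith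
    have b3 : ⟪U, e⟫ = 1 - ε' ^ 2 := by linarith
    rw [b1, b2, b3]
    field_simp
    ring
  have e2 : ⟪n, U - (a ^ 2 / b ^ 2) • u₀⟫ - (r * ⟪n, (a ^ 2 / b ^ 2) • A⟫ +
      ⟪U - (a ^ 2 / b ^ 2) • u₀, u₀⟫) = (1 - ⟪U, u₀⟫) - a ^ 2 / b ^ 2 * (1 / Q ^ 2) -
        r * (a ^ 2 / b ^ 2 * ⟪n, A⟫) := by
    rw [inner_sub_right, inner_sub_left, real_inner_smul_right, real_inner_smul_left,
      real_inner_smul_right, hm]
    have b1 : ⟪n, u₀⟫ = 1 - b ^ 2 := by linarith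
    have b2 : ⟪n, U⟫ = 1 - a ^ 2 := by linarith
    rw [b1, b2]
    field_simp
    ring
  have e3 : ⟪e, (a ^ 2 / b ^ 2) • A⟫ = a ^ 2 / b ^ 2 * ⟪e, A⟫ := real_inner_smul_right _ _ _
  rw [e1, e2, e3, ← hwn, ident n u₀ U A hr.ne' hb' hg']
  have e4 : ((b ^ 2) ^ 3 * r)⁻¹ * (⟪n, A⟫ * (1 - ⟪e, u₀⟫ - g ^ 2) - b ^ 2 * ⟪e, A⟫) =
      ⟪e, ((b ^ 2) ^ 3 * r)⁻¹ • (⟪n, A⟫ • (n - u₀) - b ^ 2 • A)⟫ := by
    rw [real_inner_smul_right, inner_sub_right, real_inner_smul_right, real_inner_smul_right,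
      inner_sub_right, hen]
    ring
  rw [e4]
  generalize ((b ^ 2) ^ 3 * r)⁻¹ • (⟪n, A⟫ • (n - u₀) - b ^ 2 • A) = S at *
  generalize (r * b ^ 2)⁻¹ • ((n - u₀) + ((1 - ⟪e, u₀⟫ - g ^ 2) / g ^ 2) • n) = G at *
  have e5 : (1 - ⟪e, u₀⟫) * a ^ 2 / g ^ 2 - (1 - ⟪U, u₀⟫) =
      ⟪e - U, n - u₀⟫ + (a ^ 2 - g ^ 2) * (1 - ⟪e, u₀⟫ - g ^ 2) / g ^ 2 := by
    rw [inner_sub_left, inner_sub_right, inner_sub_right, hen, hUn]
    field_simp
    ring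
  have e6 : ∀ (c₁ c₂ : ℝ) (Y : V3), c₁ • G + c₂ • Y + a ^ 2 • S + (⟪e, S⟫ * a ^ 2 / g ^ 2) • n -
      (a ^ 2 • S + ⟪U, S⟫ • n) = c₁ • G + c₂ • Y +
        (⟪e - U, S⟫ + ⟪e - n, S⟫ * (a ^ 2 - g ^ 2) / g ^ 2) • n := by
    intro c₁ c₂ Y
    rw [inner_sub_left, inner_sub_left, hnES]
    match_scalars
    · rfl
    · rfl
    · ring
    · field_simp
      ring
  rw [e5, e6]
  have s1 := scal4 ha hb hr hq hεa (scal2 hb hg hε1 hd hy (abs_inner_le n3' n1))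
  have s2 := scal5 hb hg hr hγ0 (by nlinarith only [(abs_le.1 hd).2, hbg, hg])
  have s3 := scal3 hg hy (abs_inner_le n3' (le_refl ‖S‖)) (abs_inner_le n2 (le_refl ‖S‖))
  have hY : ‖U - (ε' ^ 2 / g ^ 2) • n‖ ≤ 2 := by
    refine (norm_sub_le _ _).trans ?_
    rw [norm_smul, hn, mul_one, Real.norm_of_nonneg (by positivity)]
    have : ε' ^ 2 / g ^ 2 ≤ 1 := by
      rw [div_le_one (by positivity)]
      exact pow_le_pow_left₀ hε0 (by linarith) 2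
    linarith
  have s4 : 6 * ε * ‖S‖ ≤ 6 * C * (ε / a * (a * κ / (Q * b ^ 4 * r))) := by
    refine (mul_le_mul_of_nonneg_left hES (by positivity)).trans (le_of_eq ?_)
    field_simp
  refine ((norm_add_le _ _).trans (add_le_add (norm_add_le _ _) le_rfl)).trans ?_
  rw [norm_smul, norm_smul, norm_smul, hn, mul_one, Real.norm_eq_abs, Real.norm_eq_abs,
    Real.norm_eq_abs]
  have s5 := (mul_le_mul_of_nonneg_left hG (abs_nonneg _)).trans s1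
  have s6 := (mul_le_mul_of_nonneg_left hY (abs_nonneg _)).trans s2
  have p1 : 0 ≤ (a + b) / (Q ^ 2 * b ^ 5 * r ^ 2) := by positivity
  have p2 : 0 ≤ 1 / (b ^ 2 * r ^ 2) := by positivity
  have p3 : 0 ≤ ε / a * (a * κ / (Q * b ^ 4 * r)) := by positivity
  have p4 := mul_nonneg hC.le p1
  have p5 := mul_nonneg hC.le p2
  nlinarith only [s3, s4, s5, s6, p1, p2, p3, p4, p5]

end Vale.Agent.P107
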