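import Vale.Agent.P107.Basic

/-! Problem P107: derivative of the cutoff variable along the test particle. -/

open MeasureTheory Set Filter Topology
open scoped ENNReal RealInnerProductSpace

noncomputable section
namespace Vale.Agent.P107

namespace A3bX

theorem hasDerivAt_norm' {w : ℝ → V3} {w' : V3} {s : ℝ} (h : HasDerivAt w w' s) (h0 : w s ≠ 0) :
    HasDerivAt (fun t => ‖w t‖) ⟪hat (w s), w'⟫ s := by
  have hr : 0 < ‖w s‖ := norm_pos_iff.2 h0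
  have h1 : HasDerivAt (fun t => ‖w t‖ ^ 2) (2 * ⟪w s, w'⟫) s := h.norm_sq
  have h2 := h1.sqrt (by positivity)
  have e : (fun t => √(‖w t‖ ^ 2)) = fun t => ‖w t‖ := by
    funext t; exact Real.sqrt_sq (norm_nonneg _)
  rw [e] at h2
  have e2 : 2 * ⟪w s, w'⟫ / (2 * √(‖w s‖ ^ 2)) = ⟪hat (w s), w'⟫ := by
    rw [Real.sqrt_sq (norm_nonneg _), inner_eq_norm_mul_hat]; field_simp
  rwa [e2] at h2

theorem lp1 {a b A c g E : ℝ} (hb : 0 < b) (hA : 0 < A) (ha : 0 ≤ a) (hc : 0 ≤ c) (hg : 0 ≤ g)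
    (hE : 0 ≤ E) (k1 : E ≤ A) (k2 : b ≤ A) (k3 : a ≤ 17 / 16 * A) (k4 : g ≤ 9 / 8 * A)
    (k5 : c ≤ 5 / 4 * A) :
    |E ^ 2 * b ^ 2 - a ^ 2 * g ^ 2 - A ^ 2 * c ^ 2| ≤ 4 * A ^ 4 := by
  have e1 : E ^ 2 * b ^ 2 ≤ A ^ 2 * A ^ 2 := by gcongr
  have e2 : a ^ 2 * g ^ 2 ≤ (17 / 16 * A) ^ 2 * (9 / 8 * A) ^ 2 := by gcongr
  have e3 : A ^ 2 * c ^ 2 ≤ A ^ 2 * (5 / 4 * A) ^ 2 := by gcongr
  have e4 : 0 ≤ E ^ 2 * b ^ 2 := by positivity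
  have e5 : 0 ≤ a ^ 2 * g ^ 2 := by positivity
  have e6 : 0 ≤ A ^ 2 * c ^ 2 := by positivity
  have e7 : 0 ≤ A ^ 4 := by positivity
  have f1 : A ^ 2 * A ^ 2 = A ^ 4 := by ring
  have f2 : (17 / 16 * A) ^ 2 * (9 / 8 * A) ^ 2 = 23409 / 16384 * A ^ 4 := by ring
  have f3 : A ^ 2 * (5 / 4 * A) ^ 2 = 25 / 16 * A ^ 4 := by ring
  rw [abs_le]; constructor <;> linarith

theorem lp4 {a b A g E : ℝ} (hb : 0 < b) (hA : 0 < A) (hg : 0 ≤ g)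
    (hE : 0 ≤ E) (k1 : E ≤ A) (k2 : b ≤ A) (t4 : g ≤ A + b) (t5 : A ≤ g + b) :
    |E ^ 2 - A ^ 2 - a ^ 2 / b ^ 2 * (g ^ 2 - A ^ 2)| ≤ A ^ 2 + 3 * A * (a ^ 2 / b) := by
  have e1 : |g ^ 2 - A ^ 2| ≤ 3 * A * b := by
    have f : g ^ 2 - A ^ 2 = (g - A) * (g + A) := by ring
    rw [f, abs_mul, abs_of_nonneg (by positivity : 0 ≤ g + A)]
    have f2 : |g - A| ≤ b := abs_le.2 ⟨by linarith, by linarith⟩
    calc |g - A| * (g + A) ≤ b * (3 * A) := by gcongr; linarith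
      _ = _ := by ring
  have e2 : |a ^ 2 / b ^ 2 * (g ^ 2 - A ^ 2)| ≤ 3 * A * (a ^ 2 / b) := by
    rw [abs_mul, abs_of_nonneg (by positivity : 0 ≤ a ^ 2 / b ^ 2)]
    calc a ^ 2 / b ^ 2 * |g ^ 2 - A ^ 2| ≤ a ^ 2 / b ^ 2 * (3 * A * b) := by gcongr
      _ = 3 * A * (a ^ 2 / b) := by field_simp
  have e3 : |E ^ 2 - A ^ 2| ≤ A ^ 2 := by
    have : E ^ 2 ≤ A ^ 2 := by gcongr
    have : 0 ≤ E ^ 2 := by positivity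
    rw [abs_le]; constructor <;> linarith
  exact (abs_sub _ _).trans (add_le_add e3 e2)

theorem lq1 {r d δ A : ℝ} (hr : 0 < r) (hd : 0 < d) (hδ : 0 < δ) (h2 : δ ^ 2 * A ^ 2 ≤ 2 * d) :
    δ ^ 2 / (r * d ^ 2) * (4 * A ^ 4) ≤ 16 / (δ ^ 2 * r) := by
  rw [div_mul_eq_mul_div, div_le_div_iff₀ (by positivity) (by positivity)]
  have : (δ ^ 2 * A ^ 2) ^ 2 ≤ (2 * d) ^ 2 := pow_le_pow_left₀ (by positivity) h2 2
  calc _ = 4 * r * (δ ^ 2 * A ^ 2) ^ 2 := by ring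
    _ ≤ 4 * r * (2 * d) ^ 2 := by gcongr
    _ = _ := by ring

theorem lq0 {r d δ A x y : ℝ} (hr : 0 < r) (hd : 0 < d) (_hx : 0 < x) (hy : 0 ≤ y)
    (h2 : δ ^ 2 * x ≤ 2 * d) (h3 : y ≤ d) (hA : A = x * y) (z : ℝ) (hz : 0 < z) (hz' : z * y = A) :
    δ ^ 2 / (r * d ^ 2) * y ≤ 2 / (r * z) := by
  rw [div_mul_eq_mul_div, div_le_div_iff₀ (by positivity) (by positivity)]
  have : δ ^ 2 * x * y ≤ 2 * d * d := mul_le_mul h2 h3 hy (by positivity)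
  calc _ = r * (δ ^ 2 * (z * y)) := by ring
    _ = r * (δ ^ 2 * x * y) := by rw [hz', hA]; ring
    _ ≤ r * (2 * d * d) := by gcongr
    _ = _ := by ring

theorem lq0' {r d δ A b : ℝ} (hr : 0 < r) (hd : 0 < d) (hb : 0 < b)
    (h2 : δ ^ 2 * A ^ 2 ≤ 2 * d) (h3 : b ^ 2 ≤ d) :
    δ ^ 2 / (r * d ^ 2) * A ^ 2 ≤ 2 / (r * b ^ 2) := by
  rw [div_mul_eq_mul_div, div_le_div_iff₀ (by positivity) (by positivity)]
  have : δ ^ 2 * A ^ 2 * b ^ 2 ≤ 2 * d * d := mul_le_mul h2 h3 (by positivity) (by positivity)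
  calc _ = r * (δ ^ 2 * A ^ 2 * b ^ 2) := by ring
    _ ≤ r * (2 * d * d) := by gcongr
    _ = _ := by ring

theorem lq4 {r d δ A a b a₀ : ℝ} (hr : 0 < r) (hd : 0 < d) (hb : 0 < b) (hA : 0 < A) (ha : 0 ≤ a)
    (hδ : 0 < δ) (hδ1 : δ ≤ 1) (h2 : δ ^ 2 * A ^ 2 ≤ 2 * d) (h3 : δ ^ 2 * a₀ ^ 2 ≤ d)
    (k3 : a ≤ 17 / 16 * A) :
    δ ^ 2 / (r * d ^ 2) * (δ ^ 2 * a₀ ^ 2 * (A ^ 2 + 3 * A * (a ^ 2 / b))) ≤
      2 / (δ ^ 2 * r) + 7 * a / (b * r) := by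
  have e1 : δ ^ 2 / (r * d ^ 2) * (δ ^ 2 * a₀ ^ 2) ≤ 2 / (r * A ^ 2) :=
    lq0 hr hd (by positivity) (by positivity) h2 h3 rfl _ (by positivity) rfl
  have e2 : 2 / r ≤ 2 / (δ ^ 2 * r) := by
    apply div_le_div_of_nonneg_left (by norm_num) (by positivity)
    have : δ ^ 2 ≤ 1 := pow_le_one₀ hδ.le hδ1
    exact mul_le_of_le_one_left hr.le this
  have e3 : 6 * a ^ 2 / (r * A * b) ≤ 7 * a / (b * r) := by
    rw [div_le_div_iff₀ (by positivity) (by positivity)]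
    calc _ = a * b * r * (6 * a) := by ring
      _ ≤ a * b * r * (7 * A) := by gcongr a * b * r * ?_; linarith
      _ = _ := by ring
  calc _ = δ ^ 2 / (r * d ^ 2) * (δ ^ 2 * a₀ ^ 2) * (A ^ 2 + 3 * A * (a ^ 2 / b)) := by ring
    _ ≤ 2 / (r * A ^ 2) * (A ^ 2 + 3 * A * (a ^ 2 / b)) := by gcongr
    _ = 2 / r + 6 * a ^ 2 / (r * A * b) := by field_simp; ring
    _ ≤ _ := add_le_add e2 e3

theorem lfin {r a b m κ δ C : ℝ} (hr : 0 < r) (hb : 0 < b) (ha : 0 < a) (hδ : 0 < δ)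
    (hm : 0 ≤ m) (hκ : 0 ≤ κ) (hC : 0 ≤ C) :
    16 / (δ ^ 2 * r) + 2 * a ^ 2 * m / (r * b ^ 4) + 2 * C * a ^ 2 * κ / b ^ 3
        + (2 / (δ ^ 2 * r) + 7 * a / (b * r)) ≤
      (100 + 2 * C) * ((a + b) * m / (b ^ 5 * r ^ 2)
        + (1 / b ^ 2 + 1 / (δ ^ 2 * a * b)) / r ^ 2 + a * κ / (b ^ 4 * r)) * (a * b * r) := by
  obtain ⟨x1, hx1⟩ : ∃ x, x = 1 / (δ ^ 2 * r) := ⟨_, rfl⟩
  obtain ⟨x2, hx2⟩ : ∃ x, x = a ^ 2 * m / (r * b ^ 4) := ⟨_, rfl⟩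
  obtain ⟨x3, hx3⟩ : ∃ x, x = a ^ 2 * κ / b ^ 3 := ⟨_, rfl⟩
  obtain ⟨x4, hx4⟩ : ∃ x, x = a / (b * r) := ⟨_, rfl⟩
  obtain ⟨x5, hx5⟩ : ∃ x, x = a * m / (r * b ^ 3) := ⟨_, rfl⟩
  have y1 : 0 ≤ x1 := by rw [hx1]; positivity
  have y2 : 0 ≤ x2 := by rw [hx2]; positivity
  have y3 : 0 ≤ x3 := by rw [hx3]; positivity
  have y4 : 0 ≤ x4 := by rw [hx4]; positivity
  have y5 : 0 ≤ x5 := by rw [hx5]; positivity
  have eL : 16 / (δ ^ 2 * r) + 2 * a ^ 2 * m / (r * b ^ 4) + 2 * C * a ^ 2 * κ / b ^ 3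
      + (2 / (δ ^ 2 * r) + 7 * a / (b * r)) = 18 * x1 + 2 * x2 + 2 * C * x3 + 7 * x4 := by
    rw [hx1, hx2, hx3, hx4]; field_simp; ring
  have eR : ((a + b) * m / (b ^ 5 * r ^ 2)
      + (1 / b ^ 2 + 1 / (δ ^ 2 * a * b)) / r ^ 2 + a * κ / (b ^ 4 * r)) * (a * b * r)
      = x1 + x2 + x3 + x4 + x5 := by
    rw [hx1, hx2, hx3, hx4, hx5]; field_simp; ring
  rw [eL, mul_assoc (100 + 2 * C), eR]
  nlinarith [mul_nonneg hC y1, mul_nonneg hC y2, mul_nonneg hC y4, mul_nonneg hC y5]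

/-- the scalar estimate -/
theorem scal {r a b A c g E m ν κ δ a₀ C : ℝ} (hr : 0 < r) (hb : 0 < b) (hδ : 0 < δ)
    (hδ1 : δ ≤ 1 / 8) (ha₀ : 0 < a₀) (hA : 0 ≤ A) (ha : 0 ≤ a) (hc : 0 ≤ c) (hg : 0 ≤ g)
    (hE : 0 ≤ E) (hm : 0 ≤ m) (hκ : 0 ≤ κ) (hC : 0 ≤ C) (hEa : 16 * E ≤ a₀)
    (t1 : a ≤ A + E) (t2 : A ≤ a + E) (t3 : c ≤ a + b) (t4 : g ≤ A + b) (t5 : A ≤ g + b)
    (hν : |ν| ≤ C * b * κ)
    (h1 : b ^ 2 + δ ^ 2 * a₀ ^ 2 ≤ δ ^ 2 * A ^ 2)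
    (h2 : δ ^ 2 * A ^ 2 ≤ 2 * (b ^ 2 + δ ^ 2 * a₀ ^ 2)) :
    |δ ^ 2 / (r * (b ^ 2 + δ ^ 2 * a₀ ^ 2) ^ 2) *
      ((E ^ 2 * b ^ 2 - a ^ 2 * g ^ 2 - A ^ 2 * c ^ 2) + A ^ 2 * (a ^ 2 / b ^ 2) * m
        + A ^ 2 * r * (a ^ 2 / b ^ 2) * ν
        + δ ^ 2 * a₀ ^ 2 * (E ^ 2 - A ^ 2 - a ^ 2 / b ^ 2 * (g ^ 2 - A ^ 2)))| / (a * b * r) ≤
      (100 + 2 * C) * ((a + b) * m / (b ^ 5 * r ^ 2)
        + (1 / b ^ 2 + 1 / (δ ^ 2 * a * b)) / r ^ 2 + a * κ / (b ^ 4 * r)) := by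
  have hδ2 : 0 < δ ^ 2 := by positivity
  have hbA : b ≤ δ * A := by
    apply le_of_sq_le_sq _ (by positivity)
    rw [mul_pow]; nlinarith [mul_pos hδ2 (pow_pos ha₀ 2)]
  have haA : a₀ ≤ A := by
    apply le_of_sq_le_sq _ hA
    have : δ ^ 2 * a₀ ^ 2 ≤ δ ^ 2 * A ^ 2 := by nlinarith [sq_nonneg b]
    exact le_of_mul_le_mul_left this hδ2
  have hA0 : 0 < A := lt_of_lt_of_le ha₀ haA
  have hb8 : 8 * b ≤ A := by nlinarith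
  have hE16 : 16 * E ≤ A := hEa.trans haA
  have ha0 : 0 < a := by linarith
  have haA2 : a ≤ 17 / 16 * A := by linarith
  have hAa2 : A ≤ 16 / 15 * a := by linarith
  obtain ⟨d, hd⟩ : ∃ d, d = b ^ 2 + δ ^ 2 * a₀ ^ 2 := ⟨_, rfl⟩
  rw [← hd] at h1 h2 ⊢
  have hd0 : 0 < d := by rw [hd]; positivity
  have hdb : b ^ 2 ≤ d := by rw [hd]; nlinarith [mul_pos hδ2 (pow_pos ha₀ 2)]
  have hda : δ ^ 2 * a₀ ^ 2 ≤ d := by rw [hd]; nlinarith [sq_nonneg b]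
  have hk : 0 < δ ^ 2 / (r * d ^ 2) := by positivity
  -- four pieces
  have p1 := lp1 hb hA0 ha hc hg hE (by linarith) (by linarith) haA2 (by linarith) (by linarith)
  have p4 := lp4 (a := a) hb hA0 hg hE (by linarith) (by linarith) t4 t5
  have q1 := lq1 hr hd0 hδ h2
  have q0 := lq0' hr hd0 hb h2 hdb
  have q2 : δ ^ 2 / (r * d ^ 2) * (A ^ 2 * (a ^ 2 / b ^ 2) * m) ≤ 2 * a ^ 2 * m / (r * b ^ 4) := by
    calc _ = δ ^ 2 / (r * d ^ 2) * A ^ 2 * (a ^ 2 / b ^ 2 * m) := by ring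
      _ ≤ 2 / (r * b ^ 2) * (a ^ 2 / b ^ 2 * m) := by gcongr
      _ = _ := by field_simp
  have q3 : δ ^ 2 / (r * d ^ 2) * |A ^ 2 * r * (a ^ 2 / b ^ 2) * ν| ≤
      2 * C * a ^ 2 * κ / b ^ 3 := by
    rw [abs_mul, abs_of_nonneg (by positivity : 0 ≤ A ^ 2 * r * (a ^ 2 / b ^ 2))]
    calc _ = δ ^ 2 / (r * d ^ 2) * A ^ 2 * (r * (a ^ 2 / b ^ 2) * |ν|) := by ring
      _ ≤ 2 / (r * b ^ 2) * (r * (a ^ 2 / b ^ 2) * (C * b * κ)) := by gcongr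
      _ = _ := by field_simp
  have q4 := lq4 hr hd0 hb hA0 ha hδ (by linarith) h2 hda haA2
  have tot : |δ ^ 2 / (r * d ^ 2) *
      ((E ^ 2 * b ^ 2 - a ^ 2 * g ^ 2 - A ^ 2 * c ^ 2) + A ^ 2 * (a ^ 2 / b ^ 2) * m
        + A ^ 2 * r * (a ^ 2 / b ^ 2) * ν
        + δ ^ 2 * a₀ ^ 2 * (E ^ 2 - A ^ 2 - a ^ 2 / b ^ 2 * (g ^ 2 - A ^ 2)))| ≤
      16 / (δ ^ 2 * r) + 2 * a ^ 2 * m / (r * b ^ 4) + 2 * C * a ^ 2 * κ / b ^ 3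
        + (2 / (δ ^ 2 * r) + 7 * a / (b * r)) := by
    rw [abs_mul, abs_of_pos hk]
    have e1 : |(E ^ 2 * b ^ 2 - a ^ 2 * g ^ 2 - A ^ 2 * c ^ 2) + A ^ 2 * (a ^ 2 / b ^ 2) * m
        + A ^ 2 * r * (a ^ 2 / b ^ 2) * ν
        + δ ^ 2 * a₀ ^ 2 * (E ^ 2 - A ^ 2 - a ^ 2 / b ^ 2 * (g ^ 2 - A ^ 2))| ≤
        4 * A ^ 4 + A ^ 2 * (a ^ 2 / b ^ 2) * m + |A ^ 2 * r * (a ^ 2 / b ^ 2) * ν|
          + δ ^ 2 * a₀ ^ 2 * (A ^ 2 + 3 * A * (a ^ 2 / b)) := by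
      refine (abs_add_le _ _).trans (add_le_add ((abs_add_le _ _).trans (add_le_add
        ((abs_add_le _ _).trans (add_le_add p1 ?_)) le_rfl)) ?_)
      · exact (abs_of_nonneg (by positivity)).le
      · rw [abs_mul, abs_of_nonneg (by positivity : 0 ≤ δ ^ 2 * a₀ ^ 2)]; gcongr
    calc _ ≤ δ ^ 2 / (r * d ^ 2) * (4 * A ^ 4 + A ^ 2 * (a ^ 2 / b ^ 2) * m
          + |A ^ 2 * r * (a ^ 2 / b ^ 2) * ν|
          + δ ^ 2 * a₀ ^ 2 * (A ^ 2 + 3 * A * (a ^ 2 / b))) := by gcongr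
      _ ≤ _ := by rw [mul_add, mul_add, mul_add]; linarith
  rw [div_le_iff₀ (by positivity)]
  exact tot.trans (lfin hr hb ha0 hδ hm hκ hC)

end A3bX

open A3bX in
theorem a3b (h1 : A1) : A3b := by
  obtain ⟨C, hC, h1⟩ := h1
  refine ⟨100 + 2 * C, by positivity, ?_⟩
  intro e U v k δ a₀ ε s w u he hU hε hw hu hδ hδ1 ha₀ hεa dw du
  have hn : ‖hat (w s)‖ = 1 := norm_hat hw
  have hr : 0 < ‖w s‖ := norm_pos_iff.2 hw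
  have huu := norm_uu_le v
  have hb := dd_uu_pos hn.le v
  have hq := q_pos v
  have dr := hasDerivAt_norm' dw hw
  have dα := (dr.sub (dw.inner ℝ (hasDerivAt_const s e))).const_mul (δ ^ 2)
  have dβ := (dr.sub (dw.inner ℝ du)).add (dr.const_mul (δ ^ 2 * a₀ ^ 2))
  have eα := norm_sub_inner (w s) e he.le
  have eβ := norm_sub_inner (w s) (uu v) huu
  have hden : ‖w s‖ - ⟪w s, u s⟫ + δ ^ 2 * a₀ ^ 2 * ‖w s‖
      = ‖w s‖ * (dd (hat (w s)) (uu v) ^ 2 + δ ^ 2 * a₀ ^ 2) := by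
    rw [hu, eβ]; ring
  have hd0 : 0 < dd (hat (w s)) (uu v) ^ 2 + δ ^ 2 * a₀ ^ 2 := by positivity
  have dv := dα.div dβ (by
    show ‖w s‖ - ⟪w s, u s⟫ + δ ^ 2 * a₀ ^ 2 * ‖w s‖ ≠ 0
    rw [hden]; positivity)
  refine ⟨_, dv, ?_⟩
  intro l1 l2
  have evs : vs δ a₀ e (w s) (u s) = δ ^ 2 * dd (hat (w s)) e ^ 2 /
      (dd (hat (w s)) (uu v) ^ 2 + δ ^ 2 * a₀ ^ 2) := by
    unfold vs; rw [hden, eα]; field_simp
  rw [evs, one_le_div hd0] at l1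
  rw [evs, div_le_iff₀ hd0] at l2
  have key := scal (r := ‖w s‖) (a := dd (hat (w s)) U) (b := dd (hat (w s)) (uu v))
    (A := dd (hat (w s)) e) (c := dd U (uu v)) (g := dd e (uu v)) (E := dd U e)
    (m := 1 / q v ^ 2) (ν := ⟪hat (w s), acc v k⟫) (κ := kap (hat (w s)) v k / q v)
    (δ := δ) (a₀ := a₀) (C := C) hr hb hδ hδ1 ha₀ (dd_nonneg _ _) (dd_nonneg _ _)
    (dd_nonneg _ _) (dd_nonneg _ _) (dd_nonneg _ _) (by positivity)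
    (div_nonneg (kap_nonneg _ _ _) hq.le) hC.le (by linarith)
    (by have := dd_tri hn.le he.le hU; rwa [dd_comm e U] at this)
    (dd_tri hn.le hU he.le)
    (by have := dd_tri hU hn.le huu; rwa [dd_comm U (hat (w s))] at this)
    (by have := dd_tri he.le hn.le huu; rwa [dd_comm e (hat (w s))] at this)
    (by have := dd_tri hn.le huu he.le; rw [dd_comm (uu v) e] at this; linarith)
    (by rw [← mul_div_assoc]; exact (h1 _ v k hn).2) l1 l2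
  have i1 : ⟪hat (w s), U⟫ = 1 - dd (hat (w s)) U ^ 2 := by rw [dd_sq hn.le hU]; ring
  have i2 : ⟪hat (w s), uu v⟫ = 1 - dd (hat (w s)) (uu v) ^ 2 := by rw [dd_sq hn.le huu]; ring
  have i3 : ⟪U, e⟫ = 1 - dd U e ^ 2 := by rw [dd_sq hU he.le]; ring
  have i4 : ⟪uu v, e⟫ = 1 - dd e (uu v) ^ 2 := by rw [dd_sq he.le huu, real_inner_comm]; ring
  have i5 : ⟪U, uu v⟫ = 1 - dd U (uu v) ^ 2 := by rw [dd_sq hU huu]; ring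
  have i6 : ⟪uu v, uu v⟫ = 1 - 1 / q v ^ 2 := by rw [real_inner_self_eq_norm_sq, norm_uu_sq]
  have i7 : ⟪w s, acc v k⟫ = ‖w s‖ * ⟪hat (w s), acc v k⟫ := inner_eq_norm_mul_hat _ _
  refine le_of_eq_of_le ?_ (key.trans_eq ?_)
  · congr 2
    simp only [Pi.add_apply, Pi.sub_apply]
    rw [hden, eα]
    simp only [hu, inner_sub_left, inner_sub_right, real_inner_smul_left, real_inner_smul_right,
      inner_zero_right, i1, i2, i3, i4, i5, i6, i7, sgp]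
    field_simp
    ring
  · unfold kT kS
    field_simp

end Vale.Agent.P107
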