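import Vale.Agent.P107.Basic

open MeasureTheory Set Filter Topology
open scoped ENNReal RealInnerProductSpace

noncomputable section
namespace Vale.Agent.P107
namespace A4X

theorem vs_eq (δ a₀ : ℝ) {e w u : V3} (hw : w ≠ 0) (he : ‖e‖ ≤ 1) (hu : ‖u‖ ≤ 1) :
    vs δ a₀ e w u = δ ^ 2 / (dd (hat w) u ^ 2 + δ ^ 2 * a₀ ^ 2) * dd (hat w) e ^ 2 := by
  have hr : ‖w‖ ≠ 0 := norm_ne_zero_iff.2 hw
  rw [vs, norm_sub_inner w e he, norm_sub_inner w u hu,
    show ‖w‖ * dd (hat w) u ^ 2 + δ ^ 2 * a₀ ^ 2 * ‖w‖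
      = ‖w‖ * (dd (hat w) u ^ 2 + δ ^ 2 * a₀ ^ 2) by ring, mul_left_comm, mul_div_mul_left _ _ hr]
  ring

theorem GG_eq {e w u : V3} (hw : w ≠ 0) (he : ‖e‖ ≤ 1) (hu : ‖u‖ ≤ 1) (ha : dd (hat w) e ≠ 0) :
    GG e w u = (‖w‖ * dd (hat w) u ^ 2)⁻¹ •
      (hat w - u + (⟪e, hat w - u⟫ / dd (hat w) e ^ 2) • hat w) := by
  have hr : ‖w‖ ≠ 0 := norm_ne_zero_iff.2 hw
  have h1 : 1 - ⟪e, u⟫ = dd (hat w) e ^ 2 + ⟪e, hat w - u⟫ := by
    rw [dd_sq (norm_hat_le w) he, inner_sub_right, real_inner_comm e (hat w)]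
    ring
  have h2 := norm_smul_hat w
  rw [GG, norm_sub_inner w e he, norm_sub_inner w u hu, h1]
  generalize ⟪e, hat w - u⟫ = s at *
  generalize dd (hat w) e = a at *
  generalize dd (hat w) u = b at *
  generalize hat w = n at *
  generalize ‖w‖ = r at *
  subst h2
  have h3 : (a ^ 2 + s) / (r * a ^ 2 * (r * b ^ 2)) * r = (r * b ^ 2)⁻¹ * (1 + s / a ^ 2) := by
    rw [div_mul_eq_div_div, div_eq_inv_mul _ (r * b ^ 2), mul_assoc]
    congr 1
    field_simp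
  rw [smul_smul, h3]
  module

theorem inner_le {e n u : V3} (hn : ‖n‖ = 1) (he : ‖e‖ ≤ 1) (hu : ‖u‖ ≤ 1)
    (hb : dd n u ≤ dd n e) : |⟪e, n - u⟫| ≤ 4 * dd n e * dd n u := by
  have h1 : ⟪e, n - u⟫ = dd n u ^ 2 - ⟪n - e, n - u⟫ := by
    rw [dd_sq hn.le hu, inner_sub_left, inner_sub_right n, real_inner_self_eq_norm_sq, hn]
    ring
  have h2 := abs_real_inner_le_norm (n - e) (n - u)
  have h3 := norm_sub_le_dd hn.le he
  have h4 := norm_sub_le_dd hn.le hu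
  have h5 := dd_nonneg n u
  have h6 := mul_le_mul h3 h4 (norm_nonneg _) (by linarith)
  have h7 := mul_le_mul_of_nonneg_right hb h5
  rw [h1, abs_le]
  obtain ⟨h8, h9⟩ := abs_le.1 h2
  constructor <;> nlinarith

theorem norm_GG {e w u : V3} (hw : w ≠ 0) (he : ‖e‖ ≤ 1) (hu : ‖u‖ ≤ 1) (h0 : 0 < dd (hat w) u)
    (hb : dd (hat w) u ≤ dd (hat w) e) :
    ‖GG e w u‖ ≤ 7 * (1 / (dd (hat w) e * dd (hat w) u * ‖w‖)) := by
  have hr : 0 < ‖w‖ := norm_pos_iff.2 hw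
  have ha : 0 < dd (hat w) e := h0.trans_le hb
  have hn := norm_hat hw
  have h1 := inner_le hn he hu hb
  have h2 := norm_sub_le_dd hn.le hu
  have h3 := dd_le_three_halves hn.le he
  have h4 := norm_add_le (hat w - u) ((⟪e, hat w - u⟫ / dd (hat w) e ^ 2) • hat w)
  rw [norm_smul, hn, mul_one, Real.norm_eq_abs, abs_div, abs_of_pos (pow_pos ha 2)] at h4
  rw [GG_eq hw he hu ha.ne', norm_smul, Real.norm_of_nonneg (by positivity)]
  generalize ‖hat w - u + (⟪e, hat w - u⟫ / dd (hat w) e ^ 2) • hat w‖ = x at *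
  generalize |⟪e, hat w - u⟫| = s at *
  generalize dd (hat w) e = a at *
  generalize dd (hat w) u = b at *
  generalize ‖w‖ = r at *
  have h5 : s / a ^ 2 ≤ 4 * (b / a) := by
    rw [div_le_iff₀ (pow_pos ha 2)]
    refine h1.trans (le_of_eq ?_)
    field_simp
  have h6 : b ≤ 2 * (b / a) := by
    rw [← mul_div_assoc, le_div_iff₀ ha]
    nlinarith
  have h7 : x ≤ 7 * (b / a) := by linarith
  refine (mul_le_mul_of_nonneg_left h7 (by positivity)).trans (le_of_eq ?_)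
  field_simp

theorem act {δ a₀ a b : ℝ} (hδ : 0 < δ) (ha₀ : 0 < a₀) (ha : 0 ≤ a) (hb : 0 < b)
    (h : 1 < δ ^ 2 / (b ^ 2 + δ ^ 2 * a₀ ^ 2) * a ^ 2) : b ≤ δ * a ∧ a₀ ≤ a := by
  rw [div_mul_eq_mul_div, lt_div_iff₀ (by positivity), one_mul] at h
  refine ⟨le_of_sq_le_sq ?_ (by positivity), le_of_sq_le_sq ?_ ha⟩
  · nlinarith [mul_pos (pow_pos hδ 2) (pow_pos ha₀ 2)]
  · exact le_of_mul_le_mul_left (by nlinarith [pow_pos hb 2]) (pow_pos hδ 2)

theorem first {δ a₀ : ℝ} {e : V3} (w v : V3) (hδ : 0 < δ) (hδ' : δ ≤ 1 / 8) (ha₀ : 0 < a₀)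
    (he : ‖e‖ = 1) : ‖CG δ a₀ e w (uu v)‖ ≤ 7 * ph δ a₀ e w v := by
  rcases le_or_gt (vs δ a₀ e w (uu v)) 1 with h | h
  · rw [CG, eta_of_le_one h, zero_smul, norm_zero]
    exact mul_nonneg (by norm_num) (ph_nonneg _ _ _ _ _)
  have hw : w ≠ 0 := by
    rintro rfl
    simp [vs] at h
    linarith
  have hb := dd_uu_pos (norm_hat_le w) v
  have ha := dd_nonneg (hat w) e
  rw [vs_eq _ _ hw he.le (norm_uu_le v)] at h
  have h1 := act hδ ha₀ ha hb h
  rw [ph, if_pos h1, CG, norm_smul, Real.norm_of_nonneg (eta_nonneg _)]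
  exact (mul_le_of_le_one_left (norm_nonneg _) (eta_le_one _)).trans
    (norm_GG hw he.le (norm_uu_le v) hb (by nlinarith [h1.1]))

theorem sc1 {L κ a a' d : ℝ} (hL : 0 < L) (hl : ∀ x y, |eta x - eta y| ≤ L * |x - y|)
    (hκ : 0 < κ) (ha : 0 < a) (hd : |a - a'| ≤ d) (hda : d ≤ a / 10) :
    |eta (κ * a ^ 2) - eta (κ * a' ^ 2)| ≤ 7 * L * (d / a) := by
  obtain ⟨h1, h2⟩ := abs_le.1 hd
  have hd0 : 0 ≤ d := (abs_nonneg _).trans hd
  rcases le_or_gt 3 (κ * a ^ 2) with h | h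
  · have h3 : (9 / 10 * a) ^ 2 ≤ a' ^ 2 := pow_le_pow_left₀ (by positivity) (by linarith) 2
    have h4 := mul_le_mul_of_nonneg_left h3 hκ.le
    rw [eta_of_two_le (by linarith), eta_of_two_le (by nlinarith), sub_self, abs_zero]
    positivity
  · refine (hl _ _).trans ?_
    rw [show κ * a ^ 2 - κ * a' ^ 2 = κ * (a + a') * (a - a') by ring, abs_mul,
      abs_of_nonneg (mul_nonneg hκ.le (by linarith)), mul_comm 7 L, mul_assoc L]
    refine mul_le_mul_of_nonneg_left ?_ hL.le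
    rw [← mul_div_assoc, le_div_iff₀ ha]
    have h3 : κ * (a + a') * a ≤ 7 := by
      have : κ * (a + a') * a ≤ κ * (21 / 10 * a) * a := by gcongr; linarith
      nlinarith
    have h4 : 0 ≤ κ * (a + a') * a := mul_nonneg (mul_nonneg hκ.le (by linarith)) ha.le
    calc κ * (a + a') * |a - a'| * a = κ * (a + a') * a * |a - a'| := by ring
      _ ≤ 7 * d := mul_le_mul h3 hd (abs_nonneg _) (by norm_num)

theorem sc2 {a a' b d s s' : ℝ} (ha : 0 < a) (hb : 0 < b) (hd : |a - a'| ≤ d) (hda : d ≤ a / 10)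
    (hs : |s - s'| ≤ d * (3 / 2 * b)) (hs' : |s'| ≤ 4 * a' * b) :
    |s / a ^ 2 - s' / a' ^ 2| ≤ 12 * (d * b / a ^ 2) := by
  obtain ⟨h1, h2⟩ := abs_le.1 hd
  have hd0 : 0 ≤ d := (abs_nonneg _).trans hd
  have ha' : 0 < a' := by linarith
  have h3 : s / a ^ 2 - s' / a' ^ 2
      = ((s - s') - s' / a' * ((a + a') / a') * (a - a')) / a ^ 2 := by
    field_simp
    ring
  rw [h3, abs_div, abs_of_pos (pow_pos ha 2), ← mul_div_assoc 12]
  refine div_le_div_of_nonneg_right ((abs_sub _ _).trans ?_) (pow_pos ha 2).le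
  have h4 : |s' / a'| ≤ 4 * b := by
    rw [abs_div, abs_of_pos ha', div_le_iff₀ ha']
    linarith
  have h5 : |(a + a') / a'| ≤ 5 / 2 := by
    rw [abs_of_pos (by positivity), div_le_iff₀ ha']
    linarith
  have h6 : |s' / a' * ((a + a') / a') * (a - a')| ≤ 4 * b * (5 / 2) * d := by
    rw [abs_mul, abs_mul]
    gcongr
  nlinarith [mul_nonneg hd0 hb.le]

theorem second {L δ a₀ : ℝ} (hL : 0 < L) (hl : ∀ x y, |eta x - eta y| ≤ L * |x - y|) {e e' : V3}
    (w v : V3) (hδ : 0 < δ) (hδ' : δ ≤ 1 / 8) (ha₀ : 0 < a₀) (he : ‖e‖ = 1) (he' : ‖e'‖ = 1)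
    (hd : ‖e - e'‖ ≤ a₀ / 10) (h : 1 < vs δ a₀ e w (uu v)) :
    ‖CG δ a₀ e w (uu v) - CG δ a₀ e' w (uu v)‖ ≤
      (49 * L + 12) * (‖e - e'‖ / a₀) * ph δ a₀ e w v := by
  have hw : w ≠ 0 := by
    rintro rfl
    simp [vs] at h
    linarith
  have hr : 0 < ‖w‖ := norm_pos_iff.2 hw
  have hn := norm_hat hw
  have hu := norm_uu_le v
  have hb := dd_uu_pos (norm_hat_le w) v
  rw [vs_eq _ _ hw he.le hu] at h
  have h1 := act hδ ha₀ (dd_nonneg (hat w) e) hb h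
  have ha : 0 < dd (hat w) e := ha₀.trans_le h1.2
  have h2 : |dd (hat w) e - dd (hat w) e'| ≤ ‖e - e'‖ := by
    have h3 := dd_tri hn.le he.le he'.le
    have h4 := dd_tri hn.le he'.le he.le
    have h5 := dd_le_norm_sub he he'
    rw [dd_comm e' e] at h4
    rw [abs_le]
    constructor <;> linarith
  have hda : ‖e - e'‖ ≤ dd (hat w) e / 10 := by linarith [h1.2]
  obtain ⟨h3, h4⟩ := abs_le.1 h2
  have hba : dd (hat w) (uu v) ≤ dd (hat w) e / 8 := by nlinarith [h1.1]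
  have h5 := sc1 (κ := δ ^ 2 / (dd (hat w) (uu v) ^ 2 + δ ^ 2 * a₀ ^ 2)) hL hl (by positivity) ha
    h2 hda
  rw [← vs_eq _ _ hw he.le hu, ← vs_eq _ _ hw he'.le hu] at h5
  have h6 := sc2 (s := ⟪e, hat w - uu v⟫) (s' := ⟪e', hat w - uu v⟫) ha hb h2 hda (by
    rw [← inner_sub_left]
    exact (abs_real_inner_le_norm _ _).trans
      (mul_le_mul_of_nonneg_left (norm_sub_le_dd hn.le hu) (norm_nonneg _)))
    (inner_le hn he'.le hu (by linarith))
  have h7 := norm_GG hw he.le hu hb (by linarith)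
  have h8 : ‖GG e w (uu v) - GG e' w (uu v)‖ ≤ (‖w‖ * dd (hat w) (uu v) ^ 2)⁻¹ *
      (12 * (‖e - e'‖ * dd (hat w) (uu v) / dd (hat w) e ^ 2)) := by
    rw [GG_eq hw he.le hu ha.ne', GG_eq hw he'.le hu (by linarith : 0 < dd (hat w) e').ne',
      ← smul_sub, add_sub_add_left_eq_sub, ← sub_smul, norm_smul, norm_smul, hn, mul_one,
      Real.norm_of_nonneg (by positivity), Real.norm_eq_abs]
    exact mul_le_mul_of_nonneg_left h6 (by positivity)
  have h9 : CG δ a₀ e w (uu v) - CG δ a₀ e' w (uu v)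
      = (eta (vs δ a₀ e w (uu v)) - eta (vs δ a₀ e' w (uu v))) • GG e w (uu v)
        + eta (vs δ a₀ e' w (uu v)) • (GG e w (uu v) - GG e' w (uu v)) := by
    simp only [CG]
    module
  rw [h9, ph, if_pos h1]
  refine (norm_add_le _ _).trans ?_
  rw [norm_smul, norm_smul, Real.norm_eq_abs, Real.norm_of_nonneg (eta_nonneg _)]
  have h10 := mul_le_mul h5 h7 (norm_nonneg _) (by positivity)
  have h11 := (mul_le_of_le_one_left (norm_nonneg _) (eta_le_one (vs δ a₀ e' w (uu v)))).trans h8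
  refine (add_le_add h10 h11).trans ?_
  have h12 : ‖e - e'‖ / dd (hat w) e ≤ ‖e - e'‖ / a₀ :=
    div_le_div_of_nonneg_left (norm_nonneg _) ha₀ h1.2
  refine le_trans (le_of_eq ?_) (mul_le_mul_of_nonneg_right
    (mul_le_mul_of_nonneg_left h12 (by positivity)) (by positivity))
  field_simp
  ring

end A4X

theorem a4 : A4 := by
  obtain ⟨L, hL, -, hl⟩ := exists_deriv_eta_le
  refine ⟨49 * L + 70, by positivity, fun δ a₀ e e' w v hδ hδ' ha₀ he he' => ⟨?_, ?_, fun h => ?_⟩⟩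
  · exact (A4X.first w v hδ hδ' ha₀ he).trans
      (mul_le_mul_of_nonneg_right (by linarith) (ph_nonneg _ _ _ _ _))
  · have p1 := ph_nonneg δ a₀ e w v
    have p2 := ph_nonneg δ a₀ e' w v
    have hx : 0 ≤ ‖e - e'‖ / a₀ := by positivity
    rcases le_or_gt ‖e - e'‖ (a₀ / 10) with hd | hd
    · rcases lt_or_ge 1 (vs δ a₀ e w (uu v)) with h | h
      · refine (A4X.second hL hl w v hδ hδ' ha₀ he he' hd h).trans ?_
        gcongr
        · norm_num
        · linarith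
      rcases lt_or_ge 1 (vs δ a₀ e' w (uu v)) with h' | h'
      · rw [norm_sub_rev e] at hd hx ⊢
        rw [norm_sub_rev]
        refine (A4X.second hL hl w v hδ hδ' ha₀ he' he hd h').trans ?_
        gcongr
        · norm_num
        · linarith
      · rw [CG, CG, eta_of_le_one h, eta_of_le_one h', zero_smul, zero_smul, sub_zero, norm_zero]
        positivity
    · have h1 := A4X.first w v hδ hδ' ha₀ he
      have h2 := A4X.first w v hδ hδ' ha₀ he'
      have h3 : 1 / 10 ≤ ‖e - e'‖ / a₀ := by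
        rw [le_div_iff₀ ha₀]
        linarith
      refine (norm_sub_le _ _).trans ((add_le_add h1 h2).trans ?_)
      rw [← mul_add]
      refine mul_le_mul_of_nonneg_right ?_ (by linarith)
      nlinarith [mul_nonneg hL.le hx]
  · by_cases hw : w = 0
    · simp [vs, hw]
    have hb := dd_uu_pos (norm_hat_le w) v
    have h1 := one_le_q_dd_sq (norm_hat_le w) v
    have h2 := dd_sq_le_two (norm_hat_le w) he.le
    have hq := q_pos v
    rw [A4X.vs_eq _ _ hw he.le (norm_uu_le v), div_mul_eq_mul_div, div_le_one (by positivity)]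
    have h3 : (2 * δ * q v) ^ 2 ≤ 1 := pow_le_one₀ (by positivity) h
    have h4 := mul_le_mul_of_nonneg_left h1 (sq_nonneg δ)
    have h5 := mul_le_mul_of_nonneg_right h3 (sq_nonneg (dd (hat w) (uu v)))
    have h6 := mul_le_mul_of_nonneg_left h2 (sq_nonneg δ)
    nlinarith [mul_pos (pow_pos hδ 2) (pow_pos ha₀ 2)]

end Vale.Agent.P107
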