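import Vale.Agent.P107.Basic2

open MeasureTheory Set Filter Topology
open scoped ENNReal RealInnerProductSpace ContDiff

noncomputable section
namespace Vale.Agent.P107
namespace AdvPX

theorem intOn (hp : Pol) {η : ℝ} (hη : 0 ≤ η) :
    IntegrableOn (fun w : V3 => ‖w‖⁻¹) (Metric.ball 0 η) := by
  obtain ⟨c, -, -, h⟩ := hp
  refine (h ℝ _ _ η 0 η 0 1 hη hη le_rfl one_pos subset_rfl (fun w hw h0 => ?_)
    measurableSet_ball).2 measurable_norm.inv.aestronglyMeasurable
  have h1 : 0 < ‖w‖ := norm_pos_iff.2 h0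
  rw [zero_mul, add_zero, norm_inv, norm_norm, le_div_iff₀ (by positivity), pow_two,
    inv_mul_cancel_left₀ h1.ne']
  exact (mem_ball_zero_iff.1 hw).le

theorem dom (hp : Pol) {X : Type} [NormedAddCommGroup X] [NormedSpace ℝ X] {φ : ℝ × V3 → X}
    (hc : Continuous φ) (hs : HasCompactSupport φ) (p₀ : ℝ × V3) :
    (∀ p : ℝ × V3, AEStronglyMeasurable (fun w : V3 => ‖w‖⁻¹ • φ (p + (‖w‖, w)))) ∧
    ∃ b : V3 → ℝ, Integrable b ∧
      ∀ w, ∀ p ∈ Metric.ball p₀ 1, ‖‖w‖⁻¹ • φ (p + (‖w‖, w))‖ ≤ b w := by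
  refine ⟨fun p => measurable_norm.inv.aestronglyMeasurable.smul
    (hc.comp (by fun_prop)).aestronglyMeasurable, ?_⟩
  obtain ⟨C, hC⟩ := hc.bounded_above_of_compact_support hs
  obtain ⟨R, hR0, hR⟩ := hs.isCompact.isBounded.subset_ball_lt 0 0
  refine ⟨(Metric.ball 0 (R + ‖p₀‖ + 1)).indicator fun w => ‖w‖⁻¹ * C,
    (integrable_indicator_iff measurableSet_ball).2
      ((intOn hp (by positivity)).mul_const C), fun w p hp' => ?_⟩
  by_cases hw : w ∈ Metric.ball (0 : V3) (R + ‖p₀‖ + 1)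
  · rw [indicator_of_mem hw, norm_smul, norm_inv, norm_norm]
    exact mul_le_mul_of_nonneg_left (hC _) (by positivity)
  · have hz : φ (p + (‖w‖, w)) = 0 := by
      refine image_eq_zero_of_notMem_tsupport fun h => hw ?_
      have h1 := mem_ball_zero_iff.1 (hR h)
      have h2 := norm_sub_le (p + (‖w‖, w)) p
      have h3 := norm_snd_le ((‖w‖, w) : ℝ × V3)
      have h4 := norm_sub_norm_le p p₀
      rw [add_sub_cancel_left] at h2
      rw [mem_ball_iff_norm] at hp'
      rw [mem_ball_zero_iff]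
      simp only at h3
      linarith
    rw [indicator_of_notMem hw, hz, smul_zero, norm_zero]

theorem key (hp : Pol) {φ : ℝ × V3 → ℝ} (h : Test φ) (p : ℝ × V3) :
    DifferentiableAt ℝ (adv φ) p ∧ ∀ v, dD v (adv φ) p = adv (dD v φ) p := by
  obtain ⟨m0, b0, i0, h0⟩ := dom hp h.smooth.continuous h.compact p
  obtain ⟨m1, b1, i1, h1⟩ := dom hp (h.smooth.continuous_fderiv (by simp)) (h.compact.fderiv ℝ) p
  have h2 := (hasFDerivAt_integral_of_dominated_of_fderiv_le (𝕜 := ℝ)
    (F := fun p w => ‖w‖⁻¹ • φ (p + (‖w‖, w)))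
    (F' := fun p w => ‖w‖⁻¹ • fderiv ℝ φ (p + (‖w‖, w))) (Metric.ball_mem_nhds p one_pos)
    (Eventually.of_forall m0)
    (i0.mono' (m0 p) (Eventually.of_forall fun w => h0 w p (Metric.mem_ball_self one_pos)))
    (m1 p) (Eventually.of_forall h1) i1 (Eventually.of_forall fun w x _ =>
      ((hasFDerivAt_comp_add_right _).2
        (h.smooth.differentiable (by simp) _).hasFDerivAt).fun_const_smul _)).const_mul om⁻¹
  refine ⟨h2.differentiableAt, fun v => ?_⟩
  refine (congrArg (fun L : ℝ × V3 →L[ℝ] ℝ => L v) h2.fderiv).trans ?_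
  simp only [_root_.smul_apply, smul_eq_mul]
  rw [ContinuousLinearMap.integral_apply
    (i1.mono' (m1 p) (Eventually.of_forall fun w => h1 w p (Metric.mem_ball_self one_pos)))]
  rfl

end AdvPX

theorem advP (hp : Pol) : AdvP := by
  intro φ h
  refine ⟨contDiff_infty.2 fun n => ?_, ?_, fun v => funext fun p => (AdvPX.key hp h p).2 v⟩
  · induction n generalizing φ with
    | zero =>
      exact contDiff_zero.2 (Differentiable.continuous fun p => (AdvPX.key hp h p).1)
    | succ n ih =>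
      rw [Nat.cast_succ, contDiff_succ_iff_fderiv_apply]
      refine ⟨fun p => (AdvPX.key hp h p).1, by simp, fun v => ?_⟩
      have h1 : (fun x => fderiv ℝ (adv φ) x v) = adv (dD v φ) :=
        funext fun p => (AdvPX.key hp h p).2 v
      rw [h1]
      exact ih _ (h.dD v)
  · obtain ⟨R, hR, hb⟩ := h.bound
    have h1 : ∀ p : ℝ × V3, (∀ w : V3, φ (p.1 + ‖w‖, p.2 + w) = 0) → adv φ p = 0 := fun p hz => by
      simp [adv, hz]
    refine ⟨R, 2 * R + 1, fun p hp' => h1 p fun w => ?_, fun p hp1 hp2 => h1 p fun w => ?_⟩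
    · by_contra h2
      have := (hb _ h2).2.1
      linarith [norm_nonneg w]
    · by_contra h2
      obtain ⟨-, h3, h4⟩ := hb _ h2
      have h5 := norm_sub_le (p.2 + w) w
      rw [add_sub_cancel_right] at h5
      simp only at h3 h4
      linarith

end Vale.Agent.P107
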