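import Vale.Agent.P107.Basic

/-! Problem P107: size of the boundary term. -/

open MeasureTheory Set Filter Topology
open scoped ENNReal RealInnerProductSpace

noncomputable section
namespace Vale.Agent.P107
namespace AmpX

theorem dyad {a : ℝ} {m : ℕ} (h1 : dy m ≤ a) (h2 : a ≤ 2) :
    ∃ j ∈ Finset.range (m + 2), dy j ≤ a ∧ a ≤ 2 * dy j := by
  have h0 := dy_pos m
  obtain ⟨j, h3, h4⟩ := exists_nat_pow_near_of_lt_one (x := a / 2) (y := 1 / 2) (by linarith)
    (by linarith) (by norm_num) (by norm_num)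
  rw [pow_succ] at h3
  refine ⟨j, Finset.mem_range.2 (lt_of_not_ge fun h => ?_), by unfold dy; linarith,
    by unfold dy; linarith⟩
  have := pow_le_pow_of_le_one (a := (1 / 2 : ℝ)) (by norm_num) (by norm_num) h
  rw [pow_add] at this
  unfold dy at h0 h1
  linarith

open Classical in
theorem geo (x : ℝ) (n : ℕ) :
    ∑ l ∈ Finset.range n, (if dy l ≤ x then dy l else 0) ≤ max 0 (2 * x - 2 * dy n) := by
  induction n with
  | zero => simp
  | succ n ih =>
    have e : dy (n + 1) = dy n / 2 := by unfold dy; ring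
    rw [Finset.sum_range_succ]
    split_ifs with h
    · rw [max_eq_right (by linarith)] at ih
      exact le_max_of_le_right (by linarith)
    · rw [max_eq_left (by linarith [not_le.1 h])] at ih
      exact le_max_of_le_left (by linarith)

theorem two (n : ℕ) : ∑ i ∈ Finset.range (n + 1), (2 : ℝ) ^ i ≤ 2 * 2 ^ n := by
  induction n with
  | zero => norm_num
  | succ n ih =>
    rw [Finset.sum_range_succ, pow_succ]
    linarith

/-- a box in the cone -/
def cell (e : V3) (p α β ρ : ℝ) : Set Z :=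
  {y | (‖y.1‖ ≤ ρ ∧ dd (hat y.1) e ≤ α) ∧ q y.2 ≤ p ∧ dd (hat y.1) (uu y.2) ≤ β}

/-- the function integrated over a box -/
def G (e : V3) (p α β ρ : ℝ) : Z → ℝ≥0∞ :=
  (cell e p α β ρ).indicator fun y => ENNReal.ofReal (1 / ‖y.1‖ ^ 2)

theorem measG (e : V3) (p α β ρ : ℝ) : Measurable (G e p α β ρ) := by
  refine Measurable.indicator (by fun_prop) ?_
  unfold cell
  measurability

theorem intG (hp : Ph) : ∃ C : ℝ, 0 < C ∧ ∀ (e : V3) (p α β ρ : ℝ), ‖e‖ = 1 → 0 < p → 0 < α →
    0 < β → 0 < ρ → ∫⁻ y, G e p α β ρ y * ENNReal.ofReal (b2 y.1 y.2)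
      ≤ ENNReal.ofReal (C * (p ^ 3 * β ^ 4 * α ^ 2 * ρ)) := by
  obtain ⟨C, hC, h⟩ := hp
  refine ⟨C * C, by positivity, fun e p α β ρ he h1 h2 h3 h4 => ?_⟩
  have hA : MeasurableSet {w : V3 | ‖w‖ ≤ ρ ∧ dd (hat w) e ≤ α} := by measurability
  calc _ ≤ ∫⁻ y, G e p α β ρ y * ENNReal.ofReal (β ^ 2) := by
        refine lintegral_mono fun y => ?_
        by_cases hy : y ∈ cell e p α β ρ
        · refine mul_le_mul_right (ENNReal.ofReal_le_ofReal ?_) _
          rw [b2_eq]
          exact pow_le_pow_left₀ (dd_nonneg _ _) hy.2.2 2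
        · simp [G, hy]
    _ = (∫⁻ w, ∫⁻ v, G e p α β ρ (w, v)) * ENNReal.ofReal (β ^ 2) := by
        rw [lintegral_mul_const _ (measG _ _ _ _ _), Measure.volume_eq_prod,
          lintegral_prod _ (measG _ _ _ _ _).aemeasurable]
    _ ≤ (∫⁻ w in {w : V3 | ‖w‖ ≤ ρ ∧ dd (hat w) e ≤ α}, ENNReal.ofReal (1 / ‖w‖ ^ 2) *
          ENNReal.ofReal (C * p ^ 3 * β ^ 2)) * ENNReal.ofReal (β ^ 2) := by
        refine mul_le_mul_left ?_ _
        rw [← lintegral_indicator hA]
        refine lintegral_mono fun w => ?_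
        by_cases hw : w ∈ {w : V3 | ‖w‖ ≤ ρ ∧ dd (hat w) e ≤ α}
        · rw [indicator_of_mem hw]
          rcases eq_or_ne w 0 with rfl | h0
          · have : ∀ v, G e p α β ρ (0, v) = 0 := fun v =>
              le_zero_iff.1 (indicator_apply_le' (fun _ => by simp) fun _ => le_rfl)
            simp [this]
          have h5 : ∀ v, G e p α β ρ (w, v) ≤ {v : V3 | q v ≤ p ∧ dd (hat w) (uu v) ≤ β}.indicator
              (fun _ => ENNReal.ofReal (1 / ‖w‖ ^ 2)) v := fun v =>
            indicator_apply_le' (fun hv => by rw [indicator_of_mem (by exact hv.2)])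
              fun _ => zero_le
          exact (lintegral_mono h5).trans ((lintegral_indicator_const_le _ _).trans
            (mul_le_mul_right
              (h _ (by rw [norm_hat h0]; norm_num) (norm_hat_le w) p β h1 h3).1 _))
        · have : ∀ v, G e p α β ρ (w, v) = 0 := fun v => indicator_of_notMem (fun h => hw h.1) _
          simp [this]
    _ ≤ ENNReal.ofReal (C * α ^ 2 * ρ) * ENNReal.ofReal (C * p ^ 3 * β ^ 2) *
          ENNReal.ofReal (β ^ 2) := by
        rw [lintegral_mul_const _ (by fun_prop)]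
        exact mul_le_mul_left (mul_le_mul_left
          (h e (by rw [he]; norm_num) he.le ρ α h4 h2).2 _) _
    _ = _ := by
        rw [← ENNReal.ofReal_mul (by positivity), ← ENNReal.ofReal_mul (by positivity)]
        congr 1
        ring

/-- the radius attached to a box -/
def rad (w : ℝ) (b : ℕ × ℕ × ℕ) : ℝ := 1 / (2 * dy b.1 * dy b.2.2 * w ^ 2 * 2 ^ b.2.1)

open Classical in
/-- the boxes -/
def I (δ : ℝ) (k : ℕ) : Finset (ℕ × ℕ × ℕ) :=
  (Finset.range (k + 2) ×ˢ Finset.range (k + 1) ×ˢ Finset.range (k + 3)).filter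
    fun b => dy b.2.2 ≤ 2 * δ * dy b.1

/-- the term attached to a box -/
def F (e : V3) (w : ℝ) (b : ℕ × ℕ × ℕ) (y : Z) : ℝ≥0∞ :=
  ENNReal.ofReal (rad w b / (dy b.1 * dy b.2.2)) *
    G e (2 * 2 ^ b.2.1) (2 * dy b.1) (2 * dy b.2.2) (rad w b) y

theorem point {δ a₀ w : ℝ} {k : ℕ} {e : V3} (he : ‖e‖ = 1) (hδ : 0 < δ) (hw : 0 < w)
    (ha : 1 / 2 ^ k ≤ a₀) (y : Z) (hq : q y.2 ≤ 2 ^ k) :
    ENNReal.ofReal (ph δ a₀ e y.1 y.2) ≤ ENNReal.ofReal (2 * w ^ 2) * ENNReal.ofReal (q y.2)
      + ∑ b ∈ I δ k, F e w b y := by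
  rcases le_or_gt (ph δ a₀ e y.1 y.2) (2 * w ^ 2 * q y.2) with h | h
  · rw [← ENNReal.ofReal_mul (by positivity)]
    exact (ENNReal.ofReal_le_ofReal h).trans le_self_add
  have h0 := q_pos y.2
  refine le_trans ?_ le_add_self
  unfold ph at h ⊢
  split_ifs at h ⊢ with hc
  swap
  · simp
  have hr : 0 < ‖y.1‖ := (norm_nonneg _).lt_of_ne' fun h1 => by
    rw [h1, mul_zero, div_zero] at h
    exact h.not_ge (by positivity)
  obtain ⟨i, i1, i2⟩ := exists_nat_pow_near (one_le_q y.2) (one_lt_two (α := ℝ))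
  obtain ⟨j, j0, j1, j2⟩ := dyad (m := k) (a := dd (hat y.1) e)
    (by unfold dy; rw [one_div_pow]; exact ha.trans hc.2) (dd_lt_two (norm_hat_le _) he.le).le
  obtain ⟨l, l0, l1, l2⟩ := dyad (m := k + 1) (a := dd (hat y.1) (uu y.2)) (by
      have h1 := one_le_q_dd (norm_hat_le y.1) y.2
      have h2 := mul_le_mul_of_nonneg_right hq (dd_nonneg (hat y.1) (uu y.2))
      unfold dy
      rw [one_div_pow, div_le_iff₀ (by positivity), pow_succ]
      linarith) (dd_lt_two (norm_hat_le _) (norm_uu_le _)).le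
  have hj := dy_pos j
  have hl := dy_pos l
  have hb : (j, i, l) ∈ I δ k := Finset.mem_filter.2 ⟨Finset.mem_product.2 ⟨j0,
    Finset.mem_product.2 ⟨Finset.mem_range.2 (Nat.lt_succ_of_le
      ((pow_le_pow_iff_right₀ one_lt_two).1 (i1.trans hq))), l0⟩⟩, by
      have := mul_le_mul_of_nonneg_left j2 hδ.le
      linarith [hc.1]⟩
  have h1 : 1 / (dd (hat y.1) e * dd (hat y.1) (uu y.2) * ‖y.1‖) ≤ 1 / (dy j * dy l * ‖y.1‖) := by
    gcongr
    exact dd_nonneg _ _
  have h2 : ‖y.1‖ ≤ rad w (j, i, l) := by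
    have h3 := (mul_le_mul_of_nonneg_left i1 (by positivity)).trans (h.le.trans h1)
    rw [le_div_iff₀ (by positivity)] at h3
    rw [rad, le_div_iff₀ (by positivity)]
    linarith
  refine le_trans ?_ (Finset.single_le_sum (f := fun b => F e w b y) (fun _ _ => zero_le) hb)
  rw [F, G, indicator_of_mem (show y ∈ cell e _ _ _ _ from
    ⟨⟨h2, j2⟩, by rw [pow_succ] at i2; linarith, l2⟩),
    ← ENNReal.ofReal_mul (div_nonneg (hr.le.trans h2) (by positivity))]
  refine ENNReal.ofReal_le_ofReal (h1.trans ?_)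
  calc _ = ‖y.1‖ / (dy j * dy l) * (1 / ‖y.1‖ ^ 2) := by field_simp
    _ ≤ _ := by gcongr

theorem total {δ w : ℝ} {k : ℕ} (hδ : 0 < δ) (hw : 0 < w) (h : 2 ^ k * δ ≤ w ^ 6) :
    ∑ b ∈ I δ k, dy b.2.2 * 2 ^ b.2.1 / (dy b.1 * w ^ 4) ≤ 8 * LL k * w ^ 2 := by
  rw [I, Finset.sum_filter, Finset.sum_product]
  refine (Finset.sum_le_card_nsmul _ _ (8 * w ^ 2) fun j _ => ?_).trans ?_
  · have hj := dy_pos j
    rw [Finset.sum_product]
    calc _ ≤ ∑ i ∈ Finset.range (k + 1), 2 ^ i * (4 * δ / w ^ 4) := by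
          refine Finset.sum_le_sum fun i _ => ?_
          have h1 := (geo (2 * δ * dy j) (k + 3)).trans (max_le (c := 4 * δ * dy j)
            (by positivity) (by linarith [dy_pos (k + 3)]))
          calc _ = (∑ l ∈ Finset.range (k + 3), if dy l ≤ 2 * δ * dy j then dy l else 0) *
                (2 ^ i / (dy j * w ^ 4)) := by
                rw [Finset.sum_mul]
                refine Finset.sum_congr rfl fun l _ => ?_
                rw [ite_mul, zero_mul, mul_div_assoc]
            _ ≤ 4 * δ * dy j * (2 ^ i / (dy j * w ^ 4)) :=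
                mul_le_mul_of_nonneg_right h1 (by positivity)
            _ = _ := by field_simp
      _ ≤ 2 * 2 ^ k * (4 * δ / w ^ 4) := by
          rw [← Finset.sum_mul]
          exact mul_le_mul_of_nonneg_right (two k) (by positivity)
      _ ≤ _ := by
          rw [← mul_div_assoc, div_le_iff₀ (by positivity)]
          linarith
  · rw [Finset.card_range, nsmul_eq_mul, LL]
    push_cast
    nlinarith [sq_nonneg w]

end AmpX
open AmpX

theorem amp (h1 : Ret1) (hg : Geo) (hp : Ph) (hc : Crude) : Amp := by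
  have _ := hg
  have _ := hc
  intro Λ
  obtain ⟨C, hC, hG⟩ := intG hp
  refine ⟨(1 + 1024 * C) * max Λ 1, by positivity,
    fun Γ T N s δ a₀ w k x e hΓ hs hB he hδ hw h2 ha => ?_⟩
  have hΛ := hΓ.hΛ
  have hL := three_le_LL k
  have hR := h1 Γ hΓ.toKin
  have hm : Measurable fun z => Γ.wv s x z := (hR.cwv.comp
    (continuous_const.prodMk (continuous_const.prodMk continuous_id))).measurable
  have hF : ∀ b, Γ.cI s x (F e w b) ≤
      ENNReal.ofReal (128 * C * Λ * (dy b.2.2 * 2 ^ b.2.1 / (dy b.1 * w ^ 4))) := fun b => by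
    have h3 := dy_pos b.1
    have h4 := dy_pos b.2.2
    have h5 : 0 < rad w b := by unfold rad; positivity
    refine (lintegral_const_mul _ ((measG _ _ _ _ _).comp hm)).trans_le ((mul_le_mul_right
      ((hΓ.cone s hs x _ (measG _ _ _ _ _)).trans (mul_le_mul_right
        ((setLIntegral_le_lintegral _ _).trans (hG e _ _ _ _ he (by positivity) (by positivity)
          (by positivity) h5)) _)) _).trans_eq ?_)
    rw [← ENNReal.ofReal_mul (by positivity), ← ENNReal.ofReal_mul (by positivity)]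
    congr 1
    unfold rad
    field_simp
    ring
  have mq : Measurable fun z => ENNReal.ofReal (q (Γ.wv s x z).2) :=
    (measurable_q.comp hm.snd).ennreal_ofReal
  calc _ ≤ ∫⁻ z in Γ.act s x, (ENNReal.ofReal (2 * w ^ 2) * ENNReal.ofReal (q (Γ.wv s x z).2)
        + ∑ b ∈ I δ k, F e w b (Γ.wv s x z)) ∂Γ.μ :=
        lintegral_mono_ae (ae_restrict_of_ae (hΓ.supp.mono fun z hz => point he hδ hw ha _
          (hB z hz _ ⟨hR.nonneg s x z, hR.le s x z hs.1⟩)))
    _ = ENNReal.ofReal (2 * w ^ 2) * Γ.cI s x (fun y => ENNReal.ofReal (q y.2))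
        + ∑ b ∈ I δ k, Γ.cI s x (F e w b) := by
        rw [lintegral_add_left (mq.const_mul _), lintegral_const_mul _ mq, lintegral_finsetSum]
        · rfl
        · exact fun b _ => ((measG _ _ _ _ _).comp hm).const_mul _
    _ ≤ ENNReal.ofReal (2 * w ^ 2) * ENNReal.ofReal Λ + ∑ b ∈ I δ k,
        ENNReal.ofReal (128 * C * Λ * (dy b.2.2 * 2 ^ b.2.1 / (dy b.1 * w ^ 4))) :=
        add_le_add (mul_le_mul_right (hΓ.coneP s hs x) _) (Finset.sum_le_sum fun b _ => hF b)
    _ ≤ _ := by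
        have h0 : ∀ b : ℕ × ℕ × ℕ, 0 ≤ dy b.2.2 * 2 ^ b.2.1 / (dy b.1 * w ^ 4) := fun b => by
          have h3 := dy_pos b.1
          have h4 := dy_pos b.2.2
          positivity
        rw [← ENNReal.ofReal_sum_of_nonneg fun b _ => mul_nonneg (by positivity) (h0 b),
          ← Finset.mul_sum, ← ENNReal.ofReal_mul (by positivity), ← ENNReal.ofReal_add
            (by positivity) (mul_nonneg (by positivity) (Finset.sum_nonneg fun b _ => h0 b)),
          max_eq_left (by linarith)]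
        refine ENNReal.ofReal_le_ofReal ?_
        have h3 := mul_le_mul_of_nonneg_left (total hδ hw h2) (show 0 ≤ 128 * C * Λ by positivity)
        have h4 := mul_le_mul_of_nonneg_right hL (show 0 ≤ Λ * w ^ 2 by positivity)
        have h5 : 0 ≤ Λ * w ^ 2 := by positivity
        linarith

end Vale.Agent.P107
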