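import Vale.Agent.P107.Stmts1

/-! Problem P107: elementary facts used everywhere. -/

open MeasureTheory Set Filter Topology
open scoped ENNReal RealInnerProductSpace ContDiff

noncomputable section
namespace Vale.Agent.P107

theorem q_sq (v : V3) : q v ^ 2 = 1 + ‖v‖ ^ 2 := by
  unfold q; rw [Real.sq_sqrt]; positivity

theorem one_le_q (v : V3) : 1 ≤ q v := by
  unfold q; rw [Real.one_le_sqrt]; nlinarith [sq_nonneg ‖v‖]

theorem q_pos (v : V3) : 0 < q v := lt_of_lt_of_le one_pos (one_le_q v)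

theorem norm_lt_q (v : V3) : ‖v‖ < q v := by
  have h := q_sq v
  have h1 := q_pos v
  by_contra hc
  push Not at hc
  nlinarith [norm_nonneg v]

theorem norm_le_q (v : V3) : ‖v‖ ≤ q v := (norm_lt_q v).le

theorem norm_uu (v : V3) : ‖uu v‖ = ‖v‖ / q v := by
  unfold uu; rw [norm_smul, norm_inv, Real.norm_of_nonneg (q_pos v).le]; ring

theorem q_smul_uu (v : V3) : q v • uu v = v := by
  unfold uu; rw [smul_smul, mul_inv_cancel₀ (q_pos v).ne', one_smul]

theorem norm_uu_sq (v : V3) : ‖uu v‖ ^ 2 = 1 - 1 / q v ^ 2 := by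
  have h := q_sq v
  have h1 := q_pos v
  rw [norm_uu, div_pow]; field_simp; linarith

theorem norm_uu_lt (v : V3) : ‖uu v‖ < 1 := by
  rw [norm_uu, div_lt_one (q_pos v)]; exact norm_lt_q v

theorem norm_uu_le (v : V3) : ‖uu v‖ ≤ 1 := (norm_uu_lt v).le

theorem half_le_norm_uu {v : V3} (h : 2 ≤ q v) : 1 / 2 ≤ ‖uu v‖ := by
  have h1 := norm_uu_sq v
  have h2 : 1 / q v ^ 2 ≤ 1 / 4 := by
    apply one_div_le_one_div_of_le (by norm_num); nlinarith
  by_contra hc
  push Not at hc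
  nlinarith [norm_nonneg (uu v)]

theorem abs_q_sub_le (v v' : V3) : |q v - q v'| ≤ ‖v - v'‖ := by
  have h1 := q_sq v
  have h2 := q_sq v'
  have h3 := norm_le_q v
  have h4 := norm_le_q v'
  have h5 := q_pos v
  have h6 := q_pos v'
  have h7 := abs_norm_sub_norm_le v v'
  have h8 : |q v - q v'| * (q v + q v') = |‖v‖ - ‖v'‖| * (‖v‖ + ‖v'‖) := by
    rw [← abs_of_pos (show 0 < q v + q v' by positivity),
      ← abs_of_nonneg (show 0 ≤ ‖v‖ + ‖v'‖ by positivity), ← abs_mul, ← abs_mul]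
    congr 1; nlinarith
  have h9 : |‖v‖ - ‖v'‖| * (‖v‖ + ‖v'‖) ≤ ‖v - v'‖ * (q v + q v') :=
    mul_le_mul h7 (by linarith) (by positivity) (norm_nonneg _)
  exact le_of_mul_le_mul_right (h8 ▸ h9) (by positivity)

theorem norm_uu_sub_le (v v' : V3) : ‖uu v - uu v'‖ ≤ 2 * ‖v - v'‖ / q v := by
  have h5 := q_pos v
  have h6 := q_pos v'
  have e : uu v - uu v' = (q v)⁻¹ • ((v - v') + (q v' - q v) • uu v') := by
    have h1 := q_smul_uu v'
    rw [sub_smul, h1, smul_add, smul_sub, smul_sub, smul_smul, inv_mul_cancel₀ h5.ne', one_smul]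
    unfold uu; abel
  rw [e, norm_smul, norm_inv, Real.norm_of_nonneg h5.le]
  have h2 : ‖(v - v') + (q v' - q v) • uu v'‖ ≤ 2 * ‖v - v'‖ := by
    refine (norm_add_le _ _).trans ?_
    rw [norm_smul, Real.norm_eq_abs, abs_sub_comm]
    have := abs_q_sub_le v v'
    have h3 := norm_uu_le v'
    nlinarith [abs_nonneg (q v - q v'), norm_nonneg (uu v')]
  rw [div_eq_inv_mul]
  exact mul_le_mul_of_nonneg_left h2 (by positivity)

theorem norm_hat {w : V3} (h : w ≠ 0) : ‖hat w‖ = 1 := by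
  unfold hat; rw [norm_smul, norm_inv, norm_norm, inv_mul_cancel₀ (norm_ne_zero_iff.2 h)]

@[simp] theorem hat_zero : hat 0 = 0 := by simp [hat]

theorem norm_hat_le (w : V3) : ‖hat w‖ ≤ 1 := by
  by_cases h : w = 0
  · simp [h]
  · exact (norm_hat h).le

theorem norm_smul_hat (w : V3) : ‖w‖ • hat w = w := by
  by_cases h : w = 0
  · simp [h]
  · unfold hat; rw [smul_smul, mul_inv_cancel₀ (norm_ne_zero_iff.2 h), one_smul]

theorem inner_eq_norm_mul_hat (w x : V3) : ⟪w, x⟫ = ‖w‖ * ⟪hat w, x⟫ := by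
  conv_lhs => rw [← norm_smul_hat w]
  rw [real_inner_smul_left]

theorem norm_hat_sub_le {x : V3} (hx : x ≠ 0) (y : V3) : ‖hat x - hat y‖ ≤ 2 * ‖x - y‖ / ‖x‖ := by
  have h5 : 0 < ‖x‖ := norm_pos_iff.2 hx
  have e : hat x - hat y = ‖x‖⁻¹ • ((x - y) + (‖y‖ - ‖x‖) • hat y) := by
    have h1 := norm_smul_hat y
    rw [sub_smul, h1, smul_add, smul_sub, smul_sub, smul_smul, inv_mul_cancel₀ h5.ne', one_smul]
    unfold hat; abel
  rw [e, norm_smul, norm_inv, norm_norm]
  have h2 : ‖(x - y) + (‖y‖ - ‖x‖) • hat y‖ ≤ 2 * ‖x - y‖ := by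
    refine (norm_add_le _ _).trans ?_
    rw [norm_smul, Real.norm_eq_abs, abs_sub_comm]
    have := abs_norm_sub_norm_le x y
    have h3 := norm_hat_le y
    nlinarith [abs_nonneg (‖x‖ - ‖y‖), norm_nonneg (hat y)]
  rw [div_eq_inv_mul]
  exact mul_le_mul_of_nonneg_left h2 (by positivity)

theorem abs_inner_le_one {x y : V3} (hx : ‖x‖ ≤ 1) (hy : ‖y‖ ≤ 1) : |⟪x, y⟫| ≤ 1 :=
  (abs_real_inner_le_norm x y).trans (mul_le_one₀ hx (norm_nonneg _) hy)

theorem dd_nonneg (x y : V3) : 0 ≤ dd x y := Real.sqrt_nonneg _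

theorem dd_comm (x y : V3) : dd x y = dd y x := by unfold dd; rw [real_inner_comm]

theorem dd_sq {x y : V3} (hx : ‖x‖ ≤ 1) (hy : ‖y‖ ≤ 1) : dd x y ^ 2 = 1 - ⟪x, y⟫ := by
  unfold dd; rw [Real.sq_sqrt]; linarith [(abs_le.1 (abs_inner_le_one hx hy)).2]

theorem dd_sq' {x y : V3} (hx : ‖x‖ ≤ 1) (hy : ‖y‖ ≤ 1) :
    dd x y ^ 2 = (1 - ‖x‖ ^ 2) / 2 + (1 - ‖y‖ ^ 2) / 2 + ‖x - y‖ ^ 2 / 2 := by
  rw [dd_sq hx hy, norm_sub_sq_real]; ring

theorem dd_sq_le_two {x y : V3} (hx : ‖x‖ ≤ 1) (hy : ‖y‖ ≤ 1) : dd x y ^ 2 ≤ 2 := by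
  rw [dd_sq hx hy]; linarith [(abs_le.1 (abs_inner_le_one hx hy)).1]

theorem dd_lt_two {x y : V3} (hx : ‖x‖ ≤ 1) (hy : ‖y‖ ≤ 1) : dd x y < 2 := by
  have := dd_sq_le_two hx hy
  nlinarith [dd_nonneg x y]

theorem dd_le_three_halves {x y : V3} (hx : ‖x‖ ≤ 1) (hy : ‖y‖ ≤ 1) : dd x y ≤ 3 / 2 := by
  have := dd_sq_le_two hx hy
  nlinarith [dd_nonneg x y]

theorem norm_sub_sq_le_dd {x y : V3} (hx : ‖x‖ ≤ 1) (hy : ‖y‖ ≤ 1) :
    ‖x - y‖ ^ 2 ≤ 2 * dd x y ^ 2 := by
  rw [dd_sq' hx hy]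
  nlinarith [norm_nonneg x, norm_nonneg y]

theorem norm_sub_le_dd {x y : V3} (hx : ‖x‖ ≤ 1) (hy : ‖y‖ ≤ 1) : ‖x - y‖ ≤ 3 / 2 * dd x y := by
  have := norm_sub_sq_le_dd hx hy
  have h1 := dd_nonneg x y
  by_contra hc
  push Not at hc
  nlinarith

theorem dd_le_norm_sub {x y : V3} (hx : ‖x‖ = 1) (hy : ‖y‖ = 1) : dd x y ≤ ‖x - y‖ := by
  have := dd_sq' hx.le hy.le
  rw [hx, hy] at this
  have h1 := dd_nonneg x y
  by_contra hc
  push Not at hc
  nlinarith [norm_nonneg (x - y)]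

/-- the exact triangle inequality on the unit ball -/
theorem dd_tri {x y z : V3} (hx : ‖x‖ ≤ 1) (hy : ‖y‖ ≤ 1) (hz : ‖z‖ ≤ 1) :
    dd x z ≤ dd x y + dd y z := by
  have h1 := dd_sq' hx hy
  have h2 := dd_sq' hy hz
  have h3 := dd_sq' hx hz
  have a0 := dd_nonneg x y
  have b0 := dd_nonneg y z
  have c0 := dd_nonneg x z
  have h4 : ‖x - z‖ ≤ ‖x - y‖ + ‖y - z‖ := norm_sub_le_norm_sub_add_norm_sub x y z
  have h5 := norm_sub_sq_le_dd hx hy
  have h6 := norm_sub_sq_le_dd hy hz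
  have n1 := norm_nonneg (x - y)
  have n2 := norm_nonneg (y - z)
  have n3 := norm_nonneg (x - z)
  have h7 : ‖x - y‖ * ‖y - z‖ ≤ 2 * (dd x y * dd y z) := by
    have : (‖x - y‖ * ‖y - z‖) ^ 2 ≤ (2 * (dd x y * dd y z)) ^ 2 := by
      have := mul_le_mul h5 h6 (by positivity) (by positivity)
      nlinarith
    exact le_of_sq_le_sq this (by positivity)
  have h8 : ‖x - z‖ ^ 2 ≤ (‖x - y‖ + ‖y - z‖) ^ 2 := by gcongr
  have h9 : ‖y‖ ^ 2 ≤ 1 := by nlinarith [norm_nonneg y]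
  have : dd x z ^ 2 ≤ (dd x y + dd y z) ^ 2 := by nlinarith
  exact le_of_sq_le_sq this (by positivity)

theorem dd_uu_sq_ge {x : V3} (hx : ‖x‖ ≤ 1) (v : V3) : 1 / (2 * q v ^ 2) ≤ dd x (uu v) ^ 2 := by
  rw [dd_sq' hx (norm_uu_le v), norm_uu_sq]
  have : 1 / (2 * q v ^ 2) = 1 / q v ^ 2 / 2 := by field_simp
  nlinarith [norm_nonneg x, sq_nonneg ‖x - uu v‖]

theorem dd_uu_pos {x : V3} (hx : ‖x‖ ≤ 1) (v : V3) : 0 < dd x (uu v) := by
  have h := dd_uu_sq_ge hx v
  have h1 : 0 < 1 / (2 * q v ^ 2) := by have := q_pos v; positivity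
  have h2 := dd_nonneg x (uu v)
  rcases h2.lt_or_eq with h3 | h3
  · exact h3
  · rw [← h3] at h; nlinarith

theorem one_le_q_dd_sq {x : V3} (hx : ‖x‖ ≤ 1) (v : V3) : 1 ≤ 2 * (q v * dd x (uu v)) ^ 2 := by
  have h := dd_uu_sq_ge hx v
  have h1 := q_pos v
  rw [div_le_iff₀ (by positivity)] at h
  nlinarith

theorem one_le_q_dd {x : V3} (hx : ‖x‖ ≤ 1) (v : V3) : 2 / 3 ≤ q v * dd x (uu v) := by
  have h := one_le_q_dd_sq hx v
  have h1 : 0 ≤ q v * dd x (uu v) := mul_nonneg (q_pos v).le (dd_nonneg _ _)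
  by_contra hc
  push Not at hc
  nlinarith

theorem b2_eq (w v : V3) : b2 w v = dd (hat w) (uu v) ^ 2 := by
  rw [dd_sq (norm_hat_le w) (norm_uu_le v)]; rfl

theorem b2_pos (w v : V3) : 0 < b2 w v := by
  rw [b2_eq]; exact pow_pos (dd_uu_pos (norm_hat_le w) v) 2

theorem b2_le_two (w v : V3) : b2 w v ≤ 2 := by
  rw [b2_eq]; exact dd_sq_le_two (norm_hat_le w) (norm_uu_le v)

theorem norm_sub_inner (w x : V3) (hx : ‖x‖ ≤ 1) : ‖w‖ - ⟪w, x⟫ = ‖w‖ * dd (hat w) x ^ 2 := by
  rw [dd_sq (norm_hat_le w) hx, inner_eq_norm_mul_hat]; ring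

/-! ### the cross product -/

@[simp] theorem cross_0 (a b : V3) : cross a b 0 = a 1 * b 2 - a 2 * b 1 := rfl
@[simp] theorem cross_1 (a b : V3) : cross a b 1 = a 2 * b 0 - a 0 * b 2 := rfl
@[simp] theorem cross_2 (a b : V3) : cross a b 2 = a 0 * b 1 - a 1 * b 0 := rfl

theorem V3_ext {a b : V3} (h0 : a 0 = b 0) (h1 : a 1 = b 1) (h2 : a 2 = b 2) : a = b := by
  ext i; fin_cases i
  · exact h0
  · exact h1
  · exact h2

theorem inner_V3 (a b : V3) : ⟪a, b⟫ = a 0 * b 0 + a 1 * b 1 + a 2 * b 2 := by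
  simp [PiLp.inner_apply, Fin.sum_univ_three]; ring

theorem norm_sq_V3 (a : V3) : ‖a‖ ^ 2 = a 0 ^ 2 + a 1 ^ 2 + a 2 ^ 2 := by
  rw [← real_inner_self_eq_norm_sq, inner_V3]; ring

theorem cross_add_left (a a' b : V3) : cross (a + a') b = cross a b + cross a' b := by
  apply V3_ext <;> simp <;> ring
theorem cross_add_right (a b b' : V3) : cross a (b + b') = cross a b + cross a b' := by
  apply V3_ext <;> simp <;> ring
theorem cross_sub_left (a a' b : V3) : cross (a - a') b = cross a b - cross a' b := by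
  apply V3_ext <;> simp <;> ring
theorem cross_sub_right (a b b' : V3) : cross a (b - b') = cross a b - cross a b' := by
  apply V3_ext <;> simp <;> ring
theorem cross_smul_left (c : ℝ) (a b : V3) : cross (c • a) b = c • cross a b := by
  apply V3_ext <;> simp <;> ring
theorem cross_smul_right (c : ℝ) (a b : V3) : cross a (c • b) = c • cross a b := by
  apply V3_ext <;> simp <;> ring
theorem cross_anticomm (a b : V3) : cross a b = -cross b a := by
  apply V3_ext <;> simp <;> ring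
@[simp] theorem cross_self (a : V3) : cross a a = 0 := by
  apply V3_ext <;> simp <;> ring
@[simp] theorem cross_zero_left (a : V3) : cross 0 a = 0 := by
  apply V3_ext <;> simp
@[simp] theorem cross_zero_right (a : V3) : cross a 0 = 0 := by
  apply V3_ext <;> simp
theorem inner_cross_left (a b : V3) : ⟪a, cross a b⟫ = 0 := by
  rw [inner_V3]; simp; ring
theorem inner_cross_right (a b : V3) : ⟪b, cross a b⟫ = 0 := by
  rw [inner_V3]; simp; ring
theorem inner_cross_assoc (a b c : V3) : ⟪cross a b, c⟫ = ⟪a, cross b c⟫ := by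
  rw [inner_V3, inner_V3]; simp; ring
theorem cross_cross (a b c : V3) : cross a (cross b c) = ⟪a, c⟫ • b - ⟪a, b⟫ • c := by
  apply V3_ext <;> simp [inner_V3] <;> ring
theorem norm_cross_sq (a b : V3) : ‖cross a b‖ ^ 2 = ‖a‖ ^ 2 * ‖b‖ ^ 2 - ⟪a, b⟫ ^ 2 := by
  rw [norm_sq_V3, norm_sq_V3, norm_sq_V3, inner_V3]; simp; ring
theorem norm_cross_le (a b : V3) : ‖cross a b‖ ≤ ‖a‖ * ‖b‖ := by
  apply le_of_sq_le_sq _ (by positivity)
  rw [norm_cross_sq, mul_pow]; nlinarith [sq_nonneg ⟪a, b⟫]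

/-- the cross product as a continuous bilinear map -/
def crossL : V3 →L[ℝ] V3 →L[ℝ] V3 :=
  LinearMap.mkContinuous₂
    (LinearMap.mk₂ ℝ cross cross_add_left cross_smul_left cross_add_right cross_smul_right) 1
    (fun a b => by simpa using norm_cross_le a b)

@[simp] theorem crossL_apply (a b : V3) : crossL a b = cross a b := rfl

theorem contDiff_cross {n : WithTop ℕ∞} : ContDiff ℝ n (fun p : V3 × V3 => cross p.1 p.2) :=
  crossL.isBoundedBilinearMap.contDiff

@[fun_prop] theorem ContDiff.cross' {X : Type*} [NormedAddCommGroup X] [NormedSpace ℝ X]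
    {n : WithTop ℕ∞} {f g : X → V3} (hf : ContDiff ℝ n f) (hg : ContDiff ℝ n g) :
    ContDiff ℝ n (fun x => cross (f x) (g x)) := contDiff_cross.comp (hf.prodMk hg)

@[fun_prop] theorem Continuous.cross' {X : Type*} [TopologicalSpace X] {f g : X → V3}
    (hf : Continuous f) (hg : Continuous g) : Continuous (fun x => cross (f x) (g x)) :=
  (contDiff_cross (n := 0)).continuous.comp (hf.prodMk hg)

@[fun_prop] theorem Measurable.cross' {X : Type*} [MeasurableSpace X] {f g : X → V3}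
    (hf : Measurable f) (hg : Measurable g) : Measurable (fun x => cross (f x) (g x)) :=
  (contDiff_cross (n := 0)).continuous.measurable.comp (hf.prodMk hg)

/-! ### regularity -/

@[fun_prop] theorem contDiff_q {n : WithTop ℕ∞} : ContDiff ℝ n q := by
  unfold q
  exact (contDiff_const.add (contDiff_norm_sq ℝ)).sqrt (fun v => by positivity)

@[fun_prop] theorem contDiff_uu {n : WithTop ℕ∞} : ContDiff ℝ n uu := by
  unfold uu
  exact (contDiff_q.inv (fun v => (q_pos v).ne')).smul contDiff_id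

@[fun_prop] theorem continuous_q : Continuous q := (contDiff_q (n := 0)).continuous
@[fun_prop] theorem continuous_uu : Continuous uu := (contDiff_uu (n := 0)).continuous
@[fun_prop] theorem measurable_q : Measurable q := continuous_q.measurable
@[fun_prop] theorem measurable_uu : Measurable uu := continuous_uu.measurable

@[fun_prop] theorem measurable_hat : Measurable hat := by
  unfold hat; exact (measurable_norm.inv).smul measurable_id

theorem continuousAt_hat {w : V3} (h : w ≠ 0) : ContinuousAt hat w := by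
  unfold hat
  exact (continuous_norm.continuousAt.inv₀ (norm_ne_zero_iff.2 h)).smul continuousAt_id

@[fun_prop] theorem Continuous.dd' {X : Type*} [TopologicalSpace X] {f g : X → V3}
    (hf : Continuous f) (hg : Continuous g) : Continuous (fun x => dd (f x) (g x)) := by
  unfold dd; exact (continuous_const.sub (hf.inner hg)).sqrt

@[fun_prop] theorem Measurable.dd' {X : Type*} [MeasurableSpace X] {f g : X → V3}
    (hf : Measurable f) (hg : Measurable g) : Measurable (fun x => dd (f x) (g x)) := by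
  unfold dd; exact (measurable_const.sub (hf.inner hg)).sqrt

theorem hasFDerivAt_q (v : V3) : HasFDerivAt q (innerSL ℝ (uu v)) v := by
  have h1 : HasFDerivAt (fun v : V3 => 1 + ‖v‖ ^ 2) (2 • innerSL ℝ v) v :=
    (hasStrictFDerivAt_norm_sq v).hasFDerivAt.const_add 1
  have h2 := h1.sqrt (by positivity)
  have e : (1 / (2 * √(1 + ‖v‖ ^ 2))) • (2 • innerSL ℝ v) = innerSL ℝ (uu v) := by
    ext x
    have := q_pos v
    unfold q at this
    simp only [uu, q, map_smul, _root_.smul_apply, smul_eq_mul, nsmul_eq_mul]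
    field_simp
    push_cast
    ring
  rw [e] at h2
  exact h2

theorem hasDerivAt_q {V : ℝ → V3} {F : V3} {s : ℝ} (h : HasDerivAt V F s) :
    HasDerivAt (fun t => q (V t)) ⟪uu (V s), F⟫ s :=
  (hasFDerivAt_q (V s)).comp_hasDerivAt s h

theorem hasDerivAt_uu {V : ℝ → V3} {F : V3} {s : ℝ} (h : HasDerivAt V F s) :
    HasDerivAt (fun t => uu (V t)) ((q (V s))⁻¹ • (F - ⟪uu (V s), F⟫ • uu (V s))) s := by
  have h1 := ((hasDerivAt_q h).inv (q_pos _).ne').smul h
  have e : (q (V s))⁻¹ • F + (-⟪uu (V s), F⟫ / q (V s) ^ 2) • V s =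
      (q (V s))⁻¹ • (F - ⟪uu (V s), F⟫ • uu (V s)) := by
    have := q_pos (V s)
    rw [smul_sub, sub_eq_add_neg, smul_smul, ← neg_smul]
    congr 1
    conv_lhs => rw [← q_smul_uu (V s)]
    rw [q_smul_uu, ← q_smul_uu (V s), smul_smul, q_smul_uu]
    congr 1
    field_simp
  rw [← e]
  exact h1

theorem fderiv_uu_apply (v F : V3) :
    fderiv ℝ uu v F = (q v)⁻¹ • (F - ⟪uu v, F⟫ • uu v) := by
  have h1 : HasDerivAt (fun t : ℝ => v + t • F) F 0 := by
    simpa using ((hasDerivAt_id (0 : ℝ)).smul_const F).const_add v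
  have h2 := hasDerivAt_uu h1
  have h3 : HasFDerivAt uu (fderiv ℝ uu v) ((fun t : ℝ => v + t • F) 0) := by
    simpa using ((contDiff_uu (n := 1)).differentiable one_ne_zero v).hasFDerivAt
  have h4 := h3.comp_hasDerivAt 0 h1
  have h5 := h4.unique h2
  simpa using h5

theorem norm_frc_le (v : V3) (k : Z) : ‖frc v k‖ ≤ 2 * ‖k‖ := by
  unfold frc
  have h1 := norm_fst_le k
  have h2 := norm_snd_le k
  have h3 := norm_cross_le (uu v) k.2
  have h4 := norm_uu_le v
  have h5 := norm_add_le k.1 (cross (uu v) k.2)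
  nlinarith [norm_nonneg k.2]

theorem inner_uu_frc (v : V3) (k : Z) : ⟪uu v, frc v k⟫ = ⟪uu v, k.1⟫ := by
  unfold frc; rw [inner_add_right, inner_cross_left, add_zero]

theorem norm_acc_le (v : V3) (k : Z) : ‖acc v k‖ ≤ 4 * ‖k‖ := by
  unfold acc
  have h1 := norm_frc_le v k
  have h2 := one_le_q v
  have h3 := norm_uu_le v
  have h4 : ‖⟪uu v, frc v k⟫ • uu v‖ ≤ ‖frc v k‖ := by
    rw [norm_smul]
    have := norm_inner_le_norm (𝕜 := ℝ) (uu v) (frc v k)
    nlinarith [norm_nonneg (uu v), norm_nonneg (frc v k), norm_nonneg ⟪uu v, frc v k⟫]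
  have h5 := norm_sub_le (frc v k) (⟪uu v, frc v k⟫ • uu v)
  rw [norm_smul, norm_inv, Real.norm_of_nonneg (q_pos v).le]
  have h6 : (q v)⁻¹ ≤ 1 := inv_le_one_of_one_le₀ h2
  nlinarith [norm_nonneg (frc v k - ⟪uu v, frc v k⟫ • uu v), inv_pos.2 (q_pos v)]

theorem Kg_nonneg (n : V3) (k : Z) : 0 ≤ Kg n k := Real.sqrt_nonneg _

theorem Kg_sq (n : V3) (k : Z) :
    Kg n k ^ 2 = ⟪k.1, n⟫ ^ 2 + ⟪k.2, n⟫ ^ 2 + ‖k.1 - ⟪k.1, n⟫ • n + cross n k.2‖ ^ 2 := by
  unfold Kg; rw [Real.sq_sqrt]; positivity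

theorem Kg_sq_unit {n : V3} (hn : ‖n‖ = 1) (k : Z) :
    Kg n k ^ 2 = ‖k.1‖ ^ 2 + ‖k.2‖ ^ 2 - 2 * ⟪cross k.1 k.2, n⟫ := by
  have h := norm_sq_V3 n
  rw [hn] at h
  rw [Kg_sq, norm_sq_V3, norm_sq_V3, norm_sq_V3]
  simp only [inner_V3, PiLp.add_apply, PiLp.sub_apply, PiLp.smul_apply, smul_eq_mul, cross_0,
    cross_1, cross_2]
  have h' : n 0 ^ 2 + n 1 ^ 2 + n 2 ^ 2 - 1 = 0 := by linarith
  linear_combination ((k.1 0 * n 0 + k.1 1 * n 1 + k.1 2 * n 2) ^ 2
    + (k.2 0 ^ 2 + k.2 1 ^ 2 + k.2 2 ^ 2)) * h'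

theorem Kg_le {n : V3} (hn : ‖n‖ ≤ 1) (k : Z) : Kg n k ≤ 4 * ‖k‖ := by
  have h1 := norm_fst_le k
  have h2 := norm_snd_le k
  have a1 : |⟪k.1, n⟫| ≤ ‖k‖ := (abs_real_inner_le_norm _ _).trans
    (by nlinarith [norm_nonneg k.1, norm_nonneg n])
  have a2 : |⟪k.2, n⟫| ≤ ‖k‖ := (abs_real_inner_le_norm _ _).trans
    (by nlinarith [norm_nonneg k.2, norm_nonneg n])
  have a3 : ‖k.1 - ⟪k.1, n⟫ • n + cross n k.2‖ ≤ 3 * ‖k‖ := by
    have b1 := norm_add_le (k.1 - ⟪k.1, n⟫ • n) (cross n k.2)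
    have b2 := norm_sub_le k.1 (⟪k.1, n⟫ • n)
    have b3 := norm_cross_le n k.2
    rw [norm_smul, Real.norm_eq_abs] at b2
    nlinarith [norm_nonneg k.2, norm_nonneg n, abs_nonneg ⟪k.1, n⟫]
  apply le_of_sq_le_sq _ (by positivity)
  rw [Kg_sq]
  have c1 : ⟪k.1, n⟫ ^ 2 ≤ ‖k‖ ^ 2 := by rw [← sq_abs]; gcongr
  have c2 : ⟪k.2, n⟫ ^ 2 ≤ ‖k‖ ^ 2 := by rw [← sq_abs]; gcongr
  have c3 : ‖k.1 - ⟪k.1, n⟫ • n + cross n k.2‖ ^ 2 ≤ (3 * ‖k‖) ^ 2 := by gcongr
  nlinarith [sq_nonneg ‖k‖]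

theorem kap_nonneg (n v : V3) (k : Z) : 0 ≤ kap n v k := by
  unfold kap; have := Kg_nonneg n k; positivity

theorem kT_nonneg (U w v : V3) : 0 ≤ kT U w v := by
  unfold kT
  have := dd_nonneg (hat w) U; have := dd_nonneg (hat w) (uu v); positivity

theorem kS_nonneg (U w v : V3) (k : Z) : 0 ≤ kS U w v k := by
  unfold kS
  have := dd_nonneg (hat w) U; have := dd_nonneg (hat w) (uu v); have := kap_nonneg (hat w) v k
  have := q_pos v; positivity

theorem sgp_nonneg (U w v : V3) : 0 ≤ sgp U w v := by unfold sgp; positivity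

theorem ph_nonneg (δ a₀ : ℝ) (e w v : V3) : 0 ≤ ph δ a₀ e w v := by
  unfold ph
  have := dd_nonneg (hat w) e; have := dd_nonneg (hat w) (uu v)
  split_ifs <;> positivity

theorem KK_nonneg (δ a₀ : ℝ) {ε : ℝ} (hε : 0 ≤ ε) (U w v : V3) (k : Z) :
    0 ≤ KK δ a₀ ε U w v k := by
  unfold KK
  have := dd_nonneg (hat w) U; have := dd_nonneg (hat w) (uu v)
  have := kT_nonneg U w v; have := kS_nonneg U w v k
  split_ifs <;> positivity

/-! ### the cutoff -/

theorem eta_of_le_one {x : ℝ} (h : x ≤ 1) : eta x = 0 :=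
  Real.smoothTransition.zero_of_nonpos (by linarith)

theorem eta_of_two_le {x : ℝ} (h : 2 ≤ x) : eta x = 1 :=
  Real.smoothTransition.one_of_one_le (by linarith)

theorem eta_nonneg (x : ℝ) : 0 ≤ eta x := Real.smoothTransition.nonneg _
theorem eta_le_one (x : ℝ) : eta x ≤ 1 := Real.smoothTransition.le_one _

@[fun_prop] theorem contDiff_eta {n : ℕ∞} : ContDiff ℝ n eta := by
  unfold eta; exact Real.smoothTransition.contDiff.comp (contDiff_id.sub contDiff_const)

@[fun_prop] theorem continuous_eta : Continuous eta := (contDiff_eta (n := 0)).continuous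

theorem hasDerivAt_eta (x : ℝ) : HasDerivAt eta (deriv eta x) x :=
  ((contDiff_eta (n := 1)).differentiable one_ne_zero x).hasDerivAt

theorem deriv_eta_of_lt_one {x : ℝ} (h : x < 1) : deriv eta x = 0 := by
  have : eta =ᶠ[𝓝 x] fun _ => 0 := by
    filter_upwards [Iio_mem_nhds h] with y hy using eta_of_le_one (le_of_lt hy)
  rw [this.deriv_eq]; simp

theorem deriv_eta_of_two_lt {x : ℝ} (h : 2 < x) : deriv eta x = 0 := by
  have : eta =ᶠ[𝓝 x] fun _ => 1 := by
    filter_upwards [Ioi_mem_nhds h] with y hy using eta_of_two_le (le_of_lt hy)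
  rw [this.deriv_eq]; simp

theorem continuous_deriv_eta : Continuous (deriv eta) :=
  (contDiff_eta (n := 1)).continuous_deriv le_rfl

theorem exists_deriv_eta_le : ∃ C : ℝ, 0 < C ∧ (∀ x, |deriv eta x| ≤ C) ∧
    ∀ x y, |eta x - eta y| ≤ C * |x - y| := by
  obtain ⟨C, hC⟩ := (isCompact_Icc (a := (1 : ℝ)) (b := 2)).exists_bound_of_continuousOn
    continuous_deriv_eta.continuousOn
  have h0 : 0 ≤ C := (norm_nonneg _).trans (hC 1 (by norm_num))
  have h1 : ∀ x, |deriv eta x| ≤ C + 1 := by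
    intro x
    rcases lt_or_ge x 1 with h | h
    · rw [deriv_eta_of_lt_one h]; simp; linarith
    rcases lt_or_ge 2 x with h' | h'
    · rw [deriv_eta_of_two_lt h']; simp; linarith
    · have := hC x ⟨h, h'⟩
      rw [Real.norm_eq_abs] at this; linarith
  refine ⟨C + 1, by linarith, h1, fun x y => ?_⟩
  have := Convex.norm_image_sub_le_of_norm_deriv_le (f := eta) (s := univ) (C := C + 1)
    (fun x _ => (hasDerivAt_eta x).differentiableAt) (fun x _ => h1 x) convex_univ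
    (mem_univ y) (mem_univ x)
  simpa [Real.norm_eq_abs] using this

/-! ### measurability of the kernels -/

section meas
variable {X : Type*} [MeasurableSpace X]

@[fun_prop] theorem Measurable.b2' {f g : X → V3} (hf : Measurable f) (hg : Measurable g) :
    Measurable (fun x => b2 (f x) (g x)) := by
  unfold b2; exact measurable_const.sub ((measurable_hat.comp hf).inner (measurable_uu.comp hg))

@[fun_prop] theorem Measurable.inner_V3 {f g : X → V3} (hf : Measurable f) (hg : Measurable g) :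
    Measurable (fun x => ⟪f x, g x⟫) := hf.inner hg

@[fun_prop] theorem Measurable.frc' {f : X → V3} {g : X → Z} (hf : Measurable f)
    (hg : Measurable g) : Measurable (fun x => frc (f x) (g x)) := by
  unfold frc; fun_prop

@[fun_prop] theorem Measurable.acc' {f : X → V3} {g : X → Z} (hf : Measurable f)
    (hg : Measurable g) : Measurable (fun x => acc (f x) (g x)) := by
  unfold acc; fun_prop

@[fun_prop] theorem Measurable.ET' {f g : X → V3} (hf : Measurable f) (hg : Measurable g) :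
    Measurable (fun x => ET (f x) (g x)) := by
  unfold ET; fun_prop

@[fun_prop] theorem Measurable.ES' {f g : X → V3} {k : X → Z} (hf : Measurable f)
    (hg : Measurable g) (hk : Measurable k) : Measurable (fun x => ES (f x) (g x) (k x)) := by
  unfold ES; fun_prop

@[fun_prop] theorem Measurable.ELW' {f g : X → V3} {k : X → Z} (hf : Measurable f)
    (hg : Measurable g) (hk : Measurable k) : Measurable (fun x => ELW (f x) (g x) (k x)) := by
  unfold ELW; fun_prop

@[fun_prop] theorem Measurable.BLW' {f g : X → V3} {k : X → Z} (hf : Measurable f)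
    (hg : Measurable g) (hk : Measurable k) : Measurable (fun x => BLW (f x) (g x) (k x)) := by
  unfold BLW; fun_prop

@[fun_prop] theorem Measurable.FLW' {U f g : X → V3} {k : X → Z} (hU : Measurable U)
    (hf : Measurable f) (hg : Measurable g) (hk : Measurable k) :
    Measurable (fun x => FLW (U x) (f x) (g x) (k x)) := by
  unfold FLW lor; fun_prop

@[fun_prop] theorem Measurable.Kg' {f : X → V3} {k : X → Z} (hf : Measurable f)
    (hk : Measurable k) : Measurable (fun x => Kg (f x) (k x)) := by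
  unfold Kg; fun_prop

@[fun_prop] theorem Measurable.kap' {f g : X → V3} {k : X → Z} (hf : Measurable f)
    (hg : Measurable g) (hk : Measurable k) : Measurable (fun x => kap (f x) (g x) (k x)) := by
  unfold kap; fun_prop

@[fun_prop] theorem Measurable.sgp' {U f g : X → V3} (hU : Measurable U) (hf : Measurable f)
    (hg : Measurable g) : Measurable (fun x => sgp (U x) (f x) (g x)) := by
  unfold sgp; fun_prop

@[fun_prop] theorem Measurable.kT' {U f g : X → V3} (hU : Measurable U) (hf : Measurable f)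
    (hg : Measurable g) : Measurable (fun x => kT (U x) (f x) (g x)) := by
  unfold kT; fun_prop

@[fun_prop] theorem Measurable.kS' {U f g : X → V3} {k : X → Z} (hU : Measurable U)
    (hf : Measurable f) (hg : Measurable g) (hk : Measurable k) :
    Measurable (fun x => kS (U x) (f x) (g x) (k x)) := by
  unfold kS; fun_prop

@[fun_prop] theorem Measurable.CG' (δ a₀ : ℝ) {e f g : X → V3} (he : Measurable e)
    (hf : Measurable f) (hg : Measurable g) :
    Measurable (fun x => CG δ a₀ (e x) (f x) (g x)) := by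
  have h := continuous_eta.measurable
  unfold CG GG vs; fun_prop

@[fun_prop] theorem Measurable.ph' (δ a₀ : ℝ) {e f g : X → V3} (he : Measurable e)
    (hf : Measurable f) (hg : Measurable g) :
    Measurable (fun x => ph δ a₀ (e x) (f x) (g x)) := by
  unfold ph
  refine Measurable.ite ?_ (by fun_prop) measurable_const
  have h1 : MeasurableSet {x | dd (hat (f x)) (uu (g x)) ≤ δ * dd (hat (f x)) (e x)} :=
    measurableSet_le (by fun_prop) (by fun_prop)
  have h2 : MeasurableSet {x | a₀ ≤ dd (hat (f x)) (e x)} :=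
    measurableSet_le (by fun_prop) (by fun_prop)
  exact h1.inter h2

@[fun_prop] theorem Measurable.KK' (δ a₀ ε : ℝ) {U f g : X → V3} {k : X → Z} (hU : Measurable U)
    (hf : Measurable f) (hg : Measurable g) (hk : Measurable k) :
    Measurable (fun x => KK δ a₀ ε (U x) (f x) (g x) (k x)) := by
  have h1 : MeasurableSet {x | dd (hat (f x)) (uu (g x)) ≤ 2 * δ * dd (hat (f x)) (U x)} :=
    measurableSet_le (by fun_prop) (by fun_prop)
  have h2 : MeasurableSet {x | a₀ / 2 ≤ dd (hat (f x)) (U x)} :=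
    measurableSet_le (by fun_prop) (by fun_prop)
  have h3 : MeasurableSet {x | δ * dd (hat (f x)) (U x) ≤ 4 * dd (hat (f x)) (uu (g x))} :=
    measurableSet_le (by fun_prop) (by fun_prop)
  have h4 : MeasurableSet {x | dd (hat (f x)) (U x) ≤ 4 * a₀} :=
    measurableSet_le (by fun_prop) (by fun_prop)
  have hI : MeasurableSet {x | RI δ a₀ (U x) (f x) (g x)} := h1.inter h2
  have hD : MeasurableSet {x | RD δ a₀ (U x) (f x) (g x)} := h3.union h4
  unfold KK
  refine ((by fun_prop : Measurable fun x => kT (U x) (f x) (g x)).add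
    (Measurable.ite hI (by fun_prop) measurable_const)).add (Measurable.mul ?_ (by fun_prop))
  exact (Measurable.ite hD measurable_const measurable_const).add
    (Measurable.ite hI (by fun_prop) measurable_const)

theorem measurableSet_box {U : X → V3} {f : X → Z} (hU : Measurable U) (hf : Measurable f)
    (p α β θ : ℝ) : MeasurableSet {x | f x ∈ box (U x) p α β θ} := by
  have h1 : Measurable fun x => q (f x).2 := by fun_prop
  have h2 : Measurable fun x => dd (hat (f x).1) (U x) := by fun_prop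
  have h3 : Measurable fun x => dd (hat (f x).1) (uu (f x).2) := by fun_prop
  have h4 : Measurable fun x => dd (U x) (uu (f x).2) := by fun_prop
  exact (h1 measurableSet_Ico).inter ((h2 measurableSet_Ico).inter
    ((h3 measurableSet_Ico).inter (h4 measurableSet_Ico)))

end meas

/-! ### small numerical facts -/

theorem dy_pos (j : ℕ) : 0 < dy j := by unfold dy; positivity
theorem dy_le_one (j : ℕ) : dy j ≤ 1 := by unfold dy; exact pow_le_one₀ (by norm_num) (by norm_num)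
theorem three_le_LL (k : ℕ) : 3 ≤ LL k := by unfold LL; have : (0 : ℝ) ≤ k := by positivity
                                             linarith
theorem LL_pos (k : ℕ) : 0 < LL k := lt_of_lt_of_le (by norm_num) (three_le_LL k)

theorem PS.Bd.mono {Γ : PS} {t t' P : ℝ} (h : Γ.Bd t P) (ht : t' ≤ t) : Γ.Bd t' P :=
  fun z hz σ hσ => h z hz σ ⟨hσ.1, hσ.2.trans ht⟩

theorem PS.Tst.mono {Γ : PS} {T T' P : ℝ} {z₀ : Z} {s₀ τ p' : ℝ} (h : Γ.Tst T P z₀ s₀ τ p')
    (hT : T ≤ T') : Γ.Tst T' P z₀ s₀ τ p' :=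
  { h with hT := h.hT.trans hT }

theorem PS.Tst.sub {Γ : PS} {T P : ℝ} {z₀ : Z} {s₀ τ p' : ℝ} (h : Γ.Tst T P z₀ s₀ τ p')
    {s₁ τ₁ : ℝ} (h1 : s₀ ≤ s₁) (h2 : 0 < τ₁) (h3 : s₁ + τ₁ ≤ s₀ + τ) :
    Γ.Tst T P z₀ s₁ τ₁ p' :=
  ⟨h.mem, h.h0.trans h1, h2, h3.trans h.hT, h.bd.mono h3, h.h8, h.hP,
    fun s hs => h.hq s ⟨h1.trans hs.1, hs.2.trans h3⟩⟩

theorem PS.Tst.half_le_U {Γ : PS} {T P : ℝ} {z₀ : Z} {s₀ τ p' : ℝ} (h : Γ.Tst T P z₀ s₀ τ p')
    {s : ℝ} (hs : s ∈ Icc s₀ (s₀ + τ)) : 1 / 2 ≤ ‖Γ.U z₀ s‖ :=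
  half_le_norm_uu (by have := (h.hq s hs).1; have := h.h8; linarith)

theorem PS.norm_U_le (Γ : PS) (z₀ : Z) (s : ℝ) : ‖Γ.U z₀ s‖ ≤ 1 := norm_uu_le _

/-- `w ≥ Θ L⁴` on admissible scales -/
theorem Scl.le_w {c Θ : ℝ} {k : ℕ} {w τ : ℝ} (h : Scl c k w τ) (hb : Big Θ k) :
    Θ * LL k ^ 4 ≤ w :=
  le_of_pow_le_pow_left₀ (n := 12) (by norm_num) h.hw.le (le_trans hb h.lo)

end Vale.Agent.P107
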