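import Vale.Agent.P107.Stmts2

/-! Problem P107: elementary facts used in part II. -/

open MeasureTheory Set Filter Topology
open scoped ENNReal RealInnerProductSpace ContDiff

noncomputable section
namespace Vale.Agent.P107

section b3
variable {X W W' W'' : Type} [NormedAddCommGroup X] [NormedSpace ℝ X] [NormedAddCommGroup W]
  [NormedSpace ℝ W] [NormedAddCommGroup W'] [NormedSpace ℝ W'] [NormedAddCommGroup W'']
  [NormedSpace ℝ W'']

theorem B3.a_nonneg {g : X → W} {a b c : ℝ} (h : B3 g a b c) : 0 ≤ a :=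
  (norm_nonneg _).trans (h.b0 0)

theorem B3.b_nonneg {g : X → W} {a b c : ℝ} (h : B3 g a b c) : 0 ≤ b :=
  (norm_nonneg _).trans (h.b1 0)

theorem B3.c_nonneg [Nontrivial X] {g : X → W} {a b c : ℝ} (h : B3 g a b c) : 0 ≤ c := by
  obtain ⟨x, hx⟩ := exists_ne (0 : X)
  have h1 := (norm_nonneg _).trans (h.b2 x 0)
  rw [sub_zero] at h1
  exact nonneg_of_mul_nonneg_left h1 (norm_pos_iff.2 hx)

theorem B3.mono {g : X → W} {a b c a' b' c' : ℝ} (h : B3 g a b c) (ha : a ≤ a') (hb : b ≤ b')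
    (hc : c ≤ c') : B3 g a' b' c' :=
  ⟨h.diff, fun x => (h.b0 x).trans ha, fun x => (h.b1 x).trans hb,
    fun x y => (h.b2 x y).trans (mul_le_mul_of_nonneg_right hc (norm_nonneg _))⟩

theorem B3.continuous {g : X → W} {a b c : ℝ} (h : B3 g a b c) : Continuous g :=
  h.diff.continuous

theorem norm_sub_le_of_fderiv {g : X → W} {b : ℝ} (hd : Differentiable ℝ g)
    (hb : ∀ x, ‖fderiv ℝ g x‖ ≤ b) (x y : X) : ‖g x - g y‖ ≤ b * ‖x - y‖ :=
  Convex.norm_image_sub_le_of_norm_fderiv_le (s := univ) (fun x _ => hd x) (fun x _ => hb x)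
    convex_univ (mem_univ y) (mem_univ x)

theorem B3.lip {g : X → W} {a b c : ℝ} (h : B3 g a b c) (x y : X) : ‖g x - g y‖ ≤ b * ‖x - y‖ :=
  norm_sub_le_of_fderiv h.diff h.b1 x y

omit [NormedSpace ℝ X] [NormedSpace ℝ W] in
theorem continuous_of_norm_sub_le {g : X → W} {c : ℝ} (h : ∀ x y, ‖g x - g y‖ ≤ c * ‖x - y‖) :
    Continuous g := by
  refine (LipschitzWith.of_dist_le_mul (K := ⟨max c 0, le_max_right _ _⟩) fun x y => ?_).continuous
  rw [dist_eq_norm, dist_eq_norm]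
  exact (h x y).trans (mul_le_mul_of_nonneg_right (le_max_left _ _) (norm_nonneg _))

theorem B3.continuous_fderiv {g : X → W} {a b c : ℝ} (h : B3 g a b c) :
    Continuous (fderiv ℝ g) := continuous_of_norm_sub_le h.b2

theorem B3.contDiff {g : X → W} {a b c : ℝ} (h : B3 g a b c) : ContDiff ℝ 1 g :=
  contDiff_one_iff_fderiv.2 ⟨h.diff, h.continuous_fderiv⟩

/-- Taylor bound -/
theorem norm_taylor_le {g : X → W} {c : ℝ} (hd : Differentiable ℝ g) (hc : 0 ≤ c)
    (h : ∀ x y, ‖fderiv ℝ g x - fderiv ℝ g y‖ ≤ c * ‖x - y‖) (x y : X) :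
    ‖g y - g x - fderiv ℝ g x (y - x)‖ ≤ c * ‖y - x‖ ^ 2 := by
  have := Convex.norm_image_sub_le_of_norm_fderiv_le' (f := g) (φ := fderiv ℝ g x)
    (s := Metric.closedBall x ‖y - x‖) (C := c * ‖y - x‖) (fun z _ => hd z)
    (fun z hz => (h z x).trans (mul_le_mul_of_nonneg_left (by simpa [dist_eq_norm] using hz) hc))
    (convex_closedBall _ _) (Metric.mem_closedBall_self (norm_nonneg _))
    (show y ∈ Metric.closedBall x ‖y - x‖ by simp [dist_eq_norm])
  calc _ ≤ c * ‖y - x‖ * ‖y - x‖ := this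
    _ = _ := by ring

/-- interpolation -/
theorem norm_fderiv_le_interp {g : X → W} {L η r : ℝ} (hd : Differentiable ℝ g) (hL : 0 ≤ L)
    (h : ∀ x y, ‖fderiv ℝ g x - fderiv ℝ g y‖ ≤ L * ‖x - y‖) (hr : 0 < r) (x : X)
    (hη : ∀ y, ‖y - x‖ ≤ r → ‖g y‖ ≤ η) : ‖fderiv ℝ g x‖ ≤ 2 * η / r + L * r := by
  have h0 : 0 ≤ η := (norm_nonneg _).trans (hη x (by simpa using hr.le))
  refine ContinuousLinearMap.opNorm_le_of_unit_norm (by positivity) fun v hv => ?_
  have h1 := norm_taylor_le hd hL h x (x + r • v)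
  have h2 : ‖r • v‖ = r := by rw [norm_smul, hv, Real.norm_of_nonneg hr.le, mul_one]
  rw [add_sub_cancel_left, h2, map_smul] at h1
  have h3 := hη (x + r • v) (by rw [add_sub_cancel_left, h2])
  have h4 := hη x (by simpa using hr.le)
  have h5 : ‖r • fderiv ℝ g x v‖ ≤ 2 * η + L * r ^ 2 := by
    have e : r • fderiv ℝ g x v = g (x + r • v) - g x - (g (x + r • v) - g x - r • fderiv ℝ g x v) := by
      abel
    rw [e]
    have := norm_sub_le (g (x + r • v) - g x) (g (x + r • v) - g x - r • fderiv ℝ g x v)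
    have := norm_sub_le (g (x + r • v)) (g x)
    linarith
  rw [norm_smul, Real.norm_of_nonneg hr.le] at h5
  rw [div_add' _ _ _ hr.ne', le_div_iff₀ hr]
  nlinarith

theorem B3.const (w : W) : B3 (fun _ : X => w) ‖w‖ 0 0 :=
  ⟨differentiable_const _, fun _ => le_rfl, fun _ => by simp, fun _ _ => by simp⟩

theorem B3.add {g h : X → W} {a b c a' b' c' : ℝ} (hg : B3 g a b c) (hh : B3 h a' b' c') :
    B3 (fun x => g x + h x) (a + a') (b + b') (c + c') := by
  have e : ∀ x, fderiv ℝ (fun x => g x + h x) x = fderiv ℝ g x + fderiv ℝ h x :=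
    fun x => fderiv_add (hg.diff x) (hh.diff x)
  refine ⟨hg.diff.add hh.diff, fun x => norm_add_le_of_le (hg.b0 x) (hh.b0 x), fun x => ?_,
    fun x y => ?_⟩
  · rw [e]; exact norm_add_le_of_le (hg.b1 x) (hh.b1 x)
  · rw [e, e, add_sub_add_comm, add_mul]; exact norm_add_le_of_le (hg.b2 x y) (hh.b2 x y)

theorem B3.clm {g : X → W} {a b c : ℝ} (hg : B3 g a b c) (L : W →L[ℝ] W') :
    B3 (fun x => L (g x)) (‖L‖ * a) (‖L‖ * b) (‖L‖ * c) := by
  have e : ∀ x, fderiv ℝ (fun x => L (g x)) x = L.comp (fderiv ℝ g x) :=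
    fun x => (L.hasFDerivAt.comp x (hg.diff x).hasFDerivAt).fderiv
  refine ⟨L.differentiable.comp hg.diff, fun x => L.le_of_opNorm_le_of_le le_rfl (hg.b0 x),
    fun x => ?_, fun x y => ?_⟩
  · rw [e]; exact (L.opNorm_comp_le _).trans (mul_le_mul_of_nonneg_left (hg.b1 x) (norm_nonneg _))
  · rw [e, e, ← ContinuousLinearMap.comp_sub, mul_assoc]
    exact (L.opNorm_comp_le _).trans (mul_le_mul_of_nonneg_left (hg.b2 x y) (norm_nonneg _))

theorem B3.const_smul {g : X → W} {a b c : ℝ} (hg : B3 g a b c) (r : ℝ) :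
    B3 (fun x => r • g x) (|r| * a) (|r| * b) (|r| * c) := by
  have e : ∀ x, fderiv ℝ (fun x => r • g x) x = r • fderiv ℝ g x :=
    fun x => fderiv_const_smul (hg.diff x) r
  refine ⟨hg.diff.const_smul r, fun x => ?_, fun x => ?_, fun x y => ?_⟩
  · rw [norm_smul]; exact mul_le_mul_of_nonneg_left (hg.b0 x) (abs_nonneg _)
  · rw [e, norm_smul]; exact mul_le_mul_of_nonneg_left (hg.b1 x) (abs_nonneg _)
  · rw [e, e, ← smul_sub, norm_smul, mul_assoc]
    exact mul_le_mul_of_nonneg_left (hg.b2 x y) (abs_nonneg _)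

theorem B3.neg {g : X → W} {a b c : ℝ} (hg : B3 g a b c) : B3 (fun x => -g x) a b c := by
  simpa using hg.const_smul (-1)

theorem B3.sub {g h : X → W} {a b c a' b' c' : ℝ} (hg : B3 g a b c) (hh : B3 h a' b' c') :
    B3 (fun x => g x - h x) (a + a') (b + b') (c + c') := by
  simpa [sub_eq_add_neg] using hg.add hh.neg

theorem B3.prod {g : X → W} {h : X → W'} {a b c : ℝ} (hg : B3 g a b c) (hh : B3 h a b c) :
    B3 (fun x => (g x, h x)) a b c := by
  have e : ∀ x, fderiv ℝ (fun x => (g x, h x)) x = (fderiv ℝ g x).prod (fderiv ℝ h x) :=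
    fun x => (hg.diff x).fderiv_prodMk (hh.diff x)
  refine ⟨hg.diff.prodMk hh.diff, fun x => ?_, fun x => ?_, fun x y => ?_⟩
  · rw [Prod.norm_mk]; exact max_le (hg.b0 x) (hh.b0 x)
  · rw [e, ContinuousLinearMap.opNorm_prod, Prod.norm_mk]; exact max_le (hg.b1 x) (hh.b1 x)
  · have : (fderiv ℝ g x).prod (fderiv ℝ h x) - (fderiv ℝ g y).prod (fderiv ℝ h y) =
        (fderiv ℝ g x - fderiv ℝ g y).prod (fderiv ℝ h x - fderiv ℝ h y) := by
      ext v <;> simp
    rw [e, e, this, ContinuousLinearMap.opNorm_prod, Prod.norm_mk]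
    exact max_le (hg.b2 x y) (hh.b2 x y)

theorem B3.fst {g : X → W × W'} {a b c : ℝ} (hg : B3 g a b c) (hc : 0 ≤ c) :
    B3 (fun x => (g x).1) a b c := by
  have h1 : ‖ContinuousLinearMap.fst ℝ W W'‖ ≤ 1 := ContinuousLinearMap.norm_fst_le ..
  have := hg.a_nonneg; have := hg.b_nonneg
  exact (hg.clm (ContinuousLinearMap.fst ℝ W W')).mono (by nlinarith) (by nlinarith) (by nlinarith)

theorem B3.snd {g : X → W × W'} {a b c : ℝ} (hg : B3 g a b c) (hc : 0 ≤ c) :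
    B3 (fun x => (g x).2) a b c := by
  have h1 : ‖ContinuousLinearMap.snd ℝ W W'‖ ≤ 1 := ContinuousLinearMap.norm_snd_le ..
  have := hg.a_nonneg; have := hg.b_nonneg
  exact (hg.clm (ContinuousLinearMap.snd ℝ W W')).mono (by nlinarith) (by nlinarith) (by nlinarith)

/-- composition; the inner map need not be bounded -/
theorem B3.comp {Φ : W → W'} {g : X → W} {a b c b' c' : ℝ} (hΦ : B3 Φ a b c) (hc : 0 ≤ c)
    (hd : Differentiable ℝ g) (h1 : ∀ x, ‖fderiv ℝ g x‖ ≤ b')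
    (h2 : ∀ x y, ‖fderiv ℝ g x - fderiv ℝ g y‖ ≤ c' * ‖x - y‖) :
    B3 (fun x => Φ (g x)) a (b * b') (c * b' ^ 2 + b * c') := by
  have e : ∀ x, fderiv ℝ (fun x => Φ (g x)) x = (fderiv ℝ Φ (g x)).comp (fderiv ℝ g x) :=
    fun x => ((hΦ.diff _).hasFDerivAt.comp x (hd x).hasFDerivAt).fderiv
  have hb := hΦ.b_nonneg
  have hb' : 0 ≤ b' := (norm_nonneg _).trans (h1 0)
  refine ⟨hΦ.diff.comp hd, fun x => hΦ.b0 _, fun x => ?_, fun x y => ?_⟩
  · rw [e]; exact (ContinuousLinearMap.opNorm_comp_le _ _).trans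
      (mul_le_mul (hΦ.b1 _) (h1 x) (norm_nonneg _) hb)
  · have e2 : (fderiv ℝ Φ (g x)).comp (fderiv ℝ g x) - (fderiv ℝ Φ (g y)).comp (fderiv ℝ g y) =
        (fderiv ℝ Φ (g x) - fderiv ℝ Φ (g y)).comp (fderiv ℝ g x)
          + (fderiv ℝ Φ (g y)).comp (fderiv ℝ g x - fderiv ℝ g y) := by
      ext v; simp
    rw [e, e, e2]
    have k1 := norm_sub_le_of_fderiv hd h1 x y
    have k2 : ‖fderiv ℝ Φ (g x) - fderiv ℝ Φ (g y)‖ ≤ c * (b' * ‖x - y‖) :=
      (hΦ.b2 _ _).trans (mul_le_mul_of_nonneg_left k1 hc)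
    have k3 := (ContinuousLinearMap.opNorm_comp_le (fderiv ℝ Φ (g x) - fderiv ℝ Φ (g y))
      (fderiv ℝ g x)).trans (mul_le_mul k2 (h1 x) (norm_nonneg _) (by positivity))
    have k4 := (ContinuousLinearMap.opNorm_comp_le (fderiv ℝ Φ (g y))
      (fderiv ℝ g x - fderiv ℝ g y)).trans (mul_le_mul (hΦ.b1 _) (h2 x y) (norm_nonneg _) hb)
    refine (norm_add_le_of_le k3 k4).trans (le_of_eq ?_)
    ring

/-- precomposition with a linear map of norm at most one -/
theorem B3.comp_clm {Φ : W → W'} {a b c : ℝ} (hΦ : B3 Φ a b c) (hc : 0 ≤ c) (L : X →L[ℝ] W)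
    (hL : ‖L‖ ≤ 1) : B3 (fun x => Φ (L x)) a b c := by
  have := hΦ.comp hc (g := L) (b' := 1) (c' := 0) L.differentiable (fun x => by simpa using hL)
    (fun x y => by simp)
  simpa using this

/-- bilinear products -/
theorem B3.bilin {g : X → W} {h : X → W'} {a b c a' b' c' : ℝ} (hg : B3 g a b c)
    (hh : B3 h a' b' c') (hc : 0 ≤ c) (B : W →L[ℝ] W' →L[ℝ] W'') (hB : ‖B‖ ≤ 1) :
    B3 (fun x => B (g x) (h x)) (a * a') (a * b' + b * a') (a * c' + 2 * (b * b') + c * a') := by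
  have e : ∀ x v, fderiv ℝ (fun x => B (g x) (h x)) x v =
      B (g x) (fderiv ℝ h x v) + B (fderiv ℝ g x v) (h x) := by
    intro x v
    rw [B.fderiv_of_bilinear (hg.diff x) (hh.diff x)]; simp
  have hBB : ∀ u u', ‖B u u'‖ ≤ ‖u‖ * ‖u'‖ := fun u u' =>
    (B.le_opNorm₂ u u').trans (by
      have := norm_nonneg u; have := norm_nonneg u'
      nlinarith [mul_nonneg (norm_nonneg u) (norm_nonneg u')])
  have ha := hg.a_nonneg; have hb := hg.b_nonneg
  have ha' := hh.a_nonneg; have hb' := hh.b_nonneg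
  refine ⟨fun x => ((B.hasFDerivAt_of_bilinear (hg.diff x).hasFDerivAt
    (hh.diff x).hasFDerivAt)).differentiableAt, fun x => ?_, fun x => ?_, fun x y => ?_⟩
  · exact (hBB _ _).trans (mul_le_mul (hg.b0 x) (hh.b0 x) (norm_nonneg _) ha)
  · refine ContinuousLinearMap.opNorm_le_bound _ (by positivity) fun v => ?_
    rw [e]
    have k1 := (hBB (g x) (fderiv ℝ h x v)).trans (mul_le_mul (hg.b0 x)
      ((fderiv ℝ h x).le_of_opNorm_le (hh.b1 x) v) (norm_nonneg _) ha)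
    have k2 := (hBB (fderiv ℝ g x v) (h x)).trans (mul_le_mul
      ((fderiv ℝ g x).le_of_opNorm_le (hg.b1 x) v) (hh.b0 x) (norm_nonneg _) (by positivity))
    refine (norm_add_le_of_le k1 k2).trans (le_of_eq ?_); ring
  · have hc' : 0 ≤ c' * ‖x - y‖ := (norm_nonneg _).trans (hh.b2 x y)
    have hn := norm_nonneg (x - y)
    refine ContinuousLinearMap.opNorm_le_bound _ ?_ fun v => ?_
    · have : (a * c' + 2 * (b * b') + c * a') * ‖x - y‖ =
          a * (c' * ‖x - y‖) + 2 * (b * b') * ‖x - y‖ + c * a' * ‖x - y‖ := by ring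
      rw [this]; positivity
    have e2 : (fderiv ℝ (fun x => B (g x) (h x)) x - fderiv ℝ (fun x => B (g x) (h x)) y) v =
        (B (g x) ((fderiv ℝ h x - fderiv ℝ h y) v) + B (g x - g y) (fderiv ℝ h y v))
        + (B ((fderiv ℝ g x - fderiv ℝ g y) v) (h x) + B (fderiv ℝ g y v) (h x - h y)) := by
      simp only [_root_.sub_apply, e, map_sub]; abel
    rw [e2]
    have k1 := (hBB (g x) ((fderiv ℝ h x - fderiv ℝ h y) v)).trans (mul_le_mul (hg.b0 x)
      ((fderiv ℝ h x - fderiv ℝ h y).le_of_opNorm_le (hh.b2 x y) v) (norm_nonneg _) ha)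
    have k2 := (hBB (g x - g y) (fderiv ℝ h y v)).trans (mul_le_mul (hg.lip x y)
      ((fderiv ℝ h y).le_of_opNorm_le (hh.b1 y) v) (norm_nonneg _) (by positivity))
    have k3 := (hBB ((fderiv ℝ g x - fderiv ℝ g y) v) (h x)).trans (mul_le_mul
      ((fderiv ℝ g x - fderiv ℝ g y).le_of_opNorm_le (hg.b2 x y) v) (hh.b0 x) (norm_nonneg _)
      (by positivity))
    have k4 := (hBB (fderiv ℝ g y v) (h x - h y)).trans (mul_le_mul
      ((fderiv ℝ g y).le_of_opNorm_le (hg.b1 y) v) (hh.lip x y) (norm_nonneg _) (by positivity))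
    refine (norm_add_le_of_le (norm_add_le_of_le k1 k2) (norm_add_le_of_le k3 k4)).trans
      (le_of_eq ?_)
    ring

theorem B3.of_iteratedFDeriv {g : X → W} {C : ℝ} (hg : ContDiff ℝ 2 g)
    (h0 : ∀ x, ‖iteratedFDeriv ℝ 0 g x‖ ≤ C) (h1 : ∀ x, ‖iteratedFDeriv ℝ 1 g x‖ ≤ C)
    (h2 : ∀ x, ‖iteratedFDeriv ℝ 2 g x‖ ≤ C) : B3 g C C C := by
  refine ⟨hg.differentiable two_ne_zero, fun x => by simpa using h0 x,
    fun x => by simpa using h1 x, fun x y => ?_⟩
  have hd : Differentiable ℝ (fderiv ℝ g) :=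
    (hg.fderiv_right (m := 1) le_rfl).differentiable one_ne_zero
  refine norm_sub_le_of_fderiv hd (fun z => ?_) x y
  have := h2 z
  rwa [← norm_iteratedFDeriv_fderiv, norm_iteratedFDeriv_one] at this

theorem B3.of_compact {g : X → W} (hg : ContDiff ℝ 2 g) (hc : HasCompactSupport g) :
    ∃ C, 1 ≤ C ∧ B3 g C C C := by
  obtain ⟨C0, h0⟩ := (hc.iteratedFDeriv (𝕜 := ℝ) 0).exists_bound_of_continuous
    (hg.continuous_iteratedFDeriv (by norm_num))
  obtain ⟨C1, h1⟩ := (hc.iteratedFDeriv (𝕜 := ℝ) 1).exists_bound_of_continuous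
    (hg.continuous_iteratedFDeriv (by norm_num))
  obtain ⟨C2, h2⟩ := (hc.iteratedFDeriv (𝕜 := ℝ) 2).exists_bound_of_continuous
    (hg.continuous_iteratedFDeriv (by norm_num))
  refine ⟨max (max 1 C0) (max C1 C2), by simp, B3.of_iteratedFDeriv hg (fun x => ?_)
    (fun x => ?_) (fun x => ?_)⟩
  · exact (h0 x).trans (by simp)
  · exact (h1 x).trans (by simp)
  · exact (h2 x).trans (by simp)

theorem Reg.bd' {K : ℝ → X → W} (h : Reg K) (T : ℝ) :
    ∃ C : ℝ, 1 ≤ C ∧ ∀ t, |t| ≤ T → B3 (K t) C C C := by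
  obtain ⟨C, hC⟩ := h.bd T
  exact ⟨max C 1, le_max_right _ _, fun t ht =>
    (hC t ht).mono (le_max_left _ _) (le_max_left _ _) (le_max_left _ _)⟩

theorem Reg.diff {K : ℝ → X → W} (h : Reg K) (t : ℝ) : Differentiable ℝ (K t) := by
  obtain ⟨C, hC⟩ := h.bd |t|
  exact (hC t le_rfl).diff

theorem Reg.contDiff {K : ℝ → X → W} (h : Reg K) (t : ℝ) : ContDiff ℝ 1 (K t) := by
  obtain ⟨C, hC⟩ := h.bd |t|
  exact (hC t le_rfl).contDiff

theorem Reg.continuous {K : ℝ → X → W} (h : Reg K) (t : ℝ) : Continuous (K t) :=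
  (h.diff t).continuous

theorem Reg.add {K K' : ℝ → X → W} (h : Reg K) (h' : Reg K') :
    Reg (fun t x => K t x + K' t x) := by
  refine ⟨h.cont.add h'.cont, fun T => ?_⟩
  obtain ⟨C, hC⟩ := h.bd T
  obtain ⟨C', hC'⟩ := h'.bd T
  exact ⟨C + C', fun t ht => (hC t ht).add (hC' t ht)⟩

theorem Reg.const_smul {K : ℝ → X → W} (h : Reg K) (r : ℝ) : Reg (fun t x => r • K t x) := by
  refine ⟨h.cont.const_smul r, fun T => ?_⟩
  obtain ⟨C, hC⟩ := h.bd T
  exact ⟨|r| * C, fun t ht => (hC t ht).const_smul r⟩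

/-- the spatial derivative of a regular family is jointly continuous -/
theorem Reg.continuous_fderiv (hc : ContD) [FiniteDimensional ℝ X] {K : ℝ → X → W} (h : Reg K) :
    Continuous (fun p : ℝ × X => fderiv ℝ (K p.1) p.2) := by
  refine hc ℝ X W K h.cont h.diff fun t => ?_
  obtain ⟨C, hC⟩ := h.bd (|t| + 1)
  refine ⟨C, ?_⟩
  have : ∀ᶠ t' in 𝓝 t, |t'| < |t| + 1 :=
    continuous_abs.continuousAt.eventually (gt_mem_nhds (by linarith))
  filter_upwards [this] with t' ht' using (hC t' ht'.le).b2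

end b3

theorem ee_apply (j i : Fin 3) : ee j i = if i = j then 1 else 0 := by
  simp [ee]

theorem norm_ee (j : Fin 3) : ‖ee j‖ = 1 := by simp [ee]

theorem inner_ee (j : Fin 3) (x : V3) : ⟪ee j, x⟫ = x j := by
  simp [ee, EuclideanSpace.inner_single_left]

theorem sum_ee (x : V3) : ∑ j, x j • ee j = x := by
  apply V3_ext <;> simp [Fin.sum_univ_three, ee_apply]

theorem pd_eq (A : V3 → V3) (j i : Fin 3) (x : V3) : pd A j i x = fderiv ℝ A x (ee j) i := rfl

@[simp] theorem curl_0 (A : V3 → V3) (x : V3) : curl A x 0 = pd A 1 2 x - pd A 2 1 x := rfl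
@[simp] theorem curl_1 (A : V3 → V3) (x : V3) : curl A x 1 = pd A 2 0 x - pd A 0 2 x := rfl
@[simp] theorem curl_2 (A : V3 → V3) (x : V3) : curl A x 2 = pd A 0 1 x - pd A 1 0 x := rfl
@[simp] theorem gx_apply (φ : ℝ × V3 → ℝ) (p : ℝ × V3) (j : Fin 3) : gx φ p j = dx j φ p := rfl

theorem curl_eq_sum (A : V3 → V3) (x : V3) :
    curl A x = ∑ j, cross (ee j) (fderiv ℝ A x (ee j)) := by
  apply V3_ext <;> simp [Fin.sum_univ_three, ee_apply, pd_eq] <;> ring

theorem dvg_eq_sum (A : V3 → V3) (x : V3) : dvg A x = ∑ j, fderiv ℝ A x (ee j) j := by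
  simp [dvg, Fin.sum_univ_three, pd_eq]

theorem gx_eq_sum (φ : ℝ × V3 → ℝ) (p : ℝ × V3) : gx φ p = ∑ j, dx j φ p • ee j :=
  (sum_ee _).symm

theorem dD_eq (φ : ℝ × V3 → ℝ) (p : ℝ × V3) (a : ℝ) (b : V3) :
    dD (a, b) φ p = a * dt φ p + ⟪b, gx φ p⟫ := by
  have e : ((a, b) : ℝ × V3) = a • ((1 : ℝ), (0 : V3)) + ∑ j, b j • ((0 : ℝ), ee j) := by
    ext
    · simp [Prod.fst_sum]
    · simp [Prod.snd_sum, sum_ee]
  unfold dD
  rw [e, map_add, map_smul, map_sum, inner_V3]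
  simp only [map_smul, smul_eq_mul, Fin.sum_univ_three, gx_apply, dt, dx, dD]

theorem contDiff_dD {φ : ℝ × V3 → ℝ} (h : ContDiff ℝ ∞ φ) (v : ℝ × V3) : ContDiff ℝ ∞ (dD v φ) :=
  (h.fderiv_right (m := ∞) le_rfl).clm_apply contDiff_const

theorem continuous_dD {φ : ℝ × V3 → ℝ} (h : ContDiff ℝ 1 φ) (v : ℝ × V3) : Continuous (dD v φ) :=
  (h.continuous_fderiv one_ne_zero).clm_apply continuous_const

theorem continuous_gx {φ : ℝ × V3 → ℝ} (h : ContDiff ℝ 1 φ) : Continuous (gx φ) := by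
  have : gx φ = fun p => ∑ j, dx j φ p • ee j := funext (gx_eq_sum φ)
  rw [this]
  exact continuous_finsetSum _ fun j _ => (continuous_dD h _).smul continuous_const

theorem Test.dD {φ : ℝ × V3 → ℝ} (h : Test φ) (v : ℝ × V3) : Test (dD v φ) := by
  have hs : tsupport (P107.dD v φ) ⊆ tsupport φ := tsupport_fderiv_apply_subset ℝ v
  exact ⟨contDiff_dD h.smooth v, h.compact.fderiv_apply (𝕜 := ℝ) v, hs.trans h.pos⟩

theorem Test.bound {φ : ℝ × V3 → ℝ} (h : Test φ) :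
    ∃ R : ℝ, 0 < R ∧ ∀ p, φ p ≠ 0 → 0 < p.1 ∧ p.1 ≤ R ∧ ‖p.2‖ ≤ R := by
  obtain ⟨R, hR, hb⟩ := h.compact.isCompact.isBounded.exists_pos_norm_le
  refine ⟨R, hR, fun p hp => ?_⟩
  have hm : p ∈ tsupport φ := subset_tsupport _ hp
  have := hb p hm
  exact ⟨h.pos hm, (le_abs_self _).trans ((norm_fst_le p).trans this), (norm_snd_le p).trans this⟩

theorem Test.cpt {φ : ℝ × V3 → ℝ} (h : Test φ) : Cpt φ := by
  obtain ⟨R, -, hb⟩ := h.bound
  refine ⟨R, R, fun p hp => ?_, fun p _ hp => ?_⟩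
  · by_contra hc; linarith [(hb p hc).2.1]
  · by_contra hc; linarith [(hb p hc).2.2]

theorem Test.zero_of_nonpos {φ : ℝ × V3 → ℝ} (h : Test φ) {p : ℝ × V3} (hp : p.1 ≤ 0) :
    φ p = 0 := by
  obtain ⟨R, -, hb⟩ := h.bound
  by_contra hc; linarith [(hb p hc).1]

theorem Cpt.dD {ψ : ℝ × V3 → ℝ} (h : Cpt ψ) (v : ℝ × V3) : Cpt (dD v ψ) := by
  obtain ⟨T, R, h1, h2⟩ := h
  refine ⟨T, R, fun p hp => ?_, fun p hp hp' => ?_⟩
  · have : ψ =ᶠ[𝓝 p] fun _ => 0 := by
      filter_upwards [(isOpen_lt continuous_const continuous_fst).mem_nhds hp] with r hr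
        using h1 r hr
    unfold P107.dD; rw [this.fderiv_eq]; simp
  · have : ψ =ᶠ[𝓝 p] fun _ => 0 := by
      filter_upwards [(isOpen_lt continuous_const continuous_fst).mem_nhds hp,
        (isOpen_lt continuous_const continuous_snd.norm).mem_nhds hp'] with r hr hr'
        using h2 r hr hr'
    unfold P107.dD; rw [this.fderiv_eq]; simp

theorem Cpt.slice {ψ : ℝ × V3 → ℝ} (h : Cpt ψ) {t : ℝ} (ht : 0 ≤ t) :
    HasCompactSupport (fun y => ψ (t, y)) := by
  obtain ⟨T, R, -, h2⟩ := h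
  refine HasCompactSupport.intro (isCompact_closedBall (0 : V3) R) fun y hy => ?_
  exact h2 (t, y) (by simp; linarith) (by simpa using hy)

/-- derivatives of a time slice -/
theorem fderiv_slice {ψ : ℝ × V3 → ℝ} (h : Differentiable ℝ ψ) (t : ℝ) (y v : V3) :
    fderiv ℝ (fun y => ψ (t, y)) y v = dD (0, v) ψ (t, y) := by
  have := ((h (t, y)).hasFDerivAt.comp y (hasFDerivAt_prodMk_right t y)).fderiv
  rw [show (fun y => ψ (t, y)) = ψ ∘ fun y => (t, y) from rfl, this]; simp [dD]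

theorem hasDerivAt_time {ψ : ℝ × V3 → ℝ} (h : Differentiable ℝ ψ) (t : ℝ) (y : V3) :
    HasDerivAt (fun s => ψ (s, y)) (dt ψ (t, y)) t := by
  have h1 : HasDerivAt (fun s : ℝ => ((s, y) : ℝ × V3)) (1, 0) t :=
    (hasDerivAt_id t).prodMk (hasDerivAt_const t y)
  exact (h (t, y)).hasFDerivAt.comp_hasDerivAt t h1

theorem dD_comm {ψ : ℝ × V3 → ℝ} (h : ContDiff ℝ 2 ψ) (v v' : ℝ × V3) :
    dD v (dD v' ψ) = dD v' (dD v ψ) := by
  funext p
  have hd : DifferentiableAt ℝ (fderiv ℝ ψ) p :=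
    ((h.fderiv_right (m := 1) le_rfl).differentiable one_ne_zero) p
  have e : ∀ a b, dD a (dD b ψ) p = fderiv ℝ (fderiv ℝ ψ) p a b := by
    intro a b
    unfold dD
    rw [fderiv_clm_apply hd (differentiableAt_const _)]; simp
  rw [e, e]
  exact (h.contDiffAt.isSymmSndFDerivAt (by simp)).eq v v'

theorem measurableSet_Hs : MeasurableSet Hs :=
  (isOpen_lt continuous_const continuous_fst).measurableSet

theorem Sp.mono {f : ℝ → Z → ℝ} {T T' R : ℝ} (h : Sp f T R) (hT : T' ≤ T) : Sp f T' R :=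
  fun t ht => h t ⟨ht.1, ht.2.trans hT⟩

theorem Sup.mono {F : ℝ → V3 → Z} {T T' N : ℝ} (h : Sup F T N) (hT : T' ≤ T) : Sup F T' N :=
  fun t ht => h t ⟨ht.1, ht.2.trans hT⟩

theorem STL.mono {F : ℝ → V3 → Z} {T T' A lam : ℝ} (h : STL F T A lam) (hT : T' ≤ T) :
    STL F T' A lam := fun t t' h1 h2 h3 => h t t' h1 h2 (h3.trans hT)

theorem deriv_eta_nonneg (x : ℝ) : 0 ≤ deriv eta x := by
  have : Monotone eta := fun a b hab => Real.smoothTransition.monotone (by linarith)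
  exact this.deriv_nonneg

theorem integral_exp_le {lam s : ℝ} (hl : 0 < lam) :
    ∫ σ in (0 : ℝ)..s, Real.exp (lam * σ) ≤ Real.exp (lam * s) / lam := by
  have h : ∀ σ ∈ uIcc (0 : ℝ) s, HasDerivAt (fun σ => Real.exp (lam * σ) / lam)
      (Real.exp (lam * σ)) σ := by
    intro σ _
    have := (((hasDerivAt_id σ).const_mul lam).exp).div_const lam
    simpa [mul_div_assoc, hl.ne'] using this
  rw [intervalIntegral.integral_eq_sub_of_hasDerivAt h
    ((by fun_prop : Continuous fun σ => Real.exp (lam * σ)).intervalIntegrable _ _)]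
  have : 0 < Real.exp (lam * 0) / lam := by positivity
  linarith

end Vale.Agent.P107
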