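import Vale.Agent.P107.Basic2

open MeasureTheory Set Filter Topology
open scoped ENNReal RealInnerProductSpace ContDiff

noncomputable section
namespace Vale.Agent.P107
namespace CFX

lemma fatou {α : Type} [MeasurableSpace α] {μ : Measure α} {f : ℕ → α → ℝ≥0∞} {g : α → ℝ≥0∞}
    {c : ℝ≥0∞} (hf : ∀ n, Measurable (f n)) (hg : ∀ᵐ a ∂μ, g a ≤ liminf (fun n => f n a) atTop)
    (hb : ∀ n, ∫⁻ a, f n a ∂μ ≤ c) : ∫⁻ a, g a ∂μ ≤ c :=
  (lintegral_mono_ae hg).trans ((lintegral_liminf_le hf).trans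
    (liminf_le_of_frequently_le' (Frequently.of_forall hb)))

/-- the weight -/
def cw (s h r : ℝ) : ℝ := deriv eta ((r - s) / h + 2) / h

/-- the regularised norm -/
def rg (ε : ℝ) (w : V3) : ℝ := ε * q (ε⁻¹ • w)

lemma cw_nonneg {s h : ℝ} (hh : 0 < h) (r : ℝ) : 0 ≤ cw s h r :=
  div_nonneg (deriv_eta_nonneg _) hh.le

lemma cw_cont (s h : ℝ) : Continuous (cw s h) :=
  (continuous_deriv_eta.comp (by fun_prop)).div_const h

lemma cw_zero {s h r : ℝ} (hh : 0 < h) (hr : s < r) : cw s h r = 0 := by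
  unfold cw
  rw [deriv_eta_of_two_lt (by linarith [div_pos (sub_pos.2 hr) hh]), zero_div]

lemma rg_eq {ε : ℝ} (hε : 0 < ε) (w : V3) : rg ε w = √(ε ^ 2 + ‖w‖ ^ 2) := by
  have h1 : rg ε w ^ 2 = ε ^ 2 + ‖w‖ ^ 2 := by
    unfold rg
    rw [mul_pow, q_sq, norm_smul, norm_inv, Real.norm_of_nonneg hε.le]
    field_simp
  rw [← h1, Real.sqrt_sq (show 0 ≤ rg ε w from (mul_pos hε (q_pos _)).le)]

lemma lt_rg {ε : ℝ} (hε : 0 < ε) (w : V3) : ‖w‖ < rg ε w := by
  rw [rg_eq hε]
  exact Real.lt_sqrt_of_sq_lt (by nlinarith)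

lemma uu_eq {ε : ℝ} (w : V3) : uu (ε⁻¹ • w) = (rg ε w)⁻¹ • w := by
  unfold uu rg
  rw [smul_smul, mul_inv, mul_comm]

lemma tendsto_rg (w : V3) : Tendsto (fun n : ℕ => rg (1 / ((n : ℝ) + 1)) w) atTop (𝓝 ‖w‖) := by
  have h1 : Continuous fun ε : ℝ => √(ε ^ 2 + ‖w‖ ^ 2) := by fun_prop
  have h2 := (h1.tendsto 0).comp tendsto_one_div_add_atTop_nhds_zero_nat
  rw [zero_pow two_ne_zero, zero_add, Real.sqrt_sq (norm_nonneg _)] at h2
  exact h2.congr fun n => (rg_eq Nat.one_div_pos_of_nat w).symm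

lemma tendsto_uu (w : V3) :
    Tendsto (fun n : ℕ => uu ((1 / ((n : ℝ) + 1))⁻¹ • w)) atTop (𝓝 (hat w)) := by
  simp only [uu_eq]
  by_cases hw : w = 0
  · simp [hw, hat]
  · exact ((tendsto_rg w).inv₀ (norm_ne_zero_iff.2 hw)).smul_const w

/-- the test function -/
def ps (s h ε : ℝ) (x : V3) (p : ℝ × V3) : ℝ := 1 - eta ((p.1 + rg ε (x - p.2) - s) / h + 2)

lemma ps_smooth (s h ε : ℝ) (x : V3) : ContDiff ℝ 1 (ps s h ε x) := by
  unfold ps rg
  refine contDiff_const.sub ((contDiff_eta (n := 1)).comp ?_)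
  exact (((contDiff_fst.add (contDiff_const.mul (contDiff_q.comp
    ((contDiff_const.sub contDiff_snd).const_smul _)))).sub contDiff_const).div_const h).add
    contDiff_const

lemma ps_zero {s h ε : ℝ} (hh : 0 < h) {x : V3} {p : ℝ × V3} (hp : s ≤ p.1 + rg ε (x - p.2)) :
    ps s h ε x p = 0 := by
  unfold ps
  rw [eta_of_two_le (by linarith [div_nonneg (sub_nonneg.2 hp) hh.le]), sub_self]

lemma ps_dD {s h ε : ℝ} (hε : 0 < ε) (x : V3) (p : ℝ × V3) (a : ℝ) (b : V3) :
    dD (a, b) (ps s h ε x) p =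
      -(cw s h (p.1 + rg ε (x - p.2)) * (a - ⟪b, uu (ε⁻¹ • (x - p.2))⟫)) := by
  have h1 : HasFDerivAt (fun p : ℝ × V3 => ε⁻¹ • (x - p.2))
      (ε⁻¹ • -ContinuousLinearMap.snd ℝ ℝ V3) p :=
    ((hasFDerivAt_snd (𝕜 := ℝ) (p := p)).const_sub x).const_smul ε⁻¹
  have h2 := ((hasFDerivAt_q _).comp p h1).const_mul ε
  have h3 := ((((hasFDerivAt_fst.add h2).sub_const s).mul_const h⁻¹).add_const 2)
  have h4 := ((hasDerivAt_eta _).comp_hasFDerivAt p h3).const_sub 1
  have h5 : HasFDerivAt (ps s h ε x) _ p := h4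
  unfold dD
  rw [h5.fderiv]
  simp only [cw, rg, _root_.neg_apply, smul_apply, _root_.add_apply,
    ContinuousLinearMap.coe_fst', ContinuousLinearMap.coe_snd', ContinuousLinearMap.comp_apply,
    innerSL_apply_apply, smul_eq_mul, inner_smul_right, inner_neg_right, Pi.add_apply,
    Function.comp, real_inner_comm b, div_eq_mul_inv]
  field_simp
  ring

lemma approx {g : ℝ → ℝ} (hg : Continuous g) {s r : ℝ} (hr0 : 0 ≤ r) (hr : r < s) :
    ENNReal.ofReal (g (s - r)) ≤ liminf (fun n : ℕ => ∫⁻ σ in Ioc 0 s,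
      ENNReal.ofReal (cw s (1 / ((n : ℝ) + 1)) (σ + r) * g σ)) atTop := by
  refine ENNReal.le_of_forall_pos_le_add fun δ hδ _ => ?_
  have hδ' : (0 : ℝ) < δ := hδ
  have h1 : ENNReal.ofReal (g (s - r)) ≤ ENNReal.ofReal (g (s - r) - δ) + δ := by
    rw [← ENNReal.ofReal_coe_nnreal]
    exact (ENNReal.ofReal_le_ofReal (by linarith)).trans ENNReal.ofReal_add_le
  refine h1.trans (add_le_add_left (le_liminf_of_le (by isBoundedDefault) ?_) _)
  obtain ⟨η, hη, h2⟩ := Metric.continuousAt_iff.1 (hg.continuousAt (x := s - r)) δ hδ'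
  filter_upwards [tendsto_one_div_add_atTop_nhds_zero_nat.eventually
    (gt_mem_nhds (lt_min hη (sub_pos.2 hr)))] with n hn
  have hh : (0 : ℝ) < 1 / ((n : ℝ) + 1) := Nat.one_div_pos_of_nat
  generalize 1 / ((n : ℝ) + 1) = h at hn hh
  obtain ⟨hn1, hn2⟩ := lt_min_iff.1 hn
  by_cases hm : g (s - r) - δ ≤ 0
  · rw [ENNReal.ofReal_of_nonpos hm]; exact zero_le
  push Not at hm
  have hc : Continuous fun σ => cw s h (σ + r) := (cw_cont s h).comp (by fun_prop)
  have h3 : ∫ σ in (s - r - h)..(s - r), cw s h (σ + r) = 1 := by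
    rw [intervalIntegral.integral_eq_sub_of_hasDerivAt
      (f := fun σ => eta ((σ + r - s) / h + 2)) (fun σ _ => ?_) (hc.intervalIntegrable _ _)]
    · rw [eta_of_two_le (by simp), eta_of_le_one (le_of_eq (by field_simp; ring)), sub_zero]
    · have := (hasDerivAt_eta ((σ + r - s) / h + 2)).comp σ
        (((((hasDerivAt_id σ).add_const r).sub_const s).div_const h).add_const 2)
      exact this.congr_deriv (by unfold cw; ring)
  calc ENNReal.ofReal (g (s - r) - δ)
      = ENNReal.ofReal (∫ σ in Ioc (s - r - h) (s - r), cw s h (σ + r) * (g (s - r) - δ)) := by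
        rw [integral_mul_const, ← intervalIntegral.integral_of_le (by linarith), h3, one_mul]
    _ = ∫⁻ σ in Ioc (s - r - h) (s - r), ENNReal.ofReal (cw s h (σ + r) * (g (s - r) - δ)) :=
        ofReal_integral_eq_lintegral_ofReal
          ((hc.mul continuous_const).integrableOn_Icc.mono_set Ioc_subset_Icc_self)
          (Eventually.of_forall fun σ => mul_nonneg (cw_nonneg hh _) hm.le)
    _ ≤ ∫⁻ σ in Ioc (s - r - h) (s - r), ENNReal.ofReal (cw s h (σ + r) * g σ) := by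
        refine setLIntegral_mono' measurableSet_Ioc fun σ hσ => ENNReal.ofReal_le_ofReal
          (mul_le_mul_of_nonneg_left ?_ (cw_nonneg hh _))
        have := h2 (x := σ) (by rw [Real.dist_eq, abs_lt]; constructor <;> linarith [hσ.1, hσ.2])
        rw [Real.dist_eq, abs_lt] at this
        linarith [this.1]
    _ ≤ _ := lintegral_mono_set (Ioc_subset_Ioc (by linarith) (by linarith))

variable {e : ℝ → V3 → ℝ} {S : ℝ → V3 → V3} {T : ℝ}

lemma step (he : Continuous fun p : ℝ × V3 => e p.1 p.2)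
    (hS : Continuous fun p : ℝ × V3 => S p.1 p.2) (hle : ∀ t y, ‖S t y‖ ≤ e t y)
    (hc : Cons e S (fun _ _ => 0) T) {s : ℝ} (hs : s ∈ Icc (0 : ℝ) T) (x : V3) {h ε : ℝ}
    (hh : 0 < h) (hε : 0 < ε) :
    ∫⁻ p : ℝ × V3, ENNReal.ofReal (cw s h (p.1 + rg ε p.2) *
      (e p.1 (x - p.2) - ⟪S p.1 (x - p.2), uu (ε⁻¹ • p.2)⟫))
        ∂(volume.restrict (Ioc 0 s)).prod volume ≤ ∫⁻ y, ENNReal.ofReal (e 0 y) := by
  set G : ℝ × V3 → ℝ := fun p => cw s h (p.1 + rg ε p.2) *
    (e p.1 (x - p.2) - ⟪S p.1 (x - p.2), uu (ε⁻¹ • p.2)⟫) with hG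
  have hm : Continuous fun p : ℝ × V3 => (p.1, x - p.2) := by fun_prop
  have hGc : Continuous G := by
    refine ((cw_cont s h).comp (continuous_fst.add (continuous_const.mul
      (continuous_q.comp (by fun_prop))))).mul ((he.comp hm).sub ((hS.comp hm).inner
        (continuous_uu.comp (by fun_prop))))
  have hG0 : ∀ p, 0 ≤ G p := fun p => mul_nonneg (cw_nonneg hh _) (sub_nonneg.2
    ((real_inner_le_norm _ _).trans ((mul_le_of_le_one_right (norm_nonneg _)
      (norm_uu_le _)).trans (hle _ _))))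
  have hI : Integrable G ((volume.restrict (Ioc 0 s)).prod volume) := by
    rw [Measure.restrict_prod_eq_prod_univ]
    refine IntegrableOn.of_forall_sdiff_eq_zero (s := Icc 0 s ×ˢ Metric.closedBall 0 s)
      (hGc.continuousOn.integrableOn_compact (isCompact_Icc.prod (isCompact_closedBall _ _)))
      (measurableSet_Ioc.prod MeasurableSet.univ) fun p hp => ?_
    have h1 : s < ‖p.2‖ := by
      by_contra hn
      exact hp.2 ⟨Ioc_subset_Icc_self hp.1.1, mem_closedBall_zero_iff.2 (not_lt.1 hn)⟩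
    simp only [hG]
    rw [cw_zero hh (by linarith [lt_rg hε p.2, hp.1.1.1]), zero_mul]
  have h1 := hc (ps s h ε x) (‖x‖ + s + 1) (ps_smooth s h ε x) s hs fun σ hσ y hy =>
    ps_zero hh (by
      have h2 := norm_sub_norm_le y x
      rw [norm_sub_rev] at h2
      linarith [lt_rg hε (x - y), hσ.1])
  have h2 : ∀ y, ps s h ε x (s, y) = 0 := fun y =>
    ps_zero hh (by linarith [lt_rg hε (x - y), norm_nonneg (x - y)])
  have h3 : ∀ σ, ∫ y, (e σ y * dt (ps s h ε x) (σ, y) + ⟪S σ y, gx (ps s h ε x) (σ, y)⟫ +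
      0 * ps s h ε x (σ, y)) = -∫ w, G (σ, w) := fun σ => by
    rw [← integral_sub_left_eq_self (fun w => G (σ, w)) volume x, ← integral_neg]
    refine integral_congr_ae (Eventually.of_forall fun y => ?_)
    simp only [hG, sub_sub_cancel]
    rw [zero_mul, add_zero, ← dD_eq, ps_dD hε]
  simp only [h2, h3, mul_zero, integral_zero, zero_sub, intervalIntegral.integral_neg,
    neg_inj] at h1
  rw [← ofReal_integral_eq_lintegral_ofReal hI (Eventually.of_forall hG0), integral_prod _ hI,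
    ← intervalIntegral.integral_of_le hs.1, ← h1]
  refine (Real.ofReal_le_enorm _).trans ((enorm_integral_le_lintegral_enorm _).trans
    (lintegral_mono fun y => ?_))
  have e0 : 0 ≤ e 0 y := (norm_nonneg _).trans (hle 0 y)
  have p0 : 0 ≤ ps s h ε x (0, y) := sub_nonneg.2 (eta_le_one _)
  have p1 : ps s h ε x (0, y) ≤ 1 := sub_le_self _ (eta_nonneg _)
  rw [Real.enorm_eq_ofReal (mul_nonneg e0 p0)]
  exact ENNReal.ofReal_le_ofReal (mul_le_of_le_one_right e0 p1)

end CFX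
open CFX

theorem cF : CF := by
  intro e S T he hS hle hc s hs x
  have hm : Continuous fun p : ℝ × V3 => (p.1, x - p.2) := by fun_prop
  have he' := he.comp hm
  have hS' := hS.comp hm
  have hM : ∀ h : ℝ, Measurable fun p : ℝ × V3 => ENNReal.ofReal (cw s h (p.1 + ‖p.2‖) *
      (e p.1 (x - p.2) - ⟪S p.1 (x - p.2), hat p.2⟫)) := fun h =>
    (((cw_cont s h).comp (by fun_prop)).measurable.mul (he'.measurable.sub
      (Measurable.inner_V3 hS'.measurable (measurable_hat.comp measurable_snd)))).ennreal_ofReal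
  have h1 : ∀ h : ℝ, 0 < h → ∫⁻ p : ℝ × V3, ENNReal.ofReal (cw s h (p.1 + ‖p.2‖) *
      (e p.1 (x - p.2) - ⟪S p.1 (x - p.2), hat p.2⟫))
        ∂(volume.restrict (Ioc 0 s)).prod volume ≤ ∫⁻ y, ENNReal.ofReal (e 0 y) := fun h hh => by
    refine fatou (fun n => ?_) (Eventually.of_forall fun p => (Tendsto.liminf_eq ?_).ge)
      fun n => step he hS hle hc hs x hh (ε := 1 / ((n : ℝ) + 1)) Nat.one_div_pos_of_nat
    · exact (((cw_cont s h).comp (continuous_fst.add (continuous_const.mul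
        (continuous_q.comp (by fun_prop))))).mul (he'.sub (hS'.inner
          (continuous_uu.comp (by fun_prop))))).measurable.ennreal_ofReal
    · exact ENNReal.tendsto_ofReal ((((cw_cont s h).tendsto _).comp
        ((tendsto_rg p.2).const_add p.1)).mul
        ((tendsto_const_nhds.inner (tendsto_uu p.2)).const_sub _))
  refine fatou (f := fun n w => ∫⁻ σ in Ioc 0 s, ENNReal.ofReal
    (cw s (1 / ((n : ℝ) + 1)) (σ + ‖w‖) * (e σ (x - w) - ⟪S σ (x - w), hat w⟫)))
    (fun n => (hM _).lintegral_prod_left') ?_ fun n => ?_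
  · refine (ae_restrict_iff' measurableSet_ball).2 (Eventually.of_forall fun w hw => ?_)
    have hl : Continuous fun σ : ℝ => (σ, x - w) := by fun_prop
    exact approx (g := fun σ => e σ (x - w) - ⟪S σ (x - w), hat w⟫)
      ((he.comp hl).sub ((hS.comp hl).inner continuous_const)) (norm_nonneg w)
      (mem_ball_zero_iff.1 hw)
  · refine (setLIntegral_le_lintegral _ _).trans ?_
    rw [← lintegral_prod_symm _ (hM _).aemeasurable]
    exact h1 _ Nat.one_div_pos_of_nat

end Vale.Agent.P107
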