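import Vale.Agent.P107.Basic2

/-! Problem P107, part II: the backward cone in Eulerian variables. -/

open MeasureTheory Set Filter Topology
open scoped ENNReal RealInnerProductSpace

noncomputable section
namespace Vale.Agent.P107
namespace CIX

theorem fd_norm {w : V3} (hw : w ≠ 0) :
    HasFDerivAt (fun x : V3 => ‖x‖) (innerSL ℝ (hat w)) w := by
  have h0 : 0 < ‖w‖ := norm_pos_iff.2 hw
  have h2 := (hasStrictFDerivAt_norm_sq w).hasFDerivAt.sqrt (by positivity)
  have e : (1 / (2 * √(‖w‖ ^ 2))) • (2 • innerSL ℝ w) = innerSL ℝ (hat w) := by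
    ext x
    rw [Real.sqrt_sq h0.le]
    simp only [hat, map_smul, _root_.smul_apply, smul_eq_mul, nsmul_eq_mul]
    field_simp
    push_cast
    ring
  rw [e] at h2
  simpa only [Real.sqrt_sq (norm_nonneg _)] using h2

theorem haarZ : (volume : Measure Z).IsAddHaarMeasure :=
  inferInstanceAs ((volume : Measure V3).prod (volume : Measure V3)).IsAddHaarMeasure

/-- an injective measure preserving `C¹` map has Jacobian of modulus one -/
theorem det_one {g : Z → Z} (hg : ContDiff ℝ 1 g) (hi : Function.Injective g)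
    (hm : MeasurePreserving g (volume : Measure Z) volume) (z : Z) :
    |(fderiv ℝ g z).det| = 1 := by
  have := haarZ
  have hd : ∀ z, HasFDerivAt g (fderiv ℝ g z) z := fun z =>
    (hg.differentiable one_ne_zero z).hasFDerivAt
  have hc : Continuous (fun z => ENNReal.ofReal |(fderiv ℝ g z).det|) :=
    ENNReal.continuous_ofReal.comp
      (ContinuousLinearMap.continuous_det.comp (hg.continuous_fderiv one_ne_zero)).abs
  have h1 : (fun z => ENNReal.ofReal |(fderiv ℝ g z).det|) =ᵐ[(volume : Measure Z)]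
      fun _ => (1 : ℝ≥0∞) := by
    refine ae_eq_of_forall_setLIntegral_eq_of_sigmaFinite hc.measurable measurable_const ?_
    intro A hA _
    rw [lintegral_abs_det_fderiv_eq_addHaar_image volume hA
      (fun x _ => (hd x).hasFDerivWithinAt) hi.injOn, setLIntegral_one]
    have hA' : MeasurableSet (g '' A) :=
      measurable_image_of_fderivWithin hA (fun x _ => (hd x).hasFDerivWithinAt) hi.injOn
    rw [← hm.measure_preimage hA'.nullMeasurableSet, preimage_image_eq _ hi]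
  have h2 := congrFun ((hc.ae_eq_iff_eq volume continuous_const).1 h1) z
  exact ENNReal.ofReal_eq_one.1 h2

/-- the linear map `(dw,dv) ↦ (-dw,dv) + ⟪n,dw⟫ a` -/
def MM (n : V3) (a : Z) : Z →L[ℝ] Z :=
  (-ContinuousLinearMap.fst ℝ V3 V3).prod (ContinuousLinearMap.snd ℝ V3 V3) +
    ((innerSL ℝ n).comp (ContinuousLinearMap.fst ℝ V3 V3)).smulRight a

theorem MM_apply (n : V3) (a h : Z) : MM n a h = (-h.1, h.2) + ⟪n, h.1⟫ • a := rfl

theorem det_MM (n : V3) (a : Z) : (MM n a).det = -(1 - ⟪n, a.1⟫) := by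
  have e : (MM n a : Z →ₗ[ℝ] Z) =
      (LinearMap.transvection
        (-((innerSL ℝ n).comp (ContinuousLinearMap.fst ℝ V3 V3) : Z →L[ℝ] ℝ) : Z →ₗ[ℝ] ℝ) a).comp
        (LinearMap.prodMap ((-1 : ℝ) • LinearMap.id) LinearMap.id) := by
    refine LinearMap.ext fun h => ?_
    simp [MM_apply, LinearMap.transvection.apply]
  rw [ContinuousLinearMap.det, e, LinearMap.det_comp, LinearMap.transvection.det,
    LinearMap.det_prodMap, LinearMap.det_smul]
  simp
  ring

/-- derivative of the parametrization of the cone -/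
theorem fd_theta {Ψ : ℝ × Z → Z} {a : ℝ → Z → Z} (hΨ : ContDiff ℝ 1 Ψ)
    (h0 : ∀ t z, fderiv ℝ Ψ (t, z) (1, a t z) = 0) (s : ℝ) (x : V3) {p : Z} (hp : p.1 ≠ 0) :
    HasFDerivAt (fun r : Z => Ψ (s - ‖r.1‖, (x - r.1, r.2)))
      ((fderiv ℝ (fun z => Ψ (s - ‖p.1‖, z)) (x - p.1, p.2)).comp
        (MM (hat p.1) (a (s - ‖p.1‖) (x - p.1, p.2)))) p := by
  have hd : ∀ r, HasFDerivAt Ψ (fderiv ℝ Ψ r) r := fun r =>
    (hΨ.differentiable one_ne_zero r).hasFDerivAt
  have h1 : HasFDerivAt (fun r : Z => s - ‖r.1‖)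
      (-((innerSL ℝ (hat p.1)).comp (ContinuousLinearMap.fst ℝ V3 V3))) p :=
    ((fd_norm hp).comp p hasFDerivAt_fst).const_sub s
  have h2 : HasFDerivAt (fun r : Z => ((x - r.1, r.2) : Z))
      ((-ContinuousLinearMap.fst ℝ V3 V3).prod (ContinuousLinearMap.snd ℝ V3 V3)) p :=
    (hasFDerivAt_fst.const_sub x).prodMk hasFDerivAt_snd
  have h3 := (hd (s - ‖p.1‖, (x - p.1, p.2))).comp p (h1.prodMk h2)
  have h4 : HasFDerivAt (fun z : Z => Ψ (s - ‖p.1‖, z))
      ((fderiv ℝ Ψ (s - ‖p.1‖, (x - p.1, p.2))).comp (ContinuousLinearMap.inr ℝ ℝ Z))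
      (x - p.1, p.2) :=
    (hd (s - ‖p.1‖, (x - p.1, p.2))).comp _ (hasFDerivAt_prodMk_right _ _)
  rw [h4.fderiv]
  refine h3.congr_fderiv (ContinuousLinearMap.ext fun h => ?_)
  have e : ((-⟪hat p.1, h.1⟫, (-h.1, h.2)) : ℝ × Z) =
      (0, MM (hat p.1) (a (s - ‖p.1‖) (x - p.1, p.2)) h)
        - ⟪hat p.1, h.1⟫ • (1, a (s - ‖p.1‖) (x - p.1, p.2)) := by
    rw [MM_apply]
    refine Prod.ext ?_ ?_
    · simp
    · simp
  change fderiv ℝ Ψ (s - ‖p.1‖, (x - p.1, p.2)) (-⟪hat p.1, h.1⟫, (-h.1, h.2)) =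
    fderiv ℝ Ψ (s - ‖p.1‖, (x - p.1, p.2))
      (0, MM (hat p.1) (a (s - ‖p.1‖) (x - p.1, p.2)) h)
  rw [e, map_sub, map_smul, h0, smul_zero, sub_zero]

theorem det_comp' (A B : Z →L[ℝ] Z) : (A.comp B).det = A.det * B.det :=
  LinearMap.det_comp (A : Z →ₗ[ℝ] Z) (B : Z →ₗ[ℝ] Z)

theorem null_fst (x : V3) : (volume : Measure Z) {p | p.1 = x} = 0 := by
  have e : {p : Z | p.1 = x} = ({x} : Set V3) ×ˢ (univ : Set V3) := by
    ext p; simp
  rw [e, Measure.volume_eq_prod, Measure.prod_prod]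
  simp

end CIX

open CIX

theorem cI (hr : Ret1) (_hs : SI) (hv : Vf) (h1 : Fl1) (h3 : Fl3) (hl : VlS) : CI := by
  intro f₀ E₀ B₀ hD F hF s x _
  have := haarZ
  obtain ⟨_, _, _, hreg, _⟩ := hv
  have ha := hreg F hF
  have hfl := h1 _ ha
  obtain ⟨hc1, hz⟩ := h3 _ ha 0
  obtain ⟨hvl, hkin⟩ := hl f₀ E₀ B₀ hD F hF
  have hR := hr _ hkin
  have hinv : ∀ r t z, flow (vf F) r t (flow (vf F) t r z) = z := fun r t z => by
    rw [hfl.comp, hfl.isf.1]
  have hwm : Measurable ((sys f₀ F).wv s x) :=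
    (hR.cwv.comp (by fun_prop : Continuous fun z : Z => (s, x, z))).measurable
  have hact : MeasurableSet ((sys f₀ F).act s x) :=
    (hR.opn.preimage (by fun_prop : Continuous fun z : Z => (s, x, z))).measurableSet
  let Θ : Z → Z := fun r => flow (vf F) 0 (s - ‖r.1‖) (x - r.1, r.2)
  let D : Set Z := {p | ‖p.1‖ < s ∧ p.1 ≠ 0}
  have hDm : MeasurableSet D :=
    (measurableSet_lt measurable_fst.norm measurable_const).inter
      (measurable_fst (measurableSet_singleton (0 : V3)).compl)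
  have hA1 : ∀ p ∈ D, Θ p ∈ (sys f₀ F).act s x ∧ (sys f₀ F).wv s x (Θ p) = p := by
    intro p hp
    have hY : (sys f₀ F).Y (s - ‖p.1‖) (Θ p) = x - p.1 :=
      congrArg Prod.fst (hinv (s - ‖p.1‖) 0 (x - p.1, p.2))
    have hV : (sys f₀ F).V (s - ‖p.1‖) (Θ p) = p.2 := by
      have k := congrArg Prod.snd (hinv (s - ‖p.1‖) 0 (x - p.1, p.2))
      exact k
    have e : s - (s - ‖p.1‖) = ‖x - (sys f₀ F).Y (s - ‖p.1‖) (Θ p)‖ := by
      rw [hY, sub_sub_cancel, sub_sub_cancel]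
    have hpos : 0 < s - ‖p.1‖ := sub_pos.2 hp.1
    refine ⟨hR.char' s x _ _ hpos e, ?_⟩
    unfold PS.wv
    rw [hR.char s x _ _ hpos.le e, hY, hV, sub_sub_cancel]
  have hA2 : ∀ z ∈ (sys f₀ F).act s x, Θ ((sys f₀ F).wv s x z) = z ∧
      ‖((sys f₀ F).wv s x z).1‖ < s ∧
      (((sys f₀ F).wv s x z).1 = 0 → (flow (vf F) s 0 z).1 = x) := by
    intro z hz
    obtain ⟨hp, he⟩ := hR.act s x z hz
    refine ⟨?_, by linarith, fun h0 => ?_⟩
    · have e : s - ‖((sys f₀ F).wv s x z).1‖ = (sys f₀ F).ret s x z := by linarith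
      change flow (vf F) 0 (s - ‖((sys f₀ F).wv s x z).1‖)
        (x - (x - (flow (vf F) ((sys f₀ F).ret s x z) 0 z).1),
          (flow (vf F) ((sys f₀ F).ret s x z) 0 z).2) = z
      rw [e, sub_sub_cancel]
      exact hinv _ _ z
    · have e : (sys f₀ F).ret s x z = s := by
        rw [h0, norm_zero] at he; linarith
      have h5 : x - (flow (vf F) ((sys f₀ F).ret s x z) 0 z).1 = 0 := h0
      rw [e] at h5
      exact (sub_eq_zero.1 h5).symm
  have hinj : InjOn Θ D := fun p hp p' hp' e => by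
    rw [← (hA1 p hp).2, ← (hA1 p' hp').2, e]
  have hnull : (volume : Measure Z) {z | (flow (vf F) s 0 z).1 = x} = 0 := by
    have := (hvl.mp s 0).measure_preimage (s := {p : Z | p.1 = x})
      (measurable_fst (measurableSet_singleton x)).nullMeasurableSet
    rw [null_fst] at this
    exact this
  refine Measure.ext fun A hA => ?_
  have e1 : ((sys f₀ F).wv s x ⁻¹' A ∩ (sys f₀ F).act s x : Set Z) =ᵐ[volume]
      (Θ '' (A ∩ D) : Set Z) := by
    filter_upwards [measure_eq_zero_iff_ae_notMem.1 hnull] with z hz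
    refine propext ⟨fun h => ?_, ?_⟩
    · obtain ⟨k1, k2, k3⟩ := hA2 z h.2
      exact ⟨_, ⟨h.1, k2, fun h0 => hz (k3 h0)⟩, k1⟩
    · rintro ⟨p, hp, rfl⟩
      obtain ⟨k1, k2⟩ := hA1 p hp.2
      refine ⟨?_, k1⟩
      change (sys f₀ F).wv s x (Θ p) ∈ A
      rw [k2]; exact hp.1
  have e2 : (A ∩ {p : Z | ‖p.1‖ < s} : Set Z) =ᵐ[volume] (A ∩ D : Set Z) := by
    filter_upwards [measure_eq_zero_iff_ae_notMem.1 (null_fst 0)] with z hz
    exact propext ⟨fun h => ⟨h.1, h.2, hz⟩, fun h => ⟨h.1, h.2.1⟩⟩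
  rw [Measure.map_apply hwm hA, Measure.restrict_apply (hwm hA), withDensity_apply _ hA,
    Measure.restrict_restrict hA, setLIntegral_congr e2]
  change (volume : Measure Z).withDensity (fun z => ENNReal.ofReal (f₀ z / om)) _ = _
  rw [withDensity_apply _ ((hwm hA).inter hact), setLIntegral_congr e1,
    lintegral_image_eq_lintegral_abs_det_fderiv_mul volume (hA.inter hDm)
      (fun p hp => (fd_theta hc1 hz s x hp.2.2).hasFDerivWithinAt) (hinj.mono inter_subset_right)]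
  refine lintegral_congr fun p => ?_
  have hg : ContDiff ℝ 1 (fun z => flow (vf F) 0 (s - ‖p.1‖) z) :=
    hc1.comp (contDiff_const.prodMk contDiff_id)
  have hd := det_one hg (fun z z' e => by
    rw [← hinv (s - ‖p.1‖) 0 z, ← hinv (s - ‖p.1‖) 0 z']
    exact congrArg _ e) (hvl.mp 0 (s - ‖p.1‖)) (x - p.1, p.2)
  have hb : -(1 - ⟪hat p.1, (vf F (s - ‖p.1‖) (x - p.1, p.2)).1⟫) = -b2 p.1 p.2 := rfl
  rw [det_comp', abs_mul]
  change ENNReal.ofReal (|(fderiv ℝ (fun z => flow (vf F) 0 (s - ‖p.1‖) z) (x - p.1, p.2)).det| *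
    |(MM (hat p.1) (vf F (s - ‖p.1‖) (x - p.1, p.2))).det|) * _ = _
  rw [hd, det_MM, hb, one_mul, abs_neg, abs_of_pos (b2_pos _ _),
    ← ENNReal.ofReal_mul (b2_pos _ _).le, mul_div_assoc]
  rfl

end Vale.Agent.P107
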