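import Vale.Agent.P107.Basic2

/-! Problem P107, part II: differentiability of the function `chi`. -/

open MeasureTheory Set Filter Topology Real
open scoped ENNReal RealInnerProductSpace ContDiff

noncomputable section
namespace Vale.Agent.P107

namespace ChiX

variable {X Y W : Type} [NormedAddCommGroup X] [NormedAddCommGroup Y] [NormedAddCommGroup W]

/-- locally dominated kernels -/
structure Gd (K : ℝ × Z → V3 → X) : Prop where
  cont : ∀ p w, w ≠ 0 → ContinuousAt (fun r : (ℝ × Z) × V3 => K r.1 r.2) (p, w)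
  bd : ∀ p₀, ∃ b : V3 → ℝ, Integrable b ∧ ∀ p ∈ Metric.ball p₀ 1, ∀ w, w ≠ 0 → ‖K p w‖ ≤ b w

theorem ae_ne : ∀ᵐ w : V3, w ≠ 0 := by simp [ae_iff]

theorem Gd.meas {K : ℝ × Z → V3 → X} (h : Gd K) (p : ℝ × Z) : AEStronglyMeasurable (K p) := by
  have h1 : ContinuousOn (K p) {0}ᶜ := fun w hw =>
    ((h.cont p w hw).comp (Continuous.prodMk_right p).continuousAt).continuousWithinAt
  have h2 := h1.aestronglyMeasurable (μ := volume) (measurableSet_singleton _).compl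
  rwa [Measure.restrict_eq_self_of_ae_mem (s := {0}ᶜ) ae_ne] at h2

theorem Gd.int {K : ℝ × Z → V3 → X} (h : Gd K) (p : ℝ × Z) : Integrable (K p) := by
  obtain ⟨b, h1, h2⟩ := h.bd p
  exact h1.mono' (h.meas p) (ae_ne.mono (h2 p (Metric.mem_ball_self one_pos)))

theorem Gd.continuous [NormedSpace ℝ X] {K : ℝ × Z → V3 → X} (h : Gd K) :
    Continuous fun p => ∫ w, K p w := by
  refine continuous_iff_continuousAt.2 fun p => ?_
  obtain ⟨b, h1, h2⟩ := h.bd p
  exact continuousAt_of_dominated (.of_forall h.meas)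
    (mem_of_superset (Metric.ball_mem_nhds p one_pos) fun p' hp' => ae_ne.mono (h2 p' hp')) h1
    (ae_ne.mono fun w hw => ContinuousAt.comp (f := fun x => (x, w)) (h.cont p w hw)
      (Continuous.prodMk_left w).continuousAt)

theorem Gd.add {K K' : ℝ × Z → V3 → X} (h : Gd K) (h' : Gd K') :
    Gd fun p w => K p w + K' p w := by
  refine ⟨fun p w hw => (h.cont p w hw).add (h'.cont p w hw), fun p₀ => ?_⟩
  obtain ⟨b, h1, h2⟩ := h.bd p₀
  obtain ⟨b', h3, h4⟩ := h'.bd p₀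
  exact ⟨_, h1.add h3, fun p hp w hw => norm_add_le_of_le (h2 p hp w hw) (h4 p hp w hw)⟩

theorem intb (hp : Pol) {η : ℝ} (hη : 0 ≤ η) :
    Integrable ((Metric.ball (0 : V3) η).indicator fun w => 1 / ‖w‖) := by
  obtain ⟨c, -, -, h⟩ := hp
  refine (integrable_indicator_iff measurableSet_ball).2 ((h ℝ _ _ η 0 η 0 1 hη hη le_rfl one_pos
    subset_rfl (fun w hw h0 => ?_) measurableSet_ball).2 (Measurable.aestronglyMeasurable
      (by fun_prop)))
  have h1 := norm_pos_iff.2 h0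
  rw [Real.norm_of_nonneg (by positivity), zero_mul, add_zero, div_le_div_iff₀ h1 (by positivity)]
  nlinarith [mem_ball_zero_iff.1 hw]

theorem gd (hp : Pol) {ψ : ℝ × V3 → Y} (hc : Continuous ψ) (hs : HasCompactSupport ψ)
    {κ : V3 → V3 → W} (hκ : ∀ w v, w ≠ 0 → ContinuousAt (fun r : V3 × V3 => κ r.1 r.2) (w, v))
    (hb : ∀ R : ℝ, ∃ C : ℝ, 0 < C ∧ ∀ w v, w ≠ 0 → ‖v‖ ≤ R → ‖κ w v‖ ≤ C / ‖w‖)
    {β : Y → W → X} (hβ : Continuous fun r : Y × W => β r.1 r.2)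
    (hn : ∀ y x, ‖β y x‖ ≤ ‖y‖ * ‖x‖) :
    Gd fun p w => β (ψ (p.1 + ‖w‖, p.2.1 + w)) (κ w p.2.2) := by
  refine ⟨fun p w hw => ?_, fun p₀ => ?_⟩
  · have h1 : ContinuousAt (fun r : (ℝ × Z) × V3 => κ r.2 r.1.2.2) (p, w) :=
      ContinuousAt.comp (f := fun r : (ℝ × Z) × V3 => (r.2, r.1.2.2)) (x := (p, w))
        (hκ w p.2.2 hw) (by fun_prop)
    have h2 : ContinuousAt (fun r : (ℝ × Z) × V3 => ψ (r.1.1 + ‖r.2‖, r.1.2.1 + r.2)) (p, w) := by
      fun_prop
    exact hβ.continuousAt.comp (h2.prodMk h1)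
  obtain ⟨M, hM⟩ := hc.bounded_above_of_compact_support hs
  obtain ⟨R, hR, h1⟩ := hs.exists_pos_le_norm
  obtain ⟨C, hC, h2⟩ := hb (‖p₀‖ + 1)
  have hM0 := (norm_nonneg _).trans (hM 0)
  refine ⟨_, (intb hp (η := R + (‖p₀‖ + 1)) (by positivity)).const_mul (M * C),
    fun p hp' w hw => (hn _ _).trans ?_⟩
  have h3 := (norm_lt_of_mem_ball hp').le
  by_cases h4 : w ∈ Metric.ball (0 : V3) (R + (‖p₀‖ + 1))
  · rw [indicator_of_mem h4, mul_assoc, mul_one_div]
    exact mul_le_mul (hM _) (h2 w _ hw (((norm_snd_le _).trans (norm_snd_le _)).trans h3))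
      (norm_nonneg _) hM0
  · rw [indicator_of_notMem h4, h1, norm_zero, zero_mul, mul_zero]
    refine le_trans ?_ ((le_abs_self _).trans (norm_fst_le (p.1 + ‖w‖, p.2.1 + w)))
    linarith [not_lt.1 (mt mem_ball_zero_iff.2 h4), (neg_le_abs _).trans (norm_fst_le p)]

end ChiX

open ChiX ContinuousLinearMap in
theorem chiS (hp : Pol) (hk : KD) : Chi := by
  intro φ hφ
  obtain ⟨k1, -, -, -, -, k2⟩ := hk
  have g1 : ∀ w v, w ≠ 0 → ContDiffAt ℝ 2 (fun r : V3 × V3 => gam r.1 r.2) (w, v) :=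
    fun w v hw => k1.contDiffAt ((isOpen_ne_fun continuous_fst continuous_const).mem_nhds hw)
  have g2 : ∀ w v, w ≠ 0 →
      ContinuousAt (fun r : V3 × V3 => fderiv ℝ (gam r.1) r.2) (w, v) := fun w v hw =>
    (ContDiffAt.fderiv (m := 0) (n := 2) (f := fun r : V3 × V3 => gam r.1) (g := Prod.snd)
      (ContDiffAt.comp (f := fun r : (V3 × V3) × V3 => (r.1.1, r.2)) ((w, v), v) (g1 w v hw)
        (contDiffAt_fst.fst.prodMk contDiffAt_snd)) contDiffAt_snd (by norm_num)).continuousAt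
  have g3 : ∀ R : ℝ, ∃ C : ℝ, 0 < C ∧ ∀ w v, w ≠ 0 → ‖v‖ ≤ R → ‖gam w v‖ ≤ C / ‖w‖ :=
    fun R => (k2 R).imp fun C h => ⟨h.1, fun w v h1 h2 => (h.2 w v h1 h2).1⟩
  obtain ⟨Λ, hΛ⟩ : ∃ Λ : ℝ × Z →L[ℝ] ℝ × V3, ∀ p, Λ p = (p.1, p.2.1) :=
    ⟨(ContinuousLinearMap.id ℝ ℝ).prodMap (fst ℝ V3 V3), fun _ => rfl⟩
  obtain ⟨L, hL⟩ : ∃ L : ℝ × Z →L[ℝ] V3, ∀ p, L p = p.2.2 :=
    ⟨(snd ℝ V3 V3).comp (snd ℝ ℝ Z), fun _ => rfl⟩
  have hL1 : ‖L‖ ≤ 1 := opNorm_le_bound _ zero_le_one fun p => by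
    rw [hL, one_mul]
    exact (_root_.norm_snd_le _).trans (_root_.norm_snd_le p)
  have hc := hφ.smooth.continuous
  have hd := hφ.smooth.differentiable (by simp)
  have G0 := gd hp hc hφ.compact (fun w v hw => (g1 w v hw).continuousAt) g3
    (β := fun y x => y • x) continuous_smul fun y x => norm_smul_le y x
  have G1 := gd hp hc hφ.compact (κ := fun w v => (fderiv ℝ (gam w) v).comp L)
    (fun w v hw => (g2 w v hw).clm_comp continuousAt_const) (fun R => (k2 R).imp fun C h =>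
      ⟨h.1, fun w v h1 h2 => ((opNorm_comp_le _ _).trans
        (mul_le_of_le_one_right (norm_nonneg _) hL1)).trans (h.2 w v h1 h2).2.1⟩)
    (β := fun y x => y • x) continuous_smul fun y x => norm_smul_le y x
  have G2 := gd hp (ψ := fun r => (fderiv ℝ φ r).comp Λ)
    ((hφ.smooth.continuous_fderiv (by simp)).clm_comp continuous_const)
    ((hφ.compact.fderiv ℝ).comp_left (g := fun T : ℝ × V3 →L[ℝ] ℝ => T.comp Λ) (zero_comp _))
    (fun w v hw => (g1 w v hw).continuousAt) g3 (β := fun y x => y.smulRight x)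
    isBoundedBilinearMap_smulRight.continuous fun y x => (norm_smulRight_apply y x).le
  have hD : ∀ p₀, HasFDerivAt (chi φ) (om⁻¹ • ∫ w : V3,
      (φ (p₀.1 + ‖w‖, p₀.2.1 + w) • (fderiv ℝ (gam w) p₀.2.2).comp L +
        ((fderiv ℝ φ (p₀.1 + ‖w‖, p₀.2.1 + w)).comp Λ).smulRight (gam w p₀.2.2))) p₀ := fun p₀ => by
    obtain ⟨b, h1, h2⟩ := (G1.add G2).bd p₀
    refine (hasFDerivAt_integral_of_dominated_of_fderiv_le (Metric.ball_mem_nhds p₀ one_pos)
      (.of_forall G0.meas) (G0.int p₀) ((G1.add G2).meas p₀)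
      (ae_ne.mono fun w hw p hp' => h2 p hp' w hw) h1 (ae_ne.mono fun w hw p _ => ?_)).const_smul
      om⁻¹
    have b1 : HasFDerivAt (fun p : ℝ × Z => (p.1 + ‖w‖, p.2.1 + w)) Λ p := by
      simpa only [hΛ, Prod.mk_add_mk] using Λ.hasFDerivAt.add_const (‖w‖, w)
    have b2 : HasFDerivAt (fun p : ℝ × Z => p.2.2) L p := by
      simpa only [funext hL] using L.hasFDerivAt
    have b3 : DifferentiableAt ℝ (gam w) p.2.2 :=
      (ContDiffAt.comp (f := fun v : V3 => (w, v)) _ (g1 w _ hw) (by fun_prop)).differentiableAt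
        two_ne_zero
    exact ((hd _).hasFDerivAt.comp p b1).smul
      (HasFDerivAt.comp (f := fun p : ℝ × Z => p.2.2) p b3.hasFDerivAt b2)
  obtain ⟨R, -, hR⟩ := hφ.bound
  refine ⟨contDiff_one_iff_hasFDerivAt.2 ⟨_, (G1.add G2).continuous.const_smul om⁻¹, hD⟩,
    ⟨R, fun p hp' => ?_⟩, fun t y v a b c => ?_⟩
  · have : ∀ w : V3, φ (p.1 + ‖w‖, p.2.1 + w) = 0 := fun w => by
      by_contra h
      linarith [(hR _ h).2.1, norm_nonneg w]
    simp [chi, this]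
  have i1 := (G1.int (t, y, v)).apply_continuousLinearMap (a, b, c)
  have i2 := (G2.int (t, y, v)).apply_continuousLinearMap (a, b, c)
  simp only [smul_apply, comp_apply, hL, hΛ, smulRight_apply] at i1 i2
  refine ⟨i2, i1, ?_⟩
  rw [(hD _).fderiv, smul_apply, integral_apply ((G1.add G2).int _)]
  simp only [add_apply, smul_apply, comp_apply, hL, hΛ, smulRight_apply]
  rw [integral_add i1 i2, add_comm]
  rfl

end Vale.Agent.P107
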