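import Vale.Agent.P107.Basic2

open MeasureTheory Set Filter Topology Metric
open scoped ContDiff Manifold

noncomputable section
namespace Vale.Agent.P107

namespace ClampX

theorem exists_N (n : ℕ → ℝ) : ∃ N : ℝ → ℝ, ContDiff ℝ 1 N ∧ (∀ t, 1 ≤ N t) ∧
    ∀ t (m : ℕ), (m : ℝ) ≤ t + 2 → n m ≤ N t := by
  obtain ⟨g, hg⟩ := exists_contMDiffMap_forall_mem_convex_of_local_const (n := 1) 𝓘(ℝ, ℝ)
    (t := fun t : ℝ => {c : ℝ | 1 ≤ c ∧ ∀ m : ℕ, (m : ℝ) ≤ t + 2 → n m ≤ c})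
    (fun t => by
      intro x hx y hy a b ha hb hab
      have key : ∀ c, c ≤ x → c ≤ y → c ≤ a • x + b • y := fun c h1 h2 =>
        convex_Ici c h1 h2 ha hb hab
      exact ⟨key _ hx.1 hy.1, fun m hm => key _ (hx.2 m hm) (hy.2 m hm)⟩)
    (fun x => ⟨1 + ∑ i ∈ Finset.range (⌈x + 3⌉₊ + 1), |n i|, by
      have h0 : 0 ≤ ∑ i ∈ Finset.range (⌈x + 3⌉₊ + 1), |n i| :=
        Finset.sum_nonneg fun _ _ => abs_nonneg _
      filter_upwards [gt_mem_nhds (lt_add_one x)] with y hy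
      refine ⟨by linarith, fun m hm => ?_⟩
      have h1 : m ≤ ⌈x + 3⌉₊ := Nat.cast_le (α := ℝ).1 ((by linarith : (m : ℝ) ≤ x + 3).trans
        (Nat.le_ceil _))
      have h2 := Finset.single_le_sum (f := fun i => |n i|) (fun _ _ => abs_nonneg _)
        (Finset.mem_range.2 (Nat.lt_succ_of_le h1))
      linarith [le_abs_self (n m)]⟩)
  exact ⟨g, g.contMDiff.contDiff, fun t => (hg t).1, fun t => (hg t).2⟩

end ClampX

theorem clamp : Clamp := by
  intro n
  obtain ⟨N, hN, hN1, hNn⟩ := ClampX.exists_N n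
  let β : ContDiffBump (0 : Z) := ⟨1, 2, one_pos, one_lt_two⟩
  let Φ : Z → Z := fun k => β k • k
  have hΦ : ContDiff ℝ 2 Φ := β.contDiff.smul contDiff_id
  obtain ⟨C, hC, hB⟩ := B3.of_compact hΦ (β.hasCompactSupport.smul_right (f' := fun k : Z => k))
  have hN0 : ∀ t, 0 < N t := fun t => one_pos.trans_le (hN1 t)
  have hJ : ContDiff ℝ 1 fun p : ℝ × Z => N p.1 • Φ ((N p.1)⁻¹ • p.2) :=
    (hN.comp contDiff_fst).smul ((hΦ.of_le one_le_two).comp
      (((hN.comp contDiff_fst).inv fun p => (hN0 _).ne').smul contDiff_snd))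
  have hbd : ∀ T : ℝ, ∃ B, ∀ t, |t| ≤ T → N t ≤ B := fun T => by
    obtain ⟨B, hB⟩ := (isCompact_Icc (a := -T) (b := T)).exists_bound_of_continuousOn
      hN.continuous.continuousOn
    exact ⟨B, fun t ht => (le_abs_self _).trans (hB t (abs_le.1 ht))⟩
  have hk : ∀ t (k : Z), ‖(N t)⁻¹ • k‖ = ‖k‖ / N t := fun t k => by
    rw [norm_smul, Real.norm_of_nonneg (inv_pos.2 (hN0 t)).le, inv_mul_eq_div]
  refine ⟨fun t k => N t • Φ ((N t)⁻¹ • k), ⟨hJ.continuous, fun T => ?_⟩, fun T => ?_,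
    fun t _ m hm k h => ?_⟩
  · obtain ⟨B, H⟩ := hbd T
    refine ⟨B * C, fun t ht => ?_⟩
    have h1 : ‖(N t)⁻¹ • ContinuousLinearMap.id ℝ Z‖ ≤ 1 := by
      rw [norm_smul, ContinuousLinearMap.norm_id, mul_one,
        Real.norm_of_nonneg (inv_pos.2 (hN0 t)).le]
      exact inv_le_one_of_one_le₀ (hN1 t)
    have h2 : |N t| * C ≤ B * C := by
      rw [abs_of_pos (hN0 t)]; exact mul_le_mul_of_nonneg_right (H t ht) (by linarith)
    exact ((hB.comp_clm (by linarith) _ h1).const_smul (N t)).mono h2 h2 h2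
  · obtain ⟨B, H⟩ := hbd T
    obtain ⟨K, hK⟩ := (hJ.contDiffOn (s := Icc (-T) T ×ˢ closedBall 0 (2 * B))).exists_lipschitzOnWith
      one_ne_zero ((convex_Icc _ _).prod (convex_closedBall _ _))
      (isCompact_Icc.prod (isCompact_closedBall _ _))
    refine ⟨K, fun t t' ht ht' k => ?_⟩
    by_cases h : k ∈ closedBall 0 (2 * B)
    · have := hK.dist_le_mul (t, k) ⟨abs_le.1 ht, h⟩ (t', k) ⟨abs_le.1 ht', h⟩
      rwa [dist_prod_same_right, dist_eq_norm, Real.dist_eq] at this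
    · rw [mem_closedBall_zero_iff, not_le] at h
      have h0 : ∀ s, |s| ≤ T → Φ ((N s)⁻¹ • k) = 0 := fun s hs => by
        have : β ((N s)⁻¹ • k) = 0 := β.zero_of_le_dist (by
          rw [dist_zero_right, hk, le_div_iff₀ (hN0 s)]
          show 2 * N s ≤ _
          linarith [H s hs])
        simp only [Φ, this, zero_smul]
      simp only [h0 t ht, h0 t' ht', smul_zero, sub_zero, norm_zero]
      positivity
  · have : β ((N t)⁻¹ • k) = 1 := β.one_of_mem_closedBall (by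
      rw [mem_closedBall_zero_iff, hk, div_le_iff₀ (hN0 t)]
      show _ ≤ 1 * N t
      linarith [hNn t m hm])
    simp only [Φ, this, one_smul, one_mul, smul_smul, mul_inv_cancel₀ (hN0 t).ne']

theorem clC : ClC := by
  intro n Cl h
  have key : ∀ T : ℝ, ∃ C : ℝ, 1 ≤ C ∧ (∀ t, |t| ≤ T → B3 (Cl t) C C C) ∧
      (∀ t t', |t| ≤ T → |t'| ≤ T → ∀ k, ‖Cl t k - Cl t' k‖ ≤ C * |t - t'|) ∧
      ∀ (K : ℝ → V3 → Z) t a b c, |t| ≤ T → B3 (K t) a b c →
        B3 (clF Cl K t) C (C * b) (C * (b ^ 2 + c)) := fun T => by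
    obtain ⟨C, hC, H⟩ := h.reg.bd' T
    obtain ⟨C', H'⟩ := h.lip T
    have H2 : ∀ t, |t| ≤ T → B3 (Cl t) (max C C') (max C C') (max C C') := fun t ht =>
      (H t ht).mono (le_max_left _ _) (le_max_left _ _) (le_max_left _ _)
    have h1 : 1 ≤ max C C' := hC.trans (le_max_left _ _)
    refine ⟨max C C', h1, H2, fun t t' ht ht' k => (H' t t' ht ht' k).trans
      (mul_le_mul_of_nonneg_right (le_max_right _ _) (abs_nonneg _)), fun K t a b c ht hK => ?_⟩
    rw [mul_add]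
    exact (H2 t ht).comp (by linarith) hK.diff hK.b1 hK.b2
  refine ⟨fun K hK => ⟨h.reg.cont.comp (continuous_fst.prodMk hK.cont), fun T => ?_⟩, fun T => ?_⟩
  · obtain ⟨C, hC, -, -, H⟩ := key T
    obtain ⟨C', hC', H'⟩ := hK.bd' T
    refine ⟨C * (C' ^ 2 + C'), fun t ht => (H K t _ _ _ ht (H' t ht)).mono ?_ ?_ le_rfl⟩
    · exact le_mul_of_one_le_right (by linarith) (by nlinarith)
    · exact mul_le_mul_of_nonneg_left (by nlinarith) (by linarith)
  · obtain ⟨C, hC, H1, H2, H3⟩ := key T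
    refine ⟨C, hC, H3, fun K A lam hA hl hK t t' h0 h1 h2 y y' => ?_,
      fun K K' t y ht => (H1 t ht).lip _ _⟩
    have ht : |t| ≤ T := by rw [abs_of_nonneg (h0.trans h1)]; exact h2
    have ht' : |t'| ≤ T := by rw [abs_of_nonneg h0]; exact h1.trans h2
    have e1 := ((H1 t ht).lip (K t y) (K t' y')).trans
      (mul_le_mul_of_nonneg_left (hK t t' h0 h1 h2 y y') (by linarith))
    have e2 := H2 t t' ht ht' (K t' y')
    have e3 : 1 ≤ Real.exp (lam * t) := Real.one_le_exp (mul_nonneg hl (h0.trans h1))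
    have e4 : |t - t'| ≤ Real.exp (lam * t) * (|t - t'| + ‖y - y'‖) :=
      (le_add_of_nonneg_right (norm_nonneg _)).trans (le_mul_of_one_le_left (by positivity) e3)
    have e5 := mul_le_mul_of_nonneg_left e4 (by linarith : 0 ≤ C)
    refine (norm_sub_le_norm_sub_add_norm_sub _ (Cl t (K t' y')) _).trans ?_
    unfold clF
    linarith

end Vale.Agent.P107
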