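import Vale.Agent.P107.Basic2

/-! Problem P107: joint continuity of derivatives and limits of regular families. -/

open MeasureTheory Set Filter Topology

noncomputable section
namespace Vale.Agent.P107

namespace ContDX

variable {X W : Type} [NormedAddCommGroup X] [NormedSpace ℝ X] [NormedAddCommGroup W]
  [NormedSpace ℝ W]

theorem sub_interp {g h : X → W} {c η r : ℝ} (hg : Differentiable ℝ g) (hh : Differentiable ℝ h)
    (hc : 0 ≤ c) (h1 : ∀ x y, ‖fderiv ℝ g x - fderiv ℝ g y‖ ≤ c * ‖x - y‖)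
    (h2 : ∀ x y, ‖fderiv ℝ h x - fderiv ℝ h y‖ ≤ c * ‖x - y‖) (hr : 0 < r) (x : X)
    (hη : ∀ y, ‖y - x‖ ≤ r → ‖g y - h y‖ ≤ η) :
    ‖fderiv ℝ g x - fderiv ℝ h x‖ ≤ 2 * η / r + 2 * c * r := by
  have e : ∀ x, fderiv ℝ (fun y => g y - h y) x = fderiv ℝ g x - fderiv ℝ h x :=
    fun x => fderiv_sub (hg x) (hh x)
  rw [← e]
  refine norm_fderiv_le_interp (g := fun y => g y - h y) (hg.sub hh) (by positivity)
    (fun a b => ?_) hr x hη
  rw [e, e]
  have e2 : fderiv ℝ g a - fderiv ℝ h a - (fderiv ℝ g b - fderiv ℝ h b) =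
      (fderiv ℝ g a - fderiv ℝ g b) - (fderiv ℝ h a - fderiv ℝ h b) := by abel
  rw [e2]
  have := norm_sub_le (fderiv ℝ g a - fderiv ℝ g b) (fderiv ℝ h a - fderiv ℝ h b)
  have := h1 a b
  have := h2 a b
  linarith

/-- the choice of scales in the interpolation -/
theorem scales {c ε : ℝ} (hc : 0 < c) (hε : 0 < ε) :
    ∃ r η : ℝ, 0 < r ∧ r ≤ 1 ∧ 0 < η ∧ c * r ≤ ε / 8 ∧ 2 * η / r + 2 * c * r ≤ ε / 2 := by
  have h1 : c * min 1 (ε / (8 * c)) ≤ ε / 8 := by
    calc c * min 1 (ε / (8 * c)) ≤ c * (ε / (8 * c)) :=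
          mul_le_mul_of_nonneg_left (min_le_right _ _) hc.le
      _ = ε / 8 := by field_simp
  have hr : 0 < min 1 (ε / (8 * c)) := lt_min one_pos (by positivity)
  refine ⟨min 1 (ε / (8 * c)), ε * min 1 (ε / (8 * c)) / 8, hr, min_le_left _ _, by positivity,
    h1, ?_⟩
  have h2 : 2 * (ε * min 1 (ε / (8 * c)) / 8) / min 1 (ε / (8 * c)) = ε / 4 := by
    field_simp; norm_num
  rw [h2]; linarith

theorem lim_b3 [CompleteSpace W] {gn : ℕ → X → W} {g : X → W} {C : ℝ}
    (h : ∀ n, B3 (gn n) C C C)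
    (hl : ∀ ε : ℝ, 0 < ε → ∀ᶠ n in atTop, ∀ x, ‖gn n x - g x‖ ≤ ε) : B3 g C C C := by
  have hC : 0 ≤ C := (h 0).a_nonneg
  have hpt : ∀ x, Tendsto (fun n => gn n x) atTop (𝓝 (g x)) := by
    intro x
    refine Metric.tendsto_nhds.2 fun ε hε => ?_
    filter_upwards [hl (ε / 2) (by positivity)] with n hn
    rw [dist_eq_norm]; linarith [hn x]
  have hcau : UniformCauchySeqOn (fun n => fderiv ℝ (gn n)) atTop univ := by
    refine Metric.uniformCauchySeqOn_iff.2 fun ε hε => ?_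
    obtain ⟨r, η, hr, -, hη, -, hs⟩ := scales (c := C + 1) (by linarith) hε
    obtain ⟨N, hN⟩ := eventually_atTop.1 (hl (η / 2) (by positivity))
    refine ⟨N, fun m hm n hn x _ => ?_⟩
    rw [dist_eq_norm]
    have hb : ∀ k a b, ‖fderiv ℝ (gn k) a - fderiv ℝ (gn k) b‖ ≤ (C + 1) * ‖a - b‖ :=
      fun k a b => ((h k).b2 a b).trans
        (mul_le_mul_of_nonneg_right (by linarith) (norm_nonneg _))
    have := sub_interp (η := η) (h m).diff (h n).diff (by linarith) (hb m) (hb n) hr x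
      (fun y _ => by
        have e : gn m y - gn n y = (gn m y - g y) - (gn n y - g y) := by abel
        rw [e]
        have := norm_sub_le (gn m y - g y) (gn n y - g y)
        linarith [hN m hm y, hN n hn y])
    linarith
  have hex : ∀ x, ∃ L, Tendsto (fun n => fderiv ℝ (gn n) x) atTop (𝓝 L) := fun x =>
    cauchySeq_tendsto_of_complete (hcau.cauchySeq (mem_univ x))
  choose g' hg' using hex
  have hu : TendstoUniformly (fun n => fderiv ℝ (gn n)) g' atTop :=
    tendstoUniformlyOn_univ.1 (hcau.tendstoUniformlyOn_of_tendsto fun x _ => hg' x)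
  have hd : ∀ x, HasFDerivAt g (g' x) x := fun x =>
    hasFDerivAt_of_tendstoUniformly hu (fun n x => ((h n).diff x).hasFDerivAt) hpt x
  refine ⟨fun x => (hd x).differentiableAt, fun x => ?_, fun x => ?_, fun x y => ?_⟩
  · exact le_of_tendsto' (hpt x).norm fun n => (h n).b0 x
  · rw [(hd x).fderiv]
    exact le_of_tendsto' (hg' x).norm fun n => (h n).b1 x
  · rw [(hd x).fderiv, (hd y).fderiv]
    exact le_of_tendsto' ((hg' x).sub (hg' y)).norm fun n => (h n).b2 x y

end ContDX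

theorem contD : ContD := by
  intro P X W _ _ _ _ _ _ K hK hd hL
  refine continuous_iff_continuousAt.2 fun ⟨p₀, x₀⟩ => Metric.tendsto_nhds.2 fun ε hε => ?_
  obtain ⟨C, hC⟩ := hL p₀
  have hC' : ∀ᶠ p in 𝓝 p₀, ∀ x y,
      ‖fderiv ℝ (K p) x - fderiv ℝ (K p) y‖ ≤ (|C| + 1) * ‖x - y‖ := by
    filter_upwards [hC] with p hp x y
    exact (hp x y).trans
      (mul_le_mul_of_nonneg_right (by linarith [le_abs_self C]) (norm_nonneg _))
  have hc : 0 < |C| + 1 := by positivity
  obtain ⟨r, η, hr, hr1, hη, hs1, hs⟩ := ContDX.scales hc hε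
  have h0 := hC'.self_of_nhds
  have htube : ∀ᶠ p in 𝓝 p₀, ∀ y ∈ Metric.closedBall x₀ 2, ‖K p y - K p₀ y‖ < η := by
    refine (isCompact_closedBall x₀ 2).eventually_forall_of_forall_eventually fun y _ => ?_
    have hc2 : Continuous (fun z : P × X => ‖K z.1 z.2 - K p₀ z.2‖) :=
      (hK.sub (hK.comp (continuous_const.prodMk continuous_snd))).norm
    exact hc2.continuousAt.eventually (gt_mem_nhds (by simpa using hη))
  have hx : ∀ᶠ x in 𝓝 x₀, ‖x - x₀‖ < r := by
    have : Continuous (fun x : X => ‖x - x₀‖) := by fun_prop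
    exact this.continuousAt.eventually (gt_mem_nhds (by simpa using hr))
  rw [nhds_prod_eq]
  filter_upwards [(hC'.and htube).prod_mk hx] with z hz
  obtain ⟨⟨h1, h2⟩, h3⟩ := hz
  rw [dist_eq_norm]
  have k1 := ContDX.sub_interp (η := η) (hd z.1) (hd p₀) hc.le h1 h0 hr z.2 (fun y hy => by
    refine (h2 y ?_).le
    rw [Metric.mem_closedBall, dist_eq_norm]
    have := norm_sub_le_norm_sub_add_norm_sub y z.2 x₀
    linarith)
  have k2 := (h0 z.2 x₀).trans (mul_le_mul_of_nonneg_left h3.le hc.le)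
  have := norm_sub_le_norm_sub_add_norm_sub (fderiv ℝ (K z.1) z.2) (fderiv ℝ (K p₀) z.2)
    (fderiv ℝ (K p₀) x₀)
  show ‖fderiv ℝ (K z.1) z.2 - fderiv ℝ (K p₀) x₀‖ < ε
  linarith

theorem lim : Lim := by
  intro Kn K hR hb hl
  refine ⟨?_, fun T => ?_⟩
  · refine continuous_iff_continuousAt.2 fun z => ?_
    have hu : TendstoUniformlyOn (fun n (p : ℝ × V3) => Kn n p.1 p.2) (fun p => K p.1 p.2) atTop
        {p | |p.1| < |z.1| + 1} := by
      refine Metric.tendstoUniformlyOn_iff.2 fun ε hε => ?_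
      filter_upwards [hl (|z.1| + 1) (ε / 2) (by positivity)] with n hn p hp
      rw [dist_comm, dist_eq_norm]
      linarith [hn p.1 (le_of_lt hp) p.2]
    have ho : IsOpen {p : ℝ × V3 | |p.1| < |z.1| + 1} :=
      isOpen_lt (by fun_prop) continuous_const
    exact (hu.continuousOn (Eventually.of_forall fun n => (hR n).cont.continuousOn).frequently
      ).continuousAt (ho.mem_nhds (by simp))
  · obtain ⟨C, hC⟩ := hb T
    refine ⟨C, fun t ht => ContDX.lim_b3 (gn := fun n => Kn n t) (fun n => hC n t ht)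
      fun ε hε => ?_⟩
    filter_upwards [hl T ε hε] with n hn x using hn t ht x

end Vale.Agent.P107
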