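import Vale.Agent.P107.Basic

/-! Problem P107: crude bounds and the absence of collisions. -/

open MeasureTheory Set Filter Topology
open scoped ENNReal RealInnerProductSpace

noncomputable section
namespace Vale.Agent.P107

namespace CrudeX

theorem inv_le {r T : ℝ} (hT : r ≤ T) : r⁻¹ ≤ T * r⁻¹ ^ 2 := by
  have e : r⁻¹ = r * r⁻¹ ^ 2 := by
    by_cases h : r = 0
    · simp [h]
    · field_simp
  exact e.le.trans (mul_le_mul_of_nonneg_right hT (sq_nonneg _))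

theorem elw_le {T P N : ℝ} {w v : V3} {k : Z} (hP : q v ≤ P) (hN : ‖k‖ ≤ N) (hT : ‖w‖ ≤ T) :
    ‖ELW w v k‖ ≤ (16 * P ^ 6 + 128 * (N * T) * P ^ 6) * ‖w‖⁻¹ ^ 2 := by
  have h1 := one_le_q v
  have hb := b2_pos w v
  have hb2 := b2_le_two w v
  have hN0 : 0 ≤ N := (norm_nonneg _).trans hN
  have hβ : (b2 w v)⁻¹ ≤ 2 * P ^ 2 := by
    have := dd_uu_sq_ge (norm_hat_le w) v
    rw [← b2_eq, one_div] at this
    refine (inv_le_of_inv_le₀ (by positivity) this).trans ?_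
    gcongr
  have hβ3 : (b2 w v)⁻¹ ^ 3 ≤ 8 * P ^ 6 :=
    (pow_le_pow_left₀ (by positivity) hβ 3).trans_eq (by ring)
  have hn : ‖hat w - uu v‖ ≤ 2 := by
    linarith [norm_sub_le (hat w) (uu v), norm_hat_le w, norm_uu_le v]
  have ha : ‖acc v k‖ ≤ 4 * N := (norm_acc_le v k).trans (by linarith)
  have hT' : ‖ET w v‖ ≤ 16 * P ^ 6 * ‖w‖⁻¹ ^ 2 := by
    have hq : (q v)⁻¹ ^ 2 ≤ 1 := pow_le_one₀ (by positivity) (inv_le_one_of_one_le₀ h1)
    rw [ET, norm_smul, Real.norm_of_nonneg (by positivity), mul_inv, mul_inv, ← inv_pow, ← inv_pow,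
      ← inv_pow]
    calc _ ≤ 1 * (8 * P ^ 6) * ‖w‖⁻¹ ^ 2 * 2 := by gcongr
      _ = _ := by ring
  have hS : ‖ES w v k‖ ≤ 128 * (N * T) * P ^ 6 * ‖w‖⁻¹ ^ 2 := by
    have h2 : |⟪hat w, acc v k⟫| ≤ 4 * N := (abs_real_inner_le_norm _ _).trans
      ((mul_le_of_le_one_left (norm_nonneg _) (norm_hat_le w)).trans ha)
    have h3 : ‖⟪hat w, acc v k⟫ • (hat w - uu v) - b2 w v • acc v k‖ ≤ 16 * N := by
      refine (norm_sub_le _ _).trans ?_
      rw [norm_smul, norm_smul, Real.norm_eq_abs, Real.norm_of_nonneg hb.le]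
      calc _ ≤ 4 * N * 2 + 2 * (4 * N) := by gcongr
        _ = _ := by ring
    have h4 := inv_le hT
    have h5 := (norm_nonneg _).trans hT
    rw [ES, norm_smul, Real.norm_of_nonneg (by positivity), mul_inv, ← inv_pow]
    calc _ ≤ 8 * P ^ 6 * (T * ‖w‖⁻¹ ^ 2) * (16 * N) := by gcongr
      _ = _ := by ring
  refine (norm_add_le _ _).trans ?_
  linarith

theorem ph_le {T P δ a₀ : ℝ} {w v e : V3} (hP : q v ≤ P) (hT : ‖w‖ ≤ T) (ha : 0 < a₀) :
    ph δ a₀ e w v ≤ 2 * (P * T) * (a₀⁻¹ * ‖w‖⁻¹ ^ 2) := by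
  have h1 := one_le_q v
  have hT0 : 0 ≤ T := (norm_nonneg _).trans hT
  have hP0 : 0 ≤ P := by linarith
  unfold ph
  split_ifs with h
  · have hb := dd_uu_pos (norm_hat_le w) v
    have h2 : (dd (hat w) (uu v))⁻¹ ≤ 2 * P := by
      rw [inv_le_iff_one_le_mul₀ hb]
      nlinarith [one_le_q_dd (norm_hat_le w) v]
    have h3 : (dd (hat w) e)⁻¹ ≤ a₀⁻¹ := inv_anti₀ ha h.2
    have h4 := inv_le hT
    have h5 := dd_nonneg (hat w) e
    rw [one_div, mul_inv, mul_inv]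
    calc _ ≤ a₀⁻¹ * (2 * P) * (T * ‖w‖⁻¹ ^ 2) := by gcongr
      _ = _ := by ring
  · positivity

theorem part1 (T P N : ℝ) : ∃ C : ℝ, 0 < C ∧ ∀ (w v : V3) (k : Z), q v ≤ P → ‖k‖ ≤ N → ‖w‖ ≤ T →
    ‖ELW w v k‖ ≤ C / ‖w‖ ^ 2 ∧ ‖BLW w v k‖ ≤ C / ‖w‖ ^ 2 ∧
    (∀ U, ‖U‖ ≤ 1 → ‖FLW U w v k‖ ≤ C / ‖w‖ ^ 2) ∧
    ∀ δ a₀ e, 0 < a₀ → ph δ a₀ e w v ≤ C / (a₀ * ‖w‖ ^ 2) := by
  refine ⟨2 * |16 * P ^ 6 + 128 * (N * T) * P ^ 6| + |2 * (P * T)| + 1, by positivity,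
    fun w v k hP hN hT => ?_⟩
  have h1 := elw_le hP hN hT
  have h2 := le_abs_self (16 * P ^ 6 + 128 * (N * T) * P ^ 6)
  have h3 := le_abs_self (2 * (P * T))
  have h4 := abs_nonneg (16 * P ^ 6 + 128 * (N * T) * P ^ 6)
  have h5 := abs_nonneg (2 * (P * T))
  have h6 : ‖BLW w v k‖ ≤ ‖ELW w v k‖ := (norm_cross_le _ _).trans
    (mul_le_of_le_one_left (norm_nonneg _) (norm_hat_le w))
  have h7 : 2 * ‖ELW w v k‖ ≤
      (2 * |16 * P ^ 6 + 128 * (N * T) * P ^ 6| + |2 * (P * T)| + 1) / ‖w‖ ^ 2 := by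
    rw [div_eq_mul_inv, ← inv_pow]
    nlinarith [sq_nonneg ‖w‖⁻¹]
  have h8 := norm_nonneg (ELW w v k)
  refine ⟨by linarith, by linarith, fun U hU => ?_, fun δ a₀ e ha => ?_⟩
  · have h9 : ‖cross U (BLW w v k)‖ ≤ ‖BLW w v k‖ := (norm_cross_le _ _).trans
      (mul_le_of_le_one_left (norm_nonneg _) hU)
    have := norm_add_le (ELW w v k) (cross U (BLW w v k))
    exact this.trans (by linarith)
  · refine (ph_le hP hT ha).trans ?_
    rw [div_eq_mul_inv, mul_inv, ← inv_pow]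
    gcongr
    linarith

/-- `1/r²` with the value `∞` at the origin -/
def ff (w : V3) : ℝ≥0∞ := (ENNReal.ofReal (‖w‖ ^ 2))⁻¹

theorem ff_meas : Measurable ff := by unfold ff; fun_prop

theorem ff_eq {w : V3} (h : w ≠ 0) : ff w = ENNReal.ofReal (1 / ‖w‖ ^ 2) := by
  rw [ff, one_div, ENNReal.ofReal_inv_of_pos (by positivity)]

theorem ff_zero : ff 0 = ∞ := by simp [ff]

theorem act_meas {Γ : PS} (h : Γ.Kin) (s : ℝ) (x : V3) : MeasurableSet (Γ.act s x) := by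
  have := h.cY.comp (Continuous.prodMk_right (0 : ℝ))
  exact (isOpen_lt (continuous_const.sub this).norm continuous_const).measurableSet

theorem key (h : Ret1) (hp : Ph) (Λ P : ℝ) : ∃ M : ℝ≥0∞, M ≠ ∞ ∧ ∀ (Γ : PS) (T N : ℝ),
    Γ.Good T Λ N → ∀ s ∈ Icc (0 : ℝ) T, Γ.Bd s P → ∀ x, Γ.cI s x (fun y => ff y.1) ≤ M := by
  obtain ⟨C, -, hC⟩ := hp
  obtain ⟨e, he⟩ := exists_norm_eq V3 zero_le_one
  have h1 := (hC e (by rw [he]; norm_num) he.le (|P| + 1) 2 (by positivity) two_pos).1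
  have h2 := (hC e (by rw [he]; norm_num) he.le (|Λ| + 1) 2 (by positivity) two_pos).2
  have hA : MeasurableSet {w : V3 | ‖w‖ ≤ |Λ| + 1 ∧ dd (hat w) e ≤ 2} := by
    refine MeasurableSet.inter (s₁ := {w : V3 | ‖w‖ ≤ |Λ| + 1}) (s₂ := {w | dd (hat w) e ≤ 2})
      ?_ ?_ <;> exact measurableSet_le (by fun_prop) (by fun_prop)
  have hB : MeasurableSet {v : V3 | q v ≤ |P| + 1 ∧ dd e (uu v) ≤ 2} := by
    refine MeasurableSet.inter (s₁ := {v : V3 | q v ≤ |P| + 1}) (s₂ := {v | dd e (uu v) ≤ 2})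
      ?_ ?_ <;> exact measurableSet_le (by fun_prop) (by fun_prop)
  rw [← lintegral_congr_ae (f := ff) (ae_restrict_of_ae
    ((volume : Measure V3).ae_ne 0 |>.mono fun w hw => ff_eq hw))] at h2
  have hA' : ∀ w : V3, ‖w‖ ≤ Λ → w ∈ {w : V3 | ‖w‖ ≤ |Λ| + 1 ∧ dd (hat w) e ≤ 2} := fun w hw =>
    ⟨by linarith [le_abs_self Λ], (dd_lt_two (norm_hat_le w) he.le).le⟩
  have hB' : ∀ v : V3, q v ≤ P → v ∈ {v : V3 | q v ≤ |P| + 1 ∧ dd e (uu v) ≤ 2} := fun v hv =>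
    ⟨by linarith [le_abs_self P], (dd_lt_two he.le (norm_uu_le v)).le⟩
  generalize {w : V3 | ‖w‖ ≤ |Λ| + 1 ∧ dd (hat w) e ≤ 2} = A at h2 hA hA'
  generalize {v : V3 | q v ≤ |P| + 1 ∧ dd e (uu v) ≤ 2} = B at h1 hB hB'
  refine ⟨ENNReal.ofReal Λ * ((∫⁻ w in A, ff w) * (2 * volume B)), ENNReal.mul_ne_top
    ENNReal.ofReal_ne_top (ENNReal.mul_ne_top (ne_top_of_le_ne_top ENNReal.ofReal_ne_top h2)
      (ENNReal.mul_ne_top (by simp) (ne_top_of_le_ne_top ENNReal.ofReal_ne_top h1))),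
    fun Γ T N hG s hs hb x => ?_⟩
  have hR := h Γ hG.toKin
  have m1 : Measurable (B.indicator (1 : V3 → ℝ≥0∞)) := measurable_one.indicator hB
  have m2 : Measurable (B.indicator fun _ : V3 => (2 : ℝ≥0∞)) := measurable_const.indicator hB
  have m3 := ff_meas.indicator hA
  calc _ = Γ.cI s x (fun y => ff y.1 * B.indicator 1 y.2) := by
        refine lintegral_congr_ae (ae_restrict_of_ae (hG.supp.mono fun z hz => ?_))
        have := hB' (Γ.wv s x z).2 (hb z hz _ ⟨hR.nonneg s x z, hR.le s x z hs.1⟩)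
        simp only [indicator_of_mem this, Pi.one_apply, mul_one]
    _ ≤ _ := hG.cone s hs x _ ((ff_meas.comp measurable_fst).mul (m1.comp measurable_snd))
    _ ≤ _ := by
        refine mul_le_mul_right ?_ _
        rw [← lintegral_indicator hA, ← lintegral_indicator_const hB,
          ← lintegral_prod_mul m3.aemeasurable m2.aemeasurable, ← Measure.volume_eq_prod]
        refine le_trans (setLIntegral_mono' ?_ ?_) (setLIntegral_le_lintegral _ _)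
        · exact measurableSet_lt (by fun_prop) measurable_const
        · intro p hp
          have h3 := hA' p.1 (le_trans (le_of_lt hp) (hs.2.trans hG.hT))
          rw [indicator_of_mem h3, mul_assoc]
          refine mul_le_mul_right ?_ _
          by_cases h4 : p.2 ∈ B
          · rw [indicator_of_mem h4, indicator_of_mem h4, Pi.one_apply, one_mul]
            exact (ENNReal.ofReal_le_ofReal (b2_le_two _ _)).trans_eq (by simp)
          · simp [h4]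

end CrudeX

open CrudeX

theorem crude (h : Ret1) (hp : Ph) : Crude := by
  refine ⟨part1, fun Λ P => ?_⟩
  obtain ⟨M, hM, hk⟩ := key h hp Λ P
  refine ⟨M.toReal + 1, by positivity, fun Γ T N hG s hs hb x => ?_⟩
  have hR := h Γ hG.toKin
  have h1 := hk Γ T N hG s hs hb x
  have m : Measurable fun z => ff (Γ.wv s x z).1 := ff_meas.comp
    (hR.cwv.comp (f := fun z => (s, x, z)) (by fun_prop)).fst.measurable
  have h2 := (ae_restrict_iff' (act_meas hG.toKin s x)).1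
    (ae_lt_top m (ne_top_of_le_ne_top hM h1))
  refine ⟨le_trans (lintegral_mono fun z => ?_) (h1.trans ?_), ?_⟩
  · by_cases h0 : (Γ.wv s x z).1 = 0
    · simp only [h0, ff_zero, le_top]
    · exact (ff_eq h0).ge
  · exact (ENNReal.ofReal_toReal hM).ge.trans (ENNReal.ofReal_le_ofReal (by linarith))
  · filter_upwards [h2, hG.supp] with z h2 hz ha
    have h3 := hR.act s x z ha
    have h4 : Γ.ret s x z ∈ Icc 0 s := ⟨hR.nonneg s x z, hR.le s x z hs.1⟩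
    refine ⟨hb z hz _ h4, by linarith [h3.1, h3.2], fun h0 => ?_,
      hG.bK _ ⟨by linarith [h3.1, h3.2], by linarith [h3.2, h4.2, hs.2]⟩ _⟩
    have := h2 ha
    rw [h0, ff_zero] at this
    exact lt_irrefl _ this

theorem noHit (h : Ret1) (ht : Ton) (hc : Crude) : NoHitS := by
  intro Γ T Λ N P t z₀ hG t0 tT hb
  obtain ⟨C, -, hC⟩ := hc.2 Λ P
  have hR := h Γ hG.toKin
  obtain ⟨-, e1, m, e2⟩ := (ht Γ hG.toKin z₀ 0 t).2.2.2.2.2 (fun x => ff x.2.1)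
    (ff_meas.comp measurable_snd.fst)
  rw [zero_add] at e1 e2 m
  have h1 : ∫⁻ s in Icc 0 t, Γ.cI s (Γ.Y s z₀) (fun x => ff x.1) ≤
      ∫⁻ _ in Icc (0 : ℝ) t, ENNReal.ofReal C := by
    refine setLIntegral_mono measurable_const fun s hs => ?_
    obtain ⟨h2, h3⟩ := hC Γ T N hG s ⟨hs.1, hs.2.trans tT⟩ (hb.mono hs.2) (Γ.Y s z₀)
    refine le_trans (le_of_eq (lintegral_congr_ae ?_)) h2
    exact (ae_restrict_iff' (act_meas hG.toKin _ _)).2
      (h3.mono fun z hz ha => ff_eq (hz ha).2.2.1)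
  rw [← e1, e2, setLIntegral_const] at h1
  filter_upwards [ae_lt_top m (ne_top_of_le_ne_top (ENNReal.mul_ne_top ENNReal.ofReal_ne_top
    measure_Icc_lt_top.ne) h1), (hC Γ T N hG t ⟨t0.le, tT⟩ hb (Γ.Y t z₀)).2] with z h2 h3 s₁ hs₁ e
  have h4 : s₁ - s₁ = ‖Γ.Y s₁ z₀ - Γ.Y s₁ z‖ := by rw [e, sub_self, sub_self, norm_zero]
  have h5 := hR.char _ _ _ _ hs₁.1 h4
  rcases hs₁.2.eq_or_lt with rfl | hlt
  · refine (h3 (hR.char' _ _ _ _ t0 h4)).2.2.1 ?_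
    rw [PS.wv, h5, e, sub_self]
  generalize hI : ∫⁻ s in Icc 0 t ∩ {s | z ∈ Γ.act s (Γ.Y s z₀)},
    ff (Γ.wv s (Γ.Y s z₀) z).1 = I at h2
  obtain ⟨η, η0, η1, η2⟩ : ∃ η : ℝ, 0 < η ∧ η ≤ t - s₁ ∧ η ≤ (I.toReal + 1)⁻¹ :=
    ⟨min _ _, lt_min (sub_pos.2 hlt) (by positivity), min_le_left _ _, min_le_right _ _⟩
  have h6 : ∀ s, s₁ < s → z ∈ Γ.act s (Γ.Y s z₀) := fun s hs => by
    have a1 := hR.speed z₀ s s₁ hs.ne'
    have a2 : ‖Γ.Y s₁ z - Γ.Y 0 z‖ ≤ s₁ := by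
      rcases hs₁.1.eq_or_lt with h0 | h0
      · simp [← h0]
      · simpa [abs_of_pos h0] using (hR.speed z s₁ 0 h0.ne').le
    have a3 := norm_sub_le_norm_sub_add_norm_sub (Γ.Y s z₀) (Γ.Y s₁ z₀) (Γ.Y 0 z)
    rw [abs_of_pos (sub_pos.2 hs)] at a1
    rw [e] at a2
    show ‖_‖ < s
    linarith
  have h7 : ∫⁻ _ in Ioc s₁ (s₁ + η), (ENNReal.ofReal (η ^ 2))⁻¹ ≤ I := by
    rw [← hI]
    refine le_trans (setLIntegral_mono' measurableSet_Ioc fun s hs => ?_)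
      (lintegral_mono_set fun s hs => ⟨⟨hs₁.1.trans hs.1.le, by linarith [hs.2]⟩, h6 s hs.1⟩)
    have a1 := (hR.act _ _ _ (h6 s hs.1)).2
    have a2 := hR.mono z₀ z hs.1.le
    simp only [h5] at a2
    refine ENNReal.inv_le_inv.2 (ENNReal.ofReal_le_ofReal ?_)
    exact pow_le_pow_left₀ (norm_nonneg _) (by linarith [hs.2]) 2
  rw [setLIntegral_const, Real.volume_Ioc, add_sub_cancel_left,
    ← ENNReal.ofReal_inv_of_pos (by positivity), ← ENNReal.ofReal_mul (by positivity),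
    ENNReal.ofReal_le_iff_le_toReal h2.ne] at h7
  have h8 : (η ^ 2)⁻¹ * η = η⁻¹ := by field_simp
  linarith [le_inv_of_le_inv₀ η0 η2]

end Vale.Agent.P107
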