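import Vale.Agent.P107.Basic2

/-! Problem P107: the pairing of the data term of the particles with test functions. -/

open MeasureTheory Set Filter Topology
open scoped ENNReal RealInnerProductSpace ContDiff

noncomputable section
namespace Vale.Agent.P107

namespace DPX

/-- the scalar factor -/
def cf (φ : ℝ × V3 → ℝ) (w : V3) (t : ℝ) (y : V3) : ℝ :=
  ‖w‖⁻¹ * φ (t + ‖w‖, y + w) + dD (0, hat w) φ (t + ‖w‖, y + w)

/-- the full integrand -/
def BB (f₀ : Z → ℝ) (φ : ℝ × V3 → ℝ) (x : V3 × ℝ × Z) : Z :=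
  f₀ x.2.2 • cf φ x.1 x.2.1 x.2.2.1 • gam x.1 x.2.2.2

/-- the momentum integral -/
def HH (f₀ : Z → ℝ) (w y : V3) : Z := ∫ v, f₀ (y, v) • gam w v

theorem supp_bd {g : Z → ℝ} (hc : HasCompactSupport g) :
    ∃ R : ℝ, 0 < R ∧ ∀ z, g z ≠ 0 → ‖z.1‖ ≤ R ∧ ‖z.2‖ ≤ R := by
  obtain ⟨R, hR, hb⟩ := hc.isCompact.isBounded.exists_pos_norm_le
  exact ⟨R, hR, fun z hz => ⟨(norm_fst_le z).trans (hb z (subset_tsupport _ hz)),
    (norm_snd_le z).trans (hb z (subset_tsupport _ hz))⟩⟩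

theorem int_cs {X : Type} [NormedAddCommGroup X] [NormedSpace ℝ X] [FiniteDimensional ℝ X]
    [MeasureSpace X] [BorelSpace X] [IsFiniteMeasureOnCompacts (volume : Measure X)] {a : X → ℝ}
    {b : X → Z} (ha : Continuous a) (hc : HasCompactSupport a) (hb : Continuous b) :
    Integrable fun y => a y • b y :=
  (ha.smul hb).integrable_of_hasCompactSupport hc.smul_right

theorem int_v {g : Z → ℝ} (hg : Continuous g) (hc : HasCompactSupport g) {κ : V3 → Z}
    (hκ : Continuous κ) (y : V3) : Integrable fun v => g (y, v) • κ v := by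
  obtain ⟨R, -, hR⟩ := supp_bd hc
  refine int_cs (hg.comp (continuous_const.prodMk continuous_id)) ?_ hκ
  refine HasCompactSupport.intro (isCompact_closedBall (0 : V3) R) fun v hv => ?_
  by_contra h
  exact hv (mem_closedBall_zero_iff.2 (hR (y, v) h).2)

theorem cont_gam (hk : KL) {w : V3} (h0 : w ≠ 0) : Continuous (gam w) := by
  obtain ⟨kB, -, -, -, h, -⟩ := hk
  exact h.comp_continuous (f := fun v => (w, v)) (continuous_const.prodMk continuous_id) fun _ => h0

theorem HH_spec (hv : VI) (hk : KL) {f₀ : Z → ℝ} (h1 : ContDiff ℝ ∞ f₀)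
    (h2 : HasCompactSupport f₀) {w : V3} (h0 : w ≠ 0) : ContDiff ℝ 1 (HH f₀ w) ∧
      ∀ t y, GD f₀ w t y = ‖w‖⁻¹ • HH f₀ w y - fderiv ℝ (HH f₀ w) y (hat w) := by
  have hκ := cont_gam hk h0
  obtain ⟨R, -, hR⟩ := supp_bd h2
  obtain ⟨m, -, hm⟩ := B3.of_compact (h1.of_le (by norm_cast)) h2
  obtain ⟨c, -, hc⟩ := hv.1 R
  obtain ⟨a, ha⟩ := (isCompact_closedBall (0 : V3) R).exists_bound_of_continuousOn hκ.continuousOn
  obtain ⟨b1, b2⟩ := (hc Z (gam w) (max a 0) hκ (le_max_right _ _) fun v hv =>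
    (ha v (mem_closedBall_zero_iff.2 hv)).trans (le_max_left _ _)).2 f₀ m m m hm
      fun z hz => (hR z hz).2
  refine ⟨b1.contDiff, fun t y => ?_⟩
  have e : fderiv ℝ (HH f₀ w) y (hat w) = _ := b2 y (hat w)
  have i1 := int_v h1.continuous h2 hκ y
  have i2 := int_v (g := fun z => fderiv ℝ f₀ z (hat w, 0))
    ((h1.continuous_fderiv (by simp)).clm_apply continuous_const) (h2.fderiv_apply (𝕜 := ℝ) _) hκ y
  rw [e, HH, ← integral_smul, ← integral_sub (i1.fun_smul _) i2, GD]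
  refine integral_congr_ae (Eventually.of_forall fun v => ?_)
  beta_reduce
  rw [sub_smul, smul_smul, div_eq_inv_mul]

theorem cpt_shift {φ : ℝ × V3 → ℝ} (hφ : Test φ) (w : V3) :
    Cpt fun p => φ (p.1 + ‖w‖, p.2 + w) := by
  obtain ⟨R, -, hb⟩ := hφ.bound
  refine ⟨R, R + ‖w‖, fun p hp => ?_, fun p _ hp => ?_⟩
  · by_contra hc
    have : p.1 + ‖w‖ ≤ R := (hb _ hc).2.1
    linarith [norm_nonneg w]
  · by_contra hc
    have h1 : ‖p.2 + w‖ ≤ R := (hb _ hc).2.2
    have h2 := norm_sub_le (p.2 + w) w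
    rw [add_sub_cancel_right] at h2
    linarith

theorem fd_shift {φ : ℝ × V3 → ℝ} (hφ : Differentiable ℝ φ) (s : ℝ) (w y n : V3) :
    fderiv ℝ (fun y => φ (s, y + w)) y n = dD (0, n) φ (s, y + w) := by
  rw [← fderiv_slice hφ, ← fderiv_comp_add_right]

theorem step_y (hi : Ibp) {φ : ℝ × V3 → ℝ} (hφ : Test φ) {H : V3 → Z} (hH : ContDiff ℝ 1 H)
    (w : V3) {t : ℝ} (ht : 0 ≤ t) :
    ∫ y, φ (t + ‖w‖, y + w) • (‖w‖⁻¹ • H y - fderiv ℝ H y (hat w)) = ∫ y, cf φ w t y • H y := by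
  have ha : ContDiff ℝ 1 fun y => φ (t + ‖w‖, y + w) :=
    (hφ.smooth.of_le (by norm_cast)).comp (contDiff_const.prodMk (contDiff_id.add contDiff_const))
  have hc : HasCompactSupport fun y => φ (t + ‖w‖, y + w) := (cpt_shift hφ w).slice ht
  have e := (hi Z).1 _ H (hat w) ha hH (Or.inl hc)
  have i1 := int_cs ha.continuous hc (hH.continuous.fun_const_smul ‖w‖⁻¹)
  have i2 := int_cs ha.continuous hc
    ((hH.continuous_fderiv one_ne_zero).clm_apply (continuous_const (y := hat w)))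
  have i3 := int_cs ((ha.continuous_fderiv one_ne_zero).clm_apply (continuous_const (y := hat w)))
    (hc.fderiv_apply (𝕜 := ℝ) _) hH.continuous
  simp only [smul_sub]
  rw [integral_sub i1 i2, sub_eq_add_neg, ← e, ← integral_add i1 i3]
  refine integral_congr_ae (Eventually.of_forall fun y => ?_)
  beta_reduce
  rw [fd_shift (hφ.smooth.differentiable (by simp)), cf, add_smul, smul_smul, mul_comm]

theorem cont_cf {φ : ℝ × V3 → ℝ} (hφ : Test φ) (w : V3) (t : ℝ) : Continuous (cf φ w t) := by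
  have h1 := hφ.smooth.continuous
  have h2 := continuous_dD (hφ.smooth.of_le (by norm_cast)) (0, hat w)
  unfold cf
  fun_prop

theorem step_z (hk : KL) {f₀ : Z → ℝ} (h1 : Continuous f₀) (h2 : HasCompactSupport f₀)
    {φ : ℝ × V3 → ℝ} (hφ : Test φ) {w : V3} (h0 : w ≠ 0) (t : ℝ) :
    ∫ z, BB f₀ φ (w, t, z) = ∫ y, cf φ w t y • HH f₀ w y := by
  have i : Integrable fun z : Z => BB f₀ φ (w, t, z) :=
    int_cs h1 h2 (((cont_cf hφ w t).comp continuous_fst).smul
      ((cont_gam hk h0).comp continuous_snd))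
  rw [Measure.volume_eq_prod] at i ⊢
  rw [integral_prod _ i]
  refine integral_congr_ae (Eventually.of_forall fun y => ?_)
  beta_reduce
  rw [HH, ← integral_smul]
  exact integral_congr_ae (Eventually.of_forall fun v => smul_comm _ _ _)

theorem meas_BB {f₀ : Z → ℝ} (h1 : Continuous f₀) {φ : ℝ × V3 → ℝ} (hφ : Test φ) :
    Measurable (BB f₀ φ) := by
  have m1 := h1.measurable
  have m2 := hφ.smooth.continuous.measurable
  have m3 := (continuous_gx (hφ.smooth.of_le (by norm_cast))).measurable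
  unfold BB cf gam
  simp only [dD_eq, zero_mul, zero_add]
  fun_prop

theorem cf_bd {φ : ℝ × V3 → ℝ} (hφ : Test φ) : ∃ R M : ℝ, 0 < R ∧ 0 < M ∧ ∀ w t y,
    |cf φ w t y| ≤ M * (‖w‖⁻¹ + 1) ∧ (cf φ w t y ≠ 0 → |t + ‖w‖| ≤ R ∧ ‖y + w‖ ≤ R) := by
  obtain ⟨R, hR, hb⟩ := hφ.compact.isCompact.isBounded.exists_pos_norm_le
  obtain ⟨M, hM, hm⟩ := B3.of_compact (hφ.smooth.of_le (by norm_cast)) hφ.compact
  refine ⟨R, M, hR, by linarith, fun w t y => ⟨?_, fun h => ?_⟩⟩
  · refine (abs_add_le _ _).trans ?_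
    have a1 : |φ (t + ‖w‖, y + w)| ≤ M := hm.b0 _
    have a2 : |dD (0, hat w) φ (t + ‖w‖, y + w)| ≤ M := by
      refine ((fderiv ℝ φ _).le_opNorm _).trans ?_
      have : ‖((0 : ℝ), hat w)‖ ≤ 1 := by
        rw [Prod.norm_mk, norm_zero]
        exact max_le zero_le_one (norm_hat_le w)
      exact (mul_le_of_le_one_right (norm_nonneg _) this).trans (hm.b1 _)
    rw [abs_mul, abs_of_nonneg (inv_nonneg.2 (norm_nonneg w))]
    have := mul_le_mul_of_nonneg_left a1 (inv_nonneg.2 (norm_nonneg w))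
    linarith
  · have hm : (t + ‖w‖, y + w) ∈ tsupport φ := by
      by_contra hn
      apply h
      rw [cf, image_eq_zero_of_notMem_tsupport hn, dD, fderiv_of_notMem_tsupport _ hn]
      simp
    exact ⟨(norm_fst_le (t + ‖w‖, y + w)).trans (hb _ hm),
      (norm_snd_le (t + ‖w‖, y + w)).trans (hb _ hm)⟩

theorem int_BB (hp : Pol) (hk : KL) {f₀ : Z → ℝ} (h1 : Continuous f₀) (h2 : HasCompactSupport f₀)
    {φ : ℝ × V3 → ℝ} (hφ : Test φ) : Integrable (BB f₀ φ)
      ((volume : Measure V3).prod (((volume : Measure ℝ).restrict (Ioi 0)).prod volume)) := by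
  obtain ⟨R₀, hR₀, s0⟩ := supp_bd h2
  obtain ⟨R, M, hR, hM, s1⟩ := cf_bd hφ
  obtain ⟨kB, -, -, -, -, hk⟩ := hk
  obtain ⟨C, hC, hk⟩ := hk (R + R₀) R₀
  obtain ⟨c, -, -, hp⟩ := hp
  obtain ⟨K, hK⟩ : ∃ K, K = M * (1 + (R + R₀)) * C := ⟨_, rfl⟩
  have hK0 : 0 ≤ K := by rw [hK]; positivity
  have i1 : Integrable (indicator (Metric.ball (0 : V3) (R + R₀ + 1)) fun w => K / ‖w‖ ^ 2) := by
    rw [integrable_indicator_iff measurableSet_ball]
    refine (hp ℝ (fun w => K / ‖w‖ ^ 2) _ (R + R₀ + 1) 0 K 0 1 (by positivity) hK0 le_rfl one_pos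
      subset_rfl (fun w _ _ => ?_) measurableSet_ball).2
      (by fun_prop : Measurable fun w : V3 => K / ‖w‖ ^ 2).aestronglyMeasurable
    rw [zero_mul, add_zero, Real.norm_of_nonneg (by positivity)]
  have i2 : Integrable (indicator (Icc (-(2 * R + R₀)) R) fun _ : ℝ => (1 : ℝ))
      (volume.restrict (Ioi 0)) :=
    ((integrable_indicator_iff measurableSet_Icc).2 continuous_const.integrableOn_Icc).integrableOn
  have i3 : Integrable fun z => ‖f₀ z‖ := (h1.integrable_of_hasCompactSupport h2).norm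
  refine (i1.mul_prod (i2.mul_prod i3)).mono' (meas_BB h1 hφ).aestronglyMeasurable
    (Eventually.of_forall ?_)
  rintro ⟨w, t, y, v⟩
  by_cases hz : BB f₀ φ (w, t, y, v) = 0
  · rw [hz, norm_zero]
    exact mul_nonneg (indicator_nonneg (fun _ _ => by positivity) _)
      (mul_nonneg (indicator_nonneg (fun _ _ => zero_le_one) _) (norm_nonneg _))
  have a1 : f₀ (y, v) ≠ 0 := fun h => hz (by simp [BB, h])
  have a2 : cf φ w t y ≠ 0 := fun h => hz (by simp [BB, h])
  have a3 : w ≠ 0 := fun h => hz (by simp [BB, gam, h])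
  obtain ⟨b1, b2⟩ := s0 _ a1
  obtain ⟨b3, b4⟩ := (s1 w t y).2 a2
  have b1' : ‖y‖ ≤ R₀ := b1
  have b5 : ‖w‖ ≤ R + R₀ := by
    have := norm_sub_le (y + w) y
    rw [add_sub_cancel_left] at this
    linarith
  have hr := norm_pos_iff.2 a3
  have b6 : t ∈ Icc (-(2 * R + R₀)) R :=
    ⟨by linarith [(abs_le.1 b3).1], by linarith [(abs_le.1 b3).2]⟩
  have b7 : w ∈ Metric.ball (0 : V3) (R + R₀ + 1) := mem_ball_zero_iff.2 (by linarith)
  have b8 : |cf φ w t y| ≤ M * (1 + (R + R₀)) / ‖w‖ := by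
    refine (s1 w t y).1.trans ?_
    rw [mul_div_assoc, add_div, one_div]
    have := (one_le_div hr).2 b5
    gcongr
  show ‖f₀ (y, v) • cf φ w t y • gam w v‖ ≤ indicator _ _ w * (indicator _ _ t * ‖f₀ (y, v)‖)
  rw [indicator_of_mem b6, indicator_of_mem b7, one_mul, norm_smul, norm_smul, mul_comm]
  refine mul_le_mul_of_nonneg_right ?_ (norm_nonneg _)
  refine (mul_le_mul b8 (hk w v a3 b5 b2).2.2 (norm_nonneg _) (by positivity)).trans (le_of_eq ?_)
  rw [hK]
  ring

theorem step_t {χ : ℝ × Z → Z} (h1 : ContDiff ℝ 1 χ) {T : ℝ} (h2 : ∀ p : ℝ × Z, T < p.1 → χ p = 0)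
    (z : Z) : ∫ t in Ioi (0 : ℝ), fderiv ℝ χ (t, z) (1, 0) = -χ (0, z) := by
  have hd : ∀ t, HasDerivAt (fun s => χ (s, z)) (fderiv ℝ χ (t, z) (1, 0)) t := fun t =>
    (h1.differentiable one_ne_zero (t, z)).hasFDerivAt.comp_hasDerivAt t
      ((hasDerivAt_id t).prodMk (hasDerivAt_const t z))
  have hc : Continuous fun t : ℝ => fderiv ℝ χ (t, z) (1, 0) :=
    ((h1.continuous_fderiv one_ne_zero).comp (continuous_id.prodMk continuous_const)).clm_apply
      continuous_const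
  have hi : IntegrableOn (fun t : ℝ => fderiv ℝ χ (t, z) (1, 0)) (Ioi 0) := by
    refine (hc.integrableOn_Icc (a := 0) (b := T)).of_forall_sdiff_eq_zero measurableSet_Ioi
      fun t ht => ?_
    have h3 : T < t := by
      by_contra h
      exact ht.2 ⟨le_of_lt ht.1, not_lt.1 h⟩
    refine (hd t).unique ((hasDerivAt_const t (0 : Z)).congr_of_eventuallyEq ?_)
    filter_upwards [Ioi_mem_nhds h3] with s hs using h2 (s, z) hs
  rw [integral_Ioi_of_hasDerivAt_of_tendsto' (fun t _ => hd t) hi (m := 0), zero_sub]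
  refine tendsto_const_nhds.congr' ?_
  filter_upwards [eventually_gt_atTop T] with s hs using (h2 (s, z) hs).symm

end DPX

open DPX in
theorem dP (hs : SI) (hp : Pol) (hi : Ibp) (hv : VI) (hk : KL) (hh : HDr) (hc : Chi) (h1 : DP1)
    (hr : RF) : DP := by
  intro f₀ E₀ B₀ hD φ hφ
  have hker := (hh f₀ E₀ B₀ hD).1
  obtain ⟨r1, r2⟩ := hr _ φ hker hφ
  obtain ⟨c1, ⟨T, c2⟩, -⟩ := hc φ hφ
  have hf := hD.f_smooth.continuous
  have hB := int_BB hp hk hf hD.f_compact hφ
  have e1 : ∫ p in Hs, φ p • RR (GD f₀) p.1 p.2 = ∫ x, BB f₀ φ x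
      ∂(volume : Measure V3).prod (((volume : Measure ℝ).restrict (Ioi 0)).prod volume) := by
    rw [r2, ← integral_prod _ r1, integral_prod_symm _ r1, integral_prod _ hB]
    refine integral_congr_ae ?_
    filter_upwards [hB.prod_right_ae, (countable_singleton (0 : V3)).ae_notMem volume]
      with w hw h0
    have hcont : Continuous fun p : ℝ × V3 => GD f₀ w p.1 p.2 :=
      hker.cont.comp_continuous (continuous_const.prodMk continuous_id) fun _ => h0
    obtain ⟨g1, g2⟩ := HH_spec hv hk hD.f_smooth hD.f_compact h0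
    have hφc := hφ.smooth.continuous
    rw [integral_prod _ hw, ((hi Z).2.1 (fun p => φ (p.1 + ‖w‖, p.2 + w)) _ (by fun_prop)
      (cpt_shift hφ w) hcont).2]
    refine setIntegral_congr_fun measurableSet_Ioi fun t ht => ?_
    beta_reduce
    rw [step_z hk hf hD.f_compact hφ h0, ← step_y hi hφ g1 w (le_of_lt ht)]
    simp only [g2]
  have e2 : ∀ (t : ℝ) (z : Z), om⁻¹ • ∫ w, BB f₀ φ (w, t, z) =
      -(f₀ z • fderiv ℝ (chi φ) (t, z) (1, 0)) := by
    intro t z
    have := (h1 φ hφ t z.1 z.2).2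
    rw [← smul_neg, ← this, smul_comm (f₀ z), ← integral_smul (f₀ z)]
    rfl
  have i : Integrable fun z : Z => f₀ z • chi φ (0, z) :=
    int_cs hf hD.f_compact (c1.continuous.comp (continuous_const.prodMk continuous_id))
  rw [Measure.volume_eq_prod] at i
  rw [e1, integral_prod_symm _ hB, integral_prod_symm _ hB.integral_prod_right, ← integral_smul,
    ← integral_prod _ i, ← Measure.volume_eq_prod]
  refine integral_congr_ae (Eventually.of_forall fun z => ?_)
  beta_reduce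
  rw [← integral_smul]
  simp only [e2]
  rw [integral_neg, integral_smul, step_t c1 c2, smul_neg, neg_neg]

end Vale.Agent.P107
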