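import Vale.Agent.P107.Basic2

/-! Problem P107: regularity of the data terms. -/

open MeasureTheory Set Filter Topology
open scoped RealInnerProductSpace ContDiff

noncomputable section
namespace Vale.Agent.P107

namespace DatPX

variable {W W' : Type} [NormedAddCommGroup W] [NormedSpace ℝ W] [NormedAddCommGroup W']
  [NormedSpace ℝ W']

/-- smooth with all derivatives bounded -/
def Sm (A : V3 → W) : Prop :=
  ContDiff ℝ ∞ A ∧ ∀ n : ℕ, ∃ C : ℝ, ∀ x, ‖iteratedFDeriv ℝ n A x‖ ≤ C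

theorem le_infty (n : ℕ) : (n : WithTop ℕ∞) ≤ ∞ := by exact_mod_cast le_top

theorem Sm.clm {A : V3 → W} (h : Sm A) (L : W →L[ℝ] W') : Sm fun x => L (A x) := by
  refine ⟨L.contDiff.comp h.1, fun n => ?_⟩
  obtain ⟨C, hC⟩ := h.2 n
  exact ⟨‖L‖ * C, fun x => (L.norm_iteratedFDeriv_comp_left h.1.contDiffAt (le_infty n)).trans
    (mul_le_mul_of_nonneg_left (hC x) (norm_nonneg _))⟩

theorem Sm.add {A B : V3 → W} (h : Sm A) (h' : Sm B) : Sm fun x => A x + B x := by
  refine ⟨h.1.add h'.1, fun n => ?_⟩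
  obtain ⟨C, hC⟩ := h.2 n
  obtain ⟨D, hD⟩ := h'.2 n
  refine ⟨C + D, fun x => ?_⟩
  rw [show (fun x => A x + B x) = A + B from rfl, iteratedFDeriv_add_apply
    (h.1.of_le (le_infty n)).contDiffAt (h'.1.of_le (le_infty n)).contDiffAt]
  exact (norm_add_le _ _).trans (add_le_add (hC x) (hD x))

theorem Sm.fderiv {A : V3 → W} (h : Sm A) : Sm (fderiv ℝ A) := by
  refine ⟨h.1.fderiv_right (by simp), fun n => ?_⟩
  obtain ⟨C, hC⟩ := h.2 (n + 1)
  exact ⟨C, fun x => norm_iteratedFDeriv_fderiv.trans_le (hC x)⟩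

theorem Sm.dir {A : V3 → W} (h : Sm A) (v : V3) : Sm fun x => _root_.fderiv ℝ A x v :=
  h.fderiv.clm (ContinuousLinearMap.apply ℝ W v)

theorem Sm.sum3 {A : Fin 3 → V3 → W} (h : ∀ j, Sm (A j)) : Sm fun x => ∑ j, A j x := by
  simp only [Fin.sum_univ_three]
  exact ((h 0).add (h 1)).add (h 2)

theorem Sm.prod {A : V3 → W} {B : V3 → W'} (h : Sm A) (h' : Sm B) : Sm fun x => (A x, B x) := by
  have := (h.clm (ContinuousLinearMap.inl ℝ W W')).add (h'.clm (ContinuousLinearMap.inr ℝ W W'))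
  simpa using this

theorem Sm.curl {A : V3 → V3} (h : Sm A) : Sm (curl A) := by
  have : P107.curl A = fun x => ∑ j, crossL (ee j) (_root_.fderiv ℝ A x (ee j)) :=
    funext fun x => curl_eq_sum A x
  rw [this]
  exact Sm.sum3 fun j => (h.dir _).clm _

theorem Sm.lap {A : V3 → Z} (h : Sm A) : Sm (lap A) :=
  Sm.sum3 fun j => (h.dir (ee j)).dir (ee j)

theorem Sm.b3 {A : V3 → W} (h : Sm A) : ∃ C, B3 A C C C := by
  obtain ⟨a, ha⟩ := h.2 0
  obtain ⟨b, hb⟩ := h.2 1
  obtain ⟨c, hc⟩ := h.2 2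
  exact ⟨max a (max b c), B3.of_iteratedFDeriv (h.1.of_le (le_infty 2))
    (fun x => (ha x).trans (le_max_left _ _))
    (fun x => (hb x).trans ((le_max_left _ _).trans (le_max_right _ _)))
    (fun x => (hc x).trans ((le_max_right _ _).trans (le_max_right _ _)))⟩

end DatPX

open DatPX in
theorem datP : DatP := by
  intro f₀ E₀ B₀ h
  have hE : Sm E₀ := ⟨h.E_smooth, h.E_bdd⟩
  have hB : Sm B₀ := ⟨h.B_smooth, h.B_bdd⟩
  have h0 : Sm (K0 E₀ B₀) := hE.prod hB
  have h1 : Sm (K1 E₀ B₀) := hB.curl.prod (hE.curl.clm (-ContinuousLinearMap.id ℝ V3))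
  obtain ⟨a, ha⟩ := h0.b3
  obtain ⟨b, hb⟩ := h1.b3
  obtain ⟨c, hc⟩ := h0.lap.b3
  obtain ⟨d, hd⟩ := h1.lap.b3
  have a0 := ha.a_nonneg
  have b0 := hb.a_nonneg
  have c0 := hc.a_nonneg
  have d0 := hd.a_nonneg
  refine ⟨h0.1, h1.1, h0.lap.1, h1.lap.1, ⟨a + b + c + d,
    ha.mono (by linarith) (by linarith) (by linarith),
    hb.mono (by linarith) (by linarith) (by linarith),
    hc.mono (by linarith) (by linarith) (by linarith),
    hd.mono (by linarith) (by linarith) (by linarith)⟩, ?_, fun T => ?_⟩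
  · refine ContinuousOn.smul (continuous_fst.norm.continuousOn.inv₀ fun p hp => ?_)
      (Continuous.continuousOn ?_)
    · exact norm_ne_zero_iff.2 hp
    · exact (hc.continuous.comp continuous_snd.snd).add
        (continuous_snd.fst.smul (hd.continuous.comp continuous_snd.snd))
  · refine ⟨T * (c + T * d), fun w t hw h2 h3 => ?_⟩
    have r0 : 0 < ‖w‖ := norm_pos_iff.2 hw
    have key : |‖w‖⁻¹| * (c + |t| * d) ≤ T * (c + T * d) / ‖w‖ ^ 2 := by
      rw [abs_of_pos (inv_pos.2 r0), le_div_iff₀ (by positivity)]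
      have e : ‖w‖⁻¹ * (c + |t| * d) * ‖w‖ ^ 2 = ‖w‖ * (c + |t| * d) := by field_simp
      rw [e]
      have := abs_nonneg t
      gcongr
      linarith
    exact ((hc.add (hd.const_smul t)).const_smul ‖w‖⁻¹).mono key key key

end Vale.Agent.P107
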