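import Vale.Agent.P107.Basic

/-! Problem P107: reduction of the total kernel mass to finite sums. -/

open MeasureTheory Set Filter Topology
open scoped ENNReal RealInnerProductSpace

noncomputable section
namespace Vale.Agent.P107

namespace DecX

theorem half {a : ℝ} (ha : 0 ≤ a) :
    ENNReal.ofReal (a ^ 2) ^ (1 / 2 : ℝ) = ENNReal.ofReal a := by
  rw [ENNReal.ofReal_rpow_of_nonneg (sq_nonneg a) (by norm_num), ← Real.sqrt_eq_rpow,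
    Real.sqrt_sq ha]

theorem cs {X : Type} [MeasurableSpace X] (ν : Measure X) {f g : X → ℝ} (hf : Measurable f)
    (hg : Measurable g) (f0 : ∀ x, 0 ≤ f x) (g0 : ∀ x, 0 ≤ g x) {a b : ℝ} (ha : 0 ≤ a)
    (hb : 0 ≤ b) (h1 : ∫⁻ x, ENNReal.ofReal (f x ^ 2) ∂ν ≤ ENNReal.ofReal (a ^ 2))
    (h2 : ∫⁻ x, ENNReal.ofReal (g x ^ 2) ∂ν ≤ ENNReal.ofReal (b ^ 2)) :
    ∫⁻ x, ENNReal.ofReal (f x * g x) ∂ν ≤ ENNReal.ofReal (a * b) := by
  have h := ENNReal.lintegral_mul_norm_pow_le (μ := ν) (f := fun x => ENNReal.ofReal (f x ^ 2))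
    (g := fun x => ENNReal.ofReal (g x ^ 2)) (p := 1 / 2) (q := 1 / 2)
    (hf.pow_const 2).ennreal_ofReal.aemeasurable (hg.pow_const 2).ennreal_ofReal.aemeasurable
    (by norm_num) (by norm_num) (by norm_num)
  simp only [half (f0 _), half (g0 _), ← ENNReal.ofReal_mul (f0 _)] at h
  refine h.trans ?_
  rw [ENNReal.ofReal_mul ha, ← half ha, ← half hb]
  gcongr

theorem p_pos (b : Ix) : 0 < b.p := by
  unfold Ix.p
  positivity

theorem tw_nonneg (δ : ℝ) {p α β : ℝ} (hα : 0 < α) (hβ : 0 < β) : 0 ≤ tw δ p α β := by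
  unfold tw
  split_ifs <;> positivity

theorem sw1_nonneg (δ α β : ℝ) : 0 ≤ sw1 δ α β := by
  unfold sw1
  split_ifs <;> positivity

theorem sw2_nonneg (δ a₀ : ℝ) {ε α : ℝ} (β : ℝ) (hε : 0 ≤ ε) (hα : 0 < α) :
    0 ≤ sw2 δ a₀ ε α β := by
  unfold sw2
  split_ifs <;> positivity

theorem sv_nonneg (τ' p : ℝ) {α β θ : ℝ} (hα : 0 < α) (hβ : 0 < β) (hθ : 0 < θ) :
    0 ≤ sv τ' p α β θ := by
  unfold sv
  have := lt_min hβ hθ
  positivity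

open Classical in
/-- the contribution of one box -/
theorem one {Γ : PS} {z₀ : Z} {s₀ τ τ' p α β θ c t s : ℝ} (hk : Measurable (Γ.kk z₀))
    (hp : 0 < p) (hα : 0 < α) (hβ : 0 < β) (hθ : 0 < θ) (hc : 0 ≤ c) (ht : 0 ≤ t) (hs : 0 ≤ s)
    (hτ : 0 ≤ τ') (hJ : Γ.JA z₀ s₀ τ p α β θ univ ≠ ∞)
    (h1 : Γ.IB z₀ s₀ τ p α β θ univ (fun x => Kg (hat x.2.1) (Γ.kk z₀ x) ^ 2) ≤
      ENNReal.ofReal (c ^ 2 * τ' * p ^ 3 * min β θ ^ 2 * β ^ 2))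
    (h2 : Γ.IB z₀ s₀ τ p α β θ (Iic τ') (fun x => ‖(Γ.kk z₀ x).2‖ ^ 2) ≤
      ENNReal.ofReal (c ^ 2 * τ' * p ^ 3 * min β θ ^ 2 * β ^ 2 / α ^ 2)) :
    ∫⁻ x in Γ.Bx z₀ p α β θ, ENNReal.ofReal (t * (1 / ‖x.2.1‖ ^ 2) + s * (α / (p * β ^ 4)) *
        (Kg (hat x.2.1) (Γ.kk z₀ x) / ‖x.2.1‖ +
          β ^ 2 * (if ‖x.2.1‖ ≤ τ' then ‖(Γ.kk z₀ x).2‖ / ‖x.2.1‖ else 0))) ∂Γ.lam z₀ s₀ τ
      ≤ ENNReal.ofReal (t * (Γ.JA z₀ s₀ τ p α β θ univ).toReal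
        + c * (s * sv τ' p α β θ * √(Γ.JA z₀ s₀ τ p α β θ univ).toReal)) := by
  have hm := lt_min hβ hθ
  have eJ : ∫⁻ x in Γ.Bx z₀ p α β θ, ENNReal.ofReal (1 / ‖x.2.1‖ ^ 2) ∂Γ.lam z₀ s₀ τ
      = ENNReal.ofReal (Γ.JA z₀ s₀ τ p α β θ univ).toReal := by
    rw [ENNReal.ofReal_toReal hJ]
    simp only [PS.JA, PS.IB, mem_univ, ofPred_true, inter_univ]
  have J0 : 0 ≤ (Γ.JA z₀ s₀ τ p α β θ univ).toReal := ENNReal.toReal_nonneg
  generalize (Γ.JA z₀ s₀ τ p α β θ univ).toReal = J at eJ J0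
  have eJ' : ∫⁻ x in Γ.Bx z₀ p α β θ, ENNReal.ofReal ((1 / ‖x.2.1‖) ^ 2) ∂Γ.lam z₀ s₀ τ
      ≤ ENNReal.ofReal (√J ^ 2) := by
    simp only [one_div_pow, Real.sq_sqrt J0, eJ, le_refl]
  have mS : MeasurableSet {x : ℝ × Z | ‖x.2.1‖ ≤ τ'} :=
    measurableSet_le (by fun_prop) measurable_const
  have m1 : Measurable fun x : ℝ × Z => 1 / ‖x.2.1‖ := by fun_prop
  have m2 : Measurable fun x : ℝ × Z => Kg (hat x.2.1) (Γ.kk z₀ x) := by fun_prop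
  have m3 : Measurable fun x : ℝ × Z => if ‖x.2.1‖ ≤ τ' then ‖(Γ.kk z₀ x).2‖ else 0 :=
    Measurable.ite mS (by fun_prop) measurable_const
  have n3 : ∀ x : ℝ × Z, 0 ≤ if ‖x.2.1‖ ≤ τ' then ‖(Γ.kk z₀ x).2‖ else 0 := fun x => by
    split_ifs <;> positivity
  have sq : √(τ' * p) ^ 2 = τ' * p := Real.sq_sqrt (by positivity)
  have a1 := cs ((Γ.lam z₀ s₀ τ).restrict (Γ.Bx z₀ p α β θ)) m2 m1 (fun _ => Kg_nonneg _ _)
    (fun _ => by positivity) (a := c * √(τ' * p) * p * min β θ * β) (by positivity)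
    (Real.sqrt_nonneg J) (by
      simp only [PS.IB, mem_univ, ofPred_true, inter_univ] at h1
      refine h1.trans (le_of_eq (congrArg _ ?_))
      simp only [mul_pow, sq]
      ring) eJ'
  have a2 := cs ((Γ.lam z₀ s₀ τ).restrict (Γ.Bx z₀ p α β θ)) m3 m1 n3
    (fun _ => by positivity) (a := c * √(τ' * p) * p * min β θ * β / α) (by positivity)
    (Real.sqrt_nonneg J) (by
      have e : (fun x : ℝ × Z =>
          ENNReal.ofReal ((if ‖x.2.1‖ ≤ τ' then ‖(Γ.kk z₀ x).2‖ else 0) ^ 2))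
          = indicator {x : ℝ × Z | ‖x.2.1‖ ≤ τ'} fun x => ENNReal.ofReal (‖(Γ.kk z₀ x).2‖ ^ 2) := by
        funext x
        by_cases hx : ‖x.2.1‖ ≤ τ'
        · rw [if_pos hx, indicator_of_mem (by exact hx)]
        · rw [if_neg hx, indicator_of_notMem (by exact hx)]
          simp
      rw [e, lintegral_indicator mS, Measure.restrict_restrict mS, inter_comm]
      refine h2.trans (le_of_eq (congrArg _ ?_))
      simp only [div_pow, mul_pow, sq]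
      ring) eJ'
  have k0 : 0 ≤ s * (α / (p * β ^ 4)) := by positivity
  have e : ∀ x : ℝ × Z, ENNReal.ofReal (t * (1 / ‖x.2.1‖ ^ 2) + s * (α / (p * β ^ 4)) *
        (Kg (hat x.2.1) (Γ.kk z₀ x) / ‖x.2.1‖ +
          β ^ 2 * (if ‖x.2.1‖ ≤ τ' then ‖(Γ.kk z₀ x).2‖ / ‖x.2.1‖ else 0)))
      = ENNReal.ofReal t * ENNReal.ofReal (1 / ‖x.2.1‖ ^ 2)
        + ENNReal.ofReal (s * (α / (p * β ^ 4))) *
          (ENNReal.ofReal (Kg (hat x.2.1) (Γ.kk z₀ x) * (1 / ‖x.2.1‖)) + ENNReal.ofReal (β ^ 2) *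
            ENNReal.ofReal ((if ‖x.2.1‖ ≤ τ' then ‖(Γ.kk z₀ x).2‖ else 0) * (1 / ‖x.2.1‖))) := by
    intro x
    have n1 := Kg_nonneg (hat x.2.1) (Γ.kk z₀ x)
    have n2 := n3 x
    rw [← ENNReal.ofReal_mul ht, ← ENNReal.ofReal_mul (sq_nonneg β),
      ← ENNReal.ofReal_add (by positivity) (by positivity), ← ENNReal.ofReal_mul k0,
      ← ENNReal.ofReal_add (by positivity) (by positivity)]
    refine congrArg _ ?_
    split_ifs <;> ring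
  have m4 : Measurable fun x : ℝ × Z => ENNReal.ofReal (1 / ‖x.2.1‖ ^ 2) := by fun_prop
  have m5 : Measurable fun x : ℝ × Z =>
      ENNReal.ofReal (Kg (hat x.2.1) (Γ.kk z₀ x) * (1 / ‖x.2.1‖)) := by fun_prop
  simp only [e]
  rw [lintegral_add_left (m4.const_mul _), lintegral_const_mul' _ _ ENNReal.ofReal_ne_top,
    lintegral_const_mul' _ _ ENNReal.ofReal_ne_top, lintegral_add_left m5,
    lintegral_const_mul' _ _ ENNReal.ofReal_ne_top, eJ]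
  refine (add_le_add le_rfl (mul_le_mul_right (add_le_add a1 (mul_le_mul_right a2 _)) _)).trans
    (le_of_eq ?_)
  rw [← ENNReal.ofReal_mul ht, ← ENNReal.ofReal_mul (sq_nonneg β),
    ← ENNReal.ofReal_add (by positivity) (by positivity), ← ENNReal.ofReal_mul k0,
    ← ENNReal.ofReal_add (by positivity) (by positivity)]
  refine congrArg _ ?_
  unfold sv
  field_simp

end DecX

open DecX

theorem dec (ht : Ton) (hs : SpE) (hn : Near) (hk : K2) (hf : FarB) (hj : JW) (h0 : Dec0) :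
    Dec := by
  classical
  intro Λ
  obtain ⟨CN, hCN, hn⟩ := hn
  obtain ⟨CK, hCK, hk⟩ := hk
  obtain ⟨CF, hCF, hf⟩ := hf Λ
  obtain ⟨CJ, -, hj⟩ := hj Λ
  obtain ⟨C0, hC0, h0⟩ := h0
  obtain ⟨c, hc, hc2⟩ : ∃ c : ℝ, 0 ≤ c ∧ c ^ 2 = (CN + CK) * Λ ^ 2 :=
    ⟨_, Real.sqrt_nonneg _, Real.sq_sqrt (by positivity)⟩
  refine ⟨C0 * (1 + c + CF), by positivity,
    fun Γ T N k z₀ s₀ τ p' τ' δ a₀ ε hG hT hτ hτ' hδ ha hε hεa => ?_⟩
  obtain ⟨-, ck, cU, mB, ae1, -⟩ := ht Γ hG.toKin z₀ s₀ τ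
  have ae2 := (hs Γ T Λ N _ z₀ s₀ τ p' hG hT).2.2
  have mk := ck.measurable
  have mU := cU.measurable
  have τ0 : 0 ≤ τ' := hT.hτ.le.trans hτ
  have mS : MeasurableSet {x : ℝ × Z | τ' < ‖x.2.1‖} :=
    measurableSet_lt measurable_const (by fun_prop)
  have mS' : MeasurableSet {x : ℝ × Z | ‖x.2.1‖ ≤ τ'} :=
    measurableSet_le (by fun_prop) measurable_const
  set Φ : Ix → ℝ × Z → ℝ := fun b x => tw δ b.p b.α b.β * (1 / ‖x.2.1‖ ^ 2)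
    + (sw1 δ b.α b.β + sw2 δ a₀ ε b.α b.β) * (b.α / (b.p * b.β ^ 4)) *
      (Kg (hat x.2.1) (Γ.kk z₀ x) / ‖x.2.1‖ +
        b.β ^ 2 * (if ‖x.2.1‖ ≤ τ' then ‖(Γ.kk z₀ x).2‖ / ‖x.2.1‖ else 0)) with hΦ
  set Ψ : ℝ × Z → ℝ := fun x => dd (hat x.2.1) (Γ.U z₀ x.1) * ‖(Γ.kk z₀ x).2‖ /
    (q x.2.2 * dd (hat x.2.1) (uu x.2.2) ^ 2 * ‖x.2.1‖) with hΨ
  have mΦ : ∀ b, Measurable fun x => ENNReal.ofReal (Φ b x) := fun b => by
    have m3 : Measurable fun x : ℝ × Z =>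
        if ‖x.2.1‖ ≤ τ' then ‖(Γ.kk z₀ x).2‖ / ‖x.2.1‖ else 0 :=
      Measurable.ite mS' (by fun_prop) measurable_const
    simp only [hΦ]
    fun_prop
  have pt : ∀ᵐ x ∂Γ.lam z₀ s₀ τ,
      ENNReal.ofReal (KK δ a₀ ε (Γ.U z₀ x.1) x.2.1 x.2.2 (Γ.kk z₀ x)) ≤ ENNReal.ofReal C0 *
        (∑ b ∈ Idx k, (Γ.Bx z₀ b.p b.α b.β b.θ).indicator (fun x => ENNReal.ofReal (Φ b x)) x
          + {x : ℝ × Z | τ' < ‖x.2.1‖}.indicator (fun x => ENNReal.ofReal (Ψ x)) x) := by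
    filter_upwards [ae1, ae2] with x h1 h2
    obtain ⟨b, hb, hx, hK⟩ := h0 k δ a₀ ε τ' (Γ.V x.1 z₀) x.2.1 x.2.2 (Γ.kk z₀ x) hδ ha hε hεa
      ((hT.hq _ h1.1).2.trans (by linarith [hT.hP])) h2.1 h2.2
    refine (ENNReal.ofReal_le_ofReal hK).trans ?_
    rw [ENNReal.ofReal_mul hC0.le]
    refine mul_le_mul_right (ENNReal.ofReal_add_le.trans (add_le_add ?_ (le_of_eq ?_))) _
    · refine le_trans (le_of_eq ?_) (Finset.single_le_sum (f := fun b : Ix =>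
        (Γ.Bx z₀ b.p b.α b.β b.θ).indicator (fun x => ENNReal.ofReal (Φ b x)) x)
        (fun _ _ => zero_le) hb)
      rw [indicator_of_mem (by exact hx)]
    · by_cases h : τ' < ‖x.2.1‖
      · rw [if_pos h, indicator_of_mem (by exact h)]
        rfl
      · rw [if_neg h, indicator_of_notMem (by exact h), ENNReal.ofReal_zero]
  have bx : ∀ b : Ix, ∫⁻ x in Γ.Bx z₀ b.p b.α b.β b.θ, ENNReal.ofReal (Φ b x) ∂Γ.lam z₀ s₀ τ ≤
      ENNReal.ofReal (tw δ b.p b.α b.β * (Γ.JA z₀ s₀ τ b.p b.α b.β b.θ univ).toReal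
        + c * ((sw1 δ b.α b.β + sw2 δ a₀ ε b.α b.β) * sv τ' b.p b.α b.β b.θ *
          √(Γ.JA z₀ s₀ τ b.p b.α b.β b.θ univ).toReal)) := fun b => by
    have hp := p_pos b
    have hα : 0 < b.α := dy_pos _
    have hβ : 0 < b.β := dy_pos _
    have hθ : 0 < b.θ := dy_pos _
    have τ1 := hT.hτ.le
    refine one mk hp hα hβ hθ hc (tw_nonneg δ hα hβ)
      (add_nonneg (sw1_nonneg _ _ _) (sw2_nonneg _ _ _ hε hα)) τ0
      (hj Γ T N _ z₀ s₀ τ p' hG hT _ _ _ _ hp hα hβ hθ).1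
      ((hn Γ T Λ N _ z₀ s₀ τ p' hG hT _ _ _ _ hp hα hβ hθ).2.trans
        (ENNReal.ofReal_le_ofReal ?_))
      ((hk Γ T Λ N _ z₀ s₀ τ p' hG hT _ _ _ _ τ' hp hα hβ hθ hτ).trans
        (ENNReal.ofReal_le_ofReal ?_))
    · rw [hc2]
      gcongr
      linarith
    · rw [hc2]
      gcongr
      linarith
  have n1 : ∀ b : Ix, 0 ≤ tw δ b.p b.α b.β * (Γ.JA z₀ s₀ τ b.p b.α b.β b.θ univ).toReal :=
    fun b => mul_nonneg (tw_nonneg δ (dy_pos _) (dy_pos _)) ENNReal.toReal_nonneg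
  have n2 : ∀ b : Ix, 0 ≤ sw1 δ b.α b.β * sv τ' b.p b.α b.β b.θ *
      √(Γ.JA z₀ s₀ τ b.p b.α b.β b.θ univ).toReal := fun b =>
    mul_nonneg (mul_nonneg (sw1_nonneg _ _ _) (sv_nonneg _ _ (dy_pos _) (dy_pos _) (dy_pos _)))
      (Real.sqrt_nonneg _)
  have n3 : ∀ b : Ix, 0 ≤ sw2 δ a₀ ε b.α b.β * sv τ' b.p b.α b.β b.θ *
      √(Γ.JA z₀ s₀ τ b.p b.α b.β b.θ univ).toReal := fun b =>
    mul_nonneg (mul_nonneg (sw2_nonneg _ _ _ hε (dy_pos _))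
      (sv_nonneg _ _ (dy_pos _) (dy_pos _) (dy_pos _))) (Real.sqrt_nonneg _)
  simp only [add_mul] at bx
  refine (lintegral_mono_ae pt).trans ?_
  rw [lintegral_const_mul' _ _ ENNReal.ofReal_ne_top, lintegral_add_left
    (Finset.measurable_sum _ fun b _ => (mΦ b).indicator (mB _ _ _ _)),
    lintegral_finsetSum _ fun b _ => (mΦ b).indicator (mB _ _ _ _), lintegral_indicator mS]
  simp only [lintegral_indicator (mB _ _ _ _)]
  refine (mul_le_mul_right (add_le_add (Finset.sum_le_sum fun b _ => bx b)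
    (hf Γ T N k z₀ s₀ τ p' τ' hG hT hτ hτ')) _).trans ?_
  have n4 : ∀ b ∈ Idx k, 0 ≤ tw δ b.p b.α b.β * (Γ.JA z₀ s₀ τ b.p b.α b.β b.θ univ).toReal
      + c * (sw1 δ b.α b.β * sv τ' b.p b.α b.β b.θ *
          √(Γ.JA z₀ s₀ τ b.p b.α b.β b.θ univ).toReal
        + sw2 δ a₀ ε b.α b.β * sv τ' b.p b.α b.β b.θ *
          √(Γ.JA z₀ s₀ τ b.p b.α b.β b.θ univ).toReal) := fun b _ =>
    add_nonneg (n1 b) (mul_nonneg hc (add_nonneg (n2 b) (n3 b)))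
  rw [← ENNReal.ofReal_sum_of_nonneg n4,
    ← ENNReal.ofReal_add (Finset.sum_nonneg n4) (by positivity), ← ENNReal.ofReal_mul hC0.le]
  refine ENNReal.ofReal_le_ofReal ?_
  rw [mul_assoc, Finset.sum_add_distrib, ← Finset.mul_sum, Finset.sum_add_distrib]
  refine mul_le_mul_of_nonneg_left ?_ hC0.le
  have s1 := Finset.sum_nonneg (s := Idx k) fun b _ => n1 b
  have s2 := Finset.sum_nonneg (s := Idx k) fun b _ => n2 b
  have s3 := Finset.sum_nonneg (s := Idx k) fun b _ => n3 b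
  have s4 := sq_nonneg (LL k)
  generalize ∑ b ∈ Idx k, tw δ b.p b.α b.β * _ = x1 at s1 ⊢
  generalize ∑ b ∈ Idx k, sw1 δ b.α b.β * _ * _ = x2 at s2 ⊢
  generalize ∑ b ∈ Idx k, sw2 δ a₀ ε b.α b.β * _ * _ = x3 at s3 ⊢
  generalize LL k ^ 2 = x4 at s4 ⊢
  nlinarith [mul_nonneg hc s1, mul_nonneg hc s4, mul_nonneg hCF.le s1, mul_nonneg hCF.le s2,
    mul_nonneg hCF.le s3]

end Vale.Agent.P107
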