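import Vale.Agent.P107.Basic

/-! Problem P107: pointwise decomposition of the kernel into dyadic boxes. -/

open MeasureTheory Set Filter Topology
open scoped ENNReal RealInnerProductSpace

noncomputable section
namespace Vale.Agent.P107
namespace Dec0X

theorem ex_up {x : ℝ} {k : ℕ} (h1 : 1 ≤ x) (h2 : x ≤ 2 ^ k) :
    ∃ i < k + 1, x ∈ Ico ((2 : ℝ) ^ i) (2 * 2 ^ i) := by
  obtain ⟨i, hi, hi'⟩ := exists_nat_pow_near h1 (one_lt_two (α := ℝ))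
  refine ⟨i, Nat.lt_succ_of_le ?_, hi, by rwa [pow_succ'] at hi'⟩
  exact (pow_le_pow_iff_right₀ (one_lt_two (α := ℝ))).1 (hi.trans h2)

theorem ex_down {x : ℝ} {k : ℕ} (h1 : 1 ≤ 3 * 2 ^ k * x) (h2 : x < 2) :
    ∃ j < k + 3, x ∈ Ico (dy j) (2 * dy j) := by
  have hk : (0 : ℝ) < 2 ^ k := by positivity
  have hex : ∃ j, dy j ≤ x := by
    refine ⟨k + 2, ?_⟩
    have e : dy (k + 2) * (4 * 2 ^ k) = 1 := by
      unfold dy
      rw [one_div, inv_pow, pow_add]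
      field_simp
      norm_num
    have := dy_pos (k + 2)
    by_contra hc
    nlinarith [mul_lt_mul_of_pos_right (not_le.1 hc) hk]
  classical
  have h3 : Nat.find hex ≤ k + 2 := by
    apply Nat.find_min'
    have e : dy (k + 2) * (4 * 2 ^ k) = 1 := by
      unfold dy
      rw [one_div, inv_pow, pow_add]
      field_simp
      norm_num
    have := dy_pos (k + 2)
    by_contra hc
    nlinarith [mul_lt_mul_of_pos_right (not_le.1 hc) hk]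
  refine ⟨Nat.find hex, by omega, Nat.find_spec hex, ?_⟩
  rcases h0 : Nat.find hex with _ | j
  · simpa [dy] using h2
  · have h4 := Nat.find_min hex (m := j) (by omega)
    have e : 2 * dy (j + 1) = dy j := by unfold dy; rw [pow_succ]; ring
    rw [e]
    exact not_le.1 h4

theorem t1 {a b Q r p α β : ℝ} (hr : 0 < r) (hp : 0 < p) (hα : 0 < α) (hβ : 0 < β) (hQ : p ≤ Q)
    (ha : a ≤ 2 * α) (hb : β ≤ b) (hb' : b ≤ 2 * β) :
    (a + b) / (Q ^ 2 * b ^ 5 * r ^ 2) ≤ 2 * ((α + β) / (p ^ 2 * β ^ 5) * (1 / r ^ 2)) := by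
  have e : 2 * ((α + β) / (p ^ 2 * β ^ 5) * (1 / r ^ 2)) =
      (2 * α + 2 * β) / (p ^ 2 * β ^ 5 * r ^ 2) := by field_simp
  rw [e]
  gcongr

theorem t2 {a b r δ α β : ℝ} (hr : 0 < r) (hδ : 0 < δ) (hα : 0 < α) (hβ : 0 < β)
    (ha : α ≤ a) (hb : β ≤ b) :
    (1 / b ^ 2 + 1 / (δ ^ 2 * a * b)) / r ^ 2 ≤ (1 / β ^ 2 + 1 / (δ ^ 2 * α * β)) * (1 / r ^ 2) := by
  rw [← div_eq_mul_one_div]
  have : 0 < a := hα.trans_le ha
  gcongr

theorem t3 {a b Q r p α β G : ℝ} (n : ℕ) (hr : 0 < r) (hp : 0 < p) (hα : 0 < α) (hβ : 0 < β)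
    (hG : 0 ≤ G) (hQ : p ≤ Q) (ha : a ≤ 2 * α) (hb : β ≤ b) :
    a * G / (Q * b ^ n * r) ≤ 2 * (α / (p * β ^ n) * (G / r)) := by
  have e : 2 * (α / (p * β ^ n) * (G / r)) = 2 * α * G / (p * β ^ n * r) := by field_simp
  rw [e]
  have : 0 < Q := hp.trans_le hQ
  gcongr

open Classical in
theorem scal {a b Q r p α β G B δ a₀ ε τ' : ℝ} [Decidable (b ≤ 2 * δ * a ∧ a₀ / 2 ≤ a)]
    [Decidable (δ * a ≤ 4 * b ∨ a ≤ 4 * a₀)] (hr : 0 < r) (hp : 0 < p) (hα : 0 < α)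
    (hβ : 0 < β) (hG : 0 ≤ G) (hB : 0 ≤ B) (hδ : 0 < δ) (ha₀ : 0 < a₀) (hε : 0 ≤ ε)
    (hεa : 16 * ε ≤ a₀) (q1 : p ≤ Q) (a1 : α ≤ a) (a2 : a < 2 * α) (b1 : β ≤ b) (b2 : b < 2 * β) :
    (a + b) / (Q ^ 2 * b ^ 5 * r ^ 2) +
      (if b ≤ 2 * δ * a ∧ a₀ / 2 ≤ a then (1 / b ^ 2 + 1 / (δ ^ 2 * a * b)) / r ^ 2 else 0) +
      ((if δ * a ≤ 4 * b ∨ a ≤ 4 * a₀ then 1 else 0) +
        (if b ≤ 2 * δ * a ∧ a₀ / 2 ≤ a then ε / a else 0)) *
        (a * (G + b ^ 2 * B) / (Q * b ^ 4 * r)) ≤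
    2 * (tw δ p α β * (1 / r ^ 2) + (sw1 δ α β + sw2 δ a₀ ε α β) * (α / (p * β ^ 4)) *
      (G / r + β ^ 2 * (if r ≤ τ' then B / r else 0)) +
      if τ' < r then a * B / (Q * b ^ 2 * r) else 0) := by
  unfold tw sw1 sw2
  have pa : 0 < a := hα.trans_le a1
  have pb : 0 < b := hβ.trans_le b1
  have hQ : 0 < Q := hp.trans_le q1
  have hRI : b ≤ 2 * δ * a ∧ a₀ / 2 ≤ a → β ≤ 4 * δ * α := fun h => by
    nlinarith [h.1, mul_le_mul_of_nonneg_left a2.le hδ.le]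
  have s1 := t1 hr hp hα hβ q1 a2.le b1 b2.le
  have s2 : (if b ≤ 2 * δ * a ∧ a₀ / 2 ≤ a then (1 / b ^ 2 + 1 / (δ ^ 2 * a * b)) / r ^ 2 else 0) ≤
      (if β ≤ 4 * δ * α then 1 / β ^ 2 + 1 / (δ ^ 2 * α * β) else 0) * (1 / r ^ 2) := by
    by_cases h : b ≤ 2 * δ * a ∧ a₀ / 2 ≤ a
    · rw [if_pos h, if_pos (hRI h)]
      exact t2 hr hδ hα hβ a1 b1
    · rw [if_neg h]
      split_ifs <;> positivity
  have s2' : 0 ≤ (if β ≤ 4 * δ * α then 1 / β ^ 2 + 1 / (δ ^ 2 * α * β) else 0) * (1 / r ^ 2) := by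
    split_ifs <;> positivity
  have w1 : (if δ * a ≤ 4 * b ∨ a ≤ 4 * a₀ then (1 : ℝ) else 0) ≤
      (if δ * α ≤ 8 * β then 1 else 0) +
        (if β ≤ 4 * δ * α then (if α ≤ 4 * a₀ then 1 else 0) else 0) := by
    by_cases h : δ * a ≤ 4 * b ∨ a ≤ 4 * a₀
    · rw [if_pos h]
      by_cases h' : δ * α ≤ 8 * β
      · rw [if_pos h']
        split_ifs <;> norm_num
      · have h1 := mul_le_mul_of_nonneg_left a1 hδ.le
        have h2 : a ≤ 4 * a₀ := h.resolve_left (by linarith [not_le.1 h'])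
        rw [if_neg h', if_pos (by nlinarith [not_le.1 h']), if_pos (a1.trans h2), zero_add]
    · rw [if_neg h]
      split_ifs <;> norm_num
  have w2 : (if b ≤ 2 * δ * a ∧ a₀ / 2 ≤ a then ε / a else 0) ≤
      (if β ≤ 4 * δ * α then ε / α else 0) := by
    by_cases h : b ≤ 2 * δ * a ∧ a₀ / 2 ≤ a
    · rw [if_pos h, if_pos (hRI h)]
      gcongr
    · rw [if_neg h]
      split_ifs <;> positivity
  have w3 : (if b ≤ 2 * δ * a ∧ a₀ / 2 ≤ a then ε / a else 0) ≤ 1 := by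
    split_ifs with h
    · rw [div_le_one pa]
      linarith [h.2]
    · exact zero_le_one
  have w4 : (if δ * a ≤ 4 * b ∨ a ≤ 4 * a₀ then (1 : ℝ) else 0) ≤ 1 := by
    split_ifs <;> norm_num
  have w5 : (0 : ℝ) ≤ (if δ * a ≤ 4 * b ∨ a ≤ 4 * a₀ then (1 : ℝ) else 0) +
      (if b ≤ 2 * δ * a ∧ a₀ / 2 ≤ a then ε / a else 0) := by
    split_ifs <;> positivity
  have w6 : (if β ≤ 4 * δ * α then (if α ≤ 4 * a₀ then 1 else 0) + ε / α else 0) =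
      (if β ≤ 4 * δ * α then (if α ≤ 4 * a₀ then 1 else 0) else 0) +
        (if β ≤ 4 * δ * α then ε / α else 0) := by
    split_ifs <;> simp
  have hW : (if δ * a ≤ 4 * b ∨ a ≤ 4 * a₀ then (1 : ℝ) else 0) +
      (if b ≤ 2 * δ * a ∧ a₀ / 2 ≤ a then ε / a else 0) ≤ (if δ * α ≤ 8 * β then 1 else 0) +
        (if β ≤ 4 * δ * α then (if α ≤ 4 * a₀ then 1 else 0) + ε / α else 0) := by
    rw [w6]
    linarith
  have hW2 : (if δ * a ≤ 4 * b ∨ a ≤ 4 * a₀ then (1 : ℝ) else 0) +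
      (if b ≤ 2 * δ * a ∧ a₀ / 2 ≤ a then ε / a else 0) ≤ 2 := by linarith
  generalize (if δ * a ≤ 4 * b ∨ a ≤ 4 * a₀ then (1 : ℝ) else 0) +
      (if b ≤ 2 * δ * a ∧ a₀ / 2 ≤ a then ε / a else 0) = W at *
  generalize (if δ * α ≤ 8 * β then (1 : ℝ) else 0) +
      (if β ≤ 4 * δ * α then (if α ≤ 4 * a₀ then 1 else 0) + ε / α else 0) = S at *
  have eS : a * (G + b ^ 2 * B) / (Q * b ^ 4 * r) =
      a * G / (Q * b ^ 4 * r) + a * B / (Q * b ^ 2 * r) := by field_simp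
  have s3 := t3 4 hr hp hα hβ hG q1 a2.le b1
  have s4 := t3 2 hr hp hα hβ hB q1 a2.le b1
  have e4 : α / (p * β ^ 2) * (B / r) = α / (p * β ^ 4) * (β ^ 2 * (B / r)) := by field_simp
  have n3 : 0 ≤ a * G / (Q * b ^ 4 * r) := by positivity
  have n4 : 0 ≤ a * B / (Q * b ^ 2 * r) := by positivity
  have u3 := mul_le_mul hW s3 n3 (w5.trans hW)
  rw [eS, add_mul _ _ (1 / r ^ 2)]
  by_cases hτ : r ≤ τ'
  · rw [if_pos hτ, if_neg (not_lt.2 hτ)]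
    have u4 := mul_le_mul hW s4 n4 (w5.trans hW)
    rw [e4] at u4
    linarith only [s1, s2, s2', u3, u4]
  · rw [if_neg hτ, if_pos (not_le.1 hτ)]
    have u4 := mul_le_mul_of_nonneg_right hW2 n4
    linarith only [s1, s2, s2', u3, u4]

end Dec0X

open Dec0X in
theorem dec0 : Dec0 := by
  refine ⟨2, two_pos, fun k δ a₀ ε τ' V w v κ hδ ha₀ hε hεa hV hv hw => ?_⟩
  have hn := norm_hat_le w
  have hU := norm_uu_le V
  have hu := norm_uu_le v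
  have hk : (0 : ℝ) < 2 ^ k := by positivity
  have la := one_le_q_dd hn V
  have lb := one_le_q_dd hn v
  have lc := one_le_q_dd hU v
  have pa := dd_uu_pos hn V
  have pb := dd_uu_pos hn v
  have pc := dd_uu_pos hU v
  have tr1 := dd_tri hn hu hU
  have tr2 := dd_tri hn hU hu
  have tr3 := dd_tri hU hn hu
  rw [dd_comm (uu v) (uu V)] at tr1
  rw [dd_comm (uu V) (hat w)] at tr3
  obtain ⟨i, hi, qi⟩ := ex_up (one_le_q v) hv
  obtain ⟨j, hj, qj⟩ := ex_down (k := k) (x := dd (hat w) (uu V))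
    (by nlinarith [mul_le_mul_of_nonneg_right hV pa.le]) (dd_lt_two hn hU)
  obtain ⟨l, hl, ql⟩ := ex_down (k := k) (x := dd (hat w) (uu v))
    (by nlinarith [mul_le_mul_of_nonneg_right hv pb.le]) (dd_lt_two hn hu)
  obtain ⟨m, hm, qm⟩ := ex_down (k := k) (x := dd (uu V) (uu v))
    (by nlinarith [mul_le_mul_of_nonneg_right hv pc.le]) (dd_lt_two hU hu)
  have hp : (0 : ℝ) < 2 ^ i := by positivity
  have hα := dy_pos j
  have hβ := dy_pos l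
  have hθ := dy_pos m
  have hQ := q_pos v
  refine ⟨(i, j, l, m), ?_, ⟨qi, qj, ql, qm⟩, ?_⟩
  · unfold Idx
    simp only [Finset.mem_filter, Finset.mem_product, Finset.mem_range]
    refine ⟨⟨hi, hj, hl, hm⟩, ?_⟩
    show Adm (2 ^ i) (dy j) (dy l) (dy m)
    have m1 := mul_le_mul qi.2.le ql.2.le pb.le (by positivity)
    have m2 := mul_le_mul qi.2.le qm.2.le pc.le (by positivity)
    refine ⟨by linarith, by linarith, by linarith [qj.1, ql.2, qm.2], by linarith [ql.1, qj.2, qm.2],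
      by linarith [qm.1, qj.2, ql.2]⟩
  unfold KK kT kS kap RI RD
  exact @scal _ _ _ _ _ _ _ _ _ _ _ _ τ' (Classical.propDecidable _) (Classical.propDecidable _)
    (norm_pos_iff.2 hw) hp hα hβ (Kg_nonneg (hat w) κ) (norm_nonneg κ.2) hδ
    ha₀ hε hεa qi.1 qj.1 qj.2 ql.1 ql.2

end Vale.Agent.P107
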