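import Vale.Agent.P107.Obj2

/-! Problem P107, part II: the statements of the steps of the existence theory. -/

open MeasureTheory Set Filter Topology Real
open scoped ENNReal RealInnerProductSpace ContDiff

noncomputable section
namespace Vale.Agent.P107

/-! ### general analysis -/

/-- Gronwall with variable coefficients, in both time directions -/
def Gr : Prop := ∀ (X : Type) [NormedAddCommGroup X] [NormedSpace ℝ X] (x x' : ℝ → X)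
  (l e : ℝ → ℝ) (t s : ℝ), Continuous l → Continuous e → (∀ σ, 0 ≤ l σ) → (∀ σ, 0 ≤ e σ) →
  (∀ σ ∈ uIcc t s, HasDerivAt x (x' σ) σ) → (∀ σ ∈ uIcc t s, ‖x' σ‖ ≤ l σ * ‖x σ‖ + e σ) →
  ‖x s‖ ≤ exp |∫ σ in t..s, l σ| * (‖x t‖ + |∫ σ in t..s, e σ|)

/-- global solutions of Lipschitz ODEs -/
def Ode : Prop := ∀ (X : Type) [NormedAddCommGroup X] [NormedSpace ℝ X] [CompleteSpace X]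
  (a : ℝ → X → X), Continuous (fun p : ℝ × X => a p.1 p.2) →
  (∀ T : ℝ, ∃ L : ℝ, ∀ t, |t| ≤ T → ∀ x y, ‖a t x - a t y‖ ≤ L * ‖x - y‖) →
  ∀ t z, ∃ γ : ℝ → X, γ t = z ∧ ∀ s, HasDerivAt γ (a s (γ s)) s

def ContD : Prop := ∀ (P X W : Type) [TopologicalSpace P] [NormedAddCommGroup X] [NormedSpace ℝ X]
  [FiniteDimensional ℝ X] [NormedAddCommGroup W] [NormedSpace ℝ W] (K : P → X → W),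
  Continuous (fun r : P × X => K r.1 r.2) → (∀ p, Differentiable ℝ (K p)) →
  (∀ p, ∃ C : ℝ, ∀ᶠ p' in 𝓝 p, ∀ x y, ‖fderiv ℝ (K p') x - fderiv ℝ (K p') y‖ ≤ C * ‖x - y‖) →
  Continuous (fun r : P × X => fderiv ℝ (K r.1) r.2)

def Lim : Prop := ∀ (Kn : ℕ → ℝ → V3 → Z) (K : ℝ → V3 → Z), (∀ n, Reg (Kn n)) →
  (∀ T : ℝ, ∃ C : ℝ, ∀ n t, |t| ≤ T → B3 (Kn n t) C C C) →
  (∀ T ε : ℝ, 0 < ε → ∀ᶠ n in atTop, ∀ t, |t| ≤ T → ∀ x, ‖Kn n t x - K t x‖ ≤ ε) → Reg K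

/-- joint `C¹` regularity from continuous derivatives in `t` and in `x` -/
def JC1 : Prop := ∀ (X W : Type) [NormedAddCommGroup X] [NormedSpace ℝ X]
  [NormedAddCommGroup W] [NormedSpace ℝ W] [CompleteSpace W] (g G : ℝ → X → W),
  Continuous (fun p : ℝ × X => G p.1 p.2) → (∀ t, Differentiable ℝ (g t)) →
  Continuous (fun p : ℝ × X => fderiv ℝ (g p.1) p.2) →
  ((∀ t x, HasDerivAt (fun s => g s x) (G t x) t) → ContDiff ℝ 1 (fun p : ℝ × X => g p.1 p.2)) ∧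
  ((∀ t, 0 ≤ t → ∀ x, g t x = g 0 x + ∫ σ in (0 : ℝ)..t, G σ x) →
    ContDiffOn ℝ 1 (fun p : ℝ × X => g p.1 p.2) (Ici 0 ×ˢ univ) ∧
    ∀ t, 0 ≤ t → ∀ x, HasDerivWithinAt (fun s => g s x) (G t x) (Ici 0) t)

def Clamp : Prop := ∀ n : ℕ → ℝ, ∃ Cl, ClP n Cl

def ClC : Prop := ∀ n Cl, ClP n Cl → (∀ K, Reg K → Reg (clF Cl K)) ∧
  ∀ T : ℝ, ∃ C : ℝ, 1 ≤ C ∧
    (∀ K t a b c, |t| ≤ T → B3 (K t) a b c → B3 (clF Cl K t) C (C * b) (C * (b ^ 2 + c))) ∧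
    (∀ K A lam, 0 ≤ A → 0 ≤ lam → STL K T A lam → STL (clF Cl K) T (C * (1 + A)) lam) ∧
    (∀ K K' t y, |t| ≤ T → ‖clF Cl K t y - clF Cl K' t y‖ ≤ C * ‖K t y - K' t y‖)

/-- polar coordinates for radial functions, and the bounds used for cone integrals -/
def Pol : Prop := ∃ c : ℝ, 0 < c ∧
  (∀ h : ℝ → ℝ≥0∞, Measurable h →
    ∫⁻ w : V3, h ‖w‖ * ENNReal.ofReal (1 / ‖w‖ ^ 2) = ENNReal.ofReal c * ∫⁻ r in Ioi 0, h r) ∧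
  (∀ (X : Type) [NormedAddCommGroup X] [NormedSpace ℝ X] (H : V3 → X) (D : Set V3)
    (η s a A lam : ℝ), 0 ≤ η → 0 ≤ a → 0 ≤ A → 0 < lam → D ⊆ Metric.ball 0 η →
    (∀ w ∈ D, w ≠ 0 → ‖H w‖ ≤ (a + A * exp (lam * (s - ‖w‖))) / ‖w‖ ^ 2) →
    MeasurableSet D → ‖∫ w in D, H w‖ ≤ c * (a * η + A * exp (lam * s) / lam) ∧
      (AEStronglyMeasurable H (volume.restrict D) → IntegrableOn H D))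

/-- the cone operator -/
def O1 : Prop := ∀ (W : Type) [NormedAddCommGroup W] [NormedSpace ℝ W] [CompleteSpace W]
  (G : V3 → ℝ → V3 → W), Ker G → Reg (RR G) ∧ ∀ s x,
    IntegrableOn (fun w => G w (s - ‖w‖) (x - w)) (Metric.ball 0 s) ∧
    IntegrableOn (fun w => fderiv ℝ (G w (s - ‖w‖)) (x - w)) (Metric.ball 0 s) ∧
    fderiv ℝ (RR G s) x = ∫ w in Metric.ball (0 : V3) s, fderiv ℝ (G w (s - ‖w‖)) (x - w)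

/-- integrals in the momentum variable -/
def VI : Prop :=
  (∀ R : ℝ, ∃ c : ℝ, 0 < c ∧ ∀ (X : Type) [NormedAddCommGroup X] [NormedSpace ℝ X]
    [CompleteSpace X] (κ : V3 → X) (a : ℝ), Continuous κ → 0 ≤ a → (∀ v, ‖v‖ ≤ R → ‖κ v‖ ≤ a) →
    (∀ (g : V3 → ℝ) (m : ℝ), Continuous g → (∀ v, g v ≠ 0 → ‖v‖ ≤ R) → (∀ v, |g v| ≤ m) →
      Integrable (fun v => g v • κ v) ∧ ‖∫ v, g v • κ v‖ ≤ c * a * m) ∧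
    (∀ (g : Z → ℝ) (m₀ m₁ m₂ : ℝ), B3 g m₀ m₁ m₂ → (∀ z, g z ≠ 0 → ‖z.2‖ ≤ R) →
      B3 (fun y => ∫ v, g (y, v) • κ v) (c * a * m₀) (c * a * m₁) (c * a * m₂) ∧
      ∀ y h, fderiv ℝ (fun y => ∫ v, g (y, v) • κ v) y h =
        ∫ v, fderiv ℝ g (y, v) (h, 0) • κ v)) ∧
  (∀ (P X : Type) [TopologicalSpace P] [FirstCountableTopology P] [NormedAddCommGroup X]
    [NormedSpace ℝ X] (H : P → V3 → X), Continuous (fun r : P × V3 => H r.1 r.2) →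
    (∀ p, ∃ R : ℝ, ∀ᶠ p' in 𝓝 p, ∀ v, R < ‖v‖ → H p' v = 0) → Continuous (fun p => ∫ v, H p v))

/-- integration by parts with a singularity at the origin -/
def SI : Prop := 0 < om ∧ ∀ (X : Type) [NormedAddCommGroup X] [NormedSpace ℝ X] [CompleteSpace X]
  (M : Fin 3 → V3 → X) (c : X) (R C : ℝ), (∀ j, ContDiffOn ℝ 1 (M j) {0}ᶜ) →
  (∀ j w, R < ‖w‖ → M j w = 0) →
  (∀ j w, w ≠ 0 → ‖w‖ ≤ 1 → ‖M j w - (hat w j / ‖w‖ ^ 2) • c‖ ≤ C / ‖w‖) →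
  Integrable (fun w => ∑ j, fderiv ℝ (M j) w (ee j)) →
  ∫ w, ∑ j, fderiv ℝ (M j) w (ee j) = -(om • c)

/-- integration by parts -/
def Ibp : Prop := ∀ (X : Type) [NormedAddCommGroup X] [NormedSpace ℝ X] [CompleteSpace X],
  (∀ (a : V3 → ℝ) (b : V3 → X) (v : V3), ContDiff ℝ 1 a → ContDiff ℝ 1 b →
    HasCompactSupport a ∨ HasCompactSupport b →
    ∫ y, fderiv ℝ a y v • b y = -∫ y, a y • fderiv ℝ b y v) ∧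
  (∀ (ψ : ℝ × V3 → ℝ) (h : ℝ × V3 → X), Continuous ψ → Cpt ψ → Continuous h →
    IntegrableOn (fun p => ψ p • h p) Hs ∧
    ∫ p in Hs, ψ p • h p = ∫ t in Ioi (0 : ℝ), ∫ y, ψ (t, y) • h (t, y)) ∧
  (∀ (ψ : ℝ × V3 → ℝ) (K : ℝ → V3 → X) (j : Fin 3), ContDiff ℝ 1 ψ → Cpt ψ →
    Continuous (fun p : ℝ × V3 => K p.1 p.2) → (∀ t, Differentiable ℝ (K t)) →
    Continuous (fun p : ℝ × V3 => fderiv ℝ (K p.1) p.2) →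
    ∫ p in Hs, dx j ψ p • K p.1 p.2 = -∫ p in Hs, ψ p • fderiv ℝ (K p.1) p.2 (ee j)) ∧
  (∀ (ψ : ℝ × V3 → ℝ) (b : ℝ × V3 → X), ContDiff ℝ 1 ψ → Cpt ψ → ContDiff ℝ 1 b →
    ∫ p in Hs, dt ψ p • b p =
      -(∫ y, ψ (0, y) • b (0, y)) - ∫ p in Hs, ψ p • fderiv ℝ b p (1, 0))

/-- from weak to pointwise identities -/
def WT : Prop := ∀ (X : Type) [NormedAddCommGroup X] [NormedSpace ℝ X] [FiniteDimensional ℝ X],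
  (∀ h : ℝ × V3 → X, Continuous h → (∀ φ, Test φ → ∫ p in Hs, φ p • h p = 0) →
    ∀ p : ℝ × V3, 0 ≤ p.1 → h p = 0) ∧
  (∀ K G : ℝ × V3 → X, Continuous K → Continuous G →
    (∀ φ, Test φ → ∫ p in Hs, (dt φ p • K p + φ p • G p) = 0) →
    ∀ t, 0 ≤ t → ∀ x, K (t, x) = K (0, x) + ∫ σ in (0 : ℝ)..t, G (σ, x))

/-! ### flows -/

structure FlP (a : ℝ → Z → Z) : Prop where
  isf : IsFlow a (flow a)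
  comp : ∀ r s t z, flow a r s (flow a s t z) = flow a r t z
  cont : Continuous (fun p : ℝ × ℝ × Z => flow a p.1 p.2.1 p.2.2)
  lip : ∀ (l : ℝ → ℝ) (s t : ℝ), Continuous l → (∀ σ, 0 ≤ l σ) →
    (∀ σ ∈ uIcc t s, ∀ x y, ‖a σ x - a σ y‖ ≤ l σ * ‖x - y‖) →
    ∀ x y, ‖flow a s t x - flow a s t y‖ ≤ exp |∫ σ in t..s, l σ| * ‖x - y‖
  stab : ∀ (a' : ℝ → Z → Z) (l e : ℝ → ℝ) (s t : ℝ), Reg a' → Continuous l → Continuous e →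
    (∀ σ, 0 ≤ l σ) → (∀ σ, 0 ≤ e σ) →
    (∀ σ ∈ uIcc t s, ∀ x y, ‖a σ x - a σ y‖ ≤ l σ * ‖x - y‖) →
    (∀ σ ∈ uIcc t s, ∀ x, ‖a σ x - a' σ x‖ ≤ e σ) →
    ∀ x, ‖flow a s t x - flow a' s t x‖ ≤ exp |∫ σ in t..s, l σ| * |∫ σ in t..s, e σ|

def Fl1 : Prop := ∀ a, Reg a → FlP a

def Fl2 : Prop := ∀ a, Reg a → ∀ s t, Differentiable ℝ (flow a s t) ∧
  ∀ l m : ℝ → ℝ, Continuous l → Continuous m → (∀ σ, 0 ≤ l σ) → (∀ σ, 0 ≤ m σ) →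
    (∀ σ ∈ uIcc t s, ∀ x, ‖fderiv ℝ (a σ) x‖ ≤ l σ) →
    (∀ σ ∈ uIcc t s, ∀ x y, ‖fderiv ℝ (a σ) x - fderiv ℝ (a σ) y‖ ≤ m σ * ‖x - y‖) →
    (∀ x, ‖fderiv ℝ (flow a s t) x‖ ≤ exp |∫ σ in t..s, l σ|) ∧
    ∀ x y, ‖fderiv ℝ (flow a s t) x - fderiv ℝ (flow a s t) y‖ ≤
      exp (3 * |∫ σ in t..s, l σ|) * |∫ σ in t..s, m σ| * ‖x - y‖

def Fl3 : Prop := ∀ a, Reg a → ∀ s, ContDiff ℝ 1 (fun p : ℝ × Z => flow a s p.1 p.2) ∧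
  ∀ t z, fderiv ℝ (fun p : ℝ × Z => flow a s p.1 p.2) (t, z) (1, a t z) = 0

/-- Liouville -/
def Fl4 : Prop := ∀ a, Reg a →
  (∀ t z, LinearMap.trace ℝ Z (fderiv ℝ (a t) z : Z →ₗ[ℝ] Z) = 0) →
  ∀ s t, MeasurePreserving (flow a s t) (volume : Measure Z) volume

def Vf : Prop := ∃ C : ℝ, 1 ≤ C ∧
  (∀ F t a b c, B3 (F t) a b c →
    B3 (vf F t) (C * (1 + a)) (C * (1 + a + b)) (C * (1 + a + b + c))) ∧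
  (∀ F, Reg F → Reg (vf F)) ∧
  (∀ F t z, Differentiable ℝ (F t) → LinearMap.trace ℝ Z (fderiv ℝ (vf F t) z : Z →ₗ[ℝ] Z) = 0) ∧
  (∀ F F' t z, ‖vf F t z - vf F' t z‖ ≤ 2 * ‖F t z.1 - F' t z.1‖) ∧
  (∀ F t a b, 0 ≤ b → (∀ y, ‖F t y‖ ≤ a) → (∀ y y', ‖F t y - F t y'‖ ≤ b * ‖y - y'‖) →
    ∀ z z', ‖vf F t z - vf F t z'‖ ≤ C * (1 + a + b) * ‖z - z'‖)

def VlS : Prop := ∀ f₀ E₀ B₀, Datum f₀ E₀ B₀ → ∀ F, Reg F → Vl f₀ F ∧ (sys f₀ F).Kin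

/-- quantitative bounds for the solution of the Vlasov equation -/
def VlQ : Prop := ∀ f₀ E₀ B₀, Datum f₀ E₀ B₀ →
  (∃ M : ℝ, 1 ≤ M ∧ ∀ F t z, 0 ≤ ff f₀ F t z ∧ ff f₀ F t z ≤ M) ∧
  (∀ T N : ℝ, ∃ R : ℝ, ∀ F, Reg F → Sup F T N → Sp (ff f₀ F) T R ∧ (sys f₀ F).Bd T R) ∧
  (∀ T P : ℝ, ∃ R : ℝ, ∀ F T', Reg F → T' ≤ T → (sys f₀ F).Bd T' P → Sp (ff f₀ F) T' R) ∧
  (∀ T N : ℝ, ∃ C : ℝ, 1 ≤ C ∧ ∀ F A lam, Reg F → Sup F T N → 0 ≤ A → 1 ≤ lam →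
    (∀ t ∈ Icc (0 : ℝ) T, ∀ y y', ‖F t y - F t y'‖ ≤ A * exp (lam * t) * ‖y - y'‖) →
    ∀ t ∈ Icc (0 : ℝ) T, ∀ z z',
      |ff f₀ F t z - ff f₀ F t z'| ≤ exp (C * (1 + A * exp (lam * t) / lam)) * ‖z - z'‖) ∧
  (∀ T N : ℝ, ∃ C : ℝ, 1 ≤ C ∧ ∀ F A lam, Reg F → 0 ≤ A → 1 ≤ lam →
    (∀ t ∈ Icc (0 : ℝ) T, B3 (F t) N N (A * exp (lam * t))) →
    ∀ t ∈ Icc (0 : ℝ) T, B3 (ff f₀ F t) C C (C * (1 + A * exp (lam * t)))) ∧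
  (∀ T N : ℝ, ∃ C : ℝ, 1 ≤ C ∧ ∀ F F' A lam, Reg F → Reg F' → 0 ≤ A → 1 ≤ lam →
    (∀ t ∈ Icc (0 : ℝ) T, B3 (F t) N N N) →
    (∀ t ∈ Icc (0 : ℝ) T, ∀ y, ‖F t y - F' t y‖ ≤ A * exp (lam * t)) →
    ∀ t ∈ Icc (0 : ℝ) T, ∀ z, |ff f₀ F t z - ff f₀ F' t z| ≤ C * (A * exp (lam * t)))

def DenS : Prop := ∀ f : ℝ → Z → ℝ, Reg f → SpA f → Den f ∧
  Continuous (fun p : ℝ × V3 => eP f p.1 p.2) ∧ Continuous (fun p : ℝ × V3 => SP f p.1 p.2) ∧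
  ((∀ t z, 0 ≤ f t z) → ∀ t y, ‖SP f t y‖ ≤ eP f t y ∧
    ∀ w, eP f t y - ⟪SP f t y, hat w⟫ = ∫ v, f t (y, v) * q v * b2 w v)

/-! ### kernels and the field map -/

def KL : Prop := ∃ kB : V3 → V3 → Z →L[ℝ] Z,
  (∀ w v k, kEB w v k = kEB w v 0 + kB w v k) ∧
  ContinuousOn (fun p : V3 × V3 => kEB p.1 p.2 0) {p | p.1 ≠ 0} ∧
  ContinuousOn (fun p : V3 × V3 => kB p.1 p.2) {p | p.1 ≠ 0} ∧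
  ContinuousOn (fun p : V3 × V3 => gam p.1 p.2) {p | p.1 ≠ 0} ∧
  ∀ T R : ℝ, ∃ C : ℝ, 0 < C ∧ ∀ w v, w ≠ 0 → ‖w‖ ≤ T → ‖v‖ ≤ R →
    ‖kEB w v 0‖ ≤ C / ‖w‖ ^ 2 ∧ ‖kB w v‖ ≤ C / ‖w‖ ^ 2 ∧ ‖gam w v‖ ≤ C / ‖w‖

def O2 : Prop := (∀ f F, Reg f → SpA f → Reg F → Ker (Gs f F)) ∧
  ∀ T R : ℝ, ∃ C : ℝ, 1 ≤ C ∧ ∀ (f f' : ℝ → Z → ℝ) (F F' : ℝ → V3 → Z) (w : V3) (t M : ℝ),
    w ≠ 0 → ‖w‖ ≤ T → Continuous (f t) → Continuous (f' t) →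
    (∀ z, f t z ≠ 0 → ‖z‖ ≤ R) → (∀ z, f' t z ≠ 0 → ‖z‖ ≤ R) → (∀ z, |f t z| ≤ M) →
    (∀ y, ‖Gs f F w t y‖ ≤ C * M * (1 + ‖F t y‖) / ‖w‖ ^ 2) ∧
    (∀ y y' m, (∀ v, |f t (y, v) - f' t (y', v)| ≤ m) →
      ‖Gs f F w t y - Gs f' F' w t y'‖ ≤
        C * (m * (1 + ‖F' t y'‖) + M * ‖F t y - F' t y'‖) / ‖w‖ ^ 2) ∧
    (∀ a c c', 1 ≤ a → B3 (f t) a a c → B3 (F t) a a c' →
      B3 (Gs f F w t) (C * a ^ 2 / ‖w‖ ^ 2) (C * a ^ 2 / ‖w‖ ^ 2)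
        (C * a * (a + c + c') / ‖w‖ ^ 2))

/-- the data terms -/
def DatP : Prop := ∀ f₀ E₀ B₀, Datum f₀ E₀ B₀ →
  ContDiff ℝ ∞ (K0 E₀ B₀) ∧ ContDiff ℝ ∞ (K1 E₀ B₀) ∧
  ContDiff ℝ ∞ (lap (K0 E₀ B₀)) ∧ ContDiff ℝ ∞ (lap (K1 E₀ B₀)) ∧
  (∃ C : ℝ, B3 (K0 E₀ B₀) C C C ∧ B3 (K1 E₀ B₀) C C C ∧ B3 (lap (K0 E₀ B₀)) C C C ∧
    B3 (lap (K1 E₀ B₀)) C C C) ∧ Ker (GH E₀ B₀)

def HDr : Prop := ∀ f₀ E₀ B₀, Datum f₀ E₀ B₀ →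
  Ker (GD f₀) ∧ Reg (Hom E₀ B₀) ∧ Reg (HD f₀ E₀ B₀) ∧
  ∀ F, Reg F → Ker (Gs (ff f₀ F) F) ∧ Reg (TT f₀ E₀ B₀ F) ∧
    ∀ t, t ≤ 0 → TT f₀ E₀ B₀ F t = K0 E₀ B₀

def E0 : Prop := ∀ f₀ E₀ B₀, Datum f₀ E₀ B₀ → ∀ T R : ℝ, ∃ C : ℝ, 1 ≤ C ∧
  ∀ F T' A lam, Reg F → T' ≤ T → Sp (ff f₀ F) T' R → 0 ≤ A → 1 ≤ lam →
  (∀ t ∈ Icc (0 : ℝ) T', ∀ y, ‖F t y‖ ≤ A * exp (lam * t)) →
  ∀ s ∈ Icc (0 : ℝ) T', ∀ x, ‖TT f₀ E₀ B₀ F s x‖ ≤ C * (1 + A * exp (lam * s) / lam)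

def E2 : Prop := ∀ f₀ E₀ B₀, Datum f₀ E₀ B₀ → ∀ T N : ℝ, ∃ C : ℝ, 1 ≤ C ∧
  ∀ F A lam, Reg F → 0 ≤ A → 1 ≤ lam → (∀ t ∈ Icc (0 : ℝ) T, B3 (F t) N N (A * exp (lam * t))) →
  ∀ s ∈ Icc (0 : ℝ) T, B3 (TT f₀ E₀ B₀ F s) C C (C * (1 + A * exp (lam * s) / lam))

def ESt : Prop := ∀ f₀ E₀ B₀, Datum f₀ E₀ B₀ → ∀ T N : ℝ, ∃ C : ℝ, 1 ≤ C ∧
  ∀ F F' A lam, Reg F → Reg F' → 0 ≤ A → 1 ≤ lam →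
  (∀ t ∈ Icc (0 : ℝ) T, B3 (F t) N N N) → Sup F' T N →
  (∀ t ∈ Icc (0 : ℝ) T, ∀ y, ‖F t y - F' t y‖ ≤ A * exp (lam * t)) →
  ∀ s ∈ Icc (0 : ℝ) T, ∀ x,
    ‖TT f₀ E₀ B₀ F s x - TT f₀ E₀ B₀ F' s x‖ ≤ C * (A * exp (lam * s) / lam)

/-- the backward cone in Eulerian variables -/
def CI : Prop := ∀ f₀ E₀ B₀, Datum f₀ E₀ B₀ → ∀ F, Reg F → ∀ s x, 0 ≤ s →
  ((sys f₀ F).μ.restrict ((sys f₀ F).act s x)).map ((sys f₀ F).wv s x) =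
    ((volume : Measure Z).restrict {p | ‖p.1‖ < s}).withDensity
      (fun p => ENNReal.ofReal (b2 p.1 p.2 * ff f₀ F (s - ‖p.1‖) (x - p.1, p.2) / om))

def RepL : Prop := ∀ f₀ E₀ B₀, Datum f₀ E₀ B₀ →
  (∃ M : ℝ, 1 ≤ M ∧ ∀ F, Reg F → ∀ s, 0 ≤ s → (sys f₀ F).Cone s M) ∧
  ∀ F, Reg F → ∀ s x, 0 ≤ s →
    (∀ g : Z → ℝ≥0∞, Measurable g → (sys f₀ F).cI s x g =
      ∫⁻ w in Metric.ball (0 : V3) s, ∫⁻ v, g (w, v) *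
        ENNReal.ofReal (b2 w v * ff f₀ F (s - ‖w‖) (x - w, v) / om)) ∧
    (∀ η, om⁻¹ • ∫ w in Metric.ball (0 : V3) s ∩ {w | η ≤ ‖w‖},
      Gs (ff f₀ F) F w (s - ‖w‖) (x - w) = (sys f₀ F).far η s x) ∧
    ((sys f₀ F).far 0 s x).1 = ∫ z in (sys f₀ F).act s x, ELW ((sys f₀ F).wv s x z).1
      ((sys f₀ F).wv s x z).2 ((sys f₀ F).Kr s x ((sys f₀ F).wv s x z).1) ∂(sys f₀ F).μ ∧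
    ((sys f₀ F).far 0 s x).2 = ∫ z in (sys f₀ F).act s x, BLW ((sys f₀ F).wv s x z).1
      ((sys f₀ F).wv s x z).2 ((sys f₀ F).Kr s x ((sys f₀ F).wv s x z).1) ∂(sys f₀ F).μ

def LWL : Prop := ∀ T P N : ℝ, ∃ C : ℝ, 0 < C ∧ ∀ (w w' v v' : V3) (k k' : Z), w ≠ 0 → ‖w‖ ≤ T →
  ‖w - w'‖ ≤ ‖w‖ / 2 → q v ≤ P → q v' ≤ P → ‖k‖ ≤ N → ‖k'‖ ≤ N →
  ‖((ELW w v k, BLW w v k) : Z)‖ ≤ C / ‖w‖ ^ 2 ∧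
  ‖((ELW w v k, BLW w v k) : Z) - (ELW w' v' k', BLW w' v' k')‖ ≤
    C * (‖w - w'‖ / ‖w‖ ^ 3 + ‖v - v'‖ / ‖w‖ ^ 2 + ‖k - k'‖ / ‖w‖ ^ 2)

/-- Lipschitz bound with a logarithm for the far field -/
def E1f : Prop := ∀ T P N M : ℝ, ∃ C : ℝ, 1 ≤ C ∧ ∀ (Γ : PS) (s A lam a : ℝ) (x : V3), Γ.Kin →
  (∀ᵐ z ∂Γ.μ, z ∈ Γ.S) → 0 ≤ s → s ≤ T → Γ.Bd s P → Sup Γ.K s N → Γ.Cone s M →
  0 ≤ A → 1 ≤ lam → STL Γ.K s A lam → 0 ≤ a →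
  ∀ᶠ x' in 𝓝 x, ‖Γ.far (exp (-a)) s x' - Γ.far (exp (-a)) s x‖ ≤
    C * (1 + a + A * exp (lam * s) / lam) * ‖x' - x‖

def E1 : Prop := ∀ f₀ E₀ B₀, Datum f₀ E₀ B₀ → ∀ T N : ℝ, ∃ C : ℝ, 1 ≤ C ∧
  ∀ F A lam, Reg F → Sup F T N → 0 ≤ A → 1 ≤ lam → STL F T A lam →
  ∀ s ∈ Icc (0 : ℝ) T, ∀ x,
    ‖fderiv ℝ (TT f₀ E₀ B₀ F s) x‖ ≤ C * (1 + A * exp (lam * s) / lam)

/-! ### Maxwell's equations for the field map -/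

def AdvP : Prop := ∀ φ, Test φ → ContDiff ℝ ∞ (adv φ) ∧ Cpt (adv φ) ∧
  ∀ v, dD v (adv φ) = adv (dD v φ)

def Fund : Prop := ∀ φ, Test φ → ∀ p,
  dt (dt (adv φ)) p - ∑ j, dx j (dx j (adv φ)) p = φ p

/-- derivatives of the singular kernels -/
def KD : Prop :=
  ContDiffOn ℝ 2 (fun p : V3 × V3 => gam p.1 p.2) {p | p.1 ≠ 0} ∧
  (∀ j v, ContDiffOn ℝ 1 (fun w => WW j w v) {0}ᶜ) ∧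
  (∀ w v, w ≠ 0 → ∑ j, fderiv ℝ (fun w => WW j w v) w (ee j) = -kEB w v 0) ∧
  (∀ w v, w ≠ 0 → ∑ j, fderiv ℝ (fun w => (hat w j) • gam w v) w (ee j) = ‖w‖⁻¹ • gam w v) ∧
  (∀ w v k, w ≠ 0 → fderiv ℝ (gam w) v (frc v k) = kEB w v k - kEB w v 0) ∧
  ∀ R : ℝ, ∃ C : ℝ, 0 < C ∧ ∀ w v, w ≠ 0 → ‖v‖ ≤ R →
    ‖gam w v‖ ≤ C / ‖w‖ ∧ ‖fderiv ℝ (gam w) v‖ ≤ C / ‖w‖ ∧ (∀ j, ‖WW j w v‖ ≤ C / ‖w‖) ∧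
    ‖kEB w v 0‖ ≤ C / ‖w‖ ^ 2

def Chi : Prop := ∀ φ, Test φ → ContDiff ℝ 1 (chi φ) ∧ (∃ T, ∀ p : ℝ × Z, T < p.1 → chi φ p = 0) ∧
  ∀ (t : ℝ) (y v : V3) (a : ℝ) (b c : V3),
    Integrable (fun w : V3 => dD (a, b) φ (t + ‖w‖, y + w) • gam w v) ∧
    Integrable (fun w : V3 => φ (t + ‖w‖, y + w) • fderiv ℝ (gam w) v c) ∧
    fderiv ℝ (chi φ) (t, (y, v)) (a, (b, c)) =
      om⁻¹ • ((∫ w : V3, dD (a, b) φ (t + ‖w‖, y + w) • gam w v)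
        + ∫ w : V3, φ (t + ‖w‖, y + w) • fderiv ℝ (gam w) v c)

/-- the Glassey-Strauss identity, tested against a smooth function -/
def KI : Prop := ∀ φ, Test φ → ∀ (t : ℝ) (y v : V3) (k : Z),
  Integrable (fun w : V3 => φ (t + ‖w‖, y + w) • kEB w v k) ∧
  om⁻¹ • ∫ w : V3, φ (t + ‖w‖, y + w) • kEB w v k =
    ((gx (adv φ) (t, y) + dt (adv φ) (t, y) • uu v, cross (uu v) (gx (adv φ) (t, y))) : Z)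
      + fderiv ℝ (chi φ) (t, (y, v)) (1, (uu v, frc v k))

def RF : Prop := ∀ (G : V3 → ℝ → V3 → Z) φ, Ker G → Test φ →
  Integrable (fun r : (ℝ × V3) × V3 => φ (r.1.1 + ‖r.2‖, r.1.2 + r.2) • G r.2 r.1.1 r.1.2)
    ((volume.restrict Hs).prod volume) ∧
  ∫ p in Hs, φ p • RR G p.1 p.2 = ∫ p in Hs, ∫ w : V3, φ (p.1 + ‖w‖, p.2 + w) • G w p.1 p.2

/-- weak Vlasov equation -/
def WV : Prop := ∀ f₀ E₀ B₀, Datum f₀ E₀ B₀ → ∀ F, Reg F →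
  ∀ (X : Type) [NormedAddCommGroup X] [NormedSpace ℝ X] [CompleteSpace X] (χ : ℝ × Z → X),
  ContDiff ℝ 1 χ →
  (∀ t, (∫ y, ∫ v, ff f₀ F t (y, v) • χ (t, (y, v))) - ∫ y, ∫ v, f₀ (y, v) • χ (0, (y, v)) =
    ∫ σ in (0 : ℝ)..t, ∫ y, ∫ v,
      ff f₀ F σ (y, v) • fderiv ℝ χ (σ, (y, v)) (1, vf F σ (y, v))) ∧
  ∀ T, (∀ p : ℝ × Z, T < p.1 → χ p = 0) →
    IntegrableOn (fun p : ℝ × V3 => ∫ v, ff f₀ F p.1 (p.2, v) •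
      fderiv ℝ χ (p.1, (p.2, v)) (1, vf F p.1 (p.2, v))) Hs ∧
    ∫ p in Hs, ∫ v, ff f₀ F p.1 (p.2, v) • fderiv ℝ χ (p.1, (p.2, v)) (1, vf F p.1 (p.2, v)) =
      -∫ y, ∫ v, f₀ (y, v) • χ (0, (y, v))

def WCS : Prop := ∀ f₀ E₀ B₀, Datum f₀ E₀ B₀ → ∀ F, Reg F → WCont (ff f₀ F)

def HP : Prop := ∀ f₀ E₀ B₀, Datum f₀ E₀ B₀ → ∀ φ, Test φ →
  ∫ p in Hs, φ p • Hom E₀ B₀ p.1 p.2 =
    -(∫ y, dt (adv φ) (0, y) • K0 E₀ B₀ y) + ∫ y, adv φ (0, y) • K1 E₀ B₀ y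

def DP1 : Prop := ∀ φ, Test φ → ∀ (t : ℝ) (y v : V3),
  Integrable (fun w : V3 =>
    (‖w‖⁻¹ * φ (t + ‖w‖, y + w) + dD (0, hat w) φ (t + ‖w‖, y + w)) • gam w v) ∧
  om⁻¹ • ∫ w : V3, (‖w‖⁻¹ * φ (t + ‖w‖, y + w) + dD (0, hat w) φ (t + ‖w‖, y + w)) • gam w v =
    -fderiv ℝ (chi φ) (t, (y, v)) (1, 0)

def DP : Prop := ∀ f₀ E₀ B₀, Datum f₀ E₀ B₀ → ∀ φ, Test φ →
  om⁻¹ • ∫ p in Hs, φ p • RR (GD f₀) p.1 p.2 = ∫ y, ∫ v, f₀ (y, v) • chi φ (0, (y, v))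

def GP : Prop := ∀ f₀ E₀ B₀, Datum f₀ E₀ B₀ → ∀ F, Reg F → ∀ φ, Test φ →
  om⁻¹ • ∫ p in Hs, φ p • RR (Gs (ff f₀ F) F) p.1 p.2 =
    (∫ p in Hs, src (adv φ) (ff f₀ F) p) - ∫ y, ∫ v, f₀ (y, v) • chi φ (0, (y, v))

def PairS : Prop := ∀ f₀ E₀ B₀, Datum f₀ E₀ B₀ → ∀ F, Reg F →
  Pair E₀ B₀ (ff f₀ F) (TT f₀ E₀ B₀ F)

def M7a : Prop := ∀ f₀ E₀ B₀, Datum f₀ E₀ B₀ → ∀ f K, f 0 = f₀ → Den f → Reg K →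
  Pair E₀ B₀ f K → WCont f →
  (∀ φ, Test φ → ∫ p in Hs, (⟪gx φ p, (K p.1 p.2).1⟫ + φ p * rho (f p.1) p.2) = 0) ∧
  (∀ φ, Test φ → ∫ p in Hs, ⟪gx φ p, (K p.1 p.2).2⟫ = 0)

def M7b : Prop := ∀ f₀ E₀ B₀, Datum f₀ E₀ B₀ → ∀ f K, f 0 = f₀ → Den f → Reg K →
  Pair E₀ B₀ f K → WCont f → ∀ φ, Test φ → ∫ p in Hs,
    (dt φ p • (K p.1 p.2).1 - cross (gx φ p) (K p.1 p.2).2 - φ p • cur (f p.1) p.2) = 0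

def M7c : Prop := ∀ f₀ E₀ B₀, Datum f₀ E₀ B₀ → ∀ f K, f 0 = f₀ → Den f → Reg K →
  Pair E₀ B₀ f K → ∀ φ, Test φ →
    ∫ p in Hs, (dt φ p • (K p.1 p.2).2 + cross (gx φ p) (K p.1 p.2).1) = 0

def M8 : Prop := ∀ f K, Den f → Reg K → WMax f K → Max f K

def MaxS : Prop := ∀ f₀ E₀ B₀, Datum f₀ E₀ B₀ → ∀ F, Reg F → Max (ff f₀ F) (TT f₀ E₀ B₀ F)

/-- space-time Lipschitz bound from the spatial one -/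
def E1t : Prop := ∀ f₀ E₀ B₀, Datum f₀ E₀ B₀ → ∀ R : ℝ, ∃ C : ℝ, 1 ≤ C ∧
  ∀ F t b, Reg F → 0 ≤ b → Sp (ff f₀ F) t R →
  (∀ σ ∈ Icc (0 : ℝ) t, ∀ x, ‖fderiv ℝ (TT f₀ E₀ B₀ F σ) x‖ ≤ b) →
  ∀ t' ∈ Icc (0 : ℝ) t, ∀ y y',
    ‖TT f₀ E₀ B₀ F t y - TT f₀ E₀ B₀ F t' y'‖ ≤ C * (1 + b) * (|t - t'| + ‖y - y'‖)

/-! ### energy -/

def N1 : Prop := ∀ f K, Den f → Reg K → Max f K → ∀ T,
  Cons (eK K) (SK K) (fun t y => -⟪cur (f t) y, (K t y).1⟫) T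

def N2 : Prop := ∀ f₀ E₀ B₀, Datum f₀ E₀ B₀ → ∀ F, Reg F → ∀ T,
  Cons (eP (ff f₀ F)) (SP (ff f₀ F)) (fun t y => ⟪cur (ff f₀ F t) y, (F t y).1⟫) T

/-- finite speed of propagation of the energy -/
def TL : Prop := ∀ (e : ℝ → V3 → ℝ) (S : ℝ → V3 → V3) (g : ℝ → V3 → ℝ) (T R : ℝ),
  Continuous (fun p : ℝ × V3 => e p.1 p.2) → Continuous (fun p : ℝ × V3 => S p.1 p.2) →
  Continuous (fun p : ℝ × V3 => g p.1 p.2) → (∀ t y, ‖S t y‖ ≤ e t y) → Cons e S g T →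
  (∀ t ∈ Icc (0 : ℝ) T, ∀ y, g t y ≠ 0 → q y ≤ R + 1) → ∀ t ∈ Icc (0 : ℝ) T,
  ∫⁻ y in {y | R + 2 + t ≤ q y}, ENNReal.ofReal (e t y) ≤
    ∫⁻ y in {y | R + 1 ≤ q y}, ENNReal.ofReal (e 0 y)

/-- energy flux through backward cones -/
def CF : Prop := ∀ (e : ℝ → V3 → ℝ) (S : ℝ → V3 → V3) (T : ℝ),
  Continuous (fun p : ℝ × V3 => e p.1 p.2) → Continuous (fun p : ℝ × V3 => S p.1 p.2) →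
  (∀ t y, ‖S t y‖ ≤ e t y) → Cons e S (fun _ _ => 0) T → ∀ s ∈ Icc (0 : ℝ) T, ∀ x,
  ∫⁻ w in Metric.ball (0 : V3) s,
    ENNReal.ofReal (e (s - ‖w‖) (x - w) - ⟪S (s - ‖w‖) (x - w), hat w⟫) ≤
    ∫⁻ y, ENNReal.ofReal (e 0 y)

def EnS : Prop := ∀ f₀ E₀ B₀, Datum f₀ E₀ B₀ → ∃ ℰ : ℝ, 1 ≤ ℰ ∧ ∀ F T, Reg F → Fix f₀ E₀ B₀ F T →
  ∀ s ∈ Icc (0 : ℝ) T,
    ∫⁻ y, ENNReal.ofReal (eP (ff f₀ F) s y) ≤ ENNReal.ofReal ℰ ∧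
    ∫⁻ y, ENNReal.ofReal (‖(F s y).2‖ ^ 2) ≤ ENNReal.ofReal ℰ ∧
    ∀ x, ∫⁻ w in Metric.ball (0 : V3) s, ENNReal.ofReal (Kg (hat w) (F (s - ‖w‖) (x - w)) ^ 2)
        ≤ ENNReal.ofReal ℰ ∧
      ∫⁻ w in Metric.ball (0 : V3) s,
        ENNReal.ofReal (∫ v, ff f₀ F (s - ‖w‖) (x - w, v) * q v * b2 w v) ≤ ENNReal.ofReal ℰ

def L2S : Prop := ∀ f₀ E₀ B₀, Datum f₀ E₀ B₀ → ∀ f K, Den f → Reg K → Max f K → K 0 = K0 E₀ B₀ →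
  ∀ t₀, 0 ≤ t₀ → MemLp (fun x => (K t₀ x).1) 2 volume ∧ MemLp (fun x => (K t₀ x).2) 2 volume ∧
    Tendsto (fun t => eLpNorm (fun x => (K t x).1 - (K t₀ x).1) 2 volume) (𝓝[Ici 0] t₀) (𝓝 0) ∧
    Tendsto (fun t => eLpNorm (fun x => (K t x).2 - (K t₀ x).2) 2 volume) (𝓝[Ici 0] t₀) (𝓝 0)

/-! ### assembly -/

def GoodS : Prop := ∀ f₀ E₀ B₀, Datum f₀ E₀ B₀ → ∀ T : ℝ, ∃ Λ : ℝ, ∀ F T', Reg F → 0 ≤ T' →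
  T' ≤ T → Fix f₀ E₀ B₀ F T' → ∃ N, (sys f₀ F).Good T' Λ N

def Apr : Prop := ∀ f₀ E₀ B₀, Datum f₀ E₀ B₀ → ∀ T : ℝ, ∃ N₀ : ℝ, ∀ F T', Reg F → 0 ≤ T' →
  T' ≤ T → Fix f₀ E₀ B₀ F T' → Sup F T' N₀

def FP1 : Prop := ∀ f₀ E₀ B₀, Datum f₀ E₀ B₀ → ∀ n Cl, ClP n Cl →
  (∀ m, Reg (It f₀ E₀ B₀ Cl m)) ∧
  ∀ T : ℝ, ∃ C : ℝ, ∀ m t, |t| ≤ T → B3 (It f₀ E₀ B₀ Cl m t) C C C

def FP2 : Prop := ∀ f₀ E₀ B₀, Datum f₀ E₀ B₀ → ∀ n Cl, ClP n Cl →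
  ∃ K, Reg K ∧ K = TT f₀ E₀ B₀ (clF Cl K)

def Glob : Prop := ∀ f₀ E₀ B₀, Datum f₀ E₀ B₀ → ∃ F, Reg F ∧ ∀ T, Fix f₀ E₀ B₀ F T

def Final : Prop := ∀ f₀ E₀ B₀, Datum f₀ E₀ B₀ → ∃ f E B, GlobalSolution f₀ E₀ B₀ f E B

end Vale.Agent.P107
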