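import Vale.Agent.P107.Basic2
import Vale.Agent.P107.Stmts2

/-! Problem P107: bounds for the field map. -/

open MeasureTheory Set Filter Topology Real
open scoped ENNReal RealInnerProductSpace ContDiff

noncomputable section
namespace Vale.Agent.P107

namespace E0X

theorem cone (hp : Pol) : ∃ c : ℝ, 0 < c ∧ ∀ (X : Type) [NormedAddCommGroup X] [NormedSpace ℝ X]
    (H : V3 → X) (T s a A lam : ℝ), s ∈ Icc (0 : ℝ) T → 0 ≤ a → 0 ≤ A → 0 < lam →
    (∀ w, w ≠ 0 → ‖w‖ ≤ T → s - ‖w‖ ∈ Icc (0 : ℝ) T →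
      ‖H w‖ ≤ (a + A * exp (lam * (s - ‖w‖))) / ‖w‖ ^ 2) →
    ‖∫ w in Metric.ball (0 : V3) s, H w‖ ≤ c * (a * T + A * exp (lam * s) / lam) := by
  obtain ⟨c, hc, -, h⟩ := hp
  refine ⟨c, hc, fun X _ _ H T s a A lam hs ha hA hl hH => ?_⟩
  refine (h X H _ s s a A lam hs.1 ha hA hl subset_rfl (fun w hw h0 => ?_)
    measurableSet_ball).1.trans ?_
  · rw [mem_ball_zero_iff] at hw
    exact hH w h0 (hw.le.trans hs.2) ⟨by linarith, by linarith [norm_nonneg w, hs.2]⟩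
  · have := hs.2
    gcongr

theorem abs_le_M {f : ℝ} {M : ℝ} (h : 0 ≤ f ∧ f ≤ M) : |f| ≤ M := by
  rw [abs_of_nonneg h.1]; exact h.2

end E0X

open E0X

theorem e0 (hp : Pol) (h2 : O2) (hh : HDr) (hl : VlS) (hq : VlQ) : E0 := by
  intro f₀ E₀ B₀ hD T R
  obtain ⟨c, hc, hcone⟩ := cone hp
  obtain ⟨C, hC, hO⟩ := h2.2 T R
  obtain ⟨-, -, hHD, -⟩ := hh f₀ E₀ B₀ hD
  obtain ⟨CH, hCH, hH⟩ := hHD.bd' T
  obtain ⟨⟨M, hM, hM'⟩, -⟩ := hq f₀ E₀ B₀ hD
  have p1 : 0 ≤ |om⁻¹| * (c * (C * M * (|T| + 1))) := by positivity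
  refine ⟨CH + |om⁻¹| * (c * (C * M * (|T| + 1))), by linarith, ?_⟩
  intro F T' A lam hF hT hS hA hlam hb s hs x
  have hreg := (hl f₀ E₀ B₀ hD F hF).1.reg
  have h1 := hcone Z (fun w => Gs (ff f₀ F) F w (s - ‖w‖) (x - w)) T' s (C * M) (C * M * A) lam hs
    (by positivity) (by positivity) (by linarith) fun w hw hwT ht => by
      refine ((hO _ _ F F w _ M hw (hwT.trans hT) (hreg.continuous _) (hreg.continuous _)
        (hS _ ht) (hS _ ht) fun z => abs_le_M (hM' F _ z)).1 _).trans ?_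
      have := hb _ ht (x - w)
      calc _ ≤ C * M * (1 + A * exp (lam * (s - ‖w‖))) / ‖w‖ ^ 2 := by gcongr
        _ = _ := by ring
  have h3 := (hH s (by rw [abs_of_nonneg hs.1]; exact hs.2.trans hT)).b0 x
  have hy : 0 ≤ A * exp (lam * s) / lam := by positivity
  have hT' : T' ≤ |T| := hT.trans (le_abs_self T)
  have h4 : c * (C * M * T' + C * M * A * exp (lam * s) / lam) ≤
      c * (C * M * (|T| + 1)) * (1 + A * exp (lam * s) / lam) := by
    have e : C * M * T' + C * M * A * exp (lam * s) / lam =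
        C * M * (T' + A * exp (lam * s) / lam) := by ring
    rw [e, mul_assoc c, mul_assoc (C * M)]
    gcongr
    nlinarith [abs_nonneg T]
  refine (norm_add_le _ _).trans ?_
  rw [norm_smul, Real.norm_eq_abs]
  have h5 : |om⁻¹| * ‖RR (Gs (ff f₀ F) F) s x‖ ≤
      |om⁻¹| * (c * (C * M * (|T| + 1)) * (1 + A * exp (lam * s) / lam)) :=
    mul_le_mul_of_nonneg_left (h1.trans h4) (abs_nonneg _)
  nlinarith

theorem eSt (hp : Pol) (h1 : O1) (h2 : O2) (hh : HDr) (hl : VlS) (hq : VlQ) : ESt := by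
  intro f₀ E₀ B₀ hD T N
  obtain ⟨c, hc, hcone⟩ := cone hp
  obtain ⟨⟨M, hM, hM'⟩, q2, -, -, -, q6⟩ := hq f₀ E₀ B₀ hD
  obtain ⟨R, hR⟩ := q2 T N
  obtain ⟨Cq, hCq, hQ⟩ := q6 T N
  obtain ⟨C, hC, hO⟩ := h2.2 T R
  obtain ⟨-, -, -, hK⟩ := hh f₀ E₀ B₀ hD
  have p1 : 0 ≤ |om⁻¹| * (c * (C * (Cq * (1 + |N|) + M))) := by positivity
  refine ⟨1 + |om⁻¹| * (c * (C * (Cq * (1 + |N|) + M))), by linarith, ?_⟩
  intro F F' A lam hF hF' hA hlam hb hb' hd s hs x
  have hreg := (hl f₀ E₀ B₀ hD F hF).1.reg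
  have hreg' := (hl f₀ E₀ B₀ hD F' hF').1.reg
  have hS := (hR F hF fun t ht y => (hb t ht).b0 y).1
  have hS' := (hR F' hF' hb').1
  have i1 := ((h1 Z _ (hK F hF).1).2 s x).1
  have i2 := ((h1 Z _ (hK F' hF').1).2 s x).1
  have h3 := hcone Z (fun w => Gs (ff f₀ F) F w (s - ‖w‖) (x - w) -
    Gs (ff f₀ F') F' w (s - ‖w‖) (x - w)) T s 0 (C * (Cq * (1 + |N|) + M) * A) lam hs
    le_rfl (by positivity) (by linarith) fun w hw hwT ht => by
      refine ((hO _ _ F F' w _ M hw hwT (hreg.continuous _) (hreg'.continuous _)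
        (hS _ ht) (hS' _ ht) fun z => abs_le_M (hM' F _ z)).2.1 _ _ _
        fun v => hQ F F' A lam hF hF' hA hlam hb hd _ ht _).trans ?_
      have e1 := hd _ ht (x - w)
      have e2 := (hb' _ ht (x - w)).trans (le_abs_self N)
      calc _ ≤ C * (Cq * (A * exp (lam * (s - ‖w‖))) * (1 + |N|) +
            M * (A * exp (lam * (s - ‖w‖)))) / ‖w‖ ^ 2 := by gcongr
        _ = _ := by ring
  rw [integral_sub i1 i2] at h3
  have e : TT f₀ E₀ B₀ F s x - TT f₀ E₀ B₀ F' s x =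
      om⁻¹ • (RR (Gs (ff f₀ F) F) s x - RR (Gs (ff f₀ F') F') s x) := by
    simp only [TT, smul_sub]
    abel
  rw [e, norm_smul, Real.norm_eq_abs]
  have hy : 0 ≤ A * exp (lam * s) / lam := by positivity
  calc _ ≤ |om⁻¹| * (c * (0 * T + C * (Cq * (1 + |N|) + M) * A * exp (lam * s) / lam)) :=
        mul_le_mul_of_nonneg_left h3 (abs_nonneg _)
    _ = |om⁻¹| * (c * (C * (Cq * (1 + |N|) + M))) * (A * exp (lam * s) / lam) := by ring
    _ ≤ _ := by gcongr; linarith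

theorem e2 (hp : Pol) (h1 : O1) (h2 : O2) (hh : HDr) (hl : VlS) (hq : VlQ) : E2 := by
  intro f₀ E₀ B₀ hD T N
  obtain ⟨c, hc, hcone⟩ := cone hp
  obtain ⟨⟨M, hM, hM'⟩, q2, -, -, q5, -⟩ := hq f₀ E₀ B₀ hD
  obtain ⟨R, hR⟩ := q2 T N
  obtain ⟨Cf, hCf, hQ⟩ := q5 T N
  obtain ⟨C, hC, hO⟩ := h2.2 T R
  obtain ⟨-, -, hHD, hK⟩ := hh f₀ E₀ B₀ hD
  obtain ⟨CH, hCH, hH⟩ := hHD.bd' T
  set a : ℝ := max N Cf with ha
  have ha1 : Cf ≤ a := le_max_right _ _
  have ha2 : 1 ≤ a := hCf.trans ha1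
  set K : ℝ := c * (C * a * (2 * a) * (|T| + 1)) with hKd
  have hK0 : 0 ≤ K := by positivity
  have p1 : 0 ≤ |om⁻¹| * K := by positivity
  refine ⟨CH + |om⁻¹| * K, by linarith, ?_⟩
  intro F A lam hF hA hlam hb s hs
  have hreg := (hl f₀ E₀ B₀ hD F hF).1.reg
  have hS := (hR F hF fun t ht y => (hb t ht).b0 y).1
  obtain ⟨hRR, hI⟩ := h1 Z _ (hK F hF).1
  have hT := le_abs_self T
  have hT0 := abs_nonneg T
  have hG : ∀ w t, w ≠ 0 → ‖w‖ ≤ T → t ∈ Icc (0 : ℝ) T → B3 (Gs (ff f₀ F) F w t)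
      (C * a ^ 2 / ‖w‖ ^ 2) (C * a ^ 2 / ‖w‖ ^ 2)
      (C * a * (a + Cf * (1 + A * exp (lam * t)) + A * exp (lam * t)) / ‖w‖ ^ 2) :=
    fun w t hw hwT ht => (hO _ _ F F w t M hw hwT (hreg.continuous _) (hreg.continuous _)
      (hS _ ht) (hS _ ht) fun z => abs_le_M (hM' F _ z)).2.2 a _ _ ha2
      ((hQ F A lam hF hA hlam hb t ht).mono ha1 ha1 le_rfl)
      ((hb t ht).mono (le_max_left _ _) (le_max_left _ _) le_rfl)
  have hKb : c * (C * a ^ 2 * T + 0 * exp (lam * s) / lam) ≤ K := by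
    have : C * a ^ 2 * T + 0 * exp (lam * s) / lam ≤ C * a * (2 * a) * (|T| + 1) := by
      have e : 0 < C * a ^ 2 := by positivity
      have e2 : C * a ^ 2 * T ≤ C * a ^ 2 * |T| := by gcongr
      have e3 : 0 ≤ C * a ^ 2 * |T| := by positivity
      rw [zero_mul, zero_div]
      nlinarith
    rw [hKd]
    gcongr
  have hy : 0 ≤ A * exp (lam * s) / lam := by positivity
  have hB : B3 (RR (Gs (ff f₀ F) F) s) K K (K * (1 + A * exp (lam * s) / lam)) := by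
    refine ⟨hRR.diff s, fun x => ?_, fun x => ?_, fun x y => ?_⟩
    · refine (hcone Z _ T s (C * a ^ 2) 0 lam hs (by positivity) le_rfl (by linarith)
        fun w hw hwT ht => ?_).trans hKb
      rw [zero_mul, add_zero]
      exact (hG w _ hw hwT ht).b0 _
    · rw [(hI s x).2.2]
      refine (hcone _ _ T s (C * a ^ 2) 0 lam hs (by positivity) le_rfl (by linarith)
        fun w hw hwT ht => ?_).trans hKb
      rw [zero_mul, add_zero]
      exact (hG w _ hw hwT ht).b1 _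
    · rw [(hI s x).2.2, (hI s y).2.2, ← integral_sub (hI s x).2.1 (hI s y).2.1]
      refine (hcone _ _ T s (C * a * (2 * a) * ‖x - y‖) (C * a * (2 * a) * ‖x - y‖ * A) lam hs
        (by positivity) (by positivity) (by linarith) fun w hw hwT ht => ?_).trans ?_
      · refine ((hG w _ hw hwT ht).b2 _ _).trans ?_
        rw [sub_sub_sub_cancel_right]
        have e0 : 0 ≤ A * exp (lam * (s - ‖w‖)) := by positivity
        have e1 : a + Cf * (1 + A * exp (lam * (s - ‖w‖))) + A * exp (lam * (s - ‖w‖)) ≤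
            2 * a * (1 + A * exp (lam * (s - ‖w‖))) := by nlinarith
        calc _ ≤ C * a * (2 * a * (1 + A * exp (lam * (s - ‖w‖)))) / ‖w‖ ^ 2 * ‖x - y‖ := by
              gcongr
          _ = _ := by ring
      · have e1 : T + A * exp (lam * s) / lam ≤ (|T| + 1) * (1 + A * exp (lam * s) / lam) := by
          nlinarith
        calc _ = c * (C * a * (2 * a)) * ‖x - y‖ * (T + A * exp (lam * s) / lam) := by ring
          _ ≤ c * (C * a * (2 * a)) * ‖x - y‖ * ((|T| + 1) * (1 + A * exp (lam * s) / lam)) := by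
              gcongr
          _ = _ := by rw [hKd]; ring
  have h3 := (hH s (by rw [abs_of_nonneg hs.1]; exact hs.2)).add (hB.const_smul om⁻¹)
  refine B3.mono h3 le_rfl le_rfl ?_
  nlinarith

end Vale.Agent.P107
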