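import Vale.Agent.P107.Basic2

/-! Problem P107: Lipschitz bounds for the field map. -/

open MeasureTheory Set Filter Topology Real
open scoped ENNReal RealInnerProductSpace ContDiff

noncomputable section
namespace Vale.Agent.P107

namespace E1X

theorem norm_curl_le {A : V3 → V3} {x : V3} {b : ℝ} (h : ∀ j, ‖fderiv ℝ A x (ee j)‖ ≤ b) :
    ‖curl A x‖ ≤ 3 * b := by
  rw [curl_eq_sum]
  refine (norm_sum_le _ _).trans ?_
  have : ∀ j, ‖cross (ee j) (fderiv ℝ A x (ee j))‖ ≤ b := fun j => by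
    refine (norm_cross_le _ _).trans ?_
    rw [norm_ee, one_mul]
    exact h j
  rw [Fin.sum_univ_three]
  linarith [this 0, this 1, this 2]

theorem norm_MG_le {f : ℝ → Z → ℝ} {K : ℝ → V3 → Z} {t : ℝ} {x : V3} {b m : ℝ}
    (hd : DifferentiableAt ℝ (K t) x) (hb : ‖fderiv ℝ (K t) x‖ ≤ b) (hm : ‖cur (f t) x‖ ≤ m) :
    ‖MG f K t x‖ ≤ 3 * b + m := by
  have h0 : ∀ j, ‖fderiv ℝ (K t) x (ee j)‖ ≤ b := fun j => by
    have := (fderiv ℝ (K t) x).le_of_opNorm_le hb (ee j)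
    rwa [norm_ee, mul_one] at this
  have h1 : ‖curl (fun y => (K t y).1) x‖ ≤ 3 * b := norm_curl_le fun j => by
    rw [fderiv.fst hd]
    exact (norm_fst_le _).trans (h0 j)
  have h2 : ‖curl (fun y => (K t y).2) x‖ ≤ 3 * b := norm_curl_le fun j => by
    rw [fderiv.snd hd]
    exact (norm_snd_le _).trans (h0 j)
  have hm0 : 0 ≤ m := (norm_nonneg _).trans hm
  unfold MG
  rw [Prod.norm_mk, norm_neg]
  refine max_le ((norm_sub_le _ _).trans (add_le_add h2 hm)) (by linarith)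

theorem ae_supp {f₀ : Z → ℝ} (h : Continuous f₀) (F : ℝ → V3 → Z) :
    ∀ᵐ z ∂(sys f₀ F).μ, z ∈ (sys f₀ F).S := by
  refine (ae_withDensity_iff (μ := (volume : Measure Z))
    (f := fun z => ENNReal.ofReal (f₀ z / om)) (by fun_prop)).2 (Eventually.of_forall ?_)
  intro z hz h0
  exact hz (by simp [h0])

end E1X

theorem e1 (hs : SI) (hp : Pol) (h1 : O1) (h2 : O2) (hh : HDr) (hl : VlS) (hq : VlQ) (hr : RepL)
    (hf : E1f) : E1 := by
  intro f₀ E₀ B₀ hD T N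
  obtain ⟨⟨M, hM1, hM⟩, hq2, -, hq4, -, -⟩ := hq f₀ E₀ B₀ hD
  obtain ⟨R, hR⟩ := hq2 T N
  obtain ⟨C4, hC4, h4⟩ := hq4 T N
  obtain ⟨⟨M', -, hcone⟩, hrep⟩ := hr f₀ E₀ B₀ hD
  obtain ⟨Cf, hCf, hfar⟩ := hf T R N M'
  obtain ⟨C2, hC2, hO2⟩ := h2.2 T R
  obtain ⟨c, hc, -, hpol⟩ := hp
  obtain ⟨-, -, hHD, hTT⟩ := hh f₀ E₀ B₀ hD
  obtain ⟨CH, hCH1, hCH⟩ := hHD.bd' |T|
  have hom : 0 < om := hs.1
  have hN0 := abs_nonneg N
  have hK0 : 0 ≤ om⁻¹ * (c * C2) := by positivity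
  refine ⟨CH + Cf * (1 + C4) + om⁻¹ * (c * C2) * (1 + |N| + M), by
    have : 0 ≤ Cf * (1 + C4) := by positivity
    have : 0 ≤ om⁻¹ * (c * C2) * (1 + |N| + M) := by positivity
    linarith, ?_⟩
  intro F A lam hF hsup hA hlam hstl s hsT x
  have hlam0 : 0 < lam := by linarith
  set Q := A * exp (lam * s) / lam with hQ
  have hQ0 : 0 ≤ Q := by positivity
  set a := C4 * (1 + Q) with ha
  have ha0 : 0 ≤ a := by positivity
  obtain ⟨hvl, hkin⟩ := hl f₀ E₀ B₀ hD F hF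
  obtain ⟨hsp, hbd⟩ := hR F hF hsup
  have hFl : ∀ t ∈ Icc (0 : ℝ) T, ∀ y y', ‖F t y - F t y'‖ ≤ A * exp (lam * t) * ‖y - y'‖ := by
    intro t ht y y'
    simpa using hstl t t ht.1 le_rfl ht.2 y y'
  have hfl := h4 F A lam hF hsup hA hlam hFl
  have hfar' := hfar (sys f₀ F) s A lam a x hkin (E1X.ae_supp hD.f_smooth.continuous F) hsT.1 hsT.2
    (fun z hz σ hσ => hbd z hz σ ⟨hσ.1, hσ.2.trans hsT.2⟩) (hsup.mono hsT.2) (hcone F hF s hsT.1)
    hA hlam (hstl.mono hsT.2) ha0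
  have hker := (hTT F hF).1
  have hint := fun x => ((h1 Z _ hker).2 s x).1
  have hmeas : MeasurableSet {w : V3 | exp (-a) ≤ ‖w‖} :=
    (isClosed_le continuous_const continuous_norm).measurableSet
  set D : Set V3 := Metric.ball (0 : V3) s \ {w | exp (-a) ≤ ‖w‖} with hDdef
  have hDm : MeasurableSet D := Metric.isOpen_ball.measurableSet.diff hmeas
  have hsplit : ∀ x', TT f₀ E₀ B₀ F s x' = HD f₀ E₀ B₀ s x' + (sys f₀ F).far (exp (-a)) s x' +
      om⁻¹ • ∫ w in D, Gs (ff f₀ F) F w (s - ‖w‖) (x' - w) := by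
    intro x'
    rw [← (hrep F hF s x' hsT.1).2.1, add_assoc, ← smul_add,
      integral_inter_add_sdiff hmeas (hint x')]
    rfl
  have hnear : ∀ x', ‖(∫ w in D, Gs (ff f₀ F) F w (s - ‖w‖) (x' - w)) -
      ∫ w in D, Gs (ff f₀ F) F w (s - ‖w‖) (x - w)‖ ≤
      c * C2 * (1 + |N| + M * Q) * ‖x' - x‖ := by
    intro x'
    rw [← integral_sub ((hint x').mono_set sdiff_subset) ((hint x).mono_set sdiff_subset)]
    have hh0 := norm_nonneg (x' - x)
    have := (hpol Z (fun w => Gs (ff f₀ F) F w (s - ‖w‖) (x' - w) -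
      Gs (ff f₀ F) F w (s - ‖w‖) (x - w)) D (exp (-a)) s (C2 * (exp a * ‖x' - x‖ * (1 + |N|)))
      (C2 * (M * (A * ‖x' - x‖))) lam (exp_pos _).le (by positivity) (by positivity) hlam0
      (fun w hw => by simpa using hw.2) ?_ hDm).1
    · refine this.trans (le_of_eq ?_)
      rw [hQ, exp_neg]
      field_simp
    · intro w hw hw0
      have hw1 : ‖w‖ < s := by simpa using hw.1
      have hw2 := norm_nonneg w
      have ht : s - ‖w‖ ∈ Icc (0 : ℝ) T := ⟨by linarith, by linarith [hsT.2]⟩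
      have e : x' - w - (x - w) = x' - x := by abel
      have k := (hO2 (ff f₀ F) (ff f₀ F) F F w (s - ‖w‖) M hw0 (by linarith [hsT.2])
        (hvl.reg.continuous _) (hvl.reg.continuous _) (hsp _ ht) (hsp _ ht)
        (fun z => by rw [abs_of_nonneg (hM F _ z).1]; exact (hM F _ z).2)).2.1 (x' - w) (x - w)
        (exp a * ‖x' - x‖) (fun v => by
          refine (hfl _ ht _ _).trans ?_
          have e2 : ‖((x' - w, v) : Z) - (x - w, v)‖ = ‖x' - x‖ := by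
            rw [Prod.mk_sub_mk, e, sub_self, Prod.norm_mk, norm_zero, max_eq_left hh0]
          rw [e2]
          refine mul_le_mul_of_nonneg_right (exp_le_exp.2 ?_) hh0
          rw [ha, hQ]
          gcongr
          linarith)
      refine k.trans (div_le_div_of_nonneg_right ?_ (by positivity))
      have k1 : ‖F (s - ‖w‖) (x - w)‖ ≤ |N| := (hsup _ ht _).trans (le_abs_self N)
      have k2 := hFl _ ht (x' - w) (x - w)
      rw [e] at k2
      calc _ ≤ C2 * (exp a * ‖x' - x‖ * (1 + |N|) +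
            M * (A * exp (lam * (s - ‖w‖)) * ‖x' - x‖)) := by gcongr
        _ = _ := by ring
  refine norm_fderiv_le_of_lip' ℝ (by positivity) ?_
  filter_upwards [hfar'] with x' hx'
  have hh0 := norm_nonneg (x' - x)
  have k1 := (hCH s (by rw [abs_of_nonneg hsT.1]; exact hsT.2.trans (le_abs_self T))).lip x' x
  have k2 := hnear x'
  have e : TT f₀ E₀ B₀ F s x' - TT f₀ E₀ B₀ F s x =
      (HD f₀ E₀ B₀ s x' - HD f₀ E₀ B₀ s x) +
      ((sys f₀ F).far (exp (-a)) s x' - (sys f₀ F).far (exp (-a)) s x) +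
      om⁻¹ • ((∫ w in D, Gs (ff f₀ F) F w (s - ‖w‖) (x' - w)) -
        ∫ w in D, Gs (ff f₀ F) F w (s - ‖w‖) (x - w)) := by
    rw [hsplit, hsplit, smul_sub]; abel
  have k3 : ‖om⁻¹ • ((∫ w in D, Gs (ff f₀ F) F w (s - ‖w‖) (x' - w)) -
        ∫ w in D, Gs (ff f₀ F) F w (s - ‖w‖) (x - w))‖ ≤
        om⁻¹ * (c * C2 * (1 + |N| + M * Q) * ‖x' - x‖) := by
    rw [norm_smul, Real.norm_of_nonneg (by positivity)]
    exact mul_le_mul_of_nonneg_left k2 (by positivity)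
  rw [e]
  refine (norm_add_le_of_le (norm_add_le_of_le k1 hx') k3).trans ?_
  have e2 : CH * ‖x' - x‖ + Cf * (1 + a + Q) * ‖x' - x‖ +
      om⁻¹ * (c * C2 * (1 + |N| + M * Q) * ‖x' - x‖) =
      (CH + Cf * (1 + a + Q) + om⁻¹ * (c * C2) * (1 + |N| + M * Q)) * ‖x' - x‖ := by ring
  rw [e2]
  refine mul_le_mul_of_nonneg_right ?_ hh0
  have j1 : CH ≤ CH * (1 + Q) := by nlinarith
  have j2 : Cf * (1 + a + Q) = Cf * (1 + C4) * (1 + Q) := by rw [ha]; ring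
  have j3 : 1 + |N| + M * Q ≤ (1 + |N| + M) * (1 + Q) := by nlinarith
  have j4 := mul_le_mul_of_nonneg_left j3 hK0
  rw [add_mul, add_mul, j2, mul_assoc (om⁻¹ * (c * C2))]
  linarith

theorem e1t (hv : VI) (hh : HDr) (hl : VlS) (hq : VlQ) (hm : MaxS) : E1t := by
  intro f₀ E₀ B₀ hD R
  obtain ⟨⟨M, hM1, hM⟩, -⟩ := hq f₀ E₀ B₀ hD
  obtain ⟨c, hc, hvi⟩ := hv.1 R
  have hcM : 0 ≤ c * M := by positivity
  refine ⟨3 + c * M, by linarith, ?_⟩
  intro F t b hF hb hsp hder t' ht' y y'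
  have hreg := ((hh f₀ E₀ B₀ hD).2.2.2 F hF).2.1
  have hmax := hm f₀ E₀ B₀ hD F hF
  have hvl := (hl f₀ E₀ B₀ hD F hF).1
  have hcur : ∀ σ ∈ Icc (0 : ℝ) t, ‖cur (ff f₀ F σ) y‖ ≤ c * M := by
    intro σ hσ
    have := ((hvi V3 uu 1 continuous_uu zero_le_one (fun v _ => norm_uu_le v)).1
      (fun v => ff f₀ F σ (y, v)) M ((hvl.reg.continuous σ).comp (by fun_prop))
      (fun v hv => (norm_snd_le ((y, v) : Z)).trans (hsp σ hσ _ hv))
      (fun v => by rw [abs_of_nonneg (hM F _ _).1]; exact (hM F _ _).2)).2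
    rwa [mul_one] at this
  have k1 : ‖TT f₀ E₀ B₀ F t y - TT f₀ E₀ B₀ F t' y‖ ≤ (3 * b + c * M) * ‖t - t'‖ :=
    Convex.norm_image_sub_le_of_norm_hasDerivWithin_le (s := Icc 0 t)
      (f := fun σ => TT f₀ E₀ B₀ F σ y) (f' := fun σ => MG (ff f₀ F) (TT f₀ E₀ B₀ F) σ y)
      (fun σ hσ => (hmax.der σ hσ.1 y).mono Icc_subset_Ici_self)
      (fun σ hσ => E1X.norm_MG_le (hreg.diff σ y) (hder σ hσ y) (hcur σ hσ))
      (convex_Icc 0 t) ht' ⟨ht'.1.trans ht'.2, le_rfl⟩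
  have k2 := norm_sub_le_of_fderiv (hreg.diff t') (hder t' ht') y y'
  rw [Real.norm_eq_abs] at k1
  refine (norm_sub_le_norm_sub_add_norm_sub _ (TT f₀ E₀ B₀ F t' y) _).trans ?_
  have h1 := abs_nonneg (t - t')
  have h2 := norm_nonneg (y - y')
  have j1 : 3 * b + c * M ≤ (3 + c * M) * (1 + b) := by nlinarith
  have j2 : b ≤ (3 + c * M) * (1 + b) := by nlinarith
  rw [mul_add]
  exact add_le_add (k1.trans (mul_le_mul_of_nonneg_right j1 h1))
    (k2.trans (mul_le_mul_of_nonneg_right j2 h2))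

end Vale.Agent.P107
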