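import Vale.Agent.P107.Basic2

/-! Problem P107, part II: Lipschitz bound with a logarithm for the far field. -/

open MeasureTheory Set Filter Topology Real
open scoped ENNReal RealInnerProductSpace

noncomputable section
namespace Vale.Agent.P107
namespace E1fX

/-- the pair of retarded fields -/
def Xi (Γ : PS) (s : ℝ) (x : V3) (z : Z) : Z :=
  (ELW (Γ.wv s x z).1 (Γ.wv s x z).2 (Γ.Kr s x (Γ.wv s x z).1),
    BLW (Γ.wv s x z).1 (Γ.wv s x z).2 (Γ.Kr s x (Γ.wv s x z).1))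

/-- the far region -/
def AA (Γ : PS) (η s : ℝ) (x : V3) : Set Z := Γ.act s x ∩ {z | η ≤ ‖(Γ.wv s x z).1‖}

/-- radial majorants -/
def mj (Γ : PS) (s : ℝ) (H : ℝ → ℝ≥0∞) (x : V3) : Z → ℝ≥0∞ :=
  (Γ.act s x).indicator fun z =>
    H ‖(Γ.wv s x z).1‖ * ENNReal.ofReal (1 / ‖(Γ.wv s x z).1‖ ^ 2)

variable {Γ : PS} {s P N A lam η : ℝ} {z : Z}

theorem cont_wv (hR : RetP Γ) (s : ℝ) (x : V3) : Continuous (Γ.wv s x) :=
  hR.cwv.comp (continuous_const.prodMk (continuous_const.prodMk continuous_id))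

theorem meas_act (hR : RetP Γ) (s : ℝ) (x : V3) : MeasurableSet (Γ.act s x) :=
  (hR.opn.preimage (f := fun z : Z => (s, x, z))
    (continuous_const.prodMk (continuous_const.prodMk continuous_id))).measurableSet

theorem meas_AA (hR : RetP Γ) (η s : ℝ) (x : V3) : MeasurableSet (AA Γ η s x) :=
  (meas_act hR s x).inter
    (isClosed_le continuous_const (cont_wv hR s x).fst.norm).measurableSet

theorem meas_Xi (hK : Γ.Kin) (hR : RetP Γ) (s : ℝ) (x : V3) : Measurable (Xi Γ s x) := by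
  have h := cont_wv hR s x
  have hk : Continuous fun z => Γ.Kr s x (Γ.wv s x z).1 :=
    hK.cK.comp ((continuous_const.sub h.fst.norm).prodMk (continuous_const.sub h.fst))
  exact (Measurable.ELW' h.fst.measurable h.snd.measurable hk.measurable).prodMk
    (Measurable.BLW' h.fst.measurable h.snd.measurable hk.measurable)

theorem meas_mj (hR : RetP Γ) (s : ℝ) {H : ℝ → ℝ≥0∞} (hH : Measurable H) (x : V3) :
    Measurable (mj Γ s H x) := by
  have h := (cont_wv hR s x).fst.norm.measurable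
  exact ((hH.comp h).mul (measurable_const.div (h.pow_const 2)).ennreal_ofReal).indicator
    (meas_act hR s x)

theorem norm_uu_le' {v : V3} (h : q v ≤ P) : ‖uu v‖ ≤ 1 - 1 / (2 * P ^ 2) := by
  have h1 := one_le_q v
  have h2 := norm_uu_sq v
  have h3 : 1 / P ^ 2 ≤ 1 / q v ^ 2 :=
    one_div_le_one_div_of_le (by positivity) (pow_le_pow_left₀ (by linarith) h 2)
  have h4 : 1 / (2 * P ^ 2) = 1 / P ^ 2 / 2 := by rw [div_div, mul_comm]
  rw [h4]
  nlinarith [sq_nonneg (‖uu v‖ - 1)]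

theorem Y_lip (hK : Γ.Kin) (hq : ∀ σ ∈ Icc (0 : ℝ) s, q (Γ.V σ z) ≤ P) {σ σ' : ℝ}
    (h : σ ∈ Icc (0 : ℝ) s) (h' : σ' ∈ Icc (0 : ℝ) s) :
    ‖Γ.Y σ z - Γ.Y σ' z‖ ≤ (1 - 1 / (2 * P ^ 2)) * |σ - σ'| := by
  have := (convex_Icc (0 : ℝ) s).norm_image_sub_le_of_norm_hasDerivWithin_le
    (f := fun t => Γ.Y t z) (f' := fun t => uu (Γ.V t z)) (C := 1 - 1 / (2 * P ^ 2))
    (fun t _ => (hK.dY t z).hasDerivWithinAt) (fun t ht => norm_uu_le' (hq t ht)) h' h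
  simpa only [Real.norm_eq_abs] using this

theorem V_lip (hK : Γ.Kin) (hN : Sup Γ.K s N) (z : Z) {σ σ' : ℝ}
    (h : σ ∈ Icc (0 : ℝ) s) (h' : σ' ∈ Icc (0 : ℝ) s) :
    ‖Γ.V σ z - Γ.V σ' z‖ ≤ 2 * N * |σ - σ'| := by
  have := (convex_Icc (0 : ℝ) s).norm_image_sub_le_of_norm_hasDerivWithin_le
    (f := fun t => Γ.V t z) (f' := fun t => frc (Γ.V t z) (Γ.K t (Γ.Y t z))) (C := 2 * N)
    (fun t _ => (hK.dV t z).hasDerivWithinAt)
    (fun t ht => (norm_frc_le _ _).trans (by have := hN t ht (Γ.Y t z); linarith)) h' h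
  simpa only [Real.norm_eq_abs] using this

theorem ret_mem (hR : RetP Γ) (hs : 0 ≤ s) (x : V3) (z : Z) : Γ.ret s x z ∈ Icc (0 : ℝ) s :=
  ⟨hR.nonneg s x z, hR.le s x z hs⟩

theorem ret_le (hR : RetP Γ) (s : ℝ) (x : V3) (z : Z) :
    s - Γ.ret s x z ≤ ‖x - Γ.Y (Γ.ret s x z) z‖ := by
  by_cases h : z ∈ Γ.act s x
  · exact (hR.act s x z h).2.le
  · rw [hR.nact s x z h, sub_zero]
    exact not_lt.1 h

theorem ret_lip1 (hK : Γ.Kin) (hR : RetP Γ) (hs : 0 ≤ s)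
    (hq : ∀ σ ∈ Icc (0 : ℝ) s, q (Γ.V σ z) ≤ P) (x x' : V3) :
    Γ.ret s x z - Γ.ret s x' z ≤ 2 * P ^ 2 * ‖x' - x‖ := by
  have hP : 1 ≤ P := (one_le_q _).trans (hq 0 ⟨le_rfl, hs⟩)
  rcases le_or_gt (Γ.ret s x z) (Γ.ret s x' z) with h | h
  · have : 0 ≤ 2 * P ^ 2 * ‖x' - x‖ := by positivity
    linarith
  have hx : z ∈ Γ.act s x := by
    by_contra hc
    rw [hR.nact s x z hc] at h
    exact absurd (hR.nonneg s x' z) (not_le.2 h)
  have h1 : s - Γ.ret s x z = ‖x - Γ.Y (Γ.ret s x z) z‖ := (hR.act s x z hx).2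
  have h2 := ret_le hR s x' z
  have h3 := Y_lip hK hq (ret_mem hR hs x z) (ret_mem hR hs x' z)
  rw [abs_of_pos (sub_pos.2 h)] at h3
  have h4 : ‖x' - Γ.Y (Γ.ret s x' z) z‖ ≤ ‖x' - x‖ + ‖x - Γ.Y (Γ.ret s x z) z‖ +
      ‖Γ.Y (Γ.ret s x z) z - Γ.Y (Γ.ret s x' z) z‖ := by
    have e : x' - Γ.Y (Γ.ret s x' z) z = x' - x + (x - Γ.Y (Γ.ret s x z) z) +
        (Γ.Y (Γ.ret s x z) z - Γ.Y (Γ.ret s x' z) z) := by abel
    rw [e]
    exact norm_add₃_le
  have h5 : 1 / (2 * P ^ 2) * (Γ.ret s x z - Γ.ret s x' z) ≤ ‖x' - x‖ := by linarith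
  rw [one_div, inv_mul_le_iff₀ (by positivity)] at h5
  exact h5

theorem ret_lip (hK : Γ.Kin) (hR : RetP Γ) (hs : 0 ≤ s)
    (hq : ∀ σ ∈ Icc (0 : ℝ) s, q (Γ.V σ z) ≤ P) (x x' : V3) :
    |Γ.ret s x z - Γ.ret s x' z| ≤ 2 * P ^ 2 * ‖x' - x‖ := by
  have h1 := ret_lip1 hK hR hs hq x x'
  have h2 := ret_lip1 hK hR hs hq x' x
  rw [norm_sub_rev] at h2
  exact abs_le.2 ⟨by linarith, h1⟩

theorem K_lip {F : ℝ → V3 → Z} (hF : STL F s A lam) (hA : 0 ≤ A) (hl : 0 ≤ lam) {σ σ' d : ℝ}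
    {y y' : V3} (h : σ ∈ Icc (0 : ℝ) s) (h' : σ' ∈ Icc (0 : ℝ) s) (hd : |σ - σ'| ≤ d)
    (hy : ‖y - y'‖ ≤ d) (he : exp (lam * d) ≤ 2) :
    ‖F σ y - F σ' y'‖ ≤ 4 * d * (A * exp (lam * σ)) := by
  have hd0 : 0 ≤ d := (abs_nonneg _).trans hd
  have hX : 0 ≤ A * exp (lam * σ) := by positivity
  rcases le_total σ' σ with hh | hh
  · refine (hF σ σ' h'.1 hh h.2 y y').trans ?_
    calc A * exp (lam * σ) * (|σ - σ'| + ‖y - y'‖) ≤ A * exp (lam * σ) * (4 * d) :=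
          mul_le_mul_of_nonneg_left (by linarith) hX
      _ = _ := by ring
  · rw [norm_sub_rev]
    refine (hF σ' σ h.1 hh h'.2 y' y).trans ?_
    have h1 : exp (lam * σ') ≤ exp (lam * σ) * 2 := by
      have h2 : lam * σ' ≤ lam * σ + lam * d := by
        rw [← mul_add]
        exact mul_le_mul_of_nonneg_left (by linarith [(abs_le.1 hd).1]) hl
      refine (exp_le_exp.2 h2).trans ?_
      rw [exp_add]
      exact mul_le_mul_of_nonneg_left he (exp_pos _).le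
    rw [abs_sub_comm, norm_sub_rev]
    calc A * exp (lam * σ') * (|σ - σ'| + ‖y - y'‖) ≤ A * (exp (lam * σ) * 2) * (2 * d) :=
          mul_le_mul (mul_le_mul_of_nonneg_left h1 hA) (by linarith) (by positivity)
            (by positivity)
      _ = _ := by ring

theorem Kr_eq (hR : RetP Γ) {x : V3} (hx : z ∈ Γ.act s x) :
    Γ.Kr s x (Γ.wv s x z).1 = Γ.K (Γ.ret s x z) (Γ.Y (Γ.ret s x z) z) := by
  unfold PS.Kr
  rw [← (hR.act s x z hx).2, sub_sub_cancel]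
  simp only [PS.wv, sub_sub_cancel]

/-- the hypothesis on the retarded kernel -/
def LH (T P N C : ℝ) : Prop := ∀ (w w' v v' : V3) (k k' : Z), w ≠ 0 → ‖w‖ ≤ T →
  ‖w - w'‖ ≤ ‖w‖ / 2 → q v ≤ P → q v' ≤ P → ‖k‖ ≤ N → ‖k'‖ ≤ N →
  ‖((ELW w v k, BLW w v k) : Z)‖ ≤ C / ‖w‖ ^ 2 ∧
  ‖((ELW w v k, BLW w v k) : Z) - (ELW w' v' k', BLW w' v' k')‖ ≤
    C * (‖w - w'‖ / ‖w‖ ^ 3 + ‖v - v'‖ / ‖w‖ ^ 2 + ‖k - k'‖ / ‖w‖ ^ 2)

variable {T C : ℝ}

theorem r_le (hR : RetP Γ) {x : V3} (hx : z ∈ Γ.act s x) : ‖(Γ.wv s x z).1‖ ≤ s := by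
  have := hR.act s x z hx
  linarith [this.1, this.2]

theorem Xi_le (hL : LH T P N C) (hR : RetP Γ) (hs : 0 ≤ s) (hT : s ≤ T) (hN : Sup Γ.K s N)
    (hη : 0 < η) (hq : ∀ σ ∈ Icc (0 : ℝ) s, q (Γ.V σ z) ≤ P) {x : V3} (hx : z ∈ AA Γ η s x) :
    ‖Xi Γ s x z‖ ≤ C / ‖(Γ.wv s x z).1‖ ^ 2 := by
  have hw : (Γ.wv s x z).1 ≠ 0 := norm_pos_iff.1 (hη.trans_le hx.2)
  have h1 : q (Γ.wv s x z).2 ≤ P := hq _ (ret_mem hR hs x z)
  have h2 : ‖Γ.Kr s x (Γ.wv s x z).1‖ ≤ N := by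
    rw [Kr_eq hR hx.1]
    exact hN _ (ret_mem hR hs x z) _
  exact (hL _ _ _ _ _ _ hw ((r_le hR hx.1).trans hT)
    (by rw [sub_self, norm_zero]; positivity) h1 h1 h2 h2).1

/-- the size of the difference in the common region -/
def g1 (C P N A lam s h r : ℝ) : ℝ :=
  C * h * ((1 + 2 * P ^ 2) * r⁻¹ + 2 * N * (2 * P ^ 2) + 4 * (2 * P ^ 2) * (A * exp (lam * (s - r))))

theorem Xi_sub (hL : LH T P N C) (hC : 0 ≤ C) (hK : Γ.Kin) (hR : RetP Γ) (hs : 0 ≤ s)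
    (hT : s ≤ T) (hN : Sup Γ.K s N) (hη : 0 < η) (hF : STL Γ.K s A lam) (hA : 0 ≤ A)
    (hl : 0 ≤ lam) (hq : ∀ σ ∈ Icc (0 : ℝ) s, q (Γ.V σ z) ≤ P) {x x' : V3}
    (h1 : (1 + 2 * P ^ 2) * ‖x' - x‖ ≤ η / 2) (h2 : exp (lam * (2 * P ^ 2 * ‖x' - x‖)) ≤ 2)
    (hx : z ∈ AA Γ η s x) (hx' : z ∈ Γ.act s x') :
    ‖Xi Γ s x z - Xi Γ s x' z‖ ≤
      g1 C P N A lam s ‖x' - x‖ ‖(Γ.wv s x z).1‖ * (1 / ‖(Γ.wv s x z).1‖ ^ 2) := by
  have hr : 0 < ‖(Γ.wv s x z).1‖ := hη.trans_le hx.2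
  have m := ret_mem hR hs x z
  have m' := ret_mem hR hs x' z
  have hN0 : 0 ≤ N := (norm_nonneg _).trans (hN 0 ⟨le_rfl, hs⟩ 0)
  have hσ := ret_lip hK hR hs hq x x'
  have hY : ‖Γ.Y (Γ.ret s x z) z - Γ.Y (Γ.ret s x' z) z‖ ≤ 2 * P ^ 2 * ‖x' - x‖ := by
    refine (Y_lip hK hq m m').trans (le_trans ?_ hσ)
    have : 0 ≤ 1 / (2 * P ^ 2) := by positivity
    exact mul_le_of_le_one_left (abs_nonneg _) (by linarith)
  have hw : ‖(Γ.wv s x z).1 - (Γ.wv s x' z).1‖ ≤ (1 + 2 * P ^ 2) * ‖x' - x‖ := by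
    have e : (Γ.wv s x z).1 - (Γ.wv s x' z).1 =
        -(x' - x) - (Γ.Y (Γ.ret s x z) z - Γ.Y (Γ.ret s x' z) z) := by
      simp only [PS.wv]
      abel
    rw [e]
    refine (norm_sub_le _ _).trans ?_
    rw [norm_neg]
    linarith
  have hv : ‖(Γ.wv s x z).2 - (Γ.wv s x' z).2‖ ≤ 2 * N * (2 * P ^ 2 * ‖x' - x‖) :=
    (V_lip hK hN z m m').trans (mul_le_mul_of_nonneg_left hσ (by linarith))
  have hk : ‖Γ.Kr s x (Γ.wv s x z).1 - Γ.Kr s x' (Γ.wv s x' z).1‖ ≤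
      4 * (2 * P ^ 2 * ‖x' - x‖) * (A * exp (lam * (s - ‖(Γ.wv s x z).1‖))) := by
    rw [Kr_eq hR hx.1, Kr_eq hR hx', ← (hR.act s x z hx.1).2, sub_sub_cancel]
    exact K_lip hF hA hl m m' hσ hY h2
  have hk1 : ‖Γ.Kr s x (Γ.wv s x z).1‖ ≤ N := by
    rw [Kr_eq hR hx.1]
    exact hN _ m _
  have hk2 : ‖Γ.Kr s x' (Γ.wv s x' z).1‖ ≤ N := by
    rw [Kr_eq hR hx']
    exact hN _ m' _
  have hη' : η ≤ ‖(Γ.wv s x z).1‖ := hx.2
  refine (hL _ _ _ _ _ _ (norm_pos_iff.1 hr) ((r_le hR hx.1).trans hT) (by linarith)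
    (hq _ m) (hq _ m') hk1 hk2).2.trans ?_
  refine (mul_le_mul_of_nonneg_left (add_le_add (add_le_add
    (div_le_div_of_nonneg_right hw (by positivity))
    (div_le_div_of_nonneg_right hv (by positivity)))
    (div_le_div_of_nonneg_right hk (by positivity))) hC).trans (le_of_eq ?_)
  unfold g1
  field_simp

/-- the two shells -/
def Sh (η s d : ℝ) : Set ℝ := Icc (s - d) s ∪ Icc η (η + d)

theorem mem_Sh (hR : RetP Γ) {x x' : V3} {d : ℝ} (hd : |Γ.ret s x z - Γ.ret s x' z| ≤ d)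
    (hx : z ∈ AA Γ η s x) (hx' : z ∉ AA Γ η s x') : ‖(Γ.wv s x z).1‖ ∈ Sh η s d := by
  have h1 := (hR.act s x z hx.1).2
  obtain ⟨d1, d2⟩ := abs_le.1 hd
  by_cases h : z ∈ Γ.act s x'
  · have h2 := (hR.act s x' z h).2
    have h3 : ‖(Γ.wv s x' z).1‖ < η := not_le.1 fun hc => hx' ⟨h, hc⟩
    exact Or.inr ⟨hx.2, by linarith⟩
  · rw [hR.nact s x' z h] at d2
    exact Or.inl ⟨by linarith, r_le hR hx.1⟩

def H1 (C P N A lam s h η : ℝ) : ℝ → ℝ≥0∞ :=
  (Icc η s).indicator fun r => ENNReal.ofReal (g1 C P N A lam s h r)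

def H2 (C η s d : ℝ) : ℝ → ℝ≥0∞ := (Sh η s d).indicator fun _ => ENNReal.ofReal C

theorem meas_H1 (C P N A lam s h η : ℝ) : Measurable (H1 C P N A lam s h η) := by
  refine Measurable.indicator (Measurable.ennreal_ofReal ?_) measurableSet_Icc
  unfold g1
  fun_prop

theorem meas_H2 (C η s d : ℝ) : Measurable (H2 C η s d) :=
  measurable_const.indicator (measurableSet_Icc.union measurableSet_Icc)

theorem only_le (hL : LH T P N C) (hC : 0 ≤ C) (hR : RetP Γ) (hs : 0 ≤ s) (hT : s ≤ T)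
    (hN : Sup Γ.K s N) (hη : 0 < η) (hq : ∀ σ ∈ Icc (0 : ℝ) s, q (Γ.V σ z) ≤ P) {x x' : V3}
    {d : ℝ} (hd : |Γ.ret s x z - Γ.ret s x' z| ≤ d) (hx : z ∈ AA Γ η s x)
    (hx' : z ∉ AA Γ η s x') : ‖Xi Γ s x z‖ₑ ≤ mj Γ s (H2 C η s d) x z := by
  rw [mj, indicator_of_mem hx.1, H2, indicator_of_mem (mem_Sh hR hd hx hx'),
    ← ENNReal.ofReal_mul hC, ← ofReal_norm, mul_one_div]
  exact ENNReal.ofReal_le_ofReal (Xi_le hL hR hs hT hN hη hq hx)

theorem point (hL : LH T P N C) (hC : 0 ≤ C) (hK : Γ.Kin) (hR : RetP Γ) (hs : 0 ≤ s)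
    (hT : s ≤ T) (hN : Sup Γ.K s N) (hη : 0 < η) (hF : STL Γ.K s A lam) (hA : 0 ≤ A)
    (hl : 0 ≤ lam) (hq : ∀ σ ∈ Icc (0 : ℝ) s, q (Γ.V σ z) ≤ P) {x x' : V3}
    (h1 : (1 + 2 * P ^ 2) * ‖x' - x‖ ≤ η / 2) (h2 : exp (lam * (2 * P ^ 2 * ‖x' - x‖)) ≤ 2) :
    ‖(AA Γ η s x').indicator (Xi Γ s x') z - (AA Γ η s x).indicator (Xi Γ s x) z‖ₑ ≤
      mj Γ s (H1 C P N A lam s ‖x' - x‖ η) x z + mj Γ s (H2 C η s (2 * P ^ 2 * ‖x' - x‖)) x z
        + mj Γ s (H2 C η s (2 * P ^ 2 * ‖x' - x‖)) x' z := by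
  have hσ := ret_lip hK hR hs hq x x'
  by_cases hx : z ∈ AA Γ η s x <;> by_cases hx' : z ∈ AA Γ η s x'
  · rw [indicator_of_mem hx, indicator_of_mem hx', enorm_sub_rev]
    refine le_trans ?_ (le_self_add.trans le_self_add)
    rw [mj, indicator_of_mem hx.1, H1, indicator_of_mem (show _ ∈ Icc η s from ⟨hx.2, r_le hR hx.1⟩),
      ← ENNReal.ofReal_mul' (by positivity), ← ofReal_norm]
    exact ENNReal.ofReal_le_ofReal (Xi_sub hL hC hK hR hs hT hN hη hF hA hl hq h1 h2 hx hx'.1)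
  · rw [indicator_of_mem hx, indicator_of_notMem hx', zero_sub, enorm_neg]
    exact (only_le hL hC hR hs hT hN hη hq hσ hx hx').trans (le_add_self.trans le_self_add)
  · rw [indicator_of_notMem hx, indicator_of_mem hx', sub_zero]
    rw [abs_sub_comm] at hσ
    exact (only_le hL hC hR hs hT hN hη hq hσ hx' hx).trans le_add_self
  · rw [indicator_of_notMem hx, indicator_of_notMem hx', sub_zero, enorm_zero]
    exact zero_le

theorem integrable_Xi (hL : LH T P N C) (hC : 0 ≤ C) (hK : Γ.Kin) (hR : RetP Γ) (hs : 0 ≤ s)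
    (hT : s ≤ T) (hN : Sup Γ.K s N) (hη : 0 < η) (hS : ∀ᵐ z ∂Γ.μ, z ∈ Γ.S) (hP : Γ.Bd s P)
    (x : V3) : Integrable ((AA Γ η s x).indicator (Xi Γ s x)) Γ.μ := by
  have := hK.fin
  refine Integrable.of_bound ((meas_Xi hK hR s x).indicator (meas_AA hR η s x)).aestronglyMeasurable
    (C / η ^ 2) (hS.mono fun z hz => ?_)
  by_cases hx : z ∈ AA Γ η s x
  · rw [indicator_of_mem hx]
    refine (Xi_le hL hR hs hT hN hη (hP z hz) hx).trans ?_
    exact div_le_div_of_nonneg_left hC (by positivity) (pow_le_pow_left₀ hη.le hx.2 2)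
  · rw [indicator_of_notMem hx, norm_zero]
    positivity

/-- cone integrals of radial functions -/
theorem cone_rad (hp : Pol) (P M : ℝ) : ∃ D : ℝ, 0 ≤ D ∧ ∀ (Γ : PS) (s : ℝ), RetP Γ →
    (∀ᵐ z ∂Γ.μ, z ∈ Γ.S) → 0 ≤ s → Γ.Bd s P → Γ.Cone s M → ∀ (x : V3) (H : ℝ → ℝ≥0∞),
    Measurable H → ∫⁻ z, mj Γ s H x z ∂Γ.μ ≤ ENNReal.ofReal D * ∫⁻ r in Ioi 0, H r := by
  obtain ⟨c, -, hc, -⟩ := hp
  have hV : volume (Metric.closedBall (0 : V3) P) ≠ ∞ := measure_closedBall_lt_top.ne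
  have hD : ENNReal.ofReal M * (2 * (ENNReal.ofReal c * volume (Metric.closedBall (0 : V3) P)))
      ≠ ∞ := ENNReal.mul_ne_top ENNReal.ofReal_ne_top
        (ENNReal.mul_ne_top (by simp) (ENNReal.mul_ne_top ENNReal.ofReal_ne_top hV))
  refine ⟨_, ENNReal.toReal_nonneg (a := ENNReal.ofReal M *
    (2 * (ENNReal.ofReal c * volume (Metric.closedBall (0 : V3) P)))), ?_⟩
  intro Γ s hR hS hs hP hM x H hH
  rw [ENNReal.ofReal_toReal hD]
  have hF : Measurable fun w : V3 => H ‖w‖ * ENNReal.ofReal (1 / ‖w‖ ^ 2) :=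
    (hH.comp measurable_norm).mul
      (measurable_const.div (measurable_norm.pow_const 2)).ennreal_ofReal
  have hI : Measurable ((Metric.closedBall (0 : V3) P).indicator (1 : V3 → ℝ≥0∞)) :=
    measurable_one.indicator measurableSet_closedBall
  have hg : Measurable fun p : Z => (H ‖p.1‖ * ENNReal.ofReal (1 / ‖p.1‖ ^ 2)) *
      (Metric.closedBall (0 : V3) P).indicator (1 : V3 → ℝ≥0∞) p.2 :=
    (hF.comp measurable_fst).mul (hI.comp measurable_snd)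
  calc ∫⁻ z, mj Γ s H x z ∂Γ.μ
      = Γ.cI s x fun p : Z => (H ‖p.1‖ * ENNReal.ofReal (1 / ‖p.1‖ ^ 2)) *
          (Metric.closedBall (0 : V3) P).indicator (1 : V3 → ℝ≥0∞) p.2 := by
        rw [mj, lintegral_indicator (meas_act hR s x)]
        refine lintegral_congr_ae (ae_restrict_of_ae (hS.mono fun z hz => ?_))
        have h1 : (Γ.wv s x z).2 ∈ Metric.closedBall (0 : V3) P :=
          mem_closedBall_zero_iff.2 ((norm_le_q _).trans (hP z hz _ (ret_mem hR hs x z)))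
        simp only [indicator_of_mem h1, Pi.one_apply, mul_one]
    _ ≤ _ := hM x _ hg
    _ ≤ ENNReal.ofReal M * ∫⁻ p : Z, 2 * ((H ‖p.1‖ * ENNReal.ofReal (1 / ‖p.1‖ ^ 2)) *
          (Metric.closedBall (0 : V3) P).indicator (1 : V3 → ℝ≥0∞) p.2) := by
        refine mul_le_mul_right ((setLIntegral_le_lintegral _ _).trans
          (lintegral_mono fun p => ?_)) _
        rw [mul_comm 2]
        refine mul_le_mul_right ?_ _
        exact (ENNReal.ofReal_le_ofReal (b2_le_two p.1 p.2)).trans (by simp)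
    _ = _ := by
        rw [lintegral_const_mul _ hg, Measure.volume_eq_prod,
          lintegral_prod_mul hF.aemeasurable hI.aemeasurable, hc H hH,
          lintegral_indicator_one measurableSet_closedBall]
        ring

theorem lint_H2 {C η s d : ℝ} (hC : 0 ≤ C) (hd : 0 ≤ d) :
    ∫⁻ r in Ioi 0, H2 C η s d r ≤ ENNReal.ofReal (C * (2 * d)) := by
  refine (setLIntegral_le_lintegral _ _).trans ?_
  rw [H2, Sh, lintegral_indicator_const (measurableSet_Icc.union measurableSet_Icc),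
    ENNReal.ofReal_mul hC]
  refine mul_le_mul_right ((measure_union_le _ _).trans (le_of_eq ?_)) _
  rw [Real.volume_Icc, Real.volume_Icc, ← ENNReal.ofReal_add (by linarith) (by linarith)]
  congr 1
  ring

theorem lint_H1 {C P N A lam s h a T : ℝ} (hC : 0 ≤ C) (hN : 0 ≤ N) (hA : 0 ≤ A) (hl : 0 < lam)
    (hh : 0 ≤ h) (hT : s ≤ T) :
    ∫⁻ r in Ioi 0, H1 C P N A lam s h (exp (-a)) r ≤ ENNReal.ofReal (C * h *
      ((1 + 2 * P ^ 2) * (T + a) + 2 * N * (2 * P ^ 2) * T +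
        4 * (2 * P ^ 2) * (A * exp (lam * s) / lam))) := by
  refine (setLIntegral_le_lintegral _ _).trans ?_
  rw [H1, lintegral_indicator measurableSet_Icc]
  have hη := exp_pos (-a)
  rcases lt_or_ge s (exp (-a)) with hs | hs
  · rw [Icc_eq_empty (not_le.2 hs), Measure.restrict_empty, lintegral_zero_measure]
    exact zero_le
  have hpos : ∀ r ∈ Icc (exp (-a)) s, 0 < r := fun r hr => hη.trans_le hr.1
  have hc : ContinuousOn (g1 C P N A lam s h) (Icc (exp (-a)) s) := by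
    unfold g1
    exact continuousOn_const.mul (((continuousOn_const.mul
      (continuousOn_id.inv₀ fun r hr => (hpos r hr).ne')).add continuousOn_const).add
        (Continuous.continuousOn (by fun_prop)))
  have hd : ∀ r ∈ uIcc (exp (-a)) s, HasDerivAt (fun r => C * h * ((1 + 2 * P ^ 2) * log r +
      2 * N * (2 * P ^ 2) * r - 4 * (2 * P ^ 2) * (A * exp (lam * (s - r)) / lam)))
      (g1 C P N A lam s h r) r := by
    intro r hr
    rw [uIcc_of_le hs] at hr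
    have e1 := (hasDerivAt_log (hpos r hr).ne').const_mul (1 + 2 * P ^ 2)
    have e2 := (hasDerivAt_id r).const_mul (2 * N * (2 * P ^ 2))
    have e3 := ((((((hasDerivAt_id r).const_sub s).const_mul lam).exp).const_mul A).div_const
      lam).const_mul (4 * (2 * P ^ 2))
    refine (((e1.add e2).sub e3).const_mul (C * h)).congr_deriv ?_
    unfold g1
    simp only [id]
    field_simp
    ring
  rw [← ofReal_integral_eq_lintegral_ofReal (hc.integrableOn_Icc)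
    ((ae_restrict_iff' measurableSet_Icc).2 (Eventually.of_forall fun r hr => by
      have := hpos r hr
      simp only [g1, Pi.zero_apply]
      positivity)), integral_Icc_eq_integral_Ioc, ← intervalIntegral.integral_of_le hs,
    intervalIntegral.integral_eq_sub_of_hasDerivAt hd
      (ContinuousOn.intervalIntegrable (by rwa [uIcc_of_le hs])), ← mul_sub, log_exp]
  refine ENNReal.ofReal_le_ofReal (mul_le_mul_of_nonneg_left ?_ (by positivity))
  have t1 : log s ≤ T := by linarith [log_le_sub_one_of_pos (hη.trans_le hs)]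
  have t2 : (1 + 2 * P ^ 2) * log s ≤ (1 + 2 * P ^ 2) * T :=
    mul_le_mul_of_nonneg_left t1 (by positivity)
  have t3 : 2 * N * (2 * P ^ 2) * (s - exp (-a)) ≤ 2 * N * (2 * P ^ 2) * T :=
    mul_le_mul_of_nonneg_left (by linarith) (by positivity)
  have t4 : 0 ≤ 4 * (2 * P ^ 2) * (A * exp (lam * (s - s)) / lam) := by positivity
  have t5 : 4 * (2 * P ^ 2) * (A * exp (lam * (s - exp (-a))) / lam) ≤
      4 * (2 * P ^ 2) * (A * exp (lam * s) / lam) := by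
    have : lam * (s - exp (-a)) ≤ lam * s := mul_le_mul_of_nonneg_left (by linarith) hl.le
    gcongr
  linarith

theorem num {D C L N T a X h : ℝ} (hD : 0 ≤ D) (hC : 0 ≤ C) (hL : 0 ≤ L) (hN : 0 ≤ N)
    (hT : 0 ≤ T) (ha : 0 ≤ a) (hX : 0 ≤ X) (hh : 0 ≤ h) :
    D * (C * h * ((1 + L) * (T + a) + 2 * N * L * T + 4 * L * X) + C * (2 * (L * h))
      + C * (2 * (L * h))) ≤
    (1 + |D * C * ((1 + L) * (T + 1) + 2 * N * L * T + 4 * L)|) * (1 + a + X) * h := by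
  obtain ⟨K, hK⟩ : ∃ K, K = (1 + L) * (T + 1) + 2 * N * L * T + 4 * L := ⟨_, rfl⟩
  have p1 : 0 ≤ (1 + L) * T := by positivity
  have p2 : 0 ≤ 2 * N * L * T := by positivity
  have k1 : (1 + L) * T + 2 * N * L * T + 4 * L ≤ K := by rw [hK]; linarith
  have k2 : (1 + L) * a ≤ K * a := mul_le_mul_of_nonneg_right (by rw [hK]; linarith) ha
  have k3 : 4 * L * X ≤ K * X := mul_le_mul_of_nonneg_right (by rw [hK]; linarith) hX
  rw [← hK]
  calc _ = D * C * h * ((1 + L) * T + 2 * N * L * T + 4 * L + (1 + L) * a + 4 * L * X) := by ring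
    _ ≤ D * C * h * (K * (1 + a + X)) :=
        mul_le_mul_of_nonneg_left (by linarith) (by positivity)
    _ = D * C * K * ((1 + a + X) * h) := by ring
    _ ≤ (1 + |D * C * K|) * ((1 + a + X) * h) :=
        mul_le_mul_of_nonneg_right (by linarith [le_abs_self (D * C * K)]) (by positivity)
    _ = _ := by ring

end E1fX

open E1fX in
theorem e1f (hr : Ret1) (hp : Ph) (hq : Pol) (hl : LWL) : E1f := by
  intro T P N M
  obtain ⟨C, hC, hL⟩ := hl T P N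
  obtain ⟨D, hD, hcone⟩ := cone_rad hq P M
  refine ⟨1 + |D * C * ((1 + 2 * P ^ 2) * (T + 1) + 2 * N * (2 * P ^ 2) * T + 4 * (2 * P ^ 2))|,
    le_add_of_nonneg_right (abs_nonneg _), ?_⟩
  intro Γ s A lam a x hK hS hs hT hP hN hM hA hlam hF ha
  have hR := hr Γ hK
  have hη := exp_pos (-a)
  have hl0 : 0 < lam := by linarith
  have hN0 : 0 ≤ N := (norm_nonneg _).trans (hN 0 ⟨le_rfl, hs⟩ 0)
  have e1 : ∀ᶠ x' in 𝓝 x, (1 + 2 * P ^ 2) * ‖x' - x‖ ≤ exp (-a) / 2 := by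
    have hc : Continuous fun x' : V3 => (1 + 2 * P ^ 2) * ‖x' - x‖ := by fun_prop
    refine (hc.continuousAt.eventually_lt continuousAt_const ?_).mono fun _ h => h.le
    simpa using hη
  have e2 : ∀ᶠ x' in 𝓝 x, exp (lam * (2 * P ^ 2 * ‖x' - x‖)) ≤ 2 := by
    have hc : Continuous fun x' : V3 => exp (lam * (2 * P ^ 2 * ‖x' - x‖)) := by fun_prop
    refine (hc.continuousAt.eventually_lt continuousAt_const ?_).mono fun _ h => h.le
    simp
  filter_upwards [e1, e2] with x' h1 h2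
  have f : ∀ y, Γ.far (exp (-a)) s y =
      ∫ z, (AA Γ (exp (-a)) s y).indicator (Xi Γ s y) z ∂Γ.μ := fun y =>
    (integral_indicator (meas_AA hR _ s y)).symm
  rw [f, f, ← integral_sub (integrable_Xi hL hC.le hK hR hs hT hN hη hS hP x')
    (integrable_Xi hL hC.le hK hR hs hT hN hη hS hP x)]
  have hd : 0 ≤ 2 * P ^ 2 * ‖x' - x‖ := by positivity
  have hT0 : 0 ≤ T := hs.trans hT
  have b1 := (hcone Γ s hR hS hs hP hM x _ (meas_H1 C P N A lam s ‖x' - x‖ (exp (-a)))).trans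
    (mul_le_mul_right (lint_H1 hC.le hN0 hA hl0 (norm_nonneg _) hT) _)
  have b2 := fun y => (hcone Γ s hR hS hs hP hM y _
    (meas_H2 C (exp (-a)) s (2 * P ^ 2 * ‖x' - x‖))).trans (mul_le_mul_right (lint_H2 hC.le hd) _)
  have key := (enorm_integral_le_lintegral_enorm _).trans (lintegral_mono_ae
    (hS.mono fun z hz => point hL hC.le hK hR hs hT hN hη hF hA hl0.le (hP z hz) h1 h2))
  rw [lintegral_add_right _ (meas_mj hR s (meas_H2 _ _ _ _) x'),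
    lintegral_add_right _ (meas_mj hR s (meas_H2 _ _ _ _) x)] at key
  have key2 := key.trans (add_le_add (add_le_add b1 (b2 x)) (b2 x'))
  rw [← mul_add, ← mul_add, ← ENNReal.ofReal_add (by positivity) (by positivity),
    ← ENNReal.ofReal_add (by positivity) (by positivity), ← ENNReal.ofReal_mul hD, ← ofReal_norm,
    ENNReal.ofReal_le_ofReal_iff (by positivity)] at key2
  exact key2.trans (num hD hC.le (by positivity) hN0 hT0 ha (by positivity) (norm_nonneg _))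

end Vale.Agent.P107
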