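import Vale.Agent.P107.Basic2

/-! Problem P107, part II: energy bounds for fixed points of the field map. -/

open MeasureTheory Set Filter Topology
open scoped ENNReal RealInnerProductSpace ContDiff

noncomputable section
namespace Vale.Agent.P107

namespace EnSX

theorem slice_int {H : ℝ × V3 → ℝ} (hH : Continuous H) {σ R : ℝ}
    (h0 : ∀ y, R < ‖y‖ → H (σ, y) = 0) : Integrable (fun y => H (σ, y)) := by
  refine (hH.comp (Continuous.prodMk_right σ)).integrable_of_hasCompactSupport ?_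
  refine HasCompactSupport.intro (isCompact_closedBall (0 : V3) R) fun y hy => ?_
  exact h0 y (by simpa using hy)

theorem time_int {H : ℝ × V3 → ℝ} (hH : Continuous H) {t R : ℝ} (ht : 0 ≤ t)
    (h0 : ∀ σ ∈ Icc (0 : ℝ) t, ∀ y, R < ‖y‖ → H (σ, y) = 0) :
    IntervalIntegrable (fun σ => ∫ y, H (σ, y)) volume 0 t := by
  have hc : Continuous (fun σ : ℝ => ∫ y in Metric.closedBall (0 : V3) R, H (σ, y)) :=
    continuous_parametric_integral_of_continuous (f := fun σ y => H (σ, y)) hH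
      (isCompact_closedBall (0 : V3) R)
  refine ContinuousOn.intervalIntegrable ?_
  rw [uIcc_of_le ht]
  refine hc.continuousOn.congr fun σ hσ => ?_
  refine (setIntegral_eq_integral_of_forall_compl_eq_zero fun y hy => ?_).symm
  exact h0 σ hσ y (by simpa using hy)

theorem dD_zero {ψ : ℝ × V3 → ℝ} {t R : ℝ}
    (h : ∀ σ ∈ Icc (-1 : ℝ) (t + 1), ∀ y, R ≤ ‖y‖ → ψ (σ, y) = 0) (v : ℝ × V3) {σ : ℝ}
    (hσ : σ ∈ Icc (0 : ℝ) t) {y : V3} (hy : R < ‖y‖) : dD v ψ (σ, y) = 0 := by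
  have : ψ =ᶠ[𝓝 (σ, y)] fun _ => 0 := by
    have a1 : (-1 : ℝ) < ((σ, y) : ℝ × V3).1 := by simp; linarith [hσ.1]
    have a2 : ((σ, y) : ℝ × V3).1 < t + 1 := by simp; linarith [hσ.2]
    filter_upwards [(isOpen_lt continuous_const continuous_fst).mem_nhds a1,
      (isOpen_lt continuous_fst continuous_const).mem_nhds a2,
      (isOpen_lt continuous_const continuous_snd.norm).mem_nhds
        (show R < ‖((σ, y) : ℝ × V3).2‖ from hy)] with r h1 h2 h3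
    exact h r.1 ⟨le_of_lt h1, le_of_lt h2⟩ r.2 (le_of_lt h3)
  unfold dD; rw [this.fderiv_eq]; simp

theorem cons_add {e₁ e₂ g₁ g₂ : ℝ → V3 → ℝ} {S₁ S₂ : ℝ → V3 → V3} {T : ℝ}
    (ce₁ : Continuous (fun p : ℝ × V3 => e₁ p.1 p.2))
    (ce₂ : Continuous (fun p : ℝ × V3 => e₂ p.1 p.2))
    (cg₁ : Continuous (fun p : ℝ × V3 => g₁ p.1 p.2))
    (cg₂ : Continuous (fun p : ℝ × V3 => g₂ p.1 p.2))
    (cS₁ : Continuous (fun p : ℝ × V3 => S₁ p.1 p.2))
    (cS₂ : Continuous (fun p : ℝ × V3 => S₂ p.1 p.2))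
    (h₁ : Cons e₁ S₁ g₁ T) (h₂ : Cons e₂ S₂ g₂ T)
    (hg : ∀ t ∈ Icc (0 : ℝ) T, ∀ y, g₁ t y + g₂ t y = 0) :
    Cons (fun t y => e₁ t y + e₂ t y) (fun t y => S₁ t y + S₂ t y) (fun _ _ => 0) T := by
  intro ψ R hψ t ht hs
  have cψ : Continuous ψ := hψ.continuous
  have cdt : Continuous (dt ψ) := continuous_dD hψ _
  have cgx : Continuous (gx ψ) := continuous_gx hψ
  have k₁ := h₁ ψ R hψ t ht hs
  have k₂ := h₂ ψ R hψ t ht hs
  have z0 : ∀ σ ∈ Icc (0 : ℝ) t, ∀ y, R < ‖y‖ → ψ (σ, y) = 0 := fun σ hσ y hy =>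
    hs σ ⟨by linarith [hσ.1], by linarith [hσ.2]⟩ y hy.le
  have z1 : ∀ σ ∈ Icc (0 : ℝ) t, ∀ y, R < ‖y‖ → dt ψ (σ, y) = 0 := fun σ hσ y hy =>
    dD_zero hs _ hσ hy
  have z2 : ∀ σ ∈ Icc (0 : ℝ) t, ∀ y, R < ‖y‖ → gx ψ (σ, y) = 0 := fun σ hσ y hy => by
    rw [gx_eq_sum]
    exact Finset.sum_eq_zero fun j _ => by
      rw [show dx j ψ (σ, y) = 0 from dD_zero hs _ hσ hy, zero_smul]
  have ie : ∀ e : ℝ → V3 → ℝ, Continuous (fun p : ℝ × V3 => e p.1 p.2) →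
      ∀ σ ∈ Icc (0 : ℝ) t, Integrable (fun y => e σ y * ψ (σ, y)) := fun e ce σ hσ =>
    slice_int (H := fun p => e p.1 p.2 * ψ p) (ce.mul cψ) (R := R) fun y hy => by
      simp [z0 σ hσ y hy]
  have cH : ∀ (e g : ℝ → V3 → ℝ) (S : ℝ → V3 → V3), Continuous (fun p : ℝ × V3 => e p.1 p.2) →
      Continuous (fun p : ℝ × V3 => g p.1 p.2) → Continuous (fun p : ℝ × V3 => S p.1 p.2) →
      Continuous (fun p : ℝ × V3 => e p.1 p.2 * dt ψ p + ⟪S p.1 p.2, gx ψ p⟫ + g p.1 p.2 * ψ p) :=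
    fun e g S ce cg cS => ((ce.mul cdt).add (cS.inner cgx)).add (cg.mul cψ)
  have zH : ∀ (e g : ℝ → V3 → ℝ) (S : ℝ → V3 → V3), ∀ σ ∈ Icc (0 : ℝ) t, ∀ y, R < ‖y‖ →
      e σ y * dt ψ (σ, y) + ⟪S σ y, gx ψ (σ, y)⟫ + g σ y * ψ (σ, y) = 0 :=
    fun e g S σ hσ y hy => by simp [z0 σ hσ y hy, z1 σ hσ y hy, z2 σ hσ y hy]
  have t0 : (0 : ℝ) ∈ Icc (0 : ℝ) t := ⟨le_rfl, ht.1⟩
  have tt : t ∈ Icc (0 : ℝ) t := ⟨ht.1, le_rfl⟩
  have I₁ := time_int (cH e₁ g₁ S₁ ce₁ cg₁ cS₁) ht.1 (zH e₁ g₁ S₁)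
  have I₂ := time_int (cH e₂ g₂ S₂ ce₂ cg₂ cS₂) ht.1 (zH e₂ g₂ S₂)
  have key : ∫ σ in (0 : ℝ)..t, ∫ y, ((e₁ σ y + e₂ σ y) * dt ψ (σ, y)
      + ⟪S₁ σ y + S₂ σ y, gx ψ (σ, y)⟫ + 0 * ψ (σ, y)) =
      (∫ σ in (0 : ℝ)..t, ∫ y, (e₁ σ y * dt ψ (σ, y) + ⟪S₁ σ y, gx ψ (σ, y)⟫
        + g₁ σ y * ψ (σ, y))) +
      ∫ σ in (0 : ℝ)..t, ∫ y, (e₂ σ y * dt ψ (σ, y) + ⟪S₂ σ y, gx ψ (σ, y)⟫
        + g₂ σ y * ψ (σ, y)) := by
    rw [← intervalIntegral.integral_add I₁ I₂]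
    refine intervalIntegral.integral_congr fun σ hσ => ?_
    rw [uIcc_of_le ht.1] at hσ
    have J₁ := slice_int (cH e₁ g₁ S₁ ce₁ cg₁ cS₁) (zH e₁ g₁ S₁ σ hσ)
    have J₂ := slice_int (cH e₂ g₂ S₂ ce₂ cg₂ cS₂) (zH e₂ g₂ S₂ σ hσ)
    simp only
    rw [← integral_add J₁ J₂]
    refine integral_congr_ae (Eventually.of_forall fun y => ?_)
    have := hg σ ⟨hσ.1, hσ.2.trans ht.2⟩ y
    simp only [inner_add_left]
    linear_combination (-ψ (σ, y)) * this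
  simp only
  rw [key, ← k₁, ← k₂]
  simp only [add_mul]
  rw [integral_add (ie e₁ ce₁ t tt) (ie e₂ ce₂ t tt), integral_add (ie e₁ ce₁ 0 t0) (ie e₂ ce₂ 0 t0)]
  ring

theorem norm_SK_le (K : ℝ → V3 → Z) (t : ℝ) (y : V3) : ‖SK K t y‖ ≤ eK K t y := by
  unfold SK eK
  have := norm_cross_le (K t y).1 (K t y).2
  nlinarith [sq_nonneg (‖(K t y).1‖ - ‖(K t y).2‖)]

theorem inner_hat_le (S w : V3) : ⟪S, hat w⟫ ≤ ‖S‖ := by
  have := real_inner_le_norm S (hat w)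
  have := norm_hat_le w
  nlinarith [norm_nonneg S]

theorem init_int {f₀ : Z → ℝ} {E₀ B₀ : V3 → V3} (h : Datum f₀ E₀ B₀) :
    Integrable (fun y => (‖E₀ y‖ ^ 2 + ‖B₀ y‖ ^ 2) / 2 + ∫ v, f₀ (y, v) * q v) := by
  have a := (memLp_two_iff_integrable_sq_norm h.E_L2.aestronglyMeasurable).1 h.E_L2
  have b := (memLp_two_iff_integrable_sq_norm h.B_L2.aestronglyMeasurable).1 h.B_L2
  have c : Integrable (fun z : Z => f₀ z * q z.2) ((volume : Measure V3).prod volume) := by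
    rw [← Measure.volume_eq_prod]
    refine Continuous.integrable_of_hasCompactSupport ?_ h.f_compact.mul_right
    exact h.f_smooth.continuous.mul (continuous_q.comp continuous_snd)
  exact ((a.add b).div_const 2).add c.integral_prod_left

end EnSX

open EnSX in
theorem enS (hd : DenS) (hl : VlS) (hq : VlQ) (hh : HDr) (hm : MaxS) (h1 : N1) (h2 : N2)
    (ht : TL) (hc : CF) : EnS := by
  intro f₀ E₀ B₀ hD
  obtain ⟨M, -, hM⟩ := (hq f₀ E₀ B₀ hD).1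
  set e₀ : V3 → ℝ := fun y => (‖E₀ y‖ ^ 2 + ‖B₀ y‖ ^ 2) / 2 + ∫ v, f₀ (y, v) * q v with he₀
  have hfin : ∫⁻ y, ENNReal.ofReal (e₀ y) ≠ ⊤ := (init_int hD).lintegral_lt_top.ne
  set a : ℝ := (∫⁻ y, ENNReal.ofReal (e₀ y)).toReal with ha
  have ha0 : 0 ≤ a := ENNReal.toReal_nonneg
  have hea : ∫⁻ y, ENNReal.ofReal (e₀ y) = ENNReal.ofReal a := (ENNReal.ofReal_toReal hfin).symm
  refine ⟨2 * a + 1, by linarith, fun F T hF hfix s hs => ?_⟩
  have vl := (hl f₀ E₀ B₀ hD F hF).1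
  obtain ⟨den, ceP, cSP, hP⟩ := hd (ff f₀ F) vl.reg vl.spa
  replace hP := hP fun t z => (hM F t z).1
  obtain ⟨-, rK, hK0⟩ := (hh f₀ E₀ B₀ hD).2.2.2 F hF
  set f := ff f₀ F with hf
  set K := TT f₀ E₀ B₀ F with hK
  have cK := rK.cont
  have cF := hF.cont
  have ceK : Continuous (fun p : ℝ × V3 => eK K p.1 p.2) := by
    unfold eK
    exact ((cK.fst.norm.pow 2).add (cK.snd.norm.pow 2)).div_const 2
  have cSK : Continuous (fun p : ℝ × V3 => SK K p.1 p.2) := by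
    unfold SK
    exact Continuous.cross' cK.fst cK.snd
  have C1 := h1 f K den rK (hm f₀ E₀ B₀ hD F hF) T
  have C2 := h2 f₀ E₀ B₀ hD F hF T
  have C := cons_add ceK ceP (den.ccur.inner cK.fst).neg (den.ccur.inner cF.fst) cSK cSP C1 C2
    (fun t ht y => by rw [hfix t ht]; simp [hf, hK])
  have ce := ceK.add ceP
  have cS := cSK.add cSP
  have hS : ∀ t y, ‖SK K t y + SP f t y‖ ≤ eK K t y + eP f t y := fun t y =>
    norm_add_le_of_le (norm_SK_le K t y) (hP t y).1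
  have e0 : ∀ y, eK K 0 y + eP f 0 y = e₀ y := fun y => by
    simp only [eK, eP, he₀, hK0 0 le_rfl, vl.init, K0, hf]
  have eK0 : ∀ t y, 0 ≤ eK K t y := fun t y => (norm_nonneg _).trans (norm_SK_le K t y)
  have eP0 : ∀ t y, 0 ≤ eP f t y := fun t y => (norm_nonneg _).trans (hP t y).1
  have A1 : ∫⁻ y, ENNReal.ofReal (eK K s y + eP f s y) ≤ ENNReal.ofReal a := by
    have := ht _ _ (fun _ _ => 0) T (-2 - T) ce cS continuous_const hS C
      (fun t _ y h => (h rfl).elim) s hs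
    have u1 : {y : V3 | -2 - T + 2 + s ≤ q y} = univ :=
      eq_univ_of_forall fun y => by
        have := one_le_q y; have := hs.2
        simp only [mem_setOf_eq]; linarith
    have u2 : {y : V3 | -2 - T + 1 ≤ q y} = univ :=
      eq_univ_of_forall fun y => by
        have := one_le_q y; have := hs.2; have := hs.1
        simp only [mem_setOf_eq]; linarith
    rw [u1, u2, Measure.restrict_univ] at this
    simp only [e0] at this
    rwa [hea] at this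
  have A2 : ∀ x, ∫⁻ w in Metric.ball (0 : V3) s,
      ENNReal.ofReal (eK K (s - ‖w‖) (x - w) + eP f (s - ‖w‖) (x - w) -
        ⟪SK K (s - ‖w‖) (x - w) + SP f (s - ‖w‖) (x - w), hat w⟫) ≤ ENNReal.ofReal a := by
    intro x
    have := hc _ _ T ce cS hS C s hs x
    simp only [e0] at this
    rwa [hea] at this
  have le1 : ENNReal.ofReal a ≤ ENNReal.ofReal (2 * a + 1) :=
    ENNReal.ofReal_le_ofReal (by linarith)
  have le2 : 2 * ENNReal.ofReal a ≤ ENNReal.ofReal (2 * a + 1) := by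
    rw [show (2 : ℝ≥0∞) = ENNReal.ofReal 2 by simp, ← ENNReal.ofReal_mul (by norm_num)]
    exact ENNReal.ofReal_le_ofReal (by linarith)
  have two : ∀ u v : ℝ, u ≤ 2 * v → ENNReal.ofReal u ≤ 2 * ENNReal.ofReal v := fun u v h => by
    rw [show (2 : ℝ≥0∞) = ENNReal.ofReal 2 by simp, ← ENNReal.ofReal_mul (by norm_num)]
    exact ENNReal.ofReal_le_ofReal h
  refine ⟨?_, ?_, fun x => ⟨?_, ?_⟩⟩
  · refine le_trans (lintegral_mono fun y => ENNReal.ofReal_le_ofReal ?_) (A1.trans le1)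
    linarith [eK0 s y]
  · refine le_trans ?_ ((mul_le_mul_right A1 2).trans le2)
    rw [← lintegral_const_mul' _ _ (by simp)]
    refine lintegral_mono fun y => two _ _ ?_
    rw [hfix s hs]
    have := eP0 s y
    unfold eK
    nlinarith [sq_nonneg ‖(K s y).1‖]
  · refine le_trans ?_ ((mul_le_mul_right (A2 x) 2).trans le2)
    rw [← lintegral_const_mul' _ _ (by simp)]
    have hne : ∀ᵐ w ∂(volume.restrict (Metric.ball (0 : V3) s)), w ≠ 0 :=
      ae_restrict_of_ae (by simp [ae_iff])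
    refine lintegral_mono_ae ?_
    filter_upwards [hne, ae_restrict_mem Metric.isOpen_ball.measurableSet] with w hw hb
    refine two _ _ ?_
    have hb' : ‖w‖ < s := by simpa using hb
    rw [hfix (s - ‖w‖) ⟨by linarith, by linarith [norm_nonneg w, hs.2]⟩, Kg_sq_unit (norm_hat hw),
      inner_add_left]
    have := (inner_hat_le _ w).trans (hP (s - ‖w‖) (x - w)).1
    unfold eK SK
    linarith
  · refine le_trans (lintegral_mono fun w => ENNReal.ofReal_le_ofReal ?_) ((A2 x).trans le1)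
    rw [← (hP (s - ‖w‖) (x - w)).2 w, inner_add_left]
    have := (inner_hat_le _ w).trans (norm_SK_le K (s - ‖w‖) (x - w))
    linarith

end Vale.Agent.P107
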