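import Vale.Agent.P107.Basic2

/-! Problem P107: uniform bounds for the iteration. -/

open MeasureTheory Set Filter Topology Real

noncomputable section
namespace Vale.Agent.P107

namespace FP1X

variable {f₀ : Z → ℝ} {E₀ B₀ : V3 → V3} {n : ℕ → ℝ} {Cl : ℝ → Z → Z}

theorem b3_zero {a b c : ℝ} (ha : 0 ≤ a) (hb : 0 ≤ b) (hc : 0 ≤ c) :
    B3 (fun _ : V3 => (0 : Z)) a b c :=
  (B3.const (0 : Z)).mono (by rwa [norm_zero]) hb hc

theorem reg_it (hc : ClC) (hh : HDr) (hD : Datum f₀ E₀ B₀) (hCl : ClP n Cl) (m : ℕ) :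
    Reg (It f₀ E₀ B₀ Cl m) := by
  induction m with
  | zero => exact ⟨continuous_const, fun _ => ⟨0, fun _ _ => b3_zero le_rfl le_rfl le_rfl⟩⟩
  | succ m ih => exact ((hh _ _ _ hD).2.2.2 _ ((hc n Cl hCl).1 _ ih)).2.1

theorem abs_le_of {t T : ℝ} (ht : t ∈ Icc (0 : ℝ) T) : |t| ≤ T := by
  rw [abs_of_nonneg ht.1]
  exact ht.2

/-- the uniform bound for the first derivatives -/
theorem first (hc : ClC) (hq : VlQ) (hh : HDr) (h1 : E1) (ht : E1t) (hD : Datum f₀ E₀ B₀)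
    (hCl : ClP n Cl) (T : ℝ) : ∃ b : ℝ, 0 ≤ b ∧ ∀ m, ∀ t ∈ Icc (0 : ℝ) T, ∀ x,
      ‖fderiv ℝ (It f₀ E₀ B₀ Cl m t) x‖ ≤ b := by
  obtain ⟨c, c1, cB, cS, -⟩ := (hc n Cl hCl).2 T
  have rI := reg_it hc hh hD hCl
  have rF : ∀ m, Reg (clF Cl (It f₀ E₀ B₀ Cl m)) := fun m => (hc n Cl hCl).1 _ (rI m)
  have sF : ∀ m, Sup (clF Cl (It f₀ E₀ B₀ Cl m)) T c := fun m t ht y => by
    obtain ⟨C, hC⟩ := (rI m).bd T
    exact (cB _ t _ _ _ (abs_le_of ht) (hC t (abs_le_of ht))).b0 y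
  obtain ⟨R, hR⟩ := (hq _ _ _ hD).2.1 T c
  obtain ⟨C₁, p1, e1⟩ := h1 _ _ _ hD T c
  obtain ⟨C₂, p2, e2⟩ := ht _ _ _ hD R
  obtain ⟨A₀, hA₀⟩ : ∃ A₀, A₀ = 2 * (C₂ * (1 + C₁)) := ⟨_, rfl⟩
  have q12 : 1 ≤ C₂ * (1 + C₁) := one_le_mul_of_one_le_of_one_le p2 (by linarith)
  have A1 : 1 ≤ A₀ := by linarith
  obtain ⟨A, hA⟩ : ∃ A, A = c * (1 + A₀) := ⟨_, rfl⟩
  have A0 : 0 ≤ A := by rw [hA]; positivity
  obtain ⟨lam, hlam⟩ : ∃ lam, lam = 1 + 2 * (C₂ * C₁ * A) := ⟨_, rfl⟩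
  have k0 : 0 ≤ C₂ * C₁ * A := by positivity
  have l1 : 1 ≤ lam := by linarith
  have l0 : 0 < lam := by linarith
  have mono : ∀ σ t : ℝ, σ ≤ t → C₁ * (1 + A * exp (lam * σ) / lam) ≤
      C₁ * (1 + A * exp (lam * t) / lam) := fun σ t h => by gcongr
  have der : ∀ m, STL (It f₀ E₀ B₀ Cl m) T A₀ lam → ∀ t ∈ Icc (0 : ℝ) T, ∀ x,
      ‖fderiv ℝ (It f₀ E₀ B₀ Cl (m + 1) t) x‖ ≤ C₁ * (1 + A * exp (lam * t) / lam) :=
    fun m ih => e1 _ A lam (rF m) (sF m) A0 l1 (hA ▸ cS _ _ _ (by linarith) l0.le ih)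
  have stl : ∀ m, STL (It f₀ E₀ B₀ Cl m) T A₀ lam := by
    intro m
    induction m with
    | zero =>
      intro t t' _ _ _ y y'
      change ‖(0 : Z) - 0‖ ≤ _
      rw [sub_zero, norm_zero]
      positivity
    | succ m ih =>
      intro t t' h0 h1 h2 y y'
      have t0 : 0 ≤ t := h0.trans h1
      refine (e2 _ t (C₁ * (1 + A * exp (lam * t) / lam)) (rF m) (by positivity)
        ((hR _ (rF m) (sF m)).1.mono h2)
        (fun σ hσ x => (der m ih σ ⟨hσ.1, hσ.2.trans h2⟩ x).trans (mono σ t hσ.2))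
        t' ⟨h0, h1⟩ y y').trans (mul_le_mul_of_nonneg_right ?_ (by positivity))
      have ex : 1 ≤ exp (lam * t) := one_le_exp (by positivity)
      have hk : C₂ * C₁ * A / lam ≤ 1 / 2 := by
        rw [div_le_iff₀ l0]
        linarith
      have e : C₂ * (1 + C₁ * (1 + A * exp (lam * t) / lam)) =
          C₂ * (1 + C₁) + C₂ * C₁ * A / lam * exp (lam * t) := by ring
      have f1 : C₂ * (1 + C₁) ≤ C₂ * (1 + C₁) * exp (lam * t) :=
        le_mul_of_one_le_right (by linarith) ex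
      have f2 : C₂ * C₁ * A / lam * exp (lam * t) ≤ C₂ * (1 + C₁) * exp (lam * t) :=
        mul_le_mul_of_nonneg_right (by linarith) (by positivity)
      rw [e, hA₀]
      linarith
  refine ⟨C₁ * (1 + A * exp (lam * T) / lam), by positivity, fun m t ht x => ?_⟩
  cases m with
  | zero => exact (b3_zero le_rfl (by positivity) le_rfl).b1 x
  | succ m => exact (der m (stl m) t ht x).trans (mono t T ht.2)

theorem second (hc : ClC) (hq : VlQ) (hh : HDr) (h1 : E1) (ht : E1t) (h2 : E2)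
    (hD : Datum f₀ E₀ B₀) (hCl : ClP n Cl) (T : ℝ) :
    ∃ C : ℝ, ∀ m, ∀ t ∈ Icc (0 : ℝ) T, B3 (It f₀ E₀ B₀ Cl m t) C C C := by
  obtain ⟨b, b0, hb⟩ := first hc hq hh h1 ht hD hCl T
  obtain ⟨c, c1, cB, -, -⟩ := (hc n Cl hCl).2 T
  have rI := reg_it hc hh hD hCl
  obtain ⟨C, p, e⟩ := h2 _ _ _ hD T (c * (1 + b))
  obtain ⟨A, hA⟩ : ∃ A, A = c * (b ^ 2 + 2 * C) := ⟨_, rfl⟩
  have A0 : 0 ≤ A := by rw [hA]; positivity
  obtain ⟨lam, hlam⟩ : ∃ lam, lam = 1 + A := ⟨_, rfl⟩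
  have l1 : 1 ≤ lam := by linarith
  have l0 : 0 < lam := by linarith
  have ex : ∀ t ∈ Icc (0 : ℝ) T, 1 ≤ exp (lam * t) := fun t ht =>
    one_le_exp (mul_nonneg l0.le ht.1)
  have key : ∀ m, ∀ t ∈ Icc (0 : ℝ) T,
      B3 (It f₀ E₀ B₀ Cl m t) C b (2 * C * exp (lam * t)) := by
    intro m
    induction m with
    | zero => exact fun t _ => b3_zero (by linarith) b0 (by positivity)
    | succ m ih =>
      intro s hs
      have H := e _ A lam ((hc n Cl hCl).1 _ (rI m)) A0 l1 (fun t ht =>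
        (cB _ t _ _ _ (abs_le_of ht) (ih t ht)).mono (by nlinarith) (by nlinarith) (by
          rw [hA, mul_assoc c]
          refine mul_le_mul_of_nonneg_left ?_ (by linarith)
          have := le_mul_of_one_le_right (sq_nonneg b) (ex t ht)
          linarith)) s hs
      refine ⟨H.diff, H.b0, hb (m + 1) s hs, fun x y => (H.b2 x y).trans
        (mul_le_mul_of_nonneg_right ?_ (norm_nonneg _))⟩
      have hk : A * exp (lam * s) / lam ≤ exp (lam * s) := by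
        rw [div_le_iff₀ l0, mul_comm]
        exact mul_le_mul_of_nonneg_left (by linarith) (by positivity)
      have f1 : 1 + A * exp (lam * s) / lam ≤ 2 * exp (lam * s) := by linarith [ex s hs]
      have := mul_le_mul_of_nonneg_left f1 (by linarith : 0 ≤ C)
      linarith
  refine ⟨C + b + 2 * C * exp (lam * T), fun m t ht => ?_⟩
  have f0 : 0 ≤ 2 * C * exp (lam * T) := by positivity
  have f1 : 2 * C * exp (lam * t) ≤ 2 * C * exp (lam * T) := by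
    have := ht.2
    gcongr
  exact (key m t ht).mono (by linarith) (by linarith) (by linarith)

end FP1X

theorem fP1 (hc : ClC) (hq : VlQ) (hh : HDr) (h0 : E0) (h1 : E1) (ht : E1t) (h2 : E2) : FP1 := by
  intro f₀ E₀ B₀ hD n Cl hCl
  have _ := h0
  have rI := FP1X.reg_it hc hh hD hCl
  refine ⟨rI, fun T => ?_⟩
  obtain ⟨C, hC⟩ := FP1X.second hc hq hh h1 ht h2 hD hCl T
  refine ⟨C, fun m t hT => ?_⟩
  rcases le_total 0 t with t0 | t0
  · exact hC m t ⟨t0, (le_abs_self t).trans hT⟩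
  · have H := hC m 0 ⟨le_rfl, (abs_nonneg t).trans hT⟩
    cases m with
    | zero => exact H
    | succ m =>
      have e := ((hh _ _ _ hD).2.2.2 _ ((hc n Cl hCl).1 _ (rI m))).2.2
      change B3 (TT f₀ E₀ B₀ _ 0) C C C at H
      change B3 (TT f₀ E₀ B₀ _ t) C C C
      rw [e 0 le_rfl] at H
      rwa [e t t0]

end Vale.Agent.P107
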