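import Vale.Agent.P107.Basic2

/-! Problem P107: convergence of the iteration. -/

open MeasureTheory Set Filter Topology Real

noncomputable section
namespace Vale.Agent.P107

namespace FP2X

theorem contract (hc : ClC) (hs : ESt) {f₀ : Z → ℝ} {E₀ B₀ : V3 → V3} (hD : Datum f₀ E₀ B₀)
    {n : ℕ → ℝ} {Cl : ℝ → Z → Z} (hCl : ClP n Cl) (T C : ℝ) :
    ∃ lam : ℝ, 1 ≤ lam ∧ ∀ (K K' : ℝ → V3 → Z) (A : ℝ), Reg K → Reg K' → 0 ≤ A →
      (∀ t, |t| ≤ T → B3 (K t) C C C) →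
      (∀ t ∈ Icc (0 : ℝ) T, ∀ y, ‖K t y - K' t y‖ ≤ A * exp (lam * t)) →
      ∀ s ∈ Icc (0 : ℝ) T, ∀ x, ‖TT f₀ E₀ B₀ (clF Cl K) s x - TT f₀ E₀ B₀ (clF Cl K') s x‖ ≤
        A / 2 * exp (lam * s) := by
  obtain ⟨hR, hq⟩ := hc n Cl hCl
  obtain ⟨c, hc1, h1, -, h3⟩ := hq T
  obtain ⟨d, hd1, hd⟩ := hs f₀ E₀ B₀ hD T (max c (max (c * C) (c * (C ^ 2 + C))))
  have hl : 1 ≤ 2 * d * c := by nlinarith
  refine ⟨2 * d * c, hl, fun K K' A hK hK' hA hB hE s hs x => ?_⟩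
  have ab : ∀ t ∈ Icc (0 : ℝ) T, |t| ≤ T := fun t ht => by rw [abs_of_nonneg ht.1]; exact ht.2
  have := hd (clF Cl K) (clF Cl K') (c * A) (2 * d * c) (hR K hK) (hR K' hK') (by positivity) hl
    (fun t ht => (h1 K t C C C (ab t ht) (hB t (ab t ht))).mono (le_max_left _ _) (by simp)
      (by simp))
    (fun t ht y => by
      obtain ⟨C', hC'⟩ := hK'.bd T
      exact ((h1 K' t _ _ _ (ab t ht) (hC' t (ab t ht))).b0 y).trans (le_max_left _ _))
    (fun t ht y => (h3 K K' t y (ab t ht)).trans (by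
      rw [mul_assoc]; exact mul_le_mul_of_nonneg_left (hE t ht y) (by linarith))) s hs x
  refine this.trans (le_of_eq ?_)
  field_simp

theorem geom (hc : ClC) (hh : HDr) (hs : ESt) (h1 : FP1) {f₀ : Z → ℝ} {E₀ B₀ : V3 → V3}
    (hD : Datum f₀ E₀ B₀) {n : ℕ → ℝ} {Cl : ℝ → Z → Z} (hCl : ClP n Cl) (T : ℝ) :
    ∃ D : ℝ, 0 ≤ D ∧ ∀ t, |t| ≤ T → ∀ x m,
      dist (It f₀ E₀ B₀ Cl m t x) (It f₀ E₀ B₀ Cl (m + 1) t x) ≤ D / 2 / 2 ^ m := by
  obtain ⟨hR, hB⟩ := h1 f₀ E₀ B₀ hD n Cl hCl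
  obtain ⟨C₀, hC₀⟩ := hB T
  have hC : ∀ m t, |t| ≤ T → B3 (It f₀ E₀ B₀ Cl m t) |C₀| |C₀| |C₀| := fun m t ht =>
    (hC₀ m t ht).mono (le_abs_self _) (le_abs_self _) (le_abs_self _)
  have hC0 := abs_nonneg C₀
  generalize |C₀| = C at hC hC0
  obtain ⟨lam, hl, hk⟩ := contract hc hs hD hCl T C
  have base : ∀ t, |t| ≤ T → ∀ x m,
      ‖It f₀ E₀ B₀ Cl m t x - It f₀ E₀ B₀ Cl (m + 1) t x‖ ≤ 2 * C := fun t ht x m =>
    (norm_sub_le_of_le ((hC m t ht).b0 x) ((hC (m + 1) t ht).b0 x)).trans (by linarith)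
  have ind : ∀ m : ℕ, ∀ t ∈ Icc (0 : ℝ) T, ∀ x,
      ‖It f₀ E₀ B₀ Cl m t x - It f₀ E₀ B₀ Cl (m + 1) t x‖ ≤ 2 * C / 2 ^ m * exp (lam * t) := by
    intro m
    induction m with
    | zero =>
      intro t ht x
      have e1 : 1 ≤ exp (lam * t) := one_le_exp (mul_nonneg (by linarith) ht.1)
      have := base t (by rw [abs_of_nonneg ht.1]; exact ht.2) x 0
      rw [pow_zero, div_one]
      nlinarith
    | succ m ih =>
      intro t ht x
      refine (hk _ _ _ (hR m) (hR (m + 1)) (by positivity) (hC m) ih t ht x).trans (le_of_eq ?_)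
      rw [pow_succ, div_div]
  refine ⟨4 * C * exp (lam * T), by positivity, fun t ht x m => ?_⟩
  have hT : 0 ≤ T := (abs_nonneg _).trans ht
  rw [dist_eq_norm]
  rcases le_total 0 t with h0 | h0
  · have ht' := (le_abs_self _).trans ht
    refine (ind m t ⟨h0, ht'⟩ x).trans ?_
    have e1 : exp (lam * t) ≤ exp (lam * T) := exp_le_exp.2 (by nlinarith)
    calc _ ≤ 2 * C / 2 ^ m * exp (lam * T) := by gcongr
      _ = _ := by ring
  · cases m with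
    | zero =>
      have e1 : 1 ≤ exp (lam * T) := one_le_exp (mul_nonneg (by linarith) hT)
      have := base t ht x 0
      rw [pow_zero, div_one]
      nlinarith
    | succ m =>
      have e : ∀ k, It f₀ E₀ B₀ Cl (k + 1) t = K0 E₀ B₀ := fun k =>
        ((hh f₀ E₀ B₀ hD).2.2.2 _ ((hc n Cl hCl).1 _ (hR k))).2.2 t h0
      rw [e, e, sub_self, norm_zero]
      positivity

end FP2X

open FP2X in
theorem fP2 (hl : Lim) (hc : ClC) (hh : HDr) (hs : ESt) (h1 : FP1) : FP2 := by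
  intro f₀ E₀ B₀ hD n Cl hCl
  obtain ⟨hR, hB⟩ := h1 f₀ E₀ B₀ hD n Cl hCl
  have hg := geom hc hh hs h1 hD hCl
  let K : ℝ → V3 → Z := fun t x => limUnder atTop fun m => It f₀ E₀ B₀ Cl m t x
  have hT : ∀ t x, Tendsto (fun m => It f₀ E₀ B₀ Cl m t x) atTop (𝓝 (K t x)) := fun t x => by
    obtain ⟨D, -, h⟩ := hg |t|
    exact (cauchySeq_of_le_geometric_two (h t le_rfl x)).tendsto_limUnder
  have hE : ∀ T : ℝ, ∃ D : ℝ, 0 ≤ D ∧ ∀ m t, |t| ≤ T → ∀ x,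
      ‖It f₀ E₀ B₀ Cl m t x - K t x‖ ≤ D / 2 ^ m := fun T => by
    obtain ⟨D, h0, h⟩ := hg T
    refine ⟨D, h0, fun m t ht x => ?_⟩
    rw [← dist_eq_norm]
    exact dist_le_of_le_geometric_two_of_tendsto (h t ht x) (hT t x) m
  have h0 : ∀ D : ℝ, Tendsto (fun m : ℕ => D / 2 ^ m) atTop (𝓝 0) := fun D =>
    tendsto_const_nhds.div_atTop (tendsto_pow_atTop_atTop_of_one_lt one_lt_two)
  have hK : Reg K := by
    refine hl _ K hR hB fun T ε hε => ?_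
    obtain ⟨D, -, h⟩ := hE T
    filter_upwards [(h0 D).eventually (ge_mem_nhds hε)] with m hm t ht x
      using (h m t ht x).trans hm
  refine ⟨K, hK, funext fun t => funext fun x => ?_⟩
  refine tendsto_nhds_unique ((tendsto_add_atTop_iff_nat 1).2 (hT t x)) ?_
  rcases le_total 0 t with ht | ht
  · obtain ⟨D, hD0, h⟩ := hE t
    obtain ⟨C, hC⟩ := hB t
    obtain ⟨lam, hl1, hk⟩ := contract hc hs hD hCl t C
    refine tendsto_iff_norm_sub_tendsto_zero.2 (squeeze_zero (fun _ => norm_nonneg _)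
      (g := fun m : ℕ => D / 2 ^ m / 2 * exp (lam * t)) (fun m => ?_) ?_)
    · refine hk _ K _ (hR m) hK (by positivity) (hC m) (fun s hs y => ?_) t ⟨ht, le_rfl⟩ x
      refine (h m s (by rw [abs_of_nonneg hs.1]; exact hs.2) y).trans ?_
      exact le_mul_of_one_le_right (by positivity) (one_le_exp (mul_nonneg (by linarith) hs.1))
    · simpa using ((h0 D).div_const 2).mul_const (exp (lam * t))
  · have e : ∀ G, Reg G → TT f₀ E₀ B₀ (clF Cl G) t = K0 E₀ B₀ := fun G hG =>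
      ((hh f₀ E₀ B₀ hD).2.2.2 _ ((hc n Cl hCl).1 _ hG)).2.2 t ht
    rw [e K hK]
    refine tendsto_const_nhds.congr fun m => ?_
    exact (congrFun (e _ (hR m)) x).symm

end Vale.Agent.P107
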