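import Vale.Agent.P107.Basic

/-! Problem P107: the far part of a box. -/

open MeasureTheory Set Filter Topology
open scoped ENNReal RealInnerProductSpace

noncomputable section
namespace Vale.Agent.P107

namespace FarX

theorem tail {ρ : ℝ} (hρ : 0 < ρ) :
    ∫⁻ t in Ioi ρ, ENNReal.ofReal (1 / max ρ t ^ 2) = ENNReal.ofReal (1 / ρ) := by
  have h1 : ∫⁻ t in Ioi ρ, ENNReal.ofReal (1 / max ρ t ^ 2)
      = ∫⁻ t in Ioi ρ, ENNReal.ofReal (t ^ (-2 : ℝ)) := by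
    refine setLIntegral_congr_fun measurableSet_Ioi fun t ht => ?_
    have ht' : ρ < t := ht
    show ENNReal.ofReal (1 / max ρ t ^ 2) = ENNReal.ofReal (t ^ (-2 : ℝ))
    rw [max_eq_right ht'.le, Real.rpow_neg (hρ.trans ht').le, Real.rpow_two, one_div]
  rw [h1, ← ofReal_integral_eq_lintegral_ofReal (integrableOn_Ioi_rpow_of_lt (by norm_num) hρ),
    integral_Ioi_rpow_of_lt (by norm_num) hρ]
  · congr 1
    rw [show (-2 : ℝ) + 1 = -1 by norm_num, Real.rpow_neg_one]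
    field_simp
  · filter_upwards [ae_restrict_mem measurableSet_Ioi] with t ht
    exact Real.rpow_nonneg (hρ.trans ht).le _

theorem whole {ρ τ s₀ : ℝ} (hρ : 0 < ρ) (hτ : 0 < τ) :
    ∫⁻ σ in Icc 0 (s₀ + τ), ENNReal.ofReal (1 / max ρ (s₀ - σ) ^ 2)
      ≤ ENNReal.ofReal (τ / ρ ^ 2 + 2 / ρ) := by
  have hψ : Measurable fun t : ℝ => ENNReal.ofReal (1 / max ρ t ^ 2) := by fun_prop
  have h1 := (Measure.measurePreserving_sub_left (volume : Measure ℝ) s₀).setLIntegral_comp_preimage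
    (measurableSet_Ici (a := -τ)) hψ
  have h2 : Icc 0 (s₀ + τ) ⊆ (fun σ : ℝ => s₀ - σ) ⁻¹' Ici (-τ) := by
    intro σ hσ
    show -τ ≤ s₀ - σ
    linarith [hσ.2]
  refine (lintegral_mono_set h2).trans (h1.le.trans ?_)
  have h3 : Ici (-τ) ⊆ Icc (-τ) ρ ∪ Ioi ρ := by
    intro t ht
    rcases le_or_gt t ρ with h | h
    · exact Or.inl ⟨ht, h⟩
    · exact Or.inr h
  refine (lintegral_mono_set h3).trans ((lintegral_union_le _ _ _).trans ?_)
  have h4 : ∫⁻ t in Icc (-τ) ρ, ENNReal.ofReal (1 / max ρ t ^ 2)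
      = ENNReal.ofReal (1 / ρ ^ 2 * (ρ + τ)) := by
    rw [setLIntegral_congr_fun (g := fun _ => ENNReal.ofReal (1 / ρ ^ 2)) measurableSet_Icc
      (fun t ht => by simp only [max_eq_left ht.2]), setLIntegral_const, Real.volume_Icc,
      ← ENNReal.ofReal_mul (by positivity), sub_neg_eq_add]
  rw [h4, tail hρ, ← ENNReal.ofReal_add (by positivity) (by positivity)]
  refine le_of_eq (congrArg _ ?_)
  field_simp
  ring

end FarX

theorem far (ht : Ton) (hs : SpE) : Far := by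
  intro Γ T Λ N P z₀ s₀ τ p' hG hT p α β θ hp hα hβ hθ ρ hρ
  obtain ⟨-, -, -, hB, hae, -⟩ := ht Γ hG.toKin z₀ s₀ τ
  obtain ⟨h1, h2, -⟩ := hs Γ T Λ N P z₀ s₀ τ p' hG hT
  have hΛ : 0 < Λ := by linarith [hG.hΛ]
  have hτ := hT.hτ
  have hA : MeasurableSet (Γ.Bx z₀ p α β θ ∩ {x : ℝ × Z | ‖x.2.1‖ ∈ Ioi ρ}) :=
    (hB p α β θ).inter (measurableSet_Ioi.preimage (by fun_prop : Measurable fun x : ℝ × Z => ‖x.2.1‖))
  have ha : Γ.JA z₀ s₀ τ p α β θ (Ioi ρ) ≤ ENNReal.ofReal (1 / (p * ρ ^ 2) * (Λ * τ)) := by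
    refine le_trans (setLIntegral_mono' (g := fun x : ℝ × Z =>
      ENNReal.ofReal (1 / (p * ρ ^ 2)) * ENNReal.ofReal (q x.2.2)) hA ?_) ?_
    · rintro x ⟨hx, hr⟩
      have hr' : ρ < ‖x.2.1‖ := hr
      have hq : p ≤ q x.2.2 := hx.1.1
      rw [← ENNReal.ofReal_mul (by positivity)]
      refine ENNReal.ofReal_le_ofReal ?_
      calc 1 / ‖x.2.1‖ ^ 2 ≤ 1 / ρ ^ 2 := by gcongr
        _ = 1 / (p * ρ ^ 2) * p := by field_simp
        _ ≤ _ := by gcongr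
    · refine (setLIntegral_le_lintegral _ _).trans ?_
      rw [lintegral_const_mul' _ _ ENNReal.ofReal_ne_top, ENNReal.ofReal_mul (by positivity)]
      gcongr
  have hb : Γ.JA z₀ s₀ τ p α β θ (Ioi ρ)
      ≤ ENNReal.ofReal (4 * β ^ 2 / (α ^ 2 * p) * (Λ * (τ / ρ ^ 2 + 2 / ρ))) := by
    refine le_trans (lintegral_mono_ae (g := fun x : ℝ × Z =>
      ENNReal.ofReal (4 * β ^ 2 / (α ^ 2 * p)) *
        (ENNReal.ofReal (1 / max ρ (s₀ - (x.1 - ‖x.2.1‖)) ^ 2) *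
          ENNReal.ofReal (q x.2.2 * sgp (Γ.U z₀ x.1) x.2.1 x.2.2))) ?_) ?_
    · filter_upwards [ae_restrict_mem hA, ae_restrict_of_ae hae] with x hx hx'
      obtain ⟨hx, hr⟩ := hx
      have hr' : ρ < ‖x.2.1‖ := hr
      have hq : p ≤ q x.2.2 := hx.1.1
      have h3 : α ≤ dd (hat x.2.1) (Γ.U z₀ x.1) := hx.2.1.1
      have h4 : β ≤ dd (hat x.2.1) (uu x.2.2) := hx.2.2.1.1
      have h5 : dd (hat x.2.1) (uu x.2.2) < 2 * β := hx.2.2.1.2
      have hm : 0 < max ρ (s₀ - (x.1 - ‖x.2.1‖)) := lt_max_of_lt_left hρ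
      have hm' : max ρ (s₀ - (x.1 - ‖x.2.1‖)) ≤ ‖x.2.1‖ :=
        max_le hr'.le (by linarith [hx'.1.1])
      rw [← ENNReal.ofReal_mul (by positivity), ← ENNReal.ofReal_mul (by positivity)]
      refine ENNReal.ofReal_le_ofReal ?_
      have h6 : p * (α ^ 2 / (2 * β) ^ 2) ≤ q x.2.2 * sgp (Γ.U z₀ x.1) x.2.1 x.2.2 := by
        unfold sgp
        have := q_pos x.2.2
        have := hβ.trans_le h4
        gcongr
      calc 1 / ‖x.2.1‖ ^ 2 ≤ 1 / max ρ (s₀ - (x.1 - ‖x.2.1‖)) ^ 2 := by gcongr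
        _ = 4 * β ^ 2 / (α ^ 2 * p) * (1 / max ρ (s₀ - (x.1 - ‖x.2.1‖)) ^ 2 *
            (p * (α ^ 2 / (2 * β) ^ 2))) := by field_simp; ring
        _ ≤ _ := by gcongr
    · refine (setLIntegral_le_lintegral _ _).trans ?_
      rw [lintegral_const_mul' _ _ ENNReal.ofReal_ne_top, ENNReal.ofReal_mul (by positivity),
        ENNReal.ofReal_mul hΛ.le]
      gcongr
      refine (h1 (fun σ => ENNReal.ofReal (1 / max ρ (s₀ - σ) ^ 2)) (by fun_prop)).trans ?_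
      gcongr
      exact FarX.whole hρ hτ
  have hX : 0 < τ / ρ ^ 2 := by positivity
  have hY : 0 < 1 / ρ := by positivity
  unfold Yq
  rcases le_total 1 (β ^ 2 / α ^ 2) with h | h
  · rw [min_eq_left h]
    refine ha.trans (ENNReal.ofReal_le_ofReal ?_)
    have h7 : 0 < Λ * (1 / p) := by positivity
    calc 1 / (p * ρ ^ 2) * (Λ * τ) = Λ * (1 / p) * (τ / ρ ^ 2) := by field_simp
      _ ≤ Λ * (1 / p) * (8 * (τ / ρ ^ 2 + 1 / ρ)) := by gcongr; linarith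
      _ = _ := by ring
  · rw [min_eq_right h]
    refine hb.trans (ENNReal.ofReal_le_ofReal ?_)
    have h7 : 0 < Λ * (β ^ 2 / α ^ 2 / p) := by positivity
    calc 4 * β ^ 2 / (α ^ 2 * p) * (Λ * (τ / ρ ^ 2 + 2 / ρ))
        = Λ * (β ^ 2 / α ^ 2 / p) * (4 * (τ / ρ ^ 2 + 2 * (1 / ρ))) := by field_simp
      _ ≤ Λ * (β ^ 2 / α ^ 2 / p) * (8 * (τ / ρ ^ 2 + 1 / ρ)) := by gcongr ?_ * ?_; linarith
      _ = _ := by ring

end Vale.Agent.P107
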