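import Vale.Agent.P107.Basic

/-! Problem P107: the far part of the magnetic term. -/

open MeasureTheory Set Filter Topology
open scoped ENNReal RealInnerProductSpace

noncomputable section
namespace Vale.Agent.P107

namespace FarBX

theorem ptw {a B Q b r m L t : ℝ} (ha : 0 ≤ a) (hB : 0 ≤ B) (hQ : 0 < Q) (hb : 0 < b)
    (hr : 0 < r) (ht : 0 < t) (hL : 0 < L) (h1 : t ≤ m) (h2 : m ≤ 3 * r) :
    a * B / (Q * b ^ 2 * r) ≤
      3 / L * (a ^ 2 * (B ^ 2 * (1 / m)) * (1 / (Q ^ 3 * b ^ 4))) + 3 * L / t * Q := by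
  have hm : 0 < m := ht.trans_le h1
  obtain ⟨x, hx⟩ : ∃ x : ℝ, x = a * B / (Q ^ 2 * b ^ 2) := ⟨_, rfl⟩
  have hx0 : 0 ≤ x := by rw [hx]; positivity
  have e1 : a * B / (Q * b ^ 2 * r) = Q * (x / r) := by rw [hx]; field_simp
  have e2 : 3 / L * (a ^ 2 * (B ^ 2 * (1 / m)) * (1 / (Q ^ 3 * b ^ 4))) + 3 * L / t * Q =
      Q * (3 * (x ^ 2 / L) / m + 3 * L / t) := by rw [hx]; field_simp
  rw [e1, e2]
  refine mul_le_mul_of_nonneg_left ?_ hQ.le
  have h3 : x ≤ x ^ 2 / L + L := by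
    rw [div_add' _ _ _ hL.ne', le_div_iff₀ hL]
    nlinarith [sq_nonneg (x - L), mul_nonneg hx0 hL.le]
  have h4 : x / r ≤ 3 * x / m := by
    rw [div_le_div_iff₀ hr hm]
    nlinarith [mul_le_mul_of_nonneg_left h2 hx0]
  have h5 : 3 * L / m ≤ 3 * L / t := div_le_div_of_nonneg_left (by positivity) ht h1
  have h6 : 3 * x / m ≤ 3 * (x ^ 2 / L) / m + 3 * L / m := by
    rw [← add_div]
    exact div_le_div_of_nonneg_right (by linarith) hm.le
  linarith

theorem logint {Λ S t : ℝ} {k : ℕ} (hΛ : 0 ≤ Λ) (hS0 : 0 ≤ S) (hS : S ≤ Λ)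
    (ht : 1 / ((2 : ℝ) ^ k) ^ 2 ≤ t) :
    ∫⁻ σ in Icc 0 S, ENNReal.ofReal (1 / (t + S - σ)) ≤ ENNReal.ofReal ((Λ + 2) * LL k) := by
  have h0 : (0 : ℝ) < 1 / (2 ^ k) ^ 2 := by positivity
  have ht0 : 0 < t := h0.trans_le ht
  have hc : ContinuousOn (fun σ : ℝ => 1 / (t + S - σ)) (Icc 0 S) :=
    continuousOn_const.div (by fun_prop) fun σ hσ => by linarith [hσ.2]
  rw [← ofReal_integral_eq_lintegral_ofReal (hc.integrableOn_compact isCompact_Icc)
    (ae_restrict_of_forall_mem measurableSet_Icc fun σ hσ =>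
      (one_div_pos.2 (by linarith [hσ.2])).le),
    integral_Icc_eq_integral_Ioc, ← intervalIntegral.integral_of_le hS0,
    intervalIntegral.integral_comp_sub_left (fun x : ℝ => 1 / x) (t + S),
    integral_one_div_of_pos (by linarith) (by linarith)]
  refine ENNReal.ofReal_le_ofReal ?_
  have h1 : (t + S - 0) / (t + S - S) ≤ (1 + Λ) * 4 ^ k := by
    rw [sub_zero, add_sub_cancel_right, div_le_iff₀ ht0]
    have e : (4 : ℝ) ^ k = (2 ^ k) ^ 2 := by rw [← pow_mul, mul_comm, pow_mul]; norm_num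
    have h2 : 1 ≤ 4 ^ k * t := by
      rw [div_le_iff₀ (by positivity), ← e] at ht
      linarith
    have h3 : (1 : ℝ) ≤ 4 ^ k := one_le_pow₀ (by norm_num)
    nlinarith [mul_le_mul_of_nonneg_left h2 hΛ, mul_le_mul_of_nonneg_right h3 ht0.le]
  refine (Real.log_le_log (by
    rw [sub_zero, add_sub_cancel_right]; positivity) h1).trans ?_
  rw [Real.log_mul (by positivity) (by positivity), Real.log_pow]
  have h4 := Real.log_le_sub_one_of_pos (x := 1 + Λ) (by positivity)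
  have h5 : Real.log 4 ≤ 2 := by
    rw [show (4 : ℝ) = 2 ^ 2 by norm_num, Real.log_pow]
    have := Real.log_le_sub_one_of_pos (x := 2) (by norm_num)
    push_cast
    linarith
  have hk : (0 : ℝ) ≤ k := Nat.cast_nonneg k
  unfold LL
  nlinarith [mul_le_mul_of_nonneg_left h5 hk, mul_nonneg hΛ hk]

/-- the momentum weight -/
def chi (k : ℕ) : Z → ℝ≥0∞ := {p : Z | q p.2 ≤ 2 ^ k}.indicator
  fun p => ENNReal.ofReal (1 / (q p.2 ^ 3 * dd (hat p.1) (uu p.2) ^ 4))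

theorem chi_meas (k : ℕ) : Measurable (chi k) :=
  Measurable.indicator (by fun_prop) (measurableSet_le (by fun_prop) measurable_const)

theorem chi_int {C : ℝ} {k : ℕ} (H : ∀ n : V3, ‖n‖ = 1 →
    ∫⁻ v in {v : V3 | q v ≤ 2 ^ k}, ENNReal.ofReal (1 / (q v ^ 3 * dd n (uu v) ^ 2))
      ≤ ENNReal.ofReal C) {w : V3} (hw : w ≠ 0) :
    ∫⁻ v, chi k (w, v) * ENNReal.ofReal (b2 w v) ≤ ENNReal.ofReal C := by
  refine le_trans (le_of_eq ?_) (H _ (norm_hat hw))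
  rw [← lintegral_indicator (measurableSet_le (by fun_prop) measurable_const)]
  refine lintegral_congr fun v => ?_
  unfold chi
  by_cases hv : q v ≤ 2 ^ k
  · have h1 := q_pos v
    have h2 := dd_uu_pos (norm_hat_le w) v
    rw [indicator_of_mem (show (w, v) ∈ {p : Z | q p.2 ≤ 2 ^ k} from hv),
      indicator_of_mem (show v ∈ {v : V3 | q v ≤ 2 ^ k} from hv),
      ← ENNReal.ofReal_mul (by positivity), b2_eq]
    refine congrArg _ ?_
    field_simp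
  · rw [indicator_of_notMem (show (w, v) ∉ {p : Z | q p.2 ≤ 2 ^ k} from hv),
      indicator_of_notMem (show v ∉ {v : V3 | q v ≤ 2 ^ k} from hv), zero_mul]

theorem cone_le {C s : ℝ} {k : ℕ} (H : ∀ n : V3, ‖n‖ = 1 →
    ∫⁻ v in {v : V3 | q v ≤ 2 ^ k}, ENNReal.ofReal (1 / (q v ^ 3 * dd n (uu v) ^ 2))
      ≤ ENNReal.ofReal C) {ψ : V3 → ℝ≥0∞} (hψ : Measurable ψ) :
    ∫⁻ p in {p : Z | ‖p.1‖ < s}, ψ p.1 * chi k p * ENNReal.ofReal (b2 p.1 p.2) ≤
      ENNReal.ofReal C * ∫⁻ w in Metric.ball (0 : V3) s, ψ w := by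
  have hχ := chi_meas k
  have e : {p : Z | ‖p.1‖ < s} = Metric.ball (0 : V3) s ×ˢ univ := by
    ext p
    simp
  rw [e, Measure.volume_eq_prod, ← Measure.prod_restrict, Measure.restrict_univ,
    lintegral_prod _ (Measurable.aemeasurable (by fun_prop)),
    ← lintegral_const_mul' _ _ ENNReal.ofReal_ne_top]
  refine lintegral_mono_ae ?_
  have h0 : ∀ᵐ w : V3, w ≠ 0 := compl_mem_ae_iff.2 (measure_singleton 0)
  filter_upwards [ae_restrict_of_ae h0] with w hw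
  simp only [mul_assoc]
  rw [lintegral_const_mul _ (by fun_prop), mul_comm]
  exact mul_le_mul_left (chi_int H hw) _

end FarBX

open FarBX in
theorem farB (ht : Ton) (hs : SpE) (h2 : Ph2) (hp : Pal) : FarB := by
  intro Λ
  obtain ⟨C, hC, H2⟩ := h2
  refine ⟨max 1 (3 * (Λ * C * Λ * (Λ + 2)) + 3 * Λ), by positivity,
    fun Γ T N k z₀ s₀ τ p' τ' hg hT hτ hτ' => ?_⟩
  obtain ⟨-, hkk, hU, -, hae, hTon⟩ := ht Γ hg.toKin z₀ s₀ τ
  obtain ⟨-, hq, hae2⟩ := hs Γ T Λ N _ z₀ s₀ τ p' hg hT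
  have hΛ : 0 ≤ Λ := by linarith [hg.hΛ]
  have hL := LL_pos k
  have hL3 := three_le_LL k
  have hτ0 := hT.hτ
  have hτ'0 : 0 < τ' := hτ0.trans_le hτ
  have hs0 := hT.h0
  have mK : Measurable fun p : ℝ × V3 => Γ.K p.1 p.2 := hg.cK.measurable
  have mY : Measurable fun s : ℝ => Γ.Y s z₀ :=
    (hg.cY.comp (continuous_id.prodMk continuous_const)).measurable
  have mU := hU.measurable
  let φ : ℝ × V3 → ℝ≥0∞ := fun y => ENNReal.ofReal (‖(Γ.K y.1 y.2).2‖ ^ 2) *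
    ENNReal.ofReal (1 / (τ' + (s₀ + τ) - y.1))
  have mφ : Measurable φ := by
    have : Measurable fun y : ℝ × V3 => (Γ.K y.1 y.2).2 := mK.snd
    fun_prop
  let ψ : ℝ × V3 → ℝ≥0∞ := fun y => ENNReal.ofReal (dd (hat y.2) (Γ.U z₀ y.1) ^ 2) *
    φ (y.1 - ‖y.2‖, Γ.Y y.1 z₀ - y.2)
  have mψ : Measurable ψ := by
    refine Measurable.mul (by fun_prop) (mφ.comp ?_)
    exact Measurable.prodMk (by fun_prop) ((mY.comp measurable_fst).sub measurable_snd)
  let Φ : ℝ × Z → ℝ≥0∞ := fun x => ψ (x.1, x.2.1) * chi k x.2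
  have mΦ : Measurable Φ :=
    (mψ.comp (by fun_prop)).mul ((chi_meas k).comp measurable_snd)
  have hB : ∫⁻ x, Φ x ∂Γ.lam z₀ s₀ τ ≤ ENNReal.ofReal Λ * (ENNReal.ofReal (C * LL k ^ 2) *
      (ENNReal.ofReal Λ * ENNReal.ofReal ((Λ + 2) * LL k))) := by
    rw [(hTon Φ mΦ).2.1]
    have b1 : ∀ s ∈ Icc s₀ (s₀ + τ), Γ.cI s (Γ.Y s z₀) (fun x => Φ (s, x)) ≤
        ENNReal.ofReal Λ * (ENNReal.ofReal (C * LL k ^ 2) *
          ∫⁻ w in Metric.ball (0 : V3) s, ψ (s, w)) := fun s hs' =>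
      (hg.cone s ⟨hs0.trans hs'.1, hs'.2.trans hT.hT⟩ _ _
        (mΦ.comp measurable_prodMk_left)).trans
        (mul_le_mul_right (cone_le (fun n hn => H2 n k hn) (mψ.comp measurable_prodMk_left)) _)
    refine (setLIntegral_mono' measurableSet_Icc b1).trans ?_
    rw [lintegral_const_mul' _ _ ENNReal.ofReal_ne_top,
      lintegral_const_mul' _ _ ENNReal.ofReal_ne_top]
    refine mul_le_mul_right (mul_le_mul_right ?_ _) _
    refine (hp (fun s => Γ.Y s z₀) (Γ.U z₀) s₀ (s₀ + τ) (fun s => hg.dY s z₀) hU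
      (fun s => norm_uu_lt _) φ mφ).trans ?_
    have b2 : ∀ σ ∈ Icc 0 (s₀ + τ), ∫⁻ y, φ (σ, y) ≤
        ENNReal.ofReal Λ * ENNReal.ofReal (1 / (τ' + (s₀ + τ) - σ)) := fun σ hσ => by
      simp only [φ]
      rw [lintegral_mul_const' _ _ ENNReal.ofReal_ne_top]
      exact mul_le_mul_left (hg.enB σ ⟨hσ.1, hσ.2.trans hT.hT⟩) _
    refine (setLIntegral_mono' measurableSet_Icc b2).trans ?_
    rw [lintegral_const_mul' _ _ ENNReal.ofReal_ne_top]
    exact mul_le_mul_right (logint hΛ (by linarith) (hT.hT.trans hg.hT) hτ') _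
  have hA : ∀ᵐ x ∂Γ.lam z₀ s₀ τ, x ∈ {x : ℝ × Z | τ' < ‖x.2.1‖} →
      ENNReal.ofReal (dd (hat x.2.1) (Γ.U z₀ x.1) * ‖(Γ.kk z₀ x).2‖ /
        (q x.2.2 * dd (hat x.2.1) (uu x.2.2) ^ 2 * ‖x.2.1‖)) ≤
      ENNReal.ofReal (3 / LL k) * Φ x +
        ENNReal.ofReal (3 * LL k / τ') * ENNReal.ofReal (q x.2.2) := by
    filter_upwards [hae, hae2] with x h1 h3 h4
    have h5 : τ' < ‖x.2.1‖ := h4
    have c1 := q_pos x.2.2
    have c2 := dd_uu_pos (norm_hat_le x.2.1) x.2.2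
    have c3 : τ' ≤ τ' + (s₀ + τ) - (x.1 - ‖x.2.1‖) := by linarith [h1.1.2]
    have c4 : τ' + (s₀ + τ) - (x.1 - ‖x.2.1‖) ≤ 3 * ‖x.2.1‖ := by linarith [h1.1.1]
    have c5 : 0 < τ' + (s₀ + τ) - (x.1 - ‖x.2.1‖) := hτ'0.trans_le c3
    refine (ENNReal.ofReal_le_ofReal (ptw (dd_nonneg _ _) (norm_nonneg _) c1 c2
      (hτ'0.trans h5) hτ'0 hL c3 c4)).trans (le_of_eq ?_)
    simp only [Φ, ψ, φ, chi]
    rw [indicator_of_mem (show x.2 ∈ {p : Z | q p.2 ≤ 2 ^ k} from h3.1),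
      ENNReal.ofReal_add (by positivity) (by positivity), ENNReal.ofReal_mul (by positivity),
      ENNReal.ofReal_mul (by positivity), ENNReal.ofReal_mul (by positivity),
      ENNReal.ofReal_mul (by positivity), ENNReal.ofReal_mul (by positivity)]
    rfl
  refine (setLIntegral_mono_ae' (measurableSet_lt measurable_const (by fun_prop)) hA).trans
    ((setLIntegral_le_lintegral _ _).trans ?_)
  rw [lintegral_add_left (mΦ.const_mul _), lintegral_const_mul' _ _ ENNReal.ofReal_ne_top,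
    lintegral_const_mul' _ _ ENNReal.ofReal_ne_top]
  refine (add_le_add (mul_le_mul_right hB _) (mul_le_mul_right hq _)).trans ?_
  rw [← ENNReal.ofReal_mul hΛ, ← ENNReal.ofReal_mul (by positivity), ← ENNReal.ofReal_mul hΛ,
    ← ENNReal.ofReal_mul (by positivity), ← ENNReal.ofReal_mul (by positivity),
    ← ENNReal.ofReal_add (by positivity) (by positivity)]
  refine ENNReal.ofReal_le_ofReal (le_trans ?_
    (mul_le_mul_of_nonneg_right (le_max_right _ _) (by positivity)))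
  have e1 : 3 / LL k * (Λ * (C * LL k ^ 2 * (Λ * ((Λ + 2) * LL k)))) =
      3 * (Λ * C * Λ * (Λ + 2)) * LL k ^ 2 := by field_simp
  have e2 : 3 * LL k / τ' * (Λ * τ) ≤ 3 * Λ * LL k ^ 2 := by
    rw [div_mul_eq_mul_div, div_le_iff₀ hτ'0]
    have d1 : LL k * τ ≤ LL k ^ 2 * τ' :=
      mul_le_mul (by nlinarith) hτ hτ0.le (by positivity)
    nlinarith [mul_le_mul_of_nonneg_left d1 hΛ]
  rw [e1]
  linarith

end Vale.Agent.P107
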