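import Vale.Agent.P107.Basic2

/-! Problem P107: existence, uniqueness and stability of the flow. -/

open MeasureTheory Set Filter Topology Real

noncomputable section
namespace Vale.Agent.P107

namespace Fl1X

theorem cmp (hg : Gr) {a a' : ℝ → Z → Z} {γ γ' : ℝ → Z} (l e : ℝ → ℝ) (t s : ℝ)
    (hl : Continuous l) (he : Continuous e) (hl0 : ∀ σ, 0 ≤ l σ) (he0 : ∀ σ, 0 ≤ e σ)
    (h1 : ∀ σ, HasDerivAt γ (a σ (γ σ)) σ) (h2 : ∀ σ, HasDerivAt γ' (a' σ (γ' σ)) σ)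
    (hL : ∀ σ ∈ uIcc t s, ∀ x y, ‖a σ x - a σ y‖ ≤ l σ * ‖x - y‖)
    (hE : ∀ σ ∈ uIcc t s, ∀ x, ‖a σ x - a' σ x‖ ≤ e σ) :
    ‖γ s - γ' s‖ ≤ exp |∫ σ in t..s, l σ| * (‖γ t - γ' t‖ + |∫ σ in t..s, e σ|) := by
  refine hg Z (fun σ => γ σ - γ' σ) (fun σ => a σ (γ σ) - a' σ (γ' σ)) l e t s hl he hl0 he0
    (fun σ _ => (h1 σ).sub (h2 σ)) fun σ hσ => ?_
  have e1 : a σ (γ σ) - a' σ (γ' σ) = (a σ (γ σ) - a σ (γ' σ)) + (a σ (γ' σ) - a' σ (γ' σ)) := by
    abel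
  rw [e1]
  exact norm_add_le_of_le (hL σ hσ _ _) (hE σ hσ _)

theorem isf (ho : Ode) {a : ℝ → Z → Z} (ha : Reg a) : IsFlow a (flow a) := by
  have h : ∃ Φ, IsFlow a Φ := by
    have h1 := ho Z a ha.cont fun T => by
      obtain ⟨C, hC⟩ := ha.bd T
      exact ⟨C, fun t ht => (hC t ht).lip⟩
    choose γ h2 h3 using h1
    exact ⟨fun s t z => γ t z s, h2, fun s t z => h3 t z s⟩
  unfold flow
  rw [dif_pos h]
  exact h.choose_spec

theorem abs_le_of_mem {T t s σ : ℝ} (ht : |t| ≤ T) (hs : |s| ≤ T) (h : σ ∈ uIcc t s) :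
    |σ| ≤ T := by
  rw [abs_le] at *
  rcases mem_uIcc.1 h with h | h <;> constructor <;> linarith [h.1, h.2]

theorem lip (hg : Gr) {a : ℝ → Z → Z} (hf : IsFlow a (flow a)) (l : ℝ → ℝ) (s t : ℝ)
    (hl : Continuous l) (hl0 : ∀ σ, 0 ≤ l σ)
    (hL : ∀ σ ∈ uIcc t s, ∀ x y, ‖a σ x - a σ y‖ ≤ l σ * ‖x - y‖) (x y : Z) :
    ‖flow a s t x - flow a s t y‖ ≤ exp |∫ σ in t..s, l σ| * ‖x - y‖ := by
  have := cmp hg (a := a) (a' := a) (γ := fun r => flow a r t x) (γ' := fun r => flow a r t y)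
    l (fun _ => 0) t s hl continuous_const hl0 (fun _ => le_rfl) (fun σ => hf.2 σ t x)
    (fun σ => hf.2 σ t y) hL (fun _ _ _ => by simp)
  simpa [hf.1] using this

theorem comp (hg : Gr) {a : ℝ → Z → Z} (ha : Reg a) (hf : IsFlow a (flow a)) (r s t : ℝ) (z : Z) :
    flow a r s (flow a s t z) = flow a r t z := by
  obtain ⟨C, hC1, hC⟩ := ha.bd' (max |s| |r|)
  have := cmp hg (a := a) (a' := a) (γ := fun r => flow a r s (flow a s t z))
    (γ' := fun r => flow a r t z) (fun _ => C) (fun _ => 0) s r continuous_const continuous_const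
    (fun _ => by linarith) (fun _ => le_rfl) (fun σ => hf.2 σ s _) (fun σ => hf.2 σ t z)
    (fun σ hσ => (hC σ (abs_le_of_mem (le_max_left _ _) (le_max_right _ _) hσ)).lip)
    (fun _ _ _ => by simp)
  simpa [hf.1, sub_eq_zero] using this

theorem speed {a : ℝ → Z → Z} (hf : IsFlow a (flow a)) {T C : ℝ}
    (hC : ∀ t, |t| ≤ T → B3 (a t) C C C) {s t : ℝ} (hs : |s| ≤ T) (ht : |t| ≤ T) (z : Z) :
    ‖flow a s t z - z‖ ≤ C * |s - t| := by
  have := Convex.norm_image_sub_le_of_norm_hasDerivWithin_le (s := uIcc t s)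
    (f := fun r => flow a r t z) (f' := fun r => a r (flow a r t z)) (C := C)
    (fun σ _ => (hf.2 σ t z).hasDerivWithinAt)
    (fun σ hσ => (hC σ (abs_le_of_mem ht hs hσ)).b0 _) (convex_uIcc t s) left_mem_uIcc
    right_mem_uIcc
  simpa [hf.1] using this

theorem cont (hg : Gr) {a : ℝ → Z → Z} (ha : Reg a) (hf : IsFlow a (flow a)) :
    Continuous (fun p : ℝ × ℝ × Z => flow a p.1 p.2.1 p.2.2) := by
  refine continuous_iff_continuousAt.2 fun p₀ => ?_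
  obtain ⟨s₀, t₀, z₀⟩ := p₀
  obtain ⟨C, hC1, hC⟩ := ha.bd' (|s₀| + |t₀| + 1)
  set T := |s₀| + |t₀| + 1 with hT
  have ht₀ : |t₀| ≤ T := by linarith [abs_nonneg s₀]
  have hc : Continuous fun r => flow a r t₀ z₀ :=
    continuous_iff_continuousAt.2 fun r => (hf.2 r t₀ z₀).continuousAt
  let g : ℝ × ℝ × Z → ℝ := fun p => exp (2 * T * C) * (C * |t₀ - p.2.1| + ‖p.2.2 - z₀‖) +
    ‖flow a p.1 t₀ z₀ - flow a s₀ t₀ z₀‖
  have hg' : Continuous g := by
    have : Continuous fun p : ℝ × ℝ × Z => flow a p.1 t₀ z₀ := hc.comp continuous_fst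
    fun_prop
  have h0 : Tendsto g (𝓝 (s₀, t₀, z₀)) (𝓝 0) := by
    have := hg'.tendsto (s₀, t₀, z₀)
    simpa [g] using this
  refine tendsto_iff_norm_sub_tendsto_zero.2 (squeeze_zero' (Eventually.of_forall fun _ =>
    norm_nonneg _) ?_ h0)
  have e1 : ∀ᶠ p : ℝ × ℝ × Z in 𝓝 (s₀, t₀, z₀), |p.1| < T :=
    (by fun_prop : Continuous fun p : ℝ × ℝ × Z => |p.1|).continuousAt.eventually
      (gt_mem_nhds (by simp only; linarith [abs_nonneg t₀]))
  have e2 : ∀ᶠ p : ℝ × ℝ × Z in 𝓝 (s₀, t₀, z₀), |p.2.1| < T :=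
    (by fun_prop : Continuous fun p : ℝ × ℝ × Z => |p.2.1|).continuousAt.eventually
      (gt_mem_nhds (by simp only; linarith [abs_nonneg s₀]))
  filter_upwards [e1, e2] with p h1 h2
  obtain ⟨s, t, z⟩ := p
  simp only at h1 h2 ⊢
  have k1 := lip hg hf (fun _ => C) s t₀ continuous_const (fun _ => by linarith)
    (fun σ hσ => (hC σ (abs_le_of_mem ht₀ h1.le hσ)).lip) (flow a t₀ t z) z₀
  rw [comp hg ha hf] at k1
  have k2 := speed hf hC ht₀ h2.le z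
  have k3 : ‖flow a t₀ t z - z₀‖ ≤ C * |t₀ - t| + ‖z - z₀‖ :=
    (norm_sub_le_norm_sub_add_norm_sub _ z _).trans (by linarith)
  have k4 : |∫ _ in t₀..s, C| ≤ 2 * T * C := by
    rw [intervalIntegral.integral_const, smul_eq_mul, abs_mul, abs_of_nonneg (by linarith : 0 ≤ C)]
    refine mul_le_mul_of_nonneg_right ((abs_sub _ _).trans (by linarith)) (by linarith)
  have k5 := k1.trans (mul_le_mul (exp_le_exp.2 k4) k3 (norm_nonneg _) (exp_pos _).le)
  exact (norm_sub_le_norm_sub_add_norm_sub _ (flow a s t₀ z₀) _).trans (add_le_add k5 le_rfl)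

end Fl1X

open Fl1X in
theorem fl1 (hg : Gr) (ho : Ode) : Fl1 := by
  intro a ha
  have hf := isf ho ha
  refine ⟨hf, comp hg ha hf, cont hg ha hf, lip hg hf, ?_⟩
  intro a' l e s t ha' hl he hl0 he0 hL hE x
  have hf' := isf ho ha'
  have := cmp hg (γ := fun r => flow a r t x) (γ' := fun r => flow a' r t x)
    l e t s hl he hl0 he0 (fun σ => hf.2 σ t x) (fun σ => hf'.2 σ t x) hL hE
  simpa [hf.1, hf'.1] using this

end Vale.Agent.P107
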