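import Vale.Agent.P107.Basic2

/-! Problem P107: differentiability of the flow. -/

open MeasureTheory Set Filter Topology Real

noncomputable section
namespace Vale.Agent.P107

namespace Fl2X

theorem mono {l : ℝ → ℝ} (hl : Continuous l) (h0 : ∀ σ, 0 ≤ l σ) {t s σ : ℝ}
    (h : σ ∈ uIcc t s) : exp |∫ r in t..σ, l r| ≤ exp |∫ r in t..s, l r| :=
  exp_le_exp.2 (intervalIntegral.abs_integral_mono_interval
    (uIoc_subset_uIoc_of_uIcc_subset_uIcc (uIcc_subset_uIcc_left h)) (ae_of_all _ h0)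
    (hl.intervalIntegrable _ _))

theorem abs_le {t s σ : ℝ} (h : σ ∈ uIcc t s) : |σ| ≤ max |t| |s| := by
  rcases mem_uIcc.1 h with h | h
  · exact abs_le_max_abs_abs h.1 h.2
  · rw [max_comm]
    exact abs_le_max_abs_abs h.1 h.2

theorem exJ (ho : Ode) (hc : ContD) {a : ℝ → Z → Z} (ha : Reg a) (hf : FlP a) (t : ℝ) (z : Z) :
    ∃ J : ℝ → Z →L[ℝ] Z, J t = ContinuousLinearMap.id ℝ Z ∧
      ∀ σ, HasDerivAt J ((fderiv ℝ (a σ) (flow a σ t z)).comp (J σ)) σ := by
  have c1 : Continuous fun σ => flow a σ t z :=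
    hf.cont.comp (continuous_id.prodMk (continuous_const (y := (t, z))))
  have c2 : Continuous fun σ => fderiv ℝ (a σ) (flow a σ t z) :=
    (ha.continuous_fderiv hc).comp (continuous_id.prodMk c1)
  refine ho (Z →L[ℝ] Z) (fun σ J => (fderiv ℝ (a σ) (flow a σ t z)).comp J)
    ((c2.comp continuous_fst).clm_comp continuous_snd) (fun T => ?_) t _
  obtain ⟨C, hC⟩ := ha.bd T
  refine ⟨C, fun σ hσ x y => ?_⟩
  rw [← ContinuousLinearMap.comp_sub]
  exact (ContinuousLinearMap.opNorm_comp_le _ _).trans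
    (mul_le_mul_of_nonneg_right ((hC σ hσ).b1 _) (norm_nonneg _))

theorem key (hg : Gr) {a : ℝ → Z → Z} (ha : Reg a) (hf : FlP a) {s t : ℝ}
    {J : Z → ℝ → Z →L[ℝ] Z} (J0 : ∀ z, J z t = ContinuousLinearMap.id ℝ Z)
    (J1 : ∀ z σ, HasDerivAt (J z) ((fderiv ℝ (a σ) (flow a σ t z)).comp (J z σ)) σ)
    {l m : ℝ → ℝ} (cl : Continuous l) (cm : Continuous m) (l0 : ∀ σ, 0 ≤ l σ)
    (m0 : ∀ σ, 0 ≤ m σ) (hl : ∀ σ ∈ uIcc t s, ∀ x, ‖fderiv ℝ (a σ) x‖ ≤ l σ)
    (hm : ∀ σ ∈ uIcc t s, ∀ x y, ‖fderiv ℝ (a σ) x - fderiv ℝ (a σ) y‖ ≤ m σ * ‖x - y‖) :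
    (∀ z, HasFDerivAt (flow a s t) (J z s) z) ∧ (∀ z, ‖J z s‖ ≤ exp |∫ σ in t..s, l σ|) ∧
      ∀ x y, ‖J x s - J y s‖ ≤ exp (3 * |∫ σ in t..s, l σ|) * |∫ σ in t..s, m σ| * ‖x - y‖ := by
  have nJ : ∀ z, ∀ σ ∈ uIcc t s, ‖J z σ‖ ≤ exp |∫ σ in t..s, l σ| := fun z σ hσ => by
    have := hg _ (J z) _ l (fun _ => 0) t σ cl continuous_const l0 (fun _ => le_rfl)
      (fun r _ => J1 z r) fun r hr => by
        rw [add_zero]
        exact (ContinuousLinearMap.opNorm_comp_le _ _).trans (mul_le_mul_of_nonneg_right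
          (hl r (uIcc_subset_uIcc_left hσ hr) _) (norm_nonneg _))
    rw [J0, intervalIntegral.integral_zero, abs_zero, add_zero] at this
    exact this.trans ((mul_le_of_le_one_right (exp_pos _).le
      ContinuousLinearMap.norm_id_le).trans (mono cl l0 hσ))
  have lip : ∀ σ ∈ uIcc t s, ∀ x y,
      ‖flow a σ t x - flow a σ t y‖ ≤ exp |∫ σ in t..s, l σ| * ‖x - y‖ := fun σ hσ x y =>
    (hf.lip l σ t cl l0 (fun r hr => norm_sub_le_of_fderiv (ha.diff r)
      (hl r (uIcc_subset_uIcc_left hσ hr))) x y).trans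
      (mul_le_mul_of_nonneg_right (mono cl l0 hσ) (norm_nonneg _))
  have hE : ∀ (x x' : ℝ → Z) (c : ℝ), 0 ≤ c → x t = 0 → (∀ σ, HasDerivAt x (x' σ) σ) →
      (∀ σ ∈ uIcc t s, ‖x' σ‖ ≤ l σ * ‖x σ‖ + m σ * c) →
      ‖x s‖ ≤ exp |∫ σ in t..s, l σ| * (|∫ σ in t..s, m σ| * c) := fun x x' c c0 h0 h1 h2 => by
    have := hg _ x x' l (fun σ => m σ * c) t s cl (cm.mul continuous_const) l0
      (fun σ => mul_nonneg (m0 σ) c0) (fun σ _ => h1 σ) h2
    rwa [h0, norm_zero, zero_add, intervalIntegral.integral_mul_const, abs_mul,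
      abs_of_nonneg c0] at this
  have e3 : exp (3 * |∫ σ in t..s, l σ|) = exp |∫ σ in t..s, l σ| ^ 3 := by
    rw [← exp_nat_mul]
    norm_num
  have E0 := exp_pos |∫ σ in t..s, l σ|
  rw [e3]
  generalize exp |∫ σ in t..s, l σ| = E at nJ lip hE E0
  refine ⟨fun z => ?_, fun z => nJ z s right_mem_uIcc, fun x y => ?_⟩
  · refine HasFDerivAt.of_isLittleO (Asymptotics.IsBigO.trans_isLittleO
      (Asymptotics.IsBigO.of_bound (E * (|∫ σ in t..s, m σ| * E ^ 2)) (Eventually.of_forall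
        fun y => ?_)) (Asymptotics.isLittleO_pow_sub_sub z one_lt_two))
    have := hE (fun σ => flow a σ t y - flow a σ t z - J z σ (y - z))
      (fun σ => a σ (flow a σ t y) - a σ (flow a σ t z) -
        fderiv ℝ (a σ) (flow a σ t z) (J z σ (y - z))) (E ^ 2 * ‖y - z‖ ^ 2) (by positivity)
      (by simp [hf.isf.1, J0])
      (fun σ => ((hf.isf.2 σ t y).sub (hf.isf.2 σ t z)).sub (by
        simpa using (J1 z σ).clm_apply (hasDerivAt_const σ (y - z))))
      fun σ hσ => by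
        have k1 := norm_taylor_le (ha.diff σ) (m0 σ) (hm σ hσ) (flow a σ t z) (flow a σ t y)
        have k2 := (fderiv ℝ (a σ) (flow a σ t z)).le_of_opNorm_le (hl σ hσ _)
          (flow a σ t y - flow a σ t z - J z σ (y - z))
        have k3 := norm_add_le_of_le k2 k1
        have k4 := mul_le_mul_of_nonneg_left
          (pow_le_pow_left₀ (norm_nonneg _) (lip σ hσ y z) 2) (m0 σ)
        rw [map_sub _ _ (J z σ (y - z))] at k3
        rw [mul_pow] at k4
        refine le_trans (le_of_eq (congrArg norm ?_)) (k3.trans (add_le_add le_rfl k4))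
        abel
    rw [Real.norm_of_nonneg (r := ‖y - z‖ ^ 2) (by positivity)]
    refine this.trans_eq ?_
    ring
  · refine ContinuousLinearMap.opNorm_le_bound _ (by positivity) fun v => ?_
    have := hE (fun σ => J x σ v - J y σ v)
      (fun σ => fderiv ℝ (a σ) (flow a σ t x) (J x σ v) -
        fderiv ℝ (a σ) (flow a σ t y) (J y σ v)) (E * ‖x - y‖ * (E * ‖v‖)) (by positivity)
      (by simp [J0])
      (fun σ => HasDerivAt.sub (by simpa using (J1 x σ).clm_apply (hasDerivAt_const σ v))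
        (by simpa using (J1 y σ).clm_apply (hasDerivAt_const σ v)))
      fun σ hσ => by
        have k1 := (fderiv ℝ (a σ) (flow a σ t x)).le_of_opNorm_le (hl σ hσ _)
          (J x σ v - J y σ v)
        have k2 := ContinuousLinearMap.le_of_opNorm_le_of_le _
          ((hm σ hσ _ _).trans (mul_le_mul_of_nonneg_left (lip σ hσ x y) (m0 σ)))
          ((J y σ).le_of_opNorm_le (nJ y σ hσ) v)
        have k3 := norm_add_le_of_le k1 k2
        rw [map_sub, sub_apply, sub_add_sub_cancel, mul_assoc] at k3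
        exact k3
    rw [sub_apply]
    refine this.trans_eq ?_
    ring

end Fl2X

theorem fl2 (hg : Gr) (ho : Ode) (hc : ContD) (h1 : Fl1) : Fl2 := by
  intro a ha s t
  have hf := h1 a ha
  choose J J0 J1 using Fl2X.exJ ho hc ha hf t
  refine ⟨fun z => ?_, fun l m cl cm l0 m0 hl hm => ?_⟩
  · obtain ⟨C, C1, hC⟩ := ha.bd' (max |t| |s|)
    exact ((Fl2X.key hg ha hf J0 J1 (s := s) (l := fun _ => C) (m := fun _ => C) continuous_const
      continuous_const (fun _ => by linarith) (fun _ => by linarith)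
      (fun σ hσ => (hC σ (Fl2X.abs_le hσ)).b1)
      (fun σ hσ => (hC σ (Fl2X.abs_le hσ)).b2)).1 z).differentiableAt
  · obtain ⟨k1, k2, k3⟩ := Fl2X.key hg ha hf J0 J1 cl cm l0 m0 hl hm
    simp only [fun z => (k1 z).fderiv]
    exact ⟨k2, k3⟩

end Vale.Agent.P107
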