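import Vale.Agent.P107.Basic2

/-! Problem P107: joint regularity of the flow in the initial time and the initial point. -/

open MeasureTheory Set Filter Topology
open scoped ENNReal RealInnerProductSpace ContDiff

noncomputable section
namespace Vale.Agent.P107

namespace Fl3X

/-- derivative of the flow in the initial time, on the diagonal -/
theorem back {a : ℝ → Z → Z} (ha : Reg a) (hf : FlP a) (t : ℝ) (z : Z) :
    HasDerivAt (fun t' => flow a t t' z) (-a t z) t := by
  have hc : Continuous (fun p : ℝ × ℝ => a p.1 (flow a p.1 p.2 z)) :=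
    ha.cont.comp (continuous_fst.prodMk (hf.cont.comp
      (continuous_fst.prodMk (continuous_snd.prodMk continuous_const))))
  rw [hasDerivAt_iff_isLittleO, Asymptotics.isLittleO_iff]
  intro ε hε
  obtain ⟨δ, hδ, h⟩ := Metric.continuousAt_iff.1 (hc.continuousAt (x := (t, t))) ε hε
  filter_upwards [Metric.ball_mem_nhds t hδ] with t' ht'
  have hd : ∀ σ ∈ uIcc t t', HasDerivWithinAt (fun σ => flow a σ t' z - σ • a t z)
      (a σ (flow a σ t' z) - a t z) (uIcc t t') σ := fun σ _ => by
    have h2 := (hf.isf.2 σ t' z).sub ((hasDerivAt_id σ).smul_const (a t z))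
    rw [one_smul] at h2
    exact h2.hasDerivWithinAt
  have hb : ∀ σ ∈ uIcc t t', ‖a σ (flow a σ t' z) - a t z‖ ≤ ε := fun σ hσ => by
    have h1 : dist ((σ, t') : ℝ × ℝ) (t, t) < δ := by
      rw [Prod.dist_eq, max_lt_iff]
      refine ⟨lt_of_le_of_lt ?_ ht', ht'⟩
      rw [dist_comm σ t, dist_comm t' t]
      exact Real.dist_left_le_of_mem_uIcc hσ
    have h2 := h h1
    rw [dist_eq_norm, hf.isf.1] at h2
    exact h2.le
  have key := (convex_uIcc t t').norm_image_sub_le_of_norm_hasDerivWithin_le hd hb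
    right_mem_uIcc left_mem_uIcc
  rw [hf.isf.1] at key ⊢
  have e : flow a t t' z - z - (t' - t) • -a t z =
      flow a t t' z - t • a t z - (z - t' • a t z) := by
    rw [smul_neg, sub_smul]; abel
  rw [e, norm_sub_rev t' t]
  exact key

theorem dtime {a : ℝ → Z → Z} (ha : Reg a) (hf : FlP a) (s t : ℝ) (z : Z)
    (hd : Differentiable ℝ (flow a s t)) :
    HasDerivAt (fun t' => flow a s t' z) (-fderiv ℝ (flow a s t) z (a t z)) t := by
  have h1 : HasFDerivAt (flow a s t) (fderiv ℝ (flow a s t) z) (flow a t t z) := by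
    rw [hf.isf.1]; exact (hd z).hasFDerivAt
  have h2 := h1.comp_hasDerivAt t (back ha hf t z)
  rw [map_neg] at h2
  have e : (fun t' => flow a s t' z) = flow a s t ∘ fun t' => flow a t t' z :=
    funext fun t' => (hf.comp s t t' z).symm
  rw [e]; exact h2

theorem contF (hc : ContD) (h2 : Fl2) {a : ℝ → Z → Z} (ha : Reg a) (hf : FlP a) (s : ℝ) :
    Continuous (fun p : ℝ × Z => fderiv ℝ (flow a s p.1) p.2) := by
  refine hc ℝ Z Z (fun t => flow a s t)
    (hf.cont.comp (continuous_const.prodMk continuous_id)) (fun t => (h2 a ha s t).1) fun t => ?_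
  obtain ⟨C, hC1, hC⟩ := ha.bd' (|s| + (|t| + 1))
  refine ⟨Real.exp (3 * ((|s| + (|t| + 1)) * C)) * ((|s| + (|t| + 1)) * C), ?_⟩
  have : ∀ᶠ t' in 𝓝 t, |t'| < |t| + 1 :=
    continuous_abs.continuousAt.eventually (gt_mem_nhds (by linarith))
  filter_upwards [this] with t' ht' x y
  have hσ : ∀ σ ∈ uIcc t' s, |σ| ≤ |s| + (|t| + 1) := fun σ hσ => by
    have h1 := abs_nonneg s
    have h2 := abs_nonneg t'
    have h3 := le_abs_self s
    have h4 := le_abs_self t'
    have h5 := neg_abs_le s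
    have h6 := neg_abs_le t'
    rw [abs_le]
    rcases mem_uIcc.1 hσ with h | h <;> constructor <;> linarith [h.1, h.2]
  have h0 : 0 ≤ C := by linarith
  have h3 := ((h2 a ha s t').2 (fun _ => C) (fun _ => C) continuous_const continuous_const
    (fun _ => h0) (fun _ => h0) (fun σ h => (hC σ (hσ σ h)).b1)
    (fun σ h => (hC σ (hσ σ h)).b2)).2 x y
  have h4 : |∫ _ in t'..s, C| ≤ (|s| + (|t| + 1)) * C := by
    rw [intervalIntegral.integral_const, smul_eq_mul, abs_mul, abs_of_nonneg h0]
    refine mul_le_mul_of_nonneg_right ((abs_sub s t').trans ?_) h0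
    linarith
  refine h3.trans ?_
  gcongr

end Fl3X

theorem fl3 (hc : ContD) (hj : JC1) (h1 : Fl1) (h2 : Fl2) : Fl3 := by
  intro a ha s
  have hf := h1 a ha
  have hD := Fl3X.contF hc h2 ha hf s
  have ht := fun t z => Fl3X.dtime ha hf s t z (h2 a ha s t).1
  have hC : ContDiff ℝ 1 (fun p : ℝ × Z => flow a s p.1 p.2) :=
    (hj Z Z (fun t => flow a s t) (fun t z => -fderiv ℝ (flow a s t) z (a t z))
      (hD.clm_apply ha.cont).neg (fun t => (h2 a ha s t).1) hD).1 ht
  refine ⟨hC, fun t z => ?_⟩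
  have hF := (hC.differentiable one_ne_zero (t, z)).hasFDerivAt
  have e1 : fderiv ℝ (fun p : ℝ × Z => flow a s p.1 p.2) (t, z) (1, 0) =
      -fderiv ℝ (flow a s t) z (a t z) := by
    have h3 : HasDerivAt (fun r : ℝ => ((r, z) : ℝ × Z)) (1, 0) t :=
      (hasDerivAt_id t).prodMk (hasDerivAt_const t z)
    have h4 := HasFDerivAt.comp_hasDerivAt (f := fun r : ℝ => ((r, z) : ℝ × Z)) t hF h3
    exact h4.unique (ht t z)
  have e2 : fderiv ℝ (fun p : ℝ × Z => flow a s p.1 p.2) (t, z) (0, a t z) =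
      fderiv ℝ (flow a s t) z (a t z) := by
    have h3 := (hF.comp z (hasFDerivAt_prodMk_right t z)).fderiv
    have h4 : flow a s t = (fun p : ℝ × Z => flow a s p.1 p.2) ∘ fun y => (t, y) := rfl
    rw [h4, h3]
    simp
  have e : ((1, a t z) : ℝ × Z) = (1, 0) + (0, a t z) := by simp
  rw [e, map_add, e1, e2, neg_add_cancel]

end Vale.Agent.P107
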