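import Vale.Agent.P107.Basic2

/-! Problem P107: the Liouville theorem. -/

open MeasureTheory Set Filter Topology
open scoped ENNReal RealInnerProductSpace ContDiff

noncomputable section
namespace Vale.Agent.P107

namespace Fl4X

theorem haar : (volume : Measure Z).IsAddHaarMeasure :=
  Measure.prod.instIsAddHaarMeasure (volume : Measure V3) (volume : Measure V3)

theorem deriv_int {g : ℝ × Z → ℝ} (hg : ContDiff ℝ 1 g) {t₀ : ℝ} {K : Set Z} (hK : IsCompact K)
    (h0 : ∀ t ∈ Metric.ball t₀ 1, ∀ z, z ∉ K → g (t, z) = 0) :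
    HasDerivAt (fun t => ∫ z, g (t, z)) (∫ z, fderiv ℝ g (t₀, z) (1, 0)) t₀ := by
  have c1 : Continuous fun p => fderiv ℝ g p (1, 0) :=
    (hg.continuous_fderiv one_ne_zero).clm_apply continuous_const
  have hd : ∀ t z, HasDerivAt (fun t => g (t, z)) (fderiv ℝ g (t, z) (1, 0)) t := fun t z =>
    (hg.differentiable one_ne_zero (t, z)).hasFDerivAt.comp_hasDerivAt t
      ((hasDerivAt_id t).prodMk (hasDerivAt_const t z))
  obtain ⟨C, hC⟩ := ((isCompact_closedBall t₀ 1).prod hK).exists_bound_of_continuousOn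
    c1.continuousOn
  have c2 : ∀ t, Continuous fun z => g (t, z) := fun t =>
    hg.continuous.comp (continuous_const.prodMk continuous_id)
  refine (hasDerivAt_integral_of_dominated_loc_of_deriv_le (μ := volume)
    (F := fun t z => g (t, z)) (F' := fun t z => fderiv ℝ g (t, z) (1, 0))
    (bound := K.indicator fun _ => C) (Metric.ball_mem_nhds t₀ one_pos)
    (Eventually.of_forall fun t => (c2 t).aestronglyMeasurable) ?_
    (c1.comp (continuous_const.prodMk continuous_id)).aestronglyMeasurable
    (Eventually.of_forall fun z t ht => ?_) ?_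
    (Eventually.of_forall fun z t _ => hd t z)).2
  · exact (c2 t₀).integrable_of_hasCompactSupport
      (HasCompactSupport.intro hK (h0 t₀ (Metric.mem_ball_self one_pos)))
  · by_cases hz : z ∈ K
    · rw [indicator_of_mem hz]
      exact hC _ ⟨Metric.ball_subset_closedBall ht, hz⟩
    · have e : (fun t => g (t, z)) =ᶠ[𝓝 t] fun _ => 0 := by
        filter_upwards [Metric.isOpen_ball.mem_nhds ht] with r hr using h0 r hr z hz
      rw [indicator_of_notMem hz,
        (hd t z).unique ((hasDerivAt_const t (0 : ℝ)).congr_of_eventuallyEq e), norm_zero]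
  · exact (integrable_indicator_iff hK.measurableSet).2
      (integrableOn_const hK.measure_lt_top.ne)

theorem div_zero {h : Z → ℝ} (hh : ContDiff ℝ 1 h) (hc : HasCompactSupport h) {A : Z → Z}
    (hA : ContDiff ℝ 1 A) (tr : ∀ z, LinearMap.trace ℝ Z (fderiv ℝ A z : Z →ₗ[ℝ] Z) = 0) :
    ∫ z, fderiv ℝ h z (A z) = 0 := by
  have := haar
  set b := Module.finBasis ℝ Z
  set L := fun i => LinearMap.toContinuousLinearMap (b.coord i) with hL
  have a1 : ∀ i, ContDiff ℝ 1 fun z => L i (A z) := fun i => (L i).contDiff.comp hA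
  have a2 : ∀ i z, fderiv ℝ (fun z => L i (A z)) z (b i) = b.repr (fderiv ℝ A z (b i)) i := by
    intro i z
    exact congrArg (fun T : Z →L[ℝ] ℝ => T (b i))
      ((L i).hasFDerivAt.comp z (hA.differentiable one_ne_zero z).hasFDerivAt).fderiv
  have e1 : ∀ z, fderiv ℝ h z (A z) = ∑ i, L i (A z) * fderiv ℝ h z (b i) := by
    intro z
    conv_lhs => rw [← b.sum_repr (A z)]
    rw [map_sum]
    refine Finset.sum_congr rfl fun i _ => ?_
    rw [map_smul]
    rfl
  have i1 : ∀ i, Integrable fun z => L i (A z) * fderiv ℝ h z (b i) := fun i =>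
    ((a1 i).continuous.mul ((hh.continuous_fderiv one_ne_zero).clm_apply
      continuous_const)).integrable_of_hasCompactSupport (hc.fderiv_apply ℝ _).mul_left
  have i2 : ∀ i, Integrable fun z => fderiv ℝ (fun z => L i (A z)) z (b i) * h z := fun i =>
    ((((a1 i).continuous_fderiv one_ne_zero).clm_apply continuous_const).mul
      hh.continuous).integrable_of_hasCompactSupport hc.mul_left
  have i3 : ∀ i, Integrable fun z => L i (A z) * h z := fun i =>
    ((a1 i).continuous.mul hh.continuous).integrable_of_hasCompactSupport hc.mul_left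
  simp only [e1]
  rw [integral_finsetSum _ fun i _ => i1 i,
    Finset.sum_congr rfl fun i _ => integral_mul_fderiv_eq_neg_fderiv_mul_of_integrable (i2 i)
      (i1 i) (i3 i) (fun z _ => (a1 i).differentiable one_ne_zero z)
      (fun z _ => hh.differentiable one_ne_zero z),
    Finset.sum_neg_distrib, ← integral_finsetSum _ fun i _ => i2 i, neg_eq_zero]
  have e2 : ∀ z, ∑ i, fderiv ℝ (fun z => L i (A z)) z (b i) * h z = 0 := by
    intro z
    have := tr z
    rw [LinearMap.trace_eq_matrix_trace ℝ b, Matrix.trace] at this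
    simp only [Matrix.diag, LinearMap.toMatrix_apply, ContinuousLinearMap.coe_coe] at this
    simp only [a2]
    rw [← Finset.sum_mul, this, zero_mul]
  simp only [e2, integral_zero]

theorem int_eq (h1 : Fl1) (h3 : Fl3) {a : ℝ → Z → Z} (ha : Reg a)
    (tr : ∀ t z, LinearMap.trace ℝ Z (fderiv ℝ (a t) z : Z →ₗ[ℝ] Z) = 0) {χ : Z → ℝ}
    (hχ : ContDiff ℝ 1 χ) (hc : HasCompactSupport χ) (s t : ℝ) :
    ∫ z, χ (flow a s t z) = ∫ z, χ z := by
  have P := h1 a ha
  obtain ⟨d1, d2⟩ := h3 a ha s
  have hg : ContDiff ℝ 1 fun p : ℝ × Z => χ (flow a s p.1 p.2) := hχ.comp d1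
  have key : ∀ t₀, HasDerivAt (fun t => ∫ z, χ (flow a s t z)) 0 t₀ := by
    intro t₀
    have hK : IsCompact ((fun p : ℝ × Z => flow a p.1 s p.2) ''
        (Metric.closedBall t₀ 1 ×ˢ tsupport χ)) :=
      ((isCompact_closedBall t₀ 1).prod hc).image
        (P.cont.comp (continuous_fst.prodMk (continuous_const.prodMk continuous_snd)))
    have h0 : ∀ t ∈ Metric.ball t₀ 1, ∀ z, z ∉ (fun p : ℝ × Z => flow a p.1 s p.2) ''
        (Metric.closedBall t₀ 1 ×ˢ tsupport χ) → χ (flow a s t z) = 0 := by
      intro t ht z hz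
      refine image_eq_zero_of_notMem_tsupport fun h => hz ⟨(t, flow a s t z),
        ⟨Metric.ball_subset_closedBall ht, h⟩, ?_⟩
      simp only [P.comp, P.isf.1]
    have h2 := deriv_int hg hK h0
    have s1 : ContDiff ℝ 1 fun z => χ (flow a s t₀ z) :=
      hg.comp (contDiff_const.prodMk contDiff_id)
    have h4 := div_zero s1 (HasCompactSupport.intro hK (h0 t₀ (Metric.mem_ball_self one_pos)))
      (ha.contDiff t₀) (tr t₀)
    have e : ∀ z, fderiv ℝ (fun p : ℝ × Z => χ (flow a s p.1 p.2)) (t₀, z) (1, 0) =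
        -fderiv ℝ (fun z => χ (flow a s t₀ z)) z (a t₀ z) := by
      intro z
      have e1 : fderiv ℝ (fun z => χ (flow a s t₀ z)) z (a t₀ z) =
          fderiv ℝ (fun p : ℝ × Z => χ (flow a s p.1 p.2)) (t₀, z) (0, a t₀ z) := by
        exact congrArg (fun T : Z →L[ℝ] ℝ => T (a t₀ z))
          ((hg.differentiable one_ne_zero (t₀, z)).hasFDerivAt.comp z
            (hasFDerivAt_prodMk_right t₀ z)).fderiv
      have e2 : fderiv ℝ (fun p : ℝ × Z => χ (flow a s p.1 p.2)) (t₀, z) (1, a t₀ z) = 0 := by
        refine (congrArg (fun T : ℝ × Z →L[ℝ] ℝ => T (1, a t₀ z))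
          ((hχ.differentiable one_ne_zero _).hasFDerivAt.comp (t₀, z)
            (d1.differentiable one_ne_zero (t₀, z)).hasFDerivAt).fderiv).trans ?_
        simp only [ContinuousLinearMap.comp_apply, d2, map_zero]
      rw [e1, eq_neg_iff_add_eq_zero, ← map_add, Prod.mk_add_mk, add_zero, zero_add, e2]
    simp only [e, integral_neg, h4, neg_zero] at h2
    exact h2
  have := is_const_of_deriv_eq_zero (fun t => (key t).differentiableAt) (fun t => (key t).deriv) t s
  simpa only [P.isf.1] using this

end Fl4X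

theorem fl4 (h1 : Fl1) (h3 : Fl3) : Fl4 := by
  intro a ha tr s t
  have := Fl4X.haar
  have P := h1 a ha
  have s1 : ContDiff ℝ 1 (flow a s t) := (h3 a ha s).1.comp (contDiff_const.prodMk contDiff_id)
  have hl : ∀ z, flow a t s (flow a s t z) = z := fun z => by rw [P.comp, P.isf.1]
  have hinj : InjOn (flow a s t) univ := fun x _ y _ h => by rw [← hl x, h, hl]
  have him : flow a s t '' univ = univ :=
    eq_univ_of_forall fun y => ⟨flow a t s y, mem_univ _, by rw [P.comp, P.isf.1]⟩
  have hd : ∀ x ∈ univ, HasFDerivWithinAt (flow a s t) (fderiv ℝ (flow a s t) x) univ x :=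
    fun x _ => (s1.differentiable one_ne_zero x).hasFDerivAt.hasFDerivWithinAt
  have c1 : Continuous fun x => |(fderiv ℝ (flow a s t) x).det| :=
    (ContinuousLinearMap.continuous_det.comp (s1.continuous_fderiv one_ne_zero)).abs
  have h2 : ∀ᵐ x ∂(volume : Measure Z), |(fderiv ℝ (flow a s t) x).det| = 1 := by
    refine ae_eq_of_integral_contDiff_smul_eq c1.locallyIntegrable
      (continuous_const.locallyIntegrable) fun χ hχ hc => ?_
    have e1 := integral_image_eq_integral_abs_det_fderiv_smul volume MeasurableSet.univ hd hinj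
      (fun z => χ (flow a t s z))
    rw [him, Measure.restrict_univ, Fl4X.int_eq h1 h3 ha tr (hχ.of_le (by simp)) hc] at e1
    simp only [hl, smul_eq_mul] at e1
    simp only [smul_eq_mul, one_mul, mul_comm (χ _)]
    exact e1.symm
  have h4 := map_withDensity_abs_det_fderiv_eq_addHaar volume MeasurableSet.univ.nullMeasurableSet
    hd hinj
  rw [him, Measure.restrict_univ, withDensity_congr_ae (g := 1)
    (h2.mono fun x hx => by simp [hx]), withDensity_one] at h4
  exact ⟨s1.continuous.measurable, h4⟩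

end Vale.Agent.P107
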