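import Vale.Agent.P107.Basic2

/-! Problem P107: the advanced potential solves the wave equation. -/

open MeasureTheory Set Filter Topology
open scoped ENNReal RealInnerProductSpace ContDiff

noncomputable section
namespace Vale.Agent.P107

namespace FundX

/-- the derivative of `f` at `w` in the direction `ee j` is `d` -/
def HD (w : V3) (j : Fin 3) (f : V3 → ℝ) (d : ℝ) : Prop :=
  DifferentiableAt ℝ f w ∧ fderiv ℝ f w (ee j) = d

variable {w : V3} {j : Fin 3} {f g : V3 → ℝ} {a b : ℝ} {φ : ℝ × V3 → ℝ}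

theorem HD.mul (h : HD w j f a) (h' : HD w j g b) :
    HD w j (fun x => f x * g x) (a * g w + f w * b) :=
  ⟨h.1.mul h'.1, by
    rw [fderiv_fun_mul h.1 h'.1, ← h.2, ← h'.2]
    simp only [_root_.add_apply, _root_.smul_apply, smul_eq_mul]
    ring⟩

theorem HD.sub (h : HD w j f a) (h' : HD w j g b) : HD w j (fun x => f x - g x) (a - b) :=
  ⟨h.1.sub h'.1, by rw [fderiv_fun_sub h.1 h'.1, ← h.2, ← h'.2]; rfl⟩

theorem hd_coord (w : V3) (j : Fin 3) : HD w j (fun x => x j) 1 := by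
  have h : HasFDerivAt (fun x : V3 => x j) (EuclideanSpace.proj (𝕜 := ℝ) j : V3 →L[ℝ] ℝ) w :=
    (EuclideanSpace.proj (𝕜 := ℝ) j : V3 →L[ℝ] ℝ).hasFDerivAt
  exact ⟨h.differentiableAt, by simp [h.fderiv, ee_apply]⟩

theorem hd_norm (hw : w ≠ 0) (j : Fin 3) : HD w j (fun x => ‖x‖) (‖w‖⁻¹ * w j) := by
  have h1 : DifferentiableAt ℝ (fun x : V3 => ‖x‖) w :=
    (contDiffAt_norm ℝ (n := 1) hw).differentiableAt one_ne_zero
  have h2 := (HD.mul (j := j) ⟨h1, rfl⟩ ⟨h1, rfl⟩).2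
  simp only [← pow_two] at h2
  rw [(hasStrictFDerivAt_norm_sq w).hasFDerivAt.fderiv] at h2
  have h3 : ‖w‖ ≠ 0 := norm_ne_zero_iff.2 hw
  simp only [_root_.smul_apply, innerSL_apply_apply, real_inner_comm _ w, inner_ee,
    nsmul_eq_mul, Nat.cast_ofNat] at h2
  refine ⟨h1, ?_⟩
  field_simp
  linarith

theorem hd_inv (hw : w ≠ 0) (j : Fin 3) : HD w j (fun x => ‖x‖⁻¹) (-(‖w‖⁻¹ ^ 3 * w j)) := by
  have h := (hasDerivAt_inv (norm_ne_zero_iff.2 hw)).comp_hasFDerivAt w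
    (hd_norm hw j).1.hasFDerivAt
  refine ⟨h.differentiableAt, (congrArg (fun L : V3 →L[ℝ] ℝ => L (ee j)) h.fderiv).trans ?_⟩
  simp only [_root_.smul_apply, (hd_norm hw j).2, smul_eq_mul]
  ring

/-- restriction to the forward cone -/
def LL (p : ℝ × V3) (φ : ℝ × V3 → ℝ) (w : V3) : ℝ := φ (p.1 + ‖w‖, p.2 + w)

theorem hd_LL (h : ContDiff ℝ ∞ φ) (p : ℝ × V3) (hw : w ≠ 0) (j : Fin 3) :
    HD w j (LL p φ) (‖w‖⁻¹ * w j * LL p (dt φ) w + LL p (dx j φ) w) := by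
  have h1 := (h.differentiable (by simp) (p.1 + ‖w‖, p.2 + w)).hasFDerivAt.comp w
    (((hd_norm hw j).1.hasFDerivAt.const_add p.1).prodMk ((hasFDerivAt_id w).const_add p.2))
  refine ⟨h1.differentiableAt, (congrArg (fun L : V3 →L[ℝ] ℝ => L (ee j)) h1.fderiv).trans ?_⟩
  simp only [ContinuousLinearMap.comp_apply, ContinuousLinearMap.prod_apply, (hd_norm hw j).2,
    ContinuousLinearMap.id_apply]
  exact (dD_eq φ _ _ _).trans (by rw [inner_ee]; rfl)

theorem cd_LL (h : ContDiff ℝ ∞ φ) (p : ℝ × V3) (hw : w ≠ 0) : ContDiffAt ℝ 1 (LL p φ) w :=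
  (h.of_le (by simp)).contDiffAt.comp w ((contDiffAt_const.add (contDiffAt_norm ℝ hw)).prodMk
    (contDiffAt_const.add contDiffAt_id))

theorem int_LL (hp : Pol) (h : Test φ) (p : ℝ × V3) : Integrable fun w => ‖w‖⁻¹ * LL p φ w := by
  obtain ⟨c, -, -, hc⟩ := hp
  obtain ⟨R, -, hR⟩ := h.bound
  obtain ⟨C, hC⟩ := h.compact.exists_bound_of_continuous h.smooth.continuous
  have h0 : 0 ≤ C := (norm_nonneg _).trans (hC 0)
  have hs := h.smooth.continuous
  have m : Measurable fun w : V3 => ‖w‖⁻¹ * LL p φ w := by unfold LL; fun_prop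
  refine ((hc ℝ _ (Metric.ball 0 (|R - p.1| + 1)) (|R - p.1| + 1) 0 (C * (|R - p.1| + 1)) 0 1
    (by positivity) (by positivity) le_rfl one_pos le_rfl (fun w hw h1 => ?_)
    measurableSet_ball).2 m.aestronglyMeasurable).integrable_of_forall_notMem_eq_zero
      fun w hw => ?_
  · have h2 := norm_pos_iff.2 h1
    rw [mem_ball_zero_iff] at hw
    rw [zero_mul, add_zero, norm_mul, norm_inv, norm_norm, le_div_iff₀ (by positivity)]
    calc _ = ‖LL p φ w‖ * ‖w‖ := by field_simp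
      _ ≤ _ := mul_le_mul (hC _) hw.le h2.le h0
  · rw [mem_ball_zero_iff, not_lt] at hw
    refine mul_eq_zero_of_right _ (by_contra fun h1 => ?_)
    linarith [(hR _ h1).2.1, le_abs_self (R - p.1)]

/-- the vector field whose divergence is the wave operator -/
def MM (p : ℝ × V3) (φ : ℝ × V3 → ℝ) (j : Fin 3) (w : V3) : ℝ :=
  w j * (‖w‖⁻¹ * ‖w‖⁻¹) * LL p (dt φ) w - ‖w‖⁻¹ * LL p (dx j φ) w -
    w j * (‖w‖⁻¹ * ‖w‖⁻¹ * ‖w‖⁻¹) * LL p φ w

theorem div_MM (h : ContDiff ℝ ∞ φ) (p : ℝ × V3) (hw : w ≠ 0) :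
    ∑ j, fderiv ℝ (MM p φ j) w (ee j) =
      ‖w‖⁻¹ * LL p (dt (dt φ)) w - ∑ j, ‖w‖⁻¹ * LL p (dx j (dx j φ)) w := by
  have e := fun j => (((((hd_coord w j).mul ((hd_inv hw j).mul (hd_inv hw j))).mul
    (hd_LL (contDiff_dD h (1, 0)) p hw j)).sub ((hd_inv hw j).mul
      (hd_LL (contDiff_dD h (0, ee j)) p hw j))).sub (((hd_coord w j).mul
        (((hd_inv hw j).mul (hd_inv hw j)).mul (hd_inv hw j))).mul (hd_LL h p hw j))).2
  have c : ∀ j, dt (dD (0, ee j) φ) = dx j (dD (1, 0) φ) := fun j =>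
    dD_comm (h.of_le (by norm_cast)) _ _
  have h1 : ‖w‖⁻¹ ^ 2 * (w 0 ^ 2 + w 1 ^ 2 + w 2 ^ 2) = 1 := by
    rw [← norm_sq_V3, ← mul_pow, inv_mul_cancel₀ (norm_ne_zero_iff.2 hw), one_pow]
  refine (Finset.sum_congr rfl fun j _ => e j).trans ?_
  simp only [Fin.sum_univ_three, c]
  simp only [dt, dx]
  linear_combination (‖w‖⁻¹ * LL p (dD (1, 0) (dD (1, 0) φ)) w -
    3 * ‖w‖⁻¹ ^ 2 * LL p (dD (1, 0) φ) w + 3 * ‖w‖⁻¹ ^ 3 * LL p φ w) * h1

end FundX

open FundX in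
theorem fund (hs : SI) (hp : Pol) (ha : AdvP) : Fund := by
  intro φ h p
  have e1 : ∀ v, dD v (dD v (adv φ)) p = om⁻¹ * ∫ w, ‖w‖⁻¹ * FundX.LL p (dD v (dD v φ)) w :=
    fun v => by
      rw [(ha φ h).2.2, (ha _ (h.dD v)).2.2]
      rfl
  have i1 := fun v => int_LL hp ((h.dD v).dD v) p
  have i2 := integrable_finsetSum Finset.univ fun j _ => i1 (0, ee j)
  have e2 : (fun w => ∑ j, fderiv ℝ (MM p φ j) w (ee j)) =ᵐ[volume] _ :=
    ((volume : Measure V3).ae_ne 0).mono fun w hw => div_MM h.smooth p hw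
  obtain ⟨R, -, hR⟩ := h.compact.isCompact.isBounded.exists_pos_norm_le
  obtain ⟨C, -, hC⟩ := B3.of_compact (h.smooth.of_le (by norm_cast)) h.compact
  have b1 : ∀ v q, ‖v‖ ≤ 1 → |dD v φ q| ≤ C := fun v q hv =>
    ((fderiv ℝ φ q).le_of_opNorm_le (hC.b1 q) v).trans (mul_le_of_le_one_right hC.b_nonneg hv)
  have key := hs.2 ℝ (MM p φ) (-φ p) (R - p.1) (3 * C) (fun j w hw => ?_) (fun j w hw => ?_)
    (fun j w hw h1 => ?_) (((i1 (1, 0)).sub i2).congr e2.symm)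
  · rw [integral_congr_ae e2] at key
    simp only [dt, dx, e1] at key ⊢
    rw [integral_sub (i1 (1, 0)) i2, integral_finsetSum _ fun j _ => i1 (0, ee j)] at key
    rw [← Finset.mul_sum, ← mul_sub, key, smul_neg, neg_neg, smul_eq_mul,
      inv_mul_cancel_left₀ hs.1.ne']
  · have c1 : ContDiffAt ℝ 1 (fun x : V3 => ‖x‖⁻¹) w :=
      (contDiffAt_norm ℝ hw).inv (norm_ne_zero_iff.2 hw)
    have c2 : ContDiffAt ℝ 1 (fun x : V3 => x j) w :=
      (EuclideanSpace.proj (𝕜 := ℝ) j : V3 →L[ℝ] ℝ).contDiff.contDiffAt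
    exact ((((c2.mul (c1.mul c1)).mul (cd_LL (contDiff_dD h.smooth _) p hw)).sub
      (c1.mul (cd_LL (contDiff_dD h.smooth _) p hw))).sub
      ((c2.mul ((c1.mul c1).mul c1)).mul (cd_LL h.smooth p hw))).contDiffWithinAt
  · have h1 : (p.1 + ‖w‖, p.2 + w) ∉ tsupport φ := fun h1 => by
      linarith [(le_abs_self _).trans ((norm_fst_le (p.1 + ‖w‖, p.2 + w)).trans (hR _ h1))]
    have h2 : ∀ v, FundX.LL p (dD v φ) w = 0 := fun v =>
      image_eq_zero_of_notMem_tsupport (f := dD v φ) fun h2 => h1 (tsupport_fderiv_apply_subset ℝ v h2)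
    have h3 : FundX.LL p φ w = 0 := image_eq_zero_of_notMem_tsupport (f := φ) h1
    simp only [MM, dt, dx, h2, h3, mul_zero, sub_zero]
  · have r0 := norm_pos_iff.2 hw
    have a1 : |hat w j| ≤ 1 := (PiLp.norm_apply_le (hat w) j).trans (norm_hat_le w)
    have a2 : |FundX.LL p (dt φ) w| ≤ C := b1 _ _ (by simp)
    have a3 : |FundX.LL p (dx j φ) w| ≤ C := b1 _ _ (by simp [norm_ee])
    have a4 : |FundX.LL p φ w - φ p| ≤ C * ‖w‖ :=
      (hC.lip (p.1 + ‖w‖, p.2 + w) p).trans_eq (by simp [Prod.norm_def])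
    have a5 : |(FundX.LL p φ w - φ p) / ‖w‖| ≤ C := by
      rwa [abs_div, abs_norm, div_le_iff₀ r0]
    have e3 : MM p φ j w - (hat w j / ‖w‖ ^ 2) • -φ p = (hat w j * FundX.LL p (dt φ) w -
        FundX.LL p (dx j φ) w - hat w j * ((FundX.LL p φ w - φ p) / ‖w‖)) / ‖w‖ := by
      simp only [MM, hat, PiLp.smul_apply, smul_eq_mul]
      field_simp
      ring
    rw [e3, norm_div, norm_norm]
    refine div_le_div_of_nonneg_right ?_ r0.le
    refine (norm_sub_le _ _).trans ((add_le_add_left (norm_sub_le _ _) _).trans ?_)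
    simp only [Real.norm_eq_abs, abs_mul]
    have := mul_le_mul a1 a2 (abs_nonneg _) zero_le_one
    have := mul_le_mul a1 a5 (abs_nonneg _) zero_le_one
    linarith

end Vale.Agent.P107
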