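import Vale.Agent.P107.Basic2

/-! Problem P107: the pairing of the particle part of the field with a test function. -/

open MeasureTheory Set Filter Topology
open scoped ENNReal RealInnerProductSpace ContDiff

noncomputable section
namespace Vale.Agent.P107
namespace GPX

theorem rad (hp : Pol) {a : V3 → ℝ} (ha : Continuous a) {T : ℝ} (hT : ∀ w, a w ≠ 0 → ‖w‖ ≤ T) :
    Integrable fun w : V3 => |a w| * (1 / ‖w‖ ^ 2) := by
  obtain ⟨c, -, -, h⟩ := hp
  obtain ⟨M, hM⟩ := ha.bounded_above_of_compact_support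
    (HasCompactSupport.intro (isCompact_closedBall 0 T) fun w hw =>
      not_not.1 fun c => hw (mem_closedBall_zero_iff.2 (hT w c)))
  have h1 := (h ℝ (fun w : V3 => |a w| * (1 / ‖w‖ ^ 2)) (Metric.ball 0 (|T| + 1)) (|T| + 1) 0 M 0 1
    (by positivity) ((norm_nonneg _).trans (hM 0)) le_rfl one_pos Subset.rfl (fun w _ _ => by
      rw [Real.norm_of_nonneg (by positivity), zero_mul, add_zero, mul_one_div]
      exact div_le_div_of_nonneg_right (hM w) (by positivity)) measurableSet_ball).2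
    (Measurable.aestronglyMeasurable (by fun_prop))
  refine h1.integrable_of_forall_notMem_eq_zero fun w hw => ?_
  have e : a w = 0 :=
    not_not.1 fun c => hw (mem_ball_zero_iff.2 (by linarith [hT w c, le_abs_self T]))
  rw [e, abs_zero, zero_mul]

theorem swap (hp : Pol) (hk : KL) {a g : V3 → ℝ} (ha : Continuous a) (hg : Continuous g) {T R : ℝ}
    (hT : ∀ w, a w ≠ 0 → ‖w‖ ≤ T) (hR : ∀ v, g v ≠ 0 → ‖v‖ ≤ R) (k : Z) :
    ∫ w, a w • ∫ v, g v • kEB w v k = ∫ v, g v • ∫ w, a w • kEB w v k := by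
  obtain ⟨kB, h1, -, -, -, h2⟩ := hk
  obtain ⟨C, hC, h3⟩ := h2 T R
  have h4 : Integrable fun v : V3 => C * (1 + ‖k‖) * |g v| :=
    (hg.integrable_of_hasCompactSupport (HasCompactSupport.intro (isCompact_closedBall 0 R)
      fun v hv => not_not.1 fun c => hv (mem_closedBall_zero_iff.2 (hR v c)))).abs.const_mul _
  have h5 : Integrable (Function.uncurry fun w v : V3 => a w • g v • kEB w v k)
      (volume.prod volume) := by
    refine ((rad hp ha hT).mul_prod h4).mono' (Measurable.aestronglyMeasurable (by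
      unfold kEB Function.uncurry
      fun_prop)) ?_
    filter_upwards [Measure.quasiMeasurePreserving_fst.ae (Measure.ae_ne volume (0 : V3))] with z hz
    change ‖a z.1 • g z.2 • kEB z.1 z.2 k‖ ≤ _
    by_cases c1 : a z.1 = 0
    · simp [c1]
    by_cases c2 : g z.2 = 0
    · simp [c2]
    obtain ⟨b1, b2, -⟩ := h3 z.1 z.2 hz (hT _ c1) (hR _ c2)
    have b3 : ‖kEB z.1 z.2 k‖ ≤ C / ‖z.1‖ ^ 2 + C / ‖z.1‖ ^ 2 * ‖k‖ := by
      rw [h1]
      exact (norm_add_le _ _).trans (add_le_add b1 ((kB z.1 z.2).le_of_opNorm_le b2 k))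
    rw [norm_smul, norm_smul, Real.norm_eq_abs, Real.norm_eq_abs]
    refine (mul_le_mul_of_nonneg_left (mul_le_mul_of_nonneg_left b3 (abs_nonneg _))
      (abs_nonneg _)).trans (le_of_eq ?_)
    ring
  simp only [← integral_smul]
  rw [integral_integral_swap h5]
  simp only [smul_comm (a _)]

theorem mom {g : Z → ℝ} {y : V3} (hg : Continuous fun v => g (y, v))
    (hc : HasCompactSupport fun v => g (y, v)) (b : V3) (c : ℝ) {D : V3 → Z} (hD : Continuous D) :
    ∫ v, g (y, v) • (((b + c • uu v, cross (uu v) b) : Z) + D v) =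
      (rho g y • b + c • cur g y, cross (cur g y) b) + ∫ v, g (y, v) • D v := by
  let L : V3 →L[ℝ] Z := (c • ContinuousLinearMap.id ℝ V3).prod (crossL.flip b)
  have h1 := hg.integrable_of_hasCompactSupport (μ := volume) hc
  have h2 : Integrable fun v => g (y, v) • uu v :=
    (hg.smul continuous_uu).integrable_of_hasCompactSupport hc.smul_right
  have h3 : Integrable fun v => g (y, v) • D v :=
    (hg.smul hD).integrable_of_hasCompactSupport hc.smul_right
  have e : ∀ v, g (y, v) • (((b + c • uu v, cross (uu v) b) : Z) + D v) =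
      g (y, v) • ((b, 0) : Z) + L (g (y, v) • uu v) + g (y, v) • D v := fun v => by
    rw [map_smul, ← smul_add, ← smul_add]
    simp [L]
  simp only [e]
  have h4 : Integrable fun v => g (y, v) • ((b, 0) : Z) + L (g (y, v) • uu v) :=
    (h1.smul_const _).add (L.integrable_comp h2)
  rw [integral_add h4 h3,
    integral_add (h1.smul_const _) (L.integrable_comp h2), integral_smul_const,
    L.integral_comp_comm h2]
  simp [L, rho, cur]

theorem src_int (hi : Ibp) {f : ℝ → Z → ℝ} (hf : Den f) {ψ : ℝ × V3 → ℝ} (h1 : ContDiff ℝ 1 ψ)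
    (h2 : Cpt ψ) : IntegrableOn (src ψ f) Hs := by
  have c1 := hf.crho
  have c2 := hf.ccur
  have e : src ψ f = fun p => ∑ j, dx j ψ p • ((rho (f p.1) p.2 • ee j,
      cross (cur (f p.1) p.2) (ee j)) : Z) + dt ψ p • ((cur (f p.1) p.2, 0) : Z) := by
    funext p
    simp only [src, gx_eq_sum, Fin.sum_univ_three, cross_add_right, cross_smul_right,
      Prod.smul_mk, Prod.mk_add_mk, smul_add, smul_zero, add_zero, smul_comm (rho (f p.1) p.2)]
  rw [e]
  exact (integrable_finsetSum _ fun j _ => ((hi Z).2.1 _ _ (continuous_dD h1 _) (h2.dD _)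
    ((c1.smul continuous_const).prodMk (Continuous.cross' c2 continuous_const))).1).add
    ((hi Z).2.1 _ _ (continuous_dD h1 _) (h2.dD _) (c2.prodMk continuous_const)).1

end GPX

theorem gP (hs : SI) (hp : Pol) (hi : Ibp) (hk : KL) (hd : DenS) (hl : VlS) (hh : HDr) (ha : AdvP)
    (hc : Chi) (hI : KI) (hr : RF) (hw : WV) : GP := by
  intro f₀ E₀ B₀ hD F hF φ hφ
  obtain ⟨hV, -⟩ := hl f₀ E₀ B₀ hD F hF
  obtain ⟨a1, a2, -⟩ := ha φ hφ
  obtain ⟨c1, ⟨T, c2⟩, -⟩ := hc φ hφ
  obtain ⟨w1, w2⟩ := (hw f₀ E₀ B₀ hD F hF Z (chi φ) c1).2 T c2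
  obtain ⟨R₀, -, hR₀⟩ := hφ.bound
  rw [(hr _ φ ((hh f₀ E₀ B₀ hD).2.2.2 F hF).1 hφ).2, sub_eq_add_neg, ← w2, ← integral_add
    (GPX.src_int hi (hd _ hV.reg hV.spa).1 (a1.of_le (by simp)) a2) w1, ← integral_smul]
  refine integral_congr_ae (Eventually.of_forall fun p => ?_)
  obtain ⟨R, hR⟩ := hV.spa |p.1|
  have g1 : Continuous fun v => ff f₀ F p.1 (p.2, v) :=
    (hV.reg.continuous p.1).comp (continuous_const.prodMk continuous_id)
  have g2 : ∀ v, ff f₀ F p.1 (p.2, v) ≠ 0 → ‖v‖ ≤ R := fun v hv =>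
    (norm_snd_le (p.2, v)).trans (hR p.1 le_rfl _ hv)
  have g3 := GPX.swap hp hk (a := fun w => φ (p.1 + ‖w‖, p.2 + w))
    (hφ.smooth.continuous.comp (by fun_prop)) g1 (T := R₀ - p.1)
    (fun w hw => by linarith [(hR₀ _ hw).2.1]) g2 (F p.1 p.2)
  have g4 : Continuous fun v => fderiv ℝ (chi φ) (p.1, (p.2, v)) (1, vf F p.1 (p.2, v)) := by
    refine ((c1.continuous_fderiv one_ne_zero).comp (by fun_prop)).clm_apply ?_
    have := hF.continuous p.1
    unfold vf frc
    fun_prop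
  refine Eq.trans ?_ (GPX.mom g1 (HasCompactSupport.intro (isCompact_closedBall 0 R)
    fun v hv => not_not.1 fun c => hv (mem_closedBall_zero_iff.2 (g2 v c))) _ _ g4)
  refine (congrArg (om⁻¹ • ·) g3).trans ?_
  simp only [← integral_smul om⁻¹ (fun v => ff f₀ F p.1 (p.2, v) • _), smul_comm om⁻¹,
    (hI φ hφ p.1 p.2 _ (F p.1 p.2)).2]
  rfl

end Vale.Agent.P107
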