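import Vale.Agent.P107.Basic

namespace Vale.Agent.P107

namespace GeoX

theorem step {η c x : ℝ} (hη : 0 < η) (hc : c * ((2 : ℝ) ^ η - 1) = 1) (hc0 : 0 < c) (hx : 0 < x) :
    min (1 / x) x ^ η + c * (2 ^ η * min 1 (1 / (2 * x)) ^ η + (2 ^ η - min (2 * x) 2 ^ η)) ≤
      c * (2 ^ η * min 1 (1 / x) ^ η + (2 ^ η - min x 2 ^ η)) := by
  rcases le_total 1 x with h | h
  · have h1 : 1 / x ≤ 1 := (div_le_one hx).2 h
    have h2 : 1 / (2 * x) ≤ 1 := (div_le_one (by positivity)).2 (by linarith)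
    have h3 : min x 2 ^ η ≤ min (2 * x) 2 ^ η :=
      Real.rpow_le_rpow (by positivity) (min_le_min_right _ (by linarith)) hη.le
    have h4 : (2 : ℝ) ^ η * (1 / (2 * x)) ^ η = (1 / x) ^ η := by
      rw [← Real.mul_rpow (by norm_num) (by positivity)]
      congr 1
      field_simp
    have h5 := mul_le_mul_of_nonneg_left h3 hc0.le
    rw [min_eq_left (h1.trans h), min_eq_right h1, min_eq_right h2, h4]
    have h6 : c * ((2 : ℝ) ^ η - 1) * (1 / x) ^ η = 1 * (1 / x) ^ η := by rw [hc]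
    linarith
  · have h1 : 1 ≤ 1 / x := (one_le_div hx).2 h
    have h3 : min 1 (1 / (2 * x)) ^ η ≤ 1 :=
      Real.rpow_le_one (by positivity) (min_le_left _ _) hη.le
    have h5 := mul_le_mul_of_nonneg_left h3 (by positivity : 0 ≤ c * (2 : ℝ) ^ η)
    rw [min_eq_right (h.trans h1), min_eq_left h1, min_eq_left (by linarith : 2 * x ≤ 2),
      min_eq_left (by linarith : x ≤ 2), Real.mul_rpow (by norm_num) hx.le, Real.one_rpow]
    have h6 : c * ((2 : ℝ) ^ η - 1) * x ^ η = 1 * x ^ η := by rw [hc]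
    linarith

theorem pot {η c : ℝ} (hη : 0 < η) (hc : c * ((2 : ℝ) ^ η - 1) = 1) (hc0 : 0 < c) (n : ℕ) :
    ∀ x : ℝ, 0 < x → ∑ j ∈ Finset.range n, min (dy j / x) (x / dy j) ^ η ≤
      c * (2 ^ η * min 1 (1 / x) ^ η + (2 ^ η - min x 2 ^ η)) := by
  induction n with
  | zero =>
    intro x hx
    have h : min x 2 ^ η ≤ 2 ^ η := Real.rpow_le_rpow (by positivity) (min_le_right _ _) hη.le
    have h2 : 0 ≤ (2 : ℝ) ^ η - min x 2 ^ η := by linarith
    rw [Finset.sum_range_zero]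
    positivity
  | succ n ih =>
    intro x hx
    have e : ∀ j, min (dy (j + 1) / x) (x / dy (j + 1)) = min (dy j / (2 * x)) (2 * x / dy j) := by
      intro j
      unfold dy
      congr 1 <;> field_simp <;> ring
    have e0 : min (dy 0 / x) (x / dy 0) = min (1 / x) x := by simp [dy]
    rw [Finset.sum_range_succ', e0]
    simp only [e]
    linarith [ih (2 * x) (by positivity), step hη hc hc0 hx]

end GeoX

theorem geo : Geo := by
  intro η hη
  have h1 : 0 < (2 : ℝ) ^ η - 1 := sub_pos.2 (Real.one_lt_rpow (by norm_num) hη)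
  have hc0 : 0 < 1 / ((2 : ℝ) ^ η - 1) := by positivity
  have key : ∀ (n : ℕ) (x : ℝ), 0 < x → ∑ j ∈ Finset.range n, min (dy j / x) (x / dy j) ^ η ≤
      1 / ((2 : ℝ) ^ η - 1) * (2 * 2 ^ η) := by
    intro n x hx
    refine (GeoX.pot hη (by field_simp) hc0 n x hx).trans (mul_le_mul_of_nonneg_left ?_ hc0.le)
    have h3 : min 1 (1 / x) ^ η ≤ 1 := Real.rpow_le_one (by positivity) (min_le_left _ _) hη.le
    have h4 := mul_le_mul_of_nonneg_left h3 (by positivity : 0 ≤ (2 : ℝ) ^ η)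
    have h5 : 0 ≤ min x 2 ^ η := by positivity
    linarith
  refine ⟨1 / ((2 : ℝ) ^ η - 1) * (2 * 2 ^ η), by positivity, fun n x hx => ⟨key n x hx, ?_⟩⟩
  refine le_trans (le_of_eq (Finset.sum_congr rfl fun j _ => ?_)) (key n (1 / x) (by positivity))
  rw [min_comm]
  unfold dy
  congr 2
  · rw [one_div_pow]
    field_simp
  · rw [one_div_pow]
    field_simp

end Vale.Agent.P107
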