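import Vale.Agent.P107.Basic2

/-! Problem P107: the continuation argument and the assembly of the global solution. -/

open MeasureTheory Set Filter Topology
open scoped ENNReal RealInnerProductSpace ContDiff

noncomputable section
namespace Vale.Agent.P107

namespace GlobX

theorem K0_bound {f₀ : Z → ℝ} {E₀ B₀ : V3 → V3} (h : Datum f₀ E₀ B₀) :
    ∃ C : ℝ, 0 ≤ C ∧ ∀ x, ‖K0 E₀ B₀ x‖ ≤ C := by
  obtain ⟨C1, h1⟩ := h.E_bdd 0
  obtain ⟨C2, h2⟩ := h.B_bdd 0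
  refine ⟨max (max C1 C2) 0, le_max_right _ _, fun x => ?_⟩
  have a1 := h1 x
  have a2 := h2 x
  rw [norm_iteratedFDeriv_zero] at a1 a2
  rw [K0, Prod.norm_mk]
  exact (max_le_max a1 a2).trans (le_max_left _ _)

/-- splitting of a derivative in the three groups of variables -/
theorem split {g : ℝ × Z → ℝ} (hg : Differentiable ℝ g) {t : ℝ} (ht : 0 ≤ t) (x v a b : V3) :
    derivWithin (fun s => g (s, (x, v))) (Ici 0) t + fderiv ℝ (fun y => g (t, (y, v))) x a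
      + fderiv ℝ (fun w => g (t, (x, w))) v b = fderiv ℝ g (t, (x, v)) (1, (a, b)) := by
  have hD := (hg (t, (x, v))).hasFDerivAt
  have h1 : HasDerivAt (fun s : ℝ => ((s, (x, v)) : ℝ × Z)) (1, 0) t :=
    (hasDerivAt_id t).prodMk (hasDerivAt_const t (x, v))
  have h2 : HasDerivAt (fun s => g (s, (x, v))) (fderiv ℝ g (t, (x, v)) (1, 0)) t :=
    hD.comp_hasDerivAt t h1
  have h3 : HasFDerivAt (fun y : V3 => ((t, (y, v)) : ℝ × Z))
      ((0 : V3 →L[ℝ] ℝ).prod (ContinuousLinearMap.inl ℝ V3 V3)) x :=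
    (hasFDerivAt_const t x).prodMk (hasFDerivAt_prodMk_left x v)
  have h4 : HasFDerivAt (fun w : V3 => ((t, (x, w)) : ℝ × Z))
      ((0 : V3 →L[ℝ] ℝ).prod (ContinuousLinearMap.inr ℝ V3 V3)) v :=
    (hasFDerivAt_const t v).prodMk (hasFDerivAt_prodMk_right x v)
  have h5 : HasFDerivAt (fun y => g (t, (y, v))) _ x := HasFDerivAt.comp x (g := g) hD h3
  have h6 : HasFDerivAt (fun w => g (t, (x, w))) _ v := HasFDerivAt.comp v (g := g) hD h4
  rw [h2.hasDerivWithinAt.derivWithin (uniqueDiffOn_Ici 0 t ht), h5.fderiv, h6.fderiv]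
  simp only [ContinuousLinearMap.comp_apply]
  rw [← map_add, ← map_add]
  congr 1
  simp

end GlobX

open GlobX in
theorem glob (hc : Clamp) (hC : ClC) (hq : VlQ) (hh : HDr) (ht : E1t) (ha : Apr) (h2 : FP2) :
    Glob := by
  intro f₀ E₀ B₀ hD
  choose N₀ hN₀ using ha f₀ E₀ B₀ hD
  obtain ⟨C₀, hC₀, hK0⟩ := K0_bound hD
  obtain ⟨Cl, hCl⟩ := hc (fun m => |N₀ m| + C₀ + 1)
  obtain ⟨K, hK, hfix⟩ := h2 f₀ E₀ B₀ hD _ Cl hCl
  have hF : Reg (clF Cl K) := (hC _ Cl hCl).1 K hK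
  set F := clF Cl K with hFd
  refine ⟨F, hF, fun T => ?_⟩
  have hcl : IsClosed {σ : ℝ | F σ = K σ} := by
    have e : {σ : ℝ | F σ = K σ} = ⋂ x, {σ | F σ x = K σ x} := by
      ext σ
      simp only [mem_ofPred_eq, mem_iInter]
      exact funext_iff
    rw [e]
    refine isClosed_iInter fun x => isClosed_eq ?_ ?_
    · exact hF.cont.comp (continuous_id.prodMk continuous_const)
    · exact hK.cont.comp (continuous_id.prodMk continuous_const)
  have h0 : (0 : ℝ) ∈ {σ : ℝ | F σ = K σ} := by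
    funext x
    refine hCl.id 0 le_rfl 0 (by norm_num) _ ?_
    have e : K 0 = K0 E₀ B₀ := by
      rw [hfix]
      exact ((hh f₀ E₀ B₀ hD).2.2.2 F hF).2.2 0 le_rfl
    rw [e]
    have := hK0 x
    have := abs_nonneg (N₀ (0 : ℕ))
    linarith
  have key : Icc 0 T ⊆ {σ : ℝ | F σ = K σ} := by
    refine IsClosed.Icc_subset_of_forall_mem_nhdsGT_of_Icc_subset (hcl.inter isClosed_Icc) h0 ?_
    intro t htT hsub
    have ht0 : 0 ≤ t := htT.1
    have hfx : Fix f₀ E₀ B₀ F t := fun σ hσ => (hsub hσ).trans (congrFun hfix σ)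
    have hsup := hN₀ (⌈t⌉₊ : ℝ) F t hF ht0 (Nat.le_ceil t) hfx
    obtain ⟨N, hN⟩ := hF.bd (t + 1)
    have hsF : Sup F (t + 1) N := fun σ hσ y =>
      (hN σ (by rw [abs_of_nonneg hσ.1]; exact hσ.2)).b0 y
    obtain ⟨R, hR⟩ := (hq f₀ E₀ B₀ hD).2.1 (t + 1) N
    obtain ⟨C, hC1, hCe⟩ := ht f₀ E₀ B₀ hD R
    obtain ⟨b, hb1, hb⟩ := hK.bd' (t + 1)
    have hpos : 0 < C * (1 + b) := by positivity
    have hlt : t < min (t + 1) (t + 1 / (C * (1 + b))) :=
      lt_min (by linarith) (by have := one_div_pos.2 hpos; linarith)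
    filter_upwards [Ioo_mem_nhdsGT hlt] with σ hσ
    have hσ1 : σ ≤ t + 1 := hσ.2.le.trans (min_le_left _ _)
    have hσ2 : σ - t ≤ 1 / (C * (1 + b)) := by
      have := hσ.2.le.trans (min_le_right _ _)
      linarith
    have hσ0 : 0 ≤ σ := ht0.trans hσ.1.le
    funext y
    refine hCl.id σ hσ0 ⌈t⌉₊ ?_ _ ?_
    · have := Nat.ceil_lt_add_one ht0
      linarith [hσ.1]
    · have h3 := hCe F σ b hF (by linarith) ((hR F hF hsF).1.mono hσ1) (fun s hs x => by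
        rw [← hfix]
        exact (hb s (by rw [abs_of_nonneg hs.1]; exact hs.2.trans hσ1)).b1 x) t ⟨ht0, hσ.1.le⟩ y y
      rw [← hfix, sub_self, norm_zero, add_zero, abs_of_pos (sub_pos.2 hσ.1)] at h3
      have h4 : C * (1 + b) * (σ - t) ≤ 1 := by
        rw [le_div_iff₀ hpos] at hσ2
        linarith
      have h5 : ‖K t y‖ ≤ N₀ ⌈t⌉₊ := by
        rw [← hsub ⟨ht0, le_rfl⟩]
        exact hsup t ⟨ht0, le_rfl⟩ y
      have h6 : ‖K σ y‖ ≤ ‖K σ y - K t y‖ + ‖K t y‖ := by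
        simpa using norm_add_le (K σ y - K t y) (K t y)
      have h7 := le_abs_self (N₀ ⌈t⌉₊)
      linarith
  intro t htT
  exact (key htT).trans (congrFun hfix t)

open GlobX in
theorem final (hl : VlS) (hq : VlQ) (hd : DenS) (hh : HDr) (hm : MaxS) (h2 : L2S) (hg : Glob) :
    Final := by
  intro f₀ E₀ B₀ hD
  obtain ⟨F, hF, hfix⟩ := hg f₀ E₀ B₀ hD
  have hV := (hl f₀ E₀ B₀ hD F hF).1
  have hM := hm f₀ E₀ B₀ hD F hF
  obtain ⟨-, hK, hK0⟩ := (hh f₀ E₀ B₀ hD).2.2.2 F hF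
  have hden := (hd _ hV.reg hV.spa).1
  have hL := h2 f₀ E₀ B₀ hD _ _ hden hK hM (hK0 0 le_rfl)
  obtain ⟨M, -, hMb⟩ := (hq f₀ E₀ B₀ hD).1
  refine ⟨ff f₀ F, fun t x => (TT f₀ E₀ B₀ F t x).1, fun t x => (TT f₀ E₀ B₀ F t x).2,
    { f_C1 := hV.c1.contDiffOn
      E_C1 := hM.c1.fst
      B_C1 := hM.c1.snd
      f_nonneg := fun t _ z => (hMb F t z).1
      f_init := hV.init
      E_init := by rw [hK0 0 le_rfl]; rfl
      B_init := by rw [hK0 0 le_rfl]; rfl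
      vlasov := fun t ht x v => ?_
      ampere := fun t ht x => ?_
      faraday := fun t ht x => ?_
      gauss_E := hM.gE
      gauss_B := hM.gB
      E_L2 := fun t ht => (hL t ht).1
      B_L2 := fun t ht => (hL t ht).2.1
      E_cont := fun t ht => (hL t ht).2.2.1
      B_cont := fun t ht => (hL t ht).2.2.2
      supp := fun T => ?_ }⟩
  · have h1 := split (g := fun p : ℝ × Z => ff f₀ F p.1 p.2)
      (hV.c1.differentiable one_ne_zero) ht x v (uu v)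
      ((TT f₀ E₀ B₀ F t x).1 + cross (uu v) (TT f₀ E₀ B₀ F t x).2)
    refine h1.trans ?_
    rw [← hfix t t ⟨ht, le_rfl⟩]
    exact hV.eq t (x, v)
  · have h1 : HasDerivWithinAt (fun s => (TT f₀ E₀ B₀ F s x).1)
        (MG (ff f₀ F) (TT f₀ E₀ B₀ F) t x).1 (Ici 0) t :=
      (ContinuousLinearMap.fst ℝ V3 V3).hasFDerivAt.comp_hasDerivWithinAt t (hM.der t ht x)
    rw [h1.derivWithin (uniqueDiffOn_Ici 0 t ht)]
    simp only [MG]
    abel
  · have h1 : HasDerivWithinAt (fun s => (TT f₀ E₀ B₀ F s x).2)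
        (MG (ff f₀ F) (TT f₀ E₀ B₀ F) t x).2 (Ici 0) t :=
      (ContinuousLinearMap.snd ℝ V3 V3).hasFDerivAt.comp_hasDerivWithinAt t (hM.der t ht x)
    rw [h1.derivWithin (uniqueDiffOn_Ici 0 t ht)]
    simp only [MG]
    abel
  · obtain ⟨R, hR⟩ := hV.spa T
    refine ⟨Metric.closedBall 0 R, isCompact_closedBall _ _, fun t ht z hz => ?_⟩
    rw [mem_closedBall_zero_iff]
    exact hR t (by rw [abs_of_nonneg ht.1]; exact ht.2) z hz

end Vale.Agent.P107
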