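import Vale.Agent.P107.Basic2

/-! Problem P107: a fixed point gives a good particle system, and the a priori bound. -/

open MeasureTheory Set Filter Topology
open scoped ENNReal RealInnerProductSpace ContDiff

noncomputable section
namespace Vale.Agent.P107

namespace GoodSX

theorem flow_self (a : ℝ → Z → Z) (t : ℝ) (z : Z) : flow a t t z = z := by
  unfold flow
  split_ifs with h
  · exact h.choose_spec.1 t z
  · rfl

theorem q_le (v : V3) : q v ≤ 1 + ‖v‖ := by
  unfold q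
  refine Real.sqrt_le_iff.2 ⟨by positivity, ?_⟩
  nlinarith [norm_nonneg v]

/-- momentum integrals of a slice -/
theorem lint_v {g : Z → ℝ} {R : ℝ} (hg : Continuous g) (h0 : ∀ z, 0 ≤ g z)
    (hR : ∀ z, g z ≠ 0 → ‖z‖ ≤ R) {κ : V3 → ℝ} (hκ : Continuous κ) (hκ0 : ∀ v, 0 ≤ κ v) {c : ℝ}
    (hc : 0 ≤ c) (y : V3) :
    ∫⁻ v, ENNReal.ofReal (c * (g (y, v) * κ v)) =
      ENNReal.ofReal c * ENNReal.ofReal (∫ v, g (y, v) * κ v) := by
  have h1 : Continuous fun v => g (y, v) * κ v := by fun_prop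
  have h2 : HasCompactSupport fun v => g (y, v) * κ v := by
    refine HasCompactSupport.intro (isCompact_closedBall (0 : V3) R) fun v hv => ?_
    by_contra h3
    exact hv (mem_closedBall_zero_iff.2
      ((norm_snd_le ((y, v) : Z)).trans (hR _ (left_ne_zero_of_mul h3))))
  rw [ofReal_integral_eq_lintegral_ofReal (h1.integrable_of_hasCompactSupport h2)
    (Eventually.of_forall fun v => mul_nonneg (h0 _) (hκ0 v)),
    ← lintegral_const_mul' _ _ ENNReal.ofReal_ne_top]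
  exact lintegral_congr fun v => ENNReal.ofReal_mul hc

end GoodSX

theorem goodS (hs : SI) (_hd : DenS) (hl : VlS) (_hq : VlQ) (hh : HDr) (hr : RepL) (he : EnS) :
    GoodS := by
  intro f₀ E₀ B₀ D T
  have hom : 0 < om := hs.1
  have homi : 0 < om⁻¹ := inv_pos.2 hom
  obtain ⟨⟨M, hM1, hM⟩, hrep⟩ := hr f₀ E₀ B₀ D
  obtain ⟨ℰ, hℰ1, hℰ⟩ := he f₀ E₀ B₀ D
  obtain ⟨C, hC1, hC⟩ := (hh f₀ E₀ B₀ D).2.2.1.bd' T
  obtain ⟨R, hR⟩ := D.f_compact.isCompact.isBounded.exists_norm_le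
  have hoℰ : 0 ≤ om⁻¹ * ℰ := by positivity
  have hT := le_abs_self T
  have hT0 := abs_nonneg T
  have hR1 := le_abs_self R
  have hR0 := abs_nonneg R
  refine ⟨8 + |T| + M + ℰ + om⁻¹ * ℰ + C + |R|, fun F T' hF h0 hT' hfix => ?_⟩
  set Λ := 8 + |T| + M + ℰ + om⁻¹ * ℰ + C + |R| with hΛ
  obtain ⟨V, hK⟩ := hl f₀ E₀ B₀ D F hF
  obtain ⟨N, hN1, hN⟩ := hF.bd' T'
  have hnn : ∀ t z, 0 ≤ ff f₀ F t z := fun t z => D.f_nonneg _
  have hmf : Measurable fun z : Z => ENNReal.ofReal (f₀ z / om) :=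
    (D.f_smooth.continuous.measurable.div_const om).ennreal_ofReal
  have hE1 : ENNReal.ofReal ℰ ≤ ENNReal.ofReal Λ := ENNReal.ofReal_le_ofReal (by linarith)
  have hE2 : ENNReal.ofReal om⁻¹ * ENNReal.ofReal ℰ ≤ ENNReal.ofReal Λ := by
    rw [← ENNReal.ofReal_mul homi.le]
    exact ENNReal.ofReal_le_ofReal (by linarith)
  have hfar : ∀ s ∈ Icc (0 : ℝ) T', ∀ x, ‖F s x - (sys f₀ F).far 0 s x‖ ≤ Λ := fun s hs' x => by
    have h1 := (hrep F hF s x hs'.1).2.1 0
    have h2 : Metric.ball (0 : V3) s ∩ {w | (0 : ℝ) ≤ ‖w‖} = Metric.ball 0 s :=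
      inter_eq_left.2 fun w _ => norm_nonneg w
    rw [h2] at h1
    have h3 : F s x - (sys f₀ F).far 0 s x = HD f₀ E₀ B₀ s x := by
      rw [← h1, congrFun (hfix s hs') x]
      exact add_sub_cancel_right _ _
    rw [h3]
    have h4 : |s| ≤ T := by
      rw [abs_of_nonneg hs'.1]
      exact hs'.2.trans hT'
    linarith [(hC s h4).b0 x]
  refine ⟨N, hK, by linarith, h0, by linarith, by linarith, ?_, fun σ hσ y => ?_, fun z hz => ?_,
    fun s hs' x g hg => ?_, fun σ hσ => ?_, fun σ hσ => ?_, fun s hs' x => ?_, fun s hs' x => ?_,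
    fun s hs' x => ?_, fun s hs' x => ?_⟩
  · refine (ae_withDensity_iff hmf).2 (Eventually.of_forall fun z hz h1 => hz ?_)
    rw [h1, zero_div, ENNReal.ofReal_zero]
  · exact (hN σ (by rw [abs_of_nonneg hσ.1]; exact hσ.2)).b0 y
  · change q (flow (vf F) 0 0 z).2 ≤ Λ
    rw [GoodSX.flow_self]
    have h1 := hR z (subset_tsupport f₀ hz)
    linarith [GoodSX.q_le z.2, norm_snd_le z]
  · exact (hM F hF s hs'.1 x g hg).trans
      (mul_le_mul_left (ENNReal.ofReal_le_ofReal (by linarith)) _)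
  · obtain ⟨R', hR'⟩ := V.spa |σ|
    have hc : Continuous (ff f₀ F σ) := V.reg.continuous σ
    have hG : Measurable fun z : Z => ENNReal.ofReal (om⁻¹ * (ff f₀ F σ z * q z.2)) :=
      (by fun_prop : Continuous fun z : Z => om⁻¹ * (ff f₀ F σ z * q z.2)).measurable.ennreal_ofReal
    have hmq : Measurable fun z : Z => ENNReal.ofReal (q (flow (vf F) σ 0 z).2) :=
      (measurable_q.comp (measurable_snd.comp (V.mp σ 0).measurable)).ennreal_ofReal
    change ∫⁻ z, ENNReal.ofReal (q (flow (vf F) σ 0 z).2)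
      ∂(volume : Measure Z).withDensity (fun z => ENNReal.ofReal (f₀ z / om)) ≤ _
    rw [lintegral_withDensity_eq_lintegral_mul _ hmf hmq]
    have h1 : ∀ z : Z, ((fun z => ENNReal.ofReal (f₀ z / om)) *
        fun z : Z => ENNReal.ofReal (q (flow (vf F) σ 0 z).2)) z =
        ENNReal.ofReal (om⁻¹ * (ff f₀ F σ (flow (vf F) σ 0 z) * q (flow (vf F) σ 0 z).2)) := by
      intro z
      rw [Pi.mul_apply, V.back, ← ENNReal.ofReal_mul (div_nonneg (D.f_nonneg z) hom.le)]
      congr 1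
      ring
    rw [lintegral_congr h1, (V.mp σ 0).lintegral_comp hG, Measure.volume_eq_prod,
      lintegral_prod _ hG.aemeasurable]
    simp only [GoodSX.lint_v hc (hnn σ) (hR' σ le_rfl) continuous_q (fun v => (q_pos v).le) homi.le]
    rw [lintegral_const_mul' _ _ ENNReal.ofReal_ne_top]
    exact (mul_le_mul_right (hℰ F T' hF hfix σ hσ).1 _).trans hE2
  · exact (hℰ F T' hF hfix σ hσ).2.1.trans hE1
  · rw [(hrep F hF s x hs'.1).1 (fun p => ENNReal.ofReal (q p.2))
      (measurable_q.comp measurable_snd).ennreal_ofReal]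
    have h1 : ∀ w : V3, ∫⁻ v, ENNReal.ofReal (q v) *
        ENNReal.ofReal (b2 w v * ff f₀ F (s - ‖w‖) (x - w, v) / om) = ENNReal.ofReal om⁻¹ *
        ENNReal.ofReal (∫ v, ff f₀ F (s - ‖w‖) (x - w, v) * q v * b2 w v) := fun w => by
      obtain ⟨R', hR'⟩ := V.spa |s - ‖w‖|
      have hκ : Continuous fun v => q v * b2 w v := by
        unfold b2
        fun_prop
      simp only [mul_assoc]
      rw [← GoodSX.lint_v (V.reg.continuous _) (hnn _) (hR' _ le_rfl) hκ
        (fun v => (mul_pos (q_pos v) (b2_pos w v)).le) homi.le]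
      refine lintegral_congr fun v => ?_
      rw [← ENNReal.ofReal_mul (q_pos v).le]
      congr 1
      ring
    refine le_trans (le_of_eq (lintegral_congr h1)) ?_
    rw [lintegral_const_mul' _ _ ENNReal.ofReal_ne_top]
    exact (mul_le_mul_right ((hℰ F T' hF hfix s hs').2.2 x).2 _).trans hE2
  · exact ((hℰ F T' hF hfix s hs').2.2 x).1.trans hE1
  · rw [← (hrep F hF s x hs'.1).2.2.1]
    exact (norm_fst_le (F s x - (sys f₀ F).far 0 s x)).trans (hfar s hs' x)
  · rw [← (hrep F hF s x hs'.1).2.2.2]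
    exact (norm_snd_le (F s x - (sys f₀ F).far 0 s x)).trans (hfar s hs' x)

theorem apr (hm : MB) (hq : VlQ) (_hh : HDr) (hg : GoodS) (h0 : E0) : Apr := by
  intro f₀ E₀ B₀ D T
  obtain ⟨Λ, hΛ⟩ := hg f₀ E₀ B₀ D T
  obtain ⟨P, hP⟩ := hm Λ
  obtain ⟨R, hR⟩ := (hq f₀ E₀ B₀ D).2.2.1 T P
  obtain ⟨C, hC1, hC⟩ := h0 f₀ E₀ B₀ D T R
  refine ⟨2 * C * Real.exp (2 * C * T), fun F T' hF hT0 hT hfix => ?_⟩
  obtain ⟨N, G⟩ := hΛ F T' hF hT0 hT hfix
  have hsp := hR F T' hF hT (hP _ T' N G)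
  have hN := G.hN
  have he : ∀ t ∈ Icc (0 : ℝ) T', 1 ≤ Real.exp (2 * C * t) := fun t ht =>
    Real.one_le_exp (mul_nonneg (by linarith) ht.1)
  have key : ∀ k : ℕ, ∀ t ∈ Icc (0 : ℝ) T', ∀ y,
      ‖F t y‖ ≤ (2 * C + N * (1 / 2) ^ k) * Real.exp (2 * C * t) := fun k => by
    induction k with
    | zero =>
      intro t ht y
      have h1 : ‖F t y‖ ≤ N := G.bK t ht y
      have h2 := he t ht
      rw [pow_zero, mul_one]
      nlinarith
    | succ k ih =>
      intro t ht y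
      have h1 := hC F T' _ (2 * C) hF hT hsp (by positivity) (by linarith) ih t ht y
      rw [← hfix t ht] at h1
      have h2 := he t ht
      have h3 : C * (1 + (2 * C + N * (1 / 2) ^ k) * Real.exp (2 * C * t) / (2 * C)) =
          C + (C + N * (1 / 2) ^ (k + 1)) * Real.exp (2 * C * t) := by
        field_simp
        ring
      rw [h3] at h1
      nlinarith
  intro t ht y
  have h1 : Tendsto (fun k : ℕ => (2 * C + N * (1 / 2) ^ k) * Real.exp (2 * C * t)) atTop
      (𝓝 ((2 * C + N * 0) * Real.exp (2 * C * t))) :=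
    (((tendsto_pow_atTop_nhds_zero_of_lt_one (by norm_num) (by norm_num)).const_mul N).const_add
      _).mul_const _
  have h2 := ge_of_tendsto' h1 fun k => key k t ht y
  rw [mul_zero, add_zero] at h2
  refine h2.trans (mul_le_mul_of_nonneg_left (Real.exp_le_exp.2 ?_) (by linarith))
  exact mul_le_mul_of_nonneg_left (ht.2.trans hT) (by linarith)

end Vale.Agent.P107
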