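import Vale.Agent.P107.Basic2

/-! Problem P107, part II: Gronwall's inequality and global solutions of Lipschitz ODEs. -/

open MeasureTheory Set Filter Topology Real Metric

noncomputable section
namespace Vale.Agent.P107

namespace GrX

variable {X : Type} [NormedAddCommGroup X] [NormedSpace ℝ X]

theorem fwd {x x' : ℝ → X} {l e : ℝ → ℝ} {t s : ℝ} (hl : Continuous l) (he : Continuous e)
    (l0 : ∀ σ, 0 ≤ l σ) (e0 : ∀ σ, 0 ≤ e σ) (hts : t ≤ s)
    (hx : ∀ σ ∈ Icc t s, HasDerivAt x (x' σ) σ) (hb : ∀ σ ∈ Icc t s, ‖x' σ‖ ≤ l σ * ‖x σ‖ + e σ) :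
    ‖x s‖ ≤ exp (∫ σ in t..s, l σ) * (‖x t‖ + ∫ σ in t..s, e σ) := by
  have key : ∀ η : ℝ, 0 < η →
      ‖x s‖ ≤ exp (∫ σ in t..s, l σ) * (‖x t‖ + (∫ σ in t..s, e σ) + η * s - η * t) := by
    intro η hη
    refine image_norm_le_of_norm_deriv_right_lt_deriv_boundary (HasDerivAt.continuousOn hx)
      (fun σ h => (hx σ (Ico_subset_Icc_self h)).hasDerivWithinAt)
      (B := fun u => exp (∫ σ in t..u, l σ) * (‖x t‖ + (∫ σ in t..u, e σ) + η * u - η * t))
      (by simp) (fun u => ((hl.integral_hasStrictDerivAt t u).hasDerivAt.exp).mul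
        ((((he.integral_hasStrictDerivAt t u).hasDerivAt.const_add ‖x t‖).add
          ((hasDerivAt_id u).const_mul η)).sub_const (η * t))) (fun u hu h => ?_) ⟨hts, le_rfl⟩
    have h1 : 1 ≤ exp (∫ σ in t..u, l σ) :=
      one_le_exp (intervalIntegral.integral_nonneg hu.1 fun σ _ => l0 σ)
    refine (hb u (Ico_subset_Icc_self hu)).trans_lt ?_
    rw [h]
    nlinarith [mul_nonneg (sub_nonneg.2 h1) (add_nonneg (e0 u) hη.le)]
  have h2 : Continuous fun η : ℝ =>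
      exp (∫ σ in t..s, l σ) * (‖x t‖ + (∫ σ in t..s, e σ) + η * s - η * t) := by fun_prop
  have h3 := ge_of_tendsto ((h2.tendsto 0).mono_left (nhdsWithin_le_nhds (s := Ioi 0)))
    (eventually_mem_nhdsWithin.mono key)
  simpa using h3

omit [NormedSpace ℝ X] in
theorem cutoff (R : ℝ) : ∃ χ : X → ℝ, (∀ y, 0 ≤ χ y) ∧ (∀ y, χ y ≤ 1) ∧
    (∀ y z, |χ y - χ z| ≤ ‖y - z‖) ∧ (∀ y, ‖y‖ ≤ R → χ y = 1) ∧ ∀ y, R + 1 ≤ ‖y‖ → χ y = 0 := by
  refine ⟨fun y => max 0 (min 1 (R + 1 - ‖y‖)), fun y => le_max_left _ _,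
    fun y => max_le zero_le_one (min_le_left _ _), fun y z => ?_, fun y hy => ?_,
    fun y hy => max_eq_left ((min_le_right _ _).trans (by linarith))⟩
  · have h1 : |(R + 1 - ‖y‖) - (R + 1 - ‖z‖)| ≤ ‖y - z‖ := by
      rw [sub_sub_sub_cancel_left, abs_sub_comm]
      exact abs_norm_sub_norm_le y z
    have h2 := abs_min_sub_min_le_max 1 (R + 1 - ‖y‖) 1 (R + 1 - ‖z‖)
    have h3 := abs_max_sub_max_le_max 0 (min 1 (R + 1 - ‖y‖)) 0 (min 1 (R + 1 - ‖z‖))
    simp only [sub_self, abs_zero] at h2 h3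
    exact h3.trans (max_le (norm_nonneg _) (h2.trans (max_le (norm_nonneg _) h1)))
  · show max 0 (min 1 (R + 1 - ‖y‖)) = 1
    rw [min_eq_left (by linarith), max_eq_right zero_le_one]

theorem retr {R : ℝ} (hR : 0 ≤ R) : ∃ ρ : X → X, (∀ y, ‖ρ y‖ ≤ ‖y‖) ∧ (∀ y, ‖ρ y‖ ≤ R + 1) ∧
    (∀ y, ‖y‖ ≤ R → ρ y = y) ∧ ∀ y z, ‖ρ y - ρ z‖ ≤ (1 + ‖z‖) * ‖y - z‖ := by
  obtain ⟨χ, h0, h1, h2, h3, h4⟩ := cutoff (X := X) R
  have k : ∀ y v : X, ‖χ y • v‖ ≤ ‖v‖ := fun y v => by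
    rw [norm_smul, Real.norm_of_nonneg (h0 y)]
    exact mul_le_of_le_one_left (norm_nonneg _) (h1 y)
  refine ⟨fun y => χ y • y, fun y => k y y, fun y => ?_, fun y hy => by
    simp only [h3 y hy, one_smul], fun y z => ?_⟩
  · rcases le_total ‖y‖ (R + 1) with h | h
    · exact (k y y).trans h
    · simp only [h4 y h, zero_smul, norm_zero]
      linarith
  · have e : χ y • y - χ z • z = χ y • (y - z) + (χ y - χ z) • z := by
      rw [smul_sub, sub_smul]
      abel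
    show ‖χ y • y - χ z • z‖ ≤ _
    rw [e]
    refine (norm_add_le _ _).trans ?_
    rw [norm_smul (χ y - χ z), Real.norm_eq_abs]
    linarith [k y (y - z), mul_le_mul_of_nonneg_right (h2 y z) (norm_nonneg z)]

end GrX

theorem gr : Gr := by
  intro X _ _ x x' l e t s hl he l0 e0 hx hb
  rcases le_total t s with h | h
  · rw [uIcc_of_le h] at hx hb
    rw [abs_of_nonneg (intervalIntegral.integral_nonneg h fun σ _ => l0 σ),
      abs_of_nonneg (intervalIntegral.integral_nonneg h fun σ _ => e0 σ)]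
    exact GrX.fwd hl he l0 e0 h hx hb
  · rw [uIcc_of_ge h] at hx hb
    have m : ∀ σ ∈ Icc (-t) (-s), -σ ∈ Icc s t := fun σ hσ =>
      ⟨by linarith [hσ.2], by linarith [hσ.1]⟩
    have k := GrX.fwd (x := fun σ => x (-σ)) (x' := fun σ => (-1 : ℝ) • x' (-σ))
      (hl.comp continuous_neg) (he.comp continuous_neg) (fun σ => l0 _) (fun σ => e0 _)
      (neg_le_neg h) (fun σ hσ => (hx _ (m σ hσ)).scomp σ (hasDerivAt_neg σ))
      fun σ hσ => by simpa using hb _ (m σ hσ)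
    simp only [Function.comp, intervalIntegral.integral_comp_neg, neg_neg] at k
    rwa [intervalIntegral.integral_symm s t, intervalIntegral.integral_symm s t, abs_neg, abs_neg,
      abs_of_nonneg (intervalIntegral.integral_nonneg h fun σ _ => l0 σ),
      abs_of_nonneg (intervalIntegral.integral_nonneg h fun σ _ => e0 σ)]

namespace GrX

variable {X : Type} [NormedAddCommGroup X] [NormedSpace ℝ X] [CompleteSpace X]

theorem loc {a : ℝ → X → X} (ha : Continuous fun p : ℝ × X => a p.1 p.2) {t T L : ℝ} (hT : 0 < T)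
    (hL : 0 ≤ L) (h : ∀ s ∈ Icc (t - T) (t + T), ∀ x y, ‖a s x - a s y‖ ≤ L * ‖x - y‖) (z : X) :
    ∃ γ : ℝ → X, γ t = z ∧ ∀ s ∈ Ioo (t - T) (t + T), HasDerivAt γ (a s (γ s)) s := by
  have hc : ∀ y, Continuous fun s => a s y := fun y => ha.comp (Continuous.prodMk_left y)
  obtain ⟨M, hM⟩ := (isCompact_Icc (a := t - T) (b := t + T)).exists_bound_of_continuousOn
    (hc 0).continuousOn
  have ht : t ∈ Icc (t - T) (t + T) := ⟨by linarith, by linarith⟩
  have hM0 : 0 ≤ M := (norm_nonneg _).trans (hM t ht)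
  have hB : ∀ s ∈ Icc (t - T) (t + T), ∀ y, ‖a s y‖ ≤ L * ‖y‖ + M := fun s hs y => by
    have := h s hs y 0
    rw [sub_zero] at this
    linarith [norm_sub_norm_le (a s y) (a s 0), hM s hs]
  obtain ⟨R, hR⟩ : ∃ R, R = exp (T * L) * (‖z‖ + T * M) := ⟨_, rfl⟩
  have hR0 : 0 ≤ R := by rw [hR]; positivity
  obtain ⟨ρ, r1, r2, r3, r4⟩ := retr (X := X) hR0
  obtain ⟨D, hD⟩ : ∃ D, D = (L * (R + 1) + M) * T := ⟨_, rfl⟩
  have hD0 : 0 ≤ D := by rw [hD]; positivity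
  have hPL : IsPicardLindelof (fun s y => a s (ρ y)) (⟨t, ht⟩ : Icc (t - T) (t + T)) z
      ⟨D, hD0⟩ 0 ⟨L * (R + 1) + M, by positivity⟩ ⟨L * (1 + (‖z‖ + D)), by positivity⟩ := by
    refine ⟨fun s hs => LipschitzOnWith.of_dist_le_mul fun y _ w hw => ?_,
      fun y _ => (hc _).continuousOn,
      fun s hs y _ => (hB s hs _).trans (add_le_add (mul_le_mul_of_nonneg_left (r2 y) hL) le_rfl),
      ?_⟩
    · rw [dist_eq_norm, dist_eq_norm]
      have hw' : ‖w‖ ≤ ‖z‖ + D := norm_le_of_mem_closedBall hw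
      refine (h s hs _ _).trans ((mul_le_mul_of_nonneg_left ((r4 y w).trans
        (mul_le_mul_of_nonneg_right (add_le_add le_rfl hw') (norm_nonneg _))) hL).trans
          (mul_assoc _ _ _).ge)
    · show (L * (R + 1) + M) * max (t + T - t) (t - (t - T)) ≤ D - 0
      rw [add_sub_cancel_left, sub_sub_cancel, max_self, sub_zero, hD]
  obtain ⟨γ, h1, h2⟩ := hPL.exists_eq_forall_mem_Icc_hasDerivWithinAt₀
  have h1' : γ t = z := h1
  have hd : ∀ s ∈ Ioo (t - T) (t + T), HasDerivAt γ (a s (ρ (γ s))) s := fun s hs =>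
    (h2 s (Ioo_subset_Icc_self hs)).hasDerivAt (Icc_mem_nhds hs.1 hs.2)
  refine ⟨γ, h1', fun s hs => ?_⟩
  have hu : uIcc t s ⊆ Ioo (t - T) (t + T) :=
    ordConnected_Ioo.uIcc_subset ⟨by linarith, by linarith⟩ hs
  have k := gr X γ _ (fun _ => L) (fun _ => M) t s continuous_const continuous_const (fun _ => hL)
    (fun _ => hM0) (fun σ hσ => hd σ (hu hσ)) fun σ hσ => (hB σ (Ioo_subset_Icc_self (hu hσ)) _).trans
      (add_le_add (mul_le_mul_of_nonneg_left (r1 _) hL) le_rfl)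
  simp only [intervalIntegral.integral_const, smul_eq_mul, abs_mul, abs_of_nonneg hL,
    abs_of_nonneg hM0, h1'] at k
  have k1 : |s - t| ≤ T := abs_le.2 ⟨by linarith [hs.1], by linarith [hs.2]⟩
  have k2 := hd s hs
  rwa [r3 _ (k.trans (by rw [hR]; gcongr))] at k2

end GrX

theorem ode : Ode := by
  intro X _ _ _ a ha hL t z
  have hL' : ∀ n : ℕ, ∃ L : ℝ, 0 ≤ L ∧ ∀ s ∈ Icc (t - (n + 1)) (t + (n + 1)), ∀ x y,
      ‖a s x - a s y‖ ≤ L * ‖x - y‖ := fun n => by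
    obtain ⟨L, h⟩ := hL (|t| + (n + 1))
    refine ⟨max L 0, le_max_right _ _, fun s hs x y => (h s (abs_le.2 ⟨?_, ?_⟩) x y).trans
      (mul_le_mul_of_nonneg_right (le_max_left _ _) (norm_nonneg _))⟩
    · linarith [hs.1, neg_abs_le t]
    · linarith [hs.2, le_abs_self t]
  choose L L0 hL using hL'
  choose α h0 hα using fun n : ℕ => GrX.loc ha (T := n + 1) (by positivity) (L0 n) (hL n) z
  have uniq : ∀ n k : ℕ, n ≤ k → EqOn (α n) (α k) (Ioo (t - (n + 1)) (t + (n + 1))) := by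
    intro n k hnk
    have hnk' : (n : ℝ) ≤ k := by exact_mod_cast hnk
    have hn : (0 : ℝ) < (n : ℝ) + 1 := by positivity
    refine ODE_solution_unique_of_mem_Ioo (v := a) (s := fun _ => univ) (K := ⟨L n, L0 n⟩) (t₀ := t)
      (fun s hs => LipschitzOnWith.of_dist_le_mul fun x _ y _ => ?_) ⟨by linarith, by linarith⟩
      (fun s hs => ⟨hα n s hs, trivial⟩)
      (fun s hs => ⟨hα k s ⟨by linarith [hs.1], by linarith [hs.2]⟩, trivial⟩) (by rw [h0, h0])
    rw [dist_eq_norm, dist_eq_norm]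
    exact hL n s (Ioo_subset_Icc_self hs) x y
  have mem : ∀ s : ℝ, s ∈ Ioo (t - ((⌈|s - t|⌉₊ : ℝ) + 1)) (t + ((⌈|s - t|⌉₊ : ℝ) + 1)) := by
    intro s
    have := Nat.le_ceil |s - t|
    exact ⟨by linarith [neg_abs_le (s - t)], by linarith [le_abs_self (s - t)]⟩
  refine ⟨fun s => α ⌈|s - t|⌉₊ s, h0 _, fun s => (hα _ s (mem s)).congr_of_eventuallyEq ?_⟩
  filter_upwards [isOpen_Ioo.mem_nhds (mem s)] with u hu
  rcases le_total ⌈|u - t|⌉₊ ⌈|s - t|⌉₊ with h | h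
  · exact uniq _ _ h (mem u)
  · exact (uniq _ _ h hu).symm

end Vale.Agent.P107
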