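import Vale.Agent.P107.Basic2

/-! Problem P107, part II: regularity of the data part of the field. -/

open MeasureTheory Set Filter Topology Real
open scoped ENNReal RealInnerProductSpace ContDiff

noncomputable section
namespace Vale.Agent.P107

namespace HDrX

theorem supp {f₀ : Z → ℝ} (hc : HasCompactSupport f₀) :
    ∃ R : ℝ, ∀ z : Z, R < ‖z.2‖ → f₀ z = 0 ∧ fderiv ℝ f₀ z = 0 := by
  obtain ⟨R, hR⟩ := hc.isCompact.isBounded.exists_norm_le
  refine ⟨R, fun z hz => ?_⟩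
  have hn : z ∉ tsupport f₀ := fun h => by
    have := hR z h
    linarith [norm_snd_le z]
  exact ⟨image_eq_zero_of_notMem_tsupport hn,
    Function.notMem_support.1 fun h => hn (support_fderiv_subset ℝ h)⟩

theorem b3g {f₀ : Z → ℝ} {C T : ℝ} (h0 : B3 f₀ C C C) (h1 : B3 (fderiv ℝ f₀) C C C) {w : V3}
    (hw : w ≠ 0) (hT : ‖w‖ ≤ T) :
    B3 (fun z => f₀ z / ‖w‖ - fderiv ℝ f₀ z (hat w, 0)) (C * (1 + T) / ‖w‖) (C * (1 + T) / ‖w‖)
      (C * (1 + T) / ‖w‖) := by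
  have hr : 0 < ‖w‖ := norm_pos_iff.2 hw
  have hC := h0.a_nonneg
  have hL : ‖ContinuousLinearMap.apply ℝ ℝ ((hat w, 0) : Z)‖ ≤ 1 := by
    refine ContinuousLinearMap.opNorm_le_bound _ zero_le_one fun A => ?_
    rw [ContinuousLinearMap.apply_apply, one_mul]
    refine (A.le_opNorm _).trans (mul_le_of_le_one_right (norm_nonneg _) ?_)
    simpa [Prod.norm_def] using norm_hat_le w
  have h := (h0.const_smul ‖w‖⁻¹).sub (h1.clm (ContinuousLinearMap.apply ℝ ℝ ((hat w, 0) : Z)))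
  have hb : |‖w‖⁻¹| * C + ‖ContinuousLinearMap.apply ℝ ℝ ((hat w, 0) : Z)‖ * C ≤
      C * (1 + T) / ‖w‖ := by
    rw [abs_of_pos (inv_pos.2 hr), le_div_iff₀ hr, add_mul, mul_right_comm, inv_mul_cancel₀ hr.ne']
    have := mul_le_mul (mul_le_mul_of_nonneg_right hL hC) hT hr.le (by positivity)
    linarith
  have e : (fun z => f₀ z / ‖w‖ - fderiv ℝ f₀ z (hat w, 0)) = fun z => ‖w‖⁻¹ • f₀ z -
      ContinuousLinearMap.apply ℝ ℝ ((hat w, 0) : Z) (fderiv ℝ f₀ z) := by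
    funext z
    rw [ContinuousLinearMap.apply_apply, smul_eq_mul, div_eq_inv_mul]
  rw [e]
  exact h.mono hb hb hb

theorem kerD (hv : VI) (hk : KL) {f₀ : Z → ℝ} (hs : ContDiff ℝ ∞ f₀) (hc : HasCompactSupport f₀) :
    Ker (GD f₀) := by
  obtain ⟨_, -, -, -, hg, hb⟩ := hk
  obtain ⟨R, hR⟩ := supp hc
  have hs' : ContDiff ℝ 2 (fderiv ℝ f₀) := hs.fderiv_right (by norm_cast)
  have hz : ∀ (w : V3) (z : Z), R < ‖z.2‖ → f₀ z / ‖w‖ - fderiv ℝ f₀ z (hat w, 0) = 0 := by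
    intro w z h
    rw [(hR z h).1, (hR z h).2]
    simp
  constructor
  · rw [continuousOn_iff_continuous_domRestrict]
    refine hv.2 {p : V3 × ℝ × V3 | p.1 ≠ 0} Z (fun p v => (f₀ (p.1.2.2, v) / ‖p.1.1‖ -
      fderiv ℝ f₀ (p.1.2.2, v) (hat p.1.1, 0)) • gam p.1.1 v) ?_ fun p => ⟨R, ?_⟩
    · have c0 := hs.continuous
      have c1 := hs'.continuous
      have ch : Continuous fun r : {p : V3 × ℝ × V3 | p.1 ≠ 0} × V3 => hat r.1.1.1 :=
        continuous_iff_continuousAt.2 fun r =>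
          ContinuousAt.comp (f := fun r : {p : V3 × ℝ × V3 | p.1 ≠ 0} × V3 => r.1.1.1)
            (continuousAt_hat r.1.2) (by fun_prop)
      have cg : Continuous fun r : {p : V3 × ℝ × V3 | p.1 ≠ 0} × V3 => gam r.1.1.1 r.2 :=
        hg.comp_continuous (f := fun r : {p : V3 × ℝ × V3 | p.1 ≠ 0} × V3 => (r.1.1.1, r.2))
          (by fun_prop) fun r => r.1.2
      refine Continuous.smul (Continuous.sub (Continuous.div (by fun_prop) (by fun_prop)
        fun r => norm_ne_zero_iff.2 r.1.2) ?_) cg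
      exact Continuous.clm_apply (by fun_prop) (ch.prodMk continuous_const)
    · refine Eventually.of_forall fun p' v h => ?_
      show (f₀ (p'.1.2.2, v) / ‖p'.1.1‖ - fderiv ℝ f₀ (p'.1.2.2, v) (hat p'.1.1, 0)) •
        gam p'.1.1 v = 0
      rw [hz p'.1.1 (p'.1.2.2, v) h, zero_smul]
  · intro T
    obtain ⟨c, hc0, hI⟩ := hv.1 R
    obtain ⟨K, hK, hb⟩ := hb T R
    obtain ⟨C₀, -, h0⟩ := B3.of_compact (hs.of_le (by norm_cast)) hc
    obtain ⟨C₁, -, h1⟩ := B3.of_compact hs' (hc.fderiv ℝ)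
    have h0' := h0.mono (le_max_left C₀ C₁) (le_max_left C₀ C₁) (le_max_left C₀ C₁)
    have h1' := h1.mono (le_max_right C₀ C₁) (le_max_right C₀ C₁) (le_max_right C₀ C₁)
    refine ⟨c * K * (max C₀ C₁ * (1 + T)), fun w t hw hT _ => ?_⟩
    have hκ : Continuous (gam w) :=
      hg.comp_continuous (f := fun v : V3 => (w, v)) (by fun_prop) fun _ => hw
    have h := ((hI Z (gam w) (K / ‖w‖) hκ (by positivity)
      fun v h => (hb w v hw hT h).2.2).2 _ _ _ _ (b3g h0' h1' hw hT)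
      fun z h => not_lt.1 fun h' => h (hz w z h')).1
    have e : c * (K / ‖w‖) * (max C₀ C₁ * (1 + T) / ‖w‖) =
        c * K * (max C₀ C₁ * (1 + T)) / ‖w‖ ^ 2 := by ring
    rw [e] at h
    exact h

theorem regK {A B : V3 → Z} {C : ℝ} (hA : B3 A C C C) (hB : B3 B C C C) :
    Reg (fun (s : ℝ) x => A x + max s 0 • B x) := by
  have c0 := hA.continuous
  have c1 := hB.continuous
  refine ⟨by fun_prop, fun T => ⟨C + T * C, fun t ht => ?_⟩⟩
  have hb : C + |max t 0| * C ≤ C + T * C := by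
    have : |max t 0| ≤ T := by
      rw [abs_of_nonneg (le_max_right _ _)]
      exact max_le ((le_abs_self t).trans ht) ((abs_nonneg t).trans ht)
    have := mul_le_mul_of_nonneg_right this hA.a_nonneg
    linarith
  exact (hA.add (hB.const_smul (max t 0))).mono hb hb hb

end HDrX

theorem hDr (h1 : O1) (h2 : O2) (hv : VI) (hk : KL) (hd : DatP) (hl : VlS) : HDr := by
  intro f₀ E₀ B₀ hD
  obtain ⟨-, -, -, -, ⟨C, hA, hB, -, -⟩, hH⟩ := hd f₀ E₀ B₀ hD
  have kD := HDrX.kerD hv hk hD.f_smooth hD.f_compact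
  have rH : Reg (Hom E₀ B₀) := (HDrX.regK hA hB).add ((h1 Z _ hH).1.const_smul om⁻¹)
  have rD : Reg (HD f₀ E₀ B₀) := rH.add ((h1 Z _ kD).1.const_smul om⁻¹)
  refine ⟨kD, rH, rD, fun F hF => ?_⟩
  have hV := (hl f₀ E₀ B₀ hD F hF).1
  have kG := h2.1 _ F hV.reg hV.spa hF
  refine ⟨kG, rD.add ((h1 Z _ kG).1.const_smul om⁻¹), fun t ht => ?_⟩
  funext x
  simp [TT, HD, Hom, RR, Metric.ball_eq_empty.2 ht, max_eq_right ht]

end Vale.Agent.P107
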