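import Vale.Agent.P107.Basic2

/-! Problem P107: the pairing identity for the free wave. -/

open MeasureTheory Set Filter Topology
open scoped ENNReal RealInnerProductSpace ContDiff

noncomputable section
namespace Vale.Agent.P107

namespace HPX

/-- partial derivative of a field -/
def dA (j : Fin 3) (A : V3 → Z) (y : V3) : Z := fderiv ℝ A y (ee j)

/-- the affine function of time with the given coefficients -/
def af (A B : V3 → Z) (p : ℝ × V3) : Z := A p.2 + p.1 • B p.2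

theorem sm_dA {A : V3 → Z} (h : ContDiff ℝ ∞ A) (j : Fin 3) : ContDiff ℝ ∞ (dA j A) :=
  (h.fderiv_right (m := ∞) le_rfl).clm_apply contDiff_const

theorem sm_af {A B : V3 → Z} (hA : ContDiff ℝ ∞ A) (hB : ContDiff ℝ ∞ B) :
    ContDiff ℝ ∞ (af A B) :=
  (hA.comp contDiff_snd).add (contDiff_fst.smul (hB.comp contDiff_snd))

theorem fd_af {A B : V3 → Z} (hA : ContDiff ℝ ∞ A) (hB : ContDiff ℝ ∞ B) (t : ℝ) (y : V3) :
    fderiv ℝ (fun y => A y + t • B y) y = fderiv ℝ A y + t • fderiv ℝ B y :=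
  (((hA.differentiable (by simp)) y).hasFDerivAt.add
    (((hB.differentiable (by simp)) y).hasFDerivAt.const_smul t)).fderiv

theorem dt_af {A B : V3 → Z} (hA : ContDiff ℝ ∞ A) (hB : ContDiff ℝ ∞ B) (p : ℝ × V3) :
    fderiv ℝ (af A B) p (1, 0) = B p.2 := by
  have h1 := ((hA.differentiable (by simp)) p.2).hasFDerivAt.comp p hasFDerivAt_snd
  have h2 := ((hB.differentiable (by simp)) p.2).hasFDerivAt.comp p hasFDerivAt_snd
  have h3 : HasFDerivAt (af A B) _ p := h1.add ((hasFDerivAt_fst (𝕜 := ℝ) (p := p)).smul h2)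
  rw [h3.fderiv]
  simp

theorem ibx (hi : Ibp) {A B : V3 → Z} (hA : ContDiff ℝ ∞ A) (hB : ContDiff ℝ ∞ B)
    {ψ : ℝ × V3 → ℝ} (h : ContDiff ℝ ∞ ψ) (hc : Cpt ψ) (j : Fin 3) :
    ∫ p in Hs, dx j ψ p • af A B p = -∫ p in Hs, ψ p • af (dA j A) (dA j B) p := by
  have cA := (hA.continuous_fderiv (by simp)).comp (continuous_snd (X := ℝ))
  have cB := (hB.continuous_fderiv (by simp)).comp (continuous_snd (X := ℝ))
  have := (hi Z).2.2.1 ψ (fun t y => A y + t • B y) j (h.of_le (by simp)) hc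
    (sm_af hA hB).continuous
    (fun t => (hA.differentiable (by simp)).add ((hB.differentiable (by simp)).const_smul t))
    (by simp only [fd_af hA hB]; exact cA.add (continuous_fst.smul cB))
  simp only [fd_af hA hB] at this
  exact this

theorem ibt (hi : Ibp) {A B : V3 → Z} (hA : ContDiff ℝ ∞ A) (hB : ContDiff ℝ ∞ B)
    {ψ : ℝ × V3 → ℝ} (h : ContDiff ℝ ∞ ψ) (hc : Cpt ψ) :
    ∫ p in Hs, dt ψ p • af A B p =
      -(∫ y, ψ (0, y) • A y) - ∫ p in Hs, ψ p • af B 0 p := by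
  have := (hi Z).2.2.2 ψ (af A B) (h.of_le (by simp)) hc ((sm_af hA hB).of_le (by simp))
  simp only [dt_af hA hB] at this
  simpa [af] using this

end HPX
open HPX

theorem hP (_hs : SI) (hi : Ibp) (_hc : ContD) (hd : DatP) (hh : HDr) (ha : AdvP) (hf : Fund)
    (hr : RF) : HP := by
  intro f₀ E₀ B₀ hD φ hφ
  obtain ⟨s0, s1, l0, l1, -, hK⟩ := hd f₀ E₀ B₀ hD
  obtain ⟨-, hH, -⟩ := hh f₀ E₀ B₀ hD
  obtain ⟨sψ, cψ, -⟩ := ha φ hφ
  have hF := hf φ hφ
  set ψ := adv φ with hψ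
  set A := K0 E₀ B₀ with hA
  set B := K1 E₀ B₀ with hB
  have int : ∀ {χ : ℝ × V3 → ℝ} {g : ℝ × V3 → Z}, ContDiff ℝ ∞ χ → Cpt χ → Continuous g →
      IntegrableOn (fun p => χ p • g p) Hs := fun h1 h2 h3 =>
    ((hi Z).2.1 _ _ h1.continuous h2 h3).1
  have cb := (sm_af s0 s1).continuous
  have i1 := int hφ.smooth hφ.cpt hH.cont
  have i2 := int hφ.smooth hφ.cpt cb
  have e1 : ∀ p ∈ Hs, φ p • Hom E₀ B₀ p.1 p.2 - φ p • af A B p =
      om⁻¹ • (φ p • RR (GH E₀ B₀) p.1 p.2) := by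
    intro p hp
    have : max p.1 0 = p.1 := max_eq_left (le_of_lt hp)
    simp only [Hom, af, this, ← hA, ← hB]
    rw [← smul_sub, add_sub_cancel_left, smul_comm]
  have e2 : (∫ p in Hs, φ p • Hom E₀ B₀ p.1 p.2) - ∫ p in Hs, φ p • af A B p =
      ∫ p in Hs, ψ p • af (lap A) (lap B) p := by
    rw [← integral_sub i1 i2, setIntegral_congr_fun measurableSet_Hs e1, integral_smul,
      (hr _ φ hK hφ).2, ← integral_smul]
    congr 1; funext p
    have : ∀ w : V3, φ (p.1 + ‖w‖, p.2 + w) • GH E₀ B₀ w p.1 p.2 =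
        (‖w‖⁻¹ * φ (p.1 + ‖w‖, p.2 + w)) • af (lap A) (lap B) p := by
      intro w
      rw [GH, smul_smul, mul_comm]; rfl
    simp only [this]
    rw [integral_smul_const, smul_smul]; rfl
  have sx : ∀ j, ContDiff ℝ ∞ (dx j ψ) := fun j => contDiff_dD sψ _
  have cx : ∀ j, Cpt (dx j ψ) := fun j => cψ.dD _
  have st : ContDiff ℝ ∞ (dt ψ) := contDiff_dD sψ _
  have ct : Cpt (dt ψ) := cψ.dD _
  have e3 : ∫ p in Hs, φ p • af A B p = (∫ p in Hs, dt (dt ψ) p • af A B p) -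
      ∑ j, ∫ p in Hs, dx j (dx j ψ) p • af A B p := by
    have j1 : IntegrableOn (fun p => dt (dt ψ) p • af A B p) Hs :=
      int (contDiff_dD st (1, 0)) (ct.dD _) cb
    have j2 : ∀ j, IntegrableOn (fun p => dx j (dx j ψ) p • af A B p) Hs :=
      fun j => int (contDiff_dD (sx j) (0, ee j)) ((cx j).dD _) cb
    rw [← integral_finsetSum _ fun j _ => j2 j,
      ← integral_sub j1 (integrable_finsetSum _ fun j _ => j2 j)]
    congr 1; funext p
    rw [← hF p, sub_smul, Finset.sum_smul]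
  have e4 : ∑ j, ∫ p in Hs, dx j (dx j ψ) p • af A B p =
      ∫ p in Hs, ψ p • af (lap A) (lap B) p := by
    have : ∀ j, ∫ p in Hs, dx j (dx j ψ) p • af A B p =
        ∫ p in Hs, ψ p • af (dA j (dA j A)) (dA j (dA j B)) p := by
      intro j
      rw [ibx hi s0 s1 (sx j) (cx j), ibx hi (sm_dA s0 j) (sm_dA s1 j) sψ cψ, neg_neg]
    simp only [this]
    rw [← integral_finsetSum _ fun j _ => int sψ cψ
      (sm_af (sm_dA (sm_dA s0 j) j) (sm_dA (sm_dA s1 j) j)).continuous]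
    congr 1; funext p
    rw [← Finset.smul_sum]
    congr 1
    simp only [af, Finset.sum_add_distrib, ← Finset.smul_sum]
    rfl
  have e5 := ibt hi s0 s1 st ct
  have e6 := ibt hi s1 (B := 0) contDiff_const sψ cψ
  have e7 : ∫ p in Hs, ψ p • af (0 : V3 → Z) 0 p = 0 := by simp [af]
  rw [e7, sub_zero] at e6
  rw [e4, e5, e6] at e3
  rw [sub_eq_iff_eq_add.1 e2, e3]
  abel

end Vale.Agent.P107
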