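import Vale.Agent.P107.Basic

/-! Problem P107: the induction on the length of the interval. -/

open MeasureTheory Set Filter Topology
open scoped ENNReal RealInnerProductSpace

noncomputable section
namespace Vale.Agent.P107

namespace HStepX

theorem cc_pos {A : ℝ} (hA : 1 ≤ A) : 0 < cc A := by
  unfold cc; positivity

theorem le_yy {A : ℝ} (hA : 1 ≤ A) {k : ℕ} {w τ : ℝ} (h : Scl (cc A) k w τ) :
    LL k ^ 2 * w ^ 2 ≤ yy (cc A) k w τ := by
  have h1 := cc_pos hA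
  have h2 := h.hτ
  have h3 := h.hw
  have h4 := LL_pos k
  have h5 : 0 ≤ 2 ^ k * √τ + τ * (2 ^ k) ^ 2 * LL k / (cc A * w ^ 6) := by positivity
  unfold yy
  linarith

theorem le_w {A : ℝ} (hA : 1 ≤ A) {k : ℕ} {w τ : ℝ} (h : Scl (cc A) k w τ)
    (hb : Big (1000 * A) k) : 1000 * A * LL k ≤ w := by
  refine le_trans ?_ (h.le_w hb)
  have h1 := three_le_LL k
  have h2 : LL k ≤ LL k ^ 4 := le_self_pow₀ (by linarith) (by norm_num)
  exact mul_le_mul_of_nonneg_left h2 (by linarith)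

theorem base {Γ : PS} {T Λ N t A : ℝ} {k : ℕ} (hG : Γ.Good T Λ N) (ht : t ≤ T) (hA : 1 ≤ A)
    (hb : Big (1000 * A) k) : Γ.Hyp t A k (1 / (2 * N + 1)) := by
  intro z _ s₀ τ w h0 h1 h2 hs _
  have hN := hG.hN
  have hτ := hs.hτ
  have h3 : ‖Γ.V (s₀ + τ) z - Γ.V s₀ z‖ ≤ 2 * N * ‖s₀ + τ - s₀‖ := by
    refine Convex.norm_image_sub_le_of_norm_hasDerivWithin_le (f := fun σ => Γ.V σ z)
      (s := Icc s₀ (s₀ + τ)) (fun σ _ => (hG.dV σ z).hasDerivWithinAt) (fun σ hσ => ?_)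
      (convex_Icc _ _) (left_mem_Icc.2 (by linarith)) (right_mem_Icc.2 (by linarith))
    have := hG.bK σ ⟨h0.trans hσ.1, hσ.2.trans (h1.trans ht)⟩ (Γ.Y σ z)
    exact (norm_frc_le _ _).trans (by linarith)
  rw [add_sub_cancel_left, Real.norm_of_nonneg hτ.le] at h3
  have h4 : 2 * N * τ ≤ 1 := by
    rw [le_div_iff₀ (by linarith)] at h2
    nlinarith
  have h5 := le_yy hA hs
  have h6 := le_w hA hs hb
  have h7 := three_le_LL k
  have h8 : 1 ≤ w := by nlinarith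
  have h9 : 1 ≤ LL k ^ 2 * w ^ 2 :=
    one_le_mul_of_one_le_of_one_le (one_le_pow₀ (by linarith)) (one_le_pow₀ h8)
  nlinarith

theorem anti {Γ : PS} {t A ℓ ℓ' : ℝ} {k : ℕ} (h : Γ.Hyp t A k ℓ) (hl : ℓ' ≤ ℓ) :
    Γ.Hyp t A k ℓ' :=
  fun z hz s₀ τ w h0 h1 h2 hs hq => h z hz s₀ τ w h0 h1 (h2.trans hl) hs hq

end HStepX

open HStepX in
theorem hStep (hr : Rec) (ht : TE) : HStep := by
  intro Λ
  obtain ⟨C, hC, hr⟩ := hr Λ
  obtain ⟨D, hD, ht⟩ := ht Λ C hC
  have hA : 1 ≤ C * (D + 1) := by nlinarith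
  refine ⟨C * (D + 1), hA, fun Γ T N t k hG htT hb hP => ?_⟩
  have step : ∀ ℓ, Γ.Hyp t (C * (D + 1)) k (ℓ / 2) → Γ.Hyp t (C * (D + 1)) k ℓ := by
    intro ℓ h z hz s₀ τ w h0 h1 h2 hs hq
    have h6 := le_w hA hs hb
    have h7 := three_le_LL k
    have h8 : 2 ≤ w := by nlinarith
    have hT : Γ.Tst t (2 ^ k) z s₀ τ (w ^ 6) :=
      ⟨hz, h0, hs.hτ, h1, hP.mono h1,
        le_trans (by norm_num) (pow_le_pow_left₀ (by norm_num) h8 6), hs.hi, hq⟩
    have h9 : 16 * C * LL k ≤ w := by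
      refine le_trans (mul_le_mul_of_nonneg_right ?_ (by linarith)) h6
      nlinarith
    have r1 := hr Γ T N k z s₀ τ w hG (hT.mono htT) hs.hw h9
    have r2 := ht Γ T N t _ ℓ k z s₀ τ w hG htT (by nlinarith) hb hP h hT h2 hs
    have h5 := le_yy hA hs
    have hw := hs.hw
    have h10 : LL k * w ^ 2 ≤ LL k ^ 2 * w ^ 2 :=
      mul_le_mul_of_nonneg_right (by nlinarith) (by positivity)
    have h11 : 0 ≤ LL k * w ^ 2 := by positivity
    have r3 := r1.trans (add_le_add (mul_le_mul_right r2 _) le_rfl)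
    rw [← ENNReal.ofReal_mul (by linarith), ← ENNReal.ofReal_add
      (mul_nonneg (by linarith) (mul_nonneg (by linarith) (by linarith))) (by positivity),
      ENNReal.ofReal_le_ofReal_iff (add_nonneg
        (mul_nonneg (by linarith) (mul_nonneg (by linarith) (by linarith))) (by positivity))] at r3
    refine r3.trans ?_
    have h12 : C * (LL k * w ^ 2) ≤ C * yy (cc (C * (D + 1))) k w τ :=
      mul_le_mul_of_nonneg_left (by linarith) (by linarith)
    nlinarith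
  have ind : ∀ n : ℕ, Γ.Hyp t (C * (D + 1)) k (2 ^ n * (1 / (2 * N + 1))) := by
    intro n
    induction n with
    | zero => rw [pow_zero, one_mul]; exact base hG htT hA hb
    | succ n ih =>
      refine step _ ?_
      rwa [show (2 : ℝ) ^ (n + 1) * (1 / (2 * N + 1)) / 2 = 2 ^ n * (1 / (2 * N + 1)) by ring]
  intro ℓ
  have hN := hG.hN
  obtain ⟨n, hn⟩ := pow_unbounded_of_one_lt (ℓ * (2 * N + 1)) (one_lt_two (α := ℝ))
  refine anti (ind n) ?_
  rw [mul_one_div, le_div_iff₀ (by linarith)]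
  exact hn.le

end Vale.Agent.P107
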