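import Vale.Agent.P107.Basic2

/-! Problem P107: integration by parts in space and in time. -/

open MeasureTheory Set Filter Topology
open scoped ENNReal RealInnerProductSpace ContDiff

noncomputable section
namespace Vale.Agent.P107

namespace IbpX

variable {X : Type} [NormedAddCommGroup X] [NormedSpace ℝ X]

theorem int_smul {a : V3 → ℝ} {b : V3 → X} (ha : Continuous a) (hb : Continuous b)
    (h : HasCompactSupport a ∨ HasCompactSupport b) : Integrable fun y => a y • b y :=
  (ha.smul hb).integrable_of_hasCompactSupport (h.elim (fun h => h.smul_right) fun h => h.smul_left)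

theorem space {a : V3 → ℝ} {b : V3 → X} (v : V3) (ha : ContDiff ℝ 1 a) (hb : ContDiff ℝ 1 b)
    (h : HasCompactSupport a ∨ HasCompactSupport b) :
    ∫ y, fderiv ℝ a y v • b y = -∫ y, a y • fderiv ℝ b y v := by
  have ha' : Continuous fun y => fderiv ℝ a y v :=
    (ha.continuous_fderiv one_ne_zero).clm_apply continuous_const
  have hb' : Continuous fun y => fderiv ℝ b y v :=
    (hb.continuous_fderiv one_ne_zero).clm_apply continuous_const
  rw [integral_smul_fderiv_eq_neg_fderiv_smul_of_integrable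
    (int_smul ha' hb.continuous (h.imp_left fun h => h.fderiv_apply ℝ v))
    (int_smul ha.continuous hb' (h.imp_right fun h => h.fderiv_apply ℝ v))
    (int_smul ha.continuous hb.continuous h) (fun x _ => ha.differentiable one_ne_zero x)
    (fun x _ => hb.differentiable one_ne_zero x), neg_neg]

theorem restrict_Hs : (volume : Measure (ℝ × V3)).restrict Hs =
    ((volume : Measure ℝ).restrict (Ioi 0)).prod volume := by
  rw [Measure.restrict_prod_eq_prod_univ, ← Measure.volume_eq_prod]
  congr 1
  ext p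
  simp [Hs]

theorem intOn {ψ : ℝ × V3 → ℝ} {h : ℝ × V3 → X} (hψ : Continuous ψ) (hc : Cpt ψ)
    (hh : Continuous h) : IntegrableOn (fun p => ψ p • h p) Hs := by
  obtain ⟨T, R, h1, h2⟩ := hc
  refine ((hψ.smul hh).continuousOn.integrableOn_compact
    ((isCompact_Icc (a := (0 : ℝ)) (b := T)).prod
      (isCompact_closedBall (0 : V3) R))).of_forall_sdiff_eq_zero measurableSet_Hs fun p hp => ?_
  have h0 : 0 < p.1 := hp.1
  have : ψ p = 0 := by
    by_cases hT : T < p.1
    · exact h1 p hT
    · refine h2 p (by linarith) (not_le.1 fun hR => hp.2 ⟨⟨h0.le, not_lt.1 hT⟩, ?_⟩)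
      rwa [mem_closedBall_zero_iff]
  simp [this]

theorem fub {f : ℝ × V3 → X} (hf : IntegrableOn f Hs) :
    ∫ p in Hs, f p = ∫ t in Ioi (0 : ℝ), ∫ y, f (t, y) := by
  rw [IntegrableOn, restrict_Hs] at hf
  rw [restrict_Hs, integral_prod _ hf]

theorem fub' {f : ℝ × V3 → X} (hf : IntegrableOn f Hs) :
    ∫ p in Hs, f p = ∫ y, ∫ t in Ioi (0 : ℝ), f (t, y) := by
  rw [IntegrableOn, restrict_Hs] at hf
  rw [restrict_Hs, integral_prod_symm _ hf]

omit [NormedSpace ℝ X] in
theorem intIoi {f : ℝ → X} {T : ℝ} (hf : Continuous f) (h : ∀ t, T < t → f t = 0) :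
    IntegrableOn f (Ioi 0) :=
  (hf.continuousOn.integrableOn_compact
    (isCompact_Icc (a := (0 : ℝ)) (b := T))).of_forall_sdiff_eq_zero measurableSet_Ioi
    fun t ht => h t (not_le.1 fun hT => ht.2 ⟨le_of_lt ht.1, hT⟩)

end IbpX

open IbpX

theorem ibp : Ibp := by
  intro X _ _ _
  refine ⟨fun a b v => space v, fun ψ h hψ hc hh => ⟨intOn hψ hc hh, fub (intOn hψ hc hh)⟩,
    fun ψ K j hψ hc hK hd hK' => ?_, fun ψ b hψ hc hb => ?_⟩
  · have i1 : IntegrableOn (fun p => dx j ψ p • K p.1 p.2) Hs :=
      intOn (continuous_dD hψ _) (hc.dD _) hK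
    have i2 : IntegrableOn (fun p => ψ p • fderiv ℝ (K p.1) p.2 (ee j)) Hs :=
      intOn hψ.continuous hc (hK'.clm_apply continuous_const)
    rw [fub i1, fub i2, ← integral_neg]
    refine setIntegral_congr_fun measurableSet_Ioi fun t ht => ?_
    have hKt : ContDiff ℝ 1 (K t) :=
      contDiff_one_iff_fderiv.2 ⟨hd t, hK'.comp (Continuous.prodMk_right t)⟩
    have := space (a := fun y => ψ (t, y)) (ee j) (hψ.comp (contDiff_const.prodMk contDiff_id)) hKt
      (.inl (hc.slice (le_of_lt ht)))
    simp only [fderiv_slice (hψ.differentiable one_ne_zero)] at this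
    exact this
  · have hb' : Continuous fun p => fderiv ℝ b p ((1 : ℝ), (0 : V3)) :=
      (hb.continuous_fderiv one_ne_zero).clm_apply continuous_const
    have i1 : IntegrableOn (fun p => dt ψ p • b p) Hs :=
      intOn (continuous_dD hψ _) (hc.dD _) hb.continuous
    have i2 : IntegrableOn (fun p => ψ p • fderiv ℝ b p (1, 0)) Hs := intOn hψ.continuous hc hb'
    have i3 : IntegrableOn (fun p => ψ p • fderiv ℝ b p (1, 0) + dt ψ p • b p) Hs := i2.add i1
    rw [eq_sub_iff_add_eq, add_comm, ← integral_add i2 i1, fub' i3, ← integral_neg]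
    refine integral_congr_ae (Eventually.of_forall fun y => ?_)
    obtain ⟨T', R', h1', -⟩ := hc.dD (1, 0)
    obtain ⟨T, R, h1, -⟩ := hc
    have hl : Continuous fun s : ℝ => (s, y) := Continuous.prodMk_left y
    have hd : ∀ t : ℝ, HasDerivAt (fun s => ψ (s, y) • b (s, y))
        (ψ (t, y) • fderiv ℝ b (t, y) (1, 0) + dt ψ (t, y) • b (t, y)) t := fun t =>
      (hasDerivAt_time (hψ.differentiable one_ne_zero) t y).smul
        ((hb.differentiable one_ne_zero (t, y)).hasFDerivAt.comp_hasDerivAt t
          ((hasDerivAt_id t).prodMk (hasDerivAt_const t y)))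
    have hi : IntegrableOn (fun t : ℝ =>
        ψ (t, y) • fderiv ℝ b (t, y) (1, 0) + dt ψ (t, y) • b (t, y)) (Ioi 0) := by
      refine intIoi (T := max T T') (((hψ.continuous.smul hb').add
        ((continuous_dD hψ _).smul hb.continuous)).comp hl) fun t ht => ?_
      rw [h1 (t, y) ((le_max_left _ _).trans_lt ht), dt, h1' (t, y) ((le_max_right _ _).trans_lt ht),
        zero_smul, zero_smul, add_zero]
    have ht : Tendsto (fun s : ℝ => ψ (s, y) • b (s, y)) atTop (𝓝 0) := by
      refine tendsto_const_nhds.congr' ?_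
      filter_upwards [eventually_gt_atTop T] with s hs
      rw [h1 (s, y) hs, zero_smul]
    exact (integral_Ioi_of_hasDerivAt_of_tendsto' (fun t _ => hd t) hi ht).trans (zero_sub _)

end Vale.Agent.P107
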