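import Vale.Agent.P107.Basic

/-! Problem P107: the square root bound for `J`. -/

open MeasureTheory Set Filter Topology
open scoped ENNReal RealInnerProductSpace

noncomputable section
namespace Vale.Agent.P107

namespace JBX

theorem core {J C X Y M Δ τ L E : ℝ} (hC : 0 < C) (hX : 0 < X) (hY : 0 < Y) (hM : 1 ≤ M)
    (hΔ : 0 < Δ) (hτ : 0 < τ) (hL : 0 < L) (hE : 0 ≤ E)
    (h1 : ∀ ρ, 0 < ρ → J ≤ C * (X * ρ + Y * (τ / ρ ^ 2 + 1 / ρ)))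
    (h2 : Y * τ < L ^ 12 * (X * Δ ^ 3) → ∀ ρ, 0 < ρ → J ≤ C * (X * ρ + Y * M * (1 + E / Δ) / ρ)) :
    J ≤ 2 * C * √(X * Y * M * (1 + (E + τ / L ^ 4) / Δ)) := by
  obtain ⟨R, hR⟩ : ∃ R, R = 1 + (E + τ / L ^ 4) / Δ := ⟨_, rfl⟩
  rw [← hR]
  have hRE : R = 1 + E / Δ + τ / (L ^ 4 * Δ) := by rw [hR]; field_simp; ring
  have a1 : 0 ≤ E / Δ := by positivity
  have a2 : 0 < τ / (L ^ 4 * Δ) := by positivity
  have hR0 : 0 < R := by linarith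
  have hM0 : 0 < M := by linarith
  obtain ⟨ρ, hρ⟩ : ∃ ρ, ρ = √(Y * M * R / X) := ⟨_, rfl⟩
  have hρ0 : 0 < ρ := by rw [hρ]; exact Real.sqrt_pos.2 (by positivity)
  have hρ2 : ρ ^ 2 = Y * M * R / X := by rw [hρ]; exact Real.sq_sqrt (by positivity)
  have e1 : √(X * Y * M * R) = X * ρ := by
    have : X * Y * M * R = (X * ρ) ^ 2 := by rw [mul_pow, hρ2]; field_simp
    rw [this, Real.sqrt_sq (by positivity)]
  have e2 : Y * M * R / ρ = X * ρ := by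
    rw [div_eq_iff hρ0.ne']
    calc Y * M * R = X * (Y * M * R / X) := by field_simp
      _ = X * ρ * ρ := by rw [← hρ2]; ring
  rw [e1]
  have fin : ∀ W, W ≤ Y * M * R / ρ → J ≤ C * (X * ρ + W) → J ≤ 2 * C * (X * ρ) := by
    intro W hW hJ
    rw [e2] at hW
    calc J ≤ C * (X * ρ + W) := hJ
      _ ≤ C * (X * ρ + X * ρ) := by gcongr
      _ = 2 * C * (X * ρ) := by ring
  rcases lt_or_ge (Y * τ) (L ^ 12 * (X * Δ ^ 3)) with h | h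
  · refine fin _ ?_ (h2 h ρ hρ0)
    gcongr
    linarith
  · refine fin _ ?_ (h1 ρ hρ0)
    have b1 : (L ^ 4 * Δ) ^ 2 ≤ ρ ^ 2 := by
      rw [hρ2, le_div_iff₀ hX]
      calc (L ^ 4 * Δ) ^ 2 * X = L ^ 12 * (X * Δ ^ 3) / (L ^ 4 * Δ) := by field_simp
        _ ≤ Y * τ / (L ^ 4 * Δ) := by gcongr
        _ = Y * 1 * (τ / (L ^ 4 * Δ)) := by ring
        _ ≤ Y * M * R := by
          gcongr
          linarith
    have b2 : L ^ 4 * Δ ≤ ρ := (pow_le_pow_iff_left₀ (by positivity) hρ0.le two_ne_zero).1 b1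
    have b3 : τ / ρ ^ 2 ≤ τ / (L ^ 4 * Δ) / ρ := by
      rw [div_div, pow_two]
      gcongr
    calc Y * (τ / ρ ^ 2 + 1 / ρ) ≤ Y * (τ / (L ^ 4 * Δ) / ρ + 1 / ρ) := by gcongr
      _ = Y * 1 * (1 + τ / (L ^ 4 * Δ)) / ρ := by ring
      _ ≤ Y * M * R / ρ := by
        gcongr
        linarith

theorem X_le {τ p α β θ : ℝ} (hτ : 0 < τ) (hp : 0 < p) (hα : 0 < α) (hα1 : α ≤ 1) (hβ : 0 < β)
    (hβ1 : β ≤ 1) (hθ : 0 < θ) : Xq τ p α β θ ≤ p ^ 4 * θ ^ 2 * (Yq p α β * τ) := by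
  have h1 : β ^ 2 * α ^ 2 ≤ min 1 (β ^ 2 / α ^ 2) := by
    have a1 : α ^ 2 ≤ 1 := pow_le_one₀ hα.le hα1
    have a2 : β ^ 2 ≤ 1 := pow_le_one₀ hβ.le hβ1
    refine le_min (mul_le_one₀ a2 (by positivity) a1) ?_
    rw [le_div_iff₀ (by positivity)]
    calc β ^ 2 * α ^ 2 * α ^ 2 ≤ β ^ 2 * 1 * 1 := by gcongr
      _ = β ^ 2 := by ring
  have h2 : min β θ ^ 2 ≤ θ ^ 2 := pow_le_pow_left₀ (le_min hβ.le hθ.le) (min_le_right _ _) 2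
  unfold Xq Yq
  calc τ * p ^ 3 * min β θ ^ 2 * β ^ 2 * α ^ 2 = τ * p ^ 3 * min β θ ^ 2 * (β ^ 2 * α ^ 2) := by
        ring
    _ ≤ τ * p ^ 3 * θ ^ 2 * min 1 (β ^ 2 / α ^ 2) := by gcongr
    _ = p ^ 4 * θ ^ 2 * (min 1 (β ^ 2 / α ^ 2) / p * τ) := by field_simp

theorem valid {X Z Δ L P p m θ : ℝ} (hZ : 0 < Z) (hΔ : 0 < Δ) (hL : 0 < L) (hP : 0 < P)
    (hm : 0 < m) (hmp : m ≤ p) (hpP : p ≤ P) (hθ : 0 < θ) (hθ1 : θ ≤ 1) (hLP : L ^ 12 ≤ P)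
    (hX : X ≤ p ^ 4 * θ ^ 2 * Z) (hD : Δ ≤ (m / P) ^ 2 * θ ^ 2) (h : Z < L ^ 12 * (X * Δ ^ 3)) :
    P ≤ p ^ 2 ∧ 1 ≤ L ^ 12 * m ^ 4 * θ ^ 8 := by
  have hp : 0 < p := hm.trans_le hmp
  have h1 : P ^ 6 < L ^ 12 * (p ^ 4 * m ^ 6 * θ ^ 8) := by
    have a1 : Z < L ^ 12 * (p ^ 4 * m ^ 6 * θ ^ 8) / P ^ 6 * Z :=
      calc Z < L ^ 12 * (X * Δ ^ 3) := h
        _ ≤ L ^ 12 * (p ^ 4 * θ ^ 2 * Z * ((m / P) ^ 2 * θ ^ 2) ^ 3) := by gcongr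
        _ = L ^ 12 * (p ^ 4 * m ^ 6 * θ ^ 8) / P ^ 6 * Z := by field_simp
    have a2 : 1 < L ^ 12 * (p ^ 4 * m ^ 6 * θ ^ 8) / P ^ 6 := by
      by_contra hc
      have := mul_le_mul_of_nonneg_right (not_lt.1 hc) hZ.le
      linarith
    rwa [lt_div_iff₀ (by positivity), one_mul] at a2
  constructor
  · have a1 : θ ^ 8 ≤ 1 := pow_le_one₀ hθ.le hθ1
    have a2 : P * P ^ 5 < P * (p ^ 2) ^ 5 :=
      calc P * P ^ 5 = P ^ 6 := by ring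
        _ < L ^ 12 * (p ^ 4 * m ^ 6 * θ ^ 8) := h1
        _ ≤ P * (p ^ 4 * p ^ 6 * 1) := by gcongr
        _ = P * (p ^ 2) ^ 5 := by ring
    exact (lt_of_pow_lt_pow_left₀ 5 (by positivity) (lt_of_mul_lt_mul_left a2 hP.le)).le
  · have a2 : P ^ 6 * 1 < P ^ 6 * (L ^ 12 * m ^ 4 * θ ^ 8) :=
      calc P ^ 6 * 1 = P ^ 6 := by ring
        _ < L ^ 12 * (p ^ 4 * m ^ 6 * θ ^ 8) := h1
        _ = p ^ 4 * m ^ 2 * (L ^ 12 * m ^ 4 * θ ^ 8) := by ring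
        _ ≤ P ^ 4 * P ^ 2 * (L ^ 12 * m ^ 4 * θ ^ 8) := by
          have : m ≤ P := hmp.trans hpP
          gcongr
        _ = P ^ 6 * (L ^ 12 * m ^ 4 * θ ^ 8) := by ring
    exact (lt_of_mul_lt_mul_left a2 (by positivity)).le

end JBX

theorem jB (hw : JW) (hs : Stab) : JB := by
  intro Λ
  obtain ⟨C, hC, H⟩ := hw Λ
  refine ⟨2 * C, by positivity, ?_⟩
  intro Γ T N t A ℓ k z₀ s₀ τ w hG htT hA hB hBd hH hT hτℓ hS b hb
  have hp : 0 < b.p := by unfold Ix.p; positivity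
  have hα : 0 < b.α := dy_pos _
  have hβ : 0 < b.β := dy_pos _
  have hθ : 0 < b.θ := dy_pos _
  have hθ1 : b.θ ≤ 1 := dy_le_one _
  have hτ := hS.hτ
  have hw0 := hS.hw
  have hL := LL_pos k
  have hL3 := three_le_LL k
  have hpP : b.p ≤ 2 ^ k := by
    have h1 : b.1 < k + 1 := by
      classical
      have := Finset.filter_subset _ _ hb
      exact Finset.mem_range.1 (Finset.mem_product.1 this).1
    exact pow_le_pow_right₀ one_le_two (by omega)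
  have hc : 0 < cc A := by unfold cc; positivity
  have hc1 : cc A ≤ 1 := by
    unfold cc
    rw [div_le_one (by positivity)]
    linarith
  have hm : 0 < min b.p (w ^ 6) := lt_min hp (by positivity)
  have hΔ : 0 < Dq (cc A) k (w ^ 6) b.p b.θ := by
    have : 0 < min b.θ (1 / LL k) := lt_min hθ (by positivity)
    unfold Dq
    positivity
  have hD : Dq (cc A) k (w ^ 6) b.p b.θ ≤ (min b.p (w ^ 6) / 2 ^ k) ^ 2 * b.θ ^ 2 := by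
    unfold Dq
    calc (cc A * min b.p (w ^ 6) / 2 ^ k) ^ 2 * b.θ * min b.θ (1 / LL k)
        ≤ (1 * min b.p (w ^ 6) / 2 ^ k) ^ 2 * b.θ * b.θ := by
          gcongr
          exact min_le_left _ _
      _ = (min b.p (w ^ 6) / 2 ^ k) ^ 2 * b.θ ^ 2 := by ring
  have hLP : LL k ^ 12 ≤ 2 ^ k := by
    refine le_trans ?_ hB
    refine pow_le_pow_left₀ hL.le ?_ 12
    calc LL k = 1 * LL k ^ 1 := by ring
      _ ≤ 1000 * A * LL k ^ 4 :=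
        mul_le_mul (by linarith) (pow_le_pow_right₀ (by linarith) (by norm_num)) (by positivity)
          (by positivity)
  have hX : 0 < Xq τ b.p b.α b.β b.θ := by
    have : 0 < min b.β b.θ := lt_min hβ hθ
    unfold Xq
    positivity
  have hY : 0 < Yq b.p b.α b.β := by
    have : 0 < min 1 (b.β ^ 2 / b.α ^ 2) := lt_min one_pos (by positivity)
    unfold Yq
    positivity
  have hM : 1 ≤ (b.β + b.θ) / b.θ := by
    rw [le_div_iff₀ hθ]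
    linarith
  obtain ⟨-, H1⟩ := H Γ T N (2 ^ k) z₀ s₀ τ (w ^ 6) hG (hT.mono htT) b.p b.α b.β b.θ hp hα hβ hθ
  have key := JBX.core hC hX hY hM hΔ hτ hL
    (add_nonneg (ENNReal.toReal_nonneg (a := Γ.nu z₀ s₀ τ b.p b.α b.β b.θ))
      (ENNReal.toReal_nonneg (a := Γ.En z₀ s₀ τ b.p b.θ)))
    (fun ρ hρ => (H1 ρ hρ).1) fun h ρ hρ => by
      obtain ⟨v1, v2⟩ := JBX.valid (mul_pos hY hτ) hΔ hL (by positivity) hm (min_le_left _ _) hpP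
        hθ hθ1 hLP (JBX.X_le hτ hp hα (dy_le_one _) hβ (dy_le_one _) hθ) hD h
      exact (H1 ρ hρ).2 _ hΔ
        (hs Γ t A ℓ k z₀ s₀ τ w b.p b.θ hG.toKin hA hB hBd hH hT hτℓ hS hp v1 hθ hθ1 v2)
  have e : τ * (((Γ.nu z₀ s₀ τ b.p b.α b.β b.θ).toReal / τ + 1 / LL k ^ 4)
      + (Γ.En z₀ s₀ τ b.p b.θ).toReal / τ) =
      (Γ.nu z₀ s₀ τ b.p b.α b.β b.θ).toReal + (Γ.En z₀ s₀ τ b.p b.θ).toReal + τ / LL k ^ 4 := by
    field_simp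
    ring
  rw [e]
  exact key

end Vale.Agent.P107
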