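import Vale.Agent.P107.Basic2

/-! Problem P107: joint `C¹` regularity from continuous derivatives in each variable. -/

open MeasureTheory Set Filter Topology
open scoped ENNReal RealInnerProductSpace ContDiff

noncomputable section
namespace Vale.Agent.P107

namespace JC1X
variable {X W : Type} [NormedAddCommGroup X] [NormedSpace ℝ X] [NormedAddCommGroup W]
  [NormedSpace ℝ W]

theorem part1 {g G : ℝ → X → W} (hG : Continuous fun p : ℝ × X => G p.1 p.2)
    (hd : ∀ t, Differentiable ℝ (g t)) (hc : Continuous fun p : ℝ × X => fderiv ℝ (g p.1) p.2)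
    (ht : ∀ t x, HasDerivAt (fun s => g s x) (G t x) t) :
    ContDiff ℝ 1 fun p : ℝ × X => g p.1 p.2 := by
  have h1 : Continuous fun p : ℝ × X => ContinuousLinearMap.toSpanSingleton ℝ (G p.1 p.2) :=
    (ContinuousLinearMap.toSpanSingletonCLE (𝕜 := ℝ) (E := W)).continuous.comp hG
  refine contDiff_one_iff_hasFDerivAt.2 ⟨fun p =>
    (ContinuousLinearMap.toSpanSingleton ℝ (G p.1 p.2)).coprod (fderiv ℝ (g p.1) p.2),
    h1.continuousLinearMapCoprod hc, fun p => ?_⟩
  exact (hasStrictFDerivAt_uncurry_coprod (f := g)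
    (f₁ := fun t x => ContinuousLinearMap.toSpanSingleton ℝ (G t x))
    (f₂ := fun t x => fderiv ℝ (g t) x) (Eventually.of_forall fun v => (ht v.1 v.2).hasFDerivAt)
    (Eventually.of_forall fun v => (hd v.1 v.2).hasFDerivAt) h1.continuousAt
    hc.continuousAt).hasFDerivAt

end JC1X

theorem jC1 : JC1 := by
  intro X W _ _ _ _ _ g G hG hd hc
  refine ⟨JC1X.part1 hG hd hc, fun h => ?_⟩
  let k : ℝ → X → W := fun t x => g (max t 0) x - g (max (-t) 0) x + g 0 x
  have hk : ∀ t, 0 ≤ t → ∀ x, k t x = g t x := fun t ht x => by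
    simp only [k, max_eq_left ht, max_eq_right (neg_nonpos.2 ht), sub_add_cancel]
  have hi : ∀ t x, k t x = g 0 x + ∫ σ in (0 : ℝ)..t, G |σ| x := by
    intro t x
    rcases le_total 0 t with ht | ht
    · rw [hk t ht, h t ht]
      congr 1
      refine intervalIntegral.integral_congr fun σ hσ => ?_
      rw [uIcc_of_le ht] at hσ
      simp only [abs_of_nonneg hσ.1]
    · have e : ∫ σ in (0 : ℝ)..t, G |σ| x = ∫ σ in (0 : ℝ)..t, G (-σ) x := by
        refine intervalIntegral.integral_congr fun σ hσ => ?_
        rw [uIcc_of_ge ht] at hσ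
        simp only [abs_of_nonpos hσ.2]
      rw [e, intervalIntegral.integral_comp_neg fun σ => G σ x, neg_zero,
        intervalIntegral.integral_symm]
      simp only [k, max_eq_right ht, max_eq_left (neg_nonneg.2 ht)]
      rw [h (-t) (neg_nonneg.2 ht)]
      abel
  have hG' : Continuous fun p : ℝ × X => G |p.1| p.2 :=
    hG.comp (continuous_fst.abs.prodMk continuous_snd)
  have ht : ∀ t x, HasDerivAt (fun s => k s x) (G |t| x) t := by
    intro t x
    simp only [hi]
    have hc : Continuous fun σ : ℝ => G |σ| x := hG'.comp (continuous_id.prodMk continuous_const)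
    exact (hc.integral_hasStrictDerivAt 0 t).hasDerivAt.const_add _
  have hf : ∀ t x, HasFDerivAt (k t) (fderiv ℝ (g (max t 0)) x - fderiv ℝ (g (max (-t) 0)) x +
      fderiv ℝ (g 0) x) x := fun t x =>
    ((hd _ x).hasFDerivAt.fun_sub (hd _ x).hasFDerivAt).fun_add (hd 0 x).hasFDerivAt
  have hC := JC1X.part1 (g := k) (G := fun t x => G |t| x) hG'
    (fun t x => (hf t x).differentiableAt) (by
      simp only [(hf _ _).fderiv]
      exact ((hc.comp ((continuous_fst.max continuous_const).prodMk continuous_snd)).sub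
        (hc.comp ((continuous_fst.neg.max continuous_const).prodMk continuous_snd))).add
        (hc.comp (continuous_const.prodMk continuous_snd))) ht
  refine ⟨hC.contDiffOn.congr fun p hp => (hk p.1 hp.1 p.2).symm, fun t h0 x => ?_⟩
  have h1 := (ht t x).hasDerivWithinAt (s := Ici 0)
  rw [abs_of_nonneg h0] at h1
  exact h1.congr (fun s hs => (hk s hs x).symm) (hk t h0 x).symm

end Vale.Agent.P107
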