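import Vale.Agent.P107.Basic

/-! Problem P107: the two bounds for `J` with a free radius. -/

open MeasureTheory Set Filter Topology
open scoped ENNReal RealInnerProductSpace

noncomputable section
namespace Vale.Agent.P107

namespace JWX
variable (Γ : PS) (z₀ : Z) (s₀ τ p α β θ : ℝ)

theorem cover {A B C : Set ℝ} (h : A ⊆ B ∪ C) :
    Γ.JA z₀ s₀ τ p α β θ A ≤ Γ.JA z₀ s₀ τ p α β θ B + Γ.JA z₀ s₀ τ p α β θ C := by
  refine le_trans (lintegral_mono_set ?_) (lintegral_union_le _ _ _)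
  rintro x ⟨h1, h2⟩
  rcases h h2 with h3 | h3
  exacts [Or.inl ⟨h1, h3⟩, Or.inr ⟨h1, h3⟩]

theorem key {p α β Q a b : ℝ} (hp : 0 < p) (hα : 0 < α) (hβ : 0 < β) (hQ : p ≤ Q) (ha : α ≤ a)
    (hb : β ≤ b) (hb' : b < 2 * β) : 1 ≤ 4 * Yq p α β * (Q * (1 + a ^ 2 / b ^ 2)) := by
  have hb0 : 0 < b := hβ.trans_le hb
  have h1 : α ^ 2 / (2 * β) ^ 2 ≤ a ^ 2 / b ^ 2 := by gcongr
  have h2 : 1 ≤ 4 * min 1 (β ^ 2 / α ^ 2) * (1 + α ^ 2 / (2 * β) ^ 2) := by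
    have h3 : 0 ≤ α ^ 2 / (2 * β) ^ 2 := by positivity
    rcases min_cases 1 (β ^ 2 / α ^ 2) with h | h
    · rw [h.1]; linarith
    · rw [h.1]
      have : 4 * (β ^ 2 / α ^ 2) * (1 + α ^ 2 / (2 * β) ^ 2) = 4 * (β ^ 2 / α ^ 2) + 1 := by
        field_simp; ring
      rw [this]
      have : 0 ≤ β ^ 2 / α ^ 2 := by positivity
      linarith
  have h4 : 0 ≤ min 1 (β ^ 2 / α ^ 2) := le_min zero_le_one (by positivity)
  calc (1 : ℝ) ≤ 4 * min 1 (β ^ 2 / α ^ 2) * (1 + α ^ 2 / (2 * β) ^ 2) := h2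
    _ = 4 * Yq p α β * (p * (1 + α ^ 2 / (2 * β) ^ 2)) := by unfold Yq; field_simp
    _ ≤ _ := by
      have : 0 ≤ Yq p α β := div_nonneg h4 hp.le
      have : 0 ≤ Q := hp.le.trans hQ
      gcongr

variable {p α β θ}

theorem mid (hm : MeasurableSet (Γ.Bx z₀ p α β θ)) (hp : 0 < p) (hα : 0 < α) (hβ : 0 < β)
    {ρ Δ : ℝ} (hρ : 0 < ρ) (hΔ : 0 < Δ) :
    Γ.JA z₀ s₀ τ p α β θ (Ioi ρ ∩ Ioi Δ ∩ Iic τ) ≤
      ENNReal.ofReal (4 * Yq p α β / (ρ * Δ)) * Γ.nu z₀ s₀ τ p α β θ := by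
  have hY : 0 ≤ Yq p α β := div_nonneg (le_min zero_le_one (by positivity)) hp.le
  have hs : MeasurableSet (Γ.Bx z₀ p α β θ ∩ {x | ‖x.2.1‖ ∈ Ioi ρ ∩ Ioi Δ ∩ Iic τ}) :=
    hm.inter (((measurableSet_Ioi.inter measurableSet_Ioi).inter measurableSet_Iic).preimage
      (by fun_prop : Measurable fun x : ℝ × Z => ‖x.2.1‖))
  unfold PS.JA PS.nu PS.IB
  rw [← lintegral_const_mul' _ _ ENNReal.ofReal_ne_top]
  refine le_trans (setLIntegral_mono' hs fun x hx => ?_)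
    (lintegral_mono_set (inter_subset_inter_right _ fun x hx => hx.2))
  rw [← ENNReal.ofReal_mul (by positivity)]
  refine ENNReal.ofReal_le_ofReal ?_
  obtain ⟨⟨h1, h2, h3, -⟩, ⟨h5, h6⟩, -⟩ := hx
  have k := key hp hα hβ h1.1 h2.1 h3.1 h3.2
  have h5' : ρ < ‖x.2.1‖ := h5
  have h6' : Δ < ‖x.2.1‖ := h6
  calc 1 / ‖x.2.1‖ ^ 2 ≤ 1 / (ρ * Δ) := by
        rw [sq]; gcongr
    _ ≤ 4 * Yq p α β * (q x.2.2 * (1 + sgp (Γ.U z₀ x.1) x.2.1 x.2.2)) / (ρ * Δ) := by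
        gcongr; exact k
    _ = _ := by ring

theorem num {Cn Cw Λ τ ρ Δ X Y M E ν C : ℝ} (hCn : 0 < Cn) (hCw : 0 < Cw) (hΛ : 0 < Λ)
    (hτ : 0 < τ) (hρ : 0 < ρ) (hΔ : 0 < Δ) (hX : 0 ≤ X) (hY : 0 ≤ Y) (hM : 1 ≤ M) (hE0 : 0 ≤ E)
    (hν0 : 0 ≤ ν) (hE' : E ≤ Λ * τ) (hC : C = (Cn + Cw + 16) * Λ + Cw + 4) :
    Cn * Λ * X * ρ + Cw * M * Y / (ρ * min Δ τ) * E + (4 * Y / (ρ * Δ) * ν
      + 8 * Λ * Y * (τ / max ρ τ ^ 2 + 1 / max ρ τ))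
      ≤ C * (X * ρ + Y * M * (1 + (ν + E) / Δ) / ρ) := by
  have hM0 : 0 ≤ M := zero_le_one.trans hM
  have hd : 0 < min Δ τ := lt_min hΔ hτ
  have hρ' : 0 < max ρ τ := lt_max_of_lt_left hρ
  have c1 : Cn * Λ ≤ C := by rw [hC]; nlinarith [mul_pos hCw hΛ]
  have e1 : E / min Δ τ ≤ E / Δ + Λ := by
    rcases min_cases Δ τ with h | h
    · rw [h.1]; linarith
    · rw [h.1, div_le_iff₀ hτ]
      have : 0 ≤ E / Δ * τ := by positivity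
      linarith
  have e2 : τ / max ρ τ ^ 2 + 1 / max ρ τ ≤ 2 / ρ := by
    have h1 : τ / max ρ τ ^ 2 ≤ 1 / ρ := by
      rw [div_le_div_iff₀ (by positivity) hρ, one_mul, sq]
      exact mul_le_mul (le_max_right _ _) (le_max_left _ _) hρ.le hρ'.le
    have h2 : 1 / max ρ τ ≤ 1 / ρ := one_div_le_one_div_of_le hρ (le_max_left _ _)
    have : 2 / ρ = 1 / ρ + 1 / ρ := by ring
    linarith
  have hW : 0 ≤ Y / ρ := by positivity
  have b1 : Cw * M * Y / (ρ * min Δ τ) * E ≤ Y / ρ * M * (Cw * (E / Δ + Λ)) := by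
    calc _ = Y / ρ * M * (Cw * (E / min Δ τ)) := by field_simp
      _ ≤ _ := by gcongr
  have b2 : 4 * Y / (ρ * Δ) * ν ≤ Y / ρ * M * (4 * (ν / Δ)) := by
    calc _ = Y / ρ * 1 * (4 * (ν / Δ)) := by field_simp
      _ ≤ _ := by gcongr
  have b3 : 8 * Λ * Y * (τ / max ρ τ ^ 2 + 1 / max ρ τ)
      ≤ Y / ρ * M * (16 * Λ) := by
    calc _ ≤ 8 * Λ * Y * (2 / ρ) := by gcongr
      _ = Y / ρ * 1 * (16 * Λ) := by ring
      _ ≤ _ := by gcongr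
  have b0 : Cn * Λ * X * ρ ≤ C * (X * ρ) := by
    rw [mul_assoc]; gcongr
  have b4 : Cw * (E / Δ + Λ) + 4 * (ν / Δ) + 16 * Λ ≤ C * (1 + (ν + E) / Δ) := by
    have h1 : 0 ≤ E / Δ := by positivity
    have h2 : 0 ≤ ν / Δ := by positivity
    have h3 : Cw ≤ C := by rw [hC]; nlinarith [mul_pos hCw hΛ, mul_pos hCn hΛ]
    have h4 : 4 ≤ C := by rw [hC]; nlinarith [mul_pos hCw hΛ, mul_pos hCn hΛ]
    have h5 : Cw * Λ + 16 * Λ ≤ C := by rw [hC]; nlinarith [mul_pos hCn hΛ]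
    rw [add_div]
    have h6 := mul_le_mul_of_nonneg_right h3 h1
    have h7 := mul_le_mul_of_nonneg_right h4 h2
    linarith
  calc _ ≤ C * (X * ρ) + Y / ρ * M *
        (Cw * (E / Δ + Λ) + 4 * (ν / Δ) + 16 * Λ) := by linarith
    _ ≤ C * (X * ρ) + Y / ρ * M * (C * (1 + (ν + E) / Δ)) := by gcongr
    _ = _ := by ring

end JWX

theorem jW (ht : Ton) (hn : Near) (hf : Far) (hw : Win) (ho : Ov) : JW := by
  obtain ⟨Cn, hCn, hn⟩ := hn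
  obtain ⟨Cw, hCw, hw⟩ := hw
  intro Λ
  refine ⟨(Cn + Cw + 16) * |Λ| + Cw + 4, by positivity, ?_⟩
  intro Γ T N P z₀ s₀ τ p' hG hT p α β θ hp hα hβ hθ
  have hΛ : 0 < Λ := by linarith [hG.hΛ]
  have hτ := hT.hτ
  rw [abs_of_pos hΛ]
  set C := (Cn + Cw + 16) * Λ + Cw + 4 with hC
  have hY : 0 ≤ Yq p α β := div_nonneg (le_min zero_le_one (by positivity)) hp.le
  have hX : 0 ≤ Xq τ p α β θ := by unfold Xq; positivity
  have near := (hn Γ T Λ N P z₀ s₀ τ p' hG hT p α β θ hp hα hβ hθ).1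
  have far := hf Γ T Λ N P z₀ s₀ τ p' hG hT p α β θ hp hα hβ hθ
  have c1 : Cn * Λ ≤ C := by rw [hC]; nlinarith [mul_pos hCw hΛ]
  have c2 : 8 * Λ ≤ C := by rw [hC]; nlinarith [mul_pos hCw hΛ, mul_pos hCn hΛ]
  have first : ∀ ρ, 0 < ρ → Γ.JA z₀ s₀ τ p α β θ univ ≤
      ENNReal.ofReal (C * (Xq τ p α β θ * ρ + Yq p α β * (τ / ρ ^ 2 + 1 / ρ))) := by
    intro ρ hρ
    refine (JWX.cover Γ z₀ s₀ τ p α β θ (B := Iic ρ) (C := Ioi ρ) (by simp)).trans ?_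
    refine (add_le_add (near ρ hρ) (far ρ hρ)).trans ?_
    rw [← ENNReal.ofReal_add (by positivity) (by positivity)]
    refine ENNReal.ofReal_le_ofReal ?_
    calc _ = Cn * Λ * (Xq τ p α β θ * ρ) + 8 * Λ * (Yq p α β * (τ / ρ ^ 2 + 1 / ρ)) := by ring
      _ ≤ C * (Xq τ p α β θ * ρ) + C * (Yq p α β * (τ / ρ ^ 2 + 1 / ρ)) := by gcongr
      _ = _ := by ring
  have hC0 : 0 ≤ C := by positivity
  refine ⟨ne_top_of_le_ne_top ENNReal.ofReal_ne_top (first 1 one_pos), fun ρ hρ =>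
    ⟨ENNReal.toReal_le_of_le_ofReal (by positivity) (first ρ hρ), fun Δ hΔ hS => ?_⟩⟩
  obtain ⟨o1, o2, -⟩ := ho Γ T Λ N P z₀ s₀ τ p' hG hT
  have hν := ne_top_of_le_ne_top ENNReal.ofReal_ne_top (o1 p α β θ)
  have hE := ne_top_of_le_ne_top ENNReal.ofReal_ne_top (o2 p θ)
  have hE' := ENNReal.toReal_le_of_le_ofReal (by positivity) (o2 p θ)
  have win := hw Γ T Λ N P z₀ s₀ τ p' hG hT p α β θ (min Δ τ) ρ hp hα hβ hρ hS
  have mid := JWX.mid Γ z₀ s₀ τ ((ht Γ hG.toKin z₀ s₀ τ).2.2.2.1 p α β θ) hp hα hβ hρ hΔ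
  have far' := far (max ρ τ) (lt_max_of_lt_left hρ)
  rw [← ENNReal.ofReal_toReal hE] at win
  rw [← ENNReal.ofReal_toReal hν] at mid
  have hE0 : 0 ≤ (Γ.En z₀ s₀ τ p θ).toReal := ENNReal.toReal_nonneg
  have hν0 : 0 ≤ (Γ.nu z₀ s₀ τ p α β θ).toReal := ENNReal.toReal_nonneg
  generalize (Γ.En z₀ s₀ τ p θ).toReal = E at *
  generalize (Γ.nu z₀ s₀ τ p α β θ).toReal = ν at *
  have hM : 1 ≤ (β + θ) / θ := by rw [le_div_iff₀ hθ]; linarith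
  generalize (β + θ) / θ = M at *
  have hM0 : 0 ≤ M := zero_le_one.trans hM
  have hd : 0 < min Δ τ := lt_min hΔ hτ
  have hρ' : 0 < max ρ τ := lt_max_of_lt_left hρ
  rw [← ENNReal.ofReal_mul (by positivity)] at win mid
  refine ENNReal.toReal_le_of_le_ofReal (by positivity) ?_
  have cov : Γ.JA z₀ s₀ τ p α β θ univ ≤ (Γ.JA z₀ s₀ τ p α β θ (Iic ρ)
      + Γ.JA z₀ s₀ τ p α β θ (Ioc ρ (min Δ τ))) + (Γ.JA z₀ s₀ τ p α β θ (Ioi ρ ∩ Ioi Δ ∩ Iic τ)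
      + Γ.JA z₀ s₀ τ p α β θ (Ioi (max ρ τ))) := by
    refine (JWX.cover Γ z₀ s₀ τ p α β θ (B := Iic ρ ∪ Ioc ρ (min Δ τ))
      (C := Ioi ρ ∩ Ioi Δ ∩ Iic τ ∪ Ioi (max ρ τ)) fun r _ => ?_).trans
      (add_le_add (JWX.cover Γ z₀ s₀ τ p α β θ le_rfl) (JWX.cover Γ z₀ s₀ τ p α β θ le_rfl))
    simp only [mem_union, mem_Iic, mem_Ioc, mem_inter_iff, mem_Ioi, le_min_iff, max_lt_iff]
    rcases le_or_gt r ρ with h1 | h1 <;> rcases le_or_gt r Δ with h2 | h2 <;>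
      rcases le_or_gt r τ with h3 | h3 <;> simp [h1, h2, h3]
  refine (cov.trans (add_le_add (add_le_add (near ρ hρ) win) (add_le_add mid far'))).trans ?_
  rw [← ENNReal.ofReal_add (by positivity) (by positivity),
    ← ENNReal.ofReal_add (by positivity) (by positivity),
    ← ENNReal.ofReal_add (by positivity) (by positivity)]
  refine ENNReal.ofReal_le_ofReal ?_
  exact JWX.num hCn hCw hΛ hτ hρ hΔ hX hY hM hE0 hν0 hE' hC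

end Vale.Agent.P107
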