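import Vale.Agent.P107.Basic

/-! Problem P107: the space-time bound for the magnetic field on a box. -/

open MeasureTheory Set Filter Topology
open scoped ENNReal RealInnerProductSpace

noncomputable section
namespace Vale.Agent.P107

theorem k2 (ht : Ton) (hr : Red) (hp : Pal) : K2 := by
  obtain ⟨C, hC, hr⟩ := hr
  refine ⟨2 * C, by linarith, fun Γ T Λ N P z₀ s₀ τ p' hG hT p α β θ τ' h1 h2 h3 h4 h5 => ?_⟩
  obtain ⟨-, -, hU, -⟩ := ht Γ hG.toKin z₀ s₀ τ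
  have hΛ := hG.hΛ
  have hτ := hT.hτ
  have hY : Continuous fun s => Γ.Y s z₀ := hG.cY.comp (continuous_id.prodMk continuous_const)
  let g : ℝ × V3 → ℝ≥0∞ := fun y => ENNReal.ofReal (‖(Γ.K y.1 y.2).2‖ ^ 2)
  have hg : Measurable g :=
    ENNReal.measurable_ofReal.comp ((hG.cK.snd.norm.pow 2).measurable)
  let ψ : ℝ × V3 → ℝ≥0∞ := indicator {y | s₀ - τ' ≤ y.1} g
  have hψ : Measurable ψ := hg.indicator (measurableSet_le measurable_const measurable_fst)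
  let φ : ℝ × V3 → ℝ≥0∞ :=
    indicator {y | ‖y.2‖ ≤ τ'} fun y => g (y.1 - ‖y.2‖, Γ.Y y.1 z₀ - y.2)
  have hc : Continuous fun y : ℝ × V3 => (y.1 - ‖y.2‖, Γ.Y y.1 z₀ - y.2) :=
    (continuous_fst.sub continuous_snd.norm).prodMk ((hY.comp continuous_fst).sub continuous_snd)
  have hφ : Measurable φ := (hg.comp hc.measurable).indicator
    (measurableSet_le measurable_snd.norm measurable_const)
  have e1 : Γ.IB z₀ s₀ τ p α β θ (Iic τ') (fun x => ‖(Γ.kk z₀ x).2‖ ^ 2) =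
      ∫⁻ x in Γ.Bx z₀ p α β θ, φ (x.1, x.2.1) ∂Γ.lam z₀ s₀ τ := by
    have hm : MeasurableSet {x : ℝ × Z | ‖x.2.1‖ ∈ Iic τ'} :=
      measurableSet_le measurable_snd.fst.norm measurable_const
    unfold PS.IB
    rw [inter_comm, ← Measure.restrict_restrict hm, ← lintegral_indicator hm]
    rfl
  have e2 : ∫⁻ s in Icc s₀ (s₀ + τ),
      ∫⁻ w in {w : V3 | ‖w‖ < s ∧ dd (hat w) (Γ.U z₀ s) ∈ Ico α (2 * α)}, φ (s, w) ≤
      ENNReal.ofReal (1 / α ^ 2) * ∫⁻ s in Icc s₀ (s₀ + τ), ∫⁻ w in Metric.ball (0 : V3) s,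
        ENNReal.ofReal (dd (hat w) (Γ.U z₀ s) ^ 2) * ψ (s - ‖w‖, Γ.Y s z₀ - w) := by
    rw [← lintegral_const_mul' _ _ ENNReal.ofReal_ne_top]
    refine setLIntegral_mono' measurableSet_Icc fun s hs => ?_
    rw [← lintegral_const_mul' _ _ ENNReal.ofReal_ne_top]
    have hm : MeasurableSet {w : V3 | ‖w‖ < s ∧ dd (hat w) (Γ.U z₀ s) ∈ Ico α (2 * α)} :=
      (measurableSet_lt measurable_norm measurable_const).inter
        ((by fun_prop : Measurable fun w => dd (hat w) (Γ.U z₀ s)) measurableSet_Ico)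
    refine le_trans (setLIntegral_mono' hm fun w hw => ?_)
      (lintegral_mono_set fun w hw => mem_ball_zero_iff.2 hw.1)
    by_cases hw' : ‖w‖ ≤ τ'
    · have a1 : φ (s, w) = g (s - ‖w‖, Γ.Y s z₀ - w) :=
        indicator_of_mem (s := {y : ℝ × V3 | ‖y.2‖ ≤ τ'}) (a := (s, w)) hw'
          fun y => g (y.1 - ‖y.2‖, Γ.Y y.1 z₀ - y.2)
      have a2 : ψ (s - ‖w‖, Γ.Y s z₀ - w) = g (s - ‖w‖, Γ.Y s z₀ - w) :=
        indicator_of_mem (s := {y : ℝ × V3 | s₀ - τ' ≤ y.1}) (a := (s - ‖w‖, Γ.Y s z₀ - w))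
          (sub_le_sub hs.1 hw') g
      rw [a1, a2, ← mul_assoc, ← ENNReal.ofReal_mul (by positivity)]
      refine le_mul_of_one_le_left' (ENNReal.one_le_ofReal.2 ?_)
      rw [one_div_mul_eq_div, one_le_div (by positivity)]
      exact pow_le_pow_left₀ h2.le hw.2.1 2
    · have a1 : φ (s, w) = 0 :=
        indicator_of_notMem (s := {y : ℝ × V3 | ‖y.2‖ ≤ τ'}) (a := (s, w)) hw' _
      rw [a1]
      exact zero_le
  have e3 := hp (fun s => Γ.Y s z₀) (Γ.U z₀) s₀ (s₀ + τ) (fun s => hG.dY s z₀) hU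
    (fun s => norm_uu_lt _) ψ hψ
  have e4 : ∫⁻ σ in Icc 0 (s₀ + τ), ∫⁻ y, ψ (σ, y) ≤ ENNReal.ofReal (2 * τ' * Λ) := by
    have a1 : ∫⁻ σ in Icc 0 (s₀ + τ), ∫⁻ y, ψ (σ, y) ≤
        ∫⁻ σ in Icc 0 (s₀ + τ),
          indicator (Icc (s₀ - τ') (s₀ + τ)) (fun _ => ENNReal.ofReal Λ) σ := by
      refine setLIntegral_mono' measurableSet_Icc fun σ hσ => ?_
      by_cases h : s₀ - τ' ≤ σ
      · rw [indicator_of_mem (show σ ∈ Icc (s₀ - τ') (s₀ + τ) from ⟨h, hσ.2⟩)]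
        refine le_trans (lintegral_mono fun y => ?_) (hG.enB σ ⟨hσ.1, hσ.2.trans hT.hT⟩)
        exact indicator_le_self _ g (σ, y)
      · have a2 : ∀ y, ψ (σ, y) = 0 := fun y =>
          indicator_of_notMem (s := {y : ℝ × V3 | s₀ - τ' ≤ y.1}) (a := (σ, y)) h g
        simp only [a2, lintegral_zero, zero_le]
    refine a1.trans ((setLIntegral_le_lintegral _ _).trans ?_)
    rw [lintegral_indicator_const measurableSet_Icc, Real.volume_Icc,
      ← ENNReal.ofReal_mul (by linarith)]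
    refine ENNReal.ofReal_le_ofReal ?_
    nlinarith
  rw [e1]
  refine (hr Γ T Λ N P z₀ s₀ τ p' hG hT p α β θ h1 h2 h3 h4 φ hφ).trans ?_
  refine (mul_le_mul_right (e2.trans (mul_le_mul_right (e3.trans e4) _)) _).trans ?_
  have hΛ0 : 0 < Λ := by linarith
  rw [← ENNReal.ofReal_mul (by positivity), ← ENNReal.ofReal_mul (by positivity)]
  refine ENNReal.ofReal_le_ofReal (le_of_eq ?_)
  ring

end Vale.Agent.P107
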