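import Vale.Agent.P107.Basic2

/-! Problem P107: derivatives of the singular kernels. -/

open MeasureTheory Set Filter Topology
open scoped ENNReal RealInnerProductSpace ContDiff

noncomputable section
namespace Vale.Agent.P107

namespace KDX

section smooth
variable {X : Type} [NormedAddCommGroup X] [NormedSpace ℝ X] {n : WithTop ℕ∞} {f g : X → V3} {x : X}

theorem cd_hat (hf : ContDiffAt ℝ n f x) (h : f x ≠ 0) : ContDiffAt ℝ n (fun y => hat (f y)) x :=
  ((hf.norm ℝ h).inv (norm_ne_zero_iff.2 h)).smul hf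

theorem cd_cross (hf : ContDiffAt ℝ n f x) (hg : ContDiffAt ℝ n g x) :
    ContDiffAt ℝ n (fun y => cross (f y) (g y)) x :=
  contDiff_cross.contDiffAt.comp x (hf.prodMk hg)

theorem cd_gam (hf : ContDiffAt ℝ n f x) (hg : ContDiffAt ℝ n g x) (h : f x ≠ 0) :
    ContDiffAt ℝ n (fun y => gam (f y) (g y)) x := by
  have h1 := cd_hat hf h
  have h2 : ContDiffAt ℝ n (fun y => uu (g y)) x := contDiff_uu.contDiffAt.comp x hg
  have h3 : ContDiffAt ℝ n (fun y => b2 (f y) (g y)) x := contDiffAt_const.sub (h1.inner ℝ h2)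
  have h4 := ((h3.mul (hf.norm ℝ h)).inv
    (mul_ne_zero (b2_pos _ _).ne' (norm_ne_zero_iff.2 h))).smul (h1.sub h2)
  exact h4.prodMk (cd_cross h1 h4)

end smooth

/-- derivative of the direction -/
def dn (w h : V3) : V3 := ‖w‖⁻¹ • (h - ⟪hat w, h⟫ • hat w)

/-- first component of `gam` -/
def g1 (w v : V3) : V3 := (b2 w v * ‖w‖)⁻¹ • (hat w - uu v)

/-- derivative of `g1` -/
def dg (w v h a : V3) : V3 := (b2 w v * ‖w‖)⁻¹ • (dn w h - a) +
  (-(-(⟪hat w, a⟫ + ⟪dn w h, uu v⟫) * ‖w‖ + b2 w v * ⟪hat w, h⟫) / (b2 w v * ‖w‖) ^ 2) •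
    (hat w - uu v)

theorem hd_norm {W : ℝ → V3} {h : V3} {t : ℝ} (hW : HasDerivAt W h t) (h0 : W t ≠ 0) :
    HasDerivAt (fun s => ‖W s‖) ⟪hat (W t), h⟫ t := by
  have hr := norm_ne_zero_iff.2 h0
  have h1 := hW.norm_sq.sqrt (pow_ne_zero 2 hr)
  simp only [Real.sqrt_sq (norm_nonneg _)] at h1
  have e : 2 * ⟪W t, h⟫ / (2 * ‖W t‖) = ⟪hat (W t), h⟫ := by
    rw [inner_eq_norm_mul_hat]
    field_simp
  rwa [e] at h1

theorem hd_hat {W : ℝ → V3} {h : V3} {t : ℝ} (hW : HasDerivAt W h t) (h0 : W t ≠ 0) :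
    HasDerivAt (fun s => hat (W s)) (dn (W t) h) t := by
  have hr := norm_ne_zero_iff.2 h0
  have h1 := ((hd_norm hW h0).fun_inv hr).fun_smul hW
  have e : ‖W t‖⁻¹ • h + (-⟪hat (W t), h⟫ / ‖W t‖ ^ 2) • W t = dn (W t) h := by
    unfold dn
    generalize ⟪hat (W t), h⟫ = c
    unfold hat
    match_scalars <;> field_simp
  rwa [e] at h1

theorem hd_cross {A B : ℝ → V3} {a b : V3} {t : ℝ} (hA : HasDerivAt A a t)
    (hB : HasDerivAt B b t) :
    HasDerivAt (fun s => cross (A s) (B s)) (cross a (B t) + cross (A t) b) t :=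
  (crossL.hasFDerivAt.comp_hasDerivAt t hA).clm_apply hB

theorem hd_gam {W V : ℝ → V3} {h a : V3} {t : ℝ} (hW : HasDerivAt W h t) (h0 : W t ≠ 0)
    (hV : HasDerivAt (fun s => uu (V s)) a t) :
    HasDerivAt (fun s => gam (W s) (V s)) (dg (W t) (V t) h a,
      cross (dn (W t) h) (g1 (W t) (V t)) + cross (hat (W t)) (dg (W t) (V t) h a)) t := by
  have h1 := hd_hat hW h0
  have h2 : HasDerivAt (fun s => b2 (W s) (V s))
      (-(⟪hat (W t), a⟫ + ⟪dn (W t) h, uu (V t)⟫)) t := (h1.inner ℝ hV).const_sub 1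
  have h3 : HasDerivAt (fun s => g1 (W s) (V s)) (dg (W t) (V t) h a) t :=
    ((h2.fun_mul (hd_norm hW h0)).fun_inv
      (mul_ne_zero (b2_pos _ _).ne' (norm_ne_zero_iff.2 h0))).fun_smul (h1.fun_sub hV)
  exact h3.prodMk (hd_cross h1 h3)

theorem hd_line (w h : V3) : HasDerivAt (fun t : ℝ => w + t • h) h 0 := by
  simpa using ((hasDerivAt_id (0 : ℝ)).smul_const h).const_add w

theorem fderiv_eq {Y : Type} [NormedAddCommGroup Y] [NormedSpace ℝ Y] {f : V3 → Y} {w h : V3}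
    {D : Y} (hf : DifferentiableAt ℝ f w) (hD : HasDerivAt (fun t : ℝ => f (w + t • h)) D 0) :
    fderiv ℝ f w h = D := by
  have h3 : HasFDerivAt f (fderiv ℝ f w) ((fun t : ℝ => w + t • h) 0) := by
    simpa using hf.hasFDerivAt
  exact (h3.comp_hasDerivAt 0 (hd_line w h)).unique hD

theorem diff_w {w : V3} (h0 : w ≠ 0) (v : V3) : DifferentiableAt ℝ (fun w => gam w v) w :=
  (cd_gam (n := 1) contDiffAt_id contDiffAt_const h0).differentiableAt one_ne_zero

theorem diff_v {w : V3} (h0 : w ≠ 0) (v : V3) : DifferentiableAt ℝ (gam w) v :=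
  (cd_gam (n := 1) contDiffAt_const contDiffAt_id h0).differentiableAt one_ne_zero

theorem diff_norm {w : V3} (h0 : w ≠ 0) : DifferentiableAt ℝ (fun w : V3 => ‖w‖⁻¹) w :=
  (((contDiffAt_id (n := 1)).norm ℝ h0).inv (norm_ne_zero_iff.2 h0)).differentiableAt one_ne_zero

theorem diff_hat {w : V3} (h0 : w ≠ 0) : DifferentiableAt ℝ hat w :=
  (cd_hat (n := 1) contDiffAt_id h0).differentiableAt one_ne_zero

theorem fd_w {w : V3} (h0 : w ≠ 0) (v h : V3) : fderiv ℝ (fun w => gam w v) w h =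
    (dg w v h 0, cross (dn w h) (g1 w v) + cross (hat w) (dg w v h 0)) := by
  refine fderiv_eq (diff_w h0 v) ?_
  have := hd_gam (V := fun _ => v) (hd_line w h) (by simpa using h0) (hasDerivAt_const _ _)
  simpa only [zero_smul, add_zero] using this

theorem fd_v {w : V3} (h0 : w ≠ 0) (v c : V3) : fderiv ℝ (gam w) v c =
    (dg w v 0 (fderiv ℝ uu v c), cross (hat w) (dg w v 0 (fderiv ℝ uu v c))) := by
  refine fderiv_eq (diff_v h0 v) ?_
  have h1 := hasDerivAt_uu (hd_line v c)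
  have := hd_gam (W := fun _ => w) (hasDerivAt_const _ _) h0 h1
  have e : dn w 0 = 0 := by simp [dn]
  rw [fderiv_uu_apply]
  simpa only [zero_smul, add_zero, e, cross_zero_left, zero_add] using this

theorem fd_inv {w : V3} (h0 : w ≠ 0) (h : V3) :
    fderiv ℝ (fun w : V3 => ‖w‖⁻¹) w h = -⟪hat w, h⟫ / ‖w‖ ^ 2 := by
  refine fderiv_eq (diff_norm h0) ?_
  have h1 : w + (0 : ℝ) • h ≠ 0 := by simpa using h0
  have := (hd_norm (hd_line w h) h1).fun_inv (norm_ne_zero_iff.2 h1)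
  simpa only [zero_smul, add_zero] using this

theorem fd_hat {w : V3} (h0 : w ≠ 0) (h : V3) (j : Fin 3) :
    fderiv ℝ (fun w : V3 => hat w j) w h = dn w h j := by
  have h1 : w + (0 : ℝ) • h ≠ 0 := by simpa using h0
  refine fderiv_eq ((EuclideanSpace.proj j : V3 →L[ℝ] ℝ).differentiableAt.comp w (diff_hat h0)) ?_
  have := (EuclideanSpace.proj j : V3 →L[ℝ] ℝ).hasFDerivAt.comp_hasDerivAt 0
    (hd_hat (hd_line w h) h1)
  rw [zero_smul, add_zero] at this
  exact this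

theorem sum_fd {Y : Type} [NormedAddCommGroup Y] [NormedSpace ℝ Y] (L : V3 →L[ℝ] Y) (x : V3) :
    ∑ j, x j • L (ee j) = L x := by
  conv_rhs => rw [← sum_ee x, map_sum]
  exact Finset.sum_congr rfl fun j _ => (map_smul L _ _).symm

theorem inner_hat_self {w : V3} (h0 : w ≠ 0) : ⟪hat w, hat w⟫ = 1 := by
  rw [real_inner_self_eq_norm_sq, norm_hat h0, one_pow]

theorem kEB_zero (w v : V3) : kEB w v 0 = (b2 w v • ET w v, cross (hat w) (b2 w v • ET w v)) := by
  have e : ES w v 0 = 0 := by simp [ES, acc, frc]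
  unfold kEB BLW ELW
  rw [e, add_zero, cross_smul_right]

theorem kEB_sub (w v : V3) (k : Z) :
    kEB w v k - kEB w v 0 = (b2 w v • ES w v k, cross (hat w) (b2 w v • ES w v k)) := by
  rw [kEB_zero]
  unfold kEB BLW ELW
  rw [Prod.mk_sub_mk, cross_add_right, smul_add, smul_add, add_sub_cancel_left, cross_smul_right,
    cross_smul_right, add_sub_cancel_left]

theorem dg_v {w : V3} (h0 : w ≠ 0) (v a : V3) : dg w v 0 a =
    (b2 w v ^ 2 * ‖w‖)⁻¹ • (⟪hat w, a⟫ • (hat w - uu v) - b2 w v • a) := by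
  have e : dn w 0 = 0 := by simp [dn]
  have hr := norm_ne_zero_iff.2 h0
  have hb := (b2_pos w v).ne'
  unfold dg
  rw [e, inner_zero_left, inner_zero_right]
  match_scalars <;> field_simp <;> ring

theorem dg_hat {w : V3} (h0 : w ≠ 0) (v : V3) :
    dn w (hat w) = 0 ∧ dg w v (hat w) 0 = -‖w‖⁻¹ • g1 w v := by
  have e : dn w (hat w) = 0 := by rw [dn, inner_hat_self h0, one_smul, sub_self, smul_zero]
  have hr := norm_ne_zero_iff.2 h0
  have hb := (b2_pos w v).ne'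
  refine ⟨e, ?_⟩
  unfold dg g1
  rw [e, inner_zero_left, inner_zero_right, inner_hat_self h0]
  match_scalars <;> field_simp <;> ring

theorem dg_uu {w : V3} (h0 : w ≠ 0) (v : V3) :
    dg w v (uu v) 0 = (‖w‖ ^ 2)⁻¹ • hat w - b2 w v • ET w v ∧
    cross (dn w (uu v)) (g1 w v) = (‖w‖ ^ 2)⁻¹ • cross (uu v) (hat w) := by
  have hr := norm_ne_zero_iff.2 h0
  have hb := (b2_pos w v).ne'
  have hq := (q_pos v).ne'
  have hs : ⟪hat w, uu v⟫ = 1 - b2 w v := by unfold b2; ring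
  constructor
  · have e : ⟪dn w (uu v), uu v⟫ = ‖w‖⁻¹ * (1 - 1 / q v ^ 2 - (1 - b2 w v) ^ 2) := by
      rw [dn, real_inner_smul_left, inner_sub_left, real_inner_smul_left,
        real_inner_self_eq_norm_sq, norm_uu_sq, hs]
      ring
    unfold dg ET
    rw [e, inner_zero_right, dn, hs]
    match_scalars <;> field_simp <;> ring
  · unfold dn g1
    rw [hs, cross_smul_left, cross_smul_right, cross_sub_left, cross_sub_right, cross_smul_left,
      cross_sub_right, cross_self, cross_self, cross_anticomm (hat w) (uu v)]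
    match_scalars
    field_simp
    ring

theorem norm_pair {n : V3} (hn : ‖n‖ ≤ 1) (x : V3) : ‖((x, cross n x) : Z)‖ ≤ ‖x‖ := by
  rw [Prod.norm_mk]
  refine max_le le_rfl ((norm_cross_le n x).trans ?_)
  exact mul_le_of_le_one_left (norm_nonneg x) hn

theorem norm_nu (w v : V3) : ‖hat w - uu v‖ ≤ 2 :=
  (norm_sub_le _ _).trans (by linarith [norm_hat_le w, norm_uu_le v])

theorem inv_b2_le {R : ℝ} (w : V3) {v : V3} (hv : ‖v‖ ≤ R) : (b2 w v)⁻¹ ≤ 2 * (1 + R ^ 2) := by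
  have h1 := dd_uu_sq_ge (norm_hat_le w) v
  have h2 := q_pos v
  rw [← b2_eq, one_div] at h1
  refine (inv_le_of_inv_le₀ (by positivity) h1).trans ?_
  rw [q_sq]
  have := pow_le_pow_left₀ (norm_nonneg v) hv 2
  linarith

theorem norm_duu (v c : V3) : ‖fderiv ℝ uu v c‖ ≤ 2 * ‖c‖ := by
  rw [fderiv_uu_apply, norm_smul, norm_inv, Real.norm_of_nonneg (q_pos v).le]
  have h3 := norm_uu_le v
  have h4 : ‖⟪uu v, c⟫ • uu v‖ ≤ ‖c‖ := by
    rw [norm_smul]
    have := norm_inner_le_norm (𝕜 := ℝ) (uu v) c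
    nlinarith [norm_nonneg (uu v), norm_nonneg c, norm_nonneg ⟪uu v, c⟫]
  have h5 := norm_sub_le c (⟪uu v, c⟫ • uu v)
  have h6 : (q v)⁻¹ ≤ 1 := inv_le_one_of_one_le₀ (one_le_q v)
  nlinarith [norm_nonneg (c - ⟪uu v, c⟫ • uu v), inv_pos.2 (q_pos v)]

theorem bounds {R : ℝ} {w v : V3} (h0 : w ≠ 0) (hv : ‖v‖ ≤ R) {Q : ℝ} (hQ : Q = 2 * (1 + R ^ 2)) :
    ‖gam w v‖ ≤ 2 * Q / ‖w‖ ∧ ‖fderiv ℝ (gam w) v‖ ≤ 8 * Q ^ 2 / ‖w‖ ∧
    ‖kEB w v 0‖ ≤ 2 * Q ^ 2 / ‖w‖ ^ 2 := by
  have hr := norm_pos_iff.2 h0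
  have hb := b2_pos w v
  have hi := inv_b2_le w hv
  rw [← hQ] at hi
  have hi2 : (b2 w v)⁻¹ ^ 2 ≤ Q ^ 2 := pow_le_pow_left₀ (by positivity) hi 2
  have hnu := norm_nu w v
  refine ⟨(norm_pair (norm_hat_le w) _).trans ?_, ?_, ?_⟩
  · rw [norm_smul, Real.norm_of_nonneg (by positivity), mul_inv, mul_right_comm, div_eq_mul_inv]
    refine mul_le_mul_of_nonneg_right ?_ (by positivity)
    rw [mul_comm]
    exact mul_le_mul hnu hi (by positivity) (by norm_num)
  · refine ContinuousLinearMap.opNorm_le_bound _ (by positivity) fun c => ?_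
    rw [fd_v h0]
    refine (norm_pair (norm_hat_le w) _).trans ?_
    have h1 := norm_duu v c
    generalize fderiv ℝ uu v c = a at h1
    have h2 : ‖⟪hat w, a⟫ • (hat w - uu v) - b2 w v • a‖ ≤ 8 * ‖c‖ := by
      refine (norm_sub_le _ _).trans ?_
      rw [norm_smul, norm_smul, Real.norm_of_nonneg hb.le]
      have h3 : ‖⟪hat w, a⟫‖ ≤ ‖a‖ := (norm_inner_le_norm (𝕜 := ℝ) _ _).trans
        (mul_le_of_le_one_left (norm_nonneg a) (norm_hat_le w))
      have h4 := mul_le_mul h3 hnu (norm_nonneg _) (norm_nonneg _)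
      have h5 := mul_le_mul_of_nonneg_right (b2_le_two w v) (norm_nonneg a)
      linarith
    rw [dg_v h0, norm_smul, Real.norm_of_nonneg (by positivity), mul_inv, ← inv_pow]
    calc _ ≤ Q ^ 2 * ‖w‖⁻¹ * (8 * ‖c‖) := by gcongr
      _ = _ := by ring
  · rw [kEB_zero]
    refine (norm_pair (norm_hat_le w) _).trans ?_
    have hq := q_pos v
    have h6 : (q v ^ 2)⁻¹ ≤ 1 := inv_le_one_of_one_le₀ (one_le_pow₀ (one_le_q v))
    have e : b2 w v * (q v ^ 2 * b2 w v ^ 3 * ‖w‖ ^ 2)⁻¹ =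
        (q v ^ 2)⁻¹ * (b2 w v)⁻¹ ^ 2 * (‖w‖ ^ 2)⁻¹ := by field_simp
    rw [ET, smul_smul, e, norm_smul, Real.norm_of_nonneg (by positivity)]
    calc _ ≤ 1 * Q ^ 2 * (‖w‖ ^ 2)⁻¹ * 2 := by gcongr
      _ = _ := by ring

end KDX

open KDX in
theorem kD : KD := by
  refine ⟨fun p hp => (cd_gam contDiffAt_fst contDiffAt_snd hp).contDiffWithinAt,
    fun j v w hw => ?_, fun w v h0 => ?_, fun w v h0 => ?_, fun w v k h0 => ?_, fun R => ?_⟩
  · have h1 : ContDiffAt ℝ 1 (fun w : V3 => ‖w‖⁻¹) w :=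
      (contDiffAt_id.norm ℝ hw).inv (norm_ne_zero_iff.2 hw)
    exact (((h1.smul contDiffAt_const).prodMk (h1.smul contDiffAt_const)).add
      ((cd_gam contDiffAt_id contDiffAt_const hw).const_smul _)).contDiffWithinAt
  · have e : ∀ j, fderiv ℝ (fun w => WW j w v) w (ee j) =
        (-hat w j / ‖w‖ ^ 2) • ((ee j, cross (uu v) (ee j)) : Z) +
          uu v j • fderiv ℝ (fun w => gam w v) w (ee j) := by
      intro j
      have h1 := ((diff_norm h0).hasFDerivAt.smul_const ((ee j, cross (uu v) (ee j)) : Z)).add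
        ((diff_w h0 v).hasFDerivAt.const_smul (uu v j))
      have h2 : fderiv ℝ (fun w => WW j w v) w = _ := h1.fderiv
      rw [h2, ContinuousLinearMap.add_apply, ContinuousLinearMap.smulRight_apply,
        ContinuousLinearMap.smul_apply, fd_inv h0, real_inner_comm, inner_ee]
    have e2 := sum_fd ((ContinuousLinearMap.id ℝ V3).prod (crossL (uu v))) (hat w)
    have e3 : ∑ j, (-hat w j / ‖w‖ ^ 2) • ((ee j, cross (uu v) (ee j)) : Z) =
        -(‖w‖ ^ 2)⁻¹ • ((hat w, cross (uu v) (hat w)) : Z) := by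
      refine Eq.trans ?_ (congrArg (fun z : Z => -(‖w‖ ^ 2)⁻¹ • z) e2)
      rw [Finset.smul_sum]
      refine Finset.sum_congr rfl fun j _ => ?_
      rw [smul_smul, show -(‖w‖ ^ 2)⁻¹ * hat w j = -hat w j / ‖w‖ ^ 2 by ring]
      rfl
    rw [Finset.sum_congr rfl fun j _ => e j, Finset.sum_add_distrib, sum_fd, e3, fd_w h0,
      (dg_uu h0 v).1, (dg_uu h0 v).2, kEB_zero, cross_sub_right, cross_smul_right, cross_self,
      Prod.smul_mk, Prod.mk_add_mk, Prod.neg_mk]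
    congr 1 <;> module
  · have hr := norm_ne_zero_iff.2 h0
    have e : ∀ j, fderiv ℝ (fun w => hat w j • gam w v) w (ee j) =
        hat w j • fderiv ℝ (fun w => gam w v) w (ee j) +
          (‖w‖⁻¹ * (1 - hat w j ^ 2)) • gam w v := by
      intro j
      have h1 : DifferentiableAt ℝ (fun w : V3 => hat w j) w :=
        (EuclideanSpace.proj j : V3 →L[ℝ] ℝ).differentiableAt.comp w (diff_hat h0)
      rw [(h1.hasFDerivAt.fun_smul (diff_w h0 v).hasFDerivAt).fderiv,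
        ContinuousLinearMap.add_apply, ContinuousLinearMap.smulRight_apply,
        ContinuousLinearMap.smul_apply, fd_hat h0, dn, real_inner_comm, inner_ee]
      simp only [PiLp.smul_apply, PiLp.sub_apply, smul_eq_mul, ee_apply, if_true, pow_two]
    have e2 : ∑ j, ‖w‖⁻¹ * (1 - hat w j ^ 2) = 2 * ‖w‖⁻¹ := by
      have := norm_sq_V3 (hat w)
      rw [norm_hat h0] at this
      rw [Fin.sum_univ_three]
      linear_combination ‖w‖⁻¹ * this
    rw [Finset.sum_congr rfl fun j _ => e j, Finset.sum_add_distrib, sum_fd, ← Finset.sum_smul, e2,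
      fd_w h0, (dg_hat h0 v).1, (dg_hat h0 v).2, cross_zero_left, zero_add, cross_smul_right]
    show -‖w‖⁻¹ • gam w v + _ = _
    module
  · have hr := norm_ne_zero_iff.2 h0
    have hb := (b2_pos w v).ne'
    have e : dg w v 0 (fderiv ℝ uu v (frc v k)) = b2 w v • ES w v k := by
      rw [dg_v h0, show fderiv ℝ uu v (frc v k) = acc v k from fderiv_uu_apply _ _, ES, smul_smul]
      congr 1
      field_simp
    rw [fd_v h0, kEB_sub, e]
  · obtain ⟨Q, hQ⟩ : ∃ Q, Q = 2 * (1 + R ^ 2) := ⟨_, rfl⟩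
    have h2 : 2 ≤ Q := by nlinarith [sq_nonneg R]
    refine ⟨8 * Q ^ 2, by positivity, fun w v h0 hv => ?_⟩
    obtain ⟨b1, b2, b3⟩ := bounds h0 hv hQ
    have hr := norm_pos_iff.2 h0
    refine ⟨b1.trans (div_le_div_of_nonneg_right (by nlinarith) hr.le), b2, fun j => ?_,
      b3.trans (div_le_div_of_nonneg_right (by nlinarith) (by positivity))⟩
    have h3 : ‖((‖w‖⁻¹ • ee j, ‖w‖⁻¹ • cross (uu v) (ee j)) : Z)‖ ≤ 1 / ‖w‖ := by
      rw [← cross_smul_right]
      refine (norm_pair (norm_uu_le v) _).trans ?_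
      rw [norm_smul, norm_ee, norm_inv, norm_norm, mul_one, one_div]
    have h4 : ‖uu v j • gam w v‖ ≤ 2 * Q / ‖w‖ := by
      rw [norm_smul]
      exact (mul_le_of_le_one_left (norm_nonneg _)
        ((PiLp.norm_apply_le (uu v) j).trans (norm_uu_le v))).trans b1
    refine (norm_add_le _ _).trans ((add_le_add h3 h4).trans ?_)
    rw [← add_div]
    exact div_le_div_of_nonneg_right (by nlinarith) hr.le

end Vale.Agent.P107
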