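import Vale.Agent.P107.Basic2

/-! Problem P107: the Glassey-Strauss identity tested against a smooth function. -/

open MeasureTheory Set Filter Topology
open scoped ENNReal RealInnerProductSpace ContDiff

noncomputable section
namespace Vale.Agent.P107

namespace KIX

theorem hasFDerivAt_norm' {w : V3} (h : w ≠ 0) :
    HasFDerivAt (fun w : V3 => ‖w‖) (innerSL ℝ (hat w)) w := by
  have hn : ‖w‖ ≠ 0 := norm_ne_zero_iff.2 h
  have h1 : HasFDerivAt (fun v : V3 => ‖v‖ ^ 2) (2 • innerSL ℝ w) w :=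
    (hasStrictFDerivAt_norm_sq w).hasFDerivAt
  have h2 := h1.sqrt (pow_ne_zero 2 hn)
  simp only [Real.sqrt_sq (norm_nonneg _)] at h2
  have e : (1 / (2 * ‖w‖)) • (2 • innerSL ℝ w) = innerSL ℝ (hat w) := by
    ext x
    simp only [hat, map_smul, _root_.smul_apply, smul_eq_mul, nsmul_eq_mul]
    field_simp
    push_cast
    ring
  rw [e] at h2
  exact h2

theorem contDiffOn_g {φ : ℝ × V3 → ℝ} (hφ : Test φ) (t : ℝ) (y : V3) :
    ContDiffOn ℝ 1 (fun w : V3 => φ (t + ‖w‖, y + w)) {0}ᶜ := fun w hw =>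
  ((hφ.smooth.of_le (by simp)).contDiffAt.comp w ((contDiffAt_const.add
    (contDiffAt_norm ℝ hw)).prodMk (contDiffAt_const.add contDiffAt_id))).contDiffWithinAt

theorem fderiv_g {φ : ℝ × V3 → ℝ} (hφ : Test φ) (t : ℝ) (y : V3) {w : V3} (hw : w ≠ 0)
    (j : Fin 3) : fderiv ℝ (fun w : V3 => φ (t + ‖w‖, y + w)) w (ee j) =
      hat w j * dt φ (t + ‖w‖, y + w) + gx φ (t + ‖w‖, y + w) j := by
  have h1 : HasFDerivAt (fun w : V3 => (t + ‖w‖, y + w))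
      ((innerSL ℝ (hat w)).prod (ContinuousLinearMap.id ℝ V3)) w :=
    ((hasFDerivAt_norm' hw).const_add t).prodMk ((hasFDerivAt_id w).const_add y)
  have h2 := ((hφ.smooth.differentiable (by simp)) (t + ‖w‖, y + w)).hasFDerivAt.comp w h1
  have h3 : fderiv ℝ (fun w : V3 => φ (t + ‖w‖, y + w)) w = _ := h2.fderiv
  rw [h3, ← inner_ee j (gx φ _), ← dD_eq, ← inner_ee j (hat w), real_inner_comm]
  rfl

theorem supp_g {φ : ℝ × V3 → ℝ} (hφ : Test φ) (t : ℝ) (y : V3) :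
    ∃ R : ℝ, 1 ≤ R ∧ ∀ w : V3, R < ‖w‖ → φ (t + ‖w‖, y + w) = 0 := by
  obtain ⟨R, -, h⟩ := hφ.bound
  refine ⟨max 1 (R - t), le_max_left _ _, fun w hw => ?_⟩
  by_contra h0
  have h1 : t + ‖w‖ ≤ R := (h _ h0).2.1
  have h2 := (le_max_right _ _).trans_lt hw
  linarith

theorem bd_g {φ : ℝ × V3 → ℝ} (hφ : Test φ) : ∃ B : ℝ, 0 ≤ B ∧ ∀ p, |φ p| ≤ B := by
  obtain ⟨B, hB⟩ := hφ.smooth.continuous.bounded_above_of_compact_support hφ.compact
  exact ⟨B, (norm_nonneg _).trans (hB 0), hB⟩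

variable {X : Type} [NormedAddCommGroup X] [NormedSpace ℝ X]

theorem int2 (hp : Pol) {φ : ℝ × V3 → ℝ} (hφ : Test φ) (t : ℝ) (y : V3) {H : V3 → X}
    (hH : ContinuousOn H {0}ᶜ)
    (hb : ∀ R : ℝ, 1 ≤ R → ∃ C : ℝ, 0 ≤ C ∧ ∀ w, w ≠ 0 → ‖w‖ ≤ R → ‖H w‖ ≤ C / ‖w‖ ^ 2) :
    Integrable fun w : V3 => φ (t + ‖w‖, y + w) • H w := by
  obtain ⟨c, -, -, h⟩ := hp
  obtain ⟨R, hR, h0⟩ := supp_g hφ t y
  obtain ⟨B, hB, hB'⟩ := bd_g hφ
  obtain ⟨C, hC, hC'⟩ := hb (R + 1) (by linarith)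
  have hm : AEStronglyMeasurable (fun w : V3 => φ (t + ‖w‖, y + w) • H w) volume := by
    have := ((contDiffOn_g hφ t y).continuousOn.smul hH).aestronglyMeasurable
      (μ := volume) (measurableSet_singleton (0 : V3)).compl
    rwa [restrict_compl_singleton] at this
  have h1 := (h X (fun w : V3 => φ (t + ‖w‖, y + w) • H w) (Metric.ball 0 (R + 1)) (R + 1) 0
    (B * C) 0 1 (by linarith) (mul_nonneg hB hC) le_rfl one_pos Subset.rfl (fun w hw hw0 => by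
      rw [zero_mul, add_zero, norm_smul, mul_div_assoc]
      exact mul_le_mul (hB' _) (hC' w hw0 (mem_ball_zero_iff.1 hw).le) (norm_nonneg _) hB)
    Metric.isOpen_ball.measurableSet).2 hm.restrict
  refine h1.integrable_of_forall_notMem_eq_zero fun w hw => ?_
  rw [mem_ball_zero_iff, not_lt] at hw
  rw [h0 w (by linarith), zero_smul]

theorem int1 (hp : Pol) {φ : ℝ × V3 → ℝ} (hφ : Test φ) (t : ℝ) (y : V3) {H : V3 → X}
    (hH : ContinuousOn H {0}ᶜ) {C : ℝ} (hC : 0 ≤ C) (hb : ∀ w, w ≠ 0 → ‖H w‖ ≤ C / ‖w‖) :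
    Integrable fun w : V3 => φ (t + ‖w‖, y + w) • H w := by
  refine int2 hp hφ t y hH fun R hR => ⟨C * R, by positivity, fun w hw hwR => (hb w hw).trans ?_⟩
  have h0 : 0 < ‖w‖ := norm_pos_iff.2 hw
  rw [div_le_div_iff₀ h0 (by positivity), sq, ← mul_assoc]
  exact mul_le_mul_of_nonneg_right (mul_le_mul_of_nonneg_left hwR hC) h0.le

theorem si0 [CompleteSpace X] (hs : SI) {φ : ℝ × V3 → ℝ} (hφ : Test φ) (t : ℝ) (y : V3)
    {K : Fin 3 → V3 → X} (hK : ∀ j, ContDiffOn ℝ 1 (K j) {0}ᶜ) {C : ℝ}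
    (hb : ∀ j w, w ≠ 0 → ‖K j w‖ ≤ C / ‖w‖) {S : V3 → X} (hS : Integrable S)
    (he : ∀ w, w ≠ 0 → S w =
      ∑ j, (hat w j * dt φ (t + ‖w‖, y + w) + gx φ (t + ‖w‖, y + w) j) • K j w +
        φ (t + ‖w‖, y + w) • ∑ j, fderiv ℝ (K j) w (ee j)) : ∫ w, S w = 0 := by
  obtain ⟨R, -, h0⟩ := supp_g hφ t y
  obtain ⟨B, hB, hB'⟩ := bd_g hφ
  have hae : S =ᵐ[volume]
      fun w => ∑ j, fderiv ℝ (fun w : V3 => φ (t + ‖w‖, y + w) • K j w) w (ee j) := by
    filter_upwards [compl_mem_ae_iff.2 (measure_singleton (0 : V3))] with w hw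
    have hn : ({0}ᶜ : Set V3) ∈ 𝓝 w := isOpen_compl_singleton.mem_nhds hw
    rw [he w hw, Finset.smul_sum, ← Finset.sum_add_distrib]
    refine Finset.sum_congr rfl fun j _ => ?_
    have h1 := (((contDiffOn_g hφ t y).contDiffAt hn).differentiableAt one_ne_zero).hasFDerivAt
    have h2 := (((hK j).contDiffAt hn).differentiableAt one_ne_zero).hasFDerivAt
    rw [(h1.fun_smul h2).fderiv, ← fderiv_g hφ t y hw j, add_comm]
    rfl
  have h := hs.2 X (fun j w => φ (t + ‖w‖, y + w) • K j w) 0 R (B * C)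
    (fun j => (contDiffOn_g hφ t y).smul (hK j)) (fun j w hw => by rw [h0 w hw, zero_smul])
    (fun j w hw _ => by
      rw [smul_zero, sub_zero, norm_smul, mul_div_assoc]
      exact mul_le_mul (hB' _) (hb j w hw) (norm_nonneg _) hB) (hS.congr hae)
  rw [integral_congr_ae hae, h, smul_zero, neg_zero]

theorem contDiffOn_hat : ContDiffOn ℝ 1 hat {0}ᶜ := fun _ hw =>
  (((contDiffAt_norm ℝ hw).inv (norm_ne_zero_iff.2 hw)).smul contDiffAt_id).contDiffWithinAt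

theorem contDiffOn_hat' (j : Fin 3) : ContDiffOn ℝ 1 (fun w => hat w j) {0}ᶜ :=
  (EuclideanSpace.proj j : V3 →L[ℝ] ℝ).contDiff.comp_contDiffOn contDiffOn_hat

theorem contDiffOn_gam (hk : KD) (v : V3) : ContDiffOn ℝ 1 (fun w => gam w v) {0}ᶜ :=
  (hk.1.of_le (by norm_num)).comp (f := fun w : V3 => (w, v))
    (contDiff_id.prodMk contDiff_const).contDiffOn fun _ hw => hw

theorem abs_hat_le (w : V3) (j : Fin 3) : ‖hat w j‖ ≤ 1 :=
  (PiLp.norm_apply_le (hat w) j).trans (norm_hat_le w)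

theorem inv_cont : ContinuousOn (fun w : V3 => ‖w‖⁻¹) {0}ᶜ :=
  continuous_norm.continuousOn.inv₀ fun _ hw => norm_ne_zero_iff.2 hw

theorem int_inv (hp : Pol) {φ : ℝ × V3 → ℝ} (hφ : Test φ) (t : ℝ) (y : V3) :
    Integrable fun w : V3 => ‖w‖⁻¹ * φ (t + ‖w‖, y + w) := by
  have := int1 hp hφ t y inv_cont zero_le_one fun w _ => by
    rw [norm_inv, norm_norm, one_div]
  simpa only [smul_eq_mul, mul_comm] using this

theorem alg (a ρ s : ℝ) (x n u : V3) (h : ρ = (1 - ⟪n, u⟫) * s) :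
    ∑ j, (n j * a + x j) • (((ρ • ee j, ρ • cross u (ee j)) : Z) +
        u j • ((s • (n - u), cross n (s • (n - u))) : Z)) =
      (∑ j, (ρ * x j) • ((ee j, cross u (ee j)) : Z) + (ρ * a) • ((u, 0) : Z)) +
        (1 * a + ⟪u, x⟫) • ((s • (n - u), cross n (s • (n - u))) : Z) := by
  rw [inner_V3] at h ⊢
  subst h
  refine Prod.ext (V3_ext ?_ ?_ ?_) (V3_ext ?_ ?_ ?_) <;>
    simp [Fin.sum_univ_three, ee_apply] <;> ring

theorem alg2 (a : ℝ) (x u : V3) :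
    (∑ j, x j • ((ee j, cross u (ee j)) : Z) + a • ((u, 0) : Z)) = (x + a • u, cross u x) := by
  refine Prod.ext (V3_ext ?_ ?_ ?_) (V3_ext ?_ ?_ ?_) <;>
    simp [Fin.sum_univ_three, ee_apply] <;> ring

theorem int_kEB0 (hp : Pol) (hk : KD) {φ : ℝ × V3 → ℝ} (hφ : Test φ) (t : ℝ) (y v : V3) :
    Integrable fun w : V3 => φ (t + ‖w‖, y + w) • kEB w v 0 := by
  obtain ⟨C, hC, hb⟩ := hk.2.2.2.2.2 ‖v‖
  refine int2 hp hφ t y ?_ fun R _ => ⟨C, hC.le, fun w hw _ => (hb w v hw le_rfl).2.2.2⟩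
  have h1 : ContinuousOn (fun w => -∑ j, fderiv ℝ (fun w => WW j w v) w (ee j)) {0}ᶜ :=
    (continuousOn_finsetSum _ fun j _ => ((hk.2.1 j v).continuousOn_fderiv_of_isOpen
      isOpen_compl_singleton le_rfl).clm_apply continuousOn_const).neg
  exact h1.congr fun w hw => by
    beta_reduce
    rw [hk.2.2.1 w v hw, neg_neg]

theorem adv_part (hp : Pol) (ha : AdvP) {φ : ℝ × V3 → ℝ} (hφ : Test φ) (t : ℝ)
    (y u : V3) :
    Integrable (fun w : V3 => ∑ j, (‖w‖⁻¹ * gx φ (t + ‖w‖, y + w) j) • ((ee j, cross u (ee j)) : Z)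
      + (‖w‖⁻¹ * dt φ (t + ‖w‖, y + w)) • ((u, 0) : Z)) ∧
    om⁻¹ • ∫ w : V3, (∑ j, (‖w‖⁻¹ * gx φ (t + ‖w‖, y + w) j) • ((ee j, cross u (ee j)) : Z)
      + (‖w‖⁻¹ * dt φ (t + ‖w‖, y + w)) • ((u, 0) : Z)) =
      (gx (adv φ) (t, y) + dt (adv φ) (t, y) • u, cross u (gx (adv φ) (t, y))) := by
  have h1 : ∀ j, Integrable fun w : V3 =>
      (‖w‖⁻¹ * gx φ (t + ‖w‖, y + w) j) • ((ee j, cross u (ee j)) : Z) := fun j =>
    (int_inv hp (hφ.dD (0, ee j)) t y).smul_const _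
  have h2 : Integrable fun w : V3 => (‖w‖⁻¹ * dt φ (t + ‖w‖, y + w)) • ((u, 0) : Z) :=
    (int_inv hp (hφ.dD (1, 0)) t y).smul_const _
  have h3 := integrable_finsetSum Finset.univ fun j _ => h1 j
  refine ⟨h3.add h2, ?_⟩
  rw [integral_add h3 h2, integral_finsetSum _ fun j _ => h1 j, ← alg2, smul_add, Finset.smul_sum,
    integral_smul_const, smul_smul]
  have e1 : dt (adv φ) (t, y) = om⁻¹ * ∫ w : V3, ‖w‖⁻¹ * dt φ (t + ‖w‖, y + w) :=
    congrFun ((ha φ hφ).2.2 (1, 0)) (t, y)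
  rw [e1]
  refine congrArg (· + _) (Finset.sum_congr rfl fun j _ => ?_)
  have e2 : gx (adv φ) (t, y) j = om⁻¹ * ∫ w : V3, ‖w‖⁻¹ * gx φ (t + ‖w‖, y + w) j :=
    congrFun ((ha φ hφ).2.2 (0, ee j)) (t, y)
  rw [e2, integral_smul_const, smul_smul]

end KIX

open KIX

theorem kI (hs : SI) (hp : Pol) (ha : AdvP) (hk : KD) (hc : Chi) : KI := by
  intro φ hφ t y v k
  obtain ⟨i1, i2, e1⟩ := (hc φ hφ).2.2 t y v 1 (uu v) (frc v k)
  obtain ⟨i3, e3⟩ := adv_part hp ha hφ t y (uu v)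
  have i0 := int_kEB0 hp hk hφ t y v
  obtain ⟨C, -, hb⟩ := hk.2.2.2.2.2 ‖v‖
  have hae : (fun w : V3 => φ (t + ‖w‖, y + w) • kEB w v 0 +
      φ (t + ‖w‖, y + w) • fderiv ℝ (gam w) v (frc v k)) =ᵐ[volume]
      fun w : V3 => φ (t + ‖w‖, y + w) • kEB w v k := by
    filter_upwards [compl_mem_ae_iff.2 (measure_singleton (0 : V3))] with w hw
    rw [hk.2.2.2.2.1 w v k hw, ← smul_add, add_sub_cancel]
  refine ⟨(i0.add i2).congr hae, ?_⟩
  have h := si0 hs hφ t y (fun j => hk.2.1 j v) (fun j w hw => (hb w v hw le_rfl).2.2.1 j)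
    ((i3.add i1).sub i0) fun w hw => by
      have hr : ‖w‖⁻¹ = (1 - ⟪hat w, uu v⟫) * (b2 w v * ‖w‖)⁻¹ := by
        rw [mul_inv, ← mul_assoc]
        change _ = b2 w v * _ * _
        rw [mul_inv_cancel₀ (b2_pos w v).ne', one_mul]
      rw [hk.2.2.1 w v hw, smul_neg, ← sub_eq_add_neg, Pi.sub_apply, Pi.add_apply, dD_eq]
      exact congrArg (· - _) (alg _ _ _ _ _ _ hr).symm
  simp only [Pi.sub_apply] at h
  rw [integral_sub (i3.add i1) i0, sub_eq_zero] at h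
  simp only [Pi.add_apply] at h
  rw [integral_add i3 i1] at h
  rw [← integral_congr_ae hae, integral_add i0 i2, ← h, e1, ← e3, add_assoc, smul_add]

theorem dP1 (hs : SI) (hp : Pol) (hk : KD) (hc : Chi) : DP1 := by
  intro φ hφ t y v
  obtain ⟨i1, -, e1⟩ := (hc φ hφ).2.2 t y v 1 0 0
  obtain ⟨C, hC, hb⟩ := hk.2.2.2.2.2 ‖v‖
  have hK : ∀ j, ContDiffOn ℝ 1 (fun w => hat w j • gam w v) {0}ᶜ := fun j =>
    (contDiffOn_hat' j).smul (contDiffOn_gam hk v)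
  have hKb : ∀ j w, w ≠ 0 → ‖hat w j • gam w v‖ ≤ C / ‖w‖ := fun j w hw => by
    rw [norm_smul]
    exact (mul_le_of_le_one_left (norm_nonneg _) (abs_hat_le w j)).trans (hb w v hw le_rfl).1
  have i2 : Integrable fun w : V3 => φ (t + ‖w‖, y + w) • ‖w‖⁻¹ • gam w v :=
    int2 hp hφ t y (inv_cont.smul (contDiffOn_gam hk v).continuousOn) fun R _ =>
      ⟨C, hC.le, fun w hw _ => by
        rw [norm_smul, norm_inv, norm_norm, sq, ← div_div, ← div_eq_inv_mul]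
        exact div_le_div_of_nonneg_right (hb w v hw le_rfl).1 (norm_nonneg _)⟩
  have i3 := integrable_finsetSum Finset.univ fun j _ =>
    int1 hp (hφ.dD (0, ee j)) t y (hK j).continuousOn hC.le (hKb j)
  have i4 : Integrable fun w : V3 =>
      (‖w‖⁻¹ * φ (t + ‖w‖, y + w) + dD (0, hat w) φ (t + ‖w‖, y + w)) • gam w v := by
    refine (i2.add i3).congr (Eventually.of_forall fun w => ?_)
    simp only [Pi.add_apply, smul_smul]
    rw [← Finset.sum_smul, ← add_smul, dD_eq φ _ 0 (hat w), inner_V3, Fin.sum_univ_three]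
    congr 1
    simp only [gx_apply, dx]
    ring
  refine ⟨i4, ?_⟩
  have h := si0 hs hφ t y hK hKb (i4.add i1) fun w hw => by
    have h1 := norm_sq_V3 (hat w)
    rw [norm_hat hw] at h1
    rw [hk.2.2.2.1 w v hw]
    simp only [Pi.add_apply, smul_smul]
    rw [← Finset.sum_smul, ← add_smul, ← add_smul, dD_eq φ _ 0 (hat w), inner_V3,
      Fin.sum_univ_three]
    congr 1
    change _ + dt φ _ = _
    linear_combination dt φ (t + ‖w‖, y + w) * h1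
  simp only [Pi.add_apply] at h
  rw [integral_add i4 i1, add_eq_zero_iff_eq_neg] at h
  have e2 : fderiv ℝ (chi φ) (t, (y, v)) (1, 0) = _ := e1
  rw [h, e2, smul_neg]
  simp only [map_zero, smul_zero, integral_zero, add_zero]

end Vale.Agent.P107
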