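import Vale.Agent.P107.Basic2

/-! Problem P107: bounds and continuity of the kernels. -/

open MeasureTheory Set Filter Topology
open scoped ENNReal RealInnerProductSpace

noncomputable section
namespace Vale.Agent.P107

namespace KLX

def bb (n v : V3) : ℝ := 1 - ⟪n, uu v⟫

def ev (n x : V3) : Z := (x, cross n x)

def A0 (n v : V3) : V3 := (q v ^ 2 * bb n v ^ 3)⁻¹ • (n - uu v)

def S0 (n v : V3) (k : Z) : V3 :=
  (bb n v ^ 3)⁻¹ • (⟪n, acc v k⟫ • (n - uu v) - bb n v • acc v k)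

def G0 (n v : V3) : Z := ev n ((bb n v)⁻¹ • (n - uu v))

def Aone (n v : V3) : Z := bb n v • ev n (A0 n v)

theorem bb_pos {n : V3} (hn : ‖n‖ ≤ 1) (v : V3) : 0 < bb n v := by
  have h := dd_sq hn (norm_uu_le v)
  have h2 := dd_uu_pos hn v
  unfold bb; rw [← h]; positivity

theorem b2_bb (w v : V3) : b2 w v = bb (hat w) v := rfl

theorem ev_add (n x y : V3) : ev n (x + y) = ev n x + ev n y := by
  simp [ev, cross_add_right]

theorem ev_smul (n x : V3) (c : ℝ) : ev n (c • x) = c • ev n x := by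
  simp [ev, cross_smul_right]

theorem frc_add (v : V3) (k k' : Z) : frc v (k + k') = frc v k + frc v k' := by
  simp only [frc, Prod.fst_add, Prod.snd_add, cross_add_right]; abel

theorem frc_smul (v : V3) (c : ℝ) (k : Z) : frc v (c • k) = c • frc v k := by
  simp only [frc, Prod.smul_fst, Prod.smul_snd, cross_smul_right, smul_add]

theorem acc_add (v : V3) (k k' : Z) : acc v (k + k') = acc v k + acc v k' := by
  simp only [acc, frc_add, inner_add_right]; module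

theorem acc_smul (v : V3) (c : ℝ) (k : Z) : acc v (c • k) = c • acc v k := by
  simp only [acc, frc_smul, real_inner_smul_right]; module

theorem S0_add (n v : V3) (k k' : Z) : S0 n v (k + k') = S0 n v k + S0 n v k' := by
  simp only [S0, acc_add, inner_add_right]; module

theorem S0_smul (n v : V3) (c : ℝ) (k : Z) : S0 n v (c • k) = c • S0 n v k := by
  simp only [S0, acc_smul, real_inner_smul_right]; module

theorem S0_zero (n v : V3) : S0 n v 0 = 0 := by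
  have := S0_smul n v 0 0
  simpa using this

def SL (n v : V3) : Z →L[ℝ] Z :=
  LinearMap.toContinuousLinearMap
    { toFun := fun k => bb n v • ev n (S0 n v k)
      map_add' := fun k k' => by rw [S0_add, ev_add, smul_add]
      map_smul' := fun c k => by rw [S0_smul, ev_smul, smul_comm]; rfl }

theorem SL_apply (n v : V3) (k : Z) : SL n v k = bb n v • ev n (S0 n v k) := rfl

theorem ELW_eq (w v : V3) (k : Z) :
    ELW w v k = (‖w‖ ^ 2)⁻¹ • A0 (hat w) v + ‖w‖⁻¹ • S0 (hat w) v k := by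
  simp only [ELW, ET, ES, A0, S0, b2_bb, smul_smul, mul_inv]
  congr 2 <;> ring

theorem LW_eq (w v : V3) (k : Z) : ((ELW w v k, BLW w v k) : Z) = ev (hat w) (ELW w v k) := rfl

theorem kEB_eq (w v : V3) (k : Z) :
    kEB w v k = (‖w‖ ^ 2)⁻¹ • Aone (hat w) v + ‖w‖⁻¹ • SL (hat w) v k := by
  have : kEB w v k = b2 w v • ev (hat w) (ELW w v k) := rfl
  rw [this, ELW_eq, ev_add, ev_smul, ev_smul, SL_apply, Aone, b2_bb]
  module

theorem gam_eq (w v : V3) : gam w v = ‖w‖⁻¹ • G0 (hat w) v := by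
  have : gam w v = ev (hat w) ((b2 w v * ‖w‖)⁻¹ • (hat w - uu v)) := rfl
  rw [this, G0, ← ev_smul, smul_smul, b2_bb, mul_inv, mul_comm]

section smooth
variable {X : Type*} [NormedAddCommGroup X] [NormedSpace ℝ X] {f g h : X → V3} {k : X → Z}
  {s : Set X} {m : WithTop ℕ∞}

theorem cd_cross (hf : ContDiffOn ℝ m f s) (hg : ContDiffOn ℝ m g s) :
    ContDiffOn ℝ m (fun x => cross (f x) (g x)) s :=
  contDiff_cross.comp_contDiffOn (hf.prodMk hg)

theorem cd_uu (hg : ContDiffOn ℝ m g s) : ContDiffOn ℝ m (fun x => uu (g x)) s :=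
  contDiff_uu.comp_contDiffOn hg

theorem cd_q (hg : ContDiffOn ℝ m g s) : ContDiffOn ℝ m (fun x => q (g x)) s :=
  contDiff_q.comp_contDiffOn hg

theorem cd_bb (hf : ContDiffOn ℝ m f s) (hg : ContDiffOn ℝ m g s) :
    ContDiffOn ℝ m (fun x => bb (f x) (g x)) s :=
  contDiffOn_const.sub (hf.inner ℝ (cd_uu hg))

theorem cd_ev (hf : ContDiffOn ℝ m f s) (hg : ContDiffOn ℝ m g s) :
    ContDiffOn ℝ m (fun x => ev (f x) (g x)) s :=
  hg.prodMk (cd_cross hf hg)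

theorem cd_frc (hg : ContDiffOn ℝ m g s) (hk : ContDiffOn ℝ m k s) :
    ContDiffOn ℝ m (fun x => frc (g x) (k x)) s :=
  hk.fst.add (cd_cross (cd_uu hg) hk.snd)

theorem cd_acc (hg : ContDiffOn ℝ m g s) (hk : ContDiffOn ℝ m k s) :
    ContDiffOn ℝ m (fun x => acc (g x) (k x)) s :=
  ((cd_q hg).inv fun _ _ => (q_pos _).ne').smul
    ((cd_frc hg hk).sub (((cd_uu hg).inner ℝ (cd_frc hg hk)).smul (cd_uu hg)))

theorem cd_A0 (hf : ContDiffOn ℝ m f s) (hg : ContDiffOn ℝ m g s) (h1 : ∀ x ∈ s, ‖f x‖ ≤ 1) :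
    ContDiffOn ℝ m (fun x => A0 (f x) (g x)) s :=
  ((((cd_q hg).pow 2).mul ((cd_bb hf hg).pow 3)).inv fun x hx =>
    (mul_pos (pow_pos (q_pos _) 2) (pow_pos (bb_pos (h1 x hx) _) 3)).ne').smul (hf.sub (cd_uu hg))

theorem cd_S0 (hf : ContDiffOn ℝ m f s) (hg : ContDiffOn ℝ m g s) (hk : ContDiffOn ℝ m k s)
    (h1 : ∀ x ∈ s, ‖f x‖ ≤ 1) : ContDiffOn ℝ m (fun x => S0 (f x) (g x) (k x)) s :=
  (((cd_bb hf hg).pow 3).inv fun x hx => (pow_pos (bb_pos (h1 x hx) _) 3).ne').smul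
    (((hf.inner ℝ (cd_acc hg hk)).smul (hf.sub (cd_uu hg))).sub ((cd_bb hf hg).smul (cd_acc hg hk)))

theorem cd_G0 (hf : ContDiffOn ℝ m f s) (hg : ContDiffOn ℝ m g s) (h1 : ∀ x ∈ s, ‖f x‖ ≤ 1) :
    ContDiffOn ℝ m (fun x => G0 (f x) (g x)) s :=
  cd_ev hf (((cd_bb hf hg).inv fun x hx => (bb_pos (h1 x hx) _).ne').smul (hf.sub (cd_uu hg)))

theorem cd_Aone (hf : ContDiffOn ℝ m f s) (hg : ContDiffOn ℝ m g s) (h1 : ∀ x ∈ s, ‖f x‖ ≤ 1) :
    ContDiffOn ℝ m (fun x => Aone (f x) (g x)) s :=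
  (cd_bb hf hg).smul (cd_ev hf (cd_A0 hf hg h1))

end smooth

/-- pairs with first component in the closed unit ball -/
def U1 : Set (V3 × V3) := {p | ‖p.1‖ ≤ 1}

theorem co_Aone : ContinuousOn (fun p : V3 × V3 => Aone p.1 p.2) U1 :=
  (cd_Aone (m := 0) contDiffOn_fst contDiffOn_snd fun _ hx => hx).continuousOn

theorem co_G0 : ContinuousOn (fun p : V3 × V3 => G0 p.1 p.2) U1 :=
  (cd_G0 (m := 0) contDiffOn_fst contDiffOn_snd fun _ hx => hx).continuousOn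

theorem co_SL : ContinuousOn (fun p : V3 × V3 => SL p.1 p.2) U1 := by
  rw [continuousOn_clm_apply]
  intro k
  exact ((cd_bb (m := 0) contDiffOn_fst contDiffOn_snd).smul (cd_ev contDiffOn_fst
    (cd_S0 contDiffOn_fst contDiffOn_snd contDiffOn_const fun _ hx => hx))).continuousOn

theorem co_hat : ContinuousOn (fun p : V3 × V3 => (hat p.1, p.2)) {p | p.1 ≠ 0} := fun _ hp =>
  (((continuousAt_hat hp).comp continuousAt_fst).prodMk continuousAt_snd).continuousWithinAt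

theorem co_comp {W : Type*} [TopologicalSpace W] {F : V3 × V3 → W} (hF : ContinuousOn F U1) :
    ContinuousOn (fun p : V3 × V3 => F (hat p.1, p.2)) {p | p.1 ≠ 0} :=
  hF.comp co_hat fun p _ => norm_hat_le p.1

theorem co_inv (j : ℕ) : ContinuousOn (fun p : V3 × V3 => (‖p.1‖ ^ j)⁻¹) {p | p.1 ≠ 0} :=
  ContinuousOn.inv₀ (by fun_prop) fun p hp => pow_ne_zero _ (norm_ne_zero_iff.2 hp)

theorem bd_of_co {W : Type*} [NormedAddCommGroup W] {F : V3 × V3 → W} (hF : ContinuousOn F U1)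
    (R : ℝ) : ∃ C : ℝ, 0 < C ∧ ∀ w v : V3, ‖v‖ ≤ R → ‖F (hat w, v)‖ ≤ C := by
  have hc : IsCompact (Metric.closedBall (0 : V3) 1 ×ˢ Metric.closedBall (0 : V3) R) :=
    (isCompact_closedBall _ _).prod (isCompact_closedBall _ _)
  obtain ⟨C, hC⟩ := hc.exists_bound_of_continuousOn (hF.mono fun p hp => by
    simpa [U1] using hp.1)
  refine ⟨max C 1, lt_of_lt_of_le one_pos (le_max_right _ _), fun w v hv => ?_⟩
  exact (hC _ ⟨by simpa using norm_hat_le w, by simpa using hv⟩).trans (le_max_left _ _)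

/-- the rescaled field -/
def Phi0 (p : V3 × V3 × Z × ℝ) : Z := ev p.1 (A0 p.1 p.2.1 + p.2.2.2 • S0 p.1 p.2.1 p.2.2.1)

theorem LW_Phi0 {w : V3} (hw : w ≠ 0) (v : V3) (k : Z) :
    ((ELW w v k, BLW w v k) : Z) = (‖w‖ ^ 2)⁻¹ • Phi0 (hat w, v, k, ‖w‖) := by
  have h : ‖w‖ ≠ 0 := norm_ne_zero_iff.2 hw
  rw [LW_eq, ELW_eq, Phi0, ← ev_smul, smul_add, smul_smul]
  have : (‖w‖ ^ 2)⁻¹ * ‖w‖ = ‖w‖⁻¹ := by field_simp
  rw [this]

def DD (P N T : ℝ) : Set (V3 × V3 × Z × ℝ) :=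
  Metric.closedBall 0 1 ×ˢ Metric.closedBall 0 P ×ˢ Metric.closedBall 0 N ×ˢ Metric.closedBall 0 T

theorem cd_Phi0 (P N T : ℝ) : ContDiffOn ℝ 1 Phi0 (DD P N T) := by
  have h1 : ∀ x ∈ DD P N T, ‖x.1‖ ≤ 1 := fun x hx => by simpa using hx.1
  exact cd_ev contDiffOn_fst ((cd_A0 contDiffOn_fst contDiffOn_snd.fst h1).add
    (contDiffOn_snd.snd.snd.smul
      (cd_S0 contDiffOn_fst contDiffOn_snd.fst contDiffOn_snd.snd.fst h1)))

theorem cpt_DD (P N T : ℝ) : IsCompact (DD P N T) :=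
  (isCompact_closedBall _ _).prod ((isCompact_closedBall _ _).prod
    ((isCompact_closedBall _ _).prod (isCompact_closedBall _ _)))

theorem cvx_DD (P N T : ℝ) : Convex ℝ (DD P N T) :=
  (convex_closedBall _ _).prod ((convex_closedBall _ _).prod
    ((convex_closedBall _ _).prod (convex_closedBall _ _)))

theorem Phi0_bd (P N T : ℝ) : ∃ C : ℝ, 0 < C ∧ (∀ p ∈ DD P N T, ‖Phi0 p‖ ≤ C) ∧
    ∀ p ∈ DD P N T, ∀ p' ∈ DD P N T, ‖Phi0 p - Phi0 p'‖ ≤ C * ‖p - p'‖ := by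
  obtain ⟨C, hC⟩ := (cpt_DD P N T).exists_bound_of_continuousOn (cd_Phi0 P N T).continuousOn
  obtain ⟨L, hL⟩ := (cd_Phi0 P N T).exists_lipschitzOnWith one_ne_zero (cvx_DD P N T) (cpt_DD P N T)
  have hL0 : (0 : ℝ) ≤ L := L.2
  refine ⟨max C 1 + L, by have := le_max_right C 1; linarith, fun p hp => ?_, fun p hp p' hp' => ?_⟩
  · have := hC p hp; have := le_max_left C 1; linarith
  · have h := hL.dist_le_mul p hp p' hp'
    rw [dist_eq_norm, dist_eq_norm] at h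
    refine h.trans (mul_le_mul_of_nonneg_right ?_ (norm_nonneg _))
    have := le_max_right C 1; linarith

theorem inv_sq_sub {r r' d : ℝ} (hr : 0 < r) (h : |r - r'| ≤ d) (hd : d ≤ r / 2) :
    |(r ^ 2)⁻¹ - (r' ^ 2)⁻¹| ≤ 10 * d / r ^ 3 := by
  obtain ⟨h1, h2⟩ := abs_le.1 h
  have hd0 : 0 ≤ d := (abs_nonneg _).trans h
  have hr' : r / 2 ≤ r' := by linarith
  have hr'0 : 0 < r' := by linarith
  have e : (r ^ 2)⁻¹ - (r' ^ 2)⁻¹ = -(r - r') * ((r + r') / (r ^ 2 * r' ^ 2)) := by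
    field_simp; ring
  rw [e, abs_mul, abs_neg, abs_of_pos (by positivity : 0 < (r + r') / (r ^ 2 * r' ^ 2))]
  have h3 : (r + r') / (r ^ 2 * r' ^ 2) ≤ 10 / r ^ 3 := by
    rw [div_le_div_iff₀ (by positivity) (by positivity)]
    have h4 : r ^ 2 ≤ 4 * r' ^ 2 := by nlinarith
    have h5 : r + r' ≤ 5 / 2 * r := by linarith
    calc (r + r') * r ^ 3 ≤ (5 / 2 * r) * r ^ 3 := by gcongr
      _ = 5 / 2 * r ^ 2 * r ^ 2 := by ring
      _ ≤ 5 / 2 * r ^ 2 * (4 * r' ^ 2) := by gcongr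
      _ = 10 * (r ^ 2 * r' ^ 2) := by ring
  calc |r - r'| * ((r + r') / (r ^ 2 * r' ^ 2)) ≤ d * (10 / r ^ 3) := by gcongr
    _ = 10 * d / r ^ 3 := by ring

end KLX

open KLX in
theorem kL : KL := by
  refine ⟨fun w v => ‖w‖⁻¹ • SL (hat w) v, fun w v k => ?_, ?_, ?_, ?_, fun T R => ?_⟩
  · rw [kEB_eq, kEB_eq]; simp
  · have : (fun p : V3 × V3 => kEB p.1 p.2 0) = fun p => (‖p.1‖ ^ 2)⁻¹ • Aone (hat p.1) p.2 := by
      funext p; rw [kEB_eq]; simp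
    rw [this]
    exact (co_inv 2).smul (co_comp co_Aone)
  · have : (fun p : V3 × V3 => ‖p.1‖⁻¹ • SL (hat p.1) p.2) =
        fun p => (‖p.1‖ ^ 1)⁻¹ • SL (hat p.1) p.2 := by
      funext p; rw [pow_one]
    rw [this]
    exact (co_inv 1).smul (co_comp co_SL)
  · have : (fun p : V3 × V3 => gam p.1 p.2) = fun p => (‖p.1‖ ^ 1)⁻¹ • G0 (hat p.1) p.2 := by
      funext p; rw [gam_eq, pow_one]
    rw [this]
    exact (co_inv 1).smul (co_comp co_G0)
  · obtain ⟨C1, h1, hC1⟩ := bd_of_co co_Aone R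
    obtain ⟨C2, h2, hC2⟩ := bd_of_co co_SL R
    obtain ⟨C3, h3, hC3⟩ := bd_of_co co_G0 R
    have hT : 0 ≤ |T| := abs_nonneg T
    have h2T : 0 ≤ C2 * |T| := by positivity
    refine ⟨C1 + C2 * |T| + C3, by positivity, fun w v hw hwT hv => ⟨?_, ?_, ?_⟩⟩
    · have hr : 0 < ‖w‖ := norm_pos_iff.2 hw
      rw [kEB_eq]
      simp only [map_zero, smul_zero, add_zero, norm_smul, norm_inv, norm_pow, norm_norm]
      rw [div_eq_inv_mul]
      have := hC1 w v hv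
      gcongr
      linarith
    · have hr : 0 < ‖w‖ := norm_pos_iff.2 hw
      simp only [norm_smul, norm_inv, norm_norm]
      have h4 := hC2 w v hv
      have h5 : ‖w‖ ≤ |T| := hwT.trans (le_abs_self T)
      rw [le_div_iff₀ (by positivity)]
      have e : ‖w‖⁻¹ * ‖SL (hat w) v‖ * ‖w‖ ^ 2 = ‖SL (hat w) v‖ * ‖w‖ := by field_simp
      rw [e]
      have : ‖SL (hat w) v‖ * ‖w‖ ≤ C2 * |T| := by gcongr
      linarith
    · have hr : 0 < ‖w‖ := norm_pos_iff.2 hw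
      rw [gam_eq]
      simp only [norm_smul, norm_inv, norm_norm]
      rw [div_eq_inv_mul]
      have := hC3 w v hv
      gcongr
      linarith

open KLX in
theorem lWL : LWL := by
  intro T P N
  obtain ⟨C, hC, hb, hl⟩ := Phi0_bd P N (2 * T)
  have hT : 0 ≤ |T| := abs_nonneg T
  refine ⟨C * (12 + |T|), by positivity, fun w w' v v' k k' hw hwT hww hv hv' hk hk' => ?_⟩
  have hr : 0 < ‖w‖ := norm_pos_iff.2 hw
  have hab : |‖w‖ - ‖w'‖| ≤ ‖w - w'‖ := abs_norm_sub_norm_le w w'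
  obtain ⟨ha1, ha2⟩ := abs_le.1 hab
  have hw' : w' ≠ 0 := norm_pos_iff.1 (by linarith)
  have hp : ((hat w, v, k, ‖w‖) : V3 × V3 × Z × ℝ) ∈ DD P N (2 * T) :=
    ⟨by simpa using norm_hat_le w, by simpa using (norm_le_q v).trans hv, by simpa using hk,
      by simp only [Metric.mem_closedBall, dist_zero_right, norm_norm]; linarith⟩
  have hp' : ((hat w', v', k', ‖w'‖) : V3 × V3 × Z × ℝ) ∈ DD P N (2 * T) :=
    ⟨by simpa using norm_hat_le w', by simpa using (norm_le_q v').trans hv', by simpa using hk',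
      by simp only [Metric.mem_closedBall, dist_zero_right, norm_norm]; linarith⟩
  rw [LW_Phi0 hw, LW_Phi0 hw']
  have hb1 := hb _ hp
  have hb2 := hb _ hp'
  have hl1 := hl _ hp _ hp'
  set X := Phi0 (hat w, v, k, ‖w‖)
  set X' := Phi0 (hat w', v', k', ‖w'‖)
  constructor
  · simp only [norm_smul, norm_inv, norm_pow, norm_norm]
    rw [div_eq_inv_mul]
    gcongr
    nlinarith
  · have e : (‖w‖ ^ 2)⁻¹ • X - (‖w'‖ ^ 2)⁻¹ • X' =
        (‖w‖ ^ 2)⁻¹ • (X - X') + ((‖w‖ ^ 2)⁻¹ - (‖w'‖ ^ 2)⁻¹) • X' := by module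
    have h1 := inv_sq_sub hr hab hww
    have hd : 0 ≤ ‖w - w'‖ / ‖w‖ := by positivity
    have hv0 := norm_nonneg (v - v')
    have hk0 := norm_nonneg (k - k')
    have h5 : ‖w‖ ≤ |T| := hwT.trans (le_abs_self T)
    have h2 : ‖((hat w, v, k, ‖w‖) : V3 × V3 × Z × ℝ) - (hat w', v', k', ‖w'‖)‖ ≤
        (2 + |T|) * (‖w - w'‖ / ‖w‖) + ‖v - v'‖ + ‖k - k'‖ := by
      have h3 := norm_hat_sub_le hw w'
      have h3' : 2 * ‖w - w'‖ / ‖w‖ = 2 * (‖w - w'‖ / ‖w‖) := by ring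
      have h4 : ‖w - w'‖ ≤ |T| * (‖w - w'‖ / ‖w‖) := by
        calc ‖w - w'‖ = ‖w‖ * (‖w - w'‖ / ‖w‖) := by field_simp
          _ ≤ _ := by gcongr
      have h6 : 0 ≤ |T| * (‖w - w'‖ / ‖w‖) := by positivity
      simp only [Prod.mk_sub_mk, Prod.norm_mk, Real.norm_eq_abs]
      refine max_le ?_ (max_le ?_ (max_le ?_ ?_)) <;> nlinarith
    rw [e]
    refine (norm_add_le _ _).trans ?_
    rw [norm_smul, norm_smul, Real.norm_eq_abs, Real.norm_eq_abs,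
      abs_of_pos (by positivity : 0 < (‖w‖ ^ 2)⁻¹)]
    have h7 : (‖w‖ ^ 2)⁻¹ * ‖X - X'‖ ≤
        (‖w‖ ^ 2)⁻¹ * (C * ((2 + |T|) * (‖w - w'‖ / ‖w‖) + ‖v - v'‖ + ‖k - k'‖)) := by
      gcongr
      exact hl1.trans (by gcongr)
    have h8 : |(‖w‖ ^ 2)⁻¹ - (‖w'‖ ^ 2)⁻¹| * ‖X'‖ ≤ 10 * ‖w - w'‖ / ‖w‖ ^ 3 * C := by
      gcongr
    have e2 : (‖w‖ ^ 2)⁻¹ * (C * ((2 + |T|) * (‖w - w'‖ / ‖w‖) + ‖v - v'‖ + ‖k - k'‖)) +
        10 * ‖w - w'‖ / ‖w‖ ^ 3 * C =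
        C * ((12 + |T|) * (‖w - w'‖ / ‖w‖ ^ 3) + ‖v - v'‖ / ‖w‖ ^ 2 + ‖k - k'‖ / ‖w‖ ^ 2) := by
      field_simp; ring
    have h9 : 0 ≤ ‖v - v'‖ / ‖w‖ ^ 2 := by positivity
    have h10 : 0 ≤ ‖k - k'‖ / ‖w‖ ^ 2 := by positivity
    refine (add_le_add h7 h8).trans ?_
    rw [e2, mul_assoc]
    gcongr
    nlinarith

end Vale.Agent.P107
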