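import Vale.Agent.P107.Basic2

/-! Problem P107: the fields are continuous in time with values in `L²`. -/

open MeasureTheory Set Filter Topology
open scoped ENNReal RealInnerProductSpace

noncomputable section
namespace Vale.Agent.P107
namespace L2SX

theorem norm_eq (g : V3 → V3) :
    eLpNorm g 2 volume = (∫⁻ x, ENNReal.ofReal (‖g x‖ ^ 2)) ^ (1 / 2 : ℝ) := by
  rw [eLpNorm_eq_lintegral_rpow_enorm_toReal (by simp) (by simp)]
  simp only [ENNReal.toReal_ofNat]
  congr 1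
  refine lintegral_congr fun x => ?_
  rw [ENNReal.ofReal_pow (norm_nonneg _), ofReal_norm]
  exact ENNReal.rpow_natCast _ 2

theorem mset (ρ : ℝ) : MeasurableSet {y : V3 | ρ ≤ q y} :=
  measurableSet_le measurable_const measurable_q

theorem vol_lt (ρ : ℝ) : volume {y : V3 | ρ ≤ q y}ᶜ < ∞ :=
  (measure_mono fun y hy => mem_ball_zero_iff.2 ((norm_lt_q y).trans (not_le.1 hy))).trans_lt
    (measure_ball_lt_top (x := (0 : V3)) (r := ρ))

theorem tail {e : V3 → ℝ≥0∞} (hm : Measurable e) (hf : ∫⁻ y, e y ≠ ∞) :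
    Tendsto (fun k : ℕ => ∫⁻ y in {y : V3 | (k : ℝ) + 1 ≤ q y}, e y) atTop (𝓝 0) := by
  have h := tendsto_lintegral_of_dominated_convergence (μ := (volume : Measure V3))
    (F := fun (k : ℕ) => {y : V3 | (k : ℝ) + 1 ≤ q y}.indicator e) (f := fun _ => 0) e
    (fun k => hm.indicator (mset _))
    (fun k => Eventually.of_forall fun y => indicator_le_self _ _ y) hf
    (Eventually.of_forall fun y => tendsto_const_nhds.congr' (by
      filter_upwards [tendsto_natCast_atTop_atTop.eventually_ge_atTop (q y)] with k hk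
      have : y ∉ {y : V3 | (k : ℝ) + 1 ≤ q y} := fun h => by
        have h' : (k : ℝ) + 1 ≤ q y := h
        linarith
      exact (indicator_of_notMem this _).symm))
  simpa only [lintegral_indicator (mset _), lintegral_zero] using h

theorem main {A : ℝ → V3 → V3} {e : ℝ → V3 → ℝ} {t₀ C : ℝ} (ht₀ : 0 ≤ t₀)
    (hA : Continuous fun p : ℝ × V3 => A p.1 p.2) (he : Continuous fun p : ℝ × V3 => e p.1 p.2)
    (hb : ∀ t ∈ Icc 0 (t₀ + 1), ∀ y, ‖A t y‖ ≤ C) (hAe : ∀ t y, ‖A t y‖ ^ 2 ≤ 2 * e t y)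
    (ht : ∀ ε : ℝ≥0∞, 0 < ε → ∃ ρ : ℝ, ∀ t ∈ Icc 0 (t₀ + 1),
      ∫⁻ y in {y : V3 | ρ ≤ q y}, ENNReal.ofReal (e t y) ≤ ε) :
    MemLp (A t₀) 2 volume ∧
      Tendsto (fun t => eLpNorm (fun x => A t x - A t₀ x) 2 volume) (𝓝[Ici 0] t₀) (𝓝 0) := by
  have cA : ∀ t, Continuous (A t) := fun t => hA.comp (continuous_const.prodMk continuous_id)
  have me : ∀ t, Measurable fun y => ENNReal.ofReal (e t y) := fun t =>
    (he.comp (continuous_const.prodMk continuous_id)).measurable.ennreal_ofReal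
  have m0 : t₀ ∈ Icc 0 (t₀ + 1) := ⟨ht₀, by linarith⟩
  have e0 : ∀ t y, 0 ≤ e t y := fun t y => by nlinarith [hAe t y, sq_nonneg ‖A t y‖]
  have fin : ∀ (ρ c : ℝ), ∫⁻ _ in {y : V3 | ρ ≤ q y}ᶜ, ENNReal.ofReal c ≠ ∞ := fun ρ c => by
    rw [setLIntegral_const]
    exact ENNReal.mul_ne_top ENNReal.ofReal_ne_top (vol_lt ρ).ne
  constructor
  · refine ⟨(cA t₀).aestronglyMeasurable, ?_⟩
    rw [norm_eq]
    refine ENNReal.rpow_lt_top_of_nonneg (by norm_num) ?_
    obtain ⟨ρ, hρ⟩ := ht 1 one_pos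
    rw [← lintegral_add_compl _ (mset ρ)]
    refine ENNReal.add_ne_top.2 ⟨ne_top_of_le_ne_top (b := 2 * 1) (by simp) ?_,
      ne_top_of_le_ne_top (fin ρ (C ^ 2)) (lintegral_mono fun y => ENNReal.ofReal_le_ofReal
        (pow_le_pow_left₀ (norm_nonneg _) (hb t₀ m0 y) 2))⟩
    refine le_trans ?_ (mul_le_mul_right (hρ t₀ m0) 2)
    rw [← lintegral_const_mul _ (me t₀)]
    refine lintegral_mono fun y => (ENNReal.ofReal_le_ofReal (hAe t₀ y)).trans ?_
    rw [ENNReal.ofReal_mul (by norm_num), ENNReal.ofReal_ofNat]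
  · simp only [norm_eq]
    have ev : ∀ᶠ t in 𝓝[Ici 0] t₀, t ∈ Icc 0 (t₀ + 1) := by
      filter_upwards [self_mem_nhdsWithin, mem_nhdsWithin_of_mem_nhds
        (Iic_mem_nhds (show t₀ < t₀ + 1 by linarith))] with t a b using ⟨a, b⟩
    have key : Tendsto (fun t => ∫⁻ x, ENNReal.ofReal (‖A t x - A t₀ x‖ ^ 2)) (𝓝[Ici 0] t₀)
        (𝓝 0) := by
      refine ENNReal.tendsto_nhds_zero.2 fun ε hε => ?_
      have hε' : 0 < ε / 9 := ENNReal.div_pos hε.ne' (by simp)
      obtain ⟨ρ, hρ⟩ := ht _ hε'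
      have h1 := tendsto_lintegral_filter_of_dominated_convergence
        (μ := (volume : Measure V3).restrict {y : V3 | ρ ≤ q y}ᶜ) (l := 𝓝[Ici 0] t₀)
        (F := fun t x => ENNReal.ofReal (‖A t x - A t₀ x‖ ^ 2)) (f := fun _ => 0)
        (fun _ => ENNReal.ofReal ((C + C) ^ 2))
        (Eventually.of_forall fun t =>
          (((cA t).sub (cA t₀)).norm.pow 2).measurable.ennreal_ofReal)
        (ev.mono fun t h => Eventually.of_forall fun y => ENNReal.ofReal_le_ofReal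
          (pow_le_pow_left₀ (norm_nonneg _)
            ((norm_sub_le _ _).trans (add_le_add (hb t h y) (hb t₀ m0 y))) 2))
        (fin ρ _) (Eventually.of_forall fun y => by
          have c : Continuous fun t => ENNReal.ofReal (‖A t y - A t₀ y‖ ^ 2) :=
            ENNReal.continuous_ofReal.comp ((((hA.comp
              (continuous_id.prodMk continuous_const))).sub continuous_const).norm.pow 2)
          simpa using (c.tendsto t₀).mono_left nhdsWithin_le_nhds)
      rw [lintegral_zero] at h1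
      filter_upwards [ev, ENNReal.tendsto_nhds_zero.1 h1 _ hε'] with t h h2
      rw [← lintegral_add_compl _ (mset ρ)]
      have h3 : ∫⁻ x in {y : V3 | ρ ≤ q y}, ENNReal.ofReal (‖A t x - A t₀ x‖ ^ 2) ≤
          4 * (ε / 9) + 4 * (ε / 9) := by
        refine le_trans ?_ (add_le_add (mul_le_mul_right (hρ t h) 4) (mul_le_mul_right (hρ t₀ m0) 4))
        rw [← lintegral_const_mul _ (me t), ← lintegral_const_mul _ (me t₀),
          ← lintegral_add_left ((me t).const_mul 4)]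
        refine lintegral_mono fun y => ?_
        have h4 : ‖A t y - A t₀ y‖ ^ 2 ≤ 4 * e t y + 4 * e t₀ y := by
          have := pow_le_pow_left₀ (norm_nonneg _) (norm_sub_le (A t y) (A t₀ y)) 2
          nlinarith [hAe t y, hAe t₀ y, sq_nonneg (‖A t y‖ - ‖A t₀ y‖)]
        refine (ENNReal.ofReal_le_ofReal h4).trans (ENNReal.ofReal_add_le.trans ?_)
        rw [ENNReal.ofReal_mul (by norm_num), ENNReal.ofReal_mul (by norm_num),
          ENNReal.ofReal_ofNat]
      refine (add_le_add h3 h2).trans (le_of_eq ?_)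
      have h5 : (9 : ℝ≥0∞) * (ε / 9) = ε := ENNReal.mul_div_cancel (by simp) (by simp)
      calc 4 * (ε / 9) + 4 * (ε / 9) + ε / 9 = 9 * (ε / 9) := by ring
        _ = ε := h5
    have := ((ENNReal.continuous_rpow_const (y := (1 / 2 : ℝ))).tendsto 0).comp key
    rwa [ENNReal.zero_rpow_of_pos (by norm_num)] at this

end L2SX

theorem l2S (h1 : N1) (ht : TL) : L2S := by
  intro f₀ E₀ B₀ hD f K hf hK hM h0 t₀ ht₀
  have cK := hK.cont
  have ce : Continuous fun p : ℝ × V3 => eK K p.1 p.2 := by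
    unfold eK
    exact ((cK.fst.norm.pow 2).add (cK.snd.norm.pow 2)).div_const 2
  have cS : Continuous fun p : ℝ × V3 => SK K p.1 p.2 := Continuous.cross' cK.fst cK.snd
  have cg : Continuous fun p : ℝ × V3 => -⟪cur (f p.1) p.2, (K p.1 p.2).1⟫ :=
    (hf.ccur.inner cK.fst).neg
  have hS : ∀ t y, ‖SK K t y‖ ≤ eK K t y := fun t y => by
    refine (norm_cross_le _ _).trans ?_
    unfold eK
    nlinarith [sq_nonneg (‖(K t y).1‖ - ‖(K t y).2‖)]
  obtain ⟨C, hC⟩ := hK.bd (t₀ + 1)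
  have hb : ∀ t ∈ Icc 0 (t₀ + 1), ∀ y, ‖K t y‖ ≤ C := fun t h y =>
    (hC t (by rw [abs_of_nonneg h.1]; exact h.2)).b0 y
  obtain ⟨R, hR⟩ := hf.supp (t₀ + 1)
  have fin : ∀ g : V3 → V3, MemLp g 2 volume → ∫⁻ x, ENNReal.ofReal (‖g x‖ ^ 2) ≠ ∞ :=
    fun g hg h => by
      have := hg.2
      rw [L2SX.norm_eq, h, ENNReal.top_rpow_of_pos (by norm_num)] at this
      exact lt_irrefl _ this
  have hfin : ∫⁻ y, ENNReal.ofReal (eK K 0 y) ≠ ∞ := by
    refine ne_top_of_le_ne_top (ENNReal.add_ne_top.2 ⟨fin E₀ hD.E_L2, fin B₀ hD.B_L2⟩) ?_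
    rw [← lintegral_add_left (f := fun x => ENNReal.ofReal (‖E₀ x‖ ^ 2))
      (hD.E_smooth.continuous.norm.pow 2).measurable.ennreal_ofReal]
    refine lintegral_mono fun y => le_trans (ENNReal.ofReal_le_ofReal ?_) ENNReal.ofReal_add_le
    simp only [eK, h0, K0]
    nlinarith [sq_nonneg ‖E₀ y‖, sq_nonneg ‖B₀ y‖]
  have htail : ∀ ε : ℝ≥0∞, 0 < ε → ∃ ρ : ℝ, ∀ t ∈ Icc 0 (t₀ + 1),
      ∫⁻ y in {y : V3 | ρ ≤ q y}, ENNReal.ofReal (eK K t y) ≤ ε := fun ε hε => by
    obtain ⟨k, hk1, hk2⟩ := ((ENNReal.tendsto_nhds_zero.1 (L2SX.tail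
      (ce.comp (continuous_const.prodMk continuous_id)).measurable.ennreal_ofReal hfin) ε hε).and
      (tendsto_natCast_atTop_atTop.eventually_ge_atTop R)).exists
    refine ⟨k + 2 + (t₀ + 1), fun t h => le_trans (lintegral_mono_set fun y hy => ?_)
      ((ht _ _ _ (t₀ + 1) k ce cS cg hS (h1 f K hf hK hM _) (fun s hs y hy => ?_) t h).trans hk1)⟩
    · have : (k : ℝ) + 2 + (t₀ + 1) ≤ q y := hy
      change (k : ℝ) + 2 + t ≤ q y
      linarith [h.2]
    · have h3 : ‖y‖ < R := by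
        by_contra h4
        rw [(hR s (by rw [abs_of_nonneg hs.1]; exact hs.2) y (not_lt.1 h4)).2] at hy
        simp at hy
      have h5 := q_sq y
      have h6 := norm_nonneg y
      have h7 : q y ≤ ‖y‖ + 1 := abs_le_of_sq_le_sq' (by nlinarith) (by linarith) |>.2
      linarith
  obtain ⟨a1, a2⟩ := L2SX.main (A := fun t x => (K t x).1) ht₀ cK.fst ce
    (fun t h y => (norm_fst_le _).trans (hb t h y))
    (fun t y => by unfold eK; nlinarith [sq_nonneg ‖(K t y).2‖]) htail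
  obtain ⟨b1, b2⟩ := L2SX.main (A := fun t x => (K t x).2) ht₀ cK.snd ce
    (fun t h y => (norm_snd_le _).trans (hb t h y))
    (fun t y => by unfold eK; nlinarith [sq_nonneg ‖(K t y).1‖]) htail
  exact ⟨a1, b1, a2, b2⟩

end Vale.Agent.P107
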