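import Vale.Agent.P107.Basic2

/-! Problem P107, part II: the weak Gauss laws. -/

open MeasureTheory Set Filter Topology
open scoped ENNReal RealInnerProductSpace ContDiff

noncomputable section
namespace Vale.Agent.P107
namespace M7aX

/-- coordinate functionals -/
def pr (i : Fin 3) : V3 →L[ℝ] ℝ := EuclideanSpace.proj i

theorem pr_apply (i : Fin 3) (x : V3) : pr i x = x i := rfl

theorem cont_coord {X : Type} [TopologicalSpace X] {A : X → V3} (h : Continuous A) (i : Fin 3) :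
    Continuous (fun x => A x i) := (pr i).continuous.comp h

theorem dvg_curl {B : V3 → V3} (h : ContDiff ℝ 2 B) (x : V3) : dvg (curl B) x = 0 := by
  have hd : DifferentiableAt ℝ (fderiv ℝ B) x :=
    ((h.fderiv_right (m := 1) le_rfl).differentiable one_ne_zero) x
  have e : curl B = fun y => ∑ j, crossL (ee j) (fderiv ℝ B y (ee j)) := by
    funext y; rw [curl_eq_sum]; rfl
  have h1 : ∀ j, HasFDerivAt (fun y => crossL (ee j) (fderiv ℝ B y (ee j)))
      ((crossL (ee j)).comp (((ContinuousLinearMap.apply ℝ V3 (ee j))).comp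
        (fderiv ℝ (fderiv ℝ B) x))) x := fun j =>
    (crossL (ee j)).hasFDerivAt.comp x
      ((ContinuousLinearMap.apply ℝ V3 (ee j)).hasFDerivAt.comp x hd.hasFDerivAt)
  have h2 := (HasFDerivAt.fun_sum (u := Finset.univ) (fun j _ => h1 j)).fderiv
  have hs : ∀ a b, fderiv ℝ (fderiv ℝ B) x a b = fderiv ℝ (fderiv ℝ B) x b a := fun a b =>
    (h.contDiffAt.isSymmSndFDerivAt (by simp)).eq a b
  have h3 : ∀ v, fderiv ℝ (curl B) x v =
      ∑ j, cross (ee j) (fderiv ℝ (fderiv ℝ B) x v (ee j)) := by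
    intro v
    rw [e, h2, ContinuousLinearMap.sum_apply]; rfl
  rw [dvg_eq_sum]
  simp only [h3, Fin.sum_univ_three]
  rw [hs (ee 1) (ee 0), hs (ee 2) (ee 0), hs (ee 2) (ee 1)]
  simp [ee_apply]
  ring

theorem dvg_neg (A : V3 → V3) (x : V3) : dvg (fun y => -A y) x = -dvg A x := by
  rw [dvg_eq_sum, dvg_eq_sum]
  simp [fderiv_fun_neg]

/-- the divergence theorem for a time slice -/
theorem div_slice (hi : Ibp) {ψ : ℝ × V3 → ℝ} (hψ : ContDiff ℝ 1 ψ) (hc : Cpt ψ) {A : V3 → V3}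
    (hA : ContDiff ℝ 1 A) :
    ∑ i, ∫ y, dx i ψ (0, y) * A y i = -∫ y, ψ (0, y) * dvg A y := by
  have ha : ContDiff ℝ 1 (fun y : V3 => ψ (0, y)) := hψ.comp (contDiff_const.prodMk contDiff_id)
  have hs := hc.slice (le_refl (0 : ℝ))
  have h1 : ∀ i, ∫ y, dx i ψ (0, y) * A y i = -∫ y, ψ (0, y) * fderiv ℝ A y (ee i) i := by
    intro i
    have hAi : ContDiff ℝ 1 (fun y => pr i (A y)) := (pr i).contDiff.comp hA
    have := (hi ℝ).1 (fun y => ψ (0, y)) (fun y => pr i (A y)) (ee i) ha hAi (Or.inl hs)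
    have e1 : ∀ y, fderiv ℝ (fun y => ψ (0, y)) y (ee i) = dx i ψ (0, y) := fun y =>
      fderiv_slice (hψ.differentiable one_ne_zero) 0 y (ee i)
    have e2 : ∀ y, fderiv ℝ (fun y => pr i (A y)) y (ee i) = fderiv ℝ A y (ee i) i := by
      intro y
      have := ((pr i).hasFDerivAt.comp y (hA.differentiable one_ne_zero y).hasFDerivAt).fderiv
      rw [show (fun y => pr i (A y)) = pr i ∘ A from rfl, this]; rfl
    simp only [e1, e2, smul_eq_mul] at this
    exact this
  have h2 : ∀ i, Integrable (fun y => ψ (0, y) * fderiv ℝ A y (ee i) i) := by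
    intro i
    refine Continuous.integrable_of_hasCompactSupport ?_ hs.mul_right
    exact ha.continuous.mul (cont_coord
      ((hA.continuous_fderiv one_ne_zero).clm_apply continuous_const) i)
  simp only [h1, dvg_eq_sum, Finset.mul_sum]
  rw [integral_finsetSum _ fun i _ => h2 i, Finset.sum_neg_distrib]

theorem src_eq (ψ : ℝ × V3 → ℝ) (f : ℝ → Z → ℝ) (p : ℝ × V3) :
    src ψ f p = (∑ j, dx j ψ p • ((rho (f p.1) p.2 • ee j, cross (cur (f p.1) p.2) (ee j)) : Z))
      + dt ψ p • ((cur (f p.1) p.2, 0) : Z) := by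
  unfold src
  ext i <;> fin_cases i <;> simp [Fin.sum_univ_three, ee_apply] <;> ring

theorem int_src (hi : Ibp) {ψ : ℝ × V3 → ℝ} (hψ : ContDiff ℝ 1 ψ) (hc : Cpt ψ)
    {f : ℝ → Z → ℝ} (hf : Den f) : IntegrableOn (src ψ f) Hs := by
  rw [show src ψ f = _ from funext (src_eq ψ f)]
  refine Integrable.add (integrable_finsetSum _ fun j _ => ?_) ?_
  · refine ((hi Z).2.1 _ _ (continuous_dD hψ _) (hc.dD _) ?_).1
    exact (hf.crho.smul continuous_const).prodMk
      ((contDiff_cross (n := 0)).continuous.comp (hf.ccur.prodMk continuous_const))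
  · exact ((hi Z).2.1 _ _ (continuous_dD hψ _) (hc.dD _) (hf.ccur.prodMk continuous_const)).1

theorem int_slice {ψ : ℝ × V3 → ℝ} (hψ : Continuous ψ) (hc : Cpt ψ) {A : V3 → Z}
    (hA : Continuous A) : Integrable (fun y => ψ (0, y) • A y) := by
  refine Continuous.integrable_of_hasCompactSupport ?_ (hc.slice (le_refl (0 : ℝ))).smul_right
  exact (hψ.comp (continuous_const.prodMk continuous_id)).smul hA

/-- the pairing identity through a linear functional -/
theorem pair_clm (hi : Ibp) (ha : AdvP) {E₀ B₀ : V3 → V3} {f : ℝ → Z → ℝ} {K : ℝ → V3 → Z}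
    (h0 : Continuous (K0 E₀ B₀)) (h1 : Continuous (K1 E₀ B₀)) (hf : Den f) (hK : Reg K)
    (hp : Pair E₀ B₀ f K) (L : Z →L[ℝ] ℝ) {φ : ℝ × V3 → ℝ} (hφ : Test φ) :
    ∫ p in Hs, φ p * L (K p.1 p.2) =
      -(∫ y, dt (adv φ) (0, y) * L (K0 E₀ B₀ y)) + (∫ y, adv φ (0, y) * L (K1 E₀ B₀ y))
        + ∫ p in Hs, L (src (adv φ) f p) := by
  obtain ⟨hs, hc, -⟩ := ha φ hφ
  have hs1 : ContDiff ℝ 1 (adv φ) := hs.of_le (by simp)
  have i1 := ((hi Z).2.1 φ (fun p => K p.1 p.2) hφ.smooth.continuous hφ.cpt hK.cont).1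
  have i2 := int_slice (continuous_dD hs1 (1, 0)) (hc.dD _) h0
  have i3 := int_slice hs.continuous hc h1
  have i4 := int_src hi hs1 hc hf
  have := congrArg L (hp φ hφ)
  rw [map_add, map_add, map_neg, ← L.integral_comp_comm i1, ← L.integral_comp_comm i3,
    ← L.integral_comp_comm i4] at this
  have e := L.integral_comp_comm i2
  simp only [map_smul, smul_eq_mul] at this e
  rw [this]
  unfold dt
  rw [e]

end M7aX

open M7aX in
theorem m7a (hi : Ibp) (hd : DatP) (ha : AdvP) (hf : Fund) : M7a := by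
  intro f₀ E₀ B₀ hD f K hf0 hden hK hp hw
  obtain ⟨k0, k1, -⟩ := hd f₀ E₀ B₀ hD
  have hE2 : ContDiff ℝ 2 E₀ := hD.E_smooth.of_le (by norm_cast)
  have hB2 : ContDiff ℝ 2 B₀ := hD.B_smooth.of_le (by norm_cast)
  have hE1 : ContDiff ℝ 1 E₀ := hD.E_smooth.of_le (by simp)
  have hB1 : ContDiff ℝ 1 B₀ := hD.B_smooth.of_le (by simp)
  have hcB : ContDiff ℝ 1 (curl B₀) := (k1.of_le (by simp)).fst
  have hcE : ContDiff ℝ 1 (fun y => -curl E₀ y) := (k1.of_le (by simp)).snd
  have iK : ∀ φ, Test φ → ∀ L : Z →L[ℝ] ℝ, IntegrableOn (fun p : ℝ × V3 => φ p * L (K p.1 p.2)) Hs :=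
    fun φ hφ L => ((hi ℝ).2.1 φ (fun p => L (K p.1 p.2)) hφ.smooth.continuous hφ.cpt
      (L.continuous.comp hK.cont)).1
  constructor
  · intro φ hφ
    obtain ⟨hs, hc, hcm⟩ := ha φ hφ
    set ψ := adv φ with hψ
    have hs1 : ContDiff ℝ 1 ψ := hs.of_le (by simp)
    have hs2 : ContDiff ℝ 2 ψ := hs.of_le (by norm_cast)
    have ht : ContDiff ℝ ∞ (dt ψ) := contDiff_dD hs _
    have ht1 : ContDiff ℝ 1 (dt ψ) := ht.of_le (by simp)
    have hct : Cpt (dt ψ) := hc.dD _
    have hx1 : ∀ i, ContDiff ℝ 1 (dx i ψ) := fun i => (contDiff_dD hs _).of_le (by simp)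
    have hcomm : ∀ i, dt (dx i ψ) = dx i (dt ψ) := fun i => dD_comm hs2 _ _
    have P : ∀ i, ∫ p in Hs, dx i φ p * (K p.1 p.2).1 i =
        -(∫ y, dx i (dt ψ) (0, y) * E₀ y i) + (∫ y, dx i ψ (0, y) * curl B₀ y i)
          + ∫ p in Hs, (src (dx i ψ) f p).1 i := by
      intro i
      have := pair_clm hi ha k0.continuous k1.continuous hden hK hp
        ((pr i).comp (ContinuousLinearMap.fst ℝ V3 V3)) (hφ.dD (0, ee i))
      rw [← hcm] at this
      rw [← hcomm]
      exact this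
    have iS : ∀ i, IntegrableOn (fun p => (src (dx i ψ) f p).1 i) Hs := fun i =>
      ((pr i).comp (ContinuousLinearMap.fst ℝ V3 V3)).integrable_comp
        (int_src hi (hx1 i) (hc.dD _) hden)
    have iR : IntegrableOn (fun p : ℝ × V3 => φ p * rho (f p.1) p.2) Hs :=
      ((hi ℝ).2.1 φ (fun p => rho (f p.1) p.2) hφ.smooth.continuous hφ.cpt hden.crho).1
    have iE : ∀ i, IntegrableOn (fun p : ℝ × V3 => dx i φ p * (K p.1 p.2).1 i) Hs := fun i =>
      iK _ (hφ.dD (0, ee i)) ((pr i).comp (ContinuousLinearMap.fst ℝ V3 V3))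
    have e1 : ∫ p in Hs, (⟪gx φ p, (K p.1 p.2).1⟫ + φ p * rho (f p.1) p.2) =
        (∑ i, ∫ p in Hs, dx i φ p * (K p.1 p.2).1 i) + ∫ p in Hs, φ p * rho (f p.1) p.2 := by
      rw [← integral_finsetSum _ fun i _ => iE i,
        ← integral_add (integrable_finsetSum _ fun i _ => iE i) iR]
      refine integral_congr_ae (Eventually.of_forall fun p => ?_)
      simp only [inner_V3, gx_apply, Fin.sum_univ_three]
    obtain ⟨T, R, hT, -⟩ := hct
    have W := hw (dt ψ) T ht1 hT
    have e2 : (∑ i, ∫ p in Hs, (src (dx i ψ) f p).1 i) + ∫ p in Hs, φ p * rho (f p.1) p.2 =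
        ∫ p in Hs, (rho (f p.1) p.2 * dt (dt ψ) p + ⟪cur (f p.1) p.2, gx (dt ψ) p⟫) := by
      rw [← integral_finsetSum _ fun i _ => iS i,
        ← integral_add (integrable_finsetSum _ fun i _ => iS i) iR]
      refine integral_congr_ae (Eventually.of_forall fun p => ?_)
      have F := hf φ hφ p
      rw [← hψ] at F
      simp only [src, hcomm, inner_V3, gx_apply, Fin.sum_univ_three, PiLp.add_apply,
        PiLp.smul_apply, smul_eq_mul] at F ⊢
      rw [← F]; ring
    have d1 := div_slice hi ht1 (hc.dD _) hE1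
    have d2 := div_slice hi hs1 hc hcB
    simp only [dvg_curl hB2, mul_zero, integral_zero, neg_zero] at d2
    simp only [hD.div_E] at d1
    have e3 : ∫ y, rho (f 0) y * dt ψ (0, y) = ∫ y, dt ψ (0, y) * rho f₀ y := by
      rw [hf0]; simp only [mul_comm]
    rw [e1]
    simp only [P, Finset.sum_add_distrib, Finset.sum_neg_distrib]
    rw [d1, d2, add_assoc, e2, W, e3]
    ring
  · intro φ hφ
    obtain ⟨hs, hc, hcm⟩ := ha φ hφ
    set ψ := adv φ with hψ
    have hs1 : ContDiff ℝ 1 ψ := hs.of_le (by simp)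
    have hs2 : ContDiff ℝ 2 ψ := hs.of_le (by norm_cast)
    have ht : ContDiff ℝ ∞ (dt ψ) := contDiff_dD hs _
    have ht1 : ContDiff ℝ 1 (dt ψ) := ht.of_le (by simp)
    have hx1 : ∀ i, ContDiff ℝ 1 (dx i ψ) := fun i => (contDiff_dD hs _).of_le (by simp)
    have hcomm : ∀ i, dt (dx i ψ) = dx i (dt ψ) := fun i => dD_comm hs2 _ _
    have hxx : ∀ i j, dx i (dx j ψ) = dx j (dx i ψ) := fun i j => dD_comm hs2 _ _
    have P : ∀ i, ∫ p in Hs, dx i φ p * (K p.1 p.2).2 i =
        -(∫ y, dx i (dt ψ) (0, y) * B₀ y i) + (∫ y, dx i ψ (0, y) * (-curl E₀ y) i)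
          + ∫ p in Hs, (src (dx i ψ) f p).2 i := by
      intro i
      have := pair_clm hi ha k0.continuous k1.continuous hden hK hp
        ((pr i).comp (ContinuousLinearMap.snd ℝ V3 V3)) (hφ.dD (0, ee i))
      rw [← hcm] at this
      rw [← hcomm]
      exact this
    have iS : ∀ i, IntegrableOn (fun p => (src (dx i ψ) f p).2 i) Hs := fun i =>
      ((pr i).comp (ContinuousLinearMap.snd ℝ V3 V3)).integrable_comp
        (int_src hi (hx1 i) (hc.dD _) hden)
    have iE : ∀ i, IntegrableOn (fun p : ℝ × V3 => dx i φ p * (K p.1 p.2).2 i) Hs := fun i =>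
      iK _ (hφ.dD (0, ee i)) ((pr i).comp (ContinuousLinearMap.snd ℝ V3 V3))
    have e1 : ∫ p in Hs, ⟪gx φ p, (K p.1 p.2).2⟫ =
        ∑ i, ∫ p in Hs, dx i φ p * (K p.1 p.2).2 i := by
      rw [← integral_finsetSum _ fun i _ => iE i]
      refine integral_congr_ae (Eventually.of_forall fun p => ?_)
      simp only [inner_V3, gx_apply, Fin.sum_univ_three]
    have e2 : ∑ i, ∫ p in Hs, (src (dx i ψ) f p).2 i = 0 := by
      rw [← integral_finsetSum _ fun i _ => iS i]
      refine integral_eq_zero_of_ae (Eventually.of_forall fun p => ?_)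
      simp only [src, Fin.sum_univ_three, Pi.zero_apply]
      simp [hxx 1 0, hxx 2 0, hxx 2 1]
    have d1 := div_slice hi ht1 (hc.dD _) hB1
    have d2 := div_slice hi hs1 hc hcE
    simp only [dvg_neg, dvg_curl hE2, mul_zero, integral_zero, neg_zero] at d2
    simp only [hD.div_B, mul_zero, integral_zero, neg_zero] at d1
    rw [e1]
    simp only [P, Finset.sum_add_distrib, Finset.sum_neg_distrib]
    rw [d1, d2, e2]
    ring

end Vale.Agent.P107
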