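import Vale.Agent.P107.Basic2

/-! Problem P107: the weak Ampere equation. -/

open MeasureTheory Set Filter Topology
open scoped ENNReal RealInnerProductSpace ContDiff

noncomputable section
namespace Vale.Agent.P107
namespace M7bX

/-- smooth with the support condition -/
def S (a : ℝ × V3 → ℝ) : Prop := ContDiff ℝ ∞ a ∧ Cpt a

variable {a : ℝ × V3 → ℝ}

theorem S.dD (h : S a) (v : ℝ × V3) : S (dD v a) := ⟨contDiff_dD h.1 v, h.2.dD v⟩

theorem S.dt (h : S a) : S (dt a) := h.dD _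

theorem S.dx (h : S a) (j : Fin 3) : S (dx j a) := h.dD _

theorem S.c1 (h : S a) : ContDiff ℝ 1 a := h.1.of_le (by simp)

theorem S.slice (h : S a) : ContDiff ℝ 1 fun y : V3 => a (0, y) :=
  h.c1.comp (contDiff_const.prodMk contDiff_id)

theorem S.tx (h : S a) (j : Fin 3) : P107.dt (P107.dx j a) = P107.dx j (P107.dt a) :=
  dD_comm (h.1.of_le (by norm_cast)) _ _

theorem S.xx (h : S a) (i j : Fin 3) : P107.dx i (P107.dx j a) = P107.dx j (P107.dx i a) :=
  dD_comm (h.1.of_le (by norm_cast)) _ _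

theorem S.int0 {X : Type} [NormedAddCommGroup X] [NormedSpace ℝ X] (h : S a) {b : V3 → X}
    (hb : Continuous b) : Integrable fun y => a (0, y) • b y :=
  (h.slice.continuous.smul hb).integrable_of_hasCompactSupport (h.2.slice le_rfl).smul_right

theorem S.intH {X : Type} [NormedAddCommGroup X] [NormedSpace ℝ X] [CompleteSpace X] (hi : Ibp)
    (h : S a) {b : ℝ × V3 → X} (hb : Continuous b) : IntegrableOn (fun p => a p • b p) Hs :=
  ((hi X).2.1 a b h.1.continuous h.2 hb).1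

theorem S.ibp0 (hi : Ibp) (h : S a) {A : V3 → V3} (hA : ContDiff ℝ 1 A) (l : V3 →L[ℝ] ℝ)
    (j : Fin 3) :
    ∫ y, P107.dx j a (0, y) * l (A y) = -∫ y, a (0, y) * l (fderiv ℝ A y (ee j)) := by
  have h1 := (hi ℝ).1 (fun y => a (0, y)) (fun y => l (A y)) (ee j) h.slice (l.contDiff.comp hA)
    (Or.inl (h.2.slice le_rfl))
  have h2 : ∀ y, fderiv ℝ (fun y => l (A y)) y (ee j) = l (fderiv ℝ A y (ee j)) := fun y =>
    congrArg (fun T : V3 →L[ℝ] ℝ => T (ee j))
      (l.hasFDerivAt.comp y (hA.differentiable one_ne_zero y).hasFDerivAt).fderiv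
  simp only [fderiv_slice (h.c1.differentiable one_ne_zero), h2, smul_eq_mul] at h1
  exact h1

theorem srcI (hi : Ibp) (h : S a) {f : ℝ → Z → ℝ} (hf : Den f) : IntegrableOn (src a f) Hs := by
  have h1 := hf.crho
  have h2 := hf.ccur
  have e : src a f = fun p => (∑ j, dx j a p • ((rho (f p.1) p.2 • ee j,
      cross (cur (f p.1) p.2) (ee j)) : Z)) + dt a p • ((cur (f p.1) p.2, 0) : Z) := by
    funext p
    refine Prod.ext (V3_ext ?_ ?_ ?_) (V3_ext ?_ ?_ ?_) <;>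
      simp [src, Fin.sum_univ_three, ee_apply] <;> ring
  have h3 : ∀ j, IntegrableOn (fun p => dx j a p • ((rho (f p.1) p.2 • ee j,
      cross (cur (f p.1) p.2) (ee j)) : Z)) Hs := fun j => (h.dx j).intH hi (by fun_prop)
  have h4 : IntegrableOn (fun p => dt a p • ((cur (f p.1) p.2, 0) : Z)) Hs :=
    h.dt.intH hi (by fun_prop)
  rw [e]
  exact (integrable_finsetSum _ fun j _ => h3 j).add h4

theorem test {φ : ℝ × V3 → ℝ} (h : Test φ) : S φ := ⟨h.smooth, h.cpt⟩

theorem pairS (hi : Ibp) (hd : DatP) (ha : AdvP) {f₀ : Z → ℝ} {E₀ B₀ : V3 → V3}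
    (hD : Datum f₀ E₀ B₀) {f : ℝ → Z → ℝ} {K : ℝ → V3 → Z} (hf : Den f) (hK : Reg K)
    (hP : Pair E₀ B₀ f K) {φ : ℝ × V3 → ℝ} (hφ : Test φ) (v : ℝ × V3) (l : Z →L[ℝ] ℝ) :
    ∫ p in Hs, dD v φ p * l (K p.1 p.2) =
      -(∫ y, dt (dD v (adv φ)) (0, y) * l (K0 E₀ B₀ y)) +
        (∫ y, dD v (adv φ) (0, y) * l (K1 E₀ B₀ y)) + ∫ p in Hs, l (src (dD v (adv φ)) f p) := by
  obtain ⟨h1, h2, h3⟩ := ha φ hφ
  obtain ⟨h4, h5, -⟩ := hd f₀ E₀ B₀ hD
  have hs : S (dD v (adv φ)) := S.dD ⟨h1, h2⟩ v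
  have h6 := congrArg l (hP _ (hφ.dD v))
  rw [← h3, map_add, map_add, map_neg,
    ← l.integral_comp_comm ((test (hφ.dD v)).intH hi hK.cont),
    ← l.integral_comp_comm (hs.dt.int0 h4.continuous),
    ← l.integral_comp_comm (hs.int0 h5.continuous), ← l.integral_comp_comm (srcI hi hs hf)] at h6
  simpa only [map_smul, smul_eq_mul] using h6

/-- a coordinate -/
def pr (i : Fin 3) : V3 →L[ℝ] ℝ := EuclideanSpace.proj i

/-- a coordinate of the cross product with a basis vector -/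
def cr (i j : Fin 3) : V3 →L[ℝ] ℝ := (pr i).comp (crossL (ee j))

theorem pr_apply (i : Fin 3) (x : V3) : pr i x = x i := rfl

theorem cr_apply (i j : Fin 3) (x : V3) : cr i j x = cross (ee j) x i := rfl

theorem cr_sum (i : Fin 3) (g x : V3) :
    cross g x i = g 0 * cr i 0 x + g 1 * cr i 1 x + g 2 * cr i 2 x := by
  fin_cases i <;> simp [cr_apply, ee_apply] <;> ring

theorem cr_curl (i j : Fin 3) (A : V3 → V3) (y : V3) :
    cr i j (-curl A y) = pd A j i y - pd A i j y := by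
  fin_cases i <;> fin_cases j <;> simp [cr_apply, ee_apply]

theorem cr_cross (i j : Fin 3) (x g : V3) : cr i j (cross x g) = g j * x i - g i * x j := by
  rw [cr_apply, cross_cross, inner_ee, inner_ee]
  simp [mul_comm]

theorem curl_cr (i : Fin 3) (A : V3 → V3) (y : V3) : curl A y i = cr i 0 (fderiv ℝ A y (ee 0)) +
    cr i 1 (fderiv ℝ A y (ee 1)) + cr i 2 (fderiv ℝ A y (ee 2)) := by
  rw [curl_eq_sum, Fin.sum_univ_three]
  rfl

theorem add3 {X : Type} [MeasurableSpace X] {μ : Measure X} {u : X → ℝ} {g : Fin 3 → X → ℝ}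
    (h : ∀ j, Integrable (g j) μ) (e : ∀ x, u x = g 0 x + g 1 x + g 2 x) :
    ∫ x, u x ∂μ = ∫ x, g 0 x ∂μ + ∫ x, g 1 x ∂μ + ∫ x, g 2 x ∂μ := by
  have h1 : Integrable (fun x => g 0 x + g 1 x) μ := (h 0).add (h 1)
  rw [← integral_add (h 0) (h 1), ← integral_add h1 (h 2)]
  exact integral_congr_ae (Eventually.of_forall e)

end M7bX

open M7bX in
theorem m7b (hi : Ibp) (hd : DatP) (ha : AdvP) (hf : Fund) : M7b := by
  intro f₀ E₀ B₀ hD f K h0 hden hK hP hW φ hφ
  have hE : ContDiff ℝ 1 E₀ := hD.E_smooth.of_le (by simp)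
  have hB : ContDiff ℝ 1 B₀ := hD.B_smooth.of_le (by simp)
  have cE : ∀ j, Continuous fun y => fderiv ℝ E₀ y (ee j) := fun j =>
    (hE.continuous_fderiv one_ne_zero).clm_apply continuous_const
  have cB : ∀ j, Continuous fun y => fderiv ℝ B₀ y (ee j) := fun j =>
    (hB.continuous_fderiv one_ne_zero).clm_apply continuous_const
  have cP : ∀ j k, Continuous (pd E₀ j k) := fun j k => (pr k).continuous.comp (cE j)
  have cK := hK.cont
  have cρ := hden.crho
  have cJ := hden.ccur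
  have cJ' : ∀ k, Continuous fun p : ℝ × V3 => cur (f p.1) p.2 k := fun k =>
    (pr k).continuous.comp cJ
  have sφ := test hφ
  have hF := hf φ hφ
  have key := fun v l => pairS hi hd ha hD hden hK hP hφ v l
  have s : S (adv φ) := ⟨(ha φ hφ).1, (ha φ hφ).2.1⟩
  generalize adv φ = ψ at hF key s
  have i1 : IntegrableOn (fun p => dt φ p • (K p.1 p.2).1) Hs := sφ.dt.intH hi cK.fst
  have i2 : IntegrableOn (fun p => cross (gx φ p) (K p.1 p.2).2) Hs := by
    have e : (fun p => cross (gx φ p) (K p.1 p.2).2) =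
        fun p => ∑ j, dx j φ p • cross (ee j) (K p.1 p.2).2 := by
      funext p
      refine V3_ext ?_ ?_ ?_ <;> simp [Fin.sum_univ_three, ee_apply] <;> ring
    rw [e]
    exact integrable_finsetSum _ fun j _ => (sφ.dx j).intH hi (by fun_prop)
  have i3 : IntegrableOn (fun p => φ p • cur (f p.1) p.2) Hs := sφ.intH hi cJ
  have i4 : IntegrableOn (fun p => dt φ p • (K p.1 p.2).1 - cross (gx φ p) (K p.1 p.2).2) Hs :=
    i1.sub i2
  rw [integral_sub i4 i3, integral_sub i1 i2]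
  ext i
  rw [← pr_apply, map_sub, map_sub, ← (pr i).integral_comp_comm i1, ← (pr i).integral_comp_comm i2,
    ← (pr i).integral_comp_comm i3]
  have h1 : ∫ p in Hs, dt φ p * (K p.1 p.2).1 i = -(∫ y, dt (dt ψ) (0, y) * E₀ y i) +
      (∫ y, dt ψ (0, y) * curl B₀ y i) + ∫ p in Hs, (src (dt ψ) f p).1 i :=
    key (1, 0) ((pr i).comp (ContinuousLinearMap.fst ℝ V3 V3))
  have h2 : ∀ j, ∫ p in Hs, dx j φ p * cr i j (K p.1 p.2).2 =
      -(∫ y, dt (dx j ψ) (0, y) * cr i j (B₀ y)) +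
      (∫ y, dx j ψ (0, y) * cr i j (-curl E₀ y)) +
      ∫ p in Hs, cr i j (cross (cur (f p.1) p.2) (gx (dx j ψ) p)) := fun j =>
    key (0, ee j) ((cr i j).comp (ContinuousLinearMap.snd ℝ V3 V3))
  have h3 := add3 (μ := volume.restrict Hs) (u := fun p => pr i (cross (gx φ p) (K p.1 p.2).2))
    (g := fun j p => dx j φ p * cr i j (K p.1 p.2).2)
    (fun j => (sφ.dx j).intH hi ((cr i j).continuous.comp cK.snd)) fun p => cr_sum i _ _
  have a1 := add3 (μ := volume) (u := fun y => dt (dt ψ) (0, y) * E₀ y i)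
    (g := fun j y => dx j (dx j ψ) (0, y) * pr i (E₀ y))
    (fun j => ((s.dx j).dx j).int0 ((pr i).continuous.comp hE.continuous)) fun y => by
      have := hF (0, y)
      rw [hφ.zero_of_nonpos le_rfl, Fin.sum_univ_three, sub_eq_zero] at this
      rw [this, pr_apply]
      ring
  have a1' : ∀ j, ∫ y, dx j (dx j ψ) (0, y) * pr i (E₀ y) = -∫ y, dx j ψ (0, y) * pd E₀ j i y :=
    fun j => (s.dx j).ibp0 hi hE (pr i) j
  have a2 : ∀ j, ∫ y, dt (dx j ψ) (0, y) * cr i j (B₀ y) =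
      -∫ y, dt ψ (0, y) * cr i j (fderiv ℝ B₀ y (ee j)) := fun j => by
    rw [s.tx]
    exact s.dt.ibp0 hi hB (cr i j) j
  have a2' := add3 (μ := volume) (u := fun y => dt ψ (0, y) * curl B₀ y i)
    (g := fun j y => dt ψ (0, y) * cr i j (fderiv ℝ B₀ y (ee j)))
    (fun j => s.dt.int0 ((cr i j).continuous.comp (cB j))) fun y => by
      rw [curl_cr]
      ring
  have a3 : ∀ j, ∫ y, dx j ψ (0, y) * cr i j (-curl E₀ y) =
      (∫ y, dx j ψ (0, y) * pd E₀ j i y) - ∫ y, dx j ψ (0, y) * pd E₀ i j y := fun j => by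
    simp only [cr_curl, mul_sub]
    exact integral_sub ((s.dx j).int0 (cP j i)) ((s.dx j).int0 (cP i j))
  have a4 : ∀ j, ∫ y, dx j ψ (0, y) * pd E₀ i j y = ∫ y, dx i ψ (0, y) * pd E₀ j j y := fun j => by
    have b1 := (s.dx j).ibp0 hi hE (pr j) i
    have b2 := (s.dx i).ibp0 hi hE (pr j) j
    rw [s.xx, b2] at b1
    exact (neg_injective b1).symm
  have a4' := add3 (μ := volume) (u := fun y => rho (f 0) y * dx i ψ (0, y))
    (g := fun j y => dx i ψ (0, y) * pd E₀ j j y) (fun j => (s.dx i).int0 (cP j j)) fun y => by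
      rw [h0, ← hD.div_E, dvg]
      ring
  have u0 : IntegrableOn (fun p => dx i (dt ψ) p * rho (f p.1) p.2) Hs := (s.dt.dx i).intH hi cρ
  have u1 : IntegrableOn (fun p => dt (dt ψ) p * cur (f p.1) p.2 i) Hs := s.dt.dt.intH hi (cJ' i)
  have u2 : ∀ j, IntegrableOn (fun p => dx j (dx j ψ) p * cur (f p.1) p.2 i) Hs := fun j =>
    ((s.dx j).dx j).intH hi (cJ' i)
  have u3 : ∀ j, IntegrableOn (fun p => dx i (dx j ψ) p * cur (f p.1) p.2 j) Hs := fun j =>
    ((s.dx j).dx i).intH hi (cJ' j)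
  have u4 : IntegrableOn (fun p => φ p * cur (f p.1) p.2 i) Hs := sφ.intH hi (cJ' i)
  have b1 : ∫ p in Hs, (src (dt ψ) f p).1 i = (∫ p in Hs, dx i (dt ψ) p * rho (f p.1) p.2) +
      ∫ p in Hs, dt (dt ψ) p * cur (f p.1) p.2 i := by
    rw [← integral_add u0 u1]
    refine integral_congr_ae (Eventually.of_forall fun p => ?_)
    simp [src, mul_comm]
  have b2 : ∀ j, ∫ p in Hs, cr i j (cross (cur (f p.1) p.2) (gx (dx j ψ) p)) =
      (∫ p in Hs, dx j (dx j ψ) p * cur (f p.1) p.2 i) -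
        ∫ p in Hs, dx i (dx j ψ) p * cur (f p.1) p.2 j := fun j => by
    simp only [cr_cross, gx_apply]
    exact integral_sub (u2 j) (u3 j)
  have b3 := add3 (μ := volume.restrict Hs)
    (u := fun p => dt (dt ψ) p * cur (f p.1) p.2 i - φ p * cur (f p.1) p.2 i) u2 fun p => by
      rw [← hF p, Fin.sum_univ_three]
      ring
  rw [integral_sub u1 u4] at b3
  have b4 := add3 (μ := volume.restrict Hs)
    (u := fun p => ⟪cur (f p.1) p.2, gx (dx i ψ) p⟫) u3 fun p => by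
      rw [inner_V3, gx_apply, gx_apply, gx_apply, s.xx 0, s.xx 1, s.xx 2]
      ring
  obtain ⟨T, R, hT, -⟩ := (s.dx i).2
  have b5 := hW (dx i ψ) T (s.dx i).c1 hT
  have u5 : IntegrableOn (fun p => ⟪cur (f p.1) p.2, gx (dx i ψ) p⟫) Hs := by
    refine (((u3 0).add (u3 1)).add (u3 2)).congr (Eventually.of_forall fun p => ?_)
    simp only [Pi.add_apply]
    rw [inner_V3, gx_apply, gx_apply, gx_apply, s.xx 0, s.xx 1, s.xx 2]
    ring
  simp only [s.tx, mul_comm (rho (f _) _) (dx i (dt ψ) _)] at b5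
  rw [integral_add u0 u5] at b5
  simp only [map_smul, smul_eq_mul, pr_apply] at h3 ⊢
  rw [PiLp.zero_apply]
  linarith [h2 0, h2 1, h2 2, a1' 0, a1' 1, a1' 2, a2 0, a2 1, a2 2, a3 0, a3 1, a3 2, a4 0, a4 1,
    a4 2, b2 0, b2 1, b2 2]

end Vale.Agent.P107
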