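import Vale.Agent.P107.Basic2

/-! Problem P107: the weak Faraday law for the field map. -/

open MeasureTheory Set Filter Topology
open scoped ENNReal RealInnerProductSpace ContDiff

noncomputable section
namespace Vale.Agent.P107

namespace M7cX

/-- smooth with the support condition -/
def G (ψ : ℝ × V3 → ℝ) : Prop := ContDiff ℝ ∞ ψ ∧ Cpt ψ

variable {ψ : ℝ × V3 → ℝ}

theorem G.dD (h : G ψ) (v : ℝ × V3) : G (dD v ψ) := ⟨contDiff_dD h.1 v, h.2.dD v⟩

theorem G.dt (h : G ψ) : G (dt ψ) := h.dD _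

theorem G.dx (h : G ψ) (j : Fin 3) : G (dx j ψ) := h.dD _

theorem G.comm (h : G ψ) (v v' : ℝ × V3) : P107.dD v (P107.dD v' ψ) = P107.dD v' (P107.dD v ψ) :=
  dD_comm (h.1.of_le (by norm_cast)) v v'

theorem G.xx (h : G ψ) (i j : Fin 3) : P107.dx i (P107.dx j ψ) = P107.dx j (P107.dx i ψ) :=
  h.comm _ _

theorem G.tx (h : G ψ) (j : Fin 3) : P107.dt (P107.dx j ψ) = P107.dx j (P107.dt ψ) := h.comm _ _

theorem G.slice (h : G ψ) : ContDiff ℝ 1 fun y : V3 => ψ (0, y) :=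
  (h.1.of_le (by norm_cast)).comp (contDiff_const.prodMk contDiff_id)

theorem G.int0 {X : Type} [NormedAddCommGroup X] [NormedSpace ℝ X] (h : G ψ) {b : V3 → X}
    (hb : Continuous b) : Integrable fun y => ψ (0, y) • b y :=
  (h.slice.continuous.smul hb).integrable_of_hasCompactSupport (h.2.slice le_rfl).smul_right

theorem G.ibp (hi : Ibp) (h : G ψ) {b : V3 → V3} (hb : ContDiff ℝ 1 b) (L : V3 →L[ℝ] V3)
    (j : Fin 3) :
    ∫ y, P107.dx j ψ (0, y) • L (b y) = -∫ y, ψ (0, y) • L (fderiv ℝ b y (ee j)) := by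
  have h1 := (hi V3).1 (fun y => ψ (0, y)) (fun y => L (b y)) (ee j) h.slice
    (L.contDiff.comp hb) (Or.inl (h.2.slice le_rfl))
  have h2 : ∀ y, fderiv ℝ (fun y => L (b y)) y (ee j) = L (fderiv ℝ b y (ee j)) := fun y => by
    have := (L.hasFDerivAt.comp y (hb.differentiable one_ne_zero y).hasFDerivAt).fderiv
    rw [show (fun y => L (b y)) = L ∘ b from rfl, this, ContinuousLinearMap.comp_apply]
  simp only [fderiv_slice (h.1.differentiable (by simp)), h2] at h1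
  exact h1

theorem cont_D {b : V3 → V3} (hb : ContDiff ℝ 1 b) (j : Fin 3) :
    Continuous fun y => fderiv ℝ b y (ee j) :=
  (hb.continuous_fderiv one_ne_zero).clm_apply continuous_const

theorem partE (hi : Ibp) (h : G ψ) {E : V3 → V3} (hE : ContDiff ℝ 1 E) :
    ∑ j, ∫ y, dx j ψ (0, y) • cross (ee j) (E y) = -∫ y, ψ (0, y) • curl E y := by
  have h1 : ∀ j, ∫ y, dx j ψ (0, y) • cross (ee j) (E y) =
      -∫ y, ψ (0, y) • cross (ee j) (fderiv ℝ E y (ee j)) := fun j =>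
    h.ibp hi hE (crossL (ee j)) j
  rw [Finset.sum_congr rfl fun j _ => h1 j, Finset.sum_neg_distrib,
    ← integral_finsetSum _ fun j _ => h.int0 (Continuous.cross' continuous_const (cont_D hE j))]
  simp only [curl_eq_sum, Finset.smul_sum]

/-- `x ↦ x j • ee k` -/
def LL' (j k : Fin 3) : V3 →L[ℝ] V3 := (EuclideanSpace.proj j : V3 →L[ℝ] ℝ).smulRight (ee k)

theorem LL'_apply (j k : Fin 3) (x : V3) : LL' j k x = x j • ee k := rfl

theorem cross_curl (B : V3 → V3) (y : V3) (j : Fin 3) :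
    cross (ee j) (curl B y) = ∑ k, LL' j k (fderiv ℝ B y (ee k)) - fderiv ℝ B y (ee j) := by
  rw [curl_eq_sum]
  simp only [LL'_apply, Fin.sum_univ_three]
  fin_cases j <;> apply V3_ext <;> simp [ee_apply] <;> ring

theorem partB (hi : Ibp) (h : G ψ) {B : V3 → V3} (hB : ContDiff ℝ 1 B) (hd : ∀ y, dvg B y = 0) :
    ∑ j, ∫ y, dx j ψ (0, y) • cross (ee j) (curl B y) =
      ∫ y, (∑ j, dx j (dx j ψ) (0, y)) • B y := by
  have i1 : ∀ i j k l, Integrable fun y => dx i ψ (0, y) • LL' j k (fderiv ℝ B y (ee l)) :=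
    fun i j k l => (h.dx i).int0 ((LL' j k).continuous.comp (cont_D hB l))
  have h1 : ∀ j, ∫ y, dx j ψ (0, y) • cross (ee j) (curl B y) =
      ∑ k, (∫ y, dx k ψ (0, y) • LL' j k (fderiv ℝ B y (ee j))) +
        ∫ y, dx j (dx j ψ) (0, y) • B y := fun j => by
    have a1 : ∫ y, dx j (dx j ψ) (0, y) • B y = -∫ y, dx j ψ (0, y) • fderiv ℝ B y (ee j) :=
      (h.dx j).ibp hi hB (ContinuousLinearMap.id ℝ V3) j
    have a2 : ∀ k, ∫ y, dx k ψ (0, y) • LL' j k (fderiv ℝ B y (ee j)) =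
        ∫ y, dx j ψ (0, y) • LL' j k (fderiv ℝ B y (ee k)) := fun k => by
      have b1 := (h.dx k).ibp hi hB (LL' j k) j
      have b2 := (h.dx j).ibp hi hB (LL' j k) k
      rw [h.xx j k, b2] at b1
      exact (neg_injective b1).symm
    rw [a1, Finset.sum_congr rfl fun k _ => a2 k, ← integral_finsetSum _ fun k _ => i1 j j k k,
      ← sub_eq_add_neg, ← integral_sub (integrable_finsetSum _ fun k _ => i1 j j k k)
        ((h.dx j).int0 (cont_D hB j))]
    simp only [cross_curl, smul_sub, Finset.smul_sum]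
  have h2 : ∀ k, ∑ j, ∫ y, dx k ψ (0, y) • LL' j k (fderiv ℝ B y (ee j)) = 0 := fun k => by
    rw [← integral_finsetSum _ fun j _ => i1 k j k j]
    simp only [LL'_apply, ← Finset.smul_sum, ← Finset.sum_smul, ← dvg_eq_sum, hd, zero_smul,
      smul_zero, integral_zero]
  rw [Finset.sum_congr rfl fun j _ => h1 j, Finset.sum_add_distrib, Finset.sum_comm,
    Finset.sum_eq_zero fun k _ => h2 k, zero_add,
    ← integral_finsetSum _ fun j _ => ((h.dx j).dx j).int0 hB.continuous]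
  simp only [Finset.sum_smul]

theorem int_src (hi : Ibp) (h : G ψ) {f : ℝ → Z → ℝ} (hf : Den f) :
    IntegrableOn (src ψ f) Hs := by
  have e : src ψ f = fun p =>
      ∑ j, dx j ψ p • ((rho (f p.1) p.2 • ee j, cross (cur (f p.1) p.2) (ee j)) : Z) +
        dt ψ p • ((cur (f p.1) p.2, 0) : Z) := by
    funext p
    rw [src, gx_eq_sum]
    simp only [Fin.sum_univ_three, cross_add_right, cross_smul_right, Prod.smul_mk, Prod.mk_add_mk,
      smul_add, smul_zero, add_zero, smul_comm (rho (f p.1) p.2)]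
  rw [e]
  have h1 := hf.crho
  have h2 := hf.ccur
  exact (integrable_finsetSum _ fun j _ => ((hi Z).2.1 _ _ (h.dx j).1.continuous (h.dx j).2
    (by fun_prop)).1).add ((hi Z).2.1 _ _ h.dt.1.continuous h.dt.2 (by fun_prop)).1

theorem partS (h : G ψ) (f : ℝ → Z → ℝ) (p : ℝ × V3) :
    (src (dt ψ) f p).2 + ∑ j, cross (ee j) (src (dx j ψ) f p).1 = 0 := by
  simp only [src, Fin.sum_univ_three, h.tx]
  apply V3_ext <;> simp [gx, ee_apply, h.xx 1 0, h.xx 2 0, h.xx 2 1] <;> ring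

theorem iK (hi : Ibp) {K : ℝ → V3 → Z} (hK : Reg K) {φ : ℝ × V3 → ℝ} (hφ : Test φ) :
    IntegrableOn (fun p => φ p • K p.1 p.2) Hs :=
  ((hi Z).2.1 _ _ hφ.smooth.continuous hφ.cpt hK.cont).1

theorem iL (hi : Ibp) {K : ℝ → V3 → Z} (hK : Reg K) {φ : ℝ × V3 → ℝ} (hφ : Test φ)
    (L : Z →L[ℝ] V3) : IntegrableOn (fun p => φ p • L (K p.1 p.2)) Hs := by
  simpa only [map_smul, IntegrableOn] using L.integrable_comp (iK hi hK hφ)

theorem key (hi : Ibp) {E₀ B₀ : V3 → V3} (h0 : Continuous (K0 E₀ B₀)) (h1 : Continuous (K1 E₀ B₀))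
    {f : ℝ → Z → ℝ} {K : ℝ → V3 → Z} (hden : Den f) (hK : Reg K) (hP : Pair E₀ B₀ f K)
    {φ : ℝ × V3 → ℝ} (hφ : Test φ) (hG : G ψ) (e : ψ = adv φ) (L : Z →L[ℝ] V3) :
    ∫ p in Hs, φ p • L (K p.1 p.2) =
      -(∫ y, dt ψ (0, y) • L (K0 E₀ B₀ y)) + (∫ y, ψ (0, y) • L (K1 E₀ B₀ y)) +
        ∫ p in Hs, L (src ψ f p) := by
  have := congrArg L (hP _ hφ)
  rw [← e, map_add, map_add, map_neg, ← L.integral_comp_comm (iK hi hK hφ),
    ← L.integral_comp_comm (hG.dt.int0 h0), ← L.integral_comp_comm (hG.int0 h1),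
    ← L.integral_comp_comm (int_src hi hG hden)] at this
  simpa only [map_smul] using this

/-- second component -/
def L0 : Z →L[ℝ] V3 := ContinuousLinearMap.snd ℝ V3 V3

/-- cross product with the first component -/
def L1 (j : Fin 3) : Z →L[ℝ] V3 := (crossL (ee j)).comp (ContinuousLinearMap.fst ℝ V3 V3)

theorem L0_apply (k : Z) : L0 k = k.2 := rfl

theorem L1_apply (j : Fin 3) (k : Z) : L1 j k = cross (ee j) k.1 := rfl

theorem split (hi : Ibp) {K : ℝ → V3 → Z} (hK : Reg K) {φ : ℝ × V3 → ℝ} (hφ : Test φ) :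
    ∫ p in Hs, (dt φ p • (K p.1 p.2).2 + cross (gx φ p) (K p.1 p.2).1) =
      (∫ p in Hs, dt φ p • L0 (K p.1 p.2)) + ∑ j, ∫ p in Hs, dx j φ p • L1 j (K p.1 p.2) := by
  have h0 : IntegrableOn (fun p => dt φ p • L0 (K p.1 p.2)) Hs := iL hi hK (hφ.dD _) _
  have h1 : ∀ j, IntegrableOn (fun p => dx j φ p • L1 j (K p.1 p.2)) Hs := fun j =>
    iL hi hK (hφ.dD _) _
  rw [← integral_finsetSum _ fun j _ => h1 j,
    ← integral_add h0 (integrable_finsetSum _ fun j _ => h1 j)]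
  simp only [gx_eq_sum, Fin.sum_univ_three, cross_add_left, cross_smul_left, L0_apply, L1_apply]

theorem srcs (hi : Ibp) (hG : G ψ) {f : ℝ → Z → ℝ} (hden : Den f) :
    (∫ p in Hs, L0 (src (dt ψ) f p)) + ∑ j, ∫ p in Hs, L1 j (src (dx j ψ) f p) = 0 := by
  have s0 := L0.integrable_comp (int_src hi hG.dt hden)
  have sj := fun j => (L1 j).integrable_comp (int_src hi (hG.dx j) hden)
  rw [← integral_finsetSum _ fun j _ => sj j,
    ← integral_add s0 (integrable_finsetSum _ fun j _ => sj j)]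
  simp only [L0_apply, L1_apply, partS hG, integral_zero]

end M7cX

open M7cX in
theorem m7c (hi : Ibp) (hd : DatP) (ha : AdvP) (hf : Fund) : M7c := by
  intro f₀ E₀ B₀ hD f K _ hden hK hP φ hφ
  obtain ⟨h0, h1, -⟩ := hd f₀ E₀ B₀ hD
  obtain ⟨a1, a2, a3⟩ := ha φ hφ
  have hG : G (adv φ) := ⟨a1, a2⟩
  have hE : ContDiff ℝ 1 E₀ := hD.E_smooth.of_le (by norm_cast)
  have hB : ContDiff ℝ 1 B₀ := hD.B_smooth.of_le (by norm_cast)
  have k0 := key hi h0.continuous h1.continuous hden hK hP (φ := dt φ) (hφ.dD _) hG.dt (a3 _) L0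
  have kj := fun j => key hi h0.continuous h1.continuous hden hK hP (φ := dx j φ) (hφ.dD _)
    (hG.dx j) (a3 _) (L1 j)
  have e2 := srcs hi hG hden
  have e3 : ∀ y, dt (dt (adv φ)) (0, y) = ∑ j, dx j (dx j (adv φ)) (0, y) := fun y =>
    sub_eq_zero.1 ((hf φ hφ (0, y)).trans (hφ.zero_of_nonpos le_rfl))
  have e4 := partB hi hG hB hD.div_B
  have e5 := partE hi hG.dt hE
  rw [split hi hK hφ, k0, Finset.sum_congr rfl fun j _ => kj j, Finset.sum_add_distrib,
    Finset.sum_add_distrib, Finset.sum_neg_distrib]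
  generalize (∫ p in Hs, L0 (src (dt (adv φ)) f p)) = a at e2 ⊢
  generalize (∑ j, ∫ p in Hs, L1 j (src (dx j (adv φ)) f p)) = b at e2 ⊢
  simp only [L0_apply, L1_apply, K0, K1, hG.tx, e3, smul_neg, integral_neg]
  rw [e4, e5, ← e2]
  abel

end Vale.Agent.P107
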