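import Vale.Agent.P107.Basic2

/-! Problem P107, part II: from the weak to the pointwise Maxwell equations. -/

open MeasureTheory Set Filter Topology Real
open scoped ENNReal RealInnerProductSpace ContDiff

noncomputable section
namespace Vale.Agent.P107

namespace M8X

/-- first order operator with constant coefficients applied to the field -/
def DL {X : Type} [NormedAddCommGroup X] [NormedSpace ℝ X] (L : Fin 3 → Z →L[ℝ] X)
    (K : ℝ → V3 → Z) (p : ℝ × V3) : X :=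
  ∑ j, L j (fderiv ℝ (K p.1) p.2 (ee j))

theorem cont_DL {X : Type} [NormedAddCommGroup X] [NormedSpace ℝ X] (hc : ContD)
    (L : Fin 3 → Z →L[ℝ] X) {K : ℝ → V3 → Z} (hK : Reg K) : Continuous (DL L K) :=
  continuous_finsetSum _ fun j _ =>
    (L j).continuous.comp ((hK.continuous_fderiv hc).clm_apply continuous_const)

theorem fderiv_clm {X : Type} [NormedAddCommGroup X] [NormedSpace ℝ X] (L : Z →L[ℝ] X)
    {K : ℝ → V3 → Z} (hK : Reg K) (t : ℝ) (y : V3) :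
    fderiv ℝ (fun y => L (K t y)) y = L.comp (fderiv ℝ (K t) y) :=
  (L.hasFDerivAt.comp y (hK.diff t y).hasFDerivAt).fderiv

theorem test_c1 {φ : ℝ × V3 → ℝ} (h : Test φ) : ContDiff ℝ 1 φ := h.smooth.of_le (by simp)

theorem intOn {X : Type} [NormedAddCommGroup X] [NormedSpace ℝ X] [CompleteSpace X] (hi : Ibp)
    {φ : ℝ × V3 → ℝ} (hφ : Test φ) {h : ℝ × V3 → X} (hh : Continuous h) :
    IntegrableOn (fun p => φ p • h p) Hs :=
  ((hi X).2.1 φ h hφ.smooth.continuous hφ.cpt hh).1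

/-- moving the spatial derivatives from the test function to the field -/
theorem move {X : Type} [NormedAddCommGroup X] [NormedSpace ℝ X] [CompleteSpace X] (hc : ContD)
    (hi : Ibp) (L : Fin 3 → Z →L[ℝ] X) {K : ℝ → V3 → Z} (hK : Reg K) {φ : ℝ × V3 → ℝ}
    (hφ : Test φ) :
    IntegrableOn (fun p : ℝ × V3 => ∑ j, dx j φ p • L j (K p.1 p.2)) Hs ∧
    ∫ p in Hs, ∑ j, dx j φ p • L j (K p.1 p.2) = -∫ p in Hs, φ p • DL L K p := by
  have h1 : ∀ j, IntegrableOn (fun p : ℝ × V3 => dx j φ p • L j (K p.1 p.2)) Hs := fun j =>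
    intOn hi (hφ.dD _) ((L j).continuous.comp hK.cont)
  have h2 : ∀ j, IntegrableOn
      (fun p : ℝ × V3 => φ p • L j (fderiv ℝ (K p.1) p.2 (ee j))) Hs := fun j =>
    intOn hi hφ ((L j).continuous.comp ((hK.continuous_fderiv hc).clm_apply continuous_const))
  have h3 : ∀ j, ∫ p in Hs, dx j φ p • L j (K p.1 p.2) =
      -∫ p in Hs, φ p • L j (fderiv ℝ (K p.1) p.2 (ee j)) := by
    intro j
    have hd : ∀ t, Differentiable ℝ (fun y => L j (K t y)) := fun t =>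
      (L j).differentiable.comp (hK.diff t)
    have hf : Continuous (fun p : ℝ × V3 => fderiv ℝ (fun y => L j (K p.1 y)) p.2) := by
      simp only [fderiv_clm (L j) hK]
      exact continuous_const.clm_comp (hK.continuous_fderiv hc)
    have := (hi X).2.2.1 φ (fun t y => L j (K t y)) j (test_c1 hφ) hφ.cpt
      ((L j).continuous.comp hK.cont) hd hf
    simpa only [fderiv_clm (L j) hK, ContinuousLinearMap.comp_apply] using this
  refine ⟨integrable_finsetSum _ fun j _ => h1 j, ?_⟩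
  rw [integral_finsetSum _ fun j _ => h1 j]
  simp only [h3, DL, Finset.smul_sum]
  rw [integral_finsetSum _ fun j _ => h2 j, Finset.sum_neg_distrib]

/-- coefficients of the divergence -/
def Ld (P : Z →L[ℝ] V3) (j : Fin 3) : Z →L[ℝ] ℝ := (innerSL ℝ (ee j)).comp P

/-- coefficients of the curl -/
def Lc (P : Z →L[ℝ] V3) (j : Fin 3) : Z →L[ℝ] V3 := (crossL (ee j)).comp P

theorem Ld_apply (P : Z →L[ℝ] V3) (j : Fin 3) (k : Z) : Ld P j k = P k j := by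
  simp [Ld, inner_ee]

theorem Lc_apply (P : Z →L[ℝ] V3) (j : Fin 3) (k : Z) : Lc P j k = cross (ee j) (P k) := rfl

theorem DL_d (P : Z →L[ℝ] V3) {K : ℝ → V3 → Z} (hK : Reg K) (p : ℝ × V3) :
    DL (Ld P) K p = dvg (fun y => P (K p.1 y)) p.2 := by
  rw [dvg_eq_sum, fderiv_clm P hK]
  simp only [DL, Ld_apply, ContinuousLinearMap.comp_apply]

theorem DL_c (P : Z →L[ℝ] V3) {K : ℝ → V3 → Z} (hK : Reg K) (p : ℝ × V3) :
    DL (Lc P) K p = curl (fun y => P (K p.1 y)) p.2 := by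
  rw [curl_eq_sum, fderiv_clm P hK]
  simp only [DL, Lc_apply, ContinuousLinearMap.comp_apply]

theorem sum_d (P : Z →L[ℝ] V3) (φ : ℝ × V3 → ℝ) (p : ℝ × V3) (k : Z) :
    ∑ j, dx j φ p • Ld P j k = ⟪gx φ p, P k⟫ := by
  simp only [Ld_apply, inner_V3, Fin.sum_univ_three, gx_apply, smul_eq_mul]

theorem sum_c (P : Z →L[ℝ] V3) (φ : ℝ × V3 → ℝ) (p : ℝ × V3) (k : Z) :
    ∑ j, dx j φ p • Lc P j k = cross (gx φ p) (P k) := by
  rw [gx_eq_sum]
  simp only [Lc_apply, Fin.sum_univ_three, cross_add_left, cross_smul_left]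

theorem move_d (hc : ContD) (hi : Ibp) (P : Z →L[ℝ] V3) {K : ℝ → V3 → Z} (hK : Reg K)
    {φ : ℝ × V3 → ℝ} (hφ : Test φ) :
    IntegrableOn (fun p : ℝ × V3 => ⟪gx φ p, P (K p.1 p.2)⟫) Hs ∧
    ∫ p in Hs, ⟪gx φ p, P (K p.1 p.2)⟫ =
      -∫ p in Hs, φ p • dvg (fun y => P (K p.1 y)) p.2 := by
  simpa only [sum_d, DL_d P hK] using move hc hi (Ld P) hK hφ

theorem move_c (hc : ContD) (hi : Ibp) (P : Z →L[ℝ] V3) {K : ℝ → V3 → Z} (hK : Reg K)
    {φ : ℝ × V3 → ℝ} (hφ : Test φ) :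
    IntegrableOn (fun p : ℝ × V3 => cross (gx φ p) (P (K p.1 p.2))) Hs ∧
    ∫ p in Hs, cross (gx φ p) (P (K p.1 p.2)) =
      -∫ p in Hs, φ p • curl (fun y => P (K p.1 y)) p.2 := by
  simpa only [sum_c, DL_c P hK] using move hc hi (Lc P) hK hφ

theorem cont_d (hc : ContD) (P : Z →L[ℝ] V3) {K : ℝ → V3 → Z} (hK : Reg K) :
    Continuous (fun p : ℝ × V3 => dvg (fun y => P (K p.1 y)) p.2) := by
  simpa only [← DL_d P hK] using cont_DL hc (Ld P) hK

theorem cont_c (hc : ContD) (P : Z →L[ℝ] V3) {K : ℝ → V3 → Z} (hK : Reg K) :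
    Continuous (fun p : ℝ × V3 => curl (fun y => P (K p.1 y)) p.2) := by
  simpa only [← DL_c P hK] using cont_DL hc (Lc P) hK

end M8X

open M8X

theorem m8 (hc : ContD) (hj : JC1) (hi : Ibp) (hw : WT) : M8 := by
  intro f K hD hK hW
  set P1 : Z →L[ℝ] V3 := ContinuousLinearMap.fst ℝ V3 V3 with hP1
  set P2 : Z →L[ℝ] V3 := ContinuousLinearMap.snd ℝ V3 V3 with hP2
  have d1 : Continuous (fun p : ℝ × V3 => dvg (fun y => (K p.1 y).1) p.2) := cont_d hc P1 hK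
  have d2 : Continuous (fun p : ℝ × V3 => dvg (fun y => (K p.1 y).2) p.2) := cont_d hc P2 hK
  have c1 : Continuous (fun p : ℝ × V3 => curl (fun y => (K p.1 y).1) p.2) := cont_c hc P1 hK
  have c2 : Continuous (fun p : ℝ × V3 => curl (fun y => (K p.1 y).2) p.2) := cont_c hc P2 hK
  have hG : Continuous (fun p : ℝ × V3 => MG f K p.1 p.2) := (c2.sub hD.ccur).prodMk c1.neg
  have hgE : ∀ t, 0 ≤ t → ∀ x, dvg (fun y => (K t y).1) x = rho (f t) x := by
    intro t ht x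
    have := (hw ℝ).1 (fun p => rho (f p.1) p.2 - dvg (fun y => (K p.1 y).1) p.2)
      (hD.crho.sub d1) (fun φ hφ => ?_) (t, x) ht
    · exact (sub_eq_zero.1 this).symm
    obtain ⟨a1, a2⟩ : IntegrableOn (fun p : ℝ × V3 => ⟪gx φ p, (K p.1 p.2).1⟫) Hs volume ∧
        ∫ p in Hs, ⟪gx φ p, (K p.1 p.2).1⟫ =
          -∫ p in Hs, φ p • dvg (fun y => (K p.1 y).1) p.2 := move_d hc hi P1 hK hφ
    have a3 := intOn hi hφ hD.crho
    have a4 := intOn hi hφ d1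
    have a5 := hW.gE φ hφ
    simp only [smul_eq_mul] at a2 a3 a4 ⊢
    rw [integral_add a1 a3, a2] at a5
    simp only [mul_sub]
    rw [integral_sub a3 a4]
    linarith
  have hgB : ∀ t, 0 ≤ t → ∀ x, dvg (fun y => (K t y).2) x = 0 := by
    intro t ht x
    refine (hw ℝ).1 (fun p => dvg (fun y => (K p.1 y).2) p.2) d2 (fun φ hφ => ?_) (t, x) ht
    obtain ⟨-, a2⟩ : IntegrableOn (fun p : ℝ × V3 => ⟪gx φ p, (K p.1 p.2).2⟫) Hs volume ∧
        ∫ p in Hs, ⟪gx φ p, (K p.1 p.2).2⟫ =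
          -∫ p in Hs, φ p • dvg (fun y => (K p.1 y).2) p.2 := move_d hc hi P2 hK hφ
    rw [hW.gB φ hφ] at a2
    exact neg_eq_zero.1 a2.symm
  have tE : ∀ t, 0 ≤ t → ∀ x, (K t x).1 = (K 0 x).1 + ∫ σ in (0 : ℝ)..t, (MG f K σ x).1 := by
    refine (hw V3).2 (fun p => (K p.1 p.2).1) (fun p => (MG f K p.1 p.2).1) hK.cont.fst hG.fst
      fun φ hφ => ?_
    obtain ⟨a1, a2⟩ : IntegrableOn (fun p : ℝ × V3 => cross (gx φ p) (K p.1 p.2).2) Hs volume ∧
        ∫ p in Hs, cross (gx φ p) (K p.1 p.2).2 =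
          -∫ p in Hs, φ p • curl (fun y => (K p.1 y).2) p.2 := move_c hc hi P2 hK hφ
    have a3 := intOn hi hφ hD.ccur
    have a4 := intOn hi hφ c2
    have a6 : IntegrableOn (fun p : ℝ × V3 => dt φ p • (K p.1 p.2).1) Hs :=
      intOn hi (hφ.dD _) hK.cont.fst
    have a5 := hW.amp φ hφ
    have a7 : IntegrableOn (fun p : ℝ × V3 => dt φ p • (K p.1 p.2).1
        - cross (gx φ p) (K p.1 p.2).2) Hs := a6.sub a1
    have a8 : IntegrableOn (fun p : ℝ × V3 => φ p • curl (fun y => (K p.1 y).2) p.2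
        - φ p • cur (f p.1) p.2) Hs := a4.sub a3
    rw [integral_sub a7 a3, integral_sub a6 a1, a2] at a5
    simp only [MG, smul_sub]
    rw [integral_add a6 a8, integral_sub a4 a3, ← a5]
    abel
  have tB : ∀ t, 0 ≤ t → ∀ x, (K t x).2 = (K 0 x).2 + ∫ σ in (0 : ℝ)..t, (MG f K σ x).2 := by
    refine (hw V3).2 (fun p => (K p.1 p.2).2) (fun p => (MG f K p.1 p.2).2) hK.cont.snd hG.snd
      fun φ hφ => ?_
    obtain ⟨a1, a2⟩ : IntegrableOn (fun p : ℝ × V3 => cross (gx φ p) (K p.1 p.2).1) Hs volume ∧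
        ∫ p in Hs, cross (gx φ p) (K p.1 p.2).1 =
          -∫ p in Hs, φ p • curl (fun y => (K p.1 y).1) p.2 := move_c hc hi P1 hK hφ
    have a4 := intOn hi hφ c1
    have a6 : IntegrableOn (fun p : ℝ × V3 => dt φ p • (K p.1 p.2).2) Hs :=
      intOn hi (hφ.dD _) hK.cont.snd
    have a5 := hW.far φ hφ
    rw [integral_add a6 a1, a2] at a5
    simp only [MG, smul_neg]
    have a8 : IntegrableOn (fun p : ℝ × V3 => -(φ p • curl (fun y => (K p.1 y).1) p.2)) Hs :=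
      a4.neg
    rw [integral_add a6 a8, integral_neg, ← a5]
  have ht : ∀ t, 0 ≤ t → ∀ x, K t x = K 0 x + ∫ σ in (0 : ℝ)..t, MG f K σ x := by
    intro t ht x
    have hI : IntervalIntegrable (fun σ => MG f K σ x) volume 0 t :=
      (hG.comp (continuous_id.prodMk continuous_const)).intervalIntegrable _ _
    refine Prod.ext ?_ ?_
    · rw [tE t ht x, Prod.fst_add]
      exact congrArg _ (P1.intervalIntegral_comp_comm hI)
    · rw [tB t ht x, Prod.snd_add]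
      exact congrArg _ (P2.intervalIntegral_comp_comm hI)
  obtain ⟨e1, e2⟩ := (hj V3 Z K (MG f K) hG hK.diff (hK.continuous_fderiv hc)).2 ht
  exact ⟨hgE, hgB, hG, ht, e1, e2⟩

theorem pairS (hi : Ibp) (hh : HDr) (h1 : O1) (hH : HP) (hD : DP) (hG : GP) : PairS := by
  intro f₀ E₀ B₀ hd F hF φ hφ
  obtain ⟨k1, r1, -, k2⟩ := hh f₀ E₀ B₀ hd
  obtain ⟨k3, -, -⟩ := k2 F hF
  have a1 := intOn hi hφ r1.cont
  have a2 := intOn hi hφ (h1 Z _ k1).1.cont
  have a3 := intOn hi hφ (h1 Z _ k3).1.cont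
  have e : ∀ p : ℝ × V3, φ p • TT f₀ E₀ B₀ F p.1 p.2 = φ p • Hom E₀ B₀ p.1 p.2
      + om⁻¹ • φ p • RR (GD f₀) p.1 p.2 + om⁻¹ • φ p • RR (Gs (ff f₀ F) F) p.1 p.2 := by
    intro p
    simp only [TT, HD, smul_add, smul_comm (φ p) om⁻¹]
  have b2 : IntegrableOn (fun p : ℝ × V3 => om⁻¹ • φ p • RR (GD f₀) p.1 p.2) Hs :=
    a2.smul om⁻¹
  have b3 : IntegrableOn (fun p : ℝ × V3 => om⁻¹ • φ p • RR (Gs (ff f₀ F) F) p.1 p.2) Hs :=
    a3.smul om⁻¹
  have b1 : IntegrableOn (fun p : ℝ × V3 => φ p • Hom E₀ B₀ p.1 p.2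
      + om⁻¹ • φ p • RR (GD f₀) p.1 p.2) Hs := a1.add b2
  simp only [e]
  rw [integral_add b1 b3, integral_add a1 b2, integral_smul, integral_smul,
    hH f₀ E₀ B₀ hd φ hφ, hD f₀ E₀ B₀ hd φ hφ, hG f₀ E₀ B₀ hd F hF φ hφ]
  abel

theorem maxS (hd : DenS) (hl : VlS) (hh : HDr) (hp : PairS) (hw : WCS) (ha : M7a) (hb : M7b)
    (hc : M7c) (h8 : M8) : MaxS := by
  intro f₀ E₀ B₀ h F hF
  have hv := (hl f₀ E₀ B₀ h F hF).1
  have hden := (hd _ hv.reg hv.spa).1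
  have hK := ((hh f₀ E₀ B₀ h).2.2.2 F hF).2.1
  have hP := hp f₀ E₀ B₀ h F hF
  have hW := hw f₀ E₀ B₀ h F hF
  obtain ⟨g1, g2⟩ := ha f₀ E₀ B₀ h _ _ hv.init hden hK hP hW
  exact h8 _ _ hden hK ⟨g1, g2, hb f₀ E₀ B₀ h _ _ hv.init hden hK hP hW,
    hc f₀ E₀ B₀ h _ _ hv.init hden hK hP⟩

end Vale.Agent.P107
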