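import Vale.Agent.P107.Basic

/-! Problem P107, part I: doubling time and the momentum bound. -/

open MeasureTheory Set Filter Topology
open scoped ENNReal RealInnerProductSpace

noncomputable section
namespace Vale.Agent.P107
namespace MBX

theorem big_ev (Θ : ℝ) (hΘ : 0 < Θ) : ∃ k₀ : ℕ, ∀ k, k₀ ≤ k → Big Θ k := by
  have h1 := (tendsto_pow_const_div_const_pow_of_one_lt 48 (one_lt_two (α := ℝ))).comp
    (tendsto_add_atTop_nat 3)
  have h2 : (0 : ℝ) < 1 / (8 * Θ ^ 12) := by positivity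
  obtain ⟨k₀, hk⟩ := eventually_atTop.1 (h1.eventually (ge_mem_nhds h2))
  refine ⟨k₀, fun k hk' => ?_⟩
  have h3 := hk k hk'
  simp only [Function.comp_apply] at h3
  rw [div_le_div_iff₀ (by positivity) (by positivity), pow_add] at h3
  unfold Big LL
  push_cast at h3
  have h4 : (Θ * ((k : ℝ) + 3) ^ 4) ^ 12 = ((k : ℝ) + 3) ^ 48 * Θ ^ 12 := by ring
  rw [h4]
  linarith

theorem lip {Γ : PS} {T Λ N : ℝ} (h : Γ.Good T Λ N) (z : Z) {a b : ℝ} (ha : 0 ≤ a) (hab : a ≤ b)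
    (hb : b ≤ T) : ‖Γ.V b z - Γ.V a z‖ ≤ 2 * N * (b - a) := by
  refine norm_image_sub_le_of_norm_deriv_le_segment' (f := fun t => Γ.V t z)
    (f' := fun σ => frc (Γ.V σ z) (Γ.K σ (Γ.Y σ z))) (a := a) (b := b)
    (fun x _ => (h.dV x z).hasDerivWithinAt) (fun x hx => ?_) b ⟨hab, le_rfl⟩
  refine (norm_frc_le _ _).trans ?_
  linarith [h.bK x ⟨ha.trans hx.1, hx.2.le.trans hb⟩ (Γ.Y x z)]

theorem piece {A w τ L P : ℝ} (hA : 1 ≤ A) (hL : 3 ≤ L) (hw : 1000 * A * L ^ 4 ≤ w)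
    (hP : w ^ 6 = P) (hτ : 0 < τ) (h1 : τ ≤ (cc A / L) ^ 2) :
    A * (P * √τ + τ * P ^ 2 * L / (cc A * w ^ 6) + L ^ 2 * w ^ 2) ≤ 3 * P / (1000 * L) := by
  have hc : 0 < cc A := by unfold cc; positivity
  have hAc : A * cc A = 1 / 1000 := by unfold cc; field_simp
  have hL0 : 0 < L := by linarith
  have hL1 : 1 ≤ L := by linarith
  have hw1 : 1 ≤ w := le_trans (by nlinarith [one_le_pow₀ (n := 4) hL1]) hw
  have hP0 : 0 < P := by rw [← hP]; positivity
  have h2 : √τ ≤ cc A / L := by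
    rw [Real.sqrt_le_left (by positivity)]
    exact h1
  have h3 : A * (P * √τ) ≤ P / (1000 * L) := by
    refine (mul_le_mul_of_nonneg_left (mul_le_mul_of_nonneg_left h2 hP0.le) (by linarith)).trans
      (le_of_eq ?_)
    field_simp
    linarith
  have h4 : A * (τ * P ^ 2 * L / (cc A * w ^ 6)) ≤ P / (1000 * L) := by
    rw [hP]
    have h5 : τ * P ^ 2 * L / (cc A * P) ≤ (cc A / L) ^ 2 * P ^ 2 * L / (cc A * P) := by gcongr
    refine (mul_le_mul_of_nonneg_left h5 (by linarith)).trans (le_of_eq ?_)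
    field_simp
    linarith
  have h5 : A * (L ^ 2 * w ^ 2) ≤ P / (1000 * L) := by
    rw [le_div_iff₀ (by positivity), ← hP]
    have h6 : 1000 * A * L ^ 3 ≤ w := by
      refine le_trans ?_ hw
      have h7 : L ^ 3 ≤ L ^ 4 := pow_le_pow_right₀ hL1 (by norm_num)
      gcongr
    have h7 : w ^ 3 ≤ w ^ 6 := pow_le_pow_right₀ hw1 (by norm_num)
    have h8 := mul_le_mul_of_nonneg_right h6 (sq_nonneg w)
    linarith
  have h6 : 3 * P / (1000 * L) = P / (1000 * L) + P / (1000 * L) + P / (1000 * L) := by ring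
  linarith

theorem improve {Γ : PS} {T Λ N A t t' : ℝ} {K : ℕ} (h : Γ.Good T Λ N) (hA : 1 ≤ A)
    (hbig : Big (1000 * A) K) (ht : 0 ≤ t) (h0 : Γ.Bd t (2 ^ K / 2)) (h1 : Γ.Bd t' (2 ^ K))
    (hH : ∀ ℓ, Γ.Hyp t' A K ℓ) (hl : t' ≤ t + cc A ^ 2 / LL K) : Γ.Bd t' (3 * 2 ^ K / 4) := by
  intro z hz s hs
  have hP : (0 : ℝ) < 2 ^ K := by positivity
  by_contra hq
  push Not at hq
  have hts : t < s := by
    by_contra h2
    push Not at h2
    linarith [h0 z hz s ⟨hs.1, h2⟩]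
  have hcq : Continuous fun σ => q (Γ.V σ z) :=
    continuous_iff_continuousAt.2 fun σ => (hasDerivAt_q (h.dV σ z)).continuousAt
  obtain ⟨s₁, ⟨hs₁, hq₁⟩, hmax⟩ := (isCompact_Icc (a := t) (b := s)).inter_right
    (isClosed_le hcq (continuous_const (y := (2 : ℝ) ^ K / 2))) |>.exists_isGreatest
    ⟨t, ⟨le_rfl, hts.le⟩, h0 z hz t ⟨ht, le_rfl⟩⟩
  have hq₁' : q (Γ.V s₁ z) ≤ 2 ^ K / 2 := hq₁
  have hlt : s₁ < s := by
    refine lt_of_le_of_ne hs₁.2 fun e => ?_
    rw [e] at hq₁'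
    linarith
  have hlow : ∀ σ ∈ Icc s₁ s, 2 ^ K / 2 ≤ q (Γ.V σ z) := by
    have h2 : Ioc s₁ s ⊆ {σ | 2 ^ K / 2 ≤ q (Γ.V σ z)} := by
      intro σ hσ
      by_contra h3
      have h4 : q (Γ.V σ z) ≤ 2 ^ K / 2 := (not_le.1 h3).le
      exact absurd (hmax ⟨⟨hs₁.1.trans hσ.1.le, hσ.2⟩, h4⟩) (not_le.2 hσ.1)
    have h3 := (isClosed_le continuous_const hcq).closure_subset_iff.2 h2
    rw [closure_Ioc hlt.ne] at h3
    exact h3
  obtain ⟨w, hw0, hw⟩ : ∃ w : ℝ, 0 < w ∧ w ^ 6 = 2 ^ K :=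
    ⟨((2 : ℝ) ^ K) ^ ((6 : ℕ) : ℝ)⁻¹, by positivity, Real.rpow_inv_natCast_pow hP.le (by norm_num)⟩
  have hL := three_le_LL K
  have hc : 0 < cc A := by unfold cc; positivity
  set τ := (s - s₁) / LL K with hτ
  have hτ0 : 0 < τ := div_pos (by linarith) (by linarith)
  have hτ1 : τ ≤ (cc A / LL K) ^ 2 := by
    rw [hτ, div_pow, sq (LL K), ← div_div]
    gcongr
    linarith [hs.2, hs₁.1]
  have hscl : Scl (cc A) K w τ := by
    refine ⟨hw0, ?_, hw.le, hτ0, hτ1, hτ1.trans ?_⟩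
    · have h2 : w ^ 12 = (w ^ 6) ^ 2 := by ring
      rw [h2, hw]
      nlinarith [one_le_pow₀ (n := K) (one_le_two (α := ℝ))]
    · rw [hw, mul_div_assoc, div_self hP.ne', mul_one]
      gcongr
      exact div_le_self hc.le (by linarith)
  have hpc := piece hA hL (hscl.le_w hbig) hw hτ0 hτ1
  have hs10 : 0 ≤ s₁ := ht.trans hs₁.1
  have hLτ : LL K * τ = s - s₁ := by
    rw [hτ]
    field_simp
  have key : ∀ j : ℕ, (j : ℝ) ≤ LL K →
      ‖Γ.V (s₁ + j * τ) z - Γ.V s₁ z‖ ≤ j * (3 * 2 ^ K / (1000 * LL K)) := by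
    intro j
    induction j with
    | zero => intro _; simp
    | succ j ih =>
      intro hj
      push_cast at hj ⊢
      have h2 := ih (by linarith)
      have h3 : s₁ + j * τ + τ ≤ s := by nlinarith
      have h4 : (0 : ℝ) ≤ j * τ := by positivity
      have h5 := hH τ z hz (s₁ + j * τ) τ w (by linarith) (h3.trans hs.2) le_rfl hscl (by
        intro σ hσ
        rw [hw]
        refine ⟨hlow σ ⟨by linarith [hσ.1], hσ.2.trans h3⟩, ?_⟩
        linarith [h1 z hz σ ⟨by linarith [hσ.1], hσ.2.trans (h3.trans hs.2)⟩])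
      have h6 : s₁ + (j + 1) * τ = s₁ + j * τ + τ := by ring
      have h7 := norm_sub_le_norm_sub_add_norm_sub (Γ.V (s₁ + j * τ + τ) z) (Γ.V (s₁ + j * τ) z)
        (Γ.V s₁ z)
      rw [h6]
      unfold yy at h5
      linarith
  have h2 := key (K + 3) (by unfold LL; push_cast; exact le_rfl)
  have h3 : ((K + 3 : ℕ) : ℝ) = LL K := by unfold LL; push_cast; rfl
  rw [h3, hLτ, add_sub_cancel] at h2
  have h4 : LL K * (3 * 2 ^ K / (1000 * LL K)) = 3 * 2 ^ K / 1000 := by field_simp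
  have h5 := (le_abs_self _).trans (abs_q_sub_le (Γ.V s z) (Γ.V s₁ z))
  linarith

theorem extend {Γ : PS} {T Λ N t t' P : ℝ} (h : Γ.Good T Λ N) (ht : 0 ≤ t) (hP : 0 < P)
    (h1 : Γ.Bd t (3 * P / 4)) (hT : t' ≤ T) (hl : t' ≤ t + P / (8 * N + 1)) : Γ.Bd t' P := by
  intro z hz s hs
  rcases le_total s t with h2 | h2
  · linarith [h1 z hz s ⟨hs.1, h2⟩]
  have h3 := lip h z ht h2 (hs.2.trans hT)
  have h4 := (le_abs_self _).trans (abs_q_sub_le (Γ.V s z) (Γ.V t z))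
  have h5 := h1 z hz t ⟨ht, le_rfl⟩
  have hN := h.hN
  have h6 : 2 * N * (s - t) ≤ 2 * N * (P / (8 * N + 1)) := by
    gcongr
    linarith [hs.2]
  have h7 : 2 * N * (P / (8 * N + 1)) ≤ P / 4 := by
    rw [← mul_div_assoc, div_le_div_iff₀ (by positivity) (by norm_num)]
    nlinarith
  linarith

theorem min_step (T a b : ℝ) (hb : 0 ≤ b) : min T (a + b) ≤ min T (min T a + b) := by
  rcases le_total T a with h | h
  · rw [min_eq_left h, min_eq_left (by linarith : T ≤ T + b)]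
    exact min_le_left _ _
  · rw [min_eq_right h]

end MBX

open MBX

theorem dbl (h : HStep) : Dbl := by
  intro Λ
  obtain ⟨A, hA, hH⟩ := h Λ
  obtain ⟨k₀, hk₀⟩ := big_ev (1000 * A) (by positivity)
  have hc : 0 < cc A := by unfold cc; positivity
  refine ⟨cc A ^ 2, by positivity, k₀, fun Γ T N t k hG hk ht htT hB => ?_⟩
  have hbig := hk₀ (k + 1) (by omega)
  have hP : (0 : ℝ) < 2 ^ (k + 1) := by positivity
  have h0 : Γ.Bd t (2 ^ (k + 1) / 2) := by
    rw [pow_succ, mul_div_assoc, div_self two_ne_zero, mul_one]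
    exact hB
  have hκ : 0 ≤ cc A ^ 2 / LL (k + 1) := div_nonneg (sq_nonneg _) (LL_pos _).le
  set t₁ := min T (t + cc A ^ 2 / LL (k + 1)) with ht₁
  have htt : t ≤ t₁ := le_min htT (by linarith)
  have hN := hG.hN
  set η := (2 : ℝ) ^ (k + 1) / (8 * N + 1) with hη
  have hη0 : 0 < η := by positivity
  have key : ∀ j : ℕ, Γ.Bd (min t₁ (t + j * η)) (2 ^ (k + 1)) := by
    intro j
    induction j with
    | zero =>
      intro z hz s hs
      have h1 := h0 z hz s ⟨hs.1, by simpa using hs.2.trans (min_le_right _ _)⟩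
      linarith
    | succ j ih =>
      have h1 : min t₁ (t + j * η) ≤ T := (min_le_left _ _).trans (min_le_left _ _)
      have h2 : (0 : ℝ) ≤ j * η := by positivity
      have h3 := improve hG hA hbig ht h0 ih (hH Γ T N _ _ hG h1 hbig ih)
        ((min_le_left _ _).trans (min_le_right _ _))
      refine extend hG (le_min (ht.trans htt) (by linarith)) hP h3
        ((min_le_left _ _).trans (min_le_left _ _)) ?_
      push_cast
      rw [add_mul, one_mul, ← add_assoc]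
      exact (min_step _ _ _ hη0.le).trans (min_le_right _ _)
  obtain ⟨j, hj⟩ := exists_nat_ge ((t₁ - t) / η)
  rw [div_le_iff₀ hη0] at hj
  have h1 := key j
  rwa [min_eq_left (by linarith)] at h1

theorem mB (h : Dbl) : MB := by
  intro Λ
  obtain ⟨κ, hκ, k₀, hD⟩ := h Λ
  obtain ⟨k₁, hk₁, hΛ⟩ : ∃ k₁ : ℕ, k₀ ≤ k₁ ∧ Λ ≤ 2 ^ k₁ := by
    obtain ⟨m, hm⟩ := pow_unbounded_of_one_lt Λ (one_lt_two (α := ℝ))
    exact ⟨max k₀ m, le_max_left _ _,
      hm.le.trans (pow_le_pow_right₀ one_le_two (le_max_right _ _))⟩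
  obtain ⟨J, hJ⟩ : ∃ J : ℕ, Λ ≤ ∑ i ∈ Finset.range J, κ / LL (k₁ + i + 1) := by
    obtain ⟨J, hJ⟩ := (Real.tendsto_sum_range_one_div_nat_succ_atTop.eventually_ge_atTop
      (Λ * (k₁ + 4) / κ)).exists
    refine ⟨J, ?_⟩
    rw [div_le_iff₀ hκ, Finset.sum_mul] at hJ
    refine le_of_mul_le_mul_right (hJ.trans ?_) (by positivity : (0 : ℝ) < k₁ + 4)
    rw [Finset.sum_mul]
    refine Finset.sum_le_sum fun i _ => ?_
    unfold LL
    push_cast
    rw [div_mul_eq_mul_div, div_mul_eq_mul_div, div_le_div_iff₀ (by positivity) (by positivity)]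
    have h1 : (0 : ℝ) ≤ κ * (k₁ * i) := by positivity
    have h2 : (0 : ℝ) ≤ κ * i := by positivity
    nlinarith
  refine ⟨2 ^ (k₁ + J), fun Γ T N hG => ?_⟩
  have key : ∀ j : ℕ, Γ.Bd (min T (∑ i ∈ Finset.range j, κ / LL (k₁ + i + 1))) (2 ^ (k₁ + j)) := by
    intro j
    induction j with
    | zero =>
      intro z hz s hs
      have h1 : s = 0 := le_antisymm (by simpa using hs.2.trans (min_le_right _ _)) hs.1
      rw [h1]
      exact (hG.init z hz).trans hΛ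
    | succ j ih =>
      have h1 := hD Γ T N _ (k₁ + j) hG (by omega)
        (le_min hG.hT0 (Finset.sum_nonneg fun i _ => (div_pos hκ (LL_pos _)).le))
        (min_le_left _ _) ih
      rw [Finset.sum_range_succ]
      exact h1.mono (min_step _ _ _ (div_pos hκ (LL_pos _)).le)
  have h1 := key J
  rwa [min_eq_left (hG.hT.trans hJ)] at h1

end Vale.Agent.P107
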