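import Vale.Agent.P107.Basic

/-! Problem P107: bounded overlap of the energy classes. -/

open MeasureTheory Set Filter Topology
open scoped ENNReal RealInnerProductSpace

noncomputable section
namespace Vale.Agent.P107

namespace OvX

theorem sum_le {X ι : Type} [MeasurableSpace X] (μ : Measure X) (s : Finset ι)
    (F : ι → X → ℝ≥0∞) : ∑ i ∈ s, ∫⁻ x, F i x ∂μ ≤ ∫⁻ x, ∑ i ∈ s, F i x ∂μ := by
  classical
  induction s using Finset.induction_on with
  | empty => simp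
  | insert j s hj ih =>
    simp only [Finset.sum_insert hj]
    exact (add_le_add le_rfl ih).trans (le_lintegral_add _ _)

open Classical in
theorem overlap {X ι : Type} [MeasurableSpace X] (μ : Measure X) (s : Finset ι) (A : ι → Set X)
    (hA : ∀ i, MeasurableSet (A i)) (f : X → ℝ≥0∞) (n : ℕ)
    (h : ∀ x, (s.filter fun i => x ∈ A i).card ≤ n) :
    ∑ i ∈ s, ∫⁻ x in A i, f x ∂μ ≤ n * ∫⁻ x, f x ∂μ := by
  simp only [← lintegral_indicator (hA _)]
  rw [← lintegral_const_mul' _ _ (ENNReal.natCast_ne_top n)]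
  refine (sum_le μ s _).trans (lintegral_mono fun x => ?_)
  simp only [indicator_apply]
  rw [← Finset.sum_filter, Finset.sum_const, nsmul_eq_mul]
  gcongr
  exact h x

theorem toReal_sum {ι : Type} {s : Finset ι} {F : ι → ℝ≥0∞} {c : ℝ} (hc : 0 ≤ c)
    (h : ∑ i ∈ s, F i ≤ ENNReal.ofReal c) : ∑ i ∈ s, (F i).toReal ≤ c := by
  rw [← ENNReal.toReal_sum fun i hi => ne_top_of_le_ne_top ENNReal.ofReal_ne_top
    ((Finset.single_le_sum (fun _ _ => zero_le) hi).trans h)]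
  exact ENNReal.toReal_le_of_le_ofReal hc h

theorem pow_eq {i j : ℕ} {y : ℝ} (h : y ∈ Ico ((2 : ℝ) ^ i) (2 * 2 ^ i))
    (h' : y ∈ Ico ((2 : ℝ) ^ j) (2 * 2 ^ j)) : i = j := by
  have h1 := h.1.trans_lt h'.2
  have h2 := h'.1.trans_lt h.2
  rw [← pow_succ', pow_lt_pow_iff_right₀ one_lt_two] at h1 h2
  omega

theorem dy_lt {i j : ℕ} (h : dy i < 2 * dy j) : j ≤ i := by
  have h1 : dy (i + 1) < dy j := by
    unfold dy at h ⊢
    rw [pow_succ]
    linarith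
  unfold dy at h1
  rw [pow_lt_pow_iff_right_of_lt_one₀ (by norm_num) (by norm_num)] at h1
  omega

theorem dy_eq {i j : ℕ} {y : ℝ} (h : y ∈ Ico (dy i) (2 * dy i)) (h' : y ∈ Ico (dy j) (2 * dy j)) :
    i = j := le_antisymm (dy_lt (h'.1.trans_lt h.2)) (dy_lt (h.1.trans_lt h'.2))

theorem pow_near {i j : ℕ} {y : ℝ} (h : y ∈ Icc ((2 : ℝ) ^ i / 2) (4 * 2 ^ i))
    (h' : y ∈ Icc ((2 : ℝ) ^ j / 2) (4 * 2 ^ j)) : i ≤ j + 3 := by
  rw [← pow_le_pow_iff_right₀ (one_lt_two (α := ℝ)), pow_add]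
  linarith [h.1, h'.2]

theorem dy_near {i j : ℕ} {y : ℝ} (h : y ∈ Icc (dy i / 2) (4 * dy i))
    (h' : y ∈ Icc (dy j / 2) (4 * dy j)) : i ≤ j + 3 := by
  rw [← pow_le_pow_iff_right_of_lt_one₀ (a := (1 / 2 : ℝ)) (by norm_num) (by norm_num), pow_add]
  have h1 := h.2
  have h2 := h'.1
  unfold dy at h1 h2
  linarith

theorem card_four {S : Finset ℕ} (h : ∀ i ∈ S, ∀ j ∈ S, i ≤ j + 3) : S.card ≤ 4 := by
  rcases S.eq_empty_or_nonempty with rfl | hS
  · simp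
  · refine (Finset.card_le_card (t := Finset.Icc (S.min' hS) (S.min' hS + 3)) fun i hi =>
      Finset.mem_Icc.2 ⟨S.min'_le i hi, h i hi _ (S.min'_mem hS)⟩).trans ?_
    rw [Nat.card_Icc]
    omega

theorem card_sixteen {S : Finset (ℕ × ℕ)} (h : ∀ a ∈ S, ∀ b ∈ S, a.1 ≤ b.1 + 3 ∧ a.2 ≤ b.2 + 3) :
    S.card ≤ 16 := by
  refine (Finset.card_le_card (Finset.subset_product (s := S))).trans ?_
  rw [Finset.card_product]
  refine Nat.mul_le_mul (card_four ?_) (card_four ?_)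
  · simp only [Finset.forall_mem_image]
    exact fun a ha b hb => (h a ha b hb).1
  · simp only [Finset.forall_mem_image]
    exact fun a ha b hb => (h a ha b hb).2

theorem total (ht : Ton) (hs : SpE) {Γ : PS} {T Λ N P : ℝ} {z₀ : Z} {s₀ τ p' : ℝ}
    (hG : Γ.Good T Λ N) (hT : Γ.Tst T P z₀ s₀ τ p') :
    ∫⁻ x in {x : ℝ × Z | ‖x.2.1‖ ∈ Iic τ},
      ENNReal.ofReal (q x.2.2 * (1 + sgp (Γ.U z₀ x.1) x.2.1 x.2.2)) ∂Γ.lam z₀ s₀ τ ≤
      ENNReal.ofReal (3 * Λ * τ) := by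
  obtain ⟨-, -, -, -, hae, -⟩ := ht Γ hG.toKin z₀ s₀ τ
  obtain ⟨h1, h2, -⟩ := hs Γ T Λ N P z₀ s₀ τ p' hG hT
  have hΛ : 0 ≤ Λ := by linarith [hG.hΛ]
  have hτ := hT.hτ
  have h3 := h1 ((Ici (s₀ - τ)).indicator 1) (measurable_one.indicator measurableSet_Ici)
  have h4 : ∫⁻ σ in Icc 0 (s₀ + τ), (Ici (s₀ - τ)).indicator (1 : ℝ → ℝ≥0∞) σ ≤
      ENNReal.ofReal (2 * τ) := by
    rw [lintegral_indicator_one measurableSet_Ici, Measure.restrict_apply measurableSet_Ici]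
    refine (measure_mono (t := Icc (s₀ - τ) (s₀ + τ)) fun σ h => ⟨h.1, h.2.2⟩).trans ?_
    rw [Real.volume_Icc]
    exact ENNReal.ofReal_le_ofReal (by linarith)
  have h5 : MeasurableSet {x : ℝ × Z | ‖x.2.1‖ ∈ Iic τ} :=
    (by fun_prop : Measurable fun x : ℝ × Z => ‖x.2.1‖) measurableSet_Iic
  rw [← lintegral_indicator h5]
  calc _ ≤ ∫⁻ x, ENNReal.ofReal (q x.2.2) + (Ici (s₀ - τ)).indicator 1 (x.1 - ‖x.2.1‖) *
        ENNReal.ofReal (q x.2.2 * sgp (Γ.U z₀ x.1) x.2.1 x.2.2) ∂Γ.lam z₀ s₀ τ := by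
        refine lintegral_mono_ae (hae.mono fun x hx => ?_)
        by_cases h : x ∈ {x : ℝ × Z | ‖x.2.1‖ ∈ Iic τ}
        · have h6 : ‖x.2.1‖ ≤ τ := h
          rw [indicator_of_mem h, indicator_of_mem (show x.1 - ‖x.2.1‖ ∈ Ici (s₀ - τ) from
            sub_le_sub hx.1.1 h6), Pi.one_apply, one_mul, mul_add, mul_one]
          exact ENNReal.ofReal_add_le
        · rw [indicator_of_notMem h]
          exact zero_le
    _ ≤ ENNReal.ofReal (Λ * τ) + ENNReal.ofReal Λ * ENNReal.ofReal (2 * τ) := by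
        rw [lintegral_add_left (by fun_prop)]
        exact add_le_add h2 (h3.trans (by gcongr))
    _ = _ := by
        rw [← ENNReal.ofReal_mul hΛ, ← ENNReal.ofReal_add (by positivity) (by positivity)]
        congr 1
        ring

theorem energy {Γ : PS} {T Λ N P : ℝ} {z₀ : Z} {s₀ τ p' : ℝ} (hG : Γ.Good T Λ N)
    (hT : Γ.Tst T P z₀ s₀ τ p') {F : ℝ → ℝ≥0∞} (n : ℕ)
    (h : ∀ t, F t ≤ n * ∫⁻ z, ENNReal.ofReal (q (Γ.V t z)) ∂Γ.μ) :
    ∫⁻ t in Icc s₀ (s₀ + τ), F t ≤ ENNReal.ofReal (n * Λ * τ) := by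
  have hΛ : 0 ≤ Λ := by linarith [hG.hΛ]
  calc _ ≤ ∫⁻ _t in Icc s₀ (s₀ + τ), n * ENNReal.ofReal Λ :=
        setLIntegral_mono measurable_const fun t ht => (h t).trans (by
          gcongr
          exact hG.enP t ⟨hT.h0.trans ht.1, ht.2.trans hT.hT⟩)
    _ = _ := by
        rw [setLIntegral_const, Real.volume_Icc, add_sub_cancel_left,
          ENNReal.ofReal_mul (by positivity), ENNReal.ofReal_mul (by positivity),
          ENNReal.ofReal_natCast]

end OvX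

open OvX Classical in
theorem ov (ht : Ton) (hs : SpE) : Ov := by
  intro Γ T Λ N P z₀ s₀ τ p' hG hT
  have hΛ : 0 ≤ Λ := by linarith [hG.hΛ]
  have hτ := hT.hτ
  have h1 := total ht hs hG hT
  obtain ⟨-, -, -, hB, -, -⟩ := ht Γ hG.toKin z₀ s₀ τ
  refine ⟨fun p α β θ => (lintegral_mono_set inter_subset_right).trans h1, fun p θ => ?_,
    fun k => ⟨toReal_sum (by positivity) (le_trans ?_ h1), toReal_sum (by positivity) ?_⟩⟩
  · have h2 := energy hG hT (F := fun t => ∫⁻ z in Γ.sim z₀ p θ t,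
      ENNReal.ofReal (q (Γ.V t z)) ∂Γ.μ) 1 fun t => by
        rw [Nat.cast_one, one_mul]
        exact setLIntegral_le_lintegral _ _
    rwa [Nat.cast_one, one_mul] at h2
  · have h2 := overlap ((Γ.lam z₀ s₀ τ).restrict {x : ℝ × Z | ‖x.2.1‖ ∈ Iic τ}) (Idx k)
      (fun b => Γ.Bx z₀ b.p b.α b.β b.θ) (fun b => hB _ _ _ _)
      (fun x => ENNReal.ofReal (q x.2.2 * (1 + sgp (Γ.U z₀ x.1) x.2.1 x.2.2))) 1 fun x => by
        refine Finset.card_le_one.2 fun a ha b hb => ?_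
        obtain ⟨a1, a2, a3, a4⟩ := (Finset.mem_filter.1 ha).2
        obtain ⟨b1, b2, b3, b4⟩ := (Finset.mem_filter.1 hb).2
        exact Prod.ext (pow_eq a1 b1) (Prod.ext (dy_eq a2 b2)
          (Prod.ext (dy_eq a3 b3) (dy_eq a4 b4)))
    simp only [Measure.restrict_restrict (hB _ _ _ _), Nat.cast_one, one_mul] at h2
    exact h2
  · refine (sum_le _ _ _).trans (energy hG hT 16 fun t => ?_)
    have hV : Measurable fun z => Γ.V t z :=
      (hG.cV.comp (continuous_const.prodMk continuous_id)).measurable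
    have m1 : Measurable fun z => q (Γ.V t z) := by fun_prop
    have m2 : Measurable fun z => dd (Γ.U z₀ t) (uu (Γ.V t z)) := by fun_prop
    refine overlap Γ.μ _ (fun a : ℕ × ℕ => Γ.sim z₀ (2 ^ a.1) (dy a.2) t)
      (fun a => (m1 measurableSet_Icc).inter (m2 measurableSet_Icc)) _ 16 fun z => ?_
    refine card_sixteen fun a ha b hb => ?_
    obtain ⟨a1, a2⟩ := (Finset.mem_filter.1 ha).2
    obtain ⟨b1, b2⟩ := (Finset.mem_filter.1 hb).2
    exact ⟨pow_near a1 b1, dy_near a2 b2⟩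

end Vale.Agent.P107
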