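import Vale.Agent.P107.Basic

/-! Problem P107, part I: change of variables along backward cones. -/

open MeasureTheory Set Filter Topology
open scoped ENNReal RealInnerProductSpace

noncomputable section
namespace Vale.Agent.P107
namespace PalX

theorem fd_norm {w : V3} (hw : w ≠ 0) :
    HasFDerivAt (fun x : V3 => ‖x‖) (innerSL ℝ (hat w)) w := by
  have h0 : 0 < ‖w‖ := norm_pos_iff.2 hw
  have h2 := (hasStrictFDerivAt_norm_sq w).hasFDerivAt.sqrt (by positivity)
  have e : (1 / (2 * √(‖w‖ ^ 2))) • (2 • innerSL ℝ w) = innerSL ℝ (hat w) := by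
    ext x
    rw [Real.sqrt_sq h0.le]
    simp only [hat, map_smul, _root_.smul_apply, smul_eq_mul, nsmul_eq_mul]
    field_simp
    push_cast
    ring
  rw [e] at h2
  simpa only [Real.sqrt_sq (norm_nonneg _)] using h2

theorem det_eq (n U : V3) :
    ((ContinuousLinearMap.toSpanSingleton ℝ U).comp (innerSL ℝ n) -
      ContinuousLinearMap.id ℝ V3).det = -(1 - ⟪n, U⟫) := by
  rw [ContinuousLinearMap.det, ← LinearMap.det_toMatrix (EuclideanSpace.basisFun (Fin 3) ℝ).toBasis,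
    Matrix.det_fin_three]
  simp [LinearMap.toMatrix_apply, inner_V3]
  ring

theorem speed {X U : ℝ → V3} (hX : ∀ s, HasDerivAt X (U s) s) (hU : Continuous U)
    (h1 : ∀ s, ‖U s‖ < 1) {t t' : ℝ} (h : t ≠ t') : ‖X t - X t'‖ < |t - t'| := by
  obtain ⟨s, _, hs⟩ := (isCompact_uIcc (a := t) (b := t')).exists_isMaxOn nonempty_uIcc
    hU.norm.continuousOn
  have h2 := (convex_uIcc t t').norm_image_sub_le_of_norm_hasDerivWithin_le
    (fun x _ => (hX x).hasDerivWithinAt) (fun x hx => hs hx) right_mem_uIcc left_mem_uIcc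
  rw [Real.norm_eq_abs] at h2
  exact h2.trans_lt (mul_lt_of_lt_one_left (abs_pos.2 (sub_ne_zero.2 h)) (h1 s))

theorem slice {X U : ℝ → V3} (hX : ∀ s, HasDerivAt X (U s) s) (hU : Continuous U)
    (h1 : ∀ s, ‖U s‖ < 1) (σ : ℝ) (g : V3 → ℝ≥0∞) :
    ∫⁻ w, ENNReal.ofReal (dd (hat w) (U (σ + ‖w‖)) ^ 2) * g (X (σ + ‖w‖) - w) ≤ ∫⁻ y, g y := by
  have h2 := lintegral_image_eq_lintegral_abs_det_fderiv_mul (volume : Measure V3)
    (s := ({0} : Set V3)ᶜ) (f := fun w => X (σ + ‖w‖) - w)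
    (f' := fun w => (ContinuousLinearMap.toSpanSingleton ℝ (U (σ + ‖w‖))).comp
      (innerSL ℝ (hat w)) - ContinuousLinearMap.id ℝ V3)
    (measurableSet_singleton _).compl (by
      intro w hw
      have h3 := (hX (σ + ‖w‖)).hasFDerivAt.comp w ((fd_norm hw).const_add σ)
      exact (h3.sub (hasFDerivAt_id w)).hasFDerivWithinAt) (by
      intro w _ w' _ e
      have h3 : X (σ + ‖w‖) - X (σ + ‖w'‖) = w - w' := by
        have h4 : X (σ + ‖w‖) - w = X (σ + ‖w'‖) - w' := e
        rw [sub_eq_sub_iff_sub_eq_sub, h4]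
      by_cases h4 : σ + ‖w‖ = σ + ‖w'‖
      · rw [h4, sub_self] at h3
        exact sub_eq_zero.1 h3.symm
      · have h5 := speed hX hU h1 h4
        rw [h3, add_sub_add_left_eq_sub] at h5
        exact absurd (abs_norm_sub_norm_le w w') (not_le.2 h5)) g
  rw [restrict_compl_singleton] at h2
  refine le_trans (le_of_eq ?_) (h2.symm.le.trans (setLIntegral_le_lintegral _ _))
  refine lintegral_congr fun w => ?_
  rw [det_eq, abs_neg, ← dd_sq (norm_hat_le w) (h1 _).le, abs_of_nonneg (sq_nonneg _)]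

end PalX

open PalX

theorem pal : Pal := by
  intro X U s₀ s₁ hX hU h1 φ hφ
  have hXc : Continuous X := continuous_iff_continuousAt.2 fun s => (hX s).continuousAt
  have hXm := hXc.measurable
  have hUm := hU.measurable
  let H : ℝ × V3 → ℝ≥0∞ := fun p =>
    ENNReal.ofReal (dd (hat p.2) (U (p.1 + ‖p.2‖)) ^ 2) * φ (p.1, X (p.1 + ‖p.2‖) - p.2)
  have hH : Measurable H := by
    refine Measurable.mul ?_ (hφ.comp ?_)
    · fun_prop
    · fun_prop
  let G : ℝ × V3 → ℝ≥0∞ := (Icc 0 s₁ ×ˢ univ).indicator H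
  have hG : Measurable G := hH.indicator (measurableSet_Icc.prod MeasurableSet.univ)
  have hG' : Measurable fun p : ℝ × V3 => G (p.1 - ‖p.2‖, p.2) := hG.comp (by fun_prop)
  calc ∫⁻ s in Icc s₀ s₁, ∫⁻ w in Metric.ball (0 : V3) s,
        ENNReal.ofReal (dd (hat w) (U s) ^ 2) * φ (s - ‖w‖, X s - w)
      ≤ ∫⁻ s in Icc s₀ s₁, ∫⁻ w, G (s - ‖w‖, w) := by
        refine setLIntegral_mono' measurableSet_Icc fun s hs => ?_
        refine le_trans (setLIntegral_mono' measurableSet_ball fun w hw => ?_)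
          (setLIntegral_le_lintegral _ _)
        have h2 : (s - ‖w‖, w) ∈ Icc 0 s₁ ×ˢ (univ : Set V3) := by
          rw [mem_ball_zero_iff] at hw
          exact ⟨⟨by linarith, by linarith [hs.2, norm_nonneg w]⟩, mem_univ _⟩
        simp only [G, indicator_of_mem h2, H, sub_add_cancel, le_refl]
    _ ≤ ∫⁻ s, ∫⁻ w, G (s - ‖w‖, w) := setLIntegral_le_lintegral _ _
    _ = ∫⁻ w, ∫⁻ s, G (s - ‖w‖, w) := lintegral_lintegral_swap hG'.aemeasurable
    _ = ∫⁻ w, ∫⁻ σ, G (σ, w) :=
        lintegral_congr fun w => lintegral_sub_right_eq_self (fun σ => G (σ, w)) ‖w‖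
    _ = ∫⁻ σ, ∫⁻ w, G (σ, w) :=
        (lintegral_lintegral_swap (f := fun σ w => G (σ, w)) hG.aemeasurable).symm
    _ ≤ ∫⁻ σ, (Icc 0 s₁).indicator (fun σ => ∫⁻ y, φ (σ, y)) σ := by
        refine lintegral_mono fun σ => ?_
        by_cases h : σ ∈ Icc 0 s₁
        · rw [indicator_of_mem h]
          refine le_trans (lintegral_mono fun w => ?_) (slice hX hU h1 σ fun y => φ (σ, y))
          exact indicator_le_self _ H (σ, w)
        · have h2 : ∀ w : V3, G (σ, w) = 0 := fun w => indicator_of_notMem (fun h' => h h'.1) _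
          simp only [h2, lintegral_zero, zero_le]
    _ = ∫⁻ σ in Icc 0 s₁, ∫⁻ y, φ (σ, y) := lintegral_indicator measurableSet_Icc _

end Vale.Agent.P107
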