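import Vale.Agent.P107.Basic

/-! Problem P107, part I: the logarithmic phase space integral. -/

open MeasureTheory Set Filter Topology
open scoped ENNReal RealInnerProductSpace

noncomputable section
namespace Vale.Agent.P107

namespace Ph2X

theorem cover {n v : V3} (hn : ‖n‖ = 1) {k : ℕ} (hv : q v ≤ 2 ^ k) :
    ∃ i ∈ Finset.range (k + 1), ∃ j ∈ Finset.range (k + 2), (2 : ℝ) ^ i ≤ q v ∧
      q v ≤ 2 * 2 ^ i ∧ (2 : ℝ) ^ j / 2 ^ (k + 1) ≤ dd n (uu v) ∧
      dd n (uu v) ≤ 2 * (2 ^ j / 2 ^ (k + 1)) := by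
  obtain ⟨i, i1, i2⟩ := exists_nat_pow_near (one_le_q v) (one_lt_two (α := ℝ))
  have b0 := dd_nonneg n (uu v)
  have b1 := one_le_q_dd hn.le v
  have b2 := dd_lt_two hn.le (norm_uu_le v)
  have hP : (0 : ℝ) < 2 ^ (k + 1) := by positivity
  have b3 : 1 ≤ dd n (uu v) * 2 ^ (k + 1) := by
    have := mul_le_mul_of_nonneg_right hv b0
    rw [pow_succ]
    nlinarith
  obtain ⟨j, j1, j2⟩ := exists_nat_pow_near b3 (one_lt_two (α := ℝ))
  refine ⟨i, Finset.mem_range.2 (Nat.lt_succ_of_le ?_), j, Finset.mem_range.2 ?_, i1, ?_, ?_, ?_⟩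
  · exact (pow_le_pow_iff_right₀ (one_lt_two (α := ℝ))).1 (i1.trans hv)
  · refine (pow_lt_pow_iff_right₀ (one_lt_two (α := ℝ))).1 (j1.trans_lt ?_)
    rw [pow_succ' 2 (k + 1)]
    exact mul_lt_mul_of_pos_right b2 hP
  · rw [← pow_succ']
    exact i2.le
  · rwa [div_le_iff₀ hP]
  · rw [← mul_div_assoc, le_div_iff₀ hP, ← pow_succ']
    exact j2.le

end Ph2X

theorem phase2 (h : Ph) : Ph2 := by
  obtain ⟨C, hC, h⟩ := h
  refine ⟨32 * C, by positivity, fun n k hn => ?_⟩
  set T : ℕ → ℕ → Set V3 := fun i j =>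
    {v : V3 | q v ≤ 2 * 2 ^ i ∧ dd n (uu v) ≤ 2 * (2 ^ j / 2 ^ (k + 1))} with hT
  have hTm : ∀ i j, MeasurableSet (T i j) := fun i j =>
    (measurableSet_le measurable_q measurable_const).inter
      (measurableSet_le (f := fun v => dd n (uu v)) (by fun_prop) measurable_const)
  set c : ℕ → ℕ → ℝ := fun i j => 1 / (((2 : ℝ) ^ i) ^ 3 * (2 ^ j / 2 ^ (k + 1)) ^ 2) with hc
  have c0 : ∀ i j, 0 ≤ c i j := fun i j => by positivity
  calc _ ≤ ∫⁻ v in {v : V3 | q v ≤ 2 ^ k}, ∑ i ∈ Finset.range (k + 1), ∑ j ∈ Finset.range (k + 2),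
        (T i j).indicator (fun _ => ENNReal.ofReal (c i j)) v := by
        refine setLIntegral_mono' (measurableSet_le measurable_q measurable_const) fun v hv => ?_
        obtain ⟨i, hi, j, hj, a1, a2, a3, a4⟩ := Ph2X.cover hn hv
        refine le_trans ?_ (Finset.single_le_sum (f := fun i => ∑ j ∈ Finset.range (k + 2),
          (T i j).indicator (fun _ => ENNReal.ofReal (c i j)) v) (fun _ _ => bot_le) hi)
        refine le_trans ?_ (Finset.single_le_sum (f := fun j =>
          (T i j).indicator (fun _ => ENNReal.ofReal (c i j)) v) (fun _ _ => bot_le) hj)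
        rw [indicator_of_mem (show v ∈ T i j from ⟨a2, a4⟩)]
        refine ENNReal.ofReal_le_ofReal (one_div_le_one_div_of_le (by positivity) ?_)
        have := q_pos v
        gcongr
    _ ≤ ∫⁻ v, ∑ i ∈ Finset.range (k + 1), ∑ j ∈ Finset.range (k + 2),
        (T i j).indicator (fun _ => ENNReal.ofReal (c i j)) v := setLIntegral_le_lintegral _ _
    _ = ∑ i ∈ Finset.range (k + 1), ∑ j ∈ Finset.range (k + 2),
        ENNReal.ofReal (c i j) * volume (T i j) := by
        rw [lintegral_finsetSum _ fun i _ => Finset.measurable_sum _ fun j _ =>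
          measurable_const.indicator (hTm i j)]
        refine Finset.sum_congr rfl fun i _ => ?_
        rw [lintegral_finsetSum _ fun j _ => measurable_const.indicator (hTm i j)]
        exact Finset.sum_congr rfl fun j _ => lintegral_indicator_const (hTm i j) _
    _ ≤ ∑ _i ∈ Finset.range (k + 1), ∑ _j ∈ Finset.range (k + 2), ENNReal.ofReal (32 * C) := by
        refine Finset.sum_le_sum fun i _ => Finset.sum_le_sum fun j _ => ?_
        refine (mul_le_mul_right (h n (by rw [hn]; norm_num) hn.le (2 * 2 ^ i)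
          (2 * (2 ^ j / 2 ^ (k + 1))) (by positivity) (by positivity)).1 _).trans (le_of_eq ?_)
        rw [← ENNReal.ofReal_mul (c0 i j)]
        congr 1
        simp only [hc]
        field_simp
        norm_num
    _ ≤ _ := by
        rw [Finset.sum_const, Finset.sum_const, Finset.card_range, Finset.card_range, smul_smul,
          ← ENNReal.ofReal_nsmul]
        refine ENNReal.ofReal_le_ofReal ?_
        rw [nsmul_eq_mul, mul_comm]
        refine mul_le_mul_of_nonneg_left ?_ (by positivity)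
        unfold LL
        push_cast
        have : (0 : ℝ) ≤ k := Nat.cast_nonneg k
        nlinarith

end Vale.Agent.P107
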