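import Vale.Agent.P107.Basic

/-! Problem P107, part I: the recursion that updates the direction, applied to a test particle. -/

open MeasureTheory Set Filter Topology
open scoped ENNReal RealInnerProductSpace

noncomputable section
namespace Vale.Agent.P107
namespace RecX

theorem meas_ret {Γ : PS} (hK : Γ.Kin) (s : ℝ) (x : V3) : Measurable (Γ.ret s x) := by
  refine measurable_of_Ici fun c => ?_
  by_cases hc : c ≤ 0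
  · have : Γ.ret s x ⁻¹' Ici c = univ := by
      refine eq_univ_of_forall fun z => ?_
      refine hc.trans (Real.sSup_nonneg fun σ hσ => hσ.1.1)
    rw [this]; exact MeasurableSet.univ
  · push Not at hc
    have hcl : IsClosed {p : Icc c s × Z | ‖x - Γ.Y p.1 p.2‖ ≤ s - p.1} := by
      have h1 : Continuous fun p : Icc c s × Z => Γ.Y p.1 p.2 :=
        hK.cY.comp ((continuous_subtype_val.comp continuous_fst).prodMk continuous_snd)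
      exact isClosed_le (continuous_const.sub h1).norm
        (continuous_const.sub (continuous_subtype_val.comp continuous_fst))
    have him := isClosedMap_snd_of_compactSpace _ hcl
    have : Γ.ret s x ⁻¹' Ici c =
        Prod.snd '' {p : Icc c s × Z | ‖x - Γ.Y p.1 p.2‖ ≤ s - p.1} := by
      ext z
      have hbd : BddAbove {σ | σ ∈ Icc 0 s ∧ ‖x - Γ.Y σ z‖ ≤ s - σ} :=
        ⟨s, fun σ hσ => hσ.1.2⟩
      constructor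
      · intro hz
        have hz' : c ≤ sSup {σ | σ ∈ Icc 0 s ∧ ‖x - Γ.Y σ z‖ ≤ s - σ} := hz
        have hne : {σ | σ ∈ Icc 0 s ∧ ‖x - Γ.Y σ z‖ ≤ s - σ}.Nonempty := by
          by_contra h
          rw [not_nonempty_iff_eq_empty] at h
          rw [h, Real.sSup_empty] at hz'
          exact absurd hz' (not_le.2 hc)
        have hcz : IsClosed {σ | σ ∈ Icc 0 s ∧ ‖x - Γ.Y σ z‖ ≤ s - σ} := by
          have h1 : Continuous fun σ : ℝ => Γ.Y σ z :=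
            hK.cY.comp (continuous_id.prodMk continuous_const)
          exact isClosed_Icc.inter (isClosed_le (continuous_const.sub h1).norm
            (continuous_const.sub continuous_id))
        have hm := hcz.csSup_mem hne hbd
        exact ⟨(⟨_, hz', hm.1.2⟩, z), hm.2, rfl⟩
      · rintro ⟨⟨⟨σ, hσ⟩, z'⟩, h1, rfl⟩
        exact hσ.1.trans (le_csSup hbd ⟨⟨hc.le.trans hσ.1, hσ.2⟩, h1⟩)
    rw [this]; exact him.measurableSet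

theorem meas_wv {Γ : PS} (hK : Γ.Kin) (s : ℝ) (x : V3) : Measurable (Γ.wv s x) := by
  have h := (meas_ret hK s x).prodMk (measurable_id (α := Z))
  exact (measurable_const.sub (hK.cY.measurable.comp h)).prodMk (hK.cV.measurable.comp h)

/-- an integral is bounded by the cone integral of a majorant -/
theorem norm_int_le {Γ : PS} (s : ℝ) (x : V3) (f : Z → V3) (g : Z → ℝ) {C M : ℝ} (hC : 0 ≤ C)
    (h : ∀ y, ‖f y‖ ≤ C * g y)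
    (hg : Γ.cI s x (fun y => ENNReal.ofReal (g y)) ≤ ENNReal.ofReal M) :
    ∫⁻ z in Γ.act s x, ‖f (Γ.wv s x z)‖ₑ ∂Γ.μ ≤ ENNReal.ofReal (C * M) := by
  calc ∫⁻ z in Γ.act s x, ‖f (Γ.wv s x z)‖ₑ ∂Γ.μ
      ≤ ∫⁻ z in Γ.act s x, ENNReal.ofReal C * ENNReal.ofReal (g (Γ.wv s x z)) ∂Γ.μ := by
        refine lintegral_mono fun z => ?_
        rw [← ofReal_norm, ← ENNReal.ofReal_mul hC]
        exact ENNReal.ofReal_le_ofReal (h _)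
    _ = ENNReal.ofReal C * Γ.cI s x (fun y => ENNReal.ofReal (g y)) :=
        lintegral_const_mul' _ _ ENNReal.ofReal_ne_top
    _ ≤ ENNReal.ofReal C * ENNReal.ofReal M := mul_le_mul_right hg _
    _ = ENNReal.ofReal (C * M) := (ENNReal.ofReal_mul hC).symm

theorem norm_le_of_lint {μ : Measure Z} {f : Z → V3} {M : ℝ} (hM : 0 ≤ M)
    (h : ∫⁻ z, ‖f z‖ₑ ∂μ ≤ ENNReal.ofReal M) : ‖∫ z, f z ∂μ‖ ≤ M := by
  have h1 := (enorm_integral_le_lintegral_enorm (μ := μ) f).trans h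
  rw [← ofReal_norm] at h1
  exact (ENNReal.ofReal_le_ofReal_iff hM).1 h1

/-- size and Lipschitz bound of the boundary term -/
theorem GI_bd {Γ : PS} (hK : Γ.Kin) {C₄ M δ a₀ : ℝ} (hC : 0 ≤ C₄) (hM : 0 ≤ M) (ha : 0 < a₀)
    (z₀ : Z) (s : ℝ)
    (h4 : ∀ e e' w v : V3, ‖e‖ = 1 → ‖e'‖ = 1 →
      ‖CG δ a₀ e w (uu v)‖ ≤ C₄ * ph δ a₀ e w v ∧
      ‖CG δ a₀ e w (uu v) - CG δ a₀ e' w (uu v)‖ ≤
        C₄ * (‖e - e'‖ / a₀) * (ph δ a₀ e w v + ph δ a₀ e' w v))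
    (hA : ∀ e : V3, ‖e‖ = 1 → Γ.cI s (Γ.Y s z₀)
      (fun y => ENNReal.ofReal (ph δ a₀ e y.1 y.2)) ≤ ENNReal.ofReal M) :
    (∀ e, ‖e‖ = 1 → ‖Γ.GI δ a₀ z₀ s e‖ ≤ C₄ * M) ∧
    ∀ e e', ‖e‖ = 1 → ‖e'‖ = 1 →
      ‖Γ.GI δ a₀ z₀ s e - Γ.GI δ a₀ z₀ s e'‖ ≤ 2 * (C₄ * M) / a₀ * ‖e - e'‖ := by
  have hw := meas_wv hK s (Γ.Y s z₀)
  have h1 : ∀ e, ‖e‖ = 1 → ∫⁻ z in Γ.act s (Γ.Y s z₀),
      ‖CG δ a₀ e (Γ.wv s (Γ.Y s z₀) z).1 (uu (Γ.wv s (Γ.Y s z₀) z).2)‖ₑ ∂Γ.μ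
        ≤ ENNReal.ofReal (C₄ * M) := fun e he =>
    norm_int_le s (Γ.Y s z₀) (fun y => CG δ a₀ e y.1 (uu y.2)) (fun y => ph δ a₀ e y.1 y.2)
      hC (fun y => (h4 e e y.1 y.2 he he).1) (hA e he)
  have hint : ∀ e, ‖e‖ = 1 → Integrable (fun z =>
      CG δ a₀ e (Γ.wv s (Γ.Y s z₀) z).1 (uu (Γ.wv s (Γ.Y s z₀) z).2))
        (Γ.μ.restrict (Γ.act s (Γ.Y s z₀))) := by
    intro e he
    refine ⟨?_, lt_of_le_of_lt (h1 e he) ENNReal.ofReal_lt_top⟩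
    exact (Measurable.CG' δ a₀ measurable_const hw.fst
      (measurable_uu.comp hw.snd)).aestronglyMeasurable
  refine ⟨fun e he => norm_le_of_lint (mul_nonneg hC hM) (h1 e he), fun e e' he he' => ?_⟩
  unfold PS.GI
  rw [← integral_sub (hint e he) (hint e' he')]
  have hc : 0 ≤ C₄ * (‖e - e'‖ / a₀) := by positivity
  have hsum : Γ.cI s (Γ.Y s z₀) (fun y => ENNReal.ofReal (ph δ a₀ e y.1 y.2 + ph δ a₀ e' y.1 y.2))
      ≤ ENNReal.ofReal (M + M) := by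
    have hm : Measurable fun z => ENNReal.ofReal
        (ph δ a₀ e (Γ.wv s (Γ.Y s z₀) z).1 (Γ.wv s (Γ.Y s z₀) z).2) :=
      (Measurable.ph' δ a₀ measurable_const hw.fst hw.snd).ennreal_ofReal
    unfold PS.cI
    simp_rw [ENNReal.ofReal_add (ph_nonneg _ _ _ _ _) (ph_nonneg _ _ _ _ _)]
    rw [lintegral_add_left hm, ENNReal.ofReal_add hM hM]
    exact add_le_add (hA e he) (hA e' he')
  have h2 := norm_int_le s (Γ.Y s z₀)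
    (fun y => CG δ a₀ e y.1 (uu y.2) - CG δ a₀ e' y.1 (uu y.2))
    (fun y => ph δ a₀ e y.1 y.2 + ph δ a₀ e' y.1 y.2) hc
    (fun y => (h4 e e' y.1 y.2 he he').2) hsum
  refine (norm_le_of_lint (mul_nonneg hc (add_nonneg hM hM)) h2).trans (le_of_eq ?_)
  ring

/-- the momentum is Lipschitz on `[0,T]` -/
theorem V_lip {Γ : PS} {T Λ N : ℝ} (hG : Γ.Good T Λ N) (z : Z) {s s' : ℝ}
    (hs : s ∈ Icc (0 : ℝ) T) (hs' : s' ∈ Icc (0 : ℝ) T) :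
    ‖Γ.V s z - Γ.V s' z‖ ≤ 2 * N * |s - s'| := by
  have := (convex_Icc (0 : ℝ) T).norm_image_sub_le_of_norm_hasDerivWithin_le
    (f := fun t => Γ.V t z) (f' := fun t => frc (Γ.V t z) (Γ.K t (Γ.Y t z))) (C := 2 * N)
    (fun t _ => (hG.dV t z).hasDerivWithinAt)
    (fun t ht => (norm_frc_le _ _).trans (by have := hG.bK t ht (Γ.Y t z); linarith)) hs' hs
  simpa [Real.norm_eq_abs] using this

theorem dd_uu_hat {v : V3} (hv : v ≠ 0) : dd (uu v) (hat v) ≤ 1 / q v := by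
  have hq := q_pos v
  have h1 : dd (uu v) (hat v) ^ 2 = 1 - ‖uu v‖ := by
    rw [dd_sq (norm_uu_le v) (norm_hat_le v), norm_uu]
    have hn : 0 < ‖v‖ := norm_pos_iff.2 hv
    unfold uu hat
    rw [real_inner_smul_left, real_inner_smul_right, real_inner_self_eq_norm_sq]
    field_simp
  have h2 := norm_uu_sq v
  have h3 := norm_uu_le v
  have h4 := norm_nonneg (uu v)
  have h5 : dd (uu v) (hat v) ^ 2 ≤ (1 / q v) ^ 2 := by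
    rw [h1, one_div_pow]; nlinarith
  exact (pow_le_pow_iff_left₀ (dd_nonneg _ _) (by positivity) two_ne_zero).1 h5

theorem lint_add (F : ℝ → ℝ≥0∞) {a b c : ℝ} (h1 : a ≤ b) (h2 : b ≤ c) :
    ∫⁻ s in Icc a c, F s = (∫⁻ s in Icc a b, F s) + ∫⁻ s in Icc b c, F s := by
  rw [← Icc_union_Ioc_eq_Icc h1 h2, lintegral_union measurableSet_Ioc,
    setLIntegral_congr (Ioc_ae_eq_Icc (μ := volume) (a := b) (b := c))]
  exact disjoint_left.2 fun x hx hx' => absurd hx.2 (not_le.2 hx'.1)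

/-- the total kernel mass as an integral in time -/
theorem TK_eq (ht : Ton) {Γ : PS} (hK : Γ.Kin) (δ a₀ ε : ℝ) (z₀ : Z) (s₀ τ : ℝ) :
    Γ.TK δ a₀ ε z₀ s₀ τ = ∫⁻ s in Icc s₀ (s₀ + τ), Γ.cI s (Γ.Y s z₀)
      (fun x => ENNReal.ofReal (KK δ a₀ ε (Γ.U z₀ s) x.1 x.2 (Γ.kk z₀ (s, x)))) := by
  obtain ⟨-, hk, hU, -, -, h⟩ := ht Γ hK z₀ s₀ τ
  have hm : Measurable fun x : ℝ × Z =>
      ENNReal.ofReal (KK δ a₀ ε (Γ.U z₀ x.1) x.2.1 x.2.2 (Γ.kk z₀ x)) :=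
    (Measurable.KK' δ a₀ ε (hU.measurable.comp measurable_fst) measurable_snd.fst
      measurable_snd.snd hk.measurable).ennreal_ofReal
  exact (h _ hm).2.1

theorem norm_ge {v : V3} {p : ℝ} (h8 : 8 ≤ p) (h : p / 2 ≤ q v) : p / 4 ≤ ‖v‖ := by
  have h2 := q_sq v
  have h3 := norm_nonneg v
  by_contra hc
  push Not at hc
  have h5 : (p / 2) ^ 2 ≤ q v ^ 2 := pow_le_pow_left₀ (by linarith) h 2
  have h6 : ‖v‖ ^ 2 ≤ (p / 4) ^ 2 := pow_le_pow_left₀ h3 hc.le 2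
  nlinarith

theorem dd_le {v e : V3} {p m ε : ℝ} (h8 : 8 ≤ p) (h : p / 2 ≤ q v) (he : ‖e‖ = 1) (hm : 0 ≤ m)
    (hε : 8 * (m + 1) / p ≤ ε / 2) (hd : ‖hat v - e‖ ≤ ε / 2) : dd (uu v) e ≤ ε := by
  have hV : v ≠ 0 := norm_pos_iff.1 (lt_of_lt_of_le (by linarith) (norm_ge h8 h))
  have t1 := dd_tri (norm_uu_le v) (norm_hat_le v) he.le
  have t2 := dd_uu_hat hV
  have t3 := (dd_le_norm_sub (norm_hat hV) he).trans hd
  have t4 : 1 / q v ≤ 8 * (m + 1) / p := by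
    rw [div_le_div_iff₀ (q_pos _) (by linarith)]
    have := q_pos v
    nlinarith
  linarith

/-- the recursion for abstract parameters -/
theorem core (ht : Ton) (hr : RecAbs) {Γ : PS} {T Λ N P : ℝ} {z₀ : Z} {s₀ τ p δ a₀ ε m Ψ CS : ℝ}
    (hG : Γ.Good T Λ N) (hT : Γ.Tst T P z₀ s₀ τ p) (hCS : 0 ≤ CS) (hm : 0 ≤ m) (hΨ : 0 ≤ Ψ)
    (hs : ∀ (s₁ τ₁ : ℝ) (e : V3), Γ.Tst T P z₀ s₁ τ₁ p → ‖e‖ = 1 →
      (∀ s ∈ Icc s₁ (s₁ + τ₁), dd (Γ.U z₀ s) e ≤ ε) →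
      ENNReal.ofReal
        ‖Γ.V (s₁ + τ₁) z₀ - Γ.V s₁ z₀ - (Γ.GI δ a₀ z₀ (s₁ + τ₁) e - Γ.GI δ a₀ z₀ s₁ e)‖ ≤
        ENNReal.ofReal CS * Γ.TK δ a₀ ε z₀ s₁ τ₁ + ENNReal.ofReal (2 * Λ * τ₁))
    (hG1 : ∀ s ∈ Icc s₀ (s₀ + τ), ∀ e, ‖e‖ = 1 → ‖Γ.GI δ a₀ z₀ s e‖ ≤ m)
    (hG2 : ∀ s ∈ Icc s₀ (s₀ + τ), ∀ e e', ‖e‖ = 1 → ‖e'‖ = 1 →
      ‖Γ.GI δ a₀ z₀ s e - Γ.GI δ a₀ z₀ s e'‖ ≤ Ψ * ‖e - e'‖)
    (h1 : 8 * (m + 1) ≤ p) (h2 : 32 * Ψ ≤ p) (h3 : 8 * (m + 1) / p ≤ ε / 2)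
    (hTK : Γ.TK δ a₀ ε z₀ s₀ τ ≠ ∞) :
    ‖Γ.V (s₀ + τ) z₀ - Γ.V s₀ z₀‖ ≤
      2 * CS * (Γ.TK δ a₀ ε z₀ s₀ τ).toReal + 4 * Λ * τ + 3 * m := by
  have hK : Γ.Kin := hG.toKin
  have hΛ := hG.hΛ
  have h8 := hT.h8
  have hI : ∀ s ∈ Icc s₀ (s₀ + τ), s ∈ Icc (0 : ℝ) T := fun s h =>
    ⟨hT.h0.trans h.1, h.2.trans hT.hT⟩
  obtain ⟨F, hF⟩ : ∃ F : ℝ → ℝ≥0∞, F = fun s => Γ.cI s (Γ.Y s z₀)
      (fun x => ENNReal.ofReal (KK δ a₀ ε (Γ.U z₀ s) x.1 x.2 (Γ.kk z₀ (s, x)))) := ⟨_, rfl⟩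
  have hTF : ∀ s₁ τ₁, Γ.TK δ a₀ ε z₀ s₁ τ₁ = ∫⁻ s in Icc s₁ (s₁ + τ₁), F s := fun s₁ τ₁ => by
    rw [hF]; exact TK_eq ht hK δ a₀ ε z₀ s₁ τ₁
  clear hF
  have hfin : ∀ a b, s₀ ≤ a → b ≤ s₀ + τ → ∫⁻ s in Icc a b, F s ≠ ∞ := fun a b h1 h2 => by
    refine ne_top_of_le_ne_top hTK ?_
    rw [hTF]
    exact lintegral_mono_set (Icc_subset_Icc h1 h2)
  have hstep : ∀ s₁ s₂ e, s₀ ≤ s₁ → s₁ < s₂ → s₂ ≤ s₀ + τ → ‖e‖ = 1 →
      (∀ s ∈ Icc s₁ s₂, ‖hat (Γ.V s z₀) - e‖ ≤ ε / 2) →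
      ‖Γ.V s₂ z₀ - Γ.V s₁ z₀ - (Γ.GI δ a₀ z₀ s₂ e - Γ.GI δ a₀ z₀ s₁ e)‖ ≤
        (CS * (∫⁻ t in Icc s₀ s₂, F t).toReal + 2 * Λ * (s₂ - s₀)) -
        (CS * (∫⁻ t in Icc s₀ s₁, F t).toReal + 2 * Λ * (s₁ - s₀)) := by
    intro s₁ s₂ e h1 h12 h2 he hd
    have hτ₁ : 0 < s₂ - s₁ := sub_pos.2 h12
    have hs₂ : s₁ + (s₂ - s₁) = s₂ := by ring
    have hsub := hT.sub h1 hτ₁ (by rw [hs₂]; exact h2)
    have hdd : ∀ s ∈ Icc s₁ (s₁ + (s₂ - s₁)), dd (Γ.U z₀ s) e ≤ ε := by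
      intro s h
      rw [hs₂] at h
      exact dd_le h8 (hT.hq s ⟨h1.trans h.1, h.2.trans h2⟩).1 he hm h3 (hd s h)
    have hst := hs s₁ (s₂ - s₁) e hsub he hdd
    rw [hTF, hs₂] at hst
    have f1 := hfin s₁ s₂ h1 h2
    have f2 := hfin s₀ s₁ le_rfl (h12.le.trans h2)
    have p1 : 0 ≤ CS * (∫⁻ t in Icc s₁ s₂, F t).toReal := mul_nonneg hCS ENNReal.toReal_nonneg
    have p2 : 0 ≤ 2 * Λ * (s₂ - s₁) := mul_nonneg (by linarith) hτ₁.le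
    rw [← ENNReal.ofReal_toReal f1, ← ENNReal.ofReal_mul hCS,
      ← ENNReal.ofReal_add p1 p2, ENNReal.ofReal_le_ofReal_iff (add_nonneg p1 p2)] at hst
    rw [lint_add F h1 h12.le, ENNReal.toReal_add f2 f1]
    linarith
  have key := hr (fun s => Γ.V s z₀) (fun s e => Γ.GI δ a₀ z₀ s e)
    (fun s => CS * (∫⁻ t in Icc s₀ s, F t).toReal + 2 * Λ * (s - s₀)) s₀ (s₀ + τ) (2 * N)
    p m Ψ (ε / 2) (by linarith [hT.hτ]) (by linarith) hΨ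
    (fun s h s' h' => V_lip hG z₀ (hI s h) (hI s' h'))
    (fun s h => norm_ge h8 (hT.hq s h).1) hG1 hG2 h1 h2 h3 hstep
  simp only [Icc_self, Measure.restrict_singleton, measure_singleton, zero_smul,
    lintegral_zero_measure, ENNReal.toReal_zero] at key
  rw [← hTF] at key
  linarith

/-- the numerical conditions -/
theorem num {B C L w : ℝ} (hB : 0 < B) (hC : 16 * B + 16 ≤ C) (hL : 3 ≤ L) (hw : 16 * C * L ≤ w) :
    1 ≤ w ∧ 16 * (C * L / w ^ 4) ≤ 1 / w ^ 3 ∧ 8 * (B * L * w ^ 2 + 1) ≤ w ^ 6 ∧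
    32 * (2 * (B * L * w ^ 2) / (1 / w ^ 3)) ≤ w ^ 6 ∧
    8 * (B * L * w ^ 2 + 1) / w ^ 6 ≤ C * L / w ^ 4 / 2 := by
  have hC16 : 16 ≤ C := by linarith
  have hw1 : 16 ≤ w := by nlinarith
  have hw0 : 0 < w := by linarith
  have hw2 : 1 ≤ w ^ 2 := one_le_pow₀ (by linarith)
  have hLw : 1 ≤ L * w ^ 2 := by nlinarith
  obtain ⟨m, hm⟩ : ∃ m : ℝ, m = B * L * w ^ 2 := ⟨_, rfl⟩
  rw [← hm]
  have hm0 : 0 ≤ m := by rw [hm]; positivity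
  have hm3 : 256 * m ≤ w ^ 3 := by
    have h1 : 256 * B * L ≤ w := by nlinarith
    calc 256 * m = 256 * B * L * w ^ 2 := by rw [hm]; ring
      _ ≤ w * w ^ 2 := mul_le_mul_of_nonneg_right h1 (by positivity)
      _ = w ^ 3 := by ring
  have hw63 : w ^ 6 = w ^ 3 * w ^ 3 := by ring
  have hw16 : 16 ≤ w ^ 3 := by
    calc (16 : ℝ) ≤ w := hw1
      _ = w ^ 1 := (pow_one w).symm
      _ ≤ w ^ 3 := pow_le_pow_right₀ (by linarith) (by norm_num)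
  have hCm : 16 * (m + 1) ≤ C * L * w ^ 2 := by
    have h1 : (16 * B + 16) * (L * w ^ 2) ≤ C * (L * w ^ 2) :=
      mul_le_mul_of_nonneg_right hC (by linarith)
    have h2 : m = B * (L * w ^ 2) := by rw [hm]; ring
    nlinarith
  refine ⟨by linarith, ?_, by nlinarith, ?_, ?_⟩
  · rw [← mul_div_assoc, div_le_div_iff₀ (by positivity) (by positivity)]
    calc 16 * (C * L) * w ^ 3 ≤ w * w ^ 3 :=
          mul_le_mul_of_nonneg_right (by linarith) (by positivity)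
      _ = 1 * w ^ 4 := by ring
  · rw [div_div_eq_mul_div, div_one, hw63]
    nlinarith
  · rw [div_div, div_le_div_iff₀ (by positivity) (by positivity)]
    calc 8 * (m + 1) * (w ^ 4 * 2) = 16 * (m + 1) * w ^ 4 := by ring
      _ ≤ C * L * w ^ 2 * w ^ 4 := mul_le_mul_of_nonneg_right hCm (by positivity)
      _ = C * L * w ^ 6 := by ring

theorem num2 {B C CS Λ X τ t : ℝ} (hB : 0 < B) (hC : C = 16 * B + 2 * CS + 4 * Λ ^ 2 + 16)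
    (hCS : 0 ≤ CS) (hΛ : 0 ≤ Λ) (hτ : τ ≤ Λ) (hX : 1 ≤ X) (ht : 0 ≤ t) :
    2 * CS * t + 4 * Λ * τ + 3 * (B * X) ≤ C * t + C * X := by
  have hΛ2 := sq_nonneg Λ
  have t1 : 2 * CS * t ≤ C * t := mul_le_mul_of_nonneg_right (by rw [hC]; linarith) ht
  have t2 : 4 * Λ * τ ≤ 4 * Λ ^ 2 * X := by nlinarith
  have t3 : (3 * B + 4 * Λ ^ 2) * X ≤ C * X :=
    mul_le_mul_of_nonneg_right (by rw [hC]; linarith) (by linarith)
  linarith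

end RecX

open RecX in
theorem rec' (ht : Ton) (h4 : A4) (ha : Amp) (hs : Step) (hr : RecAbs) : Rec := by
  intro Λ
  obtain ⟨C₄, hC₄, h4⟩ := h4
  obtain ⟨Ca, hCa, ha⟩ := ha Λ
  obtain ⟨CS, hCS, hs⟩ := hs
  have hB : 0 < C₄ * Ca := mul_pos hC₄ hCa
  obtain ⟨C, hCdef⟩ : ∃ C : ℝ, C = 16 * (C₄ * Ca) + 2 * CS + 4 * Λ ^ 2 + 16 := ⟨_, rfl⟩
  have hΛ2 : 0 ≤ Λ ^ 2 := sq_nonneg Λ
  have hC16 : 16 * (C₄ * Ca) + 16 ≤ C := by rw [hCdef]; linarith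
  have hC0 : 0 < C := by linarith
  refine ⟨C, by linarith, ?_⟩
  intro Γ T N k z₀ s₀ τ w hG hT hw hwL
  have hL := three_le_LL k
  have hΛ := hG.hΛ
  obtain ⟨hw1, hεa, n1, n2, n3⟩ := num hB hC16 hL hwL
  have hP : (0 : ℝ) < 2 ^ k := by positivity
  have hw6 : w ^ 6 ≤ 2 ^ k := hT.hP
  have hw2 : 1 ≤ w ^ 2 := one_le_pow₀ hw1
  have hw36 : w ^ 3 ≤ w ^ 6 := pow_le_pow_right₀ hw1 (by norm_num)
  have hLw : 1 ≤ LL k * w ^ 2 := one_le_mul_of_one_le_of_one_le (by linarith) hw2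
  obtain ⟨δ, hδ⟩ : ∃ δ : ℝ, δ = 1 / (4 * Λ) * w ^ 6 / 2 ^ k := ⟨_, rfl⟩
  obtain ⟨a₀, ha₀⟩ : ∃ a₀ : ℝ, a₀ = 1 / w ^ 3 := ⟨_, rfl⟩
  obtain ⟨ε, hε⟩ : ∃ ε : ℝ, ε = C * LL k / w ^ 4 := ⟨_, rfl⟩
  rw [← ha₀] at hεa n2
  rw [← hε] at hεa n3
  rw [← hδ, ← ha₀, ← hε]
  have hΛ0 : 0 < Λ := by linarith
  have hδ0 : 0 < δ := by rw [hδ]; positivity
  have hδ1 : δ ≤ 1 / (4 * Λ) := by
    rw [hδ, mul_div_assoc]
    exact mul_le_of_le_one_right (by positivity) ((div_le_one hP).2 hw6)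
  have hΛ32 : 1 / (4 * Λ) ≤ 1 / 8 := one_div_le_one_div_of_le (by norm_num) (by linarith)
  have hδ8 : δ ≤ 1 / 8 := hδ1.trans hΛ32
  have ha0 : 0 < a₀ := by rw [ha₀]; positivity
  have hPδ : 2 ^ k * δ ≤ w ^ 6 := by
    rw [hδ, mul_div_cancel₀ _ hP.ne']
    exact mul_le_of_le_one_left (by positivity) (hΛ32.trans (by norm_num))
  have hPa : 1 / 2 ^ k ≤ a₀ := by
    rw [ha₀]; exact one_div_le_one_div_of_le (by positivity) (hw36.trans hw6)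
  have hL0 := LL_pos k
  have hM : 0 ≤ Ca * LL k * w ^ 2 := by positivity
  have hmm : C₄ * (Ca * LL k * w ^ 2) = C₄ * Ca * LL k * w ^ 2 := by ring
  have hGI := fun s (h : s ∈ Icc s₀ (s₀ + τ)) =>
    GI_bd hG.toKin hC₄.le hM ha0 z₀ s
      (fun e e' w' v he he' => ⟨(h4 δ a₀ e e' w' v hδ0 hδ8 ha0 he he').1,
        (h4 δ a₀ e e' w' v hδ0 hδ8 ha0 he he').2.1⟩)
      (fun e he => ha Γ T N s δ a₀ w k (Γ.Y s z₀) e hG ⟨hT.h0.trans h.1, h.2.trans hT.hT⟩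
        (hT.bd.mono h.2) he hδ0 hw hPδ hPa)
  rw [hmm] at hGI
  by_cases hTK : Γ.TK δ a₀ ε z₀ s₀ τ = ∞
  · rw [hTK, ENNReal.mul_top (by simpa using hC0)]
    simp
  have key := core ht hr hG hT hCS.le (by positivity) (by positivity)
    (fun s₁ τ₁ e h1 he hd => hs Γ T Λ N (2 ^ k) z₀ s₁ τ₁ (w ^ 6) δ a₀ ε e hG h1 hδ0 hδ1 ha0 hεa he hd)
    (fun s h => (hGI s h).1) (fun s h => (hGI s h).2) n1 n2 n3 hTK
  have t0 : 0 ≤ (Γ.TK δ a₀ ε z₀ s₀ τ).toReal := ENNReal.toReal_nonneg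
  rw [← ENNReal.ofReal_toReal hTK, ← ENNReal.ofReal_mul hC0.le,
    ← ENNReal.ofReal_add (mul_nonneg hC0.le t0) (by positivity)]
  refine ENNReal.ofReal_le_ofReal (key.trans ?_)
  have hτΛ : τ ≤ Λ := by linarith [hT.hT, hT.h0, hG.hT]
  have := num2 hB hCdef hCS.le hΛ0.le hτΛ hLw t0
  simpa only [mul_assoc] using this

end Vale.Agent.P107
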