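import Vale.Agent.P107.Basic

/-! Problem P107, part I: the abstract recursion that updates the direction. -/

open Set

noncomputable section
namespace Vale.Agent.P107

theorem recAbs : RecAbs := by
  intro V G Θ a b N p m Ψ ε hab hp hΨ hN hV hG hG' hm hΨp hε hΘ
  have n0 : ∀ t ∈ Icc a b, ∀ W, ‖V t - W‖ ≤ m → p / 8 ≤ ‖W‖ := fun t ht W h => by
    linarith [hV t ht, norm_sub_norm_le (V t) W]
  have n1 : ∀ W : V3, p / 8 ≤ ‖W‖ → W ≠ 0 := fun W h => norm_pos_iff.1 (by linarith)
  have ha : a ∈ Icc a b := ⟨le_rfl, hab⟩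
  have hd : 0 < 1 / (|N| + 1) := by positivity
  have key : ∀ j : ℕ, ∀ t ∈ Icc a b, t ≤ a + j * (1 / (|N| + 1)) → ∃ W, ‖V t - W‖ ≤ m ∧
      ‖W - V a‖ + 2 * ‖V t - W - G t (hat W)‖ ≤ 2 * (Θ t - Θ a) + 2 * m := by
    have h0 := hG a ha _ (norm_hat (n1 (V a) (by linarith [hV a ha])))
    have b0 : ∃ W, ‖V a - W‖ ≤ m ∧
        ‖W - V a‖ + 2 * ‖V a - W - G a (hat W)‖ ≤ 2 * (Θ a - Θ a) + 2 * m :=
      ⟨V a, by simpa using (norm_nonneg _).trans h0, by simpa using h0⟩
    intro j
    induction j with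
    | zero =>
      intro t ht h
      obtain rfl : t = a := le_antisymm (by simpa using h) ht.1
      exact b0
    | succ j ih =>
      intro t ht h
      rcases ht.1.eq_or_lt with rfl | hlt
      · exact b0
      have hj : (0 : ℝ) ≤ j * (1 / (|N| + 1)) := by positivity
      obtain ⟨s, hs, hs1, hs2, hs3⟩ : ∃ s, a ≤ s ∧ s < t ∧ t - 1 / (|N| + 1) ≤ s ∧
          s ≤ a + j * (1 / (|N| + 1)) :=
        ⟨max a (t - 1 / (|N| + 1)), le_max_left _ _, max_lt hlt (by linarith), le_max_right _ _,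
          max_le (by linarith) (by push_cast at h; linarith)⟩
      have hs' : s ∈ Icc a b := ⟨hs, hs1.le.trans ht.2⟩
      obtain ⟨W, w1, w2⟩ := ih s hs' hs3
      have w3 := n0 s hs' W w1
      have w4 := norm_hat (n1 W w3)
      have h1 := hΘ s t _ hs hs1 ht.2 w4 fun r hr => by
        have hr' : r ∈ Icc a b := ⟨hs.trans hr.1, hr.2.trans ht.2⟩
        have k1 := hV r hr'
        have k2 : ‖V r - V s‖ ≤ 1 := by
          refine (hN r hr' s hs').trans ?_
          rw [abs_of_nonneg (sub_nonneg.2 hr.1)]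
          have k3 : r - s ≤ 1 / (|N| + 1) := by linarith [hr.2]
          rw [le_div_iff₀ (by positivity)] at k3
          nlinarith [le_abs_self N, hr.1]
        refine (norm_hat_sub_le (n1 _ (by linarith)) W).trans (le_trans ?_ hε)
        rw [show 8 * (m + 1) / p = 2 * (1 + m) / (p / 4) by field_simp; ring]
        have k4 := (norm_sub_le_norm_sub_add_norm_sub (V r) (V s) W).trans (add_le_add k2 w1)
        have k5 := (norm_nonneg _).trans k4
        gcongr
      have v1 : ‖V t - (V t - G t (hat W))‖ ≤ m := by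
        rw [sub_sub_cancel]
        exact hG t ht _ w4
      refine ⟨_, v1, ?_⟩
      have v2 : ‖W - (V t - G t (hat W))‖ ≤ Θ t - Θ s + ‖V s - W - G s (hat W)‖ := by
        rw [norm_sub_rev, show V t - G t (hat W) - W = V t - V s - (G t (hat W) - G s (hat W)) +
          (V s - W - G s (hat W)) by abel]
        exact (norm_add_le _ _).trans (add_le_add_left h1 _)
      have v3 := hG' t ht _ _ w4 (norm_hat (n1 _ (n0 t ht _ v1)))
      have v4 : ‖hat W - hat (V t - G t (hat W))‖ * (p / 8) ≤ 2 * ‖W - (V t - G t (hat W))‖ :=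
        (mul_le_mul_of_nonneg_left w3 (norm_nonneg _)).trans
          ((le_div_iff₀ (by linarith)).1 (norm_hat_sub_le (n1 W w3) _))
      have v5 := norm_sub_le_norm_sub_add_norm_sub (V t - G t (hat W)) W (V a)
      rw [norm_sub_rev _ W] at v5
      rw [sub_sub_cancel]
      nlinarith [mul_le_mul_of_nonneg_right hΨp (norm_nonneg (hat W - hat (V t - G t (hat W))))]
  obtain ⟨j, hj⟩ := exists_nat_ge ((b - a) / (1 / (|N| + 1)))
  obtain ⟨W, w1, w2⟩ := key j b ⟨hab, le_rfl⟩ (by linarith [(div_le_iff₀ hd).1 hj])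
  linarith [norm_sub_le_norm_sub_add_norm_sub (V b) W (V a), norm_nonneg (V b - W - G b (hat W))]

end Vale.Agent.P107
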