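import Vale.Agent.P107.Basic

/-! Problem P107: reduction of box integrals and the near region. -/

open MeasureTheory Set Filter Topology
open scoped ENNReal RealInnerProductSpace

noncomputable section
namespace Vale.Agent.P107

namespace RedX

theorem vol {C : ℝ} (hC : ∀ e : V3, 1 / 2 ≤ ‖e‖ → ‖e‖ ≤ 1 → ∀ x y : ℝ, 0 < x → 0 < y →
      volume {v : V3 | q v ≤ x ∧ dd e (uu v) ≤ y} ≤ ENNReal.ofReal (C * x ^ 3 * y ^ 2))
    {U n : V3} (h1 : 1 / 2 ≤ ‖U‖) (h2 : ‖U‖ ≤ 1) (hn : ‖n‖ = 1) {p β θ : ℝ} (hp : 0 < p)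
    (hβ : 0 < β) (hθ : 0 < θ) :
    volume {v : V3 | q v ≤ 2 * p ∧ dd n (uu v) ≤ 2 * β ∧ dd U (uu v) ≤ 2 * θ} ≤
      ENNReal.ofReal (C * (2 * p) ^ 3 * (2 * min β θ) ^ 2) := by
  rcases le_total β θ with h | h
  · rw [min_eq_left h]
    refine le_trans (measure_mono fun v hv => ?_)
      (hC n (by rw [hn]; norm_num) hn.le _ _ (by positivity) (by positivity))
    exact ⟨hv.1, hv.2.1⟩
  · rw [min_eq_right h]
    refine le_trans (measure_mono fun v hv => ?_)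
      (hC U h1 h2 _ _ (by positivity) (by positivity))
    exact ⟨hv.1, hv.2.2⟩

theorem slice {C : ℝ} (hC0 : 0 < C)
    (hC : ∀ e : V3, 1 / 2 ≤ ‖e‖ → ‖e‖ ≤ 1 → ∀ x y : ℝ, 0 < x → 0 < y →
      volume {v : V3 | q v ≤ x ∧ dd e (uu v) ≤ y} ≤ ENNReal.ofReal (C * x ^ 3 * y ^ 2))
    {U : V3} (h1 : 1 / 2 ≤ ‖U‖) (h2 : ‖U‖ ≤ 1) {p α β θ : ℝ} (hp : 0 < p)
    (hβ : 0 < β) (hθ : 0 < θ) (s : ℝ) (ψ : V3 → ℝ≥0∞) :
    ∫⁻ y in {y : Z | ‖y.1‖ < s},
        (box U p α β θ).indicator (fun y => ψ y.1) y * ENNReal.ofReal (b2 y.1 y.2) ≤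
      ENNReal.ofReal (128 * C * p ^ 3 * min β θ ^ 2 * β ^ 2) *
        ∫⁻ w in {w : V3 | ‖w‖ < s ∧ dd (hat w) U ∈ Ico α (2 * α)}, ψ w := by
  have m1 : MeasurableSet {y : Z | ‖y.1‖ < s} := measurableSet_lt (by fun_prop) measurable_const
  have m2 : MeasurableSet {w : V3 | ‖w‖ < s} := measurableSet_lt (by fun_prop) measurable_const
  have m3 : Measurable fun w : V3 => dd (hat w) U := by fun_prop
  have m4 : MeasurableSet {w : V3 | ‖w‖ < s ∧ dd (hat w) U ∈ Ico α (2 * α)} :=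
    m2.inter (m3 measurableSet_Ico)
  rw [← lintegral_indicator m1, ← lintegral_indicator m4,
    ← lintegral_const_mul' _ _ ENNReal.ofReal_ne_top, Measure.volume_eq_prod]
  refine (lintegral_prod_le _).trans (lintegral_mono_ae ?_)
  filter_upwards [compl_mem_ae_iff.2 (measure_singleton (0 : V3))] with w hw
  have hw' : w ≠ 0 := hw
  calc _ ≤ ∫⁻ v, {v : V3 | q v ≤ 2 * p ∧ dd (hat w) (uu v) ≤ 2 * β ∧
        dd U (uu v) ≤ 2 * θ}.indicator (fun _ =>
          {w : V3 | ‖w‖ < s ∧ dd (hat w) U ∈ Ico α (2 * α)}.indicator ψ w *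
            ENNReal.ofReal ((2 * β) ^ 2)) v := by
        refine lintegral_mono fun v => ?_
        by_cases a1 : (w, v) ∈ {y : Z | ‖y.1‖ < s}
        · by_cases a2 : (w, v) ∈ box U p α β θ
          · rw [indicator_of_mem a1, indicator_of_mem a2,
              indicator_of_mem (s := {v : V3 | q v ≤ 2 * p ∧ dd (hat w) (uu v) ≤ 2 * β ∧
                dd U (uu v) ≤ 2 * θ}) ⟨a2.1.2.le, a2.2.2.1.2.le, a2.2.2.2.2.le⟩,
              indicator_of_mem (s := {w : V3 | ‖w‖ < s ∧ dd (hat w) U ∈ Ico α (2 * α)})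
                ⟨a1, a2.2.1⟩]
            refine mul_le_mul_right (ENNReal.ofReal_le_ofReal ?_) _
            rw [b2_eq]
            exact pow_le_pow_left₀ (dd_nonneg _ _) a2.2.2.1.2.le 2
          · rw [indicator_of_mem a1, indicator_of_notMem a2, zero_mul]
            exact zero_le
        · rw [indicator_of_notMem a1]
          exact zero_le
    _ ≤ _ := by
        refine (lintegral_indicator_const_le _ _).trans ?_
        rw [mul_assoc, mul_comm]
        refine mul_le_mul_left ?_ _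
        refine (mul_le_mul_right (vol hC h1 h2 (norm_hat hw') hp hβ hθ) _).trans ?_
        rw [← ENNReal.ofReal_mul (by positivity)]
        exact ENNReal.ofReal_le_ofReal (le_of_eq (by ring))

theorem outer {s₀ τ c : ℝ} (hc : 0 ≤ c) {f : ℝ → ℝ≥0∞}
    (h : ∀ s ∈ Icc s₀ (s₀ + τ), f s ≤ ENNReal.ofReal c) :
    ∫⁻ s in Icc s₀ (s₀ + τ), f s ≤ ENNReal.ofReal (c * τ) := by
  refine (setLIntegral_mono' measurableSet_Icc h).trans ?_
  rw [setLIntegral_const, Real.volume_Icc, add_sub_cancel_left, ENNReal.ofReal_mul hc]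

end RedX

theorem red (hp : Ph) (ht : Ton) : Red := by
  obtain ⟨C, hC0, hC⟩ := hp
  refine ⟨128 * C, by positivity, fun Γ T Λ N P z₀ s₀ τ p' hG hT p α β θ hp hα hβ hθ φ hφ => ?_⟩
  obtain ⟨-, -, -, t4, -, t6⟩ := ht Γ hG.toKin z₀ s₀ τ
  have hΛ : 0 ≤ Λ := by linarith [hG.hΛ]
  have m1 : Measurable ((Γ.Bx z₀ p α β θ).indicator fun x => φ (x.1, x.2.1)) :=
    (hφ.comp (by fun_prop)).indicator (t4 p α β θ)
  rw [← lintegral_indicator (t4 p α β θ), (t6 _ m1).2.1,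
    ← lintegral_const_mul' _ _ ENNReal.ofReal_ne_top]
  refine setLIntegral_mono' measurableSet_Icc fun s hs => ?_
  refine (hG.cone s ⟨hT.h0.trans hs.1, hs.2.trans hT.hT⟩ _ _
    (m1.comp measurable_prodMk_left)).trans ?_
  refine (mul_le_mul_right (RedX.slice hC0 (fun e a b x y c d => (hC e a b x y c d).1)
    (hT.half_le_U hs) (Γ.norm_U_le z₀ s) (α := α) hp hβ hθ s fun w => φ (s, w)) _).trans ?_
  rw [← mul_assoc, ← ENNReal.ofReal_mul hΛ]
  exact mul_le_mul_left (ENNReal.ofReal_le_ofReal (le_of_eq (by ring))) _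

theorem near (hp : Ph) (ht : Ton) (hr : Red) : Near := by
  obtain ⟨C, hC0, hC⟩ := hp
  obtain ⟨D, hD0, hD⟩ := hr
  refine ⟨D * (4 * C + 1), by positivity,
    fun Γ T Λ N P z₀ s₀ τ p' hG hT p α β θ hp hα hβ hθ => ⟨fun ρ hρ => ?_, ?_⟩⟩
  · have hΛ : 0 ≤ Λ := by linarith [hG.hΛ]
    have hτ := hT.hτ
    have m1 : MeasurableSet {y : ℝ × V3 | ‖y.2‖ ≤ ρ} :=
      measurableSet_le (by fun_prop) measurable_const
    have m2 : MeasurableSet {x : ℝ × Z | ‖x.2.1‖ ∈ Iic ρ} :=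
      measurableSet_le (f := fun x : ℝ × Z => ‖x.2.1‖) (by fun_prop) measurable_const
    have m3 : MeasurableSet {w : V3 | ‖w‖ ≤ ρ} := measurableSet_le (by fun_prop) measurable_const
    have h1 := hD Γ T Λ N P z₀ s₀ τ p' hG hT p α β θ hp hα hβ hθ
      ({y : ℝ × V3 | ‖y.2‖ ≤ ρ}.indicator fun y => ENNReal.ofReal (1 / ‖y.2‖ ^ 2))
      (Measurable.indicator (by fun_prop) m1)
    unfold PS.JA PS.IB
    rw [inter_comm, ← Measure.restrict_restrict m2, ← lintegral_indicator m2]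
    refine le_trans h1 ?_
    refine (mul_le_mul_right (RedX.outer (c := C * (2 * α) ^ 2 * ρ) (by positivity)
      fun s hs => ?_) _).trans ?_
    · refine le_trans ?_ (hC _ (hT.half_le_U hs) (Γ.norm_U_le z₀ s) ρ (2 * α) hρ
        (by positivity)).2
      refine (lintegral_indicator m3 fun w => ENNReal.ofReal (1 / ‖w‖ ^ 2)).le.trans ?_
      rw [Measure.restrict_restrict m3]
      exact lintegral_mono_set fun w hw => ⟨hw.1, hw.2.2.2.le⟩
    · rw [← ENNReal.ofReal_mul (by positivity)]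
      refine ENNReal.ofReal_le_ofReal ?_
      unfold Xq
      have : 0 ≤ D * Λ * (τ * p ^ 3 * min β θ ^ 2 * β ^ 2 * α ^ 2) * ρ := by positivity
      nlinarith
  · obtain ⟨-, t2, -⟩ := ht Γ hG.toKin z₀ s₀ τ
    have hΛ : 0 ≤ Λ := by linarith [hG.hΛ]
    have hτ := hT.hτ
    have m1 : Measurable fun y : ℝ × V3 => Γ.kk z₀ (y.1, y.2, 0) :=
      t2.measurable.comp (by fun_prop)
    have h1 := hD Γ T Λ N P z₀ s₀ τ p' hG hT p α β θ hp hα hβ hθ
      (fun y => ENNReal.ofReal (Kg (hat y.2) (Γ.kk z₀ (y.1, y.2, 0)) ^ 2)) (by fun_prop)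
    unfold PS.IB
    refine (lintegral_mono_set inter_subset_left).trans (le_trans h1 ?_)
    refine (mul_le_mul_right (RedX.outer (c := Λ) hΛ fun s hs => ?_) _).trans ?_
    · exact (lintegral_mono_set fun w hw => mem_ball_zero_iff.2 hw.1).trans
        (hG.coneK s ⟨hT.h0.trans hs.1, hs.2.trans hT.hT⟩ (Γ.Y s z₀))
    · rw [← ENNReal.ofReal_mul (by positivity)]
      refine ENNReal.ofReal_le_ofReal ?_
      have : 0 ≤ D * C * Λ ^ 2 * τ * p ^ 3 * min β θ ^ 2 * β ^ 2 := by positivity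
      nlinarith

end Vale.Agent.P107
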