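import Vale.Agent.P107.Basic

/-! Problem P107: basic properties of the retarded time. -/

open MeasureTheory Set Filter Topology
open scoped ENNReal RealInnerProductSpace

noncomputable section
namespace Vale.Agent.P107

namespace Ret1X

variable {Γ : PS}

theorem contY (hk : Γ.Kin) (z : Z) : Continuous (fun t => Γ.Y t z) :=
  hk.cY.comp (continuous_id.prodMk continuous_const)

theorem contV (hk : Γ.Kin) (z : Z) : Continuous (fun t => Γ.V t z) :=
  hk.cV.comp (continuous_id.prodMk continuous_const)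

theorem speed_lt (hk : Γ.Kin) (z : Z) {t t' : ℝ} (h : t' < t) :
    ‖Γ.Y t z - Γ.Y t' z‖ < t - t' := by
  have hc : Continuous (fun σ => ‖uu (Γ.V σ z)‖) := (continuous_uu.comp (contV hk z)).norm
  obtain ⟨σ₀, -, hσ₀⟩ := (isCompact_Icc (a := t') (b := t)).exists_isMaxOn
    (nonempty_Icc.2 h.le) hc.continuousOn
  have h1 := Convex.norm_image_sub_le_of_norm_hasDerivWithin_le (f := fun σ => Γ.Y σ z)
    (f' := fun σ => uu (Γ.V σ z)) (s := Icc t' t) (C := ‖uu (Γ.V σ₀ z)‖)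
    (fun x _ => (hk.dY x z).hasDerivWithinAt) (fun x hx => hσ₀ hx) (convex_Icc t' t)
    (left_mem_Icc.2 h.le) (right_mem_Icc.2 h.le)
  rw [Real.norm_of_nonneg (sub_pos.2 h).le] at h1
  have h2 := norm_uu_lt (Γ.V σ₀ z)
  have h3 : 0 < t - t' := sub_pos.2 h
  nlinarith

theorem speed (hk : Γ.Kin) (z : Z) (t t' : ℝ) (h : t ≠ t') :
    ‖Γ.Y t z - Γ.Y t' z‖ < |t - t'| := by
  rcases lt_or_gt_of_ne h with h1 | h1
  · rw [norm_sub_rev, abs_sub_comm, abs_of_pos (sub_pos.2 h1)]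
    exact speed_lt hk z h1
  · rw [abs_of_pos (sub_pos.2 h1)]
    exact speed_lt hk z h1

theorem speed_le (hk : Γ.Kin) (z : Z) {t t' : ℝ} (h : t' ≤ t) :
    ‖Γ.Y t z - Γ.Y t' z‖ ≤ t - t' := by
  rcases h.lt_or_eq with h1 | h1
  · exact (speed_lt hk z h1).le
  · subst h1; simp

/-- the cone defect -/
def hh (Γ : PS) (s : ℝ) (x : V3) (z : Z) (σ : ℝ) : ℝ := s - σ - ‖x - Γ.Y σ z‖

theorem hh_anti (hk : Γ.Kin) (s : ℝ) (x : V3) (z : Z) : StrictAnti (hh Γ s x z) := by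
  intro σ σ' h
  have h1 := speed_lt hk z h
  have h2 : ‖x - Γ.Y σ z‖ ≤ ‖x - Γ.Y σ' z‖ + ‖Γ.Y σ' z - Γ.Y σ z‖ :=
    norm_sub_le_norm_sub_add_norm_sub _ _ _
  unfold hh
  linarith

theorem hh_cont (hk : Γ.Kin) (s : ℝ) (x : V3) (z : Z) : Continuous (hh Γ s x z) := by
  unfold hh
  exact (continuous_const.sub continuous_id).sub (continuous_const.sub (contY hk z)).norm

theorem hh_cont' (hk : Γ.Kin) (y : ℝ) :
    Continuous (fun p : ℝ × V3 × Z => hh Γ p.1 p.2.1 p.2.2 y) := by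
  unfold hh
  have h1 : Continuous (fun p : ℝ × V3 × Z => Γ.Y y p.2.2) :=
    hk.cY.comp (continuous_const.prodMk (continuous_snd.comp continuous_snd))
  exact (continuous_fst.sub continuous_const).sub
    ((continuous_fst.comp continuous_snd).sub h1).norm

theorem set_eq (s : ℝ) (x : V3) (z : Z) :
    {σ | σ ∈ Icc 0 s ∧ ‖x - Γ.Y σ z‖ ≤ s - σ} = {σ | 0 ≤ σ ∧ 0 ≤ hh Γ s x z σ} := by
  ext σ
  simp only [mem_ofPred_eq, mem_Icc, hh]
  constructor
  · rintro ⟨⟨h1, -⟩, h3⟩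
    exact ⟨h1, by linarith⟩
  · rintro ⟨h1, h2⟩
    have := norm_nonneg (x - Γ.Y σ z)
    exact ⟨⟨h1, by linarith⟩, by linarith⟩

theorem mem_act_iff (s : ℝ) (x : V3) (z : Z) : z ∈ Γ.act s x ↔ 0 < hh Γ s x z 0 := by
  simp only [PS.act, mem_ofPred_eq, hh]
  constructor <;> intro h <;> linarith

theorem ret_of_root (hk : Γ.Kin) {s : ℝ} {x : V3} {z : Z} {σ : ℝ} (h0 : 0 ≤ σ)
    (h : hh Γ s x z σ = 0) : Γ.ret s x z = σ := by
  unfold PS.ret
  rw [set_eq]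
  have e : {σ' | 0 ≤ σ' ∧ 0 ≤ hh Γ s x z σ'} = Icc 0 σ := by
    ext σ'
    simp only [mem_ofPred_eq, mem_Icc]
    rw [← h, (hh_anti hk s x z).le_iff_ge]
  rw [e, csSup_Icc h0]

theorem exists_root (hk : Γ.Kin) {s : ℝ} {x : V3} {z : Z} (h : 0 < hh Γ s x z 0) :
    ∃ σ, 0 < σ ∧ hh Γ s x z σ = 0 := by
  have hs : 0 < s := by
    have := norm_nonneg (x - Γ.Y 0 z)
    unfold hh at h
    linarith
  have h1 : hh Γ s x z s ≤ 0 := by
    have := norm_nonneg (x - Γ.Y s z)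
    unfold hh
    linarith
  obtain ⟨σ, hσ, e⟩ := intermediate_value_Icc' hs.le (hh_cont hk s x z).continuousOn
    (show (0 : ℝ) ∈ Icc (hh Γ s x z s) (hh Γ s x z 0) from ⟨h1, h.le⟩)
  refine ⟨σ, lt_of_le_of_ne hσ.1 ?_, e⟩
  rintro rfl
  exact h.ne' e

theorem ret_of_nonpos (hk : Γ.Kin) {s : ℝ} {x : V3} {z : Z} (h : hh Γ s x z 0 ≤ 0) :
    Γ.ret s x z = 0 := by
  rcases h.lt_or_eq with h1 | h1
  · unfold PS.ret
    rw [set_eq]
    have e : {σ' | 0 ≤ σ' ∧ 0 ≤ hh Γ s x z σ'} = ∅ := by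
      rw [eq_empty_iff_forall_notMem]
      rintro σ ⟨h2, h3⟩
      have := (hh_anti hk s x z).antitone h2
      linarith
    rw [e, Real.sSup_empty]
  · exact ret_of_root hk le_rfl h1

theorem ret_of_pos (hk : Γ.Kin) {s : ℝ} {x : V3} {z : Z} (h : 0 < hh Γ s x z 0) :
    0 < Γ.ret s x z ∧ hh Γ s x z (Γ.ret s x z) = 0 := by
  obtain ⟨σ, h1, h2⟩ := exists_root hk h
  rw [ret_of_root hk h1.le h2]
  exact ⟨h1, h2⟩

theorem ret_nonneg (hk : Γ.Kin) (s : ℝ) (x : V3) (z : Z) : 0 ≤ Γ.ret s x z := by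
  rcases lt_or_ge 0 (hh Γ s x z 0) with h | h
  · exact (ret_of_pos hk h).1.le
  · exact (ret_of_nonpos hk h).ge

theorem hh_ret_le (hk : Γ.Kin) (s : ℝ) (x : V3) (z : Z) : hh Γ s x z (Γ.ret s x z) ≤ 0 := by
  rcases lt_or_ge 0 (hh Γ s x z 0) with h | h
  · exact (ret_of_pos hk h).2.le
  · rw [ret_of_nonpos hk h]; exact h

theorem lt_ret_iff (hk : Γ.Kin) {s : ℝ} {x : V3} {z : Z} {y : ℝ} (hy : 0 ≤ y) :
    y < Γ.ret s x z ↔ 0 < hh Γ s x z y := by
  rcases lt_or_ge 0 (hh Γ s x z 0) with h | h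
  · rw [← (ret_of_pos hk h).2, (hh_anti hk s x z).lt_iff_gt]
  · rw [ret_of_nonpos hk h]
    have := (hh_anti hk s x z).antitone hy
    constructor <;> intro h1 <;> linarith

theorem ret_lt_iff (hk : Γ.Kin) {s : ℝ} {x : V3} {z : Z} {y : ℝ} (hy : 0 < y) :
    Γ.ret s x z < y ↔ hh Γ s x z y < 0 := by
  rcases lt_or_ge 0 (hh Γ s x z 0) with h | h
  · rw [← (ret_of_pos hk h).2, (hh_anti hk s x z).lt_iff_gt]
  · rw [ret_of_nonpos hk h]
    have := hh_anti hk s x z hy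
    constructor <;> intro h1 <;> linarith

theorem ret_cont (hk : Γ.Kin) : Continuous (fun p : ℝ × V3 × Z => Γ.ret p.1 p.2.1 p.2.2) := by
  rw [OrderTopology.continuous_iff]
  intro a
  constructor
  · rcases lt_or_ge a 0 with h | h
    · have e : (fun p : ℝ × V3 × Z => Γ.ret p.1 p.2.1 p.2.2) ⁻¹' Ioi a = univ := by
        rw [eq_univ_iff_forall]
        intro p
        exact lt_of_lt_of_le h (ret_nonneg hk _ _ _)
      rw [e]; exact isOpen_univ
    · have e : (fun p : ℝ × V3 × Z => Γ.ret p.1 p.2.1 p.2.2) ⁻¹' Ioi a =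
          {p | 0 < hh Γ p.1 p.2.1 p.2.2 a} := by
        ext p
        exact lt_ret_iff hk h
      rw [e]; exact isOpen_lt continuous_const (hh_cont' hk a)
  · rcases lt_or_ge 0 a with h | h
    · have e : (fun p : ℝ × V3 × Z => Γ.ret p.1 p.2.1 p.2.2) ⁻¹' Iio a =
          {p | hh Γ p.1 p.2.1 p.2.2 a < 0} := by
        ext p
        exact ret_lt_iff hk h
      rw [e]; exact isOpen_lt (hh_cont' hk a) continuous_const
    · have e : (fun p : ℝ × V3 × Z => Γ.ret p.1 p.2.1 p.2.2) ⁻¹' Iio a = ∅ := by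
        rw [eq_empty_iff_forall_notMem]
        intro p hp
        exact absurd (lt_of_lt_of_le hp h) (not_lt.2 (ret_nonneg hk _ _ _))
      rw [e]; exact isOpen_empty

theorem hh_mono (hk : Γ.Kin) (z₀ z : Z) {s s' : ℝ} (h : s ≤ s') (y : ℝ) :
    hh Γ s (Γ.Y s z₀) z y ≤ hh Γ s' (Γ.Y s' z₀) z y := by
  have h1 := speed_le hk z₀ h
  have h2 : ‖Γ.Y s' z₀ - Γ.Y y z‖ ≤ ‖Γ.Y s' z₀ - Γ.Y s z₀‖ + ‖Γ.Y s z₀ - Γ.Y y z‖ :=
    norm_sub_le_norm_sub_add_norm_sub _ _ _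
  unfold hh
  linarith

theorem hh_smono (hk : Γ.Kin) (z₀ z : Z) {s s' : ℝ} (h : s < s') (y : ℝ) :
    hh Γ s (Γ.Y s z₀) z y < hh Γ s' (Γ.Y s' z₀) z y := by
  have h1 := speed_lt hk z₀ h
  have h2 : ‖Γ.Y s' z₀ - Γ.Y y z‖ ≤ ‖Γ.Y s' z₀ - Γ.Y s z₀‖ + ‖Γ.Y s z₀ - Γ.Y y z‖ :=
    norm_sub_le_norm_sub_add_norm_sub _ _ _
  unfold hh
  linarith

end Ret1X

open Ret1X in
theorem ret1 : Ret1 := by
  intro Γ hk
  have hcont := ret_cont hk
  refine
    { speed := speed hk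
      cont := hcont
      nonneg := ret_nonneg hk
      le := ?_
      act := ?_
      nact := ?_
      char := ?_
      char' := ?_
      up := ?_
      mono := ?_
      smono := ?_
      nohit := ?_
      cwv := ?_
      opn := ?_ }
  · intro s x z hs
    by_contra hc
    have h1 := (lt_ret_iff hk hs).1 (not_le.1 hc)
    have := norm_nonneg (x - Γ.Y s z)
    unfold hh at h1
    linarith
  · intro s x z hz
    obtain ⟨h1, h2⟩ := ret_of_pos hk ((mem_act_iff s x z).1 hz)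
    refine ⟨h1, ?_⟩
    unfold hh at h2
    show s - Γ.ret s x z = ‖x - Γ.Y (Γ.ret s x z) z‖
    linarith
  · intro s x z hz
    exact ret_of_nonpos hk (not_lt.1 (fun h => hz ((mem_act_iff s x z).2 h)))
  · intro s x z σ h0 h
    exact ret_of_root hk h0 (by unfold hh; linarith)
  · intro s x z σ h0 h
    rw [mem_act_iff]
    have h1 : hh Γ s x z σ = 0 := by unfold hh; linarith
    have h2 := hh_anti hk s x z h0
    linarith
  · intro z₀ z s s' h hz
    rw [mem_act_iff] at hz ⊢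
    exact lt_of_lt_of_le hz (hh_mono hk z₀ z h 0)
  · intro z₀ z s s' h
    by_contra hc
    have h1 := (lt_ret_iff hk (ret_nonneg hk s' (Γ.Y s' z₀) z)).1 (not_le.1 hc)
    have h2 := hh_mono hk z₀ z h (Γ.ret s' (Γ.Y s' z₀) z)
    have h3 := hh_ret_le hk s' (Γ.Y s' z₀) z
    linarith
  · intro z₀ z s hs s' _ h
    have h1 := ret_of_pos hk ((mem_act_iff _ _ z).1 hs)
    refine (lt_ret_iff hk h1.1.le).2 ?_
    have h2 := hh_smono hk z₀ z h (Γ.ret s (Γ.Y s z₀) z)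
    linarith [h1.2]
  · intro z₀ z t s hn hs h0
    have h0' : Γ.Y s z₀ - Γ.Y (Γ.ret s (Γ.Y s z₀) z) z = 0 := h0
    rcases lt_or_ge 0 (hh Γ s (Γ.Y s z₀) z 0) with h | h
    · have h2 := (ret_of_pos hk h).2
      unfold hh at h2
      rw [h0', norm_zero] at h2
      have h3 : Γ.ret s (Γ.Y s z₀) z = s := by linarith
      rw [h3] at h0'
      exact hn s hs (sub_eq_zero.1 h0').symm
    · rw [ret_of_nonpos hk h] at h0'
      unfold hh at h
      rw [h0', norm_zero] at h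
      have h3 : s = 0 := le_antisymm (by linarith) hs.1
      subst h3
      exact hn 0 hs (sub_eq_zero.1 h0').symm
  · unfold PS.wv
    have h1 : Continuous (fun p : ℝ × V3 × Z => (Γ.ret p.1 p.2.1 p.2.2, p.2.2)) :=
      hcont.prodMk (continuous_snd.comp continuous_snd)
    exact ((continuous_fst.comp continuous_snd).sub (hk.cY.comp h1)).prodMk (hk.cV.comp h1)
  · have e : {p : ℝ × V3 × Z | p.2.2 ∈ Γ.act p.1 p.2.1} = {p | 0 < hh Γ p.1 p.2.1 p.2.2 0} := by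
      ext p
      exact mem_act_iff _ _ _
    rw [e]; exact isOpen_lt continuous_const (hh_cont' hk 0)

end Vale.Agent.P107
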