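import Vale.Agent.P107.Basic

/-! Problem P107: derivatives of the retarded quantities along the test particle. -/

open MeasureTheory Set Filter Topology
open scoped ENNReal RealInnerProductSpace

noncomputable section
namespace Vale.Agent.P107

namespace Ret2X

/-- implicit differentiation of a continuous solution branch -/
theorem implicit {G : ℝ × ℝ → ℝ} {L : ℝ × ℝ →L[ℝ] ℝ} {σ : ℝ → ℝ} {s A B : ℝ}
    (hG : HasFDerivAt G L (s, σ s)) (hL : ∀ a b, L (a, b) = A * a - B * b) (hB : 0 < B)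
    (hσ : ContinuousAt σ s) (h0 : ∀ᶠ t in 𝓝 s, G (t, σ t) = 0) : HasDerivAt σ (A / B) s := by
  have hs : G (s, σ s) = 0 := h0.self_of_nhds
  have ht : Tendsto (fun t => (t, σ t)) (𝓝 s) (𝓝 (s, σ s)) :=
    (continuousAt_id.prodMk hσ)
  have h1 := (hasFDerivAt_iff_isLittleO.1 hG).comp_tendsto ht
  rw [hasDerivAt_iff_isLittleO, Asymptotics.isLittleO_iff]
  intro c hc
  set C : ℝ := 1 + |A / B| with hC
  have hC0 : 0 < C := by positivity
  set ε : ℝ := min (B / 2) (c * B / (2 * C)) with hε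
  have hε0 : 0 < ε := lt_min (by positivity) (by positivity)
  have hε1 : ε ≤ B / 2 := min_le_left _ _
  have hε2 : ε * C ≤ c * B / 2 := by
    have : ε ≤ c * B / (2 * C) := min_le_right _ _
    rw [le_div_iff₀ (by positivity)] at this
    linarith
  filter_upwards [Asymptotics.isLittleO_iff.1 h1 hε0, h0] with t h2 h3
  simp only [Function.comp_apply, h3, hs, sub_zero, Prod.mk_sub_mk, hL, zero_sub, norm_neg,
    Real.norm_eq_abs, Prod.norm_mk] at h2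
  simp only [Real.norm_eq_abs, smul_eq_mul]
  set d : ℝ := σ t - σ s - (t - s) * (A / B) with hd
  have e1 : A * (t - s) - B * (σ t - σ s) = -(B * d) := by
    rw [hd]; field_simp; ring
  rw [e1, abs_neg, abs_mul, abs_of_pos hB] at h2
  have e2 : σ t - σ s = d + (t - s) * (A / B) := by rw [hd]; ring
  have h4 : |σ t - σ s| ≤ |d| + |t - s| * |A / B| := by
    rw [e2, ← abs_mul]; exact abs_add_le _ _
  have n1 := abs_nonneg d
  have n2 := abs_nonneg (t - s)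
  have n3 := abs_nonneg (A / B)
  have h5 : max |t - s| |σ t - σ s| ≤ |d| + |t - s| * C := by
    rw [hC]
    apply max_le
    · nlinarith [mul_nonneg n2 n3]
    · nlinarith
  have h6 : B * |d| ≤ ε * (|d| + |t - s| * C) := h2.trans (mul_le_mul_of_nonneg_left h5 hε0.le)
  have h7 : ε * |d| ≤ B / 2 * |d| := mul_le_mul_of_nonneg_right hε1 n1
  have h8 : ε * C * |t - s| ≤ c * B / 2 * |t - s| := mul_le_mul_of_nonneg_right hε2 n2
  have h9 : B * |d| ≤ B * (c * |t - s|) := by nlinarith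
  exact le_of_mul_le_mul_left h9 hB

/-- the squared cone equation is differentiable -/
theorem cone_deriv {X Y : ℝ → V3} {U u : V3} {s σ : ℝ} (hX : HasDerivAt X U s)
    (hY : HasDerivAt Y u σ) :
    ∃ L : ℝ × ℝ →L[ℝ] ℝ,
      HasFDerivAt (fun p : ℝ × ℝ => (p.1 - p.2) ^ 2 - ‖X p.1 - Y p.2‖ ^ 2) L (s, σ) ∧
      ∀ a b, L (a, b) = (2 * ((s - σ) - ⟪X s - Y σ, U⟫)) * a
        - (2 * ((s - σ) - ⟪X s - Y σ, u⟫)) * b := by
  have h1 : HasFDerivAt (fun p : ℝ × ℝ => X p.1) _ (s, σ) :=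
    HasFDerivAt.comp (s, σ) (g := X) hX.hasFDerivAt (hasFDerivAt_fst (𝕜 := ℝ))
  have h2 : HasFDerivAt (fun p : ℝ × ℝ => Y p.2) _ (s, σ) :=
    HasFDerivAt.comp (s, σ) (g := Y) hY.hasFDerivAt (hasFDerivAt_snd (𝕜 := ℝ))
  have h3 := (h1.sub h2).norm_sq
  have h4 : HasFDerivAt (fun p : ℝ × ℝ => p.1 - p.2) _ (s, σ) :=
    (hasFDerivAt_fst (𝕜 := ℝ)).sub (hasFDerivAt_snd (𝕜 := ℝ))
  have h5 := h4.pow 2
  refine ⟨_, h5.sub h3, fun a b => ?_⟩
  simp [inner_sub_left]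
  ring

end Ret2X

open Ret2X in
theorem ret2 (h : Ret1) : Ret2 := by
  intro Γ hk z₀ z s hz hw
  have hR := h Γ hk
  have cX : Continuous (fun t => Γ.Y t z₀) := hk.cY.comp (continuous_id.prodMk continuous_const)
  have cP : Continuous (fun t : ℝ => ((t, Γ.Y t z₀, z) : ℝ × V3 × Z)) :=
    continuous_id.prodMk (cX.prodMk continuous_const)
  have cσ : Continuous (fun t => Γ.ret t (Γ.Y t z₀) z) := hR.cont.comp cP
  have hop : ∀ᶠ t in 𝓝 s, z ∈ Γ.act t (Γ.Y t z₀) :=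
    (hR.opn.preimage cP).mem_nhds hz
  have hr := (hR.act s _ z hz).2
  set σ : ℝ → ℝ := fun t => Γ.ret t (Γ.Y t z₀) z with hσ
  set w : V3 := (Γ.wv s (Γ.Y s z₀) z).1 with hwd
  set v : V3 := (Γ.wv s (Γ.Y s z₀) z).2 with hvd
  have ew : w = Γ.Y s z₀ - Γ.Y (σ s) z := rfl
  have ev : v = Γ.V (σ s) z := rfl
  have hr' : s - σ s = ‖w‖ := hr
  have hwp : 0 < ‖w‖ := norm_pos_iff.2 hw
  have dX : HasDerivAt (fun t => Γ.Y t z₀) (Γ.U z₀ s) s := hk.dY s z₀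
  have dY : HasDerivAt (fun t => Γ.Y t z) (uu v) (σ s) := hk.dY (σ s) z
  obtain ⟨L, hL1, hL2⟩ := cone_deriv dX dY
  have hb := dd_uu_pos (norm_hat_le w) v
  have hB : 0 < 2 * ((s - σ s) - ⟪Γ.Y s z₀ - Γ.Y (σ s) z, uu v⟫) := by
    rw [← ew, hr', norm_sub_inner w _ (norm_uu_le v)]
    positivity
  have h1 := implicit (σ := σ) hL1 hL2 hB cσ.continuousAt (by
    filter_upwards [hop] with t ht
    have h2 : t - σ t = ‖Γ.Y t z₀ - Γ.Y (σ t) z‖ := (hR.act t _ z ht).2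
    show (t - σ t) ^ 2 - ‖Γ.Y t z₀ - Γ.Y (σ t) z‖ ^ 2 = 0
    rw [h2, sub_self])
  have e1 : 2 * ((s - σ s) - ⟪Γ.Y s z₀ - Γ.Y (σ s) z, Γ.U z₀ s⟫) /
      (2 * ((s - σ s) - ⟪Γ.Y s z₀ - Γ.Y (σ s) z, uu v⟫)) = sgp (Γ.U z₀ s) w v := by
    rw [← ew, hr', norm_sub_inner w _ (norm_uu_le v), norm_sub_inner w _ (Γ.norm_U_le z₀ s)]
    unfold sgp
    field_simp
  rw [e1] at h1
  refine ⟨h1, ?_, ?_⟩
  · have h2 := HasDerivAt.scomp s (g₁ := fun t => Γ.Y t z) (h := σ) dY h1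
    exact dX.sub h2
  · have h3 := hasDerivAt_uu (hk.dV (σ s) z)
    have h4 := HasDerivAt.scomp s (g₁ := fun t => uu (Γ.V t z)) (h := σ) h3 h1
    have e2 : Γ.kk z₀ (s, Γ.wv s (Γ.Y s z₀) z) = Γ.K (σ s) (Γ.Y (σ s) z) := by
      show Γ.K (s - ‖w‖) (Γ.Y s z₀ - w) = _
      rw [← hr', ew, sub_sub_cancel, sub_sub_cancel]
    rw [e2]
    exact h4

end Vale.Agent.P107
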