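import Vale.Agent.P107.Basic

/-! Problem P107: the shell sum for the acceleration terms. -/

noncomputable section
namespace Vale.Agent.P107

namespace ShSX

theorem pow4 {α β θ μ ν : ℝ} (hβ : 0 < β) (hθ : 0 < θ) (hμ : 0 ≤ μ) (hν : 0 ≤ ν) :
    ((α + β ^ 2) / β ^ 3 * μ * √(μ * β * ν * √((β + θ) / θ) / θ)) ^ 4 =
      (α + β ^ 2) ^ 4 * μ ^ 6 * ν ^ 2 * (β + θ) / (β ^ 10 * θ ^ 3) := by
  have h1 := Real.sq_sqrt (show 0 ≤ (β + θ) / θ by positivity)
  have h2 := Real.sq_sqrt (show 0 ≤ μ * β * ν * √((β + θ) / θ) / θ by positivity)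
  have h3 : ∀ x : ℝ, x ^ 4 = (x ^ 2) ^ 2 := fun x => by ring
  rw [mul_pow, h3 √_, h2, div_pow, mul_pow _ √_, h1]
  field_simp

theorem bound {α β θ δ μ ν : ℝ} (hα : 0 < α) (hβ : 0 < β) (hθ : 0 < θ) (hδ : 0 < δ)
    (β1 : β ≤ 1) (δ1 : δ ≤ 1) (hμ : 0 ≤ μ) (hν : 0 ≤ ν) (μ1 : μ ≤ β) (μ2 : μ ≤ θ) (ν1 : ν ≤ α)
    (ν2 : ν ≤ β) (t1 : α ≤ 2 * β + 2 * θ) (t2 : β ≤ 2 * α + 2 * θ) (t3 : θ ≤ 2 * α + 2 * β)
    (h : δ * α ≤ 8 * β) :
    (α + β ^ 2) ^ 4 * μ ^ 6 * ν ^ 2 * (β + θ) / (β ^ 10 * θ ^ 3) ≤ 10 ^ 16 / δ ^ 2 *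
      min (α / θ) (θ / α) * max (min (β / (δ * α / 8)) (δ * α / 8 / β)) (min (β / θ) (θ / β)) := by
  have b2 : β ^ 2 ≤ β := by nlinarith
  have d2 : (10 : ℝ) ^ 16 ≤ 10 ^ 16 / δ ^ 2 :=
    le_div_self (by norm_num) (by positivity) (pow_le_one₀ hδ.le δ1)
  rcases le_or_gt (8 * β) α with c1 | c1
  · have m1 : 1 / 4 ≤ min (α / θ) (θ / α) :=
      le_min (by rw [le_div_iff₀ hθ]; linarith) (by rw [le_div_iff₀ hα]; linarith)
    have m2 : δ * α / 8 / β ≤ min (β / (δ * α / 8)) (δ * α / 8 / β) := by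
      refine le_min (le_trans (b := 1) ?_ ?_) le_rfl
      · rw [div_le_one hβ]; linarith
      · rw [one_le_div (by positivity)]; linarith
    have m3 : α / β ≤ 8 / δ := by rw [div_le_div_iff₀ hβ hδ]; linarith
    have m4 : α / θ ≤ 4 := by rw [div_le_iff₀ hθ]; linarith
    calc _ ≤ (2 * α) ^ 4 * β ^ 6 * β ^ 2 * (2 * θ) / (β ^ 10 * θ ^ 3) := by
          gcongr <;> linarith
      _ = 32 * (α / θ) ^ 2 * (α / β) * (α / β) := by field_simp; ring
      _ ≤ 32 * 4 ^ 2 * (8 / δ) * (α / β) := by gcongr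
      _ = 131072 / δ ^ 2 * (1 / 4) * (δ * α / 8 / β) := by field_simp; ring
      _ ≤ _ := by
          gcongr
          · norm_num
          · exact m2.trans (le_max_left _ _)
  rcases le_or_gt (8 * α) β with c2 | c2
  · have m0 : α / θ ≤ 1 := by rw [div_le_one hθ]; linarith
    have m1 : α / θ ≤ min (α / θ) (θ / α) :=
      le_min le_rfl (m0.trans (by rw [one_le_div hα]; linarith))
    have m2 : 1 / 4 ≤ min (β / θ) (θ / β) :=
      le_min (by rw [le_div_iff₀ hθ]; linarith) (by rw [le_div_iff₀ hβ]; linarith)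
    have m4 : β / θ ≤ 4 := by rw [div_le_iff₀ hθ]; linarith
    calc _ ≤ (2 * β) ^ 4 * β ^ 6 * α ^ 2 * (5 * β) / (β ^ 10 * θ ^ 3) := by
          gcongr <;> linarith
      _ = 80 * (β / θ) * (α / θ) * (α / θ) := by field_simp; ring
      _ ≤ 80 * 4 * 1 * (α / θ) := by gcongr
      _ = 1280 * (α / θ) * (1 / 4) := by ring
      _ ≤ _ := by
          gcongr
          · exact le_trans (by norm_num) d2
          · exact m2.trans (le_max_right _ _)
  · have m0 : θ / β ≤ 18 := by rw [div_le_iff₀ hβ]; linarith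
    have m5 : θ / β / 324 ≤ β / θ := by
      rw [div_div, div_le_div_iff₀ (by positivity) hθ]
      nlinarith
    have m1 : θ / β / 2592 ≤ min (α / θ) (θ / α) := by
      refine le_min ?_ ?_
      · calc _ = θ / β / 324 / 8 := by ring
          _ ≤ β / θ / 8 := by gcongr
          _ = β / 8 / θ := by ring
          _ ≤ _ := by gcongr; linarith
      · rw [div_div]
        gcongr
        linarith
    have m2 : θ / β / 324 ≤ min (β / θ) (θ / β) :=
      le_min m5 (div_le_self (by positivity) (by norm_num))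
    calc _ ≤ (9 * β) ^ 4 * θ ^ 6 * β ^ 2 * (19 * β) / (β ^ 10 * θ ^ 3) := by
          gcongr <;> linarith
      _ = 124659 * (θ / β) * (θ / β) ^ 2 := by field_simp; ring
      _ ≤ 124659 * 18 * (θ / β) ^ 2 := by gcongr
      _ = (124659 * 18 * 2592 * 324) * (θ / β / 2592) * (θ / β / 324) := by ring
      _ ≤ _ := by
          gcongr
          · exact le_trans (by norm_num) d2
          · exact m2.trans (le_max_right _ _)

theorem root4 {s δ X Y Z : ℝ} (hδ : 0 < δ) (hX : 0 ≤ X) (hY : 0 ≤ Y) (hZ : 0 ≤ Z)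
    (h : s ^ 4 ≤ 10 ^ 16 / δ ^ 2 * X * max Y Z) :
    s ≤ 10 ^ 4 / √δ * (X ^ (1 / 4 : ℝ) * (Y ^ (1 / 4 : ℝ) + Z ^ (1 / 4 : ℝ))) := by
  have e : ∀ x : ℝ, 0 ≤ x → (x ^ (1 / 4 : ℝ)) ^ 4 = x := fun x hx => by
    rw [← Real.rpow_natCast, ← Real.rpow_mul hx]
    norm_num
  refine le_of_pow_le_pow_left₀ (n := 4) (by norm_num) (by positivity) (h.trans ?_)
  have e2 : √δ ^ 4 = δ ^ 2 := by rw [show (4 : ℕ) = 2 * 2 from rfl, pow_mul, Real.sq_sqrt hδ.le]
  rw [mul_pow, mul_pow, div_pow, e2, e X hX, ← pow_mul, mul_assoc]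
  gcongr
  refine max_le ?_ ?_
  · conv_lhs => rw [← e Y hY]
    gcongr
    exact le_add_of_nonneg_right (by positivity)
  · conv_lhs => rw [← e Z hZ]
    gcongr
    exact le_add_of_nonneg_left (by positivity)

end ShSX

theorem shS (h : Geo) : ShS := by
  classical
  obtain ⟨C, C0, hC⟩ := h (1 / 4) (by norm_num)
  refine ⟨10 ^ 4 * (C * (C + C)), by positivity, fun k i m δ hδ δ1 => ?_⟩
  have p := dy_pos
  have mn : ∀ x y : ℝ, 0 < x → 0 < y → 0 ≤ min (x / y) (y / x) := fun x y hx hy => by positivity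
  calc _ ≤ ∑ a ∈ Idx2 k i m, 10 ^ 4 / √δ * (min (dy a.1 / dy m) (dy m / dy a.1) ^ (1 / 4 : ℝ) *
        (min (dy a.2 / (δ * dy a.1 / 8)) (δ * dy a.1 / 8 / dy a.2) ^ (1 / 4 : ℝ) +
          min (dy a.2 / dy m) (dy m / dy a.2) ^ (1 / 4 : ℝ))) := by
        refine Finset.sum_le_sum fun a ha => ?_
        obtain ⟨-, -, t1, t2, t3⟩ := (Finset.mem_filter.1 ha).2
        have p1 := p a.1
        have p2 := p a.2
        have p3 := p m
        unfold sw1
        split_ifs with c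
        · rw [one_mul]
          refine ShSX.root4 hδ (mn _ _ p1 p3) (mn _ _ p2 (by positivity)) (mn _ _ p2 p3) ?_
          rw [ShSX.pow4 p2 p3 (by positivity) (by positivity)]
          exact ShSX.bound p1 p2 p3 hδ (dy_le_one _) δ1 (by positivity) (by positivity)
            (min_le_left _ _) (min_le_right _ _) (min_le_left _ _) (min_le_right _ _) t1 t2 t3 c
        · rw [zero_mul]
          positivity
    _ ≤ ∑ a ∈ Finset.range (k + 3) ×ˢ Finset.range (k + 3), _ := by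
        refine Finset.sum_le_sum_of_subset_of_nonneg (Finset.filter_subset _ _) fun a _ _ => ?_
        have p1 := p a.1
        have p2 := p a.2
        have p3 := p m
        positivity
    _ ≤ 10 ^ 4 / √δ * (C * (C + C)) := by
        rw [← Finset.mul_sum, Finset.sum_product]
        gcongr
        refine le_trans (Finset.sum_le_sum (g := fun j => min (dy j / dy m) (dy m / dy j) ^
          (1 / 4 : ℝ) * (C + C)) fun j _ => ?_) ?_
        · simp only [← Finset.mul_sum, Finset.sum_add_distrib]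
          exact mul_le_mul_of_nonneg_left (add_le_add (hC _ _ (by have := p j; positivity)).1
            (hC _ _ (p m)).1) (Real.rpow_nonneg (mn _ _ (p j) (p m)) _)
        · rw [← Finset.sum_mul]
          exact mul_le_mul_of_nonneg_right (hC _ _ (p m)).1 (by positivity)
    _ = _ := by ring

end Vale.Agent.P107
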