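import Vale.Agent.P107.Basic

/-! Problem P107: the shape sum for the T terms. -/

noncomputable section
namespace Vale.Agent.P107
namespace ShTX

theorem p1 {α β θ u : ℝ} (hα : 0 < α) (hu : 0 < u) (h1 : u ≤ β) (h2 : u ≤ θ)
    (h3 : α ≤ 2 * β + 2 * θ) :
    α * (min β θ * √((β + θ) / θ) / θ) * u / β ^ 2 ≤ 12 * √(min (α / θ) (θ / α)) := by
  have hβ : 0 < β := hu.trans_le h1
  have hθ : 0 < θ := hu.trans_le h2
  obtain ⟨m, hm⟩ : ∃ m, m = min β θ := ⟨_, rfl⟩
  have m1 : u ≤ m := hm ▸ le_min h1 h2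
  have m2 : m ≤ β := hm ▸ min_le_left _ _
  have m0 : 0 < m := hu.trans_le m1
  have m3 : m * (β + θ) ≤ 2 * β * θ := by
    have m4 : m ≤ θ := hm ▸ min_le_right _ _
    nlinarith [mul_le_mul_of_nonneg_right m2 hθ.le, mul_le_mul_of_nonneg_right m4 hβ.le]
  have h4 : α ≤ 2 * (β + θ) := by linarith
  rw [← hm, ← div_le_iff₀' (by norm_num)]
  refine Real.le_sqrt_of_sq_le ?_
  have e : (α * (m * √((β + θ) / θ) / θ) * u / β ^ 2 / 12) ^ 2 =
      α ^ 2 * m ^ 2 * u ^ 2 * (β + θ) / (144 * θ ^ 3 * β ^ 4) := by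
    rw [div_pow, div_pow, mul_pow, mul_pow, div_pow, mul_pow, Real.sq_sqrt (by positivity)]
    field_simp
    ring
  rw [e]
  refine le_min ?_ ?_
  · rw [div_le_div_iff₀ (by positivity) hθ]
    calc α ^ 2 * m ^ 2 * u ^ 2 * (β + θ) * θ = α * θ * (α * m ^ 2 * u ^ 2 * (β + θ)) := by ring
      _ ≤ α * θ * (2 * (β + θ) * m ^ 2 * β ^ 2 * (β + θ)) := by gcongr
      _ = 2 * α * θ * β ^ 2 * (m * (β + θ)) ^ 2 := by ring
      _ ≤ 2 * α * θ * β ^ 2 * (2 * β * θ) ^ 2 := by gcongr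
      _ = 8 * (α * θ ^ 3 * β ^ 4) := by ring
      _ ≤ 144 * (α * θ ^ 3 * β ^ 4) := by gcongr; norm_num
      _ = _ := by ring
  · rw [div_le_div_iff₀ (by positivity) hα]
    calc α ^ 2 * m ^ 2 * u ^ 2 * (β + θ) * α = α ^ 3 * m ^ 2 * u ^ 2 * (β + θ) := by ring
      _ ≤ (2 * (β + θ)) ^ 3 * m ^ 2 * m ^ 2 * (β + θ) := by gcongr
      _ = 8 * (m * (β + θ)) ^ 4 := by ring
      _ ≤ 8 * (2 * β * θ) ^ 4 := by gcongr
      _ = 128 * (θ ^ 4 * β ^ 4) := by ring
      _ ≤ 144 * (θ ^ 4 * β ^ 4) := by gcongr; norm_num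
      _ = _ := by ring

theorem part1 {p α β θ : ℝ} (hp : 0 < p) (hα : 0 < α) (hβ : 0 < β) (hθ : 0 < θ)
    (h : Adm p α β θ) :
    (α + β) / (p ^ 2 * β ^ 5) * (min β θ * β * min α β * √((β + θ) / θ) / θ) ≤
      864 * min (β / (6 * p)⁻¹) ((6 * p)⁻¹ / β) * √(min (α / θ) (θ / α)) := by
  obtain ⟨h1, h2, h3, -, -⟩ := h
  obtain ⟨u, hu⟩ : ∃ u, u = (6 * p)⁻¹ := ⟨_, rfl⟩
  have u0 : 0 < u := by rw [hu]; positivity
  have u1 : u ≤ β := by rw [hu]; exact (inv_le_iff_one_le_mul₀' (by positivity)).2 h1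
  have u2 : u ≤ θ := by rw [hu]; exact (inv_le_iff_one_le_mul₀' (by positivity)).2 h2
  have hp' : p = (6 * u)⁻¹ := by rw [hu]; field_simp
  have h4 := p1 hα u0 u1 u2 h3
  have h5 : min (β / u) (u / β) = u / β :=
    min_eq_right (((div_le_one hβ).2 u1).trans ((one_le_div u0).2 u1))
  have h6 : (α + β) * min α β ≤ 2 * α * β := by
    nlinarith [mul_le_mul_of_nonneg_left (min_le_left α β) hβ.le,
      mul_le_mul_of_nonneg_left (min_le_right α β) hα.le]
  have h7 : 0 ≤ min β θ * √((β + θ) / θ) / θ := by positivity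
  rw [← hu, h5, hp']
  generalize √(min (α / θ) (θ / α)) = M at h4 ⊢
  calc _ = (α + β) * min α β * (36 * u ^ 2 / β ^ 4 * (min β θ * √((β + θ) / θ) / θ)) := by
        field_simp
        ring
    _ ≤ 2 * α * β * (36 * u ^ 2 / β ^ 4 * (min β θ * √((β + θ) / θ) / θ)) := by gcongr
    _ = 72 * (u / β) * (α * (min β θ * √((β + θ) / θ) / θ) * u / β ^ 2) := by
        field_simp
        ring
    _ ≤ 72 * (u / β) * (12 * M) := by gcongr
    _ = _ := by ring

theorem part2 {p α β θ δ : ℝ} (hα : 0 < α) (hβ : 0 < β) (hθ : 0 < θ) (hδ : 0 < δ)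
    (hδ' : δ ≤ 1 / 32) (h : Adm p α β θ) (hb : β ≤ 4 * δ * α) :
    (1 / β ^ 2 + 1 / (δ ^ 2 * α * β)) * (min β θ * β * min α β * √((β + θ) / θ) / θ) ≤
      200 * min (β / (4 * δ * α)) (4 * δ * α / β) * √(min (α / θ) (θ / α)) := by
  obtain ⟨-, -, h3, -, h4⟩ := h
  have h5 : 8 * β ≤ α := by nlinarith
  have h6 : 3 * α ≤ 8 * θ := by linarith
  have h7 : min (β / (4 * δ * α)) (4 * δ * α / β) = β / (4 * δ * α) :=
    min_eq_left (((div_le_one (by positivity)).2 hb).trans ((one_le_div hβ).2 hb))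
  have h8 : 1 / 2 ≤ √(min (α / θ) (θ / α)) := by
    refine Real.le_sqrt_of_sq_le (le_min ?_ ?_)
    · rw [le_div_iff₀ hθ]; linarith
    · rw [le_div_iff₀ hα]; linarith
  have h9 : √((β + θ) / θ) ≤ 2 := by
    rw [Real.sqrt_le_iff, div_le_iff₀ hθ]
    exact ⟨by norm_num, by linarith⟩
  obtain ⟨y, hy⟩ : ∃ y, y = β / (4 * δ * α) := ⟨_, rfl⟩
  have y0 : 0 < y := by rw [hy]; positivity
  have y1 : y ≤ 1 := by rw [hy]; exact (div_le_one (by positivity)).2 hb
  have y2 : β = 4 * δ * α * y := by rw [hy]; field_simp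
  rw [h7, ← hy]
  calc _ ≤ (1 / β ^ 2 + 1 / (δ ^ 2 * α * β)) * (β * β * β * 2 / (3 * α / 8)) := by
        gcongr
        exacts [min_le_left _ _, min_le_right _ _, by linarith]
    _ = 64 / 3 * δ * y + 256 / 3 * y * y := by
        rw [y2]
        field_simp
        ring
    _ ≤ 64 / 3 * (1 / 32) * y + 256 / 3 * y * 1 := by gcongr
    _ ≤ 200 * y * (1 / 2) := by linarith
    _ ≤ _ := by gcongr

end ShTX

theorem shT (h : Geo) : ShT := by
  classical
  obtain ⟨C₁, hC₁, h1⟩ := h 1 one_pos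
  obtain ⟨C₂, hC₂, h2⟩ := h (1 / 2) (by norm_num)
  refine ⟨1064 * C₁ * C₂, by positivity, fun k i m δ hδ hδ' => ?_⟩
  have hθ := dy_pos m
  have hp : (0 : ℝ) < 2 ^ i := by positivity
  calc _ ≤ ∑ a ∈ Idx2 k i m, (864 * min (dy a.2 / (6 * 2 ^ i)⁻¹) ((6 * 2 ^ i)⁻¹ / dy a.2) +
          200 * min (dy a.2 / (4 * δ * dy a.1)) (4 * δ * dy a.1 / dy a.2)) *
            √(min (dy a.1 / dy m) (dy m / dy a.1)) := by
        refine Finset.sum_le_sum fun a ha => ?_
        have hA : Adm (2 ^ i) (dy a.1) (dy a.2) (dy m) := by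
          unfold Idx2 at ha
          exact (Finset.mem_filter.1 ha).2
        have hα := dy_pos a.1
        have hβ := dy_pos a.2
        rw [tw, add_mul, add_mul]
        refine add_le_add (ShTX.part1 hp hα hβ hθ hA) ?_
        split_ifs with hb
        · exact ShTX.part2 hα hβ hθ hδ hδ' hA hb
        · rw [zero_mul]
          positivity
    _ ≤ ∑ a ∈ Finset.range (k + 3) ×ˢ Finset.range (k + 3),
          (864 * min (dy a.2 / (6 * 2 ^ i)⁻¹) ((6 * 2 ^ i)⁻¹ / dy a.2) +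
          200 * min (dy a.2 / (4 * δ * dy a.1)) (4 * δ * dy a.1 / dy a.2)) *
            √(min (dy a.1 / dy m) (dy m / dy a.1)) := by
        refine Finset.sum_le_sum_of_subset_of_nonneg ?_ fun a _ _ => ?_
        · unfold Idx2
          exact Finset.filter_subset _ _
        · have hα := dy_pos a.1
          have hβ := dy_pos a.2
          positivity
    _ ≤ ∑ j ∈ Finset.range (k + 3), 1064 * C₁ * min (dy j / dy m) (dy m / dy j) ^ (1 / 2 : ℝ) := by
        rw [Finset.sum_product]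
        refine Finset.sum_le_sum fun j _ => ?_
        have hα := dy_pos j
        have h3 := (h1 (k + 3) (6 * 2 ^ i)⁻¹ (by positivity)).1
        have h4 := (h1 (k + 3) (4 * δ * dy j) (by positivity)).1
        simp only [Real.rpow_one] at h3 h4
        dsimp only
        rw [← Finset.sum_mul, Finset.sum_add_distrib, ← Finset.mul_sum, ← Finset.mul_sum,
          Real.sqrt_eq_rpow]
        refine mul_le_mul_of_nonneg_right (by linarith) (by positivity)
    _ ≤ _ := by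
        rw [← Finset.mul_sum]
        exact mul_le_mul_of_nonneg_left (h2 (k + 3) (dy m) hθ).1 (by positivity)

end Vale.Agent.P107
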