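import Vale.Agent.P107.Basic

/-! Problem P107, part I: space-time energy and cone energy. -/

open MeasureTheory Set Filter Topology
open scoped ENNReal RealInnerProductSpace

noncomputable section
namespace Vale.Agent.P107

namespace SpEX

/-- change of variables to the retarded time for one particle -/
theorem one (h1 : Ret1) (h2 : Ret2) {Γ : PS} (hk : Γ.Kin) {z₀ z : Z} {s₀ t : ℝ} (h0 : 0 ≤ s₀)
    (hz : Γ.NoHit z₀ t z) (φ : ℝ → ℝ≥0∞) :
    ∫⁻ s in Icc s₀ t ∩ {s | z ∈ Γ.act s (Γ.Y s z₀)},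
      φ (s - ‖(Γ.wv s (Γ.Y s z₀) z).1‖) * ENNReal.ofReal (q (Γ.wv s (Γ.Y s z₀) z).2 *
        sgp (Γ.U z₀ s) (Γ.wv s (Γ.Y s z₀) z).1 (Γ.wv s (Γ.Y s z₀) z).2) ≤
      ∫⁻ σ in Icc 0 t, φ σ * ENNReal.ofReal (q (Γ.V σ z)) := by
  have hr := h1 Γ hk
  have hY : Continuous fun s : ℝ => Γ.Y s z₀ :=
    hk.cY.comp (continuous_id.prodMk continuous_const)
  have hA : MeasurableSet (Icc s₀ t ∩ {s | z ∈ Γ.act s (Γ.Y s z₀)}) :=
    measurableSet_Icc.inter
      (hr.opn.preimage (continuous_id.prodMk (hY.prodMk continuous_const))).measurableSet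
  have key := lintegral_image_eq_lintegral_abs_deriv_mul hA
    (f := fun s => Γ.ret s (Γ.Y s z₀) z)
    (f' := fun s => sgp (Γ.U z₀ s) (Γ.wv s (Γ.Y s z₀) z).1 (Γ.wv s (Γ.Y s z₀) z).2)
    (fun s hs => (h2 Γ hk z₀ z s hs.2
      (hr.nohit z₀ z t s hz ⟨h0.trans hs.1.1, hs.1.2⟩)).1.hasDerivWithinAt)
    ((hr.smono z₀ z).injOn.mono inter_subset_right)
    (fun σ => φ σ * ENNReal.ofReal (q (Γ.V σ z)))
  refine le_trans (le_of_eq ?_) (key.symm.le.trans (lintegral_mono_set ?_))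
  · refine setLIntegral_congr_fun hA fun s hs => ?_
    have h3 : s - ‖(Γ.wv s (Γ.Y s z₀) z).1‖ = Γ.ret s (Γ.Y s z₀) z := by
      rw [← (hr.act s _ z hs.2).2]; ring
    have h4 : (Γ.wv s (Γ.Y s z₀) z).2 = Γ.V (Γ.ret s (Γ.Y s z₀) z) z := rfl
    rw [h3, abs_of_nonneg (sgp_nonneg _ _ _), ENNReal.ofReal_mul (q_pos _).le, ← h4]
    ring
  · rintro _ ⟨s, hs, rfl⟩
    exact ⟨hr.nonneg _ _ _, (hr.le _ _ _ (h0.trans hs.1.1)).trans hs.1.2⟩

end SpEX

theorem spE (h1 : Ret1) (h2 : Ret2) (ht : Ton) (hc : Crude) (hn : NoHitS) : SpE := by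
  intro Γ T Λ N P z₀ s₀ τ p' hG hT
  have hk := hG.toKin
  have hr := h1 Γ hk
  have := hk.fin
  obtain ⟨-, -, hU, -, -, hton⟩ := ht Γ hk z₀ s₀ τ
  have hU' : Measurable (Γ.U z₀) := hU.measurable
  have hI : ∀ s ∈ Icc s₀ (s₀ + τ), s ∈ Icc (0 : ℝ) T := fun s hs =>
    ⟨hT.h0.trans hs.1, hs.2.trans hT.hT⟩
  refine ⟨fun φ hφ => ?_, ?_, ?_⟩
  · have hm : Measurable fun x : ℝ × Z =>
        φ (x.1 - ‖x.2.1‖) * ENNReal.ofReal (q x.2.2 * sgp (Γ.U z₀ x.1) x.2.1 x.2.2) :=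
      (hφ.comp (by fun_prop)).mul (ENNReal.measurable_ofReal.comp (by fun_prop))
    have hm2 : Measurable fun x : Z × ℝ => φ x.2 * ENNReal.ofReal (q (Γ.V x.2 x.1)) :=
      (hφ.comp measurable_snd).mul (ENNReal.measurable_ofReal.comp
        (continuous_q.comp (hk.cV.comp (continuous_snd.prodMk continuous_fst))).measurable)
    rw [(hton _ hm).2.2.2]
    calc _ ≤ ∫⁻ z, (∫⁻ σ in Icc 0 (s₀ + τ), φ σ * ENNReal.ofReal (q (Γ.V σ z))) ∂Γ.μ := by
          refine lintegral_mono_ae ?_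
          filter_upwards [hn Γ T Λ N P (s₀ + τ) z₀ hG (by linarith [hT.h0, hT.hτ]) hT.hT hT.bd]
            with z hz
          exact SpEX.one h1 h2 hk hT.h0 hz φ
      _ = ∫⁻ σ in Icc 0 (s₀ + τ), ∫⁻ z, φ σ * ENNReal.ofReal (q (Γ.V σ z)) ∂Γ.μ :=
          lintegral_lintegral_swap hm2.aemeasurable
      _ ≤ ∫⁻ σ in Icc 0 (s₀ + τ), ENNReal.ofReal Λ * φ σ := by
          refine setLIntegral_mono' measurableSet_Icc fun σ hσ => ?_
          have hq' : Measurable fun z : Z => ENNReal.ofReal (q (Γ.V σ z)) :=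
            ENNReal.measurable_ofReal.comp
              (continuous_q.comp (hk.cV.comp (continuous_const.prodMk continuous_id))).measurable
          rw [lintegral_const_mul _ hq', mul_comm]
          exact mul_le_mul_left (hG.enP σ ⟨hσ.1, hσ.2.trans hT.hT⟩) _
      _ = _ := lintegral_const_mul _ hφ
  · have hm : Measurable fun x : ℝ × Z => ENNReal.ofReal (q x.2.2) :=
      ENNReal.measurable_ofReal.comp (by fun_prop)
    rw [(hton _ hm).2.1]
    calc _ ≤ ∫⁻ _ in Icc s₀ (s₀ + τ), ENNReal.ofReal Λ :=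
          setLIntegral_mono' measurableSet_Icc fun s hs => hG.coneP s (hI s hs) _
      _ = _ := by
          rw [setLIntegral_const, Real.volume_Icc, add_sub_cancel_left,
            ENNReal.ofReal_mul (by linarith [hG.hΛ])]
  · have hB1 : MeasurableSet {x : ℝ × Z | q x.2.2 ≤ P} :=
      measurableSet_le (by fun_prop) measurable_const
    have hB2 : MeasurableSet {x : ℝ × Z | x.2.1 = 0} :=
      measurableSet_eq_fun (by fun_prop) measurable_const
    have hB : MeasurableSet {x : ℝ × Z | ¬ (q x.2.2 ≤ P ∧ x.2.1 ≠ 0)} :=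
      (hB1.inter hB2.compl).compl
    obtain ⟨C, -, hC⟩ := hc.2 Λ P
    rw [ae_iff, ← lintegral_indicator_one hB, (hton _ (measurable_one.indicator hB)).2.1]
    refine setLIntegral_eq_zero measurableSet_Icc fun s hs => ?_
    have hA : MeasurableSet (Γ.act s (Γ.Y s z₀)) :=
      (hr.opn.preimage (continuous_const.prodMk
        (continuous_const.prodMk continuous_id))).measurableSet
    refine (lintegral_congr_ae ((ae_restrict_iff' hA).2 ?_)).trans lintegral_zero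
    filter_upwards [(hC Γ T N hG s (hI s hs) (hT.bd.mono hs.2) (Γ.Y s z₀)).2] with z hz hz'
    have h3 : (s, Γ.wv s (Γ.Y s z₀) z) ∉ {x : ℝ × Z | ¬ (q x.2.2 ≤ P ∧ x.2.1 ≠ 0)} :=
      fun h => h ⟨(hz hz').1, (hz hz').2.2.1⟩
    exact indicator_of_notMem h3 _

end Vale.Agent.P107
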