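import Vale.Agent.P107.Basic

/-! Problem P107: stability of velocities over short windows. -/

open MeasureTheory Set Filter Topology
open scoped ENNReal RealInnerProductSpace

noncomputable section
namespace Vale.Agent.P107
namespace StabX

theorem chain {f : ℝ → V3} {a b δ M : ℝ} (hδ : 0 < δ) (hM : 0 ≤ M)
    (h : ∀ s u, a ≤ s → s + u ≤ b → 0 < u → u ≤ δ → ‖f (s + u) - f s‖ ≤ M) (n : ℕ) :
    ∀ y, a ≤ y → y ≤ b → y - a ≤ n * δ → ‖f y - f a‖ ≤ n * M := by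
  induction n with
  | zero =>
    intro y h1 _ h3
    obtain rfl : y = a := by
      push_cast at h3
      linarith
    simp
  | succ n ih =>
    intro y h1 h2 h3
    have hn : (0 : ℝ) ≤ n * δ := by positivity
    push_cast at h3 ⊢
    rcases le_or_gt (y - a) (n * δ) with h4 | h4
    · linarith [ih y h1 h2 h4]
    · have h5 := ih (a + n * δ) (by linarith) (by linarith) (by linarith)
      have h6 := h (a + n * δ) (y - (a + n * δ)) (by linarith) (by linarith) (by linarith)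
        (by linarith)
      rw [add_sub_cancel] at h6
      linarith [norm_sub_le_norm_sub_add_norm_sub (f y) (f (a + n * δ)) (f a)]

theorem exit {g : ℝ → ℝ} (hg : Continuous g) {a b r r' : ℝ} (hab : a ≤ b) (hr : r' < r)
    (ha : g a ≤ r) (h : ∀ y ∈ Icc a b, (∀ x ∈ Icc a y, g x ≤ r) → g y ≤ r') : g b ≤ r' :=
  h b ⟨hab, le_rfl⟩ (IsClosed.Icc_subset_of_forall_mem_nhdsGT_of_Icc_subset (s := {x | g x ≤ r})
    ((isClosed_le hg continuous_const).inter isClosed_Icc) ha fun t ht h1 =>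
      mem_nhdsWithin_of_mem_nhds ((hg.continuousAt.eventually_lt continuousAt_const
        ((h t ⟨ht.1, ht.2.le⟩ h1).trans_lt hr)).mono fun _ h2 => h2.le))

theorem twelve {A L P m θ : ℝ} (hA : 1 ≤ A) (hL : 1 ≤ L) (hb : (1000 * A * L ^ 4) ^ 12 ≤ P)
    (hm : 0 < m) (hθ : 0 < θ) (h1 : P ≤ m ^ 2) (h2 : 1 ≤ L ^ 12 * m ^ 4 * θ ^ 8) :
    12 ≤ θ * m := by
  have h3 : 12 * L ≤ 1000 * A * L ^ 4 := by
    have : L ≤ L ^ 4 := le_self_pow₀ hL (by norm_num)
    nlinarith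
  have h4 : (12 * L) ^ 12 ≤ m ^ 2 := (pow_le_pow_left₀ (by positivity) h3 12).trans (hb.trans h1)
  have h5 : 1 ≤ (12 * L) ^ 12 := one_le_pow₀ (by linarith)
  have h6 : (12 * L) ^ 12 ≤ m ^ 4 := by nlinarith
  refine le_of_pow_le_pow_left₀ (n := 8) (by norm_num) (by positivity) ?_
  have h7 : 0 < L ^ 12 := by positivity
  refine le_of_mul_le_mul_left ?_ h7
  calc L ^ 12 * 12 ^ 8 ≤ (12 * L) ^ 12 * 1 := by rw [mul_pow]; nlinarith
    _ ≤ m ^ 4 * (L ^ 12 * m ^ 4 * θ ^ 8) := mul_le_mul h6 h2 zero_le_one (by positivity)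
    _ = _ := by ring

theorem piece {A m θ u w : ℝ} {k : ℕ} (hA : 1 ≤ A) (hm : 0 < m) (hθ : 0 < θ) (hw : 0 < w)
    (hmw : m ≤ w ^ 6) (hu : u ≤ (cc A * m / 2 ^ k) ^ 2 * θ * min θ (1 / LL k))
    (hb : 1000 * A * LL k ^ 4 ≤ w) (h2 : 1 ≤ LL k ^ 12 * m ^ 4 * θ ^ 8) :
    A * yy (cc A) k w u ≤ 3 / 1000 * (θ * w ^ 6) := by
  have hL := three_le_LL k
  have hc : 0 < cc A := by unfold cc; positivity
  have e : A * cc A = 1 / 1000 := by unfold cc; field_simp
  have h3 : √u ≤ cc A * m / 2 ^ k * θ := by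
    refine Real.sqrt_le_iff.2 ⟨by positivity, hu.trans ?_⟩
    rw [mul_pow _ θ, sq θ, ← mul_assoc]
    exact mul_le_mul_of_nonneg_left (min_le_left _ _) (by positivity)
  have h4 : A * (2 ^ k * √u) ≤ 1 / 1000 * (θ * w ^ 6) :=
    calc _ ≤ A * (2 ^ k * (cc A * m / 2 ^ k * θ)) := by gcongr
      _ = A * cc A * (θ * m) := by field_simp
      _ ≤ _ := by rw [e]; gcongr
  have h5 : A * (u * (2 ^ k) ^ 2 * LL k / (cc A * w ^ 6)) ≤ 1 / 1000 * (θ * w ^ 6) :=
    calc _ ≤ A * ((cc A * m / 2 ^ k) ^ 2 * θ * (1 / LL k) * (2 ^ k) ^ 2 * LL k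
            / (cc A * w ^ 6)) := by
          gcongr
          exact hu.trans (mul_le_mul_of_nonneg_left (min_le_right _ _) (by positivity))
      _ = A * cc A * (θ * (m * m / w ^ 6)) := by field_simp
      _ ≤ _ := by
          rw [e]
          gcongr
          rw [div_le_iff₀ (by positivity)]
          gcongr
  have h6 : 1 ≤ θ * w ^ 3 * LL k ^ 2 := by
    refine le_of_pow_le_pow_left₀ (n := 8) (by norm_num) (by positivity) ?_
    calc (1 : ℝ) ^ 8 = 1 := one_pow _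
      _ ≤ LL k ^ 16 * (w ^ 6) ^ 4 * θ ^ 8 := by
          refine h2.trans ?_
          gcongr
          · linarith
          · norm_num
      _ = _ := by ring
  have h7 : A * (LL k ^ 2 * w ^ 2) ≤ 1 / 1000 * (θ * w ^ 6) :=
    calc _ ≤ A * (LL k ^ 2 * w ^ 2) * (θ * w ^ 3 * LL k ^ 2) :=
          le_mul_of_one_le_right (by positivity) h6
      _ = 1 / 1000 * (θ * w ^ 5) * (1000 * A * LL k ^ 4) := by ring
      _ ≤ 1 / 1000 * (θ * w ^ 5) * w := by gcongr
      _ = _ := by ring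
  unfold yy
  linarith

end StabX
open StabX

theorem stab : Stab := by
  intro Γ t A ℓ k z₀ s₀ τ w p θ hK hA hb hB hH hT hℓ hS hp hp2 hθ hθ1 h1
  have hL := three_le_LL k
  have hc : 0 < cc A := by unfold cc; positivity
  have hw := hS.hw
  obtain ⟨m, hm⟩ : ∃ m, m = min p (w ^ 6) := ⟨_, rfl⟩
  have hm1 : m ≤ p := hm ▸ min_le_left _ _
  have hm2 : m ≤ w ^ 6 := hm ▸ min_le_right _ _
  have hm0 : 0 < m := hm ▸ lt_min hp (by positivity)
  have h12 : 12 ≤ θ * m := by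
    refine twelve hA (by linarith) hb hm0 hθ ?_ (hm ▸ h1)
    rcases min_choice p (w ^ 6) with h | h <;> rw [hm, h]
    · exact hp2
    · rw [← pow_mul]
      exact hS.lo
  rw [Dq, ← hm]
  rw [← hm] at h1
  obtain ⟨d, hd⟩ : ∃ d, d = min ((cc A * m / 2 ^ k) ^ 2 * θ * min θ (1 / LL k)) τ := ⟨_, rfl⟩
  have hd1 : d ≤ (cc A * m / 2 ^ k) ^ 2 * θ * min θ (1 / LL k) := hd ▸ min_le_left _ _
  have hd2 : d ≤ τ := hd ▸ min_le_right _ _
  have hd0 : 0 < d := hd ▸ lt_min (by positivity) hS.hτ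
  rw [← hd]
  have key : ∀ z ∈ Γ.S, ∀ (v a b : ℝ) (n : ℕ), 0 < v → 2 ^ k ≤ v ^ 12 → v ^ 6 ≤ 2 ^ k →
      m ≤ v ^ 6 → 0 ≤ a → a ≤ b → b ≤ t → b - a ≤ n * (d / 2) →
      (∀ s ∈ Icc a b, q (Γ.V s z) ∈ Icc (v ^ 6 / 2) (2 * v ^ 6)) →
      ‖Γ.V b z - Γ.V a z‖ ≤ n * (3 / 1000 * (θ * v ^ 6)) := by
    intro z hz v a b n hv v1 v2 v3 ha hab hbt hn hq
    refine chain (f := fun s => Γ.V s z) (b := b) (half_pos hd0) (by positivity)
      (fun s u s1 s2 u1 u2 => ?_) n b hab le_rfl hn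
    have hs : Scl (cc A) k v u := ⟨hv, v1, v2, u1, by linarith [hS.t1], by
      refine (show u ≤ d by linarith).trans (hd1.trans ?_)
      calc _ ≤ (cc A * v ^ 6 / 2 ^ k) ^ 2 * 1 * 1 := by
            gcongr
            exact (min_le_left _ _).trans hθ1
        _ = _ := by ring⟩
    exact (hH z hz s u v (ha.trans s1) (s2.trans hbt) (by linarith) hs fun x hx =>
      hq x ⟨s1.trans hx.1, hx.2.trans s2⟩).trans
      (piece hA hm0 hθ hv v3 (by linarith) (hs.le_w hb) h1)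
  refine ⟨hθ, hθ1, h12.trans (by gcongr), h12.trans (by gcongr), hd0, hd2,
    fun s hs s' hs' h => ?_, fun z hz t₀ ht₀ t' ht' hq h => ?_⟩
  · have h2 : ∀ a ∈ Icc s₀ (s₀ + τ), ∀ b ∈ Icc s₀ (s₀ + τ), a ≤ b → b - a ≤ 2 * d →
        ‖Γ.V b z₀ - Γ.V a z₀‖ ≤ 12 / 1000 * (θ * w ^ 6) := fun a ha b hb hab h3 => by
      have := key z₀ hT.mem w a b 4 hw hS.lo hS.hi hm2 (hT.h0.trans ha.1) hab (hb.2.trans hT.hT)
        (by push_cast; linarith) fun x hx => hT.hq x ⟨ha.1.trans hx.1, hx.2.trans hb.2⟩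
      push_cast at this
      linarith
    have h3 : ‖Γ.V s z₀ - Γ.V s' z₀‖ ≤ 12 / 1000 * (θ * w ^ 6) := by
      rcases le_total s s' with h3 | h3
      · rw [norm_sub_rev]
        exact h2 s hs s' hs' h3 (by linarith [(abs_le.1 h).1])
      · exact h2 s' hs' s hs h3 (abs_le.1 h).2
    refine (norm_uu_sub_le _ _).trans ?_
    rw [div_le_iff₀ (q_pos _)]
    nlinarith [mul_le_mul_of_nonneg_left (hT.hq s hs).1 hθ.le, mul_pos hθ (pow_pos hw 6)]
  · obtain ⟨v, hv, e⟩ : ∃ v : ℝ, 0 < v ∧ v ^ 6 = q (Γ.V t₀ z) :=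
      ⟨_, Real.rpow_pos_of_pos (q_pos _) _, Real.rpow_inv_natCast_pow (q_pos _).le (by norm_num)⟩
    have h0 := q_pos (Γ.V t₀ z)
    have h2 : ∀ a ∈ Icc 0 (s₀ + τ), ∀ b ∈ Icc 0 (s₀ + τ), a ≤ b → b - a ≤ 3 * d →
        (∀ x ∈ Icc a b, ‖Γ.V x z - Γ.V t₀ z‖ ≤ q (Γ.V t₀ z) / 2) →
        ‖Γ.V b z - Γ.V a z‖ ≤ 18 / 1000 * (θ * q (Γ.V t₀ z)) := fun a ha b hb hab h3 h4 => by
      have := key z hz v a b 6 hv (by
          rw [show 12 = 6 * 2 from rfl, pow_mul, e]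
          exact hp2.trans (pow_le_pow_left₀ hp.le hq.1 2))
        (e ▸ hT.bd z hz t₀ ht₀) (e ▸ hm1.trans hq.1) ha.1 hab (hb.2.trans hT.hT)
        (by push_cast; linarith) fun x hx => by
          have := abs_le.1 ((abs_q_sub_le _ _).trans (h4 x hx))
          rw [e]
          constructor <;> linarith [this.1, this.2]
      rw [e] at this
      push_cast at this
      linarith
    have hV : Continuous fun x => Γ.V x z := hK.cV.comp (continuous_id.prodMk continuous_const)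
    have h3 : 18 / 1000 * (θ * q (Γ.V t₀ z)) < q (Γ.V t₀ z) / 2 := by nlinarith
    have h4 : ‖Γ.V t' z - Γ.V t₀ z‖ ≤ 18 / 1000 * (θ * q (Γ.V t₀ z)) := by
      rcases le_total t₀ t' with h4 | h4
      · refine exit (g := fun x => ‖Γ.V x z - Γ.V t₀ z‖) (by fun_prop) h4 h3
          (by simpa using (half_pos h0).le) fun y hy h5 => ?_
        exact h2 t₀ ht₀ y ⟨ht₀.1.trans hy.1, hy.2.trans ht'.2⟩ hy.1
          (by linarith [(abs_le.1 h).2, hy.2]) h5
      · have := exit (g := fun x => ‖Γ.V (-x) z - Γ.V t₀ z‖)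
          ((hV.comp continuous_neg).sub continuous_const).norm (neg_le_neg h4) h3
          (by simpa using (half_pos h0).le) fun y hy h5 => by
            rw [norm_sub_rev]
            refine h2 (-y) ⟨by linarith [ht'.1, hy.2], by linarith [ht₀.2, hy.1]⟩ t₀ ht₀
              (by linarith [hy.1]) (by linarith [(abs_le.1 h).1, hy.2]) fun x hx => ?_
            simpa using h5 (-x) ⟨by linarith [hx.2], by linarith [hx.1]⟩
        simpa using this
    nlinarith [mul_le_mul_of_nonneg_left hq.2.le hθ.le, mul_pos hθ hp]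

end Vale.Agent.P107
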