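import Vale.Agent.P107.Basic

/-! Problem P107, part I: integration by parts for the test particle. -/

open MeasureTheory Set Filter Topology
open scoped ENNReal RealInnerProductSpace

noncomputable section
namespace Vale.Agent.P107
namespace StepX

theorem dom {μ : Measure Z} {A : Set Z} (hA : MeasurableSet A) {ρ : Z → ℝ} {f : Z → V3}
    (hf : Measurable f) {D C : ℝ} (hD : 0 ≤ D)
    (h1 : ∫⁻ z in A, ENNReal.ofReal (1 / ρ z ^ 2) ∂μ ≤ ENNReal.ofReal C)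
    (h2 : ∀ᵐ z ∂μ, z ∈ A → ‖f z‖ ≤ D / ρ z ^ 2) :
    ∫⁻ z in A, ‖f z‖ₑ ∂μ ≤ ENNReal.ofReal D * ENNReal.ofReal C ∧ IntegrableOn f A μ := by
  have h3 : ∫⁻ z in A, ‖f z‖ₑ ∂μ ≤ ENNReal.ofReal D * ENNReal.ofReal C := by
    refine le_trans ?_ (mul_le_mul_right h1 _)
    rw [← lintegral_const_mul' _ _ ENNReal.ofReal_ne_top]
    refine lintegral_mono_ae ((ae_restrict_iff' hA).2 ?_)
    filter_upwards [h2] with z hz hzA
    rw [← ENNReal.ofReal_mul hD, ← ofReal_norm, mul_one_div]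
    exact ENNReal.ofReal_le_ofReal (hz hzA)
  exact ⟨h3, hf.aestronglyMeasurable,
    h3.trans_lt (ENNReal.mul_lt_top ENNReal.ofReal_lt_top ENNReal.ofReal_lt_top)⟩

theorem tri (x y z : V3) : ‖x - y‖ ≤ ‖y - z‖ + ‖x - z‖ := by
  rw [add_comm, norm_sub_rev y z]
  exact norm_sub_le_norm_sub_add_norm_sub _ _ _

theorem assemble {μ : Measure Z} [IsFiniteMeasure μ] {a τ c : ℝ} (hτ : 0 ≤ τ) {A : Set (ℝ × Z)}
    (hA : MeasurableSet A) {F : ℝ × Z → V3} (hF : Measurable F) {M : ℝ≥0∞} (hM : M ≠ ∞)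
    (h1 : ∀ s ∈ Icc a (a + τ), ∫⁻ z in {z | (s, z) ∈ A}, ‖F (s, z)‖ₑ ∂μ ≤ M) {f : ℝ → V3}
    (hf : Continuous f)
    (h2 : ∀ s ∈ Icc a (a + τ), ‖f s - ∫ z in {z | (s, z) ∈ A}, F (s, z) ∂μ‖ ≤ c)
    {G₁ G₀ : Z → V3} (hG₁ : Integrable G₁ μ) (hG₀ : Integrable G₀ μ) {R : Z → ℝ≥0∞}
    (h3 : ∀ᵐ z ∂μ, ENNReal.ofReal
      ‖G₁ z - G₀ z - ∫ s in Icc a (a + τ) ∩ {s | (s, z) ∈ A}, F (s, z)‖ ≤ R z) :
    ENNReal.ofReal ‖(∫ s in Icc a (a + τ), f s) - (∫ z, G₁ z ∂μ - ∫ z, G₀ z ∂μ)‖ ≤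
      ∫⁻ z, R z ∂μ + ENNReal.ofReal (c * τ) := by
  have hAs : ∀ s, MeasurableSet {z | (s, z) ∈ A} := fun s => measurable_prodMk_left hA
  have hAz : ∀ z, MeasurableSet {s | (s, z) ∈ A} := fun z => measurable_prodMk_right hA
  have hF' : Measurable (A.indicator F) := hF.indicator hA
  have hI : Integrable (A.indicator F) ((volume.restrict (Icc a (a + τ))).prod μ) := by
    refine ⟨hF'.aestronglyMeasurable, ?_⟩
    rw [hasFiniteIntegral_iff_enorm, lintegral_prod _ hF'.enorm.aemeasurable]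
    refine lt_of_le_of_lt (setLIntegral_mono' (g := fun _ => M) measurableSet_Icc
      fun s hs => le_trans (le_of_eq ?_) (h1 s hs)) ?_
    · rw [← lintegral_indicator (hAs s)]
      refine lintegral_congr fun z => ?_
      by_cases h : (s, z) ∈ A
      · rw [indicator_of_mem h, indicator_of_mem (s := {z | (s, z) ∈ A}) h]
      · rw [indicator_of_notMem h, indicator_of_notMem (s := {z | (s, z) ∈ A}) h, enorm_zero]
    · rw [setLIntegral_const]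
      exact ENNReal.mul_lt_top hM.lt_top measure_Icc_lt_top
  have e1 : ∀ s, ∫ z, A.indicator F (s, z) ∂μ = ∫ z in {z | (s, z) ∈ A}, F (s, z) ∂μ := fun s =>
    integral_indicator (f := fun z => F (s, z)) (hAs s)
  have e2 : ∀ z, ∫ s in Icc a (a + τ), A.indicator F (s, z) =
      ∫ s in Icc a (a + τ) ∩ {s | (s, z) ∈ A}, F (s, z) := fun z =>
    setIntegral_indicator (f := fun s => F (s, z)) (hAz z)
  have hl := hI.integral_prod_left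
  have hr := hI.integral_prod_right
  have hsw := integral_integral_swap (f := fun s z => A.indicator F (s, z)) hI
  simp only [e1, e2] at hl hr hsw
  have h4 : ‖∫ s in Icc a (a + τ), (f s - ∫ z in {z | (s, z) ∈ A}, F (s, z) ∂μ)‖ ≤ c * τ := by
    have h5 := norm_setIntegral_le_of_norm_le_const (μ := volume) measure_Icc_lt_top h2
    rwa [Real.volume_real_Icc_of_le (by linarith), add_sub_cancel_left] at h5
  have h5 : ENNReal.ofReal ‖∫ z, (G₁ z - G₀ z -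
      ∫ s in Icc a (a + τ) ∩ {s | (s, z) ∈ A}, F (s, z)) ∂μ‖ ≤ ∫⁻ z, R z ∂μ := by
    rw [ofReal_norm]
    refine (enorm_integral_le_lintegral_enorm _).trans (lintegral_mono_ae ?_)
    filter_upwards [h3] with z hz
    rwa [ofReal_norm] at hz
  have hG : Integrable (fun z => G₁ z - G₀ z) μ := hG₁.sub hG₀
  rw [integral_sub hG hr, integral_sub hG₁ hG₀, ← hsw] at h5
  rw [integral_sub hf.integrableOn_Icc hl] at h4
  refine le_trans (ENNReal.ofReal_le_ofReal ?_) (ENNReal.ofReal_add_le.trans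
    (add_le_add h5 (ENNReal.ofReal_le_ofReal h4)))
  exact tri _ _ _

theorem flw_eq (U w v : V3) (k : Z) : FLW U w v k = ELW w v k + cross U (BLW w v k) := rfl

theorem force {μ : Measure Z} {A : Set Z} {E B : Z → V3} (hE : IntegrableOn E A μ)
    (hB : IntegrableOn B A μ) {v : V3} {k : Z} {Λ : ℝ} (h1 : ‖k.1 - ∫ z in A, E z ∂μ‖ ≤ Λ)
    (h2 : ‖k.2 - ∫ z in A, B z ∂μ‖ ≤ Λ) :
    ‖frc v k - ∫ z in A, (E z + cross (uu v) (B z)) ∂μ‖ ≤ 2 * Λ := by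
  have h3 : ∫ z in A, cross (uu v) (B z) ∂μ = cross (uu v) (∫ z in A, B z ∂μ) :=
    (crossL (uu v)).integral_comp_comm hB
  have h4 : IntegrableOn (fun z => cross (uu v) (B z)) A μ := (crossL (uu v)).integrable_comp hB
  rw [integral_add hE h4, h3, frc, add_sub_add_comm, ← cross_sub_right]
  refine (norm_add_le _ _).trans ?_
  have h5 := (norm_cross_le (uu v) (k.2 - ∫ z in A, B z ∂μ)).trans
    (mul_le_of_le_one_left (norm_nonneg _) (norm_uu_le v))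
  linarith

end StepX

open StepX

theorem step (h1 : Ret1) (ht : Ton) (h4 : A4) (hc : Crude) (hn : NoHitS) (hs : Step1) : Step := by
  obtain ⟨C, hC, hs⟩ := hs
  obtain ⟨C₄, hC₄, h4⟩ := h4
  refine ⟨C, hC, fun Γ T Λ N P z₀ s₀ τ p' δ a₀ ε e hG hT hδ hδ' ha hε he hU => ?_⟩
  obtain ⟨C₁, hC₁, c1⟩ := hc.1 T P N
  obtain ⟨C₂, hC₂, c2⟩ := hc.2 Λ P
  have hR := h1 Γ hG.toKin
  obtain ⟨-, hkk, hUc, -, -, hTon⟩ := ht Γ hG.toKin z₀ s₀ τ
  have := hG.fin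
  have hδ8 : δ ≤ 1 / 8 :=
    hδ'.trans (one_div_le_one_div_of_le (by norm_num) (by linarith [hG.hΛ]))
  have hX : Continuous fun s => Γ.Y s z₀ := hG.cY.comp (continuous_id.prodMk continuous_const)
  have hV : Continuous fun s => Γ.V s z₀ := hG.cV.comp (continuous_id.prodMk continuous_const)
  have hm : Continuous fun p : ℝ × Z => (p.1, Γ.Y p.1 z₀, p.2) :=
    continuous_fst.prodMk ((hX.comp continuous_fst).prodMk continuous_snd)
  have hW : Measurable fun p : ℝ × Z => Γ.wv p.1 (Γ.Y p.1 z₀) p.2 := (hR.cwv.comp hm).measurable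
  have hA : MeasurableSet {p : ℝ × Z | p.2 ∈ Γ.act p.1 (Γ.Y p.1 z₀)} :=
    (hR.opn.preimage hm).measurableSet
  have hK : Measurable fun p : ℝ × Z => Γ.kk z₀ (p.1, Γ.wv p.1 (Γ.Y p.1 z₀) p.2) :=
    hkk.measurable.comp (measurable_fst.prodMk hW)
  have hUm : Measurable fun p : ℝ × Z => Γ.U z₀ p.1 := hUc.measurable.comp measurable_fst
  have hWs : ∀ s, Measurable fun z => Γ.wv s (Γ.Y s z₀) z := fun s =>
    hW.comp (measurable_prodMk_left (x := s))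
  have hKs : ∀ s, Measurable fun z => Γ.Kr s (Γ.Y s z₀) (Γ.wv s (Γ.Y s z₀) z).1 := fun s =>
    hK.comp (measurable_prodMk_left (x := s))
  have hI : ∀ s ∈ Icc s₀ (s₀ + τ), s ∈ Icc 0 T ∧ Γ.Bd s P := fun s h =>
    ⟨⟨hT.h0.trans h.1, h.2.trans hT.hT⟩, hT.bd.mono h.2⟩
  have key : ∀ s ∈ Icc s₀ (s₀ + τ), ∀ (f : Z → V3) (D : ℝ), Measurable f → 0 ≤ D →
      (∀ z, q (Γ.wv s (Γ.Y s z₀) z).2 ≤ P → ‖Γ.Kr s (Γ.Y s z₀) (Γ.wv s (Γ.Y s z₀) z).1‖ ≤ N →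
        ‖(Γ.wv s (Γ.Y s z₀) z).1‖ ≤ T → ‖f z‖ ≤ D / ‖(Γ.wv s (Γ.Y s z₀) z).1‖ ^ 2) →
      ∫⁻ z in Γ.act s (Γ.Y s z₀), ‖f z‖ₑ ∂Γ.μ ≤ ENNReal.ofReal D * ENNReal.ofReal C₂ ∧
        IntegrableOn f (Γ.act s (Γ.Y s z₀)) Γ.μ := by
    intro s h f D hf hD hb
    obtain ⟨d1, d2⟩ := c2 Γ T N hG s (hI s h).1 (hI s h).2 (Γ.Y s z₀)
    refine dom (measurable_prodMk_left (x := s) hA) (ρ := fun z => ‖(Γ.wv s (Γ.Y s z₀) z).1‖)
      hf hD d1 ?_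
    filter_upwards [d2] with z hz hzA
    obtain ⟨e1, e2, -, e4⟩ := hz hzA
    exact hb z e1 e4 (e2.le.trans (hI s h).1.2)
  have hgood : ∀ᵐ z ∂Γ.μ, z ∈ Γ.S ∧ Γ.NoHit z₀ (s₀ + τ) z :=
    hG.supp.and (hn Γ T Λ N P (s₀ + τ) z₀ hG (by linarith [hT.h0, hT.hτ]) hT.hT hT.bd)
  have hCG : ∀ s ∈ Icc s₀ (s₀ + τ), Integrable (fun z => CG δ a₀ e (Γ.wv s (Γ.Y s z₀) z).1
      (uu (Γ.wv s (Γ.Y s z₀) z).2)) Γ.μ ∧ Γ.GI δ a₀ z₀ s e = ∫ z, CG δ a₀ e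
        (Γ.wv s (Γ.Y s z₀) z).1 (uu (Γ.wv s (Γ.Y s z₀) z).2) ∂Γ.μ := by
    intro s h
    have hz : ∀ᵐ z ∂Γ.μ, z ∉ Γ.act s (Γ.Y s z₀) →
        CG δ a₀ e (Γ.wv s (Γ.Y s z₀) z).1 (uu (Γ.wv s (Γ.Y s z₀) z).2) = 0 := by
      filter_upwards [hgood] with z hz
      exact (hs Γ T Λ N P z₀ s₀ τ p' δ a₀ ε e hG hT hδ hδ' ha hε he hU z hz.1 hz.2).1 s
    refine ⟨(key s h _ (C₄ * (C₁ / a₀)) (Measurable.CG' δ a₀ measurable_const (hWs s).fst
      (measurable_uu.comp (hWs s).snd)) (by positivity) fun z e1 e2 e3 => ?_).2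
      |>.integrable_of_ae_notMem_eq_zero hz, setIntegral_eq_integral_of_ae_compl_eq_zero hz⟩
    refine (h4 δ a₀ e e _ _ hδ hδ8 ha he he).1.trans ?_
    rw [mul_div_assoc, div_div]
    exact mul_le_mul_of_nonneg_left ((c1 _ _ _ e1 e2 e3).2.2.2 δ a₀ e ha) hC₄.le
  have hfc : Continuous fun s => frc (Γ.V s z₀) (Γ.K s (Γ.Y s z₀)) := by
    have h5 : Continuous fun s => Γ.K s (Γ.Y s z₀) := hG.cK.comp (continuous_id.prodMk hX)
    exact h5.fst.add (Continuous.cross' (continuous_uu.comp hV) h5.snd)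
  have hftc : Γ.V (s₀ + τ) z₀ - Γ.V s₀ z₀ =
      ∫ s in Icc s₀ (s₀ + τ), frc (Γ.V s z₀) (Γ.K s (Γ.Y s z₀)) := by
    rw [integral_Icc_eq_integral_Ioc, ← intervalIntegral.integral_of_le (by linarith [hT.hτ])]
    exact (intervalIntegral.integral_eq_sub_of_hasDerivAt (fun s _ => hG.dV s z₀)
      (hfc.intervalIntegrable _ _)).symm
  have m0 : s₀ ∈ Icc s₀ (s₀ + τ) := ⟨le_rfl, by linarith [hT.hτ]⟩
  have m1 : s₀ + τ ∈ Icc s₀ (s₀ + τ) := ⟨by linarith [hT.hτ], le_rfl⟩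
  have hΦ : Measurable fun x : ℝ × Z =>
      ENNReal.ofReal (KK δ a₀ ε (Γ.U z₀ x.1) x.2.1 x.2.2 (Γ.kk z₀ x)) :=
    (Measurable.KK' δ a₀ ε hUm measurable_snd.fst measurable_snd.snd
      hkk.measurable).ennreal_ofReal
  rw [hftc, (hCG _ m0).2, (hCG _ m1).2, PS.TK, (hTon _ hΦ).2.2.2,
    ← lintegral_const_mul' _ _ ENNReal.ofReal_ne_top]
  refine assemble hT.hτ.le hA (F := fun p => FLW (Γ.U z₀ p.1) (Γ.wv p.1 (Γ.Y p.1 z₀) p.2).1
    (Γ.wv p.1 (Γ.Y p.1 z₀) p.2).2 (Γ.kk z₀ (p.1, Γ.wv p.1 (Γ.Y p.1 z₀) p.2)))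
    (Measurable.FLW' hUm hW.fst hW.snd hK) (M := ENNReal.ofReal C₁ * ENNReal.ofReal C₂)
    (ENNReal.mul_ne_top ENNReal.ofReal_ne_top ENNReal.ofReal_ne_top) ?_ hfc ?_ (hCG _ m1).1
    (hCG _ m0).1 ?_
  · intro s h
    exact (key s h _ C₁ (Measurable.FLW' (measurable_const (a := Γ.U z₀ s)) (hWs s).fst
      (hWs s).snd (hKs s)) hC₁.le
      fun z e1 e2 e3 => (c1 _ _ _ e1 e2 e3).2.2.1 _ (Γ.norm_U_le z₀ s)).1
  · intro s h
    have hE := (key s h _ C₁ (Measurable.ELW' (hWs s).fst (hWs s).snd (hKs s)) hC₁.le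
      fun z e1 e2 e3 => (c1 _ _ _ e1 e2 e3).1).2
    have hB := (key s h _ C₁ (Measurable.BLW' (hWs s).fst (hWs s).snd (hKs s)) hC₁.le
      fun z e1 e2 e3 => (c1 _ _ _ e1 e2 e3).2.1).2
    have h5 := force (v := Γ.V s z₀) hE hB (hG.repE s (hI s h).1 _) (hG.repB s (hI s h).1 _)
    simp only [← flw_eq] at h5
    exact h5
  · filter_upwards [hgood] with z hz
    exact (hs Γ T Λ N P z₀ s₀ τ p' δ a₀ ε e hG hT hδ hδ' ha hε he hU z hz.1 hz.2).2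

end Vale.Agent.P107
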