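import Vale.Agent.P107.Basic

/-! Problem P107: integration by parts for one particle. -/

open MeasureTheory Set Filter Topology
open scoped ENNReal RealInnerProductSpace

noncomputable section
namespace Vale.Agent.P107

namespace Step1X

theorem ftc {a b C : ℝ} (hab : a ≤ b) (hC : 0 < C) (g F : ℝ → V3) (k : ℝ → ℝ) {A : Set ℝ}
    (hA : MeasurableSet A) (hF : IntegrableOn F (Icc a b ∩ A))
    (h1 : ∀ s ∈ Icc a b, s ∈ A → ∃ D, HasDerivAt g D s ∧ ‖D - F s‖ ≤ C * k s)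
    (h2 : ∀ s ∈ Icc a b, s ∉ A → HasDerivAt g 0 s) :
    ENNReal.ofReal ‖g b - g a - ∫ s in Icc a b ∩ A, F s‖ ≤
      ENNReal.ofReal C * ∫⁻ s in Icc a b ∩ A, ENNReal.ofReal (k s) := by
  have hS : MeasurableSet (Icc a b ∩ A) := measurableSet_Icc.inter hA
  by_cases hfin : ∫⁻ s in Icc a b ∩ A, ENNReal.ofReal (k s) = ∞
  · rw [hfin, ENNReal.mul_top (by simpa using hC)]
    exact le_top
  have hd : ∀ s ∈ Icc a b, HasDerivAt g (deriv g s) s := by
    intro s hs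
    by_cases h : s ∈ A
    · obtain ⟨D, hD, -⟩ := h1 s hs h
      exact hD.differentiableAt.hasDerivAt
    · exact (h2 s hs h).differentiableAt.hasDerivAt
  have hz : ∀ s ∈ Icc a b \ (Icc a b ∩ A), deriv g s = 0 := fun s hs =>
    (h2 s hs.1 fun h => hs.2 ⟨hs.1, h⟩).deriv
  have hb : ∫⁻ s in Icc a b ∩ A, ‖deriv g s - F s‖ₑ ≤
      ENNReal.ofReal C * ∫⁻ s in Icc a b ∩ A, ENNReal.ofReal (k s) := by
    rw [← lintegral_const_mul' _ _ ENNReal.ofReal_ne_top]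
    refine setLIntegral_mono' hS fun s hs => ?_
    obtain ⟨D, hD, h⟩ := h1 s hs.1 hs.2
    rw [hD.deriv, ← ofReal_norm, ← ENNReal.ofReal_mul hC.le]
    exact ENNReal.ofReal_le_ofReal h
  have hi : IntegrableOn (fun s => deriv g s - F s) (Icc a b ∩ A) :=
    ⟨(measurable_deriv g).aestronglyMeasurable.sub hF.1,
      hb.trans_lt (ENNReal.mul_lt_top ENNReal.ofReal_lt_top (lt_top_iff_ne_top.2 hfin))⟩
  have hi2 : IntegrableOn (deriv g) (Icc a b ∩ A) := by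
    have := hi.add hF
    refine this.congr_fun (fun s _ => ?_) hS
    simp
  have hi3 : IntegrableOn (deriv g) (Icc a b) := hi2.of_forall_sdiff_eq_zero measurableSet_Icc hz
  have e1 : ∫ s in Icc a b ∩ A, deriv g s = g b - g a := by
    rw [← setIntegral_eq_of_subset_of_forall_sdiff_eq_zero measurableSet_Icc inter_subset_left hz,
      integral_Icc_eq_integral_Ioc, ← intervalIntegral.integral_of_le hab]
    refine intervalIntegral.integral_eq_sub_of_hasDerivAt (fun s hs => hd s ?_) ?_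
    · rwa [uIcc_of_le hab] at hs
    · exact (intervalIntegrable_iff_integrableOn_Icc_of_le hab).2 hi3
  rw [← e1, ← integral_sub hi2 hF, ofReal_norm]
  exact (enorm_integral_le_lintegral_enorm _).trans hb

end Step1X

theorem step1 (h1 : Ret1) (h2 : Ret2) (h3 : A3) (h4 : A4) (hc : Crude) : Step1 := by
  obtain ⟨C, hC, h3⟩ := h3
  obtain ⟨C4, -, h4⟩ := h4
  refine ⟨C, hC, fun Γ T Λ N P z₀ s₀ τ p' δ a₀ ε e hG hT hδ hδΛ ha hε he hU z hz hn => ?_⟩
  have R := h1 Γ hG.toKin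
  have hΛ := hG.hΛ
  have hδ4 : δ * (4 * Λ) ≤ 1 := by rwa [le_div_iff₀ (by linarith)] at hδΛ
  have hδ8 : δ ≤ 1 / 8 := by nlinarith
  have cX : Continuous fun s => Γ.Y s z₀ := hG.cY.comp (continuous_id.prodMk continuous_const)
  have cP : Continuous fun s : ℝ => ((s, Γ.Y s z₀, z) : ℝ × V3 × Z) :=
    continuous_id.prodMk (cX.prodMk continuous_const)
  have cW : Continuous fun s => Γ.wv s (Γ.Y s z₀) z := R.cwv.comp cP
  have hA : MeasurableSet {s | z ∈ Γ.act s (Γ.Y s z₀)} := (R.opn.preimage cP).measurableSet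
  have hzero : ∀ w v : V3, q v ≤ 2 * Λ → CG δ a₀ e w (uu v) = 0 := by
    intro w v hv
    have := (h4 δ a₀ e e w v hδ hδ8 ha he he).2.2 (by nlinarith)
    unfold CG
    rw [eta_of_le_one this, zero_smul]
  have hin : ∀ s, z ∉ Γ.act s (Γ.Y s z₀) → q (Γ.wv s (Γ.Y s z₀) z).2 ≤ Λ := by
    intro s hs
    have : (Γ.wv s (Γ.Y s z₀) z).2 = Γ.V 0 z := by
      unfold PS.wv
      rw [R.nact s _ z hs]
    rw [this]
    exact hG.init z hz
  refine ⟨fun s hs => hzero _ _ (by have := hin s hs; linarith), ?_⟩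
  have hab : s₀ ≤ s₀ + τ := by have := hT.hτ; linarith
  have hI : ∀ s ∈ Icc s₀ (s₀ + τ), s ∈ Icc (0 : ℝ) (s₀ + τ) := fun s hs =>
    ⟨hT.h0.trans hs.1, hs.2⟩
  have hne : ∀ s ∈ Icc s₀ (s₀ + τ), (Γ.wv s (Γ.Y s z₀) z).1 ≠ 0 := fun s hs =>
    R.nohit z₀ z _ s hn (hI s hs)
  refine Step1X.ftc hab hC
    (fun s => CG δ a₀ e (Γ.wv s (Γ.Y s z₀) z).1 (uu (Γ.wv s (Γ.Y s z₀) z).2)) _ _ hA ?_ ?_ ?_
  · obtain ⟨C0, hC0, hcr⟩ := hc.1 T P N
    obtain ⟨s₁, hs₁, hmin⟩ := (isCompact_Icc (a := s₀) (b := s₀ + τ)).exists_isMinOn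
      ⟨s₀, left_mem_Icc.2 hab⟩ (cW.fst.norm).continuousOn
    have r0 : 0 < ‖(Γ.wv s₁ (Γ.Y s₁ z₀) z).1‖ := norm_pos_iff.2 (hne s₁ hs₁)
    have cU : Continuous (Γ.U z₀) :=
      continuous_uu.comp (hG.cV.comp (continuous_id.prodMk continuous_const))
    have cK : Continuous fun s => Γ.kk z₀ (s, Γ.wv s (Γ.Y s z₀) z) :=
      hG.cK.comp ((continuous_id.sub cW.fst.norm).prodMk (cX.sub cW.fst))
    refine Measure.integrableOn_of_bounded (M := C0 / ‖(Γ.wv s₁ (Γ.Y s₁ z₀) z).1‖ ^ 2)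
      ((measure_mono inter_subset_left).trans_lt measure_Icc_lt_top).ne
      (Measurable.FLW' cU.measurable cW.fst.measurable cW.snd.measurable
        cK.measurable).aestronglyMeasurable
      ((ae_restrict_iff' (measurableSet_Icc.inter hA)).2 (Eventually.of_forall fun s hs => ?_))
    obtain ⟨hs1, hs2⟩ := hs
    obtain ⟨a1, a2⟩ := R.act s _ z hs2
    have a3 := R.le s (Γ.Y s z₀) z (hI s hs1).1
    have a4 := hT.hT
    have a5 := hs1.2
    have b1 : q (Γ.wv s (Γ.Y s z₀) z).2 ≤ P := hT.bd z hz _ ⟨a1.le, a3.trans a5⟩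
    have b2 : ‖Γ.kk z₀ (s, Γ.wv s (Γ.Y s z₀) z)‖ ≤ N :=
      hG.bK _ ⟨by simp only; linarith, by simp only; linarith⟩ _
    refine ((hcr _ _ _ b1 b2 (by linarith)).2.2.1 _ (Γ.norm_U_le z₀ s)).trans ?_
    exact div_le_div_of_nonneg_left hC0.le (by positivity)
      (pow_le_pow_left₀ r0.le (hmin hs1) 2)
  · intro s hs hs2
    obtain ⟨-, d1, d2⟩ := h2 Γ hG.toKin z₀ z s hs2 (hne s hs)
    exact h3 e _ _ _ δ a₀ ε s _ _ he (Γ.norm_U_le z₀ s) (hU s hs) (hne s hs) rfl hδ hδ8 ha hε d1 d2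
  · intro s _ hs2
    have hq : q (Γ.wv s (Γ.Y s z₀) z).2 < 2 * Λ := by have := hin s hs2; linarith
    refine (hasDerivAt_const s (0 : V3)).congr_of_eventuallyEq ?_
    filter_upwards [(continuous_q.comp cW.snd).continuousAt.eventually (gt_mem_nhds hq)] with t ht
    exact hzero _ _ ht.le

end Vale.Agent.P107
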