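import Vale.Agent.P107.Basic

/-! Problem P107: the first acceleration sum. -/

open MeasureTheory Set Filter Topology
open scoped ENNReal RealInnerProductSpace

noncomputable section
namespace Vale.Agent.P107

namespace SumS1X

theorem regroup (k : ℕ) (f : Ix → ℝ) : ∑ b ∈ Idx k, f b =
    ∑ i ∈ Finset.range (k + 1), ∑ m ∈ Finset.range (k + 3),
      ∑ a ∈ Idx2 k i m, f (i, a.1, a.2, m) := by
  simp only [Idx, Idx2, Finset.sum_filter, Finset.sum_product]
  refine Finset.sum_congr rfl fun i _ => ?_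
  symm
  rw [Finset.sum_comm]
  refine Finset.sum_congr rfl fun j _ => ?_
  rw [Finset.sum_comm]
  rfl

theorem sqrt_one_add (x : ℝ) (hx : 0 ≤ x) : √(1 + x) ≤ 1 + √x := by
  rw [Real.sqrt_le_left (by positivity)]
  nlinarith [Real.sq_sqrt hx, Real.sqrt_nonneg x]

theorem sqrt4 (x : ℝ) (hx : 0 ≤ x) : √(√x) ^ 4 = x := by
  have : √(√x) ^ 4 = (√(√x) ^ 2) ^ 2 := by ring
  rw [this, Real.sq_sqrt (Real.sqrt_nonneg x), Real.sq_sqrt hx]

theorem box_bd {D τ τ' p α β θ R J : ℝ} (hD : 0 ≤ D) (hτ : 0 ≤ τ) (hτ' : 0 ≤ τ') (hp : 0 < p)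
    (hα : 0 < α) (hβ : 0 < β) (hθ : 0 < θ) (hR : 0 ≤ R)
    (hJ : J ≤ D * √(Xq τ p α β θ * Yq p α β * ((β + θ) / θ) * R)) :
    sv τ' p α β θ * √J ≤ √D * √τ' * √(√τ) * p * (√θ * √(√R)) *
      ((α + β ^ 2) / β ^ 3 * min β θ * √(min β θ * β * min α β * √((β + θ) / θ) / θ)) := by
  have hμ : 0 < min β θ := lt_min hβ hθ
  have hν : 0 < min α β := lt_min hα hβ
  set g : ℝ := min β θ * β * min α β * √((β + θ) / θ) / θ with hg
  have hg0 : 0 ≤ g := by positivity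
  have h1 : α ^ 2 * min 1 (β ^ 2 / α ^ 2) = min α β ^ 2 := by
    rcases le_total α β with h | h
    · rw [min_eq_left h, min_eq_left, mul_one]
      rw [one_le_div (by positivity)]
      gcongr
    · rw [min_eq_right h, min_eq_right]
      · field_simp
      · rw [div_le_one (by positivity)]
        gcongr
  have h2 : Xq τ p α β θ * Yq p α β * ((β + θ) / θ) * R = (√τ * p * θ * g * √R) ^ 2 := by
    have e1 := Real.sq_sqrt hτ
    have e2 := Real.sq_sqrt hR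
    have e3 := Real.sq_sqrt (by positivity : 0 ≤ (β + θ) / θ)
    have e4 : (√τ * p * θ * g * √R) ^ 2 =
        √τ ^ 2 * p ^ 2 * min β θ ^ 2 * β ^ 2 * min α β ^ 2 * √((β + θ) / θ) ^ 2 * √R ^ 2 := by
      rw [hg]; field_simp
    rw [e4, e1, e2, e3, ← h1]
    unfold Xq Yq
    field_simp
  rw [h2, Real.sqrt_sq (by positivity)] at hJ
  have h3 : √J ≤ √D * √(√τ) * √p * √θ * √g * √(√R) := by
    refine (Real.sqrt_le_sqrt hJ).trans (le_of_eq ?_)
    rw [Real.sqrt_mul hD, Real.sqrt_mul (by positivity), Real.sqrt_mul (by positivity),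
      Real.sqrt_mul (by positivity), Real.sqrt_mul (by positivity)]
    ring
  unfold sv
  rw [Real.sqrt_mul hτ']
  have e5 : p = √p * √p := (Real.mul_self_sqrt hp.le).symm
  calc (α + β ^ 2) / β ^ 3 * min β θ * (√τ' * √p) * √J
      ≤ (α + β ^ 2) / β ^ 3 * min β θ * (√τ' * √p) * (√D * √(√τ) * √p * √θ * √g * √(√R)) := by
        gcongr
    _ = √D * √τ' * √(√τ) * (√p * √p) * (√θ * √(√R)) * ((α + β ^ 2) / β ^ 3 * min β θ * √g) := by
        ring
    _ = _ := by rw [← e5]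

theorem win_bd {D τ θ L E a : ℝ} (hτ : 0 ≤ τ) (hθ : 0 < θ) (hL : 0 < L) (hE0 : 0 ≤ E)
    (hE : E ≤ 2 * D) (ha : 0 < a) :
    √θ * √(√(1 + τ * E / (a ^ 2 * θ * min θ (1 / L)))) ≤
      √θ + √(√(2 * D)) * √(√τ) * √(1 / a) * (1 + √(θ * L)) := by
  have hm : 0 < min θ (1 / L) := lt_min hθ (by positivity)
  set x : ℝ := τ * E / (a ^ 2 * θ * min θ (1 / L)) with hx
  have hx0 : 0 ≤ x := by positivity
  have h1 : √(√(1 + x)) ≤ 1 + √(√x) :=
    (Real.sqrt_le_sqrt (sqrt_one_add x hx0)).trans (sqrt_one_add _ (Real.sqrt_nonneg x))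
  have h2 : √θ * √(√x) ≤ √(√(2 * D)) * √(√τ) * √(1 / a) * (1 + √(θ * L)) := by
    refine le_of_pow_le_pow_left₀ (n := 4) (by norm_num) (by positivity) ?_
    have e1 : √θ ^ 4 = θ ^ 2 := by
      have : √θ ^ 4 = (√θ ^ 2) ^ 2 := by ring
      rw [this, Real.sq_sqrt hθ.le]
    have e2 : √(1 / a) ^ 4 = (1 / a) ^ 2 := by
      have : √(1 / a) ^ 4 = (√(1 / a) ^ 2) ^ 2 := by ring
      rw [this, Real.sq_sqrt (by positivity)]
    rw [mul_pow, mul_pow, mul_pow, mul_pow, sqrt4 x hx0, sqrt4 τ hτ, sqrt4 _ (by linarith), e1, e2]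
    have e3 : θ ^ 2 * x = E * τ * (1 / a) ^ 2 * (θ / min θ (1 / L)) := by
      rw [hx]; field_simp
    have e4 : θ / min θ (1 / L) ≤ (1 + √(θ * L)) ^ 4 := by
      have s0 := Real.sqrt_nonneg (θ * L)
      have s1 := Real.sq_sqrt (by positivity : 0 ≤ θ * L)
      have s2 : 1 + θ * L ≤ (1 + √(θ * L)) ^ 2 := by nlinarith
      have s3 : (1 + √(θ * L)) ^ 2 ≤ (1 + √(θ * L)) ^ 4 :=
        pow_le_pow_right₀ (by linarith) (by norm_num)
      have s4 : 0 < θ * L := by positivity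
      rcases le_total θ (1 / L) with h | h
      · rw [min_eq_left h, div_self hθ.ne']; linarith
      · rw [min_eq_right h]
        have : θ / (1 / L) = θ * L := by field_simp
        linarith
    rw [e3]
    have : 0 ≤ 2 * D := by linarith
    gcongr
  calc √θ * √(√(1 + x)) ≤ √θ * (1 + √(√x)) := by gcongr
    _ = √θ + √θ * √(√x) := by ring
    _ ≤ _ := by linarith

theorem sum_sqrt_dy (n : ℕ) : ∑ m ∈ Finset.range n, √(dy m) ≤ 4 - 4 * √(dy n) := by
  induction n with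
  | zero => simp [dy]
  | succ n ih =>
    rw [Finset.sum_range_succ]
    have h : √(dy (n + 1)) ≤ 3 / 4 * √(dy n) := by
      rw [Real.sqrt_le_left (by positivity), mul_pow, Real.sq_sqrt (dy_pos n).le]
      have := dy_pos n
      have e : dy (n + 1) = dy n * (1 / 2) := by simp only [dy, pow_succ]
      rw [e]; linarith
    linarith

theorem sum_sqrt_pow (n : ℕ) :
    ∑ i ∈ Finset.range (n + 1), √((2 : ℝ) ^ i) ≤ 4 * √((2 : ℝ) ^ n) := by
  induction n with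
  | zero => simp
  | succ n ih =>
    rw [Finset.sum_range_succ]
    have h : √((2 : ℝ) ^ n) ≤ 3 / 4 * √((2 : ℝ) ^ (n + 1)) := by
      rw [Real.sqrt_le_left (by positivity), mul_pow, Real.sq_sqrt (by positivity), pow_succ 2 n]
      have : (0 : ℝ) < 2 ^ n := by positivity
      linarith
    linarith

theorem sum_pow (n : ℕ) : ∑ i ∈ Finset.range (n + 1), (2 : ℝ) ^ i ≤ 2 * 2 ^ n := by
  induction n with
  | zero => simp
  | succ n ih =>
    rw [Finset.sum_range_succ, pow_succ]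
    linarith

theorem p_bd {c P p p' : ℝ} (hc : 0 < c) (hP : 0 < P) (hp : 0 < p) (hp' : 0 < p') :
    p * √(1 / (c * min p p' / P)) ≤ √(P / c) * (√p + p / √p') := by
  have hm : 0 < min p p' := lt_min hp hp'
  have e : 1 / (c * min p p' / P) = P / c / min p p' := by field_simp
  rw [e, Real.sqrt_div (by positivity)]
  have s1 := Real.sqrt_pos.2 hp
  have s2 := Real.sqrt_pos.2 hp'
  have h : p / √(min p p') ≤ √p + p / √p' := by
    rcases le_total p p' with h | h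
    · rw [min_eq_left h, Real.div_sqrt]
      have : 0 ≤ p / √p' := by positivity
      linarith
    · rw [min_eq_right h]
      linarith
  calc p * (√(P / c) / √(min p p')) = √(P / c) * (p / √(min p p')) := by ring
    _ ≤ _ := by gcongr

theorem fin_bd {D CS c₀ c P p' τ L w : ℝ} (hCS : 0 < CS) (hc₀ : 0 < c₀) (hc : 0 < c) (hc1 : c ≤ 1)
    (hP : 0 < P) (hp' : 0 < p') (hτ : 0 < τ) (hL3 : 3 ≤ L) (hw1 : 1 ≤ w)
    (ht2 : τ ≤ (c * p' / P) ^ 2) :
    √D * √(max τ (1 / P ^ 2)) * √(√τ) * (2 * P * 4 +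
        √(√(2 * D)) * √(√τ) * (√(P / c) * (6 * (P / √p'))) * (5 * L)) * (CS / √(c₀ * p' / P)) ≤
      (√D * CS / √c₀ * (16 + 60 * √(√(2 * D))) + 1) *
        (P * √τ + τ * P ^ 2 * L / (c * p') + L ^ 2 * w ^ 2) := by
  -- final scalar inequalities
  have hL : 0 < L := by linarith
  have sp' := Real.sqrt_pos.2 hp'
  have sP := Real.sqrt_pos.2 hP
  set τ' : ℝ := max τ (1 / P ^ 2) with hτ'd
  set δ : ℝ := c₀ * p' / P with hδd
  have y0 : 0 ≤ P * √τ := by positivity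
  have y1 : 0 ≤ τ * P ^ 2 * L / (c * p') := by positivity
  have y2 : L ≤ L ^ 2 * w ^ 2 := by
    have h1 : L ^ 2 * 1 ^ 2 ≤ L ^ 2 * w ^ 2 := by gcongr
    nlinarith
  obtain ⟨y, hyy⟩ : ∃ y, y = P * √τ + τ * P ^ 2 * L / (c * p') + L ^ 2 * w ^ 2 := ⟨_, rfl⟩
  rw [← hyy]
  have t0 : √τ' ≤ √τ + 1 / P := by
    have q1 := Real.sqrt_nonneg τ
    have q2 : 0 < 1 / P := by positivity
    rcases max_choice τ (1 / P ^ 2) with h | h
    · rw [hτ'd, h]; linarith
    · rw [hτ'd, h, ← one_div_pow, Real.sqrt_sq q2.le]; linarith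
  have t2 : √τ ≤ c * p' / P := by
    rw [Real.sqrt_le_left (by positivity)]
    exact ht2
  have sδ : √δ = √c₀ * √p' / √P := by
    rw [hδd, Real.sqrt_div (by positivity), Real.sqrt_mul hc₀.le]
  have sc₀ := Real.sqrt_pos.2 hc₀
  have sc := Real.sqrt_pos.2 hc
  have t3 : √(√τ) * √P / √p' ≤ 1 := by
    rw [div_le_one sp', ← Real.sqrt_mul (Real.sqrt_nonneg τ)]
    refine Real.sqrt_le_sqrt ?_
    rw [le_div_iff₀ hP] at t2
    nlinarith
  have f1 : √τ' * P * (√(√τ) * √P / √p') ≤ 2 * y := by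
    have : √τ' * P ≤ P * √τ + 1 := by
      calc √τ' * P ≤ (√τ + 1 / P) * P := by gcongr
        _ = _ := by field_simp
    calc _ ≤ (P * √τ + 1) * 1 := by gcongr
      _ ≤ _ := by rw [hyy]; linarith
  have f2 : √τ' * √τ * (P ^ 2 * L / (√c * p')) ≤ 2 * y := by
    have g1 : c ≤ √c := by
      rw [Real.le_sqrt hc.le hc.le]
      nlinarith
    have g2 : √τ' * √τ ≤ τ + √τ / P := by
      calc √τ' * √τ ≤ (√τ + 1 / P) * √τ := by gcongr
        _ = √τ * √τ + √τ / P := by ring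
        _ = _ := by rw [Real.mul_self_sqrt hτ.le]
    have g3 : √τ / P * (P ^ 2 * L / (c * p')) ≤ L := by
      calc √τ / P * (P ^ 2 * L / (c * p')) ≤ c * p' / P / P * (P ^ 2 * L / (c * p')) := by gcongr
        _ = L := by field_simp
    calc _ ≤ (τ + √τ / P) * (P ^ 2 * L / (c * p')) := by gcongr
      _ = τ * P ^ 2 * L / (c * p') + √τ / P * (P ^ 2 * L / (c * p')) := by ring
      _ ≤ _ := by rw [hyy]; linarith
  have hy0 : 0 ≤ y := by rw [hyy]; positivity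
  have e1 : √D * √τ' * √(√τ) * (2 * P * 4 +
        √(√(2 * D)) * √(√τ) * (√(P / c) * (6 * (P / √p'))) * (5 * L)) * (CS / √δ) =
      √D * CS / √c₀ * (8 * (√τ' * P * (√(√τ) * √P / √p')) +
        30 * √(√(2 * D)) * (√τ' * (√(√τ) * √(√τ)) * ((√P * √P) * P * L / (√c * (√p' * √p'))))) := by
    rw [sδ, Real.sqrt_div hP.le]
    field_simp
    ring
  rw [Real.mul_self_sqrt (Real.sqrt_nonneg τ), Real.mul_self_sqrt hP.le,
    Real.mul_self_sqrt hp'.le, ← sq] at e1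
  calc _ = _ := e1
    _ ≤ √D * CS / √c₀ * (8 * (2 * y) + 30 * √(√(2 * D)) * (2 * y)) := by gcongr
    _ = √D * CS / √c₀ * (16 + 60 * √(√(2 * D))) * y := by ring
    _ ≤ _ := by gcongr; linarith

end SumS1X

open SumS1X in
theorem sumS1 (hg : Geo) (h : ShS) : SumS1 := by
  have _ := hg
  obtain ⟨CS, hCS, hS⟩ := h
  intro D c₀ hc₀ hc₁
  refine ⟨√|D| * CS / √c₀ * (16 + 60 * √(√(2 * |D|))) + 1, by positivity, ?_⟩
  intro c k w τ J E₁ E₂ H
  have hD : 0 < D := by linarith [H.hD]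
  rw [abs_of_pos hD]
  have hc := H.hc0
  have hw := H.scl.hw
  have hτ := H.scl.hτ
  have hL3 := three_le_LL k
  have hL := LL_pos k
  set L := LL k with hLd
  set P : ℝ := 2 ^ k with hPd
  have hP : 0 < P := by positivity
  set p' : ℝ := w ^ 6 with hp'd
  have hp' : 0 < p' := by positivity
  have hp'P : p' ≤ P := H.scl.hi
  set τ' : ℝ := max τ (1 / P ^ 2) with hτ'd
  have hτ' : 0 ≤ τ' := hτ.le.trans (le_max_left _ _)
  set δ : ℝ := c₀ * p' / P with hδd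
  have hδ : 0 < δ := by positivity
  have hδ1 : δ ≤ 1 := by
    rw [hδd, div_le_one hP]
    nlinarith
  set K : ℕ → ℕ → ℝ := fun i m => √D * √τ' * √(√τ) * ((2 : ℝ) ^ i * √(dy m) +
    √(√(2 * D)) * √(√τ) * (√(P / c) * (√((2 : ℝ) ^ i) + 2 ^ i / √p')) * (1 + √(dy m * L))) with hK
  set s : ℕ → ℕ × ℕ → ℝ := fun m a => sw1 δ (dy a.1) (dy a.2) *
    ((dy a.1 + dy a.2 ^ 2) / dy a.2 ^ 3 * min (dy a.2) (dy m) *
      √(min (dy a.2) (dy m) * dy a.2 * min (dy a.1) (dy a.2) * √((dy a.2 + dy m) / dy m) / dy m))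
    with hs
  have hK0 : ∀ i m, 0 ≤ K i m := fun i m => by simp only [hK]; positivity
  have step1 : ∑ b ∈ Idx k, sw1 δ b.α b.β * sv τ' b.p b.α b.β b.θ * √(J b) ≤
      ∑ b ∈ Idx k, K b.1 b.2.2.2 * s b.2.2.2 (b.2.1, b.2.2.1) := by
    refine Finset.sum_le_sum fun b hb => ?_
    have hE1 : E₁ b ≤ D :=
      (Finset.single_le_sum (fun b _ => H.E10 b) hb).trans H.sE1
    have hmem : (b.1, b.2.2.2) ∈ Finset.range (k + 1) ×ˢ Finset.range (k + 3) := by
      simp only [Idx, Finset.mem_filter, Finset.mem_product] at hb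
      exact Finset.mem_product.2 ⟨hb.1.1, hb.1.2.2.2⟩
    have hE2 : E₂ b.1 b.2.2.2 ≤ D :=
      (Finset.single_le_sum (f := fun a : ℕ × ℕ => E₂ a.1 a.2) (fun a _ => H.E20 _ _) hmem).trans
        H.sE2
    have hE0 : 0 ≤ E₁ b + E₂ b.1 b.2.2.2 := add_nonneg (H.E10 b) (H.E20 _ _)
    have hp : 0 < b.p := by unfold Ix.p; positivity
    have hα : 0 < b.α := dy_pos _
    have hβ : 0 < b.β := dy_pos _
    have hθ : 0 < b.θ := dy_pos _
    have ha : 0 < c * min b.p p' / P := by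
      have := lt_min hp hp'
      positivity
    have hm : 0 < min b.θ (1 / L) := lt_min hθ (by positivity)
    have h1 := box_bd (τ' := τ') hD.le hτ.le hτ' hp hα hβ hθ (by unfold Dq; positivity) (H.win b hb)
    have h2 := win_bd (D := D) hτ.le hθ hL hE0 (by linarith) ha
    have h3 := p_bd hc hP hp hp'
    have h4 : b.p * (√b.θ * √(√(1 + τ * (E₁ b + E₂ b.1 b.2.2.2) / Dq c k p' b.p b.θ))) ≤
        b.p * √b.θ + √(√(2 * D)) * √(√τ) * (√(P / c) * (√b.p + b.p / √p')) *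
          (1 + √(b.θ * L)) := by
      calc _ ≤ b.p * (√b.θ + √(√(2 * D)) * √(√τ) * √(1 / (c * min b.p p' / P)) *
            (1 + √(b.θ * L))) := mul_le_mul_of_nonneg_left h2 hp.le
        _ = b.p * √b.θ + √(√(2 * D)) * √(√τ) * (b.p * √(1 / (c * min b.p p' / P))) *
            (1 + √(b.θ * L)) := by ring
        _ ≤ _ := by gcongr
    have hsw : 0 ≤ sw1 δ b.α b.β := by unfold sw1; split_ifs <;> norm_num
    have hμ : 0 < min b.β b.θ := lt_min hβ hθ
    set S : ℝ := (b.α + b.β ^ 2) / b.β ^ 3 * min b.β b.θ *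
      √(min b.β b.θ * b.β * min b.α b.β * √((b.β + b.θ) / b.θ) / b.θ) with hSd
    have hS0 : 0 ≤ S := by positivity
    change _ ≤ √D * √τ' * √(√τ) * (b.p * √b.θ +
      √(√(2 * D)) * √(√τ) * (√(P / c) * (√b.p + b.p / √p')) * (1 + √(b.θ * L))) *
        (sw1 δ b.α b.β * S)
    calc sw1 δ b.α b.β * sv τ' b.p b.α b.β b.θ * √(J b)
        = sw1 δ b.α b.β * (sv τ' b.p b.α b.β b.θ * √(J b)) := by ring
      _ ≤ sw1 δ b.α b.β * (√D * √τ' * √(√τ) * b.p * (√b.θ * √(√(1 + τ * (E₁ b + E₂ b.1 b.2.2.2) /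
            Dq c k p' b.p b.θ))) * S) := mul_le_mul_of_nonneg_left h1 hsw
      _ = √D * √τ' * √(√τ) * (b.p * (√b.θ * √(√(1 + τ * (E₁ b + E₂ b.1 b.2.2.2) /
            Dq c k p' b.p b.θ)))) * (sw1 δ b.α b.β * S) := by ring
      _ ≤ _ := by gcongr
  have step2 : ∑ b ∈ Idx k, K b.1 b.2.2.2 * s b.2.2.2 (b.2.1, b.2.2.1) ≤
      ∑ i ∈ Finset.range (k + 1), ∑ m ∈ Finset.range (k + 3), K i m * (CS / √δ) := by
    rw [regroup]
    refine Finset.sum_le_sum fun i _ => Finset.sum_le_sum fun m _ => ?_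
    change ∑ a ∈ Idx2 k i m, K i m * s m a ≤ _
    rw [← Finset.mul_sum]
    exact mul_le_mul_of_nonneg_left (hS k i m δ hδ hδ1) (hK0 i m)
  have sp' := Real.sqrt_pos.2 hp'
  have sP := Real.sqrt_pos.2 hP
  have a1 : ∑ i ∈ Finset.range (k + 1), (2 : ℝ) ^ i ≤ 2 * P := sum_pow k
  have a2 : ∑ m ∈ Finset.range (k + 3), √(dy m) ≤ 4 := by
    have := sum_sqrt_dy (k + 3)
    have := Real.sqrt_nonneg (dy (k + 3))
    linarith
  have a3 : ∑ i ∈ Finset.range (k + 1), (√((2 : ℝ) ^ i) + 2 ^ i / √p') ≤ 6 * (P / √p') := by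
    rw [Finset.sum_add_distrib, ← Finset.sum_div]
    have b1 : ∑ i ∈ Finset.range (k + 1), √((2 : ℝ) ^ i) ≤ 4 * √P := sum_sqrt_pow k
    have b2 : √P ≤ P / √p' := by
      rw [le_div_iff₀ sp']
      calc √P * √p' ≤ √P * √P := by gcongr
        _ = P := Real.mul_self_sqrt hP.le
    have b3 : (∑ i ∈ Finset.range (k + 1), (2 : ℝ) ^ i) / √p' ≤ 2 * P / √p' := by gcongr
    have b4 : 2 * P / √p' = 2 * (P / √p') := by ring
    linarith
  have a4 : ∑ m ∈ Finset.range (k + 3), (1 + √(dy m * L)) ≤ 5 * L := by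
    have b1 : ∀ m, √(dy m * L) = √(dy m) * √L := fun m => Real.sqrt_mul (dy_pos m).le L
    simp only [Finset.sum_add_distrib, b1, ← Finset.sum_mul, Finset.sum_const, Finset.card_range,
      nsmul_eq_mul, mul_one]
    have b2 : ((k + 3 : ℕ) : ℝ) = L := by rw [hLd, LL]; push_cast; ring
    have b3 : √L ≤ L := by
      rw [Real.sqrt_le_left hL.le]; nlinarith
    have b4 : (∑ m ∈ Finset.range (k + 3), √(dy m)) * √L ≤ 4 * L := by gcongr
    linarith
  have step3 : ∑ i ∈ Finset.range (k + 1), ∑ m ∈ Finset.range (k + 3), K i m ≤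
      √D * √τ' * √(√τ) * (2 * P * 4 +
        √(√(2 * D)) * √(√τ) * (√(P / c) * (6 * (P / √p'))) * (5 * L)) := by
    have e : ∑ i ∈ Finset.range (k + 1), ∑ m ∈ Finset.range (k + 3), K i m =
        √D * √τ' * √(√τ) * ((∑ i ∈ Finset.range (k + 1), (2 : ℝ) ^ i) *
          (∑ m ∈ Finset.range (k + 3), √(dy m)) + √(√(2 * D)) * √(√τ) *
          (√(P / c) * ∑ i ∈ Finset.range (k + 1), (√((2 : ℝ) ^ i) + 2 ^ i / √p')) *
          ∑ m ∈ Finset.range (k + 3), (1 + √(dy m * L))) := by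
      simp only [hK, ← Finset.mul_sum, Finset.sum_add_distrib (f := fun m => _ * √(dy m)),
        Finset.sum_add_distrib (f := fun i => (2 : ℝ) ^ i * _), ← Finset.sum_mul]
    rw [e]
    gcongr
  have hw1 : 1 ≤ w := by
    have h1 := H.big
    have h2 := H.hD
    have h3 : 1 * 3 ^ 2 ≤ D * L ^ 2 := by gcongr
    linarith
  have hfin := fin_bd (D := D) (CS := CS) hCS hc₀ hc H.hc1 hP hp' hτ hL3 hw1 H.scl.t2
  calc _ ≤ _ := step1
    _ ≤ _ := step2
    _ = (∑ i ∈ Finset.range (k + 1), ∑ m ∈ Finset.range (k + 3), K i m) * (CS / √δ) := by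
        simp only [Finset.sum_mul]
    _ ≤ √D * √τ' * √(√τ) * (2 * P * 4 +
        √(√(2 * D)) * √(√τ) * (√(P / c) * (6 * (P / √p'))) * (5 * L)) * (CS / √δ) := by gcongr
    _ ≤ _ := hfin

end Vale.Agent.P107
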