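import Vale.Agent.P107.Basic

open MeasureTheory Set Filter Topology
open scoped ENNReal RealInnerProductSpace

noncomputable section
namespace Vale.Agent.P107

namespace SumS2X

theorem tail {r : ℝ} (h0 : 0 < r) (h1 : r < 1) {y : ℝ} (hy : 0 ≤ y) (n : ℕ) :
    ∑ j ∈ Finset.range n, (if r ^ j ≤ y then r ^ j else 0) ≤ y / (1 - r) := by
  have h2 : 0 < 1 - r := by linarith
  have key : ∀ n : ℕ, ∑ j ∈ Finset.range n, (if r ^ j ≤ y then r ^ j else 0)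
      ≤ max 0 (y - r ^ n) / (1 - r) := by
    intro n
    induction n with
    | zero => simp only [Finset.range_zero, Finset.sum_empty]; positivity
    | succ n ih =>
      rw [Finset.sum_range_succ]
      split_ifs with h
      · rw [max_eq_right (by linarith)] at ih
        refine (add_le_add ih le_rfl).trans ?_
        rw [div_add' _ _ _ h2.ne']
        refine div_le_div_of_nonneg_right (le_max_of_le_right (le_of_eq ?_)) h2.le
        ring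
      · rw [max_eq_left (by linarith)] at ih
        rw [add_zero]
        exact ih.trans (div_le_div_of_nonneg_right (le_max_left _ _) h2.le)
  refine (key n).trans (div_le_div_of_nonneg_right (max_le hy ?_) h2.le)
  have := pow_pos h0 n
  linarith

theorem head {R : ℝ} (h1 : 1 < R) {y : ℝ} (hy : 0 ≤ y) (n : ℕ) :
    ∑ j ∈ Finset.range n, (if R ^ j ≤ y then R ^ j else 0) ≤ y * (R / (R - 1)) := by
  have h2 : 0 < R - 1 := by linarith
  have h0 : 0 < R := by linarith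
  have key : ∀ n : ℕ, ∑ j ∈ Finset.range n, (if R ^ j ≤ y then R ^ j else 0)
      ≤ min (y * R) (R ^ n) / (R - 1) := by
    intro n
    induction n with
    | zero => simp only [Finset.range_zero, Finset.sum_empty]; positivity
    | succ n ih =>
      rw [Finset.sum_range_succ]
      split_ifs with h
      · have h3 := ih.trans (div_le_div_of_nonneg_right (min_le_right _ _) h2.le)
        refine (add_le_add h3 le_rfl).trans ?_
        rw [div_add' _ _ _ h2.ne']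
        refine div_le_div_of_nonneg_right (le_min ?_ (le_of_eq (by ring))) h2.le
        nlinarith
      · rw [add_zero]
        refine ih.trans (div_le_div_of_nonneg_right (min_le_min_left _ ?_) h2.le)
        exact pow_le_pow_right₀ h1.le (Nat.le_succ n)
  refine (key n).trans ?_
  rw [← mul_div_assoc]
  exact div_le_div_of_nonneg_right (min_le_left _ _) h2.le

theorem head' {R : ℝ} (h1 : 1 < R) (k : ℕ) :
    ∑ j ∈ Finset.range (k + 1), R ^ j ≤ R ^ k * (R / (R - 1)) := by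
  refine le_trans (le_of_eq ?_) (head h1 (y := R ^ k) (by positivity) (k + 1))
  refine Finset.sum_congr rfl fun j hj => ?_
  rw [if_pos (pow_le_pow_right₀ h1.le (Nat.lt_succ_iff.1 (Finset.mem_range.1 hj)))]

theorem tail' {r : ℝ} (h0 : 0 < r) (h1 : r < 1) (n : ℕ) :
    ∑ j ∈ Finset.range n, r ^ j ≤ 1 / (1 - r) := by
  refine le_trans (le_of_eq ?_) (tail h0 h1 zero_le_one n)
  refine Finset.sum_congr rfl fun j _ => ?_
  rw [if_pos (pow_le_one₀ h0.le h1.le)]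

theorem term {D J a s b t θ τ' : ℝ} (hD : 1 ≤ D) (ha : 0 < a) (hs : 0 < s) (hb : 0 < b)
    (ht : 0 < t) (hτ : 0 ≤ τ') (h1 : b ^ 6 ≤ s ^ 6) (h2 : b ^ 6 ≤ 1) (h3 : b ^ 6 ≤ θ)
    (h : ∀ ρ, 0 < ρ → J ≤ D * (Xq (t ^ 4) (a ^ 6) (s ^ 6) (b ^ 6) θ * ρ
      + Yq (a ^ 6) (s ^ 6) (b ^ 6) * (t ^ 4 / ρ ^ 2 + 1 / ρ))) :
    sv τ' (a ^ 6) (s ^ 6) (b ^ 6) θ * √J
      ≤ 4 * D * √τ' * (t ^ 2 * a ^ 8 * s ^ 8 * b⁻¹ ^ 2 + t * a ^ 6 * s ^ 6 * b⁻¹ ^ 3) := by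
  set ρ₁ : ℝ := 1 / (a ^ 8 * b ^ 4 * s ^ 8) with hρ₁
  set ρ₂ : ℝ := 1 / (t ^ 2 * a ^ 12 * b ^ 6 * s ^ 12) with hρ₂
  have p1 : 0 < ρ₁ := by positivity
  have p2 : 0 < ρ₂ := by positivity
  have hJ := h (ρ₁ + ρ₂) (by positivity)
  have hY : Yq (a ^ 6) (s ^ 6) (b ^ 6) = (b ^ 6) ^ 2 / (s ^ 6) ^ 2 / a ^ 6 := by
    unfold Yq
    rw [min_eq_right]
    rw [div_le_one (by positivity)]
    exact pow_le_pow_left₀ (by positivity) h1 2
  unfold Xq at hJ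
  rw [hY, min_eq_left h3] at hJ
  set u : ℝ := t ^ 2 * a ^ 5 * b ^ 10 * s ^ 2 with hu
  set v : ℝ := t * a ^ 3 * b ^ 9 with hv
  have u0 : 0 < u := by positivity
  have v0 : 0 < v := by positivity
  have e1 : t ^ 4 / (ρ₁ + ρ₂) ^ 2 + 1 / (ρ₁ + ρ₂) ≤ t ^ 4 / ρ₁ ^ 2 + 1 / ρ₂ := by
    gcongr <;> linarith
  have e2 : t ^ 4 * (a ^ 6) ^ 3 * (b ^ 6) ^ 2 * (b ^ 6) ^ 2 * (s ^ 6) ^ 2 * (ρ₁ + ρ₂)
      + (b ^ 6) ^ 2 / (s ^ 6) ^ 2 / a ^ 6 * (t ^ 4 / ρ₁ ^ 2 + 1 / ρ₂) = 2 * (u ^ 2 + v ^ 2) := by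
    rw [hρ₁, hρ₂, hu, hv]
    field_simp
    ring
  have e3 : J ≤ D * (2 * (u ^ 2 + v ^ 2)) := by
    refine hJ.trans ?_
    rw [← e2]
    gcongr
  have e4 : √J ≤ 2 * D * (u + v) := by
    rw [Real.sqrt_le_iff]
    refine ⟨by positivity, e3.trans ?_⟩
    have e5 : u ^ 2 + v ^ 2 ≤ (u + v) ^ 2 := by nlinarith [mul_pos u0 v0]
    have e6 : D * 2 ≤ (2 * D) ^ 2 := by nlinarith
    calc D * (2 * (u ^ 2 + v ^ 2)) = D * 2 * (u ^ 2 + v ^ 2) := by ring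
      _ ≤ (2 * D) ^ 2 * (u + v) ^ 2 := by gcongr
      _ = _ := by ring
  have e7 : sv τ' (a ^ 6) (s ^ 6) (b ^ 6) θ ≤ 2 * s ^ 6 / (b ^ 6) ^ 3 * b ^ 6 * (√τ' * a ^ 3) := by
    unfold sv
    rw [min_eq_left h3, Real.sqrt_mul hτ, show a ^ 6 = (a ^ 3) ^ 2 by ring,
      Real.sqrt_sq (by positivity)]
    gcongr
    nlinarith [pow_pos hb 6]
  calc _ ≤ 2 * s ^ 6 / (b ^ 6) ^ 3 * b ^ 6 * (√τ' * a ^ 3) * (2 * D * (u + v)) := by gcongr
    _ = _ := by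
      rw [hu, hv]
      field_simp
      ring

theorem exg : ∃ g : ℝ, 1 < g ∧ g ^ 6 = 2 :=
  ⟨(2 : ℝ) ^ ((6 : ℕ) : ℝ)⁻¹, Real.one_lt_rpow (by norm_num) (by norm_num),
    Real.rpow_inv_natCast_pow (by norm_num) (by norm_num)⟩

/-- weight in the variable `j` -/
def WW (w ε : ℝ) (j : ℕ) : ℝ := (if dy j ≤ 4 * (1 / w ^ 3) then 1 else 0) + ε / dy j
/-- weight in the variable `m` -/
def MM (j m : ℕ) : ℝ :=
  8 / 3 / dy j * (if (1 / 2 : ℝ) ^ m ≤ 9 / 4 * dy j then (1 / 2) ^ m else 0)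
/-- weight in the variable `l` -/
def LG (R y : ℝ) (i l : ℕ) : ℝ := if R ^ l ≤ y * R ^ i then R ^ l else 0

theorem WW0 {w ε : ℝ} (hε : 0 ≤ ε) (j : ℕ) : 0 ≤ WW w ε j := by
  have := dy_pos j
  unfold WW
  split_ifs <;> positivity

theorem MM0 (j m : ℕ) : 0 ≤ MM j m := by
  have := dy_pos j
  unfold MM
  split_ifs <;> positivity

theorem LG0 {R : ℝ} (hR : 0 ≤ R) (y : ℝ) (i l : ℕ) : 0 ≤ LG R y i l := by
  unfold LG
  split_ifs <;> positivity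

theorem sumM (j n : ℕ) : ∑ m ∈ Finset.range n, MM j m ≤ 12 := by
  have h := dy_pos j
  unfold MM
  rw [← Finset.mul_sum]
  refine (mul_le_mul_of_nonneg_left (tail (by norm_num) (by norm_num) (by positivity) n)
    (by positivity)).trans (le_of_eq ?_)
  field_simp
  norm_num

theorem dy_eq {g : ℝ} (h6 : g ^ 6 = 2) (j : ℕ) : dy j = (g⁻¹ ^ j) ^ 6 := by
  unfold dy
  rw [← pow_mul, mul_comm, pow_mul, inv_pow, h6, one_div]

theorem sumW8 {g w ε : ℝ} (h1 : 1 < g) (h6 : g ^ 6 = 2) (hw : 0 < w) (hε : 0 ≤ ε) (n : ℕ) :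
    ∑ j ∈ Finset.range n, WW w ε j * (g⁻¹ ^ j) ^ 8
      ≤ 16 / w ^ 4 / (1 - g⁻¹ ^ 8) + ε * (1 / (1 - g⁻¹ ^ 2)) := by
  have g0 : 0 < g⁻¹ := by positivity
  have g1 : g⁻¹ < 1 := inv_lt_one_of_one_lt₀ h1
  have a1 := tail (pow_pos g0 8) (pow_lt_one₀ g0.le g1 (by norm_num)) (y := 16 / w ^ 4)
    (by positivity) n
  have a2 := mul_le_mul_of_nonneg_left
    (tail' (pow_pos g0 2) (pow_lt_one₀ g0.le g1 (by norm_num)) n) hε
  refine le_trans ?_ (add_le_add a1 a2)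
  rw [Finset.mul_sum, ← Finset.sum_add_distrib]
  refine Finset.sum_le_sum fun j _ => ?_
  unfold WW
  rw [dy_eq h6, pow_right_comm _ 8 j, pow_right_comm _ 2 j]
  have s0 : 0 < g⁻¹ ^ j := pow_pos g0 j
  generalize g⁻¹ ^ j = s at s0 ⊢
  rw [add_mul]
  refine add_le_add ?_ (le_of_eq (by field_simp))
  split_ifs with c1 c2 c2
  · rw [one_mul]
  · exfalso
    refine c2 ?_
    have c3 : s ^ 2 ≤ 2 / w := by
      refine le_of_pow_le_pow_left₀ (n := 3) (by norm_num) (by positivity) ?_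
      calc (s ^ 2) ^ 3 = s ^ 6 := by ring
        _ ≤ 4 * (1 / w ^ 3) := c1
        _ ≤ 8 * (1 / w ^ 3) := by gcongr; norm_num
        _ = _ := by field_simp; norm_num
    calc s ^ 8 = (s ^ 2) ^ 4 := by ring
      _ ≤ (2 / w) ^ 4 := by gcongr
      _ = _ := by field_simp; norm_num
  · rw [zero_mul]; positivity
  · rw [zero_mul]

theorem sumW6 {w ε : ℝ} (hw : 0 < w) (n : ℕ) :
    ∑ j ∈ Finset.range n, WW w ε j * dy j ≤ 8 / w ^ 3 + ε * n := by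
  have a1 := tail (r := 1 / 2) (by norm_num) (by norm_num) (y := 4 * (1 / w ^ 3))
    (by positivity) n
  have a2 : ∑ j ∈ Finset.range n, WW w ε j * dy j = ∑ j ∈ Finset.range n,
      ((if (1 / 2 : ℝ) ^ j ≤ 4 * (1 / w ^ 3) then (1 / 2) ^ j else 0) + ε) := by
    refine Finset.sum_congr rfl fun j _ => ?_
    have := dy_pos j
    unfold WW
    rw [add_mul, div_mul_cancel₀ _ this.ne']
    unfold dy
    split_ifs <;> simp
  rw [a2, Finset.sum_add_distrib, Finset.sum_const, Finset.card_range, nsmul_eq_mul,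
    mul_comm (n : ℝ) ε]
  refine add_le_add (a1.trans (le_of_eq ?_)) le_rfl
  field_simp
  norm_num

theorem fin {D c G w t L ε A B T : ℝ} (hD : 1 ≤ D) (hc0 : 0 < c) (hc1 : c ≤ 1) (hG : 1 ≤ G)
    (ht : 0 < t) (hL : 1 ≤ L) (hbig : D * L ^ 2 ≤ w) (hi : w ^ 6 ≤ G ^ 6)
    (t2 : t ^ 4 ≤ (c * w ^ 6 / G ^ 6) ^ 2) (hε : ε ≤ D * L / w ^ 4) (hA : 0 ≤ A) (hB : 0 ≤ B)
    (hT : T ≤ t ^ 2 + 1 / G ^ 6) (hT0 : 0 ≤ T) :
    T * (t ^ 2 * G ^ 10 * (A / w ^ 4 + ε * B) + t * G ^ 9 * (8 / w ^ 3 + ε * L))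
      ≤ (2 * (A + D * B) + 9) *
        (G ^ 6 * t ^ 2 + t ^ 4 * (G ^ 6) ^ 2 * L / (c * w ^ 6) + L ^ 2 * w ^ 2) := by
  have hLw : L ≤ w := by nlinarith
  have hw1 : 1 ≤ w := hL.trans hLw
  have hw : 0 < w := by linarith
  have hG0 : 0 < G := by linarith
  have hwG : w ≤ G := le_of_pow_le_pow_left₀ (by norm_num) hG0.le hi
  have b1 : A / w ^ 4 + ε * B ≤ (A + D * B) * (L / w ^ 4) := by
    have : A / w ^ 4 ≤ A * (L / w ^ 4) := by
      rw [← mul_div_assoc]; gcongr; nlinarith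
    have : ε * B ≤ D * L / w ^ 4 * B := by gcongr
    calc _ ≤ A * (L / w ^ 4) + D * L / w ^ 4 * B := by linarith
      _ = _ := by ring
  have b2 : 8 / w ^ 3 + ε * L ≤ 9 / w ^ 3 := by
    have : ε * L ≤ 1 / w ^ 3 := by
      calc ε * L ≤ D * L / w ^ 4 * L := by gcongr
        _ = D * L ^ 2 / w ^ 4 := by ring
        _ ≤ w / w ^ 4 := by gcongr
        _ = _ := by field_simp
    calc _ ≤ 8 / w ^ 3 + 1 / w ^ 3 := by linarith
      _ = _ := by ring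
  have b3 : t * G ^ 3 / w ^ 3 ≤ 1 := by
    rw [div_le_one (by positivity), ← le_div_iff₀ (by positivity)]
    refine le_of_pow_le_pow_left₀ (n := 4) (by norm_num) (by positivity) (t2.trans ?_)
    calc (c * w ^ 6 / G ^ 6) ^ 2 ≤ (1 * w ^ 6 / G ^ 6) ^ 2 := by gcongr
      _ = _ := by ring
  have c1 : t ^ 2 * (t ^ 2 * G ^ 10 * (L / w ^ 4)) ≤ t ^ 4 * (G ^ 6) ^ 2 * L / (c * w ^ 6) := by
    calc _ = t ^ 4 * (G ^ 10 * w ^ 2) * L / (1 * w ^ 6) := by field_simp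
      _ ≤ t ^ 4 * (G ^ 10 * G ^ 2) * L / (c * w ^ 6) := by gcongr
      _ = _ := by ring
  have c2 : 1 / G ^ 6 * (t ^ 2 * G ^ 10 * (L / w ^ 4)) ≤ G ^ 6 * t ^ 2 := by
    have d1 : L / w ^ 4 ≤ 1 := by
      rw [div_le_one (by positivity)]
      exact hLw.trans (le_self_pow₀ hw1 (by norm_num))
    calc _ = G ^ 4 * t ^ 2 * (L / w ^ 4) := by field_simp
      _ ≤ G ^ 6 * t ^ 2 * 1 := by gcongr; norm_num
      _ = _ := mul_one _
  have c3 : t ^ 2 * (t * G ^ 9 * (9 / w ^ 3)) ≤ 9 * (G ^ 6 * t ^ 2) := by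
    calc _ = 9 * (G ^ 6 * t ^ 2) * (t * G ^ 3 / w ^ 3) := by ring
      _ ≤ 9 * (G ^ 6 * t ^ 2) * 1 := by gcongr
      _ = _ := mul_one _
  have c4 : 1 / G ^ 6 * (t * G ^ 9 * (9 / w ^ 3)) ≤ 9 * (L ^ 2 * w ^ 2) := by
    have d1 : 1 ≤ L ^ 2 * w ^ 2 := one_le_mul_of_one_le_of_one_le (one_le_pow₀ hL) (one_le_pow₀ hw1)
    calc _ = 9 * (t * G ^ 3 / w ^ 3) := by field_simp
      _ ≤ 9 * (L ^ 2 * w ^ 2) := by linarith
  have hK : 0 ≤ A + D * B := by positivity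
  have p1 : 0 ≤ G ^ 6 * t ^ 2 := by positivity
  have p2 : 0 ≤ t ^ 4 * (G ^ 6) ^ 2 * L / (c * w ^ 6) := by positivity
  have p3 : 0 ≤ L ^ 2 * w ^ 2 := by positivity
  calc _ ≤ (t ^ 2 + 1 / G ^ 6) * (t ^ 2 * G ^ 10 * ((A + D * B) * (L / w ^ 4))
          + t * G ^ 9 * (9 / w ^ 3)) := by
        refine (mul_le_mul_of_nonneg_left ?_ hT0).trans (mul_le_mul_of_nonneg_right hT ?_)
        · gcongr
        · positivity
    _ = (A + D * B) * (t ^ 2 * (t ^ 2 * G ^ 10 * (L / w ^ 4))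
          + 1 / G ^ 6 * (t ^ 2 * G ^ 10 * (L / w ^ 4)))
        + (t ^ 2 * (t * G ^ 9 * (9 / w ^ 3)) + 1 / G ^ 6 * (t * G ^ 9 * (9 / w ^ 3))) := by ring
    _ ≤ (A + D * B) * (t ^ 4 * (G ^ 6) ^ 2 * L / (c * w ^ 6) + G ^ 6 * t ^ 2)
        + (9 * (G ^ 6 * t ^ 2) + 9 * (L ^ 2 * w ^ 2)) := by gcongr
    _ ≤ _ := by nlinarith [mul_nonneg hK p1, mul_nonneg hK p2, mul_nonneg hK p3]

theorem box {g D c w t δ ε τ' : ℝ} {k : ℕ} {J E₁ : Ix → ℝ} {E₂ : ℕ → ℕ → ℝ} (h1 : 1 < g)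
    (h6 : g ^ 6 = 2) (ht : 0 < t) (H : SumH D c k w (t ^ 4) J E₁ E₂) (hδ1 : δ ≤ 1 / 32)
    (hε : 0 ≤ ε) (hτ : 0 ≤ τ') {b : Ix} (hb : b ∈ Idx k) :
    sw2 δ (1 / w ^ 3) ε b.α b.β * sv τ' b.p b.α b.β b.θ * √(J b) ≤ 4 * D * √τ' *
      (MM b.2.1 b.2.2.2 *
        (t ^ 2 * (g ^ b.1) ^ 8 * (WW w ε b.2.1 * (g⁻¹ ^ b.2.1) ^ 8) * LG (g ^ 2) 2 b.1 b.2.2.1
        + t * (g ^ b.1) ^ 6 * (WW w ε b.2.1 * dy b.2.1) * LG (g ^ 3) 3 b.1 b.2.2.1)) := by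
  obtain ⟨i, j, l, m⟩ := b
  have g0 : 0 < g := by linarith
  have hD := H.hD
  have hW := WW0 (w := w) hε j
  have hj := dy_pos j
  have hnon := H.non _ hb
  have hb' : Adm (Ix.p (i, j, l, m)) (Ix.α (i, j, l, m)) (Ix.β (i, j, l, m))
      (Ix.θ (i, j, l, m)) := by
    classical
    unfold Idx at hb
    rw [Finset.mem_filter] at hb
    exact hb.2
  obtain ⟨a1, -, a3, -, a5⟩ := hb'
  simp only [Ix.p, Ix.α, Ix.β, Ix.θ] at hnon a1 a3 a5 ⊢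
  unfold sw2
  by_cases c1 : dy l ≤ 4 * δ * dy j
  swap
  · have := MM0 j m
    have := LG0 (pow_pos g0 2).le 2 i l
    have := LG0 (pow_pos g0 3).le 3 i l
    rw [if_neg c1, zero_mul, zero_mul]
    positivity
  rw [if_pos c1]
  have c2 : dy l ≤ dy j / 8 := by nlinarith
  have hp : (2 : ℝ) ^ i = (g ^ i) ^ 6 := by rw [pow_right_comm, h6]
  have hM : 1 ≤ MM j m := by
    unfold MM
    rw [if_pos (show (1 / 2 : ℝ) ^ m ≤ 9 / 4 * dy j by change dy m ≤ _; linarith),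
      div_mul_eq_mul_div, le_div_iff₀ hj]
    change _ ≤ 8 / 3 * dy m
    linarith
  have c3 : (g ^ l) ^ 6 ≤ 6 * (g ^ i) ^ 6 := by
    have e : (g ^ l) ^ 6 * dy l = 1 := by
      rw [dy_eq h6, ← mul_pow, ← mul_pow, mul_inv_cancel₀ g0.ne', one_pow, one_pow]
    rw [hp] at a1
    calc (g ^ l) ^ 6 = (g ^ l) ^ 6 * 1 := (mul_one _).symm
      _ ≤ (g ^ l) ^ 6 * (6 * (g ^ i) ^ 6 * dy l) := by gcongr
      _ = 6 * (g ^ i) ^ 6 * ((g ^ l) ^ 6 * dy l) := by ring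
      _ = _ := by rw [e, mul_one]
  have l2 : LG (g ^ 2) 2 i l = (g⁻¹ ^ l)⁻¹ ^ 2 := by
    unfold LG
    rw [inv_pow g l, inv_inv, pow_right_comm g 2 l, pow_right_comm g 2 i, if_pos]
    refine le_of_pow_le_pow_left₀ (n := 3) (by norm_num) (by positivity) ?_
    nlinarith [pow_pos (pow_pos g0 i) 6]
  have l3 : LG (g ^ 3) 3 i l = (g⁻¹ ^ l)⁻¹ ^ 3 := by
    unfold LG
    rw [inv_pow g l, inv_inv, pow_right_comm g 3 l, pow_right_comm g 3 i, if_pos]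
    refine le_of_pow_le_pow_left₀ (n := 2) (by norm_num) (by positivity) ?_
    nlinarith [pow_pos (pow_pos g0 i) 6]
  have hT := term (J := J (i, j, l, m)) (a := g ^ i) (s := g⁻¹ ^ j) (b := g⁻¹ ^ l) (θ := dy m) hD
    (by positivity) (by positivity) (by positivity) ht hτ
    (by rw [← dy_eq h6, ← dy_eq h6]; linarith) (by rw [← dy_eq h6]; exact dy_le_one l)
    (by rw [← dy_eq h6]; linarith) (by rw [← dy_eq h6, ← dy_eq h6, ← hp]; exact hnon)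
  rw [← dy_eq h6, ← dy_eq h6, ← hp] at hT
  rw [l2, l3, ← hp, mul_assoc]
  change WW w ε j * _ ≤ _
  refine (mul_le_mul_of_nonneg_left hT hW).trans ?_
  refine le_trans (le_of_eq ?_) (mul_le_mul_of_nonneg_left
    (le_mul_of_one_le_left (by positivity) hM) (by positivity))
  ring

end SumS2X

open SumS2X in
theorem sumS2 (hg : Geo) : SumS2 := by
  intro D
  obtain ⟨g, h1, h6⟩ := exg
  have g0 : 0 < g := by linarith
  have gi : g⁻¹ < 1 := inv_lt_one_of_one_lt₀ h1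
  have q : ∀ n : ℕ, n ≠ 0 → 0 < g ^ n / (g ^ n - 1) := fun n hn =>
    div_pos (pow_pos g0 n) (sub_pos.2 (one_lt_pow₀ h1 hn))
  have q' : ∀ n : ℕ, n ≠ 0 → 0 < 1 / (1 - g⁻¹ ^ n) := fun n hn =>
    div_pos one_pos (sub_pos.2 (pow_lt_one₀ (by positivity) gi hn))
  set K₁ : ℝ := 2 * (g ^ 2 / (g ^ 2 - 1)) * (g ^ 10 / (g ^ 10 - 1)) with hK₁
  set K₂ : ℝ := 3 * (g ^ 3 / (g ^ 3 - 1)) * (g ^ 9 / (g ^ 9 - 1)) with hK₂
  have k1 : 0 < K₁ := mul_pos (mul_pos two_pos (q 2 (by norm_num))) (q 10 (by norm_num))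
  have k2 : 0 < K₂ := mul_pos (mul_pos three_pos (q 3 (by norm_num))) (q 9 (by norm_num))
  set A : ℝ := 16 * (1 / (1 - g⁻¹ ^ 8)) with hA
  set B : ℝ := 1 / (1 - g⁻¹ ^ 2) with hB
  have a0 : 0 < A := mul_pos (by norm_num) (q' 8 (by norm_num))
  have b0 : 0 < B := q' 2 (by norm_num)
  refine ⟨48 * (|D| + 1) * (K₁ + K₂) * (2 * (A + |D| * B) + 9), by positivity,
    fun c k w τ δ ε J E₁ E₂ H _ hδ hε0 hε => ?_⟩
  have hD := H.hD
  have hw := H.scl.hw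
  have hτ := H.scl.hτ
  rw [abs_of_pos (by linarith : 0 < D)]
  obtain ⟨t, ht, rfl⟩ : ∃ t : ℝ, 0 < t ∧ τ = t ^ 4 := by
    refine ⟨√(√τ), by positivity, ?_⟩
    rw [show 4 = 2 * 2 by norm_num, pow_mul, Real.sq_sqrt (by positivity),
      Real.sq_sqrt hτ.le]
  set τ' : ℝ := max (t ^ 4) (1 / (2 ^ k) ^ 2) with hτ'
  have hτ0 : 0 ≤ τ' := le_max_of_le_left hτ.le
  have hP : (2 : ℝ) ^ k = (g ^ k) ^ 6 := by rw [pow_right_comm, h6]
  have hG : 1 ≤ g ^ k := one_le_pow₀ h1.le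
  have hT : √τ' ≤ t ^ 2 + 1 / (g ^ k) ^ 6 := by
    rw [Real.sqrt_le_iff, ← hP]
    have p1 : 0 < t ^ 2 := by positivity
    have p2 : 0 < 1 / (2 : ℝ) ^ k := by positivity
    refine ⟨by positivity, max_le (by nlinarith [mul_pos p1 p2]) ?_⟩
    rw [← one_div_pow]
    gcongr
    linarith
  have hW := fun j => WW0 (w := w) hε0 j
  set S₁ : ℝ := ∑ j ∈ Finset.range (k + 3), WW w ε j * (g⁻¹ ^ j) ^ 8 with hS₁
  set S₂ : ℝ := ∑ j ∈ Finset.range (k + 3), WW w ε j * dy j with hS₂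
  have s1 : S₁ ≤ A / w ^ 4 + ε * B :=
    (sumW8 h1 h6 hw hε0 _).trans (le_of_eq (by rw [hA, hB]; ring))
  have s2 : S₂ ≤ 8 / w ^ 3 + ε * LL k :=
    (sumW6 hw _).trans (le_of_eq (by unfold LL; push_cast; ring))
  have s10 : 0 ≤ S₁ := Finset.sum_nonneg fun j _ => mul_nonneg (hW j) (by positivity)
  have s20 : 0 ≤ S₂ := Finset.sum_nonneg fun j _ => mul_nonneg (hW j) (dy_pos j).le
  have hfin := fin hD H.hc0 H.hc1 hG ht (le_trans (by norm_num) (three_le_LL k)) H.big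
    (hP ▸ H.scl.hi) (hP ▸ H.scl.t2) hε a0.le b0.le hT (Real.sqrt_nonneg _)
  have hF0 : ∀ i j l : ℕ, 0 ≤ t ^ 2 * (g ^ i) ^ 8 * (WW w ε j * (g⁻¹ ^ j) ^ 8) * LG (g ^ 2) 2 i l
      + t * (g ^ i) ^ 6 * (WW w ε j * dy j) * LG (g ^ 3) 3 i l := fun i j l => by
    have := hW j
    have := dy_pos j
    have := LG0 (pow_pos g0 2).le 2 i l
    have := LG0 (pow_pos g0 3).le 3 i l
    positivity
  have hsum : ∑ b ∈ Finset.range (k + 1) ×ˢ Finset.range (k + 3) ×ˢ Finset.range (k + 3) ×ˢ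
      Finset.range (k + 3), MM b.2.1 b.2.2.2 *
        (t ^ 2 * (g ^ b.1) ^ 8 * (WW w ε b.2.1 * (g⁻¹ ^ b.2.1) ^ 8) * LG (g ^ 2) 2 b.1 b.2.2.1
        + t * (g ^ b.1) ^ 6 * (WW w ε b.2.1 * dy b.2.1) * LG (g ^ 3) 3 b.1 b.2.2.1)
      ≤ 12 * (K₁ * (t ^ 2 * (g ^ k) ^ 10 * S₁) + K₂ * (t * (g ^ k) ^ 9 * S₂)) := by
    simp only [Finset.sum_product]
    calc _ ≤ ∑ i ∈ Finset.range (k + 1), ∑ j ∈ Finset.range (k + 3),
          12 * (t ^ 2 * (g ^ i) ^ 8 * (WW w ε j * (g⁻¹ ^ j) ^ 8) *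
            (2 * (g ^ 2) ^ i * (g ^ 2 / (g ^ 2 - 1)))
          + t * (g ^ i) ^ 6 * (WW w ε j * dy j) * (3 * (g ^ 3) ^ i * (g ^ 3 / (g ^ 3 - 1)))) := by
          refine Finset.sum_le_sum fun i _ => Finset.sum_le_sum fun j _ => ?_
          calc _ ≤ ∑ l ∈ Finset.range (k + 3), 12 *
                (t ^ 2 * (g ^ i) ^ 8 * (WW w ε j * (g⁻¹ ^ j) ^ 8) * LG (g ^ 2) 2 i l
                  + t * (g ^ i) ^ 6 * (WW w ε j * dy j) * LG (g ^ 3) 3 i l) := by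
                refine Finset.sum_le_sum fun l _ => ?_
                rw [← Finset.sum_mul]
                exact mul_le_mul_of_nonneg_right (sumM j _) (hF0 i j l)
            _ ≤ _ := by
                rw [← Finset.mul_sum, Finset.sum_add_distrib, ← Finset.mul_sum, ← Finset.mul_sum]
                have := hW j
                have := dy_pos j
                gcongr
                · exact head (one_lt_pow₀ h1 (by norm_num)) (by positivity) _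
                · exact head (one_lt_pow₀ h1 (by norm_num)) (by positivity) _
      _ = 12 * (2 * (g ^ 2 / (g ^ 2 - 1)) * (t ^ 2 * S₁) * ∑ i ∈ Finset.range (k + 1), (g ^ 10) ^ i
          + 3 * (g ^ 3 / (g ^ 3 - 1)) * (t * S₂) * ∑ i ∈ Finset.range (k + 1), (g ^ 9) ^ i) := by
          rw [hS₁, hS₂]
          simp only [Finset.mul_sum, Finset.sum_mul, ← Finset.sum_add_distrib]
          refine Finset.sum_congr rfl fun i _ => Finset.sum_congr rfl fun j _ => ?_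
          rw [pow_right_comm g 2 i, pow_right_comm g 3 i, pow_right_comm g 10 i,
            pow_right_comm g 9 i]
          ring
      _ ≤ 12 * (2 * (g ^ 2 / (g ^ 2 - 1)) * (t ^ 2 * S₁) * ((g ^ 10) ^ k * (g ^ 10 / (g ^ 10 - 1)))
          + 3 * (g ^ 3 / (g ^ 3 - 1)) * (t * S₂) * ((g ^ 9) ^ k * (g ^ 9 / (g ^ 9 - 1)))) := by
          have := q 2 (by norm_num)
          have := q 3 (by norm_num)
          gcongr
          · exact head' (one_lt_pow₀ h1 (by norm_num)) k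
          · exact head' (one_lt_pow₀ h1 (by norm_num)) k
      _ = _ := by
          rw [hK₁, hK₂, pow_right_comm g 10 k, pow_right_comm g 9 k]
          ring
  have hyy : yy c k w (t ^ 4) = (g ^ k) ^ 6 * t ^ 2
      + t ^ 4 * ((g ^ k) ^ 6) ^ 2 * LL k / (c * w ^ 6) + LL k ^ 2 * w ^ 2 := by
    unfold yy
    rw [hP, show t ^ 4 = (t ^ 2) ^ 2 by ring, Real.sqrt_sq (by positivity)]
  have hL := LL_pos k
  have hc := H.hc0
  refine (Finset.sum_le_sum fun b hb => SumS2X.box h1 h6 ht H hδ hε0 hτ0 hb).trans ?_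
  rw [← Finset.mul_sum]
  have hsub : Idx k ⊆ Finset.range (k + 1) ×ˢ Finset.range (k + 3) ×ˢ Finset.range (k + 3) ×ˢ
      Finset.range (k + 3) := by
    classical
    intro b hb
    unfold Idx at hb
    rw [Finset.mem_filter] at hb
    exact hb.1
  refine (mul_le_mul_of_nonneg_left ((Finset.sum_le_sum_of_subset_of_nonneg
    hsub fun b _ _ => mul_nonneg (MM0 _ _) (hF0 _ _ _)).trans hsum)
    (by positivity)).trans ?_
  rw [hyy]
  calc _ ≤ 4 * (D + 1) * √τ' * (12 * ((K₁ + K₂) * (t ^ 2 * (g ^ k) ^ 10 * (A / w ^ 4 + ε * B))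
        + (K₁ + K₂) * (t * (g ^ k) ^ 9 * (8 / w ^ 3 + ε * LL k)))) := by
        gcongr <;> linarith
    _ = 48 * (D + 1) * (K₁ + K₂) * (√τ' * (t ^ 2 * (g ^ k) ^ 10 * (A / w ^ 4 + ε * B)
        + t * (g ^ k) ^ 9 * (8 / w ^ 3 + ε * LL k))) := by ring
    _ ≤ _ := by
        rw [mul_assoc _ (2 * (A + D * B) + 9)]
        gcongr

end Vale.Agent.P107
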