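import Vale.Agent.P107.Basic

/-! Problem P107, part I: the sum of the velocity terms. -/

open Finset

noncomputable section
namespace Vale.Agent.P107
namespace SumTX

theorem regroup (k : ℕ) (f : Ix → ℝ) : ∑ b ∈ Idx k, f b =
    ∑ a ∈ range (k + 1) ×ˢ range (k + 3), ∑ e ∈ Idx2 k a.1 a.2, f (a.1, e.1, e.2, a.2) := by
  unfold Idx Idx2
  simp only [sum_filter, sum_product]
  refine sum_congr rfl fun i _ => ?_
  rw [sum_comm (t := range (k + 3)) (f := fun m j => ∑ l ∈ range (k + 3),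
    @ite _ (Adm (2 ^ i) (dy j) (dy l) (dy m)) (Classical.propDecidable _) (f (i, j, l, m)) 0)]
  exact sum_congr rfl fun j _ => sum_comm

theorem pt {τ p α β θ c P p' L e x : ℝ} (hτ : 0 < τ) (hp : 0 < p) (hα : 0 < α) (hβ : 0 < β)
    (hθ : 0 < θ) (hc : 0 < c) (hP : 0 < P) (hp' : 0 < p') (hL : 0 < L) (he : 0 ≤ e) (hex : e ≤ x) :
    √(Xq τ p α β θ * Yq p α β * ((β + θ) / θ) *
      (1 + τ * e / ((c * min p p' / P) ^ 2 * θ * min θ (1 / L)))) ≤
    min β θ * β * min α β * √((β + θ) / θ) / θ *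
      (√τ * p * θ + τ * P / c * ((1 + p / p') * √(x * (1 + θ * L)))) := by
  have hx : 0 ≤ x := he.trans hex
  have h0 : α ^ 2 * min 1 (β ^ 2 / α ^ 2) = min α β ^ 2 := by
    rcases le_total α β with h | h
    · rw [min_eq_left h, min_eq_left ((one_le_div (by positivity)).2 (by gcongr)), mul_one]
    · rw [min_eq_right h, min_eq_right ((div_le_one (by positivity)).2 (by gcongr))]
      field_simp
  have h1 : Xq τ p α β θ * Yq p α β * ((β + θ) / θ) =
      (min β θ * β * min α β * √((β + θ) / θ) / θ) ^ 2 * (√τ * p * θ) ^ 2 := by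
    simp only [Xq, Yq, div_pow, mul_pow]
    rw [Real.sq_sqrt (by positivity), Real.sq_sqrt hτ.le, ← h0]
    field_simp
  have h2 : p ≤ (1 + p / p') * min p p' := by
    rcases le_total p p' with h | h
    · rw [min_eq_left h]
      exact le_mul_of_one_le_left hp.le (le_add_of_nonneg_right (by positivity))
    · rw [min_eq_right h, add_mul, div_mul_cancel₀ _ hp'.ne']
      linarith
  have h3 : θ ≤ (1 + θ * L) * min θ (1 / L) := by
    rcases le_total θ (1 / L) with h | h
    · rw [min_eq_left h]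
      exact le_mul_of_one_le_left hθ.le (le_add_of_nonneg_right (by positivity))
    · rw [min_eq_right h, add_mul, mul_assoc, mul_one_div_cancel hL.ne']
      have : 0 < 1 / L := by positivity
      linarith
  have h4 : (√τ * p * θ) ^ 2 * (τ * e / ((c * min p p' / P) ^ 2 * θ * min θ (1 / L))) ≤
      (τ * P / c * ((1 + p / p') * √(x * (1 + θ * L)))) ^ 2 := by
    rw [← mul_div_assoc, div_le_iff₀ (by positivity)]
    calc _ = τ ^ 2 * θ * (p ^ 2 * θ * e) := by
          simp only [mul_pow]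
          rw [Real.sq_sqrt hτ.le]
          ring
      _ ≤ τ ^ 2 * θ * (((1 + p / p') * min p p') ^ 2 * ((1 + θ * L) * min θ (1 / L)) * x) := by
          gcongr
      _ = _ := by
          simp only [mul_pow, div_pow]
          rw [Real.sq_sqrt (by positivity)]
          field_simp
  refine Real.sqrt_le_iff.2 ⟨by positivity, ?_⟩
  rw [h1, mul_assoc, mul_pow _ (_ + _)]
  gcongr
  have h5 : 0 ≤ √τ * p * θ * (τ * P / c * ((1 + p / p') * √(x * (1 + θ * L)))) := by positivity
  nlinarith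

theorem gb {θ L x D r : ℝ} (hθ : 0 < θ) (hL : 0 < L) (hx : 0 ≤ x) (hD : x ≤ 2 * D) (hr : 0 ≤ r) :
    (1 + r) * √(x * (1 + θ * L)) ≤ L * x + 1 / L + θ + r * (2 * D + 1 + θ * L) := by
  have h1 : √(x * (1 + θ * L)) ≤ L * x + (1 / L + θ) := by
    refine Real.sqrt_le_iff.2 ⟨by positivity, ?_⟩
    have e : x * (1 + θ * L) = L * x * (1 / L + θ) := by field_simp
    have : 0 ≤ L * x * (1 / L + θ) := by positivity
    nlinarith [sq_nonneg (L * x), sq_nonneg (1 / L + θ)]
  have h2 : √(x * (1 + θ * L)) ≤ x + (1 + θ * L) := by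
    refine Real.sqrt_le_iff.2 ⟨by positivity, ?_⟩
    have : 0 ≤ x * (1 + θ * L) := by positivity
    nlinarith [sq_nonneg x, sq_nonneg (1 + θ * L)]
  nlinarith [mul_le_mul_of_nonneg_left (h2.trans (add_le_add_left hD _)) hr]

theorem s2 (n : ℕ) : ∑ i ∈ range n, (2 : ℝ) ^ i ≤ 2 ^ n := by
  induction n with
  | zero => simp
  | succ n ih => rw [sum_range_succ, pow_succ]; linarith

end SumTX
open SumTX

theorem sumT (hg : Geo) (h : ShT) : SumT := by
  have _ := hg
  obtain ⟨C, hC, h⟩ := h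
  refine fun D => ⟨C * (19 * D ^ 2 + 1), by positivity, fun c k w τ δ J E₁ E₂ H hδ hδ' => ?_⟩
  have hD := H.hD
  have hc := H.hc0
  have hw := H.scl.hw
  have hτ := H.scl.hτ
  have hL := LL_pos k
  set x : ℕ × ℕ → ℝ := fun a => ∑ e ∈ Idx2 k a.1 a.2, E₁ (a.1, e.1, e.2, a.2) + E₂ a.1 a.2 with hx
  have x0 : ∀ a, 0 ≤ x a := fun a => add_nonneg (sum_nonneg fun _ _ => H.E10 _) (H.E20 _ _)
  have x1 : ∑ a ∈ range (k + 1) ×ˢ range (k + 3), x a ≤ 2 * D := by
    rw [sum_add_distrib, ← regroup]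
    linarith [H.sE1, H.sE2]
  have h1 : ∑ b ∈ Idx k, tw δ b.p b.α b.β * J b ≤ ∑ a ∈ range (k + 1) ×ˢ range (k + 3), C * D *
      (√τ * 2 ^ a.1 * dy a.2 + τ * 2 ^ k / c * (LL k * x a + 1 / LL k + dy a.2 +
        2 ^ a.1 / w ^ 6 * (2 * D + 1 + dy a.2 * LL k))) := by
    rw [regroup]
    refine sum_le_sum fun a ha => ?_
    have hθ := dy_pos a.2
    have := x0 a
    refine le_trans ?_ (mul_assoc C _ _ ▸ mul_le_mul_of_nonneg_right (h k a.1 a.2 δ hδ hδ')
      (by positivity))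
    rw [sum_mul]
    refine sum_le_sum fun e he => ?_
    have hα := dy_pos e.1
    have hβ := dy_pos e.2
    have hb : (a.1, e.1, e.2, a.2) ∈ Idx k := by
      simp only [Idx, Idx2, mem_filter, mem_product] at he ha ⊢
      exact ⟨⟨ha.1, he.1.1, he.1.2, ha.2⟩, he.2⟩
    rw [mul_assoc]
    refine mul_le_mul_of_nonneg_left ((H.win _ hb).trans ?_) (by
      unfold tw
      split_ifs <;> positivity)
    rw [mul_left_comm]
    refine mul_le_mul_of_nonneg_left ((pt (p := 2 ^ a.1) hτ (by positivity) hα hβ hθ hc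
      (by positivity) (by positivity) hL (add_nonneg (H.E10 _) (H.E20 _ _)) (x := x a) (add_le_add_left
      (single_le_sum (f := fun e : ℕ × ℕ => E₁ (a.1, e.1, e.2, a.2)) (fun _ _ => H.E10 _) he)
      _)).trans ?_) (by linarith)
    have := gb hθ hL this ((single_le_sum (fun a _ => x0 a) ha).trans x1)
      (r := 2 ^ a.1 / w ^ 6) (by positivity)
    gcongr
  refine h1.trans ?_
  have a1 := s2 (k + 1)
  have a2 : ∑ m ∈ range (k + 3), dy m ≤ 2 := sum_geometric_two_le _
  have a3 : 0 ≤ ∑ m ∈ range (k + 3), dy m := sum_nonneg fun m _ => (dy_pos m).le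
  have a4 : ((k + 1 : ℕ) : ℝ) ≤ LL k := by
    unfold LL
    push_cast
    linarith
  have a5 : ((k + 3 : ℕ) : ℝ) = LL k := by
    unfold LL
    push_cast
    rfl
  have a6 : (1 : ℝ) ≤ 2 ^ k / w ^ 6 := (one_le_div (by positivity)).2 H.scl.hi
  calc _ = C * D * (√τ * ((∑ i ∈ range (k + 1), (2 : ℝ) ^ i) * ∑ m ∈ range (k + 3), dy m) +
        τ * 2 ^ k / c * (LL k * (∑ a ∈ range (k + 1) ×ˢ range (k + 3), x a +
          0) + 1 * ((k + 1 : ℕ) * (1 + ∑ m ∈ range (k + 3), dy m)) +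
          (∑ i ∈ range (k + 1), (2 : ℝ) ^ i) / w ^ 6 * LL k *
            (2 * D + 1 + ∑ m ∈ range (k + 3), dy m))) := by
        rw [← mul_sum, sum_add_distrib, ← mul_sum, sum_add_distrib, sum_add_distrib,
          sum_add_distrib, ← mul_sum]
        simp only [sum_product, ← mul_sum, ← sum_mul, ← sum_div, sum_add_distrib, sum_const,
          card_product, Nat.cast_mul, card_range, nsmul_eq_mul, a5]
        field_simp
        ring
    _ ≤ C * D * (√τ * (2 ^ (k + 1) * 2) + τ * 2 ^ k / c * (LL k * (2 * D * (2 ^ k / w ^ 6)) +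
          2 ^ k / w ^ 6 * (LL k * (1 + 2)) + 2 ^ (k + 1) / w ^ 6 * LL k * (2 * D + 1 + 2))) := by
        gcongr
        nlinarith
    _ = C * (4 * D * (2 ^ k * √τ) + (6 * D ^ 2 + 9 * D) *
          (τ * (2 ^ k) ^ 2 * LL k / (c * w ^ 6)) + 0) := by
        field_simp
        ring
    _ ≤ _ := by
        rw [mul_assoc C, yy, mul_add (19 * D ^ 2 + 1), mul_add (19 * D ^ 2 + 1)]
        gcongr C * (?_ * _ + ?_ * _ + ?_)
        all_goals first | positivity | nlinarith

end Vale.Agent.P107
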