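import Vale.Agent.P107.Basic

/-! Problem P107: the bound for the total kernel mass. -/

open MeasureTheory Set Filter Topology
open scoped ENNReal RealInnerProductSpace

noncomputable section
namespace Vale.Agent.P107

namespace TEX

open Classical in
theorem card_Idx (k : ℕ) : ((Idx k).card : ℝ) ≤ LL k ^ 4 := by
  have h : (Idx k).card ≤ (k + 3) ^ 4 := by
    refine (Finset.card_filter_le _ _).trans ?_
    simp only [Finset.card_product, Finset.card_range]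
    calc (k + 1) * ((k + 3) * ((k + 3) * (k + 3))) ≤ (k + 3) * ((k + 3) * ((k + 3) * (k + 3))) :=
          Nat.mul_le_mul_right _ (by omega)
      _ = (k + 3) ^ 4 := by ring
  unfold LL
  exact_mod_cast h

theorem p_pos (b : Ix) : 0 < b.p := by
  unfold Ix.p
  positivity

theorem LL_sq_le {c : ℝ} {k : ℕ} {w τ : ℝ} (hc : 0 < c) (hτ : 0 < τ) (hw : 1 ≤ w) :
    LL k ^ 2 ≤ yy c k w τ := by
  have hL := LL_pos k
  have h1 : LL k ^ 2 ≤ LL k ^ 2 * w ^ 2 :=
    le_mul_of_one_le_right (by positivity) (one_le_pow₀ hw)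
  have h2 : 0 ≤ 2 ^ k * √τ + τ * (2 ^ k) ^ 2 * LL k / (c * w ^ 6) := by positivity
  unfold yy
  linarith

end TEX

open TEX

theorem tE (ho : Ov) (hw : JW) (hb : JB) (hd : Dec) (s1 : SumT) (s2 : SumS1) (s3 : SumS2) :
    TE := by
  intro Λ D hD
  by_cases hΛ : Λ < 8
  · exact ⟨1, le_rfl, fun Γ T N t A ℓ k z₀ s₀ τ w hG => absurd hG.hΛ (not_le.2 hΛ)⟩
  replace hΛ : 8 ≤ Λ := not_lt.1 hΛ
  obtain ⟨Cw, hCw, hw⟩ := hw Λ
  obtain ⟨Cb, hCb, hb⟩ := hb Λ
  obtain ⟨Cd, hCd, hd⟩ := hd Λ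
  obtain ⟨D', hD'⟩ : ∃ D', D' = D + Cw + Cb + 20 * Λ := ⟨_, rfl⟩
  have hc₀ : 0 < 1 / (4 * Λ) := by positivity
  have hc₁ : 1 / (4 * Λ) ≤ 1 / 32 := one_div_le_one_div_of_le (by norm_num) (by linarith)
  obtain ⟨C1, hC1, s1⟩ := s1 D'
  obtain ⟨C2, hC2, s2⟩ := s2 D' (1 / (4 * Λ)) hc₀ (by linarith)
  obtain ⟨C3, hC3, s3⟩ := s3 D'
  have hE : 0 < Cd * (C1 + C2 + C3 + 1) := by positivity
  refine ⟨D' + Cd * (C1 + C2 + C3 + 1), by linarith, ?_⟩
  intro Γ T N t A ℓ k z₀ s₀ τ w hG ht hA hBig hBd hHyp hT hℓ hS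
  have hA1 : 1 ≤ A := by linarith
  have hDA : D' ≤ A := by linarith
  have hT' := hT.mono ht
  have hτ := hS.hτ
  have hw0 := hS.hw
  have hL := three_le_LL k
  have hL0 := LL_pos k
  have hwL := hS.le_w hBig
  have hL2 : LL k ≤ LL k ^ 2 := by nlinarith
  have hL4 : LL k ^ 2 ≤ LL k ^ 4 := pow_le_pow_right₀ (by linarith) (by norm_num)
  have hAL : A * LL k ^ 2 ≤ A * LL k ^ 4 := mul_le_mul_of_nonneg_left hL4 (by linarith)
  have hAL1 : A * LL k ≤ A * LL k ^ 2 := mul_le_mul_of_nonneg_left hL2 (by linarith)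
  have hAL0 : 1 ≤ A * LL k := by nlinarith
  have hbig : D' * LL k ^ 2 ≤ w := by
    have := mul_le_mul_of_nonneg_right hDA (sq_nonneg (LL k))
    linarith
  have h16 : 16 * (D * LL k) ≤ w := by
    have := mul_le_mul_of_nonneg_right (show D ≤ A by linarith) hL0.le
    linarith
  have hw1 : 1 ≤ w := by linarith
  have hcc0 : 0 < cc A := by
    unfold cc
    positivity
  have hcc1 : cc A ≤ 1 := by
    unfold cc
    rw [div_le_one (by positivity)]
    linarith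
  obtain ⟨-, -, ho⟩ := ho Γ T Λ N _ z₀ s₀ τ _ hG hT'
  obtain ⟨o1, o2⟩ := ho k
  have hH : SumH D' (cc A) k w τ (fun b => (Γ.JA z₀ s₀ τ b.p b.α b.β b.θ univ).toReal)
      (fun b => (Γ.nu z₀ s₀ τ b.p b.α b.β b.θ).toReal / τ + 1 / LL k ^ 4)
      (fun i m => (Γ.En z₀ s₀ τ (2 ^ i) (dy m)).toReal / τ) := by
    refine ⟨by linarith, hcc0, hcc1, hS, hbig, fun b => ENNReal.toReal_nonneg,
      fun b => by positivity, fun i m => by positivity, ?_, ?_, fun b hb' => ?_,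
      fun b _ ρ hρ => ?_⟩
    · rw [Finset.sum_add_distrib, ← Finset.sum_div, Finset.sum_const, nsmul_eq_mul, mul_one_div]
      have e1 := (div_le_iff₀ hτ).2 o1
      have e2 := (div_le_one (by positivity)).2 (card_Idx k)
      linarith
    · rw [← Finset.sum_div]
      have e1 := (div_le_iff₀ hτ).2 o2
      linarith
    · exact (hb Γ T N t A ℓ k z₀ s₀ τ w hG ht hA1 hBig hBd hHyp hT hℓ hS b hb').trans
        (mul_le_mul_of_nonneg_right (by linarith) (Real.sqrt_nonneg _))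
    · have hp := p_pos b
      have hα : 0 < b.α := dy_pos _
      have hβ : 0 < b.β := dy_pos _
      have hθ : 0 < b.θ := dy_pos _
      refine ((hw Γ T N _ z₀ s₀ τ _ hG hT' _ _ _ _ hp hα hβ hθ).2 ρ hρ).1.trans
        (mul_le_mul_of_nonneg_right (by linarith) ?_)
      unfold Xq Yq
      positivity
  have hδ0 : 0 < 1 / (4 * Λ) * w ^ 6 / 2 ^ k := by positivity
  have hδ1 : 1 / (4 * Λ) * w ^ 6 / 2 ^ k ≤ 1 / 32 := by
    rw [mul_div_assoc]
    exact (mul_le_of_le_one_right hc₀.le ((div_le_one (by positivity)).2 hS.hi)).trans hc₁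
  have hε0 : 0 ≤ D * LL k / w ^ 4 := by positivity
  have hε1 : D * LL k / w ^ 4 ≤ D' * LL k / w ^ 4 :=
    div_le_div_of_nonneg_right (mul_le_mul_of_nonneg_right (by linarith) hL0.le) (by positivity)
  have hε2 : 16 * (D * LL k / w ^ 4) ≤ 1 / w ^ 3 := by
    rw [← mul_div_assoc, div_le_div_iff₀ (by positivity) (by positivity)]
    calc 16 * (D * LL k) * w ^ 3 ≤ w * w ^ 3 := mul_le_mul_of_nonneg_right h16 (by positivity)
      _ = 1 * w ^ 4 := by ring
  refine (hd Γ T N k z₀ s₀ τ _ (max τ (1 / (2 ^ k) ^ 2)) _ _ _ hG hT' (le_max_left _ _)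
    (le_max_right _ _) hδ0 (by positivity) hε0 hε2).trans (ENNReal.ofReal_le_ofReal ?_)
  have e1 := s1 _ k w τ _ _ _ _ hH hδ0 hδ1
  have e2 := s2 _ k w τ _ _ _ hH
  have e3 := s3 _ k w τ _ _ _ _ _ hH hδ0 hδ1 hε0 hε1
  have e4 := LL_sq_le (k := k) hcc0 hτ hw1
  have e5 : 0 ≤ D' * yy (cc A) k w τ :=
    mul_nonneg (by linarith) ((sq_nonneg _).trans e4)
  refine (mul_le_mul_of_nonneg_left (add_le_add (add_le_add (add_le_add e1 e2) e3) e4)
    hCd.le).trans ?_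
  linarith

end Vale.Agent.P107
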