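import Vale.Agent.P107.Basic

/-! Problem P107, part I: Tonelli for the measure `lam`. -/

open MeasureTheory Set Filter Topology
open scoped ENNReal RealInnerProductSpace

noncomputable section
namespace Vale.Agent.P107

theorem ton (h : Ret1) : Ton := by
  intro Γ hK z₀ s₀ τ
  have hR := h Γ hK
  have := hK.fin
  have hX : Continuous (fun s => Γ.Y s z₀) := hK.cY.comp (continuous_id.prodMk continuous_const)
  have hι : Continuous (fun p : ℝ × Z => ((p.1, Γ.Y p.1 z₀, p.2) : ℝ × V3 × Z)) :=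
    continuous_fst.prodMk ((hX.comp continuous_fst).prodMk continuous_snd)
  have hB : MeasurableSet {p : ℝ × Z | p.2 ∈ Γ.act p.1 (Γ.Y p.1 z₀)} :=
    (hR.opn.preimage hι).measurableSet
  have hI : MeasurableSet {p : ℝ × Z | p.1 ∈ Icc s₀ (s₀ + τ)} := measurable_fst measurableSet_Icc
  have hA : MeasurableSet {p : ℝ × Z | p.1 ∈ Icc s₀ (s₀ + τ) ∧ p.2 ∈ Γ.act p.1 (Γ.Y p.1 z₀)} :=
    hI.inter hB
  have hF : Measurable (fun p : ℝ × Z => (p.1, Γ.wv p.1 (Γ.Y p.1 z₀) p.2)) :=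
    (continuous_fst.prodMk (hR.cwv.comp hι)).measurable
  have hU : Continuous (Γ.U z₀) :=
    continuous_uu.comp (hK.cV.comp (continuous_id.prodMk continuous_const))
  refine ⟨?_, ?_, hU, ?_, ?_, ?_⟩
  · have h1 : IsFiniteMeasure (((volume : Measure ℝ).prod Γ.μ).restrict
        {p | p.1 ∈ Icc s₀ (s₀ + τ) ∧ p.2 ∈ Γ.act p.1 (Γ.Y p.1 z₀)}) := by
      refine isFiniteMeasure_restrict.2 (ne_top_of_le_ne_top ?_
        (measure_mono (t := Icc s₀ (s₀ + τ) ×ˢ univ) fun p hp => ⟨hp.1, mem_univ _⟩))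
      rw [Measure.prod_prod]
      exact ENNReal.mul_ne_top measure_Icc_lt_top.ne (measure_ne_top _ _)
    unfold PS.lam
    infer_instance
  · exact hK.cK.comp ((continuous_fst.sub continuous_snd.fst.norm).prodMk
      ((hX.comp continuous_fst).sub continuous_snd.fst))
  · intro p α β θ
    exact measurableSet_box (hU.measurable.comp measurable_fst) measurable_snd p α β θ
  · have h1 : MeasurableSet {x : ℝ × Z | x.1 ∈ Icc s₀ (s₀ + τ) ∧ ‖x.2.1‖ < x.1} :=
      hI.inter (measurableSet_lt measurable_snd.fst.norm measurable_fst)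
    refine (ae_map_iff hF.aemeasurable h1).2 ?_
    filter_upwards [ae_restrict_mem hA] with p hp
    refine ⟨hp.1, ?_⟩
    have h2 := hR.act _ _ _ hp.2
    show ‖(Γ.wv p.1 (Γ.Y p.1 z₀) p.2).1‖ < p.1
    linarith [h2.1, h2.2]
  · intro Φ hΦ
    have hG : Measurable fun p : ℝ × Z => Φ (p.1, Γ.wv p.1 (Γ.Y p.1 z₀) p.2) := hΦ.comp hF
    have e0 : ∫⁻ x, Φ x ∂Γ.lam z₀ s₀ τ = ∫⁻ p, indicator
        {p : ℝ × Z | p.1 ∈ Icc s₀ (s₀ + τ) ∧ p.2 ∈ Γ.act p.1 (Γ.Y p.1 z₀)}
        (fun p => Φ (p.1, Γ.wv p.1 (Γ.Y p.1 z₀) p.2)) p ∂(volume : Measure ℝ).prod Γ.μ := by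
      unfold PS.lam
      rw [lintegral_map hΦ hF, lintegral_indicator hA]
    have e1 : ∀ s, Γ.cI s (Γ.Y s z₀) (fun x => Φ (s, x)) = ∫⁻ z, indicator
        {p : ℝ × Z | p.2 ∈ Γ.act p.1 (Γ.Y p.1 z₀)}
        (fun p => Φ (p.1, Γ.wv p.1 (Γ.Y p.1 z₀) p.2)) (s, z) ∂Γ.μ := by
      intro s
      have h1 : MeasurableSet (Γ.act s (Γ.Y s z₀)) := measurable_prodMk_left hB
      unfold PS.cI
      rw [← lintegral_indicator h1]
      rfl
    have e2 : ∀ z, ∫⁻ s in Icc s₀ (s₀ + τ) ∩ {s | z ∈ Γ.act s (Γ.Y s z₀)},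
        Φ (s, Γ.wv s (Γ.Y s z₀) z) = ∫⁻ s, indicator
        {p : ℝ × Z | p.1 ∈ Icc s₀ (s₀ + τ) ∧ p.2 ∈ Γ.act p.1 (Γ.Y p.1 z₀)}
        (fun p => Φ (p.1, Γ.wv p.1 (Γ.Y p.1 z₀) p.2)) (s, z) := by
      intro z
      have h1 : MeasurableSet (Icc s₀ (s₀ + τ) ∩ {s | z ∈ Γ.act s (Γ.Y s z₀)}) :=
        measurable_prodMk_right hA
      rw [← lintegral_indicator h1]
      rfl
    refine ⟨?_, ?_, ?_, ?_⟩
    · simp_rw [e1]
      exact (hG.indicator hB).lintegral_prod_right'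
    · rw [e0, lintegral_prod _ (hG.indicator hA).aemeasurable,
        ← lintegral_indicator measurableSet_Icc]
      refine lintegral_congr fun s => ?_
      by_cases hs : s ∈ Icc s₀ (s₀ + τ)
      · rw [indicator_of_mem hs, e1]
        refine lintegral_congr fun z => ?_
        by_cases hz : z ∈ Γ.act s (Γ.Y s z₀)
        · rw [indicator_of_mem (by exact ⟨hs, hz⟩), indicator_of_mem (by exact hz)]
        · rw [indicator_of_notMem (by exact fun h => hz h.2), indicator_of_notMem (by exact hz)]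
      · rw [indicator_of_notMem hs]
        refine (lintegral_congr fun z => ?_).trans lintegral_zero
        exact indicator_of_notMem (by exact fun h => hs h.1) _
    · simp_rw [e2]
      exact (hG.indicator hA).lintegral_prod_left'
    · rw [e0, lintegral_prod_symm _ (hG.indicator hA).aemeasurable]
      simp_rw [e2]

end Vale.Agent.P107
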