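import Vale.Agent.P107.Basic

/-! Problem P107, part I: the window estimate. -/

open MeasureTheory Set Filter Topology
open scoped ENNReal RealInnerProductSpace

noncomputable section
namespace Vale.Agent.P107
namespace WinX

theorem window {A : Set ℝ} (hA : MeasurableSet A) {f : ℝ → ℝ≥0∞} (hf : Measurable f)
    {a τ d : ℝ} (hd : d ≤ τ) (hAI : A ⊆ Icc a (a + τ)) :
    ENNReal.ofReal d * ∫⁻ s in A, f s ≤
      ∫⁻ t in Icc a (a + τ), ∫⁻ s in A ∩ {s | |s - t| ≤ d}, f s := by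
  have hm : MeasurableSet {x : ℝ × ℝ | |x.2 - x.1| ≤ d} :=
    measurableSet_le (by fun_prop) measurable_const
  have h1 : ∀ t, ∫⁻ s in A ∩ {s | |s - t| ≤ d}, f s =
      ∫⁻ s in A, {x : ℝ × ℝ | |x.2 - x.1| ≤ d}.indicator (fun x => f x.2) (t, s) := fun t => by
    have hm' : MeasurableSet {s : ℝ | |s - t| ≤ d} :=
      measurableSet_le (by fun_prop) measurable_const
    rw [inter_comm, ← Measure.restrict_restrict hm', ← lintegral_indicator hm']
    rfl
  simp_rw [h1]
  rw [lintegral_lintegral_swap (by exact ((hf.comp measurable_snd).indicator hm).aemeasurable),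
    ← lintegral_const_mul _ hf]
  refine setLIntegral_mono' hA fun s hs => ?_
  obtain ⟨s1, s2⟩ := hAI hs
  calc ENNReal.ofReal d * f s
      = ∫⁻ _ in Icc (min s (a + τ - d)) (min s (a + τ - d) + d), f s := by
        rw [setLIntegral_const, Real.volume_Icc, add_sub_cancel_left, mul_comm]
    _ = ∫⁻ t in Icc (min s (a + τ - d)) (min s (a + τ - d) + d),
          {x : ℝ × ℝ | |x.2 - x.1| ≤ d}.indicator (fun x => f x.2) (t, s) := by
        refine setLIntegral_congr_fun measurableSet_Icc fun t ht => ?_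
        have h2 := min_le_left s (a + τ - d)
        have h3 : s - d ≤ min s (a + τ - d) := le_min (by linarith [ht.1, ht.2]) (by linarith)
        have : (t, s) ∈ {x : ℝ × ℝ | |x.2 - x.1| ≤ d} :=
          show |s - t| ≤ d from abs_le.2 ⟨by linarith [ht.2], by linarith [ht.1]⟩
        simp only [indicator_of_mem this]
    _ ≤ _ := lintegral_mono_set (Icc_subset_Icc (le_min s1 (by linarith))
        (by linarith [min_le_right s (a + τ - d)]))

end WinX

theorem win (h1 : Ret1) (ht : Ton) (hn : NoHitS) (hw : Win1) : Win := by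
  classical
  obtain ⟨C, hC, hw⟩ := hw
  refine ⟨2 * C, by positivity, fun Γ T Λ N P z₀ s₀ τ p' hG hT p α β θ d ρ hp hα hβ hρ hS => ?_⟩
  have hR := h1 Γ hG.toKin
  have := hG.fin
  obtain ⟨-, -, cU, mB, -, hTon⟩ := ht Γ hG.toKin z₀ s₀ τ
  have hθ := hS.hθ0
  have hd := hS.hd0
  set M := C * ((β + θ) / θ) * min 1 (β ^ 2 / α ^ 2) / ρ with hM
  have hM0 : 0 ≤ M := by positivity
  have cY : Continuous fun s => Γ.Y s z₀ := hG.cY.comp (Continuous.prodMk_left z₀)
  have mS : MeasurableSet (Γ.Bx z₀ p α β θ ∩ {x : ℝ × Z | ‖x.2.1‖ ∈ Ioc ρ d}) :=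
    (mB p α β θ).inter (measurableSet_Ioc.preimage (by fun_prop))
  have mf : Measurable fun x : ℝ × Z => ENNReal.ofReal (1 / ‖x.2.1‖ ^ 2) := by fun_prop
  have mV : Measurable fun x : Z × ℝ => Γ.V x.2 x.1 := (hG.cV.comp continuous_swap).measurable
  have mU := cU.measurable
  have msim : MeasurableSet {x : Z × ℝ | x.1 ∈ Γ.sim z₀ p θ x.2} :=
    (measurableSet_Icc.preimage (f := fun x : Z × ℝ => q (Γ.V x.2 x.1)) (by fun_prop)).inter
      (measurableSet_Icc.preimage (f := fun x : Z × ℝ => dd (Γ.U z₀ x.2) (uu (Γ.V x.2 x.1)))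
        (by fun_prop))
  have mq : Measurable ({x : Z × ℝ | x.1 ∈ Γ.sim z₀ p θ x.2}.indicator
      fun x => ENNReal.ofReal (q (Γ.V x.2 x.1))) := Measurable.indicator (by fun_prop) msim
  obtain ⟨-, -, m2, e2⟩ := hTon _ (mf.indicator mS)
  have key : ENNReal.ofReal d * Γ.JA z₀ s₀ τ p α β θ (Ioc ρ d) ≤
      ENNReal.ofReal (2 * M / p) * Γ.En z₀ s₀ τ p θ := by
    have e3 : Γ.En z₀ s₀ τ p θ = ∫⁻ z, (∫⁻ t in Icc s₀ (s₀ + τ),
        {x : Z × ℝ | x.1 ∈ Γ.sim z₀ p θ x.2}.indicator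
          (fun x => ENNReal.ofReal (q (Γ.V x.2 x.1))) (z, t)) ∂Γ.μ := by
      rw [lintegral_lintegral_swap (by exact mq.aemeasurable)]
      refine lintegral_congr fun t => ?_
      have hm : MeasurableSet (Γ.sim z₀ p θ t) := measurable_prodMk_right msim
      rw [← lintegral_indicator hm]
      rfl
    rw [PS.JA, PS.IB, ← lintegral_indicator mS, e2, e3, ← lintegral_const_mul _ m2,
      ← lintegral_const_mul _ mq.lintegral_prod_right']
    refine lintegral_mono_ae ?_
    filter_upwards [hG.supp, hn Γ T Λ N P (s₀ + τ) z₀ hG (by linarith [hT.h0, hT.hτ]) hT.hT hT.bd]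
      with z z1 z2
    have cp : Continuous fun s => ((s, Γ.Y s z₀, z) : ℝ × V3 × Z) := by fun_prop
    have mw : Measurable fun s => (s, Γ.wv s (Γ.Y s z₀) z) :=
      (continuous_id.prodMk (hR.cwv.comp cp)).measurable
    have mA : MeasurableSet (Icc s₀ (s₀ + τ) ∩ {s | z ∈ Γ.act s (Γ.Y s z₀)}) :=
      measurableSet_Icc.inter (hR.opn.preimage cp).measurableSet
    have e4 := lintegral_indicator (μ := volume.restrict
      (Icc s₀ (s₀ + τ) ∩ {s | z ∈ Γ.act s (Γ.Y s z₀)})) (mw mS)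
      fun s => ENNReal.ofReal (1 / ‖(Γ.wv s (Γ.Y s z₀) z).1‖ ^ 2)
    rw [Measure.restrict_restrict (mw mS)] at e4
    refine (le_of_eq (congrArg (ENNReal.ofReal d * ·) e4)).trans
      ((WinX.window ((mw mS).inter mA) (mf.comp mw) hS.hdτ fun s hs => hs.2.1).trans ?_)
    rw [← lintegral_const_mul' _ _ ENNReal.ofReal_ne_top]
    refine setLIntegral_mono' measurableSet_Icc fun t ht => ?_
    refine le_trans (lintegral_mono_set fun s hs => ?_)
      ((hw Γ T Λ N P z₀ s₀ τ p' hG hT p α β θ d ρ hp hα hβ hρ hS z z1 z2 t ht).trans ?_)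
    · exact ⟨hs.1.2.1, hs.2, hs.1.2.2, hs.1.1.1, hs.1.1.2⟩
    · split_ifs with h
      · have h' : (z, t) ∈ {x : Z × ℝ | x.1 ∈ Γ.sim z₀ p θ x.2} := h
        simp only [indicator_of_mem h']
        rw [← ENNReal.ofReal_mul (by positivity)]
        refine ENNReal.ofReal_le_ofReal ?_
        rw [div_mul_eq_mul_div, le_div_iff₀ hp]
        nlinarith [mul_le_mul_of_nonneg_left h.1.1 hM0]
      · exact zero_le
  have e5 : 2 * C * ((β + θ) / θ) * Yq p α β / (ρ * d) = d⁻¹ * (2 * M / p) := by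
    rw [hM, Yq]
    field_simp
  rw [e5, ENNReal.ofReal_mul (by positivity), ENNReal.ofReal_inv_of_pos hd, mul_assoc]
  exact (ENNReal.mul_le_iff_le_inv (by simpa using hd) ENNReal.ofReal_ne_top).1 key

end Vale.Agent.P107
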