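import Vale.Agent.P107.A12
import Vale.Agent.P107.A3
import Vale.Agent.P107.A3a
import Vale.Agent.P107.A3b
import Vale.Agent.P107.A4
import Vale.Agent.P107.Amp
import Vale.Agent.P107.Crude
import Vale.Agent.P107.Dec
import Vale.Agent.P107.Dec0
import Vale.Agent.P107.Far
import Vale.Agent.P107.FarB
import Vale.Agent.P107.Geo
import Vale.Agent.P107.HStep
import Vale.Agent.P107.JB
import Vale.Agent.P107.JW
import Vale.Agent.P107.K2
import Vale.Agent.P107.MB
import Vale.Agent.P107.Ov
import Vale.Agent.P107.Pal
import Vale.Agent.P107.Ph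
import Vale.Agent.P107.Ph2
import Vale.Agent.P107.Rec
import Vale.Agent.P107.RecAbs
import Vale.Agent.P107.Red
import Vale.Agent.P107.Ret1
import Vale.Agent.P107.Ret2
import Vale.Agent.P107.ShS
import Vale.Agent.P107.ShT
import Vale.Agent.P107.SpE
import Vale.Agent.P107.Stab
import Vale.Agent.P107.Step
import Vale.Agent.P107.Step1
import Vale.Agent.P107.SumS1
import Vale.Agent.P107.SumS2
import Vale.Agent.P107.SumT
import Vale.Agent.P107.TE
import Vale.Agent.P107.Ton
import Vale.Agent.P107.Win
import Vale.Agent.P107.Win1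

/-! Problem P107: assembly of the momentum bound. -/

namespace Vale.Agent.P107

theorem momentum_bound : MB := by
  have h2 := a2 a1
  have h3 := a3 h2 (a3a a1 h2) (a3b a1)
  have r2 := ret2 ret1
  have ht := ton ret1
  have hred := red phase ht
  have hnear := near phase ht hred
  have hc := crude ret1 phase
  have hn := noHit ret1 ht hc
  have hs := spE ret1 r2 ht hc hn
  have hfar := far ht hs
  have hwin := win ret1 ht hn (win1 ret1 r2)
  have ho := ov ht hs
  have hjw := jW ht hnear hfar hwin ho
  have hjb := jB hjw stab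
  have hk2 := k2 ht hred pal
  have hfb := farB ht hs (phase2 phase) pal
  have hdec := dec ht hs hnear hk2 hfb hjw dec0
  have hamp := amp ret1 geo phase hc
  have hstep := step ret1 ht a4 hc hn (step1 ret1 r2 h3 a4 hc)
  have hrec := rec' ht a4 hamp hstep recAbs
  have hte := tE ho hjw hjb hdec (sumT geo (shT geo)) (sumS1 geo (shS geo)) (sumS2 geo)
  exact mB (dbl (hStep hrec hte))

end Vale.Agent.P107
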