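import Vale.Agent.P107.Basic2

/-! Problem P107: local conservation laws for the field energy and the particle energy. -/

open MeasureTheory Set Filter Topology
open scoped ENNReal RealInnerProductSpace ContDiff

noncomputable section
namespace Vale.Agent.P107

namespace N1X

theorem dD_zero {ψ : ℝ × V3 → ℝ} {R t : ℝ}
    (h : ∀ σ ∈ Icc (-1 : ℝ) (t + 1), ∀ y, R ≤ ‖y‖ → ψ (σ, y) = 0) {σ : ℝ} (hσ : σ ∈ Icc 0 t)
    {y : V3} (hy : R < ‖y‖) (v : ℝ × V3) : dD v ψ (σ, y) = 0 := by
  have : ψ =ᶠ[𝓝 (σ, y)] fun _ => 0 := by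
    filter_upwards [(isOpen_Ioo.preimage continuous_fst).mem_nhds
        (show (σ, y).1 ∈ Ioo (-1 : ℝ) (t + 1) from ⟨by linarith [hσ.1], by linarith [hσ.2]⟩),
      (isOpen_lt continuous_const continuous_snd.norm).mem_nhds hy] with r hr hr'
    exact h r.1 ⟨hr.1.le, hr.2.le⟩ r.2 (le_of_lt hr')
  unfold dD; rw [this.fderiv_eq]; simp

theorem int_of {g : V3 → ℝ} {R : ℝ} (hg : Continuous g) (h : ∀ y, R < ‖y‖ → g y = 0) :
    Integrable g :=
  hg.integrable_of_hasCompactSupport
    (HasCompactSupport.intro (isCompact_closedBall (0 : V3) R) fun y hy => h y (by simpa using hy))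

theorem swap {D : ℝ × V3 → ℝ} {R t : ℝ} (ht : 0 ≤ t) (hD : Continuous D)
    (h : ∀ σ ∈ Icc 0 t, ∀ y, R < ‖y‖ → D (σ, y) = 0) :
    ∫ y, ∫ σ in (0 : ℝ)..t, D (σ, y) = ∫ σ in (0 : ℝ)..t, ∫ y, D (σ, y) := by
  have hi : Integrable D ((volume.restrict (Ioc 0 t)).prod volume) := by
    have h1 : IntegrableOn D (Icc 0 t ×ˢ Metric.closedBall 0 R) (volume.prod volume) :=
      hD.continuousOn.integrableOn_compact (isCompact_Icc.prod (isCompact_closedBall _ _))
    have h2 : IntegrableOn D (Ioc 0 t ×ˢ univ) (volume.prod volume) :=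
      h1.of_forall_sdiff_eq_zero (measurableSet_Ioc.prod MeasurableSet.univ) fun p hp => by
        refine h p.1 (Ioc_subset_Icc_self hp.1.1) p.2 ?_
        by_contra hc
        exact hp.2 ⟨Ioc_subset_Icc_self hp.1.1, by simpa using hc⟩
    rwa [IntegrableOn, ← Measure.prod_restrict, Measure.restrict_univ] at h2
  simp only [intervalIntegral.integral_of_le ht]
  exact (integral_integral_swap (f := fun σ y => D (σ, y)) hi).symm

theorem div_cross {A B : V3 → V3} (hA : Differentiable ℝ A) (hB : Differentiable ℝ B) (y : V3) :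
    ∑ j, fderiv ℝ (fun y => cross (A y) (B y) j) y (ee j) =
      ⟪B y, curl A y⟫ - ⟪A y, curl B y⟫ := by
  have e : ∀ j v, fderiv ℝ (fun y => cross (A y) (B y) j) y v =
      (cross (A y) (fderiv ℝ B y v) + cross (fderiv ℝ A y v) (B y)) j := by
    intro j v
    have h1 := crossL.hasFDerivAt_of_bilinear (hA y).hasFDerivAt (hB y).hasFDerivAt
    have h2 := (EuclideanSpace.proj (𝕜 := ℝ) j).hasFDerivAt.comp y h1
    have h3 : (fun y => cross (A y) (B y) j) =
        (EuclideanSpace.proj (𝕜 := ℝ) j) ∘ fun y => crossL (A y) (B y) := by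
      funext z; simp
    rw [h3, h2.fderiv]
    simp
  simp only [e, Fin.sum_univ_three, inner_V3, curl_0, curl_1, curl_2, pd_eq]
  simp
  ring

theorem ibp_cross (hi : Ibp) {A B : V3 → V3} (hA : ContDiff ℝ 1 A) (hB : ContDiff ℝ 1 B)
    {a : V3 → ℝ} (ha : ContDiff ℝ 1 a) (hc : HasCompactSupport a) :
    ∫ y, ∑ j, fderiv ℝ a y (ee j) * cross (A y) (B y) j =
      ∫ y, (⟪A y, curl B y⟫ - ⟪B y, curl A y⟫) * a y := by
  have hS : ∀ j, ContDiff ℝ 1 (fun y => cross (A y) (B y) j) := fun j =>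
    (EuclideanSpace.proj (𝕜 := ℝ) j).contDiff.comp (contDiff_cross.comp (hA.prodMk hB))
  have i1 : ∀ j, Integrable (fun y => fderiv ℝ a y (ee j) * cross (A y) (B y) j) := fun j =>
    (((ha.continuous_fderiv one_ne_zero).clm_apply continuous_const).mul
      (hS j).continuous).integrable_of_hasCompactSupport
      (hc.fderiv_apply (𝕜 := ℝ) (ee j)).mul_right
  have i2 : ∀ j, Integrable (fun y => a y * fderiv ℝ (fun y => cross (A y) (B y) j) y (ee j)) :=
    fun j => (ha.continuous.mul (((hS j).continuous_fderiv one_ne_zero).clm_apply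
      continuous_const)).integrable_of_hasCompactSupport hc.mul_right
  have k : ∀ j, ∫ y, fderiv ℝ a y (ee j) * cross (A y) (B y) j =
      -∫ y, a y * fderiv ℝ (fun y => cross (A y) (B y) j) y (ee j) := fun j =>
    (hi ℝ).1 a _ (ee j) ha (hS j) (Or.inl hc)
  rw [integral_finsetSum _ fun j _ => i1 j]
  simp only [k]
  rw [Finset.sum_neg_distrib, ← integral_finsetSum _ fun j _ => i2 j, ← integral_neg]
  congr 1
  funext y
  rw [← Finset.mul_sum, div_cross (hA.differentiable one_ne_zero) (hB.differentiable one_ne_zero)]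
  ring

end N1X

open N1X in
theorem n1 (hc : ContD) (hi : Ibp) : N1 := by
  intro f K hD hK hM T ψ R hψ t ht hs
  have hψd := hψ.differentiable one_ne_zero
  have cK := hK.cont
  have cG := hM.cG
  have cψ := hψ.continuous
  have cdt : Continuous (dt ψ) := continuous_dD hψ _
  have ce : Continuous fun p : ℝ × V3 => eK K p.1 p.2 := by unfold eK; fun_prop
  set D : ℝ × V3 → ℝ := fun p => (⟪(K p.1 p.2).1, (MG f K p.1 p.2).1⟫ +
    ⟪(K p.1 p.2).2, (MG f K p.1 p.2).2⟫) * ψ p + eK K p.1 p.2 * dt ψ p with hDd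
  have cD : Continuous D :=
    (((cK.fst.inner cG.fst).add (cK.snd.inner cG.snd)).mul cψ).add (ce.mul cdt)
  have z0 : ∀ σ ∈ Icc 0 t, ∀ y, R < ‖y‖ → ψ (σ, y) = 0 := fun σ hσ y hy =>
    hs σ ⟨by linarith [hσ.1], by linarith [hσ.2]⟩ y hy.le
  have z1 : ∀ σ ∈ Icc 0 t, ∀ y, R < ‖y‖ → dt ψ (σ, y) = 0 := fun σ hσ y hy =>
    dD_zero hs hσ hy _
  have ftc : ∀ y, eK K t y * ψ (t, y) - eK K 0 y * ψ (0, y) = ∫ σ in (0 : ℝ)..t, D (σ, y) := by
    intro y
    refine (intervalIntegral.integral_eq_sub_of_hasDerivAt_of_le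
      (f := fun σ => eK K σ y * ψ (σ, y)) ht.1 (Continuous.continuousOn ?_) (fun σ hσ => ?_)
      (Continuous.intervalIntegrable (by fun_prop) _ _)).symm
    · exact (ce.comp (Continuous.prodMk_left y)).mul (by fun_prop)
    have h1 : HasDerivAt (fun s => K s y) (MG f K σ y) σ :=
      (hM.der σ hσ.1.le y).hasDerivAt (Ici_mem_nhds hσ.1)
    have h1a : HasDerivAt (fun s => (K s y).1) (MG f K σ y).1 σ :=
      (ContinuousLinearMap.fst ℝ V3 V3).hasFDerivAt.comp_hasDerivAt σ h1
    have h1b : HasDerivAt (fun s => (K s y).2) (MG f K σ y).2 σ :=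
      (ContinuousLinearMap.snd ℝ V3 V3).hasFDerivAt.comp_hasDerivAt σ h1
    have h2 := ((h1a.norm_sq.add h1b.norm_sq).div_const 2).mul (hasDerivAt_time hψd σ y)
    refine h2.congr_deriv ?_
    simp only [hDd, eK, Pi.add_apply]
    ring
  have i0 : ∀ σ ∈ Icc 0 t, Integrable fun y => eK K σ y * ψ (σ, y) := fun σ hσ =>
    int_of ((ce.comp (Continuous.prodMk_right σ)).mul (by fun_prop)) fun y hy => by
      rw [z0 σ hσ y hy, mul_zero]
  rw [← integral_sub (i0 t ⟨ht.1, le_rfl⟩) (i0 0 ⟨le_rfl, ht.1⟩)]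
  simp only [ftc]
  rw [swap (R := R) ht.1 cD fun σ hσ y hy => by simp [hDd, z0 σ hσ y hy, z1 σ hσ y hy]]
  refine intervalIntegral.integral_congr fun σ hσ => ?_
  rw [uIcc_of_le ht.1] at hσ
  have hA : ContDiff ℝ 1 fun y => (K σ y).1 := (hK.contDiff σ).fst
  have hB : ContDiff ℝ 1 fun y => (K σ y).2 := (hK.contDiff σ).snd
  have ha : ContDiff ℝ 1 fun y => ψ (σ, y) := hψ.comp (contDiff_prodMk_right σ)
  have hcs : HasCompactSupport fun y => ψ (σ, y) :=
    HasCompactSupport.intro (isCompact_closedBall (0 : V3) R) fun y hy =>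
      z0 σ hσ y (by simpa using hy)
  have k := ibp_cross hi hA hB ha hcs
  have cc : Continuous fun y => cur (f σ) y := hD.ccur.comp (Continuous.prodMk_right σ)
  have cA := hA.continuous
  have cB := hB.continuous
  have cM : Continuous fun y => MG f K σ y := cG.comp (Continuous.prodMk_right σ)
  have j1 : Integrable fun y => eK K σ y * dt ψ (σ, y) :=
    int_of ((ce.comp (Continuous.prodMk_right σ)).mul (by fun_prop)) fun y hy => by
      rw [z1 σ hσ y hy, mul_zero]
  have j2 : Integrable fun y => -⟪cur (f σ) y, (K σ y).1⟫ * ψ (σ, y) :=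
    int_of (by fun_prop) fun y hy => by rw [z0 σ hσ y hy, mul_zero]
  have j3 : Integrable fun y => ⟪SK K σ y, gx ψ (σ, y)⟫ := by
    have c1 : Continuous fun y => SK K σ y :=
      (contDiff_cross (n := 0)).continuous.comp (cA.prodMk cB)
    have c2 := continuous_gx hψ
    refine int_of (R := R) (by fun_prop) fun y hy => ?_
    have : gx ψ (σ, y) = 0 := by
      rw [gx_eq_sum]
      exact Finset.sum_eq_zero fun j _ => by rw [dx, dD_zero hs hσ hy, zero_smul]
    rw [this, inner_zero_right]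
  have j4 : Integrable fun y => (⟪(K σ y).1, (MG f K σ y).1 + cur (f σ) y⟫ +
      ⟪(K σ y).2, (MG f K σ y).2⟫) * ψ (σ, y) :=
    int_of (((cA.inner (cM.fst.add cc)).add (cB.inner cM.snd)).mul ha.continuous) fun y hy => by rw [z0 σ hσ y hy, mul_zero]
  have e1 : ∫ y, ⟪SK K σ y, gx ψ (σ, y)⟫ = ∫ y, (⟪(K σ y).1, (MG f K σ y).1 + cur (f σ) y⟫ +
      ⟪(K σ y).2, (MG f K σ y).2⟫) * ψ (σ, y) := by
    refine Eq.trans ?_ (k.trans ?_)
    · congr 1
      funext y
      simp only [fderiv_slice hψd, inner_V3, Fin.sum_univ_three, gx_apply, dx, SK]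
      ring
    · congr 1
      funext y
      simp only [MG, sub_add_cancel, inner_neg_right]
      ring
  rw [integral_add (j1.fun_add j3) j2, integral_add j1 j3, e1, ← integral_add j1 j4,
    ← integral_add (j1.fun_add j4) j2]
  congr 1
  funext y
  simp only [hDd, Pi.add_apply, inner_add_right, real_inner_comm (cur (f σ) y)]
  ring

theorem n2 (hl : VlS) (hw : WV) : N2 := by
  intro f₀ E₀ B₀ hd F hF T ψ R hψ t ht hs
  have hV := (hl f₀ E₀ B₀ hd F hF).1
  have hψd := hψ.differentiable one_ne_zero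
  have cu : Continuous uu := continuous_of_norm_sub_le (c := 2) fun v v' =>
    (norm_uu_sub_le v v').trans (div_le_self (by positivity) (one_le_q v))
  have hq : ContDiff ℝ 1 q := by
    unfold q
    exact (contDiff_const.add (contDiff_norm_sq ℝ)).sqrt fun v => by positivity
  have hπ : ContDiff ℝ 1 fun p : ℝ × Z => ((p.1, p.2.1) : ℝ × V3) := by fun_prop
  have hχ : ContDiff ℝ 1 fun p : ℝ × Z => q p.2.2 * ψ (p.1, p.2.1) :=
    (hq.comp (by fun_prop)).mul (hψ.comp hπ)
  have k := (hw f₀ E₀ B₀ hd F hF ℝ _ hχ).1 t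
  have e1 : ∀ σ y, ∫ v, ff f₀ F σ (y, v) • (q v * ψ (σ, y)) = eP (ff f₀ F) σ y * ψ (σ, y) := by
    intro σ y
    simp only [smul_eq_mul, ← mul_assoc, eP]
    rw [integral_mul_const]
  have e0 : ∀ y, ∫ v, f₀ (y, v) • (q v * ψ (0, y)) = eP (ff f₀ F) 0 y * ψ (0, y) := by
    intro y
    rw [← e1 0 y, hV.init]
  simp only [e1, e0] at k
  rw [k]
  congr 1
  funext σ
  congr 1
  funext y
  have d : ∀ v, fderiv ℝ (fun p : ℝ × Z => q p.2.2 * ψ (p.1, p.2.1)) (σ, (y, v))
      (1, vf F σ (y, v)) =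
      q v * dt ψ (σ, y) + ⟪gx ψ (σ, y), v⟫ + ⟪(F σ y).1, uu v⟫ * ψ (σ, y) := by
    intro v
    have h1 : HasFDerivAt (fun p : ℝ × Z => q p.2.2) _ (σ, (y, v)) :=
      HasFDerivAt.comp (f := fun p : ℝ × Z => p.2.2) (σ, (y, v)) (hasFDerivAt_q v)
        (hasFDerivAt_snd.comp _ hasFDerivAt_snd)
    have h2 : HasFDerivAt (fun p : ℝ × Z => ψ (p.1, p.2.1)) _ (σ, (y, v)) :=
      (hψd (σ, y)).hasFDerivAt.comp (σ, (y, v))
        (hasFDerivAt_fst.prodMk (hasFDerivAt_fst.comp _ hasFDerivAt_snd))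
    rw [(h1.fun_mul h2).fderiv]
    have h3 := dD_eq ψ (σ, y) 1 (uu v)
    have h4 : q v * ⟪uu v, gx ψ (σ, y)⟫ = ⟪gx ψ (σ, y), v⟫ := by
      rw [← real_inner_smul_left, q_smul_uu, real_inner_comm]
    have h5 := inner_uu_frc v (F σ y)
    unfold dD at h3
    simp only [vf, add_apply, smul_apply, ContinuousLinearMap.comp_apply,
      ContinuousLinearMap.prod_apply, ContinuousLinearMap.coe_fst', ContinuousLinearMap.coe_snd',
      smul_eq_mul, innerSL_apply_apply, h3, h5, real_inner_comm (uu v) (F σ y).1]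
    linear_combination h4
  obtain ⟨ρ, hρ⟩ := hV.spa |σ|
  have cf : Continuous fun v => ff f₀ F σ (y, v) :=
    (hV.reg.continuous σ).comp (Continuous.prodMk_right y)
  have cs : HasCompactSupport fun v => ff f₀ F σ (y, v) :=
    HasCompactSupport.intro (isCompact_closedBall (0 : V3) ρ) fun v hv => by
      by_contra h0
      exact hv (by simpa using (norm_snd_le (y, v)).trans (hρ σ le_rfl _ h0))
  have i1 : Integrable fun v => ff f₀ F σ (y, v) * q v :=
    (cf.mul hq.continuous).integrable_of_hasCompactSupport cs.mul_right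
  have i2 : Integrable fun v => ff f₀ F σ (y, v) • v :=
    (cf.smul continuous_id).integrable_of_hasCompactSupport cs.smul_right
  have i3 : Integrable fun v => ff f₀ F σ (y, v) • uu v :=
    (cf.smul cu).integrable_of_hasCompactSupport cs.smul_right
  have j1 := i1.mul_const (dt ψ (σ, y))
  have j2 := i2.const_inner (𝕜 := ℝ) (gx ψ (σ, y))
  have j3 := (i3.const_inner (𝕜 := ℝ) (F σ y).1).mul_const (ψ (σ, y))
  simp only [eP, SP, cur]
  rw [real_inner_comm, real_inner_comm (F σ y).1, ← integral_inner i2,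
    ← integral_inner i3, ← integral_mul_const, ← integral_mul_const, ← integral_add j1 j2,
    ← integral_add (j1.fun_add j2) j3]
  congr 1
  funext v
  simp only [d, smul_eq_mul, real_inner_smul_right, Pi.add_apply]
  ring

end Vale.Agent.P107
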