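import Vale.Agent.P107.Basic2

/-! Problem P107, part II: the cone operator. -/

open MeasureTheory Set Filter Topology
open scoped ENNReal RealInnerProductSpace ContDiff

noncomputable section
namespace Vale.Agent.P107

namespace O1X

theorem pol (hp : Pol) : ∃ c : ℝ, 0 < c ∧ ∀ (X : Type) [NormedAddCommGroup X] [NormedSpace ℝ X]
    (H : V3 → X) (s η a : ℝ), 0 ≤ η → s ≤ η → 0 ≤ a →
    (∀ w : V3, ‖w‖ < s → w ≠ 0 → ‖H w‖ ≤ a / ‖w‖ ^ 2) →
    ‖∫ w in Metric.ball (0 : V3) s, H w‖ ≤ c * (a * η) ∧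
      (AEStronglyMeasurable H volume → IntegrableOn H (Metric.ball 0 s)) := by
  obtain ⟨c, hc, -, h⟩ := hp
  refine ⟨c, hc, fun X _ _ H s η a hη hs ha hH => ?_⟩
  obtain ⟨h1, h2⟩ := h X H (Metric.ball 0 s) η 0 a 0 1 hη ha le_rfl one_pos
    (Metric.ball_subset_ball hs) (fun w hw h0 => by
      simpa using hH w (by simpa using hw) h0) measurableSet_ball
  exact ⟨by simpa using h1, fun hm => h2 hm.restrict⟩

theorem meas {X : Type} [NormedAddCommGroup X] {K : V3 × ℝ × V3 → X}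
    (hK : ContinuousOn K {p | p.1 ≠ 0}) (s : ℝ) (x : V3) :
    AEStronglyMeasurable (fun w : V3 => K (w, s - ‖w‖, x - w)) volume := by
  rw [← restrict_compl_singleton (μ := (volume : Measure V3)) 0]
  refine ContinuousOn.aestronglyMeasurable ?_ (measurableSet_singleton _).compl
  exact hK.comp (by fun_prop : Continuous fun w : V3 => (w, s - ‖w‖, x - w)).continuousOn
    fun w hw => hw

variable {W : Type} [NormedAddCommGroup W] [NormedSpace ℝ W] {G : V3 → ℝ → V3 → W}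

theorem bd (hG : Ker G) (T : ℝ) : ∃ C : ℝ, 0 ≤ C ∧ ∀ w t, w ≠ 0 → ‖w‖ ≤ T → |t| ≤ T →
    B3 (G w t) (C / ‖w‖ ^ 2) (C / ‖w‖ ^ 2) (C / ‖w‖ ^ 2) := by
  obtain ⟨C, h⟩ := hG.bd T
  refine ⟨|C|, abs_nonneg _, fun w t h0 h1 h2 => ?_⟩
  have h3 := h w t h0 h1 h2
  have h4 : C / ‖w‖ ^ 2 ≤ |C| / ‖w‖ ^ 2 := div_le_div_of_nonneg_right (le_abs_self _) (sq_nonneg _)
  exact ⟨h3.diff, fun x => (h3.b0 x).trans h4, fun x => (h3.b1 x).trans h4,
    fun x y => (h3.b2 x y).trans (mul_le_mul_of_nonneg_right h4 (norm_nonneg _))⟩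

theorem bd' (hG : Ker G) (T : ℝ) : ∃ C : ℝ, 0 ≤ C ∧ ∀ s, |s| ≤ T → ∀ w : V3, ‖w‖ < s → w ≠ 0 →
    B3 (G w (s - ‖w‖)) (C / ‖w‖ ^ 2) (C / ‖w‖ ^ 2) (C / ‖w‖ ^ 2) := by
  obtain ⟨C, hC, h⟩ := bd hG T
  refine ⟨C, hC, fun s hs w hw h0 => h w _ h0 (by linarith [le_abs_self s]) ?_⟩
  rw [abs_of_pos (by linarith)]
  linarith [le_abs_self s, norm_nonneg w]

theorem cont_fderiv (hc : ContD) (hG : Ker G) :
    ContinuousOn (fun p : V3 × ℝ × V3 => fderiv ℝ (G p.1 p.2.1) p.2.2) {p | p.1 ≠ 0} := by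
  have h1 := hc ({w : V3 // w ≠ 0} × ℝ) V3 W (fun p => G p.1 p.2)
    (hG.cont.comp_continuous (f := fun r : ({w : V3 // w ≠ 0} × ℝ) × V3 => (r.1.1.1, r.1.2, r.2))
      (by fun_prop) fun r => r.1.1.2)
    (fun p => by
      obtain ⟨C, -, h⟩ := bd hG (max ‖p.1.1‖ |p.2|)
      exact (h _ _ p.1.2 (le_max_left _ _) (le_max_right _ _)).diff)
    (fun p => by
      obtain ⟨C, hC, h⟩ := bd hG (‖p.1.1‖ + |p.2| + 1)
      have hp : 0 < ‖p.1.1‖ := norm_pos_iff.2 p.1.2
      have c1 : Continuous fun r : {w : V3 // w ≠ 0} × ℝ => ‖r.1.1‖ := by fun_prop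
      have c2 : Continuous fun r : {w : V3 // w ≠ 0} × ℝ => |r.2| := by fun_prop
      refine ⟨C / (‖p.1.1‖ / 2) ^ 2, ?_⟩
      filter_upwards [c1.continuousAt.eventually (lt_mem_nhds (half_lt_self hp)),
        c1.continuousAt.eventually (gt_mem_nhds (lt_add_one ‖p.1.1‖)),
        c2.continuousAt.eventually (gt_mem_nhds (lt_add_one |p.2|))] with r h1 h2 h3 x y
      refine ((h _ _ r.1.2 (by linarith [abs_nonneg p.2]) (by linarith)).b2 x y).trans ?_
      gcongr)
  rw [continuousOn_iff_continuous_domRestrict]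
  exact h1.comp (f := fun p : {p : V3 × ℝ × V3 | p.1 ≠ 0} => ((⟨p.1.1, p.2⟩, p.1.2.1), p.1.2.2))
    (by fun_prop)

theorem ae_ne : ∀ᵐ w : V3, w ≠ 0 := by
  simp [ae_iff]

end O1X

theorem o1 (hc : ContD) (hp : Pol) : O1 := by
  intro W _ _ _ G hG
  obtain ⟨c, hc0, hpol⟩ := O1X.pol hp
  have m0 : ∀ s x, AEStronglyMeasurable (fun w : V3 => G w (s - ‖w‖) (x - w)) volume :=
    O1X.meas hG.cont
  have m1 : ∀ s x, AEStronglyMeasurable (fun w : V3 => fderiv ℝ (G w (s - ‖w‖)) (x - w)) volume :=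
    O1X.meas (O1X.cont_fderiv hc hG)
  have ib : ∀ C s : ℝ, 0 ≤ C → IntegrableOn (fun w : V3 => C / ‖w‖ ^ 2) (Metric.ball 0 s) :=
    fun C s hC => (hpol ℝ _ s |s| C (abs_nonneg _) (le_abs_self _) hC fun w _ _ => by
      rw [Real.norm_of_nonneg (by positivity)]).2
        (by fun_prop : Measurable fun w : V3 => C / ‖w‖ ^ 2).aestronglyMeasurable
  have i0 : ∀ s x, IntegrableOn (fun w => G w (s - ‖w‖) (x - w)) (Metric.ball 0 s) := by
    intro s x
    obtain ⟨C, hC, h⟩ := O1X.bd' hG |s|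
    exact (hpol W _ s |s| C (abs_nonneg _) (le_abs_self _) hC
      fun w hw h0 => (h s le_rfl w hw h0).b0 _).2 (m0 s x)
  have i1 : ∀ s x, IntegrableOn (fun w => fderiv ℝ (G w (s - ‖w‖)) (x - w)) (Metric.ball 0 s) := by
    intro s x
    obtain ⟨C, hC, h⟩ := O1X.bd' hG |s|
    exact (hpol _ _ s |s| C (abs_nonneg _) (le_abs_self _) hC
      fun w hw h0 => (h s le_rfl w hw h0).b1 _).2 (m1 s x)
  have hd : ∀ s x, HasFDerivAt (RR G s)
      (∫ w in Metric.ball (0 : V3) s, fderiv ℝ (G w (s - ‖w‖)) (x - w)) x := by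
    intro s x
    obtain ⟨C, hC, h⟩ := O1X.bd' hG |s|
    have hae : ∀ᵐ w ∂(volume : Measure V3).restrict (Metric.ball 0 s),
        B3 (G w (s - ‖w‖)) (C / ‖w‖ ^ 2) (C / ‖w‖ ^ 2) (C / ‖w‖ ^ 2) := by
      filter_upwards [ae_restrict_mem measurableSet_ball, ae_restrict_of_ae O1X.ae_ne] with w hw h0
      exact h s le_rfl w (by simpa using hw) h0
    refine hasFDerivAt_integral_of_dominated_of_fderiv_le (𝕜 := ℝ)
      (F := fun x w => G w (s - ‖w‖) (x - w))
      (F' := fun x w => fderiv ℝ (G w (s - ‖w‖)) (x - w)) (bound := fun w => C / ‖w‖ ^ 2)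
      univ_mem (Eventually.of_forall fun y => (m0 s y).restrict) (i0 s x) (m1 s x).restrict
      (hae.mono fun w hw y _ => hw.b1 _) (ib C s hC) (hae.mono fun w hw y _ => ?_)
    exact (hasFDerivAt_comp_sub w).2 (hw.diff _).hasFDerivAt
  refine ⟨⟨?_, fun T => ?_⟩, fun s x => ⟨i0 s x, i1 s x, (hd s x).fderiv⟩⟩
  · have e : (fun p : ℝ × V3 => RR G p.1 p.2) = fun p : ℝ × V3 =>
        ∫ w, (Metric.ball (0 : V3) p.1).indicator (fun w => G w (p.1 - ‖w‖) (p.2 - w)) w :=
      funext fun p => (integral_indicator measurableSet_ball).symm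
    rw [e, continuous_iff_continuousAt]
    intro p₀
    obtain ⟨C, hC, h⟩ := O1X.bd' hG (|p₀.1| + 1)
    have c2 : Continuous fun p : ℝ × V3 => |p.1| := by fun_prop
    refine continuousAt_of_dominated
      (bound := (Metric.ball (0 : V3) (|p₀.1| + 1)).indicator fun w => C / ‖w‖ ^ 2)
      (Eventually.of_forall fun p => (m0 p.1 p.2).indicator measurableSet_ball) ?_
      ((integrable_indicator_iff measurableSet_ball).2 (ib C _ hC)) ?_
    · filter_upwards [c2.continuousAt.eventually (gt_mem_nhds (lt_add_one |p₀.1|))] with p hp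
      filter_upwards [O1X.ae_ne] with w h0
      by_cases hw : w ∈ Metric.ball (0 : V3) p.1
      · have hw' : ‖w‖ < p.1 := by simpa using hw
        rw [indicator_of_mem hw, indicator_of_mem (by
          rw [mem_ball_zero_iff]
          linarith [le_abs_self p.1])]
        exact (h p.1 hp.le w hw' h0).b0 _
      · rw [indicator_of_notMem hw, norm_zero]
        exact indicator_nonneg (fun _ _ => by positivity) _
    · have hs : ∀ᵐ w : V3, w ∉ Metric.sphere (0 : V3) p₀.1 :=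
        compl_mem_ae_iff.2 (Measure.addHaar_sphere volume 0 p₀.1)
      filter_upwards [O1X.ae_ne, hs] with w h0 h1
      rcases lt_or_gt_of_ne (mt mem_sphere_zero_iff_norm.2 h1) with h2 | h2
      · have h3 : Continuous fun p : ℝ × V3 => G w (p.1 - ‖w‖) (p.2 - w) :=
          hG.cont.comp_continuous (f := fun p : ℝ × V3 => (w, p.1 - ‖w‖, p.2 - w)) (by fun_prop)
            fun _ => h0
        refine h3.continuousAt.congr ?_
        filter_upwards [continuous_fst.continuousAt.eventually (lt_mem_nhds h2)] with p hp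
        rw [indicator_of_mem (mem_ball_zero_iff.2 hp)]
      · refine (continuousAt_const (y := (0 : W))).congr ?_
        filter_upwards [continuous_fst.continuousAt.eventually (gt_mem_nhds h2)] with p hp
        rw [indicator_of_notMem fun h4 => lt_asymm hp (mem_ball_zero_iff.1 h4)]
  · obtain ⟨C, hC, h⟩ := O1X.bd' hG T
    refine ⟨c * (C * T), fun s hs => ?_⟩
    have hT : 0 ≤ T := (abs_nonneg s).trans hs
    have hs' : s ≤ T := (le_abs_self s).trans hs
    refine ⟨fun x => (hd s x).differentiableAt, fun x => ?_, fun x => ?_, fun x y => ?_⟩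
    · exact (hpol W _ s T C hT hs' hC fun w hw h0 => (h s hs w hw h0).b0 _).1
    · rw [(hd s x).fderiv]
      exact (hpol _ _ s T C hT hs' hC fun w hw h0 => (h s hs w hw h0).b1 _).1
    · rw [(hd s x).fderiv, (hd s y).fderiv, ← integral_sub (i1 s x) (i1 s y)]
      refine (hpol _ _ s T (C * ‖x - y‖) hT hs' (by positivity) fun w hw h0 => ?_).1.trans
        (le_of_eq (by ring))
      refine ((h s hs w hw h0).b2 _ _).trans (le_of_eq ?_)
      rw [sub_sub_sub_cancel_right]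
      ring

end Vale.Agent.P107
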