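import Vale.Agent.P107.Basic2

/-! Problem P107, part II: polar coordinates. -/

open MeasureTheory Set Filter Topology Real
open scoped ENNReal RealInnerProductSpace ContDiff

noncomputable section
namespace Vale.Agent.P107

namespace PolX

/-- the total mass of the unit sphere -/
def cS : ℝ := ((volume : Measure V3).toSphere univ).toReal

theorem cS_pos : 0 < cS := by
  unfold cS
  refine ENNReal.toReal_pos ?_ (measure_ne_top _ _)
  rw [Ne, Measure.measure_univ_eq_zero]
  exact Measure.toSphere_ne_zero _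

theorem lint_norm (g : ℝ → ℝ≥0∞) (hg : Measurable g) :
    ∫⁻ w : V3, g ‖w‖ = ENNReal.ofReal cS * ∫⁻ r in Ioi 0, ENNReal.ofReal (r ^ 2) * g r := by
  have h1 : ∫⁻ w : V3, g ‖w‖ =
      ∫⁻ x : ({(0 : V3)}ᶜ : Set V3), g ‖x.1‖ ∂((volume : Measure V3).comap (↑)) := by
    rw [lintegral_subtype_comap (measurableSet_singleton _).compl fun x : V3 => g ‖x‖,
      restrict_compl_singleton]
  have hm : Measurable fun p : Metric.sphere (0 : V3) 1 × Ioi (0 : ℝ) => g p.2.1 :=
    hg.comp (measurable_subtype_coe.comp measurable_snd)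
  have h2 := (volume : Measure V3).measurePreserving_homeomorphUnitSphereProd.lintegral_comp hm
  simp only [homeomorphUnitSphereProd_apply_snd_coe] at h2
  have hd : Module.finrank ℝ V3 - 1 = 2 := by simp
  rw [h1, h2, lintegral_prod _ hm.aemeasurable, hd]
  simp only [lintegral_const]
  rw [mul_comm, cS, ENNReal.ofReal_toReal (measure_ne_top _ _)]
  congr 1
  have hm2 : Measurable fun r : Ioi (0 : ℝ) => ENNReal.ofReal (r.1 ^ 2) :=
    (measurable_subtype_coe.pow_const _).ennreal_ofReal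
  have hm3 : Measurable fun r : Ioi (0 : ℝ) => g r.1 := hg.comp measurable_subtype_coe
  rw [Measure.volumeIoiPow, lintegral_withDensity_eq_lintegral_mul _ hm2 hm3]
  exact lintegral_subtype_comap measurableSet_Ioi fun r : ℝ => ENNReal.ofReal (r ^ 2) * g r

theorem part1 (h : ℝ → ℝ≥0∞) (hh : Measurable h) :
    ∫⁻ w : V3, h ‖w‖ * ENNReal.ofReal (1 / ‖w‖ ^ 2) =
      ENNReal.ofReal cS * ∫⁻ r in Ioi 0, h r := by
  have hg : Measurable fun r : ℝ => h r * ENNReal.ofReal (1 / r ^ 2) :=
    hh.mul (Measurable.ennreal_ofReal (by fun_prop))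
  rw [lint_norm _ hg]
  congr 1
  refine setLIntegral_congr_fun measurableSet_Ioi fun r hr => ?_
  have hr' : (0 : ℝ) < r := hr
  rw [mul_comm (h r), ← mul_assoc, ← ENNReal.ofReal_mul (by positivity),
    mul_one_div_cancel (by positivity), ENNReal.ofReal_one, one_mul]

theorem int_le (η s a A lam : ℝ) (hη : 0 ≤ η) (hA : 0 ≤ A) (hl : 0 < lam) :
    ∫ r in (0 : ℝ)..η, (a + A * exp (lam * (s - r))) ≤ a * η + A * exp (lam * s) / lam := by
  have hd : ∀ r ∈ uIcc (0 : ℝ) η, HasDerivAt (fun r => a * r - A * exp (lam * (s - r)) / lam)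
      (a + A * exp (lam * (s - r))) r := by
    intro r _
    have h1 : HasDerivAt (fun r => lam * (s - r)) (lam * (0 - 1)) r :=
      ((hasDerivAt_const r s).sub (hasDerivAt_id r)).const_mul lam
    have h2 := ((hasDerivAt_id r).const_mul a).sub ((h1.exp.const_mul A).div_const lam)
    have e : a * 1 - A * (exp (lam * (s - r)) * (lam * (0 - 1))) / lam =
        a + A * exp (lam * (s - r)) := by
      field_simp
      ring
    rw [e] at h2
    exact h2
  rw [intervalIntegral.integral_eq_sub_of_hasDerivAt hd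
    (Continuous.intervalIntegrable (by fun_prop) _ _)]
  have : 0 ≤ A * exp (lam * (s - η)) / lam := by positivity
  simp only [mul_zero, sub_zero, zero_sub]
  linarith

theorem lint_le {X : Type} [NormedAddCommGroup X] (H : V3 → X) (D : Set V3)
    (η s a A lam : ℝ) (hη : 0 ≤ η) (ha : 0 ≤ a) (hA : 0 ≤ A) (hl : 0 < lam)
    (hD : D ⊆ Metric.ball 0 η)
    (hH : ∀ w ∈ D, w ≠ 0 → ‖H w‖ ≤ (a + A * exp (lam * (s - ‖w‖))) / ‖w‖ ^ 2)
    (hm : MeasurableSet D) :
    ∫⁻ w in D, ENNReal.ofReal ‖H w‖ ≤ ENNReal.ofReal (cS * (a * η + A * exp (lam * s) / lam)) := by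
  set h : ℝ → ℝ≥0∞ := (Iio η).indicator fun r => ENNReal.ofReal (a + A * exp (lam * (s - r)))
    with hh
  have hmeas : Measurable h :=
    (Measurable.ennreal_ofReal (by fun_prop)).indicator measurableSet_Iio
  have h0 : ∀ᵐ w ∂((volume : Measure V3).restrict D), w ≠ 0 := by
    refine ae_restrict_of_ae ?_
    rw [ae_iff]
    simp
  have h1 : ∫⁻ w in D, ENNReal.ofReal ‖H w‖ ≤
      ∫⁻ w in D, h ‖w‖ * ENNReal.ofReal (1 / ‖w‖ ^ 2) := by
    refine lintegral_mono_ae ?_
    filter_upwards [h0, ae_restrict_mem hm] with w hw hwD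
    have hlt : ‖w‖ ∈ Iio η := by simpa using hD hwD
    rw [hh, indicator_of_mem hlt, ← ENNReal.ofReal_mul (by positivity)]
    refine ENNReal.ofReal_le_ofReal ?_
    rw [mul_one_div]
    exact hH w hwD hw
  have h2 : ∫⁻ r in Ioi 0, h r = ENNReal.ofReal (∫ r in (0 : ℝ)..η,
      (a + A * exp (lam * (s - r)))) := by
    have hc : Continuous fun r : ℝ => a + A * exp (lam * (s - r)) := by fun_prop
    rw [hh, lintegral_indicator measurableSet_Iio, Measure.restrict_restrict measurableSet_Iio,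
      Iio_inter_Ioi, intervalIntegral.integral_of_le hη, integral_Ioc_eq_integral_Ioo,
      ofReal_integral_eq_lintegral_ofReal]
    · exact (hc.integrableOn_Icc).mono_set Ioo_subset_Icc_self
    · exact Eventually.of_forall fun r => by positivity
  calc ∫⁻ w in D, ENNReal.ofReal ‖H w‖
      ≤ ∫⁻ w in D, h ‖w‖ * ENNReal.ofReal (1 / ‖w‖ ^ 2) := h1
    _ ≤ ∫⁻ w : V3, h ‖w‖ * ENNReal.ofReal (1 / ‖w‖ ^ 2) := setLIntegral_le_lintegral _ _
    _ = ENNReal.ofReal cS * ∫⁻ r in Ioi 0, h r := part1 h hmeas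
    _ ≤ ENNReal.ofReal (cS * (a * η + A * exp (lam * s) / lam)) := by
      rw [h2, ENNReal.ofReal_mul cS_pos.le]
      exact mul_le_mul_right (ENNReal.ofReal_le_ofReal (int_le η s a A lam hη hA hl)) _

end PolX

theorem pol : Pol := by
  refine ⟨PolX.cS, PolX.cS_pos, PolX.part1, ?_⟩
  intro X _ _ H D η s a A lam hη ha hA hl hD hH hm
  have key := PolX.lint_le H D η s a A lam hη ha hA hl hD hH hm
  have hc := PolX.cS_pos
  refine ⟨?_, fun hmeas => ⟨hmeas, ?_⟩⟩
  · refine (norm_integral_le_lintegral_norm _).trans ?_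
    exact ENNReal.toReal_le_of_le_ofReal (by positivity) key
  · rw [hasFiniteIntegral_iff_norm]
    exact key.trans_lt ENNReal.ofReal_lt_top

end Vale.Agent.P107
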