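import Vale.Agent.P107.Basic2

/-! Problem P107, part II: Fubini for the cone operator. -/

open MeasureTheory Set Filter Topology Real
open scoped ENNReal RealInnerProductSpace ContDiff

noncomputable section
namespace Vale.Agent.P107

namespace RFX

theorem int_ball (hp : Pol) {R : ℝ} (hR : 0 ≤ R) :
    IntegrableOn (fun w : V3 => 1 / ‖w‖ ^ 2) (Metric.ball 0 R) := by
  obtain ⟨c, -, -, h⟩ := hp
  refine (h ℝ (fun w : V3 => 1 / ‖w‖ ^ 2) (Metric.ball 0 R) R 0 1 0 1 hR zero_le_one le_rfl
    one_pos le_rfl (fun w _ _ => ?_) Metric.isOpen_ball.measurableSet).2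
    (Measurable.aestronglyMeasurable (by fun_prop))
  rw [Real.norm_of_nonneg (by positivity)]
  simp

theorem int (hp : Pol) {G : V3 → ℝ → V3 → Z} {φ : ℝ × V3 → ℝ} (hG : Ker G) (hφ : Test φ) :
    Integrable (fun r : (ℝ × V3) × V3 => φ (r.1.1 + ‖r.2‖, r.1.2 + r.2) • G r.2 r.1.1 r.1.2)
      ((volume.restrict Hs).prod volume) := by
  obtain ⟨R, hR, hb⟩ := hφ.bound
  obtain ⟨M, hM⟩ := hφ.smooth.continuous.bounded_above_of_compact_support hφ.compact
  obtain ⟨C, hC⟩ := hG.bd R
  have h0 : ∀ᵐ r : (ℝ × V3) × V3 ∂((volume.restrict Hs).prod volume), r.2 ≠ 0 :=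
    Measure.quasiMeasurePreserving_snd.ae (Measure.ae_ne volume (0 : V3))
  have h1 : ∀ᵐ r : (ℝ × V3) × V3 ∂((volume.restrict Hs).prod volume), r.1 ∈ Hs :=
    Measure.quasiMeasurePreserving_fst.ae (ae_restrict_mem measurableSet_Hs)
  have hK : IsCompact (Icc (0 : ℝ) R ×ˢ Metric.closedBall (0 : V3) (2 * R)) :=
    isCompact_Icc.prod (isCompact_closedBall _ _)
  have i1 : Integrable ((Icc (0 : ℝ) R ×ˢ Metric.closedBall (0 : V3) (2 * R)).indicator
      fun _ => M * |C|) (volume.restrict Hs) :=
    ((integrable_indicator_iff hK.measurableSet).2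
      (integrableOn_const hK.measure_lt_top.ne)).integrableOn
  have i2 : Integrable ((Metric.ball (0 : V3) (R + 1)).indicator fun w : V3 => 1 / ‖w‖ ^ 2) :=
    (integrable_indicator_iff Metric.isOpen_ball.measurableSet).2 (int_ball hp (by linarith))
  refine (i1.mul_prod i2).mono' ?_ ?_
  · have ho : IsOpen {r : (ℝ × V3) × V3 | r.2 ≠ 0} := isOpen_ne_fun continuous_snd continuous_const
    rw [← Measure.restrict_eq_self_of_ae_mem (s := {r : (ℝ × V3) × V3 | r.2 ≠ 0}) h0]
    refine ContinuousOn.aestronglyMeasurable ?_ ho.measurableSet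
    refine ContinuousOn.smul (hφ.smooth.continuous.comp (by fun_prop)).continuousOn ?_
    exact hG.cont.comp (f := fun r : (ℝ × V3) × V3 => (r.2, r.1.1, r.1.2)) (by fun_prop)
      fun r hr => hr
  · filter_upwards [h0, h1] with r hr hr'
    have hM0 : 0 ≤ M := (norm_nonneg _).trans (hM 0)
    by_cases hz : φ (r.1.1 + ‖r.2‖, r.1.2 + r.2) = 0
    · rw [hz, zero_smul, norm_zero]
      exact mul_nonneg (indicator_nonneg (fun _ _ => by positivity) _)
        (indicator_nonneg (fun _ _ => by positivity) _)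
    obtain ⟨-, h2, h3⟩ := hb _ hz
    have h4 : 0 < r.1.1 := hr'
    have h5 := norm_nonneg r.2
    have h6 : ‖r.1.2‖ ≤ 2 * R := by
      have := norm_sub_le (r.1.2 + r.2) r.2
      rw [add_sub_cancel_right] at this
      simp only at h2 h3
      linarith
    simp only at h2
    rw [indicator_of_mem (show r.1 ∈ Icc (0 : ℝ) R ×ˢ Metric.closedBall (0 : V3) (2 * R) from
        ⟨⟨h4.le, by linarith⟩, mem_closedBall_zero_iff.2 h6⟩),
      indicator_of_mem (mem_ball_zero_iff.2 (by linarith)), norm_smul, mul_assoc, mul_one_div]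
    refine mul_le_mul (hM _) (((hC r.2 r.1.1 hr (by linarith)
      (by rw [abs_of_pos h4]; linarith)).b0 _).trans ?_) (norm_nonneg _) hM0
    exact div_le_div_of_nonneg_right (le_abs_self C) (by positivity)

theorem shear : MeasurePreserving (fun r : (ℝ × V3) × V3 => (r.1 - (‖r.2‖, r.2), r.2))
    ((volume : Measure (ℝ × V3)).prod (volume : Measure V3)) (volume.prod volume) := by
  have h := (MeasurePreserving.id (volume : Measure V3)).skew_product
    (μc := (volume : Measure (ℝ × V3))) (μd := volume)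
    (g := fun (w : V3) (p : ℝ × V3) => p - (‖w‖, w)) (by fun_prop)
    (Eventually.of_forall fun w =>
      map_sub_right_eq_self ((volume : Measure ℝ).prod (volume : Measure V3)) _)
  exact (Measure.measurePreserving_swap.comp h).comp Measure.measurePreserving_swap

end RFX

set_option linter.unusedVariables false in
theorem rF (hp : Pol) (h1 : O1) : RF := by
  intro G φ hG hφ
  have hi := RFX.int hp hG hφ
  refine ⟨hi, ?_⟩
  have hs : MeasurableSet (Hs ×ˢ (univ : Set V3)) := measurableSet_Hs.prod MeasurableSet.univ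
  rw [← integral_prod _ hi]
  rw [Measure.restrict_prod_eq_prod_univ] at hi ⊢
  have hi2 := (integrable_indicator_iff hs).2 hi
  have hi3 := RFX.shear.integrable_comp_of_integrable hi2
  rw [← integral_indicator hs, ← RFX.shear.map_eq, integral_map RFX.shear.measurable.aemeasurable
    (by rw [RFX.shear.map_eq]; exact hi2.aestronglyMeasurable)]
  refine Eq.trans ?_ (integral_prod _ hi3).symm
  rw [setIntegral_eq_integral_of_forall_compl_eq_zero fun p hp' => by
    rw [hφ.zero_of_nonpos (not_lt.1 hp'), zero_smul]]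
  refine integral_congr_ae (Eventually.of_forall fun p => ?_)
  beta_reduce
  rw [RR, ← integral_smul, ← integral_indicator Metric.isOpen_ball.measurableSet]
  refine integral_congr_ae (Eventually.of_forall fun w => ?_)
  by_cases hw : ‖w‖ < p.1
  · have h2 : (p - (‖w‖, w), w) ∈ Hs ×ˢ (univ : Set V3) := ⟨sub_pos.2 hw, mem_univ _⟩
    simp only [Function.comp_apply, indicator_of_mem h2, indicator_of_mem (mem_ball_zero_iff.2 hw),
      Prod.fst_sub, Prod.snd_sub, sub_add_cancel]
  · have h2 : (p - (‖w‖, w), w) ∉ Hs ×ˢ (univ : Set V3) := fun h => hw (sub_pos.1 h.1)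
    simp only [Function.comp_apply, indicator_of_notMem h2,
      indicator_of_notMem (mt mem_ball_zero_iff.1 hw)]

end Vale.Agent.P107
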