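import Vale.Agent.P107.Basic2

/-! Problem P107, part II: cone integrals in Lagrangian and in Eulerian variables. -/

open MeasureTheory Set Filter Topology Real
open scoped ENNReal RealInnerProductSpace ContDiff

noncomputable section
namespace Vale.Agent.P107
namespace RepLX

/-- the density of the cone measure -/
def dn (f : ℝ → Z → ℝ) (s : ℝ) (x : V3) (p : Z) : ℝ :=
  b2 p.1 p.2 * f (s - ‖p.1‖) (x - p.1, p.2) / om

/-- the Lienard-Wiechert field on the cone -/
def HH (F : ℝ → V3 → Z) (s : ℝ) (x : V3) (p : Z) : Z :=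
  (ELW p.1 p.2 (F (s - ‖p.1‖) (x - p.1)), BLW p.1 p.2 (F (s - ‖p.1‖) (x - p.1)))

theorem meas_f {f : ℝ → Z → ℝ} (hf : Reg f) (s : ℝ) (x : V3) :
    Measurable fun p : Z => f (s - ‖p.1‖) (x - p.1, p.2) :=
  (hf.cont.comp ((continuous_const.sub continuous_fst.norm).prodMk
    ((continuous_const.sub continuous_fst).prodMk continuous_snd))).measurable

theorem meas_dn {f : ℝ → Z → ℝ} (hf : Reg f) (s : ℝ) (x : V3) : Measurable (dn f s x) :=
  ((Measurable.b2' measurable_fst measurable_snd).mul (meas_f hf s x)).div_const _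

theorem meas_HH {F : ℝ → V3 → Z} (hF : Reg F) (s : ℝ) (x : V3) : Measurable (HH F s x) := by
  have h : Measurable fun p : Z => F (s - ‖p.1‖) (x - p.1) :=
    (hF.cont.comp ((continuous_const.sub continuous_fst.norm).prodMk
      (continuous_const.sub continuous_fst))).measurable
  exact (Measurable.ELW' measurable_fst measurable_snd h).prodMk
    (Measurable.BLW' measurable_fst measurable_snd h)

theorem dn_smul (f : ℝ → Z → ℝ) (F : ℝ → V3 → Z) (s : ℝ) (x : V3) (p : Z) :
    dn f s x p • HH F s x p =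
      om⁻¹ • f (s - ‖p.1‖) (x - p.1, p.2) • kEB p.1 p.2 (F (s - ‖p.1‖) (x - p.1)) := by
  have e : kEB p.1 p.2 (F (s - ‖p.1‖) (x - p.1)) = b2 p.1 p.2 • HH F s x p := rfl
  rw [e, smul_smul, smul_smul]
  congr 1
  unfold dn
  ring

theorem kEB_zero (v : V3) (k : Z) : kEB 0 v k = 0 := by
  simp [kEB, ELW, BLW, ET, ES]

theorem cone_eq (s : ℝ) (A : Set V3) :
    {p : Z | p.1 ∈ A} ∩ {p : Z | ‖p.1‖ < s} = (Metric.ball (0 : V3) s ∩ A) ×ˢ (univ : Set V3) := by
  ext p
  simp [and_comm]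

theorem cone_eq' (s : ℝ) : {p : Z | ‖p.1‖ < s} = Metric.ball (0 : V3) s ×ˢ (univ : Set V3) := by
  ext p
  simp

theorem integrable_k (hp : Pol) (hk : KL) {f : ℝ → Z → ℝ} {F : ℝ → V3 → Z} (hf : Reg f)
    (hsp : SpA f) (hF : Reg F) {s : ℝ} (hs : 0 ≤ s) (x : V3) :
    IntegrableOn (fun p : Z => dn f s x p • HH F s x p) {p : Z | ‖p.1‖ < s} := by
  obtain ⟨c, -, -, h1⟩ := hp
  obtain ⟨kB, k1, -, -, -, k2⟩ := hk
  obtain ⟨R, hR⟩ := hsp s
  obtain ⟨C, hC, k3⟩ := k2 s R
  obtain ⟨M, hM1, hM⟩ := hf.bd' s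
  obtain ⟨N, hN1, hN⟩ := hF.bd' s
  have i1 : IntegrableOn (fun w : V3 => 1 / ‖w‖ ^ 2) (Metric.ball 0 s) := by
    refine (h1 ℝ (fun w : V3 => 1 / ‖w‖ ^ 2) (Metric.ball 0 s) s s 1 0 1 hs zero_le_one le_rfl
      one_pos subset_rfl (fun w _ _ => ?_) measurableSet_ball).2 ?_
    · rw [Real.norm_of_nonneg (by positivity), zero_mul, add_zero]
    · exact (Measurable.aestronglyMeasurable (by fun_prop))
  have i2 : Integrable ((Metric.closedBall (0 : V3) R).indicator
      fun _ => |om⁻¹| * (M * (C * (1 + N)))) :=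
    (integrable_indicator_iff measurableSet_closedBall).2
      (integrableOn_const measure_closedBall_lt_top.ne)
  have i3 := Integrable.mul_prod i1 i2
  rw [← Measure.restrict_univ (μ := (volume : Measure V3)), Measure.restrict_restrict
    measurableSet_ball, inter_univ, Measure.prod_restrict, ← Measure.volume_eq_prod,
    ← cone_eq'] at i3
  refine i3.mono' ((meas_dn hf s x).smul (meas_HH hF s x)).aestronglyMeasurable ?_
  have hS : MeasurableSet {p : Z | ‖p.1‖ < s} :=
    measurableSet_lt measurable_fst.norm measurable_const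
  refine (ae_restrict_iff' hS).2 (ae_of_all _ fun p (hp : ‖p.1‖ < s) => ?_)
  have h0 : 0 ≤ 1 / ‖p.1‖ ^ 2 * (Metric.closedBall (0 : V3) R).indicator
      (fun _ => |om⁻¹| * (M * (C * (1 + N)))) p.2 :=
    mul_nonneg (by positivity) (indicator_nonneg (fun _ _ => by positivity) _)
  have ht : |s - ‖p.1‖| ≤ s := by
    rw [abs_of_nonneg (by linarith)]
    linarith [norm_nonneg p.1]
  rw [dn_smul]
  by_cases hw : p.1 = 0
  · rw [hw, kEB_zero, smul_zero, smul_zero, norm_zero]
    rwa [hw] at h0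
  by_cases hz : f (s - ‖p.1‖) (x - p.1, p.2) = 0
  · rw [hz, zero_smul, smul_zero, norm_zero]
    exact h0
  have hv : ‖p.2‖ ≤ R := (norm_snd_le (x - p.1, p.2)).trans (hR _ ht _ hz)
  obtain ⟨a1, a2, -⟩ := k3 p.1 p.2 hw hp.le hv
  have a3 : ‖kEB p.1 p.2 (F (s - ‖p.1‖) (x - p.1))‖ ≤ C / ‖p.1‖ ^ 2 + C / ‖p.1‖ ^ 2 * N := by
    rw [k1]
    refine (norm_add_le _ _).trans (add_le_add a1 ((ContinuousLinearMap.le_opNorm _ _).trans ?_))
    exact mul_le_mul a2 ((hN _ ht).b0 _) (norm_nonneg _) (by positivity)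
  rw [indicator_of_mem (mem_closedBall_zero_iff.2 hv), norm_smul, norm_smul, Real.norm_eq_abs]
  refine (mul_le_mul_of_nonneg_left (mul_le_mul ((hM _ ht).b0 _) a3 (norm_nonneg _)
    (by linarith)) (abs_nonneg _)).trans (le_of_eq ?_)
  ring

end RepLX

open RepLX in
theorem repL (hr : Ret1) (hs : SI) (hp : Pol) (hk : KL) (hl : VlS) (hq : VlQ) (hc : CI) : RepL := by
  intro f₀ E₀ B₀ hd
  obtain ⟨M, hM1, hM⟩ := (hq f₀ E₀ B₀ hd).1
  have hom := hs.1
  have hwv : ∀ F, Reg F → ∀ s x, Measurable ((sys f₀ F).wv s x) := fun F hF s x =>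
    ((hr _ (hl f₀ E₀ B₀ hd F hF).2).cwv.comp (continuous_const.prodMk
      (continuous_const.prodMk continuous_id))).measurable
  have hS : ∀ s : ℝ, MeasurableSet {p : Z | ‖p.1‖ < s} := fun s =>
    measurableSet_lt measurable_fst.norm measurable_const
  have hI : ∀ F, Reg F → ∀ s x, 0 ≤ s → ∀ g : Z → ℝ≥0∞, Measurable g → (sys f₀ F).cI s x g =
      ∫⁻ p in {p : Z | ‖p.1‖ < s}, g p * ENNReal.ofReal (dn (ff f₀ F) s x p) := by
    intro F hF s x h0 g hg
    have h1 := (meas_dn (hl f₀ E₀ B₀ hd F hF).1.reg s x).ennreal_ofReal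
    unfold PS.cI
    rw [← lintegral_map hg (hwv F hF s x), hc f₀ E₀ B₀ hd F hF s x h0]
    exact (lintegral_withDensity_eq_lintegral_mul _ h1 hg).trans
      (lintegral_congr fun p => mul_comm _ _)
  refine ⟨⟨max 1 (M / om), le_max_left _ _, fun F hF s h0 x g hg => ?_⟩, fun F hF s x h0 => ?_⟩
  · rw [hI F hF s x h0 g hg, ← lintegral_const_mul' _ _ ENNReal.ofReal_ne_top]
    refine lintegral_mono fun p => ?_
    rw [mul_left_comm, ← ENNReal.ofReal_mul (by positivity)]
    refine mul_le_mul_right (ENNReal.ofReal_le_ofReal ?_) _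
    unfold dn
    rw [mul_div_assoc, mul_comm]
    exact mul_le_mul_of_nonneg_right ((div_le_div_of_nonneg_right (hM _ _ _).2 hom.le).trans
      (le_max_right _ _)) (b2_pos _ _).le
  have hV := (hl f₀ E₀ B₀ hd F hF).1
  have h1 := (meas_dn hV.reg s x).ennreal_ofReal
  have h2 := meas_HH hF s x
  have h3 := integrable_k hp hk hV.reg hV.spa hF h0 x
  have h4 : ∀ p, (ENNReal.ofReal (dn (ff f₀ F) s x p)).toReal = dn (ff f₀ F) s x p := fun p =>
    ENNReal.toReal_ofReal (div_nonneg (mul_nonneg (b2_pos _ _).le (hM _ _ _).1) hom.le)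
  have h5 : ((sys f₀ F).μ.restrict ((sys f₀ F).act s x)).map ((sys f₀ F).wv s x) =
      ((volume : Measure Z).restrict {p | ‖p.1‖ < s}).withDensity
        (fun p => ENNReal.ofReal (dn (ff f₀ F) s x p)) := hc f₀ E₀ B₀ hd F hF s x h0
  have h6 : Integrable (fun z => HH F s x ((sys f₀ F).wv s x z))
      ((sys f₀ F).μ.restrict ((sys f₀ F).act s x)) := by
    refine (integrable_map_measure h2.aestronglyMeasurable (hwv F hF s x).aemeasurable).1 ?_
    rw [h5, integrable_withDensity_iff_integrable_smul' h1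
      (ae_of_all _ fun _ => ENNReal.ofReal_lt_top)]
    simp_rw [h4]
    exact h3
  have h7 : (sys f₀ F).far 0 s x =
      ∫ z in (sys f₀ F).act s x, HH F s x ((sys f₀ F).wv s x z) ∂(sys f₀ F).μ := by
    have e : (sys f₀ F).act s x ∩ {z | 0 ≤ ‖((sys f₀ F).wv s x z).1‖} = (sys f₀ F).act s x :=
      inter_eq_left.2 fun z _ => norm_nonneg ((sys f₀ F).wv s x z).1
    unfold PS.far
    rw [e]
    rfl
  refine ⟨fun g hg => ?_, fun η => ?_, ?_, ?_⟩
  · rw [hI F hF s x h0 g hg, cone_eq', Measure.volume_eq_prod, ← Measure.prod_restrict,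
      Measure.restrict_univ]
    exact lintegral_prod _ (hg.mul h1).aemeasurable
  · have hT : MeasurableSet {p : Z | p.1 ∈ {w : V3 | η ≤ ‖w‖}} :=
      measurableSet_le measurable_const measurable_fst.norm
    have e1 : (sys f₀ F).far η s x = ∫ p in {p : Z | p.1 ∈ {w : V3 | η ≤ ‖w‖}}, HH F s x p
        ∂((sys f₀ F).μ.restrict ((sys f₀ F).act s x)).map ((sys f₀ F).wv s x) := by
      rw [setIntegral_map hT h2.aestronglyMeasurable (hwv F hF s x).aemeasurable,
        Measure.restrict_restrict (hwv F hF s x hT), inter_comm]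
      rfl
    have h8 : IntegrableOn (fun p : Z => dn (ff f₀ F) s x p • HH F s x p)
        ((Metric.ball (0 : V3) s ∩ {w | η ≤ ‖w‖}) ×ˢ (univ : Set V3)) := by
      rw [← cone_eq]
      exact h3.mono_set inter_subset_right
    rw [e1, h5, setIntegral_withDensity_eq_setIntegral_toReal_smul h1
      (ae_of_all _ fun _ => ENNReal.ofReal_lt_top) _ hT, Measure.restrict_restrict hT, cone_eq]
    simp_rw [h4]
    rw [Measure.volume_eq_prod] at h8 ⊢
    rw [setIntegral_prod _ h8, ← integral_smul]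
    refine integral_congr_ae (ae_of_all _ fun w => ?_)
    simp only [dn_smul, Measure.restrict_univ]
    rw [integral_smul]
    rfl
  · rw [h7, fst_integral h6]
    rfl
  · rw [h7, snd_integral h6]
    rfl

end Vale.Agent.P107
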