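import Vale.Agent.P107.Basic2

/-! Problem P107: the singular part of a divergence at the origin. -/

open MeasureTheory Set Filter Topology
open scoped ENNReal RealInnerProductSpace ContDiff

noncomputable section
namespace Vale.Agent.P107

namespace SIX

/-- the radial bump whose integral is `om` -/
def psi (w : V3) : ℝ := deriv eta ‖w‖ / ‖w‖ ^ 2

theorem psi_nonneg (w : V3) : 0 ≤ psi w := div_nonneg (deriv_eta_nonneg _) (sq_nonneg _)

theorem continuous_psi : Continuous psi := by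
  refine continuous_iff_continuousAt.2 fun w => ?_
  by_cases hw : w = 0
  · have : psi =ᶠ[𝓝 w] fun _ => 0 := by
      subst hw
      filter_upwards [Metric.ball_mem_nhds (0 : V3) one_pos] with y hy
      have : ‖y‖ < 1 := by simpa using hy
      simp [psi, deriv_eta_of_lt_one this]
    exact continuousAt_const.congr this.symm
  · have h : ‖w‖ ^ 2 ≠ 0 := pow_ne_zero _ (norm_ne_zero_iff.2 hw)
    exact ((continuous_deriv_eta.comp continuous_norm).continuousAt).div
      (continuous_norm.pow 2).continuousAt h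

theorem compact_psi : HasCompactSupport psi := by
  refine HasCompactSupport.intro (isCompact_closedBall (0 : V3) 2) fun w hw => ?_
  have : 2 < ‖w‖ := by simpa using hw
  simp [psi, deriv_eta_of_two_lt this]

theorem integrable_psi : Integrable psi := continuous_psi.integrable_of_hasCompactSupport compact_psi

theorem norm_ee (j : Fin 3) : ‖ee j‖ = 1 := by simp [ee]

theorem om_pos : 0 < om := by
  obtain ⟨x, hx, hd⟩ := exists_deriv_eq_slope eta (show (1 : ℝ) < 2 by norm_num)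
    continuous_eta.continuousOn
    (fun x _ => (hasDerivAt_eta x).differentiableAt.differentiableWithinAt)
  rw [eta_of_two_le le_rfl, eta_of_le_one le_rfl] at hd
  have hx0 : 0 < x := by linarith [hx.1]
  have hn : ‖x • ee 0‖ = x := by rw [norm_smul, norm_ee, mul_one, Real.norm_of_nonneg hx0.le]
  refine continuous_psi.integral_pos_of_hasCompactSupport_nonneg_nonzero (x := x • ee 0)
    compact_psi psi_nonneg ?_
  change deriv eta ‖x • ee 0‖ / ‖x • ee 0‖ ^ 2 ≠ 0
  rw [hn, hd]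
  positivity

/-- rescaled bump -/
def psiT (t : ℝ) (w : V3) : ℝ := (t ^ 3)⁻¹ * psi (t⁻¹ • w)

theorem psiT_nonneg {t : ℝ} (ht : 0 < t) (w : V3) : 0 ≤ psiT t w :=
  mul_nonneg (by positivity) (psi_nonneg _)

theorem integrable_psiT {t : ℝ} (ht : 0 < t) : Integrable (psiT t) :=
  (integrable_psi.comp_smul (inv_ne_zero ht.ne')).const_mul _

theorem integral_psiT {t : ℝ} (ht : 0 < t) : ∫ w, psiT t w = om := by
  unfold psiT
  rw [integral_const_mul, Measure.integral_comp_inv_smul]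
  have h3 : Module.finrank ℝ V3 = 3 := by simp
  rw [h3, abs_of_pos (by positivity), smul_eq_mul, ← mul_assoc,
    inv_mul_cancel₀ (by positivity), one_mul]
  rfl

theorem psiT_eq {t : ℝ} (ht : 0 < t) {w : V3} (hw : w ≠ 0) :
    psiT t w = deriv eta (‖w‖ / t) / t / ‖w‖ ^ 2 := by
  have hn : ‖t⁻¹ • w‖ = ‖w‖ / t := by
    rw [norm_smul, Real.norm_of_nonneg (by positivity), div_eq_inv_mul]
  have h0 : ‖w‖ ≠ 0 := norm_ne_zero_iff.2 hw
  rw [psiT, psi, hn]
  field_simp

/-- the cut-off -/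
def zeta (t : ℝ) (w : V3) : ℝ := eta (‖w‖ / t)

theorem zeta_ev {t : ℝ} (ht : 0 < t) : zeta t =ᶠ[𝓝 0] fun _ => 0 := by
  filter_upwards [Metric.ball_mem_nhds (0 : V3) ht] with y hy
  have : ‖y‖ < t := by simpa using hy
  exact eta_of_le_one ((div_le_one ht).2 this.le)

theorem continuous_zeta (t : ℝ) : Continuous (zeta t) :=
  continuous_eta.comp (continuous_norm.div_const t)

theorem contDiffAt_zeta (t : ℝ) {w : V3} (hw : w ≠ 0) : ContDiffAt ℝ 1 (zeta t) w :=
  (contDiff_eta (n := 1)).contDiffAt.comp w ((contDiffAt_norm ℝ hw).div_const t)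

theorem hasFDerivAt_nrm {w : V3} (hw : w ≠ 0) :
    HasFDerivAt (fun y : V3 => ‖y‖) (innerSL ℝ (hat w)) w := by
  have h0 : ‖w‖ ≠ 0 := norm_ne_zero_iff.2 hw
  have h1 := (hasStrictFDerivAt_norm_sq w).hasFDerivAt
  have h2 := h1.sqrt (pow_ne_zero 2 h0)
  have h3 : (fun y : V3 => √(‖y‖ ^ 2)) = fun y => ‖y‖ := by
    funext y; exact Real.sqrt_sq (norm_nonneg y)
  rw [h3, Real.sqrt_sq (norm_nonneg w)] at h2
  refine h2.congr_fderiv ?_
  ext v
  simp [hat]
  field_simp

theorem hasFDerivAt_zeta (t : ℝ) {w : V3} (hw : w ≠ 0) :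
    HasFDerivAt (zeta t) ((deriv eta (‖w‖ / t) / t) • innerSL ℝ (hat w)) w := by
  have h1 : HasDerivAt (fun r : ℝ => eta (r / t)) (deriv eta (‖w‖ / t) / t) ‖w‖ := by
    have := (hasDerivAt_eta (‖w‖ / t)).comp ‖w‖ ((hasDerivAt_id ‖w‖).div_const t)
    refine this.congr_deriv ?_
    ring
  exact h1.comp_hasFDerivAt w (hasFDerivAt_nrm hw)

theorem inner_ee (x : V3) (j : Fin 3) : ⟪x, ee j⟫ = x j := by
  simp [ee, EuclideanSpace.inner_single_right]

theorem sum_hat_sq {w : V3} (hw : w ≠ 0) : ∑ j, hat w j * hat w j = 1 := by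
  have h := EuclideanSpace.real_norm_sq_eq (hat w)
  rw [norm_hat hw] at h
  simp only [← sq]
  rw [← h]; norm_num

theorem abs_hat_le (w : V3) (j : Fin 3) : |hat w j| ≤ 1 :=
  (PiLp.norm_apply_le (hat w) j).trans (norm_hat_le w)

section
variable {X : Type} [NormedAddCommGroup X] [NormedSpace ℝ X]

theorem contDiff_cut {M : V3 → X} (hM : ContDiffOn ℝ 1 M {0}ᶜ) {t : ℝ} (ht : 0 < t) :
    ContDiff ℝ 1 (fun w => zeta t w • M w) := by
  refine contDiff_iff_contDiffAt.2 fun w => ?_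
  by_cases hw : w = 0
  · subst hw
    have : (fun w => zeta t w • M w) =ᶠ[𝓝 0] fun _ => 0 := by
      filter_upwards [zeta_ev ht] with y hy
      rw [hy, zero_smul]
    exact contDiffAt_const.congr_of_eventuallyEq this
  · exact (contDiffAt_zeta t hw).smul (hM.contDiffAt (isOpen_compl_singleton.mem_nhds hw))

theorem compact_cut {M : V3 → X} {R : ℝ} (hR : ∀ w, R < ‖w‖ → M w = 0) (t : ℝ) :
    HasCompactSupport (fun w => zeta t w • M w) := by
  refine HasCompactSupport.intro (isCompact_closedBall (0 : V3) R) fun w hw => ?_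
  have : R < ‖w‖ := by simpa using hw
  rw [hR w this, smul_zero]

theorem integrable_fderiv {g : V3 → X} (hg : ContDiff ℝ 1 g) (hc : HasCompactSupport g) (v : V3) :
    Integrable (fun w => fderiv ℝ g w v) :=
  ((hg.continuous_fderiv one_ne_zero).clm_apply continuous_const).integrable_of_hasCompactSupport
    (hc.fderiv_apply ℝ v)

theorem integral_fderiv_zero {g : V3 → X} (hg : ContDiff ℝ 1 g) (hc : HasCompactSupport g)
    (v : V3) : ∫ w, fderiv ℝ g w v = 0 := by
  have h := integral_smul_fderiv_eq_neg_fderiv_smul_of_integrable (μ := (volume : Measure V3))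
    (f := fun _ : V3 => (1 : ℝ)) (g := g) (v := v) (by simp)
    (by simpa using integrable_fderiv hg hc v)
    (by simpa using hg.continuous.integrable_of_hasCompactSupport hc)
    (fun x _ => differentiableAt_const _) (fun x _ => hg.differentiable one_ne_zero x)
  simpa using h

theorem fderiv_cut {M : V3 → X} (hM : ContDiffOn ℝ 1 M {0}ᶜ) (t : ℝ) {w : V3} (hw : w ≠ 0)
    (j : Fin 3) : fderiv ℝ (fun w => zeta t w • M w) w (ee j) =
      zeta t w • fderiv ℝ M w (ee j) + (deriv eta (‖w‖ / t) / t * hat w j) • M w := by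
  have h1 : DifferentiableAt ℝ M w :=
    (hM.contDiffAt (isOpen_compl_singleton.mem_nhds hw)).differentiableAt one_ne_zero
  have h2 := (hasFDerivAt_zeta t hw).fun_smul h1.hasFDerivAt
  rw [h2.fderiv]
  simp [inner_ee]

theorem point_bound {M : Fin 3 → V3 → X} {c : X} {C : ℝ} (hM : ∀ j, ContDiffOn ℝ 1 (M j) {0}ᶜ)
    (hC : ∀ j w, w ≠ 0 → ‖w‖ ≤ 1 → ‖M j w - (hat w j / ‖w‖ ^ 2) • c‖ ≤ C / ‖w‖)
    {t : ℝ} (ht : 0 < t) (ht2 : 2 * t ≤ 1) {w : V3} (hw : w ≠ 0) :
    ‖(∑ j, fderiv ℝ (fun w => zeta t w • M j w) w (ee j)) -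
      (zeta t w • ∑ j, fderiv ℝ (M j) w (ee j) + psiT t w • c)‖ ≤ 6 * |C| * t * psiT t w := by
  have h0 : 0 < ‖w‖ := norm_pos_iff.2 hw
  set ρ : ℝ := deriv eta (‖w‖ / t) / t with hρ
  have hρ0 : 0 ≤ ρ := div_nonneg (deriv_eta_nonneg _) ht.le
  have e1 : (∑ j, fderiv ℝ (fun w => zeta t w • M j w) w (ee j)) -
      (zeta t w • ∑ j, fderiv ℝ (M j) w (ee j) + psiT t w • c) =
      ∑ j, (ρ * hat w j) • (M j w - (hat w j / ‖w‖ ^ 2) • c) := by
    have e2 : psiT t w • c = ∑ j, (ρ * hat w j) • (hat w j / ‖w‖ ^ 2) • c := by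
      simp only [smul_smul]
      rw [← Finset.sum_smul, psiT_eq ht hw, ← hρ]
      have : ∑ j, ρ * hat w j * (hat w j / ‖w‖ ^ 2) = ρ / ‖w‖ ^ 2 * ∑ j, hat w j * hat w j := by
        rw [Finset.mul_sum]
        exact Finset.sum_congr rfl fun j _ => by ring
      rw [this, sum_hat_sq hw, mul_one]
    simp only [fun j => fderiv_cut (hM j) t hw j, ← hρ, Finset.sum_add_distrib, smul_sub,
      Finset.sum_sub_distrib]
    rw [e2, Finset.smul_sum]
    abel
  rw [e1, psiT_eq ht hw, ← hρ]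
  by_cases h2 : 2 < ‖w‖ / t
  · have : ρ = 0 := by rw [hρ, deriv_eta_of_two_lt h2, zero_div]
    simp [this]
  have h3 : ‖w‖ ≤ 2 * t := by
    have := not_lt.1 h2
    rwa [div_le_iff₀ ht] at this
  have h4 : ∀ j, ‖(ρ * hat w j) • (M j w - (hat w j / ‖w‖ ^ 2) • c)‖ ≤
      2 * |C| * t * (ρ / ‖w‖ ^ 2) := by
    intro j
    rw [norm_smul, Real.norm_eq_abs, abs_mul, abs_of_nonneg hρ0]
    have a1 := hC j w hw (by linarith)
    have a2 : C / ‖w‖ ≤ |C| * (2 * t) / ‖w‖ ^ 2 := by
      rw [div_le_div_iff₀ h0 (by positivity)]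
      have b1 : C * ‖w‖ ^ 2 ≤ |C| * ‖w‖ ^ 2 :=
        mul_le_mul_of_nonneg_right (le_abs_self C) (by positivity)
      have b2 : |C| * ‖w‖ * ‖w‖ ≤ |C| * (2 * t) * ‖w‖ := by gcongr
      nlinarith
    calc ρ * |hat w j| * ‖M j w - (hat w j / ‖w‖ ^ 2) • c‖
        ≤ ρ * 1 * (|C| * (2 * t) / ‖w‖ ^ 2) := by
          have := abs_hat_le w j
          have := a1.trans a2
          gcongr
      _ = _ := by ring
  calc _ ≤ ∑ j : Fin 3, ‖(ρ * hat w j) • (M j w - (hat w j / ‖w‖ ^ 2) • c)‖ := norm_sum_le _ _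
    _ ≤ ∑ _j : Fin 3, 2 * |C| * t * (ρ / ‖w‖ ^ 2) := Finset.sum_le_sum fun j _ => h4 j
    _ = _ := by simp; ring

theorem integrable_zeta_smul {D : V3 → X} (hD : Integrable D) (t : ℝ) :
    Integrable (fun w => zeta t w • D w) := by
  refine hD.norm.mono' ((continuous_zeta t).aestronglyMeasurable.smul hD.1)
    (Eventually.of_forall fun w => ?_)
  rw [norm_smul, zeta, Real.norm_of_nonneg (eta_nonneg _)]
  exact mul_le_of_le_one_left (norm_nonneg _) (eta_le_one _)

theorem ae_ne : ∀ᵐ w : V3, w ≠ 0 := by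
  simp [ae_iff]

theorem int_bound [CompleteSpace X] {M : Fin 3 → V3 → X} {c : X} {R C : ℝ}
    (hM : ∀ j, ContDiffOn ℝ 1 (M j) {0}ᶜ) (hR : ∀ j w, R < ‖w‖ → M j w = 0)
    (hC : ∀ j w, w ≠ 0 → ‖w‖ ≤ 1 → ‖M j w - (hat w j / ‖w‖ ^ 2) • c‖ ≤ C / ‖w‖)
    (hD : Integrable (fun w => ∑ j, fderiv ℝ (M j) w (ee j)))
    {t : ℝ} (ht : 0 < t) (ht2 : 2 * t ≤ 1) :
    ‖(∫ w, zeta t w • ∑ j, fderiv ℝ (M j) w (ee j)) + om • c‖ ≤ 6 * |C| * t * om := by
  have i1 : ∀ j, Integrable (fun w => fderiv ℝ (fun w => zeta t w • M j w) w (ee j)) := fun j =>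
    integrable_fderiv (contDiff_cut (hM j) ht) (compact_cut (hR j) t) _
  have i2 := integrable_zeta_smul hD t
  have i3 : Integrable (fun w => psiT t w • c) := (integrable_psiT ht).smul_const c
  have h := norm_integral_le_of_norm_le (μ := (volume : Measure V3))
    ((integrable_psiT ht).const_mul (6 * |C| * t))
    (ae_ne.mono fun w hw => point_bound hM hC ht ht2 hw)
  have i4 : Integrable (fun w => zeta t w • ∑ j, fderiv ℝ (M j) w (ee j) + psiT t w • c) :=
    i2.add i3
  rw [integral_sub (integrable_finsetSum _ fun j _ => i1 j) i4, integral_add i2 i3,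
    integral_finsetSum _ fun j _ => i1 j, integral_smul_const, integral_const_mul,
    integral_psiT ht] at h
  simp only [fun j => integral_fderiv_zero (contDiff_cut (hM j) ht) (compact_cut (hR j) t) (ee j),
    Finset.sum_const_zero, zero_sub, norm_neg] at h
  exact h

theorem tendsto_zeta {D : V3 → X} (hD : Integrable D) :
    Tendsto (fun k : ℕ => ∫ w, zeta (1 / ((k : ℝ) + 1)) w • D w) atTop (𝓝 (∫ w, D w)) := by
  refine tendsto_integral_of_dominated_convergence (fun w => ‖D w‖)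
    (fun k => (integrable_zeta_smul hD _).1) hD.norm
    (fun k => Eventually.of_forall fun w => ?_) (ae_ne.mono fun w hw => ?_)
  · rw [norm_smul, zeta, Real.norm_of_nonneg (eta_nonneg _)]
    exact mul_le_of_le_one_left (norm_nonneg _) (eta_le_one _)
  · have h0 : 0 < ‖w‖ := norm_pos_iff.2 hw
    refine tendsto_const_nhds.congr' ?_
    filter_upwards [(tendsto_one_div_add_atTop_nhds_zero_nat (𝕜 := ℝ)).eventually
      (Iio_mem_nhds (half_pos h0))] with k hk
    have hp : (0 : ℝ) < 1 / ((k : ℝ) + 1) := by positivity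
    have : zeta (1 / ((k : ℝ) + 1)) w = 1 := by
      refine eta_of_two_le ?_
      rw [le_div_iff₀ hp]
      have : 1 / ((k : ℝ) + 1) < ‖w‖ / 2 := hk
      linarith
    rw [this, one_smul]

end

end SIX

open SIX in
theorem sI : SI := by
  refine ⟨om_pos, fun X _ _ _ M c R C hM hR hC hD => ?_⟩
  have h1 := ((tendsto_zeta hD).add_const (om • c)).norm
  have h2 : Tendsto (fun k : ℕ => 6 * |C| * (1 / ((k : ℝ) + 1)) * om) atTop (𝓝 0) := by
    have := ((tendsto_one_div_add_atTop_nhds_zero_nat (𝕜 := ℝ)).const_mul (6 * |C|)).mul_const om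
    simpa using this
  have h3 := le_of_tendsto_of_tendsto h1 h2 (by
    filter_upwards [eventually_ge_atTop 1] with k hk
    have hk' : (1 : ℝ) ≤ k := by exact_mod_cast hk
    refine int_bound hM hR hC hD (by positivity) ?_
    rw [mul_one_div, div_le_one (by positivity)]
    linarith)
  exact eq_neg_of_add_eq_zero_left (norm_le_zero_iff.1 h3)

end Vale.Agent.P107
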