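import Vale.Agent.P107.Basic2

/-! Problem P107, part II: finite speed of propagation of the energy. -/

open MeasureTheory Set Filter Topology Real
open scoped ENNReal RealInnerProductSpace ContDiff

noncomputable section
namespace Vale.Agent.P107

namespace TLX

/-- the cutoff function -/
def psi (R m : ℝ) (p : ℝ × V3) : ℝ := eta (q p.2 - p.1 - R) * (1 - eta (q p.2 + p.1 - m))

theorem contDiff_psi (R m : ℝ) : ContDiff ℝ 1 (psi R m) := by
  have hq : ContDiff ℝ 1 fun p : ℝ × V3 => q p.2 := contDiff_q.comp contDiff_snd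
  have he : ContDiff ℝ 1 eta := contDiff_eta (n := 1)
  exact (he.comp ((hq.sub contDiff_fst).sub contDiff_const)).mul
    (contDiff_const.sub (he.comp ((hq.add contDiff_fst).sub contDiff_const)))

theorem psi_nonneg (R m : ℝ) (p : ℝ × V3) : 0 ≤ psi R m p :=
  mul_nonneg (eta_nonneg _) (sub_nonneg.2 (eta_le_one _))

theorem psi_le_one (R m : ℝ) (p : ℝ × V3) : psi R m p ≤ 1 :=
  mul_le_one₀ (eta_le_one _) (sub_nonneg.2 (eta_le_one _)) (sub_le_self _ (eta_nonneg _))

theorem psi_far {R m σ : ℝ} {y : V3} (hσ : -1 ≤ σ) (hy : m + 3 ≤ ‖y‖) : psi R m (σ, y) = 0 := by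
  have := norm_le_q y
  rw [psi, eta_of_two_le (x := q y + σ - m) (by linarith), sub_self, mul_zero]

theorem psi_near {R m σ : ℝ} {y : V3} (hσ : 0 ≤ σ) (hy : q y ≤ R + 1) : psi R m (σ, y) = 0 := by
  rw [psi, eta_of_le_one (x := q y - σ - R) (by linarith), zero_mul]

theorem dD_psi (R m : ℝ) (p : ℝ × V3) {a : ℝ} {b : V3} (h : ‖b‖ ≤ a) :
    dD (a, b) (psi R m) p ≤ 0 := by
  have hq : HasFDerivAt (fun p : ℝ × V3 => q p.2)
      ((innerSL ℝ (uu p.2)).comp (ContinuousLinearMap.snd ℝ ℝ V3)) p :=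
    (hasFDerivAt_q p.2).comp p hasFDerivAt_snd
  have h1 := (hasDerivAt_eta (q p.2 - p.1 - R)).comp_hasFDerivAt p
    ((hq.sub hasFDerivAt_fst).sub_const R)
  have h2 := ((hasDerivAt_eta (q p.2 + p.1 - m)).comp_hasFDerivAt p
    ((hq.add hasFDerivAt_fst).sub_const m)).const_sub 1
  have e : fderiv ℝ (psi R m) p = _ := (h1.mul h2).fderiv
  have h3 : |⟪uu p.2, b⟫| ≤ a := (abs_real_inner_le_norm _ _).trans
    ((mul_le_of_le_one_left (norm_nonneg _) (norm_uu_le _)).trans h)
  obtain ⟨h4, h5⟩ := abs_le.1 h3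
  have h6 := mul_nonneg (eta_nonneg (q p.2 - p.1 - R))
    (mul_nonneg (deriv_eta_nonneg (q p.2 + p.1 - m)) (show 0 ≤ ⟪uu p.2, b⟫ + a by linarith))
  have h7 := mul_nonneg (sub_nonneg.2 (eta_le_one (q p.2 + p.1 - m)))
    (mul_nonneg (deriv_eta_nonneg (q p.2 - p.1 - R)) (show 0 ≤ a - ⟪uu p.2, b⟫ by linarith))
  rw [dD, e]
  simp only [add_apply, smul_apply, neg_apply, sub_apply, ContinuousLinearMap.comp_apply,
    ContinuousLinearMap.coe_snd', ContinuousLinearMap.coe_fst', innerSL_apply_apply, smul_eq_mul,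
    Function.comp_apply, Pi.sub_apply, Pi.add_apply]
  linarith

theorem integrable_psi {e : V3 → ℝ} (he : Continuous e) (R m : ℝ) {σ : ℝ} (hσ : -1 ≤ σ) :
    Integrable fun y => e y * psi R m (σ, y) := by
  refine Continuous.integrable_of_hasCompactSupport
    (he.mul ((contDiff_psi R m).continuous.comp (continuous_const.prodMk continuous_id))) ?_
  refine HasCompactSupport.intro (isCompact_closedBall (0 : V3) (m + 3)) fun y hy => ?_
  rw [mem_closedBall_zero_iff, not_le] at hy
  rw [psi_far hσ hy.le, mul_zero]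

end TLX

open TLX

theorem tL : TL := by
  intro e S g T R he _ _ hSe hc hg t ht
  have he0 : ∀ σ y, 0 ≤ e σ y := fun σ y => (norm_nonneg _).trans (hSe σ y)
  have hec : ∀ σ, Continuous (e σ) := fun σ =>
    he.comp (continuous_const.prodMk continuous_id)
  have key : ∀ m : ℝ, ∫ y, e t y * psi R m (t, y) ≤ ∫ y, e 0 y * psi R m (0, y) := by
    intro m
    have h1 := hc (psi R m) (m + 3) (contDiff_psi R m) t ht fun σ hσ y hy => psi_far hσ.1 hy
    rw [← sub_nonpos, h1, ← neg_nonneg, ← intervalIntegral.integral_neg]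
    refine intervalIntegral.integral_nonneg ht.1 fun σ hσ => neg_nonneg.2 (integral_nonpos ?_)
    intro y
    have h2 : g σ y * psi R m (σ, y) = 0 := by
      by_cases h0 : g σ y = 0
      · rw [h0, zero_mul]
      · rw [psi_near hσ.1 (hg σ ⟨hσ.1, hσ.2.trans ht.2⟩ y h0), mul_zero]
    have h3 := dD_psi R m (σ, y) (hSe σ y)
    rw [dD_eq] at h3
    show _ ≤ (0 : ℝ)
    beta_reduce
    rw [h2, add_zero]
    exact h3
  have hU : {y : V3 | R + 2 + t ≤ q y} = ⋃ m : ℕ, {y | R + 2 + t ≤ q y ∧ q y + t - m ≤ 1} := by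
    ext y
    simp only [mem_ofPred_eq, mem_iUnion]
    refine ⟨fun h => ?_, fun ⟨_, h⟩ => h.1⟩
    obtain ⟨m, hm⟩ := exists_nat_ge (q y + t)
    exact ⟨m, h, by linarith⟩
  have hmono : Monotone fun m : ℕ => {y : V3 | R + 2 + t ≤ q y ∧ q y + t - m ≤ 1} := by
    intro m m' hm y hy
    have : (m : ℝ) ≤ m' := Nat.cast_le.2 hm
    exact ⟨hy.1, by linarith [hy.2]⟩
  rw [hU, setLIntegral_iUnion_of_directed _ hmono.directed_le]
  refine iSup_le fun m => ?_
  have hA : MeasurableSet {y : V3 | R + 2 + t ≤ q y ∧ q y + t - m ≤ 1} :=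
    ((isClosed_le continuous_const continuous_q).inter
      (isClosed_le ((continuous_q.add continuous_const).sub continuous_const)
        continuous_const)).measurableSet
  have hB : MeasurableSet {y : V3 | R + 1 ≤ q y} :=
    (isClosed_le continuous_const continuous_q).measurableSet
  calc ∫⁻ y in {y : V3 | R + 2 + t ≤ q y ∧ q y + t - m ≤ 1}, ENNReal.ofReal (e t y)
      = ∫⁻ y in {y : V3 | R + 2 + t ≤ q y ∧ q y + t - m ≤ 1},
          ENNReal.ofReal (e t y * psi R m (t, y)) := by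
        refine setLIntegral_congr_fun hA fun y hy => ?_
        rw [psi, eta_of_two_le (x := q y - t - R) (by linarith [hy.1]), eta_of_le_one hy.2,
          sub_zero, mul_one, mul_one]
    _ ≤ ∫⁻ y, ENNReal.ofReal (e t y * psi R m (t, y)) := setLIntegral_le_lintegral _ _
    _ = ENNReal.ofReal (∫ y, e t y * psi R m (t, y)) :=
        (ofReal_integral_eq_lintegral_ofReal (integrable_psi (hec t) R m (by linarith [ht.1]))
          (Eventually.of_forall fun y => mul_nonneg (he0 t y) (psi_nonneg _ _ _))).symm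
    _ ≤ ENNReal.ofReal (∫ y, e 0 y * psi R m (0, y)) := ENNReal.ofReal_le_ofReal (key m)
    _ = ∫⁻ y, ENNReal.ofReal (e 0 y * psi R m (0, y)) :=
        ofReal_integral_eq_lintegral_ofReal (integrable_psi (hec 0) R m (by norm_num))
          (Eventually.of_forall fun y => mul_nonneg (he0 0 y) (psi_nonneg _ _ _))
    _ ≤ ∫⁻ y in {y : V3 | R + 1 ≤ q y}, ENNReal.ofReal (e 0 y) := by
        rw [← lintegral_indicator hB]
        refine lintegral_mono fun y => ?_
        by_cases hy : y ∈ {y : V3 | R + 1 ≤ q y}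
        · rw [indicator_of_mem hy]
          exact ENNReal.ofReal_le_ofReal (mul_le_of_le_one_right (he0 0 y) (psi_le_one _ _ _))
        · rw [psi_near le_rfl (not_le.1 hy).le, mul_zero, ENNReal.ofReal_zero]
          exact zero_le

end Vale.Agent.P107
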