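import Vale.Agent.P107.Basic2

/-! Problem P107: integrals in the momentum variable. -/

open MeasureTheory Set Filter Topology
open scoped ENNReal RealInnerProductSpace ContDiff

noncomputable section
namespace Vale.Agent.P107

namespace VIX

variable {X : Type} [NormedAddCommGroup X] [NormedSpace ℝ X]

omit [NormedSpace ℝ X] in
theorem integ {H : V3 → X} {R : ℝ} (hH : Continuous H) (h0 : ∀ v, R < ‖v‖ → H v = 0) :
    Integrable H :=
  hH.integrable_of_hasCompactSupport (HasCompactSupport.intro (isCompact_closedBall 0 R)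
    fun v hv => h0 v (not_le.1 fun h => hv (mem_closedBall_zero_iff.2 h)))

theorem bnd {H : V3 → X} {R b : ℝ} (h0 : ∀ v, R < ‖v‖ → H v = 0) (hb : 0 ≤ b)
    (h1 : ∀ v, ‖v‖ ≤ R → ‖H v‖ ≤ b) :
    ‖∫ v, H v‖ ≤ (volume.real (Metric.closedBall (0 : V3) R) + 1) * b := by
  rw [← setIntegral_eq_integral_of_forall_compl_eq_zero (s := Metric.closedBall 0 R)
    fun v hv => h0 v (not_le.1 fun h => hv (mem_closedBall_zero_iff.2 h))]
  refine (norm_setIntegral_le_of_norm_le_const (C := b) measure_closedBall_lt_top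
    fun v hv => h1 v (mem_closedBall_zero_iff.1 hv)).trans ?_
  linarith

/-- derivative of the integrand -/
def DD (g : Z → ℝ) (κ : V3 → X) (y v : V3) : V3 →L[ℝ] X :=
  ((fderiv ℝ g (y, v)).comp (ContinuousLinearMap.inl ℝ V3 V3)).smulRight (κ v)

theorem norm_aux (L : Z →L[ℝ] ℝ) (k : X) :
    ‖(L.comp (ContinuousLinearMap.inl ℝ V3 V3)).smulRight k‖ ≤ ‖L‖ * ‖k‖ := by
  refine ContinuousLinearMap.opNorm_le_bound _ (by positivity) fun h => ?_
  have := L.le_opNorm (h, 0)
  rw [Prod.norm_mk, norm_zero, max_eq_left (norm_nonneg h)] at this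
  change ‖L (h, 0) • k‖ ≤ _
  rw [norm_smul, mul_right_comm]
  gcongr

theorem fderiv_zero {g : Z → ℝ} {R : ℝ} (hg : ∀ z, g z ≠ 0 → ‖z.2‖ ≤ R) {z : Z} (hz : R < ‖z.2‖) :
    fderiv ℝ g z = 0 := by
  have h1 : g =ᶠ[𝓝 z] fun _ => 0 := by
    filter_upwards [(isOpen_lt continuous_const continuous_snd.norm).mem_nhds hz] with w hw
    exact by_contra fun h => not_le.2 hw (hg w h)
  rw [h1.fderiv_eq, fderiv_fun_const, Pi.zero_apply]

theorem part2 [CompleteSpace X] {R a : ℝ} {κ : V3 → X} (hκ : Continuous κ) (ha : 0 ≤ a)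
    (hb : ∀ v, ‖v‖ ≤ R → ‖κ v‖ ≤ a) {g : Z → ℝ} {m₀ m₁ m₂ : ℝ} (hg : B3 g m₀ m₁ m₂)
    (hs : ∀ z, g z ≠ 0 → ‖z.2‖ ≤ R) {c : ℝ}
    (hc : c = volume.real (Metric.closedBall (0 : V3) R) + 1) :
    B3 (fun y => ∫ v, g (y, v) • κ v) (c * a * m₀) (c * a * m₁) (c * a * m₂) ∧
      ∀ y h, fderiv ℝ (fun y => ∫ v, g (y, v) • κ v) y h =
        ∫ v, fderiv ℝ g (y, v) (h, 0) • κ v := by
  have h0 := hg.a_nonneg
  have h1 := hg.b_nonneg
  have h2 := hg.c_nonneg
  have cg := hg.continuous
  have cd := hg.continuous_fderiv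
  have z0 : ∀ y v, R < ‖v‖ → g (y, v) • κ v = 0 := fun y v hv => by
    rw [show g (y, v) = 0 from by_contra fun h => not_le.2 hv (hs (y, v) h), zero_smul]
  have z1 : ∀ y v, R < ‖v‖ → DD g κ y v = 0 := fun y v hv => by
    ext h : 1
    simp [DD, fderiv_zero hs (z := (y, v)) hv]
  have c0 : ∀ y, Continuous fun v => g (y, v) • κ v := fun y =>
    ((cg.comp (Continuous.prodMk_right y)).smul hκ :)
  have c1 : ∀ y, Continuous (DD g κ y) := fun y =>
    ((ContinuousLinearMap.smulRightL ℝ V3 X).continuous₂.comp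
      (((cd.comp (Continuous.prodMk_right y)).clm_comp continuous_const).prodMk hκ) :)
  have b1 : ∀ y v, ‖v‖ ≤ R → ‖DD g κ y v‖ ≤ a * m₁ := fun y v hv => by
    refine (norm_aux _ _).trans ?_
    rw [mul_comm]
    exact mul_le_mul (hb v hv) (hg.b1 _) (norm_nonneg _) ha
  have hD : ∀ y, HasFDerivAt (fun y => ∫ v, g (y, v) • κ v) (∫ v, DD g κ y v) y := fun y => by
    refine hasFDerivAt_integral_of_dominated_of_fderiv_le (s := univ) (F' := DD g κ)
      (bound := (Metric.closedBall (0 : V3) R).indicator fun _ => a * m₁) univ_mem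
      (Eventually.of_forall fun y => (c0 y).aestronglyMeasurable) (integ (c0 y) (z0 y))
      (c1 y).aestronglyMeasurable (Eventually.of_forall fun v x _ => ?_)
      ((integrableOn_const measure_closedBall_lt_top.ne).integrable_indicator
        Metric.isClosed_closedBall.measurableSet) (Eventually.of_forall fun v x _ => ?_)
    · by_cases hv : ‖v‖ ≤ R
      · rw [indicator_of_mem (mem_closedBall_zero_iff.2 hv)]
        exact b1 x v hv
      · rw [z1 x v (not_le.1 hv), norm_zero]
        exact indicator_nonneg (fun _ _ => by positivity) v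
    · exact ((hg.diff (x, v)).hasFDerivAt.comp x (hasFDerivAt_prodMk_left x v)).smul_const (κ v)
  refine ⟨⟨fun y => (hD y).differentiableAt, fun y => ?_, fun y => ?_, fun y y' => ?_⟩,
    fun y h => ?_⟩
  · rw [mul_assoc, hc]
    refine bnd (z0 y) (by positivity) fun v hv => ?_
    rw [norm_smul, mul_comm]
    exact mul_le_mul (hb v hv) (hg.b0 _) (norm_nonneg _) ha
  · rw [(hD y).fderiv, mul_assoc, hc]
    exact bnd (z1 y) (by positivity) (b1 y)
  · rw [(hD y).fderiv, (hD y').fderiv, ← integral_sub (integ (c1 y) (z1 y)) (integ (c1 y') (z1 y')),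
      mul_assoc, mul_assoc, hc]
    refine bnd (fun v hv => by rw [z1 y v hv, z1 y' v hv, sub_self]) (by positivity) fun v hv => ?_
    have e : DD g κ y v - DD g κ y' v = ((fderiv ℝ g (y, v) - fderiv ℝ g (y', v)).comp
        (ContinuousLinearMap.inl ℝ V3 V3)).smulRight (κ v) := by
      ext h : 1
      simp [DD, sub_smul]
    have h3 := hg.b2 (y, v) (y', v)
    rw [Prod.mk_sub_mk, sub_self, Prod.norm_mk, norm_zero, max_eq_left (norm_nonneg _)] at h3
    rw [e]
    refine (norm_aux _ _).trans ?_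
    rw [mul_comm]
    exact mul_le_mul (hb v hv) h3 (norm_nonneg _) ha
  · rw [(hD y).fderiv, ContinuousLinearMap.integral_apply (integ (c1 y) (z1 y))]
    rfl

theorem cont (h : VI) {f : ℝ → Z → ℝ} (hf : Reg f) (hs : SpA f) {κ : V3 → X} (hκ : Continuous κ) :
    Continuous fun p : ℝ × V3 => ∫ v, f p.1 (p.2, v) • κ v := by
  refine h.2 (ℝ × V3) X (fun p v => f p.1 (p.2, v) • κ v) ((hf.cont.comp
    (f := fun r : (ℝ × V3) × V3 => (r.1.1, (r.1.2, r.2))) (by fun_prop)).smul
      (hκ.comp continuous_snd)) fun p => ?_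
  obtain ⟨R, hR⟩ := hs (|p.1| + 1)
  refine ⟨R, ?_⟩
  filter_upwards [(isOpen_lt continuous_fst.abs continuous_const).mem_nhds
    (show |p.1| < |p.1| + 1 from lt_add_one _)] with p' hp' v hv
  rw [show f p'.1 (p'.2, v) = 0 from by_contra fun h0 =>
    not_le.2 hv ((norm_snd_le (p'.2, v)).trans (hR _ (le_of_lt hp') _ h0)), zero_smul]

theorem int {f : ℝ → Z → ℝ} (hf : Reg f) (hs : SpA f) {κ : V3 → X} (hκ : Continuous κ) (t : ℝ)
    (y : V3) : Integrable fun v => f t (y, v) • κ v := by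
  obtain ⟨R, hR⟩ := hs |t|
  refine integ (R := R) (((hf.continuous t).comp (Continuous.prodMk_right y)).smul hκ)
    fun v hv => ?_
  rw [show f t (y, v) = 0 from by_contra fun h0 =>
    not_le.2 hv ((norm_snd_le (y, v)).trans (hR _ le_rfl _ h0)), zero_smul]

end VIX

theorem vI : VI := by
  refine ⟨fun R => ⟨volume.real (Metric.closedBall (0 : V3) R) + 1, by positivity,
    fun X _ _ _ κ a hκ ha hb => ⟨fun g m hg hs hm => ?_,
      fun g m₀ m₁ m₂ hg hs => VIX.part2 hκ ha hb hg hs rfl⟩⟩, fun P X _ _ _ _ H hH hs => ?_⟩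
  · have z0 : ∀ v, R < ‖v‖ → g v • κ v = 0 := fun v hv => by
      rw [show g v = 0 from by_contra fun h => not_le.2 hv (hs _ h), zero_smul]
    have h0 : 0 ≤ m := (abs_nonneg _).trans (hm 0)
    refine ⟨VIX.integ (hg.smul hκ) z0, ?_⟩
    rw [mul_assoc]
    refine VIX.bnd z0 (by positivity) fun v hv => ?_
    rw [norm_smul, mul_comm]
    exact mul_le_mul (hb v hv) (hm v) (norm_nonneg _) ha
  · refine continuous_iff_continuousAt.2 fun p => ?_
    obtain ⟨R, hR⟩ := hs p
    exact (continuousOn_integral_of_compact_support (s := {p' | ∀ v, R < ‖v‖ → H p' v = 0})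
      (isCompact_closedBall (0 : V3) R) hH.continuousOn fun p' v hp' hv =>
        hp' v (not_le.1 fun h => hv (mem_closedBall_zero_iff.2 h))).continuousAt hR

theorem denS (h : VI) : DenS := by
  intro f hf hs
  refine ⟨⟨?_, VIX.cont h hf hs continuous_uu, fun T => ?_⟩, VIX.cont h hf hs continuous_q,
    VIX.cont h hf hs continuous_id, fun h0 t y => ?_⟩
  · simpa only [rho, smul_eq_mul, mul_one] using
      VIX.cont h hf hs (continuous_const : Continuous fun _ : V3 => (1 : ℝ))
  · obtain ⟨R, hR⟩ := hs T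
    refine ⟨R + 1, fun t ht y hy => ?_⟩
    have : ∀ v, f t (y, v) = 0 := fun v => by_contra fun h0 => by
      linarith [(norm_fst_le (y, v)).trans (hR _ ht _ h0)]
    simp [rho, cur, this]
  · have i1 : Integrable fun v => f t (y, v) * q v := VIX.int hf hs continuous_q t y
    have i2 : Integrable fun v : V3 => f t (y, v) • v := VIX.int hf hs continuous_id t y
    refine ⟨norm_integral_le_of_norm_le i1 (Eventually.of_forall fun v => ?_), fun w => ?_⟩
    · rw [norm_smul, Real.norm_of_nonneg (h0 _ _)]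
      exact mul_le_mul_of_nonneg_left (norm_le_q v) (h0 _ _)
    · rw [eP, SP, real_inner_comm, ← integral_inner i2, ← integral_sub i1 (i2.const_inner _)]
      refine integral_congr_ae (Eventually.of_forall fun v => ?_)
      have e : ⟪hat w, v⟫ = q v * ⟪hat w, uu v⟫ := by
        rw [← real_inner_smul_right, q_smul_uu]
      simp only [b2]
      rw [real_inner_smul_right, e]
      ring

end Vale.Agent.P107
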