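import Vale.Agent.P107.Basic2

/-! Problem P107, part II: the characteristic vector field. -/

open MeasureTheory Set Filter Topology Real
open scoped ENNReal RealInnerProductSpace ContDiff

noncomputable section
namespace Vale.Agent.P107

namespace VfX

theorem inv_q_le (v : V3) : |(q v)⁻¹| ≤ 1 := by
  rw [abs_of_pos (inv_pos.2 (q_pos v))]
  exact inv_le_one_of_one_le₀ (one_le_q v)

theorem norm_proj_le (v F : V3) : ‖F - ⟪uu v, F⟫ • uu v‖ ≤ 2 * ‖F‖ := by
  have h1 := norm_sub_le F (⟪uu v, F⟫ • uu v)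
  have h2 := abs_real_inner_le_norm (uu v) F
  have h3 := norm_uu_le v
  have h4 := norm_nonneg F
  have h5 := norm_nonneg (uu v)
  rw [norm_smul, Real.norm_eq_abs] at h1
  have h6 : |⟪uu v, F⟫| ≤ ‖F‖ := h2.trans (by nlinarith)
  nlinarith [abs_nonneg ⟪uu v, F⟫]

theorem uu_lip (v v' : V3) : ‖uu v - uu v'‖ ≤ 2 * ‖v - v'‖ :=
  (norm_uu_sub_le v v').trans (div_le_self (by positivity) (one_le_q v))

theorem inv_q_lip (v v' : V3) : |(q v)⁻¹ - (q v')⁻¹| ≤ ‖v - v'‖ := by
  have h1 := q_pos v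
  have h2 := q_pos v'
  have e : (q v)⁻¹ - (q v')⁻¹ = (q v)⁻¹ * (q v')⁻¹ * -(q v - q v') := by
    field_simp
    ring
  rw [e, abs_mul, abs_mul, abs_neg]
  have h3 := mul_le_one₀ (inv_q_le v) (abs_nonneg _) (inv_q_le v')
  exact (mul_le_of_le_one_left (abs_nonneg _) h3).trans (abs_q_sub_le v v')

theorem b3_uu : B3 uu 1 2 6 := by
  refine ⟨(contDiff_uu (n := 1)).differentiable one_ne_zero, norm_uu_le, fun v => ?_,
    fun v v' => ?_⟩
  · refine ContinuousLinearMap.opNorm_le_bound _ (by norm_num) fun F => ?_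
    rw [fderiv_uu_apply, norm_smul, Real.norm_eq_abs]
    exact (mul_le_of_le_one_left (norm_nonneg _) (inv_q_le v)).trans (norm_proj_le v F)
  · refine ContinuousLinearMap.opNorm_le_bound _ (by positivity) fun F => ?_
    have e : (fderiv ℝ uu v - fderiv ℝ uu v') F =
        ((q v)⁻¹ - (q v')⁻¹) • (F - ⟪uu v, F⟫ • uu v) -
          (q v')⁻¹ • (⟪uu v - uu v', F⟫ • uu v + ⟪uu v', F⟫ • (uu v - uu v')) := by
      rw [sub_apply, fderiv_uu_apply, fderiv_uu_apply, inner_sub_left]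
      module
    have h0 := norm_nonneg F
    have h1 : ‖((q v)⁻¹ - (q v')⁻¹) • (F - ⟪uu v, F⟫ • uu v)‖ ≤ ‖v - v'‖ * (2 * ‖F‖) := by
      rw [norm_smul, Real.norm_eq_abs]
      exact mul_le_mul (inv_q_lip v v') (norm_proj_le v F) (norm_nonneg _) (norm_nonneg _)
    have h2 : ‖⟪uu v - uu v', F⟫ • uu v‖ ≤ 2 * ‖v - v'‖ * ‖F‖ := by
      rw [norm_smul, Real.norm_eq_abs]
      refine (mul_le_of_le_one_right (abs_nonneg _) (norm_uu_le v)).trans ?_
      exact (abs_real_inner_le_norm _ _).trans (mul_le_mul_of_nonneg_right (uu_lip v v') h0)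
    have h3 : ‖⟪uu v', F⟫ • (uu v - uu v')‖ ≤ ‖F‖ * (2 * ‖v - v'‖) := by
      rw [norm_smul, Real.norm_eq_abs]
      refine mul_le_mul ((abs_real_inner_le_norm _ _).trans
        (mul_le_of_le_one_left h0 (norm_uu_le v'))) (uu_lip v v') (norm_nonneg _) h0
    have h4 : ‖(q v')⁻¹ • (⟪uu v - uu v', F⟫ • uu v + ⟪uu v', F⟫ • (uu v - uu v'))‖ ≤
        2 * ‖v - v'‖ * ‖F‖ + ‖F‖ * (2 * ‖v - v'‖) := by
      rw [norm_smul, Real.norm_eq_abs]
      exact (mul_le_of_le_one_left (norm_nonneg _) (inv_q_le v')).trans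
        ((norm_add_le _ _).trans (add_le_add h2 h3))
    rw [e]
    refine (norm_sub_le _ _).trans ?_
    linarith

theorem norm_crossL : ‖crossL‖ ≤ 1 := LinearMap.mkContinuous₂_norm_le _ zero_le_one _

theorem b3_vf (F : ℝ → V3 → Z) (t a b c : ℝ) (h : B3 (F t) a b c) :
    B3 (vf F t) (6 * (1 + a)) (6 * (1 + a + b)) (6 * (1 + a + b + c)) := by
  have ha := h.a_nonneg
  have hb := h.b_nonneg
  have hc := h.c_nonneg
  have hU : B3 (fun z : Z => uu z.2) 1 2 6 :=
    b3_uu.comp_clm (by norm_num) (ContinuousLinearMap.snd ℝ V3 V3)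
      (ContinuousLinearMap.norm_snd_le ..)
  have hF : B3 (fun z : Z => F t z.1) a b c :=
    h.comp_clm hc (ContinuousLinearMap.fst ℝ V3 V3) (ContinuousLinearMap.norm_fst_le ..)
  have h3 := (hF.fst hc).add (hU.bilin (hF.snd hc) (by norm_num) crossL norm_crossL)
  exact (hU.mono (by linarith) (by linarith) (by linarith)).prod
    (h3.mono (by linarith) (by linarith) (by linarith))

theorem fderiv_vf (F : ℝ → V3 → Z) (t : ℝ) (z : Z) (h : Differentiable ℝ (F t)) (w : Z) :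
    fderiv ℝ (vf F t) z w = (fderiv ℝ uu z.2 w.2, (fderiv ℝ (F t) z.1 w.1).1 +
      (cross (uu z.2) (fderiv ℝ (F t) z.1 w.1).2 + cross (fderiv ℝ uu z.2 w.2) (F t z.1).2)) := by
  have hU : HasFDerivAt (fun z : Z => uu z.2)
      ((fderiv ℝ uu z.2).comp (ContinuousLinearMap.snd ℝ V3 V3)) z :=
    (b3_uu.diff z.2).hasFDerivAt.comp z hasFDerivAt_snd
  have hF : HasFDerivAt (fun z : Z => F t z.1)
      ((fderiv ℝ (F t) z.1).comp (ContinuousLinearMap.fst ℝ V3 V3)) z :=
    (h z.1).hasFDerivAt.comp z hasFDerivAt_fst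
  have h3 := hU.prodMk (hF.fst.add (crossL.hasFDerivAt_of_bilinear hU hF.snd))
  have e : fderiv ℝ (vf F t) z = _ := h3.fderiv
  rw [e]
  simp

theorem trace_vf (F : ℝ → V3 → Z) (t : ℝ) (z : Z) (h : Differentiable ℝ (F t)) :
    LinearMap.trace ℝ Z (fderiv ℝ (vf F t) z : Z →ₗ[ℝ] Z) = 0 := by
  let b := (EuclideanSpace.basisFun (Fin 3) ℝ).toBasis
  have hb : ∀ i, b i = ee i := fun i => by simp [b, ee]
  have hr : ∀ (x : V3) i, b.repr x i = x i := fun x i => by simp [b]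
  rw [LinearMap.trace_eq_matrix_trace ℝ (b.prod b), Matrix.trace, Fintype.sum_sum_type]
  simp only [Matrix.diag_apply, LinearMap.toMatrix_apply, Module.Basis.prod_repr_inl,
    Module.Basis.prod_repr_inr, ContinuousLinearMap.coe_coe, fderiv_vf F t z h,
    Module.Basis.prod_apply_inl_fst, Module.Basis.prod_apply_inl_snd,
    Module.Basis.prod_apply_inr_fst, Module.Basis.prod_apply_inr_snd, map_zero, hr, hb,
    fderiv_uu_apply, Prod.fst_zero, Prod.snd_zero, cross_zero_right, zero_add,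
    real_inner_comm (ee _), inner_ee]
  simp [Fin.sum_univ_three, ee_apply]
  ring

theorem frc_sub (v : V3) (k k' : Z) : frc v k - frc v k' = frc v (k - k') := by
  unfold frc
  rw [Prod.fst_sub, Prod.snd_sub, cross_sub_right]
  abel

end VfX

open VfX

theorem vF : Vf := by
  refine ⟨6, by norm_num, b3_vf, fun F hF => ⟨?_, fun T => ?_⟩, trace_vf, fun F F' t z => ?_,
    fun F t a b hb ha hl z z' => ?_⟩
  · have h1 : Continuous fun p : ℝ × Z => F p.1 p.2.1 :=
      hF.cont.comp (continuous_fst.prodMk continuous_snd.fst)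
    have h2 : Continuous fun p : ℝ × Z => uu p.2.2 := continuous_uu.comp continuous_snd.snd
    exact h2.prodMk (h1.fst.add (Continuous.cross' h2 h1.snd))
  · obtain ⟨C, hC, h⟩ := hF.bd' T
    exact ⟨6 * (1 + C + C + C), fun t ht =>
      (b3_vf F t C C C (h t ht)).mono (by linarith) (by linarith) le_rfl⟩
  · rw [vf, vf, Prod.mk_sub_mk, sub_self, frc_sub, Prod.norm_mk, norm_zero,
      max_eq_right (norm_nonneg _)]
    exact norm_frc_le _ _
  · have ha0 : 0 ≤ a := (norm_nonneg _).trans (ha 0)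
    have h1 : ‖z.1 - z'.1‖ ≤ ‖z - z'‖ := norm_fst_le (z - z')
    have h2 : ‖z.2 - z'.2‖ ≤ ‖z - z'‖ := norm_snd_le (z - z')
    have h0 := norm_nonneg (z - z')
    have h3 : ‖uu z.2 - uu z'.2‖ ≤ 2 * ‖z - z'‖ := (uu_lip _ _).trans (by linarith)
    have e : frc z.2 (F t z.1) - frc z'.2 (F t z'.1) =
        frc z.2 (F t z.1 - F t z'.1) + cross (uu z.2 - uu z'.2) (F t z'.1).2 := by
      rw [← frc_sub, cross_sub_left]
      unfold frc
      abel
    have h4 : ‖frc z.2 (F t z.1 - F t z'.1)‖ ≤ 2 * (b * ‖z - z'‖) :=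
      (norm_frc_le _ _).trans (mul_le_mul_of_nonneg_left
        ((hl _ _).trans (mul_le_mul_of_nonneg_left h1 hb)) (by norm_num))
    have h5 : ‖cross (uu z.2 - uu z'.2) (F t z'.1).2‖ ≤ 2 * ‖z - z'‖ * a :=
      (norm_cross_le _ _).trans
        (mul_le_mul h3 ((norm_snd_le _).trans (ha _)) (norm_nonneg _) (by positivity))
    have h6 := mul_nonneg ha0 h0
    have h7 := mul_nonneg hb h0
    rw [vf, vf, Prod.mk_sub_mk, Prod.norm_mk, e]
    refine max_le (by nlinarith) ((norm_add_le _ _).trans (by nlinarith))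

end Vale.Agent.P107
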