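import Vale.Agent.P107.Basic2

/-! Problem P107, part II: the solution of the Vlasov equation in a regular field. -/

open MeasureTheory Set Filter Topology
open scoped ENNReal RealInnerProductSpace ContDiff

noncomputable section
namespace Vale.Agent.P107

theorem vlS (hv : Vf) (h1 : Fl1) (h2 : Fl2) (h3 : Fl3) (h4 : Fl4) : VlS := by
  intro f₀ E₀ B₀ hD F hF
  obtain ⟨-, -, -, hv2, hv3, -⟩ := hv
  have ha := hv2 F hF
  have hP := h1 _ ha
  obtain ⟨c1, hc1⟩ := h3 _ ha 0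
  have hf1 : ContDiff ℝ 1 f₀ := hD.f_smooth.of_le (by exact_mod_cast le_top)
  have hf2 : ContDiff ℝ 2 f₀ :=
    hD.f_smooth.of_le (WithTop.coe_le_coe.2 (le_top (a := (2 : ℕ∞))))
  have hc : ContDiff ℝ 1 (fun p : ℝ × Z => ff f₀ F p.1 p.2) := hf1.comp c1
  have hab : ∀ {T t σ : ℝ}, |t| ≤ T → σ ∈ uIcc t 0 → |σ| ≤ T := by
    intro T t σ ht hσ
    obtain ⟨h5, h6⟩ := abs_le.1 ht
    have h7 := (abs_nonneg t).trans ht
    rcases mem_uIcc.1 hσ with h | h <;> exact abs_le.2 ⟨by linarith [h.1], by linarith [h.2]⟩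
  have hcf : Continuous fun p : ℝ × Z => flow (vf F) p.1 0 p.2 :=
    hP.cont.comp (f := fun p : ℝ × Z => (p.1, (0 : ℝ), p.2)) (by fun_prop)
  refine ⟨⟨hc, ⟨hc.continuous, fun T => ?_⟩, fun T => ?_, ?_, fun t z => ?_, fun t z => ?_,
    h4 _ ha fun t z => hv3 F t z (hF.diff t)⟩, ⟨?_, hcf.fst, hcf.snd, hF.cont, fun σ z => ?_,
    fun σ z => ?_⟩⟩
  · obtain ⟨M, hM, hB⟩ := B3.of_compact hf2 hD.f_compact
    obtain ⟨C, hC, hb⟩ := ha.bd' T
    have hC0 : 0 ≤ C := by linarith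
    have hM0 : 0 ≤ M := by linarith
    refine ⟨M + M * Real.exp (C * T) +
      (M * Real.exp (C * T) ^ 2 + M * (Real.exp (3 * (C * T)) * (C * T))), fun t ht => ?_⟩
    have hT : 0 ≤ T := (abs_nonneg t).trans ht
    obtain ⟨hd, h5⟩ := h2 _ ha 0 t
    obtain ⟨h6, h7⟩ := h5 (fun _ => C) (fun _ => C) continuous_const continuous_const
      (fun _ => hC0) (fun _ => hC0) (fun σ hσ => (hb σ (hab ht hσ)).b1)
      (fun σ hσ => (hb σ (hab ht hσ)).b2)
    have h8 : |∫ _σ in t..0, C| ≤ C * T := by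
      rw [intervalIntegral.integral_const, smul_eq_mul, abs_mul, zero_sub, abs_neg,
        abs_of_nonneg hC0, mul_comm]
      gcongr
    have p1 : 0 ≤ M * Real.exp (C * T) := by positivity
    have p2 : 0 ≤ M * Real.exp (C * T) ^ 2 + M * (Real.exp (3 * (C * T)) * (C * T)) := by
      positivity
    refine (hB.comp (b' := Real.exp (C * T)) (c' := Real.exp (3 * (C * T)) * (C * T)) hM0 hd
      (fun x => (h6 x).trans (Real.exp_le_exp.2 h8)) fun x y => (h7 x y).trans ?_).mono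
      (by linarith) (by linarith) (by linarith)
    gcongr
  · obtain ⟨R, hR⟩ := hD.f_compact.isCompact.isBounded.exists_norm_le
    obtain ⟨C, hC, hb⟩ := ha.bd' T
    refine ⟨R + C * T, fun t ht z hz => ?_⟩
    have h5 : ‖flow (vf F) 0 t z‖ ≤ R := hR _ (subset_tsupport _ hz)
    have h6 := (convex_uIcc t 0).norm_image_sub_le_of_norm_hasDerivWithin_le
      (f := fun r => flow (vf F) r t z) (C := C)
      (fun σ _ => (hP.isf.2 σ t z).hasDerivWithinAt) (fun σ hσ => (hb σ (hab ht hσ)).b0 _)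
      right_mem_uIcc left_mem_uIcc
    rw [hP.isf.1, sub_zero, Real.norm_eq_abs] at h6
    have h7 := norm_le_norm_add_norm_sub' z (flow (vf F) 0 t z)
    have h8 : C * |t| ≤ C * T := by gcongr
    linarith
  · funext z
    rw [ff, hP.isf.1]
  · have h5 := ((hf1.differentiable one_ne_zero _).hasFDerivAt.comp (t, z)
      (c1.differentiable one_ne_zero (t, z)).hasFDerivAt).fderiv
    rw [show (fun p : ℝ × Z => ff f₀ F p.1 p.2) =
      f₀ ∘ fun p : ℝ × Z => flow (vf F) 0 p.1 p.2 from rfl, h5, ContinuousLinearMap.comp_apply,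
      hc1, map_zero]
  · rw [ff, hP.comp, hP.isf.1]
  · exact isFiniteMeasure_withDensity_ofReal
      ((hf1.continuous.integrable_of_hasCompactSupport hD.f_compact).div_const om).2
  · exact (ContinuousLinearMap.fst ℝ V3 V3).hasFDerivAt.comp_hasDerivAt σ (hP.isf.2 σ 0 z)
  · exact (ContinuousLinearMap.snd ℝ V3 V3).hasFDerivAt.comp_hasDerivAt σ (hP.isf.2 σ 0 z)

end Vale.Agent.P107
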