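import Vale.Agent.P107.Basic2

/-! Problem P107: quantitative bounds for the solution of the Vlasov equation. -/

open MeasureTheory Set Filter Topology Real
open scoped ENNReal RealInnerProductSpace ContDiff

noncomputable section
namespace Vale.Agent.P107

namespace VlQX

theorem int_le {α β lam t T : ℝ} (hα : 0 ≤ α) (hβ : 0 ≤ β) (hl : 1 ≤ lam) (ht : t ∈ Icc 0 T) :
    |∫ σ in t..0, (α + β * exp (lam * σ))| ≤ α * |T| + β * (exp (lam * t) / lam) := by
  rw [intervalIntegral.integral_symm, abs_neg, abs_of_nonneg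
    (intervalIntegral.integral_nonneg ht.1 fun σ _ => by positivity),
    intervalIntegral.integral_add (by simp) (Continuous.intervalIntegrable (by fun_prop) _ _),
    intervalIntegral.integral_const, intervalIntegral.integral_const_mul, sub_zero, smul_eq_mul,
    mul_comm t]
  have h1 := integral_exp_le (lam := lam) (s := t) (by linarith)
  have h2 := ht.2.trans (le_abs_self T)
  gcongr

theorem const_le {α t T : ℝ} (hα : 0 ≤ α) (ht : t ∈ Icc 0 T) : |∫ _ in t..0, α| ≤ α * |T| := by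
  simpa using int_le hα le_rfl le_rfl ht

theorem mem {σ t T : ℝ} (ht : t ∈ Icc 0 T) (hσ : σ ∈ uIcc t 0) : σ ∈ Icc 0 T := by
  rw [uIcc_of_ge ht.1] at hσ
  exact ⟨hσ.1, hσ.2.trans ht.2⟩

theorem move {X : Type} [NormedAddCommGroup X] [NormedSpace ℝ X] {γ γ' : ℝ → X} {c t T : ℝ}
    (hc : 0 ≤ c) (hd : ∀ σ, HasDerivAt γ (γ' σ) σ) (hb : ∀ σ ∈ Icc 0 t, ‖γ' σ‖ ≤ c)
    (ht : t ∈ Icc 0 T) : ‖γ t‖ ≤ ‖γ 0‖ + c * |T| := by
  have h1 := norm_image_sub_le_of_norm_deriv_le_segment' (a := 0) (b := t)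
    (fun σ _ => (hd σ).hasDerivWithinAt) (fun σ hσ => hb σ (Ico_subset_Icc_self hσ)) t
    ⟨ht.1, le_rfl⟩
  have h2 := mul_le_mul_of_nonneg_left (ht.2.trans (le_abs_self T)) hc
  have h3 := norm_sub_norm_le (γ t) (γ 0)
  rw [sub_zero] at h1
  linarith

theorem q_le (v : V3) : q v ≤ 1 + ‖v‖ := by
  have h1 := q_sq v
  have h2 := norm_nonneg v
  exact (sq_le_sq₀ (q_pos v).le (by positivity)).1 (by nlinarith)

theorem back {a : ℝ → Z → Z} (h : FlP a) (t : ℝ) (z : Z) : flow a t 0 (flow a 0 t z) = z := by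
  rw [h.comp, h.isf.1]

end VlQX

open VlQX in
theorem vlQ (hv : Vf) (h1 : Fl1) (h2 : Fl2) : VlQ := by
  intro f₀ E₀ B₀ hd
  obtain ⟨C₀, hC₀, v1, v2, -, v4, v5⟩ := hv
  obtain ⟨L, hL, hf⟩ := B3.of_compact (hd.f_smooth.of_le (by norm_cast)) hd.f_compact
  obtain ⟨R₀, hR₀⟩ := hd.f_compact.isCompact.isBounded.exists_norm_le
  have hR : ∀ z, f₀ z ≠ 0 → ‖z‖ ≤ R₀ := fun z hz => hR₀ z (subset_tsupport _ hz)
  have hL0 : 0 ≤ L := by linarith
  have hC0 : 0 ≤ C₀ := by linarith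
  refine ⟨⟨L, hL, fun F t z => ⟨hd.f_nonneg _, (le_abs_self _).trans (hf.b0 _)⟩⟩, fun T N => ?_,
    fun T P => ?_, fun T N => ?_, fun T N => ?_, fun T N => ?_⟩
  · refine ⟨1 + (R₀ + (1 + 2 * |N|) * |T|), fun F hF hN => ?_⟩
    have fl := h1 _ (v2 F hF)
    have key : ∀ z, f₀ z ≠ 0 → ∀ t ∈ Icc 0 T,
        ‖flow (vf F) t 0 z‖ ≤ R₀ + (1 + 2 * |N|) * |T| := fun z hz t ht => by
      have h3 := move (γ := fun σ => flow (vf F) σ 0 z) (c := 1 + 2 * |N|) (by positivity)
        (fun σ => fl.isf.2 σ 0 z) (fun σ hσ => ?_) ht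
      · simp only [fl.isf.1] at h3
        linarith [hR z hz]
      · have h4 := (hN σ ⟨hσ.1, hσ.2.trans ht.2⟩ (flow (vf F) σ 0 z).1).trans (le_abs_self N)
        have h5 := abs_nonneg N
        rw [vf, Prod.norm_mk]
        exact max_le (by linarith [norm_uu_le (flow (vf F) σ 0 z).2])
          ((norm_frc_le _ _).trans (by linarith))
    refine ⟨fun t ht z hz => ?_, fun z hz σ hσ => ?_⟩
    · have h3 := key _ hz t ht
      rw [back fl] at h3
      linarith
    · exact (q_le (flow (vf F) σ 0 z).2).trans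
        (by linarith [key z hz σ hσ, norm_snd_le (flow (vf F) σ 0 z)])
  · refine ⟨max (R₀ + 1 * |T|) P, fun F T' hF hT hP t ht z hz => ?_⟩
    have fl := h1 _ (v2 F hF)
    have h3 := move (γ := fun σ => (flow (vf F) σ 0 (flow (vf F) 0 t z)).1) zero_le_one
      (fun σ => (fl.isf.2 σ 0 _).fst) (fun σ _ => norm_uu_le _) ⟨ht.1, ht.2.trans hT⟩
    have h4 : q (flow (vf F) t 0 (flow (vf F) 0 t z)).2 ≤ P := hP _ hz t ht
    simp only [back fl, fl.isf.1] at h3 h4
    rw [Prod.norm_def]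
    exact max_le_max (by linarith [hR _ hz, norm_fst_le (flow (vf F) 0 t z)])
      ((norm_le_q _).trans h4)
  · have hα : 0 ≤ C₀ * (1 + |N|) := by positivity
    refine ⟨L + C₀ * (1 + |N|) * |T| + C₀, by linarith [mul_nonneg hα (abs_nonneg T)],
      fun F A lam hF hN hA hl hlip t ht z z' => ?_⟩
    have h3 := (h1 _ (v2 F hF)).lip (fun σ => C₀ * (1 + |N|) + C₀ * A * exp (lam * σ)) 0 t
      (by fun_prop) (fun σ => by positivity) (fun σ hσ x y => by
        have := v5 F σ |N| (A * exp (lam * σ)) (by positivity)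
          (fun y => (hN σ (mem ht hσ) y).trans (le_abs_self N)) (hlip σ (mem ht hσ)) x y
        rwa [mul_add C₀, ← mul_assoc] at this) z z'
    have h4 := int_le hα (mul_nonneg hC0 hA) hl ht
    have h5 := hf.lip (flow (vf F) 0 t z) (flow (vf F) 0 t z')
    have hX : 0 ≤ A * exp (lam * t) / lam := by positivity
    refine h5.trans ((mul_le_mul ((le_add_of_nonneg_right zero_le_one).trans (add_one_le_exp L))
      (h3.trans (mul_le_mul_of_nonneg_right (exp_le_exp.2 h4) (norm_nonneg _))) (norm_nonneg _)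
      (exp_nonneg _)).trans ?_)
    rw [← mul_assoc, ← exp_add, mul_assoc C₀ A, ← mul_div_assoc]
    refine mul_le_mul_of_nonneg_right (exp_le_exp.2 ?_) (norm_nonneg _)
    have h6 := mul_nonneg hα (abs_nonneg T)
    nlinarith [mul_nonneg hL0 hX, mul_nonneg h6 hX]
  · obtain ⟨α, hα⟩ : ∃ α, α = C₀ * (1 + |N| + |N|) := ⟨_, rfl⟩
    have hα0 : 0 ≤ α := by rw [hα]; positivity
    obtain ⟨b, hb⟩ : ∃ b, b = exp (α * |T|) := ⟨_, rfl⟩
    obtain ⟨c, hc⟩ : ∃ c, c = exp (3 * (α * |T|)) := ⟨_, rfl⟩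
    have hb0 : 0 ≤ b := hb ▸ exp_nonneg _
    have hc0 : 0 ≤ c := hc ▸ exp_nonneg _
    have p1 : 0 ≤ L * b := by positivity
    have p2 : 0 ≤ L * b ^ 2 := by positivity
    have p3 : 0 ≤ L * c * (α * |T|) := by positivity
    have p4 : 0 ≤ L * c * C₀ := by positivity
    refine ⟨L + L * b + L * b ^ 2 + L * c * (α * |T|) + L * c * C₀, by linarith,
      fun F A lam hF hA hl hB t ht => ?_⟩
    obtain ⟨h3, h4⟩ := h2 _ (v2 F hF) 0 t
    have hB' : ∀ σ ∈ uIcc t 0, B3 (vf F σ) (C₀ * (1 + |N|)) α (α + C₀ * A * exp (lam * σ)) :=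
      fun σ hσ => by
        have := v1 F σ _ _ _ ((hB σ (mem ht hσ)).mono (le_abs_self N) (le_abs_self N) le_rfl)
        rwa [mul_add C₀ _ (A * _), ← hα, ← mul_assoc] at this
    obtain ⟨h5, h6⟩ := h4 (fun _ => α) (fun σ => α + C₀ * A * exp (lam * σ)) (by fun_prop)
      (by fun_prop) (fun _ => hα0) (fun σ => by positivity) (fun σ hσ => (hB' σ hσ).b1)
      fun σ hσ => (hB' σ hσ).b2
    have h7 := const_le hα0 ht
    have hX : 0 ≤ A * exp (lam * t) := by positivity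
    have h8 : |∫ σ in t..0, (α + C₀ * A * exp (lam * σ))| ≤ α * |T| + C₀ * (A * exp (lam * t)) := by
      refine (int_le hα0 (mul_nonneg hC0 hA) hl ht).trans ?_
      rw [mul_assoc C₀ A]
      gcongr
      exact div_le_self (exp_nonneg _) hl
    refine (hf.comp hL0 h3 (b' := b) (c' := c * (α * |T| + C₀ * (A * exp (lam * t))))
      (fun x => (h5 x).trans (hb ▸ exp_le_exp.2 h7)) fun x y => (h6 x y).trans ?_).mono
      (by linarith) (by linarith) ?_
    · rw [hc]
      gcongr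
    · nlinarith [mul_nonneg hL0 hX, mul_nonneg p1 hX, mul_nonneg p2 hX, mul_nonneg p3 hX]
  · have hα : 0 ≤ C₀ * (1 + |N| + |N|) := by positivity
    have he := one_le_exp (mul_nonneg hα (abs_nonneg T))
    refine ⟨L * (exp (C₀ * (1 + |N| + |N|) * |T|) * 2), by nlinarith,
      fun F F' A lam hF hF' hA hl hB hFF t ht z => ?_⟩
    have h3 := (h1 _ (v2 F hF)).stab (vf F') (fun _ => C₀ * (1 + |N| + |N|))
      (fun σ => 0 + 2 * A * exp (lam * σ)) 0 t (v2 F' hF') (by fun_prop) (by fun_prop)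
      (fun _ => hα) (fun σ => by positivity) (fun σ hσ => (v1 F σ _ _ _
        ((hB σ (mem ht hσ)).mono (le_abs_self N) (le_abs_self N) le_rfl)).lip)
      (fun σ hσ x => (v4 F F' σ x).trans (by linarith [hFF σ (mem ht hσ) x.1])) z
    have h4 := const_le hα ht
    have h5 : |∫ σ in t..0, (0 + 2 * A * exp (lam * σ))| ≤ 2 * (A * exp (lam * t)) := by
      refine (int_le le_rfl (by positivity) hl ht).trans ?_
      rw [zero_mul, zero_add, mul_assoc]
      gcongr
      exact div_le_self (exp_nonneg _) hl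
    refine (hf.lip (flow (vf F) 0 t z) (flow (vf F') 0 t z)).trans ?_
    rw [mul_assoc L, mul_assoc (exp _)]
    refine mul_le_mul_of_nonneg_left (h3.trans ?_) hL0
    gcongr

end Vale.Agent.P107
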