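import Vale.Agent.P107.Basic2

/-! Problem P107: from weak to pointwise identities. -/

open MeasureTheory Set Filter Topology
open scoped ENNReal RealInnerProductSpace ContDiff

noncomputable section
namespace Vale.Agent.P107

namespace WTX
variable {X : Type} [NormedAddCommGroup X] [NormedSpace ℝ X]

theorem haar : (volume : Measure (ℝ × V3)).IsAddHaarMeasure :=
  Measure.prod.instIsAddHaarMeasure (volume : Measure ℝ) (volume : Measure V3)

theorem full {F : ℝ × V3 → X} (h : ∀ p : ℝ × V3, p.1 ≤ 0 → F p = 0) :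
    ∫ p in Hs, F p = ∫ p, F p :=
  setIntegral_eq_integral_of_forall_compl_eq_zero fun p hp => h p (not_lt.1 hp)

theorem intg {φ : ℝ × V3 → ℝ} (hφ : Test φ) {H : ℝ × V3 → X} (hH : Continuous H) :
    Integrable fun p => φ p • H p := by
  have := haar
  exact (hφ.smooth.continuous.smul hH).integrable_of_hasCompactSupport hφ.compact.smul_right

theorem part1 [FiniteDimensional ℝ X] {h : ℝ × V3 → X} (hh : Continuous h)
    (h0 : ∀ φ, Test φ → ∫ p, φ p • h p = 0) (p : ℝ × V3) (hp : 0 ≤ p.1) : h p = 0 := by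
  have := haar
  have : CompleteSpace X := FiniteDimensional.complete ℝ X
  have hU : IsOpen Hs := isOpen_lt continuous_const continuous_fst
  have h1 := hU.ae_eq_zero_of_integral_contDiff_smul_eq_zero (μ := volume)
    (hh.locallyIntegrable.locallyIntegrableOn _) fun g h1 h2 h3 => h0 g ⟨h1, h2, h3⟩
  have h2 : EqOn h (fun _ => 0) Hs := Measure.eqOn_open_of_ae_eq (μ := volume)
    ((ae_restrict_iff' hU.measurableSet).2 h1) hU hh.continuousOn continuousOn_const
  refine h2.closure hh continuous_const ?_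
  have e : Hs = Ioi (0 : ℝ) ×ˢ (univ : Set V3) := by ext q; simp [Hs]
  rw [e, closure_prod_eq, closure_Ioi]
  exact ⟨hp, subset_closure (mem_univ _)⟩

theorem shift {φ : ℝ × V3 → ℝ} (hφ : Test φ) {s : ℝ} (hs : 0 ≤ s) :
    Test fun p => φ (p - s • (1, 0)) := by
  refine ⟨hφ.smooth.comp (contDiff_id.sub contDiff_const),
    hφ.compact.comp_homeomorph (Homeomorph.subRight (s • ((1 : ℝ), (0 : V3)))), fun p hp => ?_⟩
  have h1 := tsupport_comp_subset_preimage φ
    (f := fun p : ℝ × V3 => p - s • ((1 : ℝ), (0 : V3))) (by fun_prop) hp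
  have h2 := hφ.pos h1
  simp only [mem_ofPred_eq, Prod.fst_sub, Prod.smul_fst, smul_eq_mul, mul_one] at h2 ⊢
  linarith

theorem deriv_shift {φ : ℝ × V3 → ℝ} (hφ : Test φ) {H : ℝ × V3 → X} (hH : Continuous H) (s₀ : ℝ) :
    HasDerivAt (fun s : ℝ => ∫ p, φ (p - s • (1, 0)) • H p)
      (∫ p, -(dt φ (p - s₀ • (1, 0)) • H p)) s₀ := by
  have := haar
  have hd := hφ.dD (1, 0)
  obtain ⟨M, hM⟩ := hd.smooth.continuous.bounded_above_of_compact_support hd.compact
  let K : Set (ℝ × V3) := (fun q : (ℝ × V3) × ℝ => q.1 + q.2 • ((1 : ℝ), (0 : V3))) ''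
    (tsupport (dt φ) ×ˢ Metric.closedBall s₀ 1)
  have hK : IsCompact K := (hd.compact.isCompact.prod (isCompact_closedBall _ _)).image (by fun_prop)
  have hc : ∀ s : ℝ, Continuous fun p : ℝ × V3 => p - s • ((1 : ℝ), (0 : V3)) := fun s => by
    fun_prop
  refine (hasDerivAt_integral_of_dominated_loc_of_deriv_le (Metric.closedBall_mem_nhds s₀ one_pos)
    (F' := fun s p => -(dt φ (p - s • (1, 0)) • H p))
    (bound := K.indicator fun p => M * ‖H p‖) (Eventually.of_forall fun s =>
      ((hφ.smooth.continuous.comp (hc s)).smul hH).aestronglyMeasurable) ?_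
    ((hd.smooth.continuous.comp (hc s₀)).smul hH).neg.aestronglyMeasurable
    (Eventually.of_forall fun p s hs => ?_) ?_ (Eventually.of_forall fun p s _ => ?_)).2
  · exact ((hφ.smooth.continuous.comp (hc s₀)).smul hH).integrable_of_hasCompactSupport
      (hφ.compact.comp_homeomorph (Homeomorph.subRight (s₀ • ((1 : ℝ), (0 : V3))))).smul_right
  · by_cases hp : p ∈ K
    · rw [indicator_of_mem hp, norm_neg, norm_smul]
      exact mul_le_mul_of_nonneg_right (hM _) (norm_nonneg _)
    · rw [indicator_of_notMem hp]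
      have h0 : dt φ (p - s • (1, 0)) = 0 := image_eq_zero_of_notMem_tsupport fun h =>
        hp ⟨(p - s • (1, 0), s), ⟨h, hs⟩, sub_add_cancel _ _⟩
      rw [h0, zero_smul, neg_zero, norm_zero]
  · exact (integrable_indicator_iff hK.measurableSet).2
      ((continuous_const.mul hH.norm).continuousOn.integrableOn_compact hK)
  · have h1 : HasDerivAt (fun s : ℝ => p - s • ((1 : ℝ), (0 : V3))) (-((1 : ℝ), (0 : V3))) s := by
      simpa using ((hasDerivAt_id s).smul_const ((1 : ℝ), (0 : V3))).const_sub p
    have h2 := (((hφ.smooth.differentiable (by simp)) _).hasFDerivAt.comp_hasDerivAt s h1).smul_const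
      (H p)
    rw [map_neg, neg_smul] at h2
    exact h2

end WTX

open WTX in
theorem wT : WT := by
  intro X _ _ _
  have := haar
  have : CompleteSpace X := FiniteDimensional.complete ℝ X
  refine ⟨fun h hh h0 => part1 hh fun φ hφ => ?_, fun K G hK hG h0 t ht x => ?_⟩
  · rw [← full fun p hp => by rw [hφ.zero_of_nonpos hp, zero_smul]]
    exact h0 φ hφ
  let Γ : ℝ × V3 → X := fun p => ∫ σ in (0 : ℝ)..p.1, G (σ, p.2)
  have hΓ : Continuous Γ := intervalIntegral.continuous_parametric_intervalIntegral_of_continuous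
    (f := fun (p : ℝ × V3) σ => G (σ, p.2)) (by fun_prop) continuous_fst
  let H : ℝ × V3 → X := fun p => K p - Γ p
  have hH : Continuous H := hK.sub hΓ
  have hA : ∀ φ, Test φ → ∫ p, dt φ p • H p = 0 := by
    intro φ hφ
    have hd : Test (dt φ) := hφ.dD _
    have h1 := h0 φ hφ
    rw [full fun p hp => by
      rw [hφ.zero_of_nonpos hp, hd.zero_of_nonpos hp, zero_smul, zero_smul, add_zero],
      integral_add (intg hd hK) (intg hφ hG)] at h1
    have h2 : ∫ p, φ p • G p = -∫ p, dt φ p • Γ p :=
      integral_bilinear_hasLineDerivAt_right_eq_neg_left_of_integrable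
        (B := ContinuousLinearMap.lsmul ℝ ℝ) (v := ((1 : ℝ), (0 : V3))) (intg hd hΓ) (intg hφ hG)
        (intg hφ hΓ)
        (fun p _ => ((hφ.smooth.differentiable (by simp)) p).hasFDerivAt.hasLineDerivAt _)
        fun p _ => by
          have hc : Continuous fun σ : ℝ => G (σ, p.2) := by fun_prop
          have h3 := (hc.integral_hasStrictDerivAt 0 p.1).hasDerivAt
          have h4 := HasDerivAt.comp_const_add p.1 0 (by rwa [add_zero])
          simpa [HasLineDerivAt, Γ] using h4
    simp only [H, smul_sub]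
    rw [integral_sub (intg hd hK) (intg hd hΓ), sub_eq_add_neg, ← h2, h1]
  have hB : ∀ φ, Test φ → ∫ p, φ p • (H (p + t • (1, 0)) - H p) = 0 := by
    intro φ hφ
    have h1 := constant_of_has_deriv_right_zero (a := 0) (b := t)
      (f := fun s : ℝ => ∫ p, φ (p - s • (1, 0)) • H p)
      (fun s _ => (deriv_shift hφ hH s).continuousAt.continuousWithinAt) (fun s hs => by
        have h2 := deriv_shift hφ hH s
        have h3 := hA _ (shift hφ hs.1)
        have h4 : dt (fun p => φ (p - s • (1, 0))) = fun p => dt φ (p - s • (1, 0)) := by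
          funext p
          simp only [dt, dD, fderiv_comp_sub]
        rw [h4] at h3
        rw [integral_neg, h3, neg_zero] at h2
        exact h2.hasDerivWithinAt) t ⟨ht, le_rfl⟩
    simp only [zero_smul, sub_zero] at h1
    rw [← integral_add_right_eq_self _ (t • ((1 : ℝ), (0 : V3)))] at h1
    simp only [add_sub_cancel_right] at h1
    have hc : Continuous fun p : ℝ × V3 => H (p + t • (1, 0)) := hH.comp (by fun_prop)
    simp only [smul_sub]
    rw [integral_sub (intg hφ hc) (intg hφ hH), h1, sub_self]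
  have h1 := part1 ((hH.comp (by fun_prop)).sub hH) hB (0, x) le_rfl
  rw [← sub_eq_iff_eq_add]
  simpa [H, Γ, sub_eq_zero] using h1

end Vale.Agent.P107
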