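import Vale.Agent.P107.Basic2

/-! Problem P107: the weak form of the Vlasov equation. -/

open MeasureTheory Set Filter Topology
open scoped ENNReal RealInnerProductSpace ContDiff

noncomputable section
namespace Vale.Agent.P107

namespace WVX
variable {X : Type} [NormedAddCommGroup X] [NormedSpace ℝ X]

theorem int_slice {f : ℝ → Z → ℝ} (hf : Continuous fun p : ℝ × Z => f p.1 p.2) (hs : SpA f)
    (t : ℝ) {H : Z → X} (hH : Continuous H) : Integrable fun z => f t z • H z := by
  obtain ⟨R, hR⟩ := hs |t|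
  refine Continuous.integrable_of_hasCompactSupport
    ((hf.comp (Continuous.prodMk_right t)).smul hH)
    (HasCompactSupport.intro (isCompact_closedBall (0 : Z) R) fun z hz => ?_)
  have : f t z = 0 := by
    by_contra h
    exact hz (mem_closedBall_zero_iff.2 (hR t le_rfl z h))
  rw [this, zero_smul]

theorem int_v {f : ℝ → Z → ℝ} (hf : Continuous fun p : ℝ × Z => f p.1 p.2) (hs : SpA f)
    (t : ℝ) (y : V3) {H : V3 → X} (hH : Continuous H) : Integrable fun v => f t (y, v) • H v := by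
  obtain ⟨R, hR⟩ := hs |t|
  refine Continuous.integrable_of_hasCompactSupport
    ((hf.comp (f := fun v => (t, (y, v))) (by fun_prop)).smul hH)
    (HasCompactSupport.intro (isCompact_closedBall (0 : V3) R) fun v hv => ?_)
  have : f t (y, v) = 0 := by
    by_contra h
    exact hv (mem_closedBall_zero_iff.2 ((norm_snd_le (y, v)).trans (hR t le_rfl _ h)))
  rw [this, zero_smul]

theorem transport {f₀ : Z → ℝ} {F : ℝ → V3 → Z} (h : Vl f₀ F) (t : ℝ) {H : Z → X}
    (hH : Continuous H) :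
    ∫ y, ∫ v, ff f₀ F t (y, v) • H (y, v) = ∫ z, f₀ z • H (flow (vf F) t 0 z) := by
  have hc : Continuous fun z => ff f₀ F t z • H z := (h.reg.continuous t).smul hH
  rw [← integral_prod (fun z => ff f₀ F t z • H z) (int_slice h.reg.cont h.spa t hH)]
  have := integral_map (μ := (volume : Measure Z)) (h.mp t 0).measurable.aemeasurable
    hc.aestronglyMeasurable
  rw [(h.mp t 0).map_eq] at this
  simp only [h.back] at this
  exact this

theorem part1 [CompleteSpace X] {f₀ : Z → ℝ} {F : ℝ → V3 → Z} (h : Vl f₀ F) (ha : Reg (vf F))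
    (hp : FlP (vf F)) (hc : Continuous f₀) (hs : HasCompactSupport f₀) {χ : ℝ × Z → X}
    (hχ : ContDiff ℝ 1 χ) (t : ℝ) :
    (∫ y, ∫ v, ff f₀ F t (y, v) • χ (t, (y, v))) - ∫ y, ∫ v, f₀ (y, v) • χ (0, (y, v)) =
      ∫ σ in (0 : ℝ)..t, ∫ y, ∫ v,
        ff f₀ F σ (y, v) • fderiv ℝ χ (σ, (y, v)) (1, vf F σ (y, v)) := by
  have hD : Continuous fun p : ℝ × Z => fderiv ℝ χ p (1, vf F p.1 p.2) :=
    (hχ.continuous_fderiv one_ne_zero).clm_apply (continuous_const.prodMk ha.cont)
  have hΦ : Continuous fun p : ℝ × Z => (p.1, flow (vf F) p.1 0 p.2) :=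
    continuous_fst.prodMk (hp.cont.comp (f := fun p : ℝ × Z => (p.1, (0 : ℝ), p.2)) (by fun_prop))
  have hk : Continuous fun p : ℝ × Z => fderiv ℝ χ (p.1, flow (vf F) p.1 0 p.2)
      (1, vf F p.1 (flow (vf F) p.1 0 p.2)) := hD.comp hΦ
  have hi : ∀ {H : Z → X}, Continuous H → Integrable fun z => f₀ z • H z := fun hH =>
    (hc.smul hH).integrable_of_hasCompactSupport hs.smul_right
  have e1 := transport h t (H := fun z => χ (t, z)) (hχ.continuous.comp (by fun_prop))
  have e2 := transport h 0 (H := fun z => χ (0, z)) (hχ.continuous.comp (by fun_prop))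
  have e3 : ∀ σ, ∫ y, ∫ v, ff f₀ F σ (y, v) • fderiv ℝ χ (σ, (y, v)) (1, vf F σ (y, v)) = _ :=
    fun σ => transport h σ (H := fun z => fderiv ℝ χ (σ, z) (1, vf F σ z))
      (hD.comp (Continuous.prodMk_right σ))
  rw [h.init] at e2
  simp only [e3]
  have hi' : ∀ σ, Integrable fun z => f₀ z • χ (σ, flow (vf F) σ 0 z) := fun σ =>
    hi ((hχ.continuous.comp hΦ).comp (Continuous.prodMk_right σ))
  rw [e1, e2, ← integral_sub (hi' t) (hi' 0), intervalIntegral_integral_swap]
  · refine integral_congr_ae (Eventually.of_forall fun z => ?_)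
    simp only
    rw [intervalIntegral.integral_smul, ← smul_sub]
    refine congrArg _ (intervalIntegral.integral_eq_sub_of_hasDerivAt
      (f := fun σ => χ (σ, flow (vf F) σ 0 z)) (fun σ _ => ?_)
      ((hk.comp (Continuous.prodMk_left z)).intervalIntegrable _ _)).symm
    exact (hχ.differentiable one_ne_zero _).hasFDerivAt.comp_hasDerivAt σ
      ((hasDerivAt_id σ).prodMk (hp.isf.2 σ 0 z))
  · rw [← Measure.restrict_univ (μ := (volume : Measure Z)), Measure.prod_restrict]
    refine (((hc.comp continuous_snd).smul hk).continuousOn.integrableOn_compact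
      (isCompact_uIcc (a := 0) (b := t).prod hs.isCompact)).of_forall_sdiff_eq_zero
      (measurableSet_uIoc.prod MeasurableSet.univ) fun p hp => ?_
    have : f₀ p.2 = 0 := image_eq_zero_of_notMem_tsupport fun h' =>
      hp.2 ⟨uIoc_subset_uIcc hp.1.1, h'⟩
    simp [this]

theorem fderiv_zero {Y : Type} [NormedAddCommGroup Y] [NormedSpace ℝ Y] {χ : ℝ × Y → X} {T : ℝ}
    (h : ∀ p : ℝ × Y, T < p.1 → χ p = 0) {p : ℝ × Y} (hp : T < p.1) : fderiv ℝ χ p = 0 := by
  have : χ =ᶠ[𝓝 p] fun _ => 0 := by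
    filter_upwards [(isOpen_lt continuous_const continuous_fst).mem_nhds hp] with r hr using h r hr
  rw [this.fderiv_eq]
  simp

theorem int_Hs {f : ℝ → Z → ℝ} (hf : Continuous fun p : ℝ × Z => f p.1 p.2) (hs : SpA f)
    {H : ℝ × Z → X} (hH : Continuous H) {T : ℝ} (hT : ∀ p : ℝ × Z, T < p.1 → H p = 0) :
    IntegrableOn (fun p : ℝ × V3 => ∫ v, f p.1 (p.2, v) • H (p.1, (p.2, v))) Hs := by
  obtain ⟨R, hR⟩ := hs |T|
  refine Integrable.integral_prod_left
    (f := fun r : (ℝ × V3) × V3 => f r.1.1 (r.1.2, r.2) • H (r.1.1, (r.1.2, r.2))) ?_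
  have hc : Continuous fun r : (ℝ × V3) × V3 => (r.1.1, (r.1.2, r.2)) := by fun_prop
  rw [← Measure.restrict_univ (μ := (volume : Measure V3)), Measure.prod_restrict]
  refine (((hf.comp hc).smul (hH.comp hc)).continuousOn.integrableOn_compact
    (((isCompact_Icc (a := 0) (b := T)).prod (isCompact_closedBall (0 : V3) R)).prod
      (isCompact_closedBall (0 : V3) R))).of_forall_sdiff_eq_zero
    (measurableSet_Hs.prod MeasurableSet.univ) fun r hr => ?_
  have h0 : 0 < r.1.1 := hr.1.1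
  rcases lt_or_ge T r.1.1 with h | h
  · simp [hT (r.1.1, (r.1.2, r.2)) h]
  · have : f r.1.1 (r.1.2, r.2) = 0 := by
      by_contra h'
      have h1 := hR r.1.1 (by rw [abs_of_pos h0]; exact h.trans (le_abs_self T)) _ h'
      exact hr.2 ⟨⟨⟨h0.le, h⟩, mem_closedBall_zero_iff.2 ((norm_fst_le (r.1.2, r.2)).trans h1)⟩,
        mem_closedBall_zero_iff.2 ((norm_snd_le (r.1.2, r.2)).trans h1)⟩
    simp [this]

theorem integral_Hs {g : ℝ × V3 → X} (hg : IntegrableOn g Hs) {T : ℝ} (h0 : 0 ≤ T)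
    (hT : ∀ p : ℝ × V3, T < p.1 → g p = 0) :
    ∫ p in Hs, g p = ∫ σ in (0 : ℝ)..T, ∫ y, g (σ, y) := by
  have e : Hs = Ioi (0 : ℝ) ×ˢ (univ : Set V3) := by
    ext p
    simp [Hs]
  rw [e] at hg ⊢
  refine (setIntegral_prod g hg).trans ?_
  rw [Measure.restrict_univ, intervalIntegral.integral_of_le h0]
  refine setIntegral_eq_of_subset_of_forall_sdiff_eq_zero measurableSet_Ioi Ioc_subset_Ioi_self
    fun t ht => ?_
  have : T < t := not_le.1 fun h => ht.2 ⟨ht.1, h⟩
  simp [fun y => hT (t, y) this]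

end WVX

open WVX in
theorem wV (hv : Vf) (h1 : Fl1) (hl : VlS) : WV := by
  intro f₀ E₀ B₀ hd F hF X _ _ _ χ hχ
  obtain ⟨C, -, -, h2, -⟩ := hv
  have h := (hl f₀ E₀ B₀ hd F hF).1
  have ha := h2 F hF
  have p1 := part1 h ha (h1 _ ha) hd.f_smooth.continuous hd.f_compact hχ
  refine ⟨p1, fun T hT => ?_⟩
  have hD : Continuous fun p : ℝ × Z => fderiv ℝ χ p (1, vf F p.1 p.2) :=
    (hχ.continuous_fderiv one_ne_zero).clm_apply (continuous_const.prodMk ha.cont)
  have hi := int_Hs h.reg.cont h.spa hD (T := T) fun p hp => by simp [fderiv_zero hT hp]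
  have hT' : T < |T| + 1 := by linarith [le_abs_self T]
  refine ⟨hi, ?_⟩
  rw [integral_Hs hi (T := |T| + 1) (by positivity) fun p hp => by
    simp [fun v => fderiv_zero hT (p := (p.1, (p.2, v))) (hT'.trans hp)], ← p1]
  simp [fun z => hT (|T| + 1, z) hT']

open WVX in
theorem wCS (hd : DenS) (hl : VlS) (hw : WV) : WCS := by
  intro f₀ E₀ B₀ hD F hF χ T hχ hT
  have h := (hl f₀ E₀ B₀ hD F hF).1
  let L : ℝ × Z →L[ℝ] ℝ × V3 := (ContinuousLinearMap.id ℝ ℝ).prodMap (ContinuousLinearMap.fst ℝ _ _)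
  have h1 := ((hw f₀ E₀ B₀ hD F hF ℝ (fun p => χ (L p)) (hχ.comp L.contDiff)).2 T
    fun p hp => hT _ hp).2
  have e : ∀ (p : ℝ × V3) (v : V3), fderiv ℝ (fun p => χ (L p)) (p.1, (p.2, v))
      (1, vf F p.1 (p.2, v)) = dt χ p + ⟪gx χ p, uu v⟫ := fun p v => by
    have := ((hχ.differentiable one_ne_zero (L (p.1, (p.2, v)))).hasFDerivAt.comp _
      L.hasFDerivAt).fderiv
    rw [show (fun p => χ (L p)) = χ ∘ L from rfl, this, real_inner_comm, ← one_mul (dt χ p),
      ← dD_eq]
    rfl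
  have e2 : ∀ p : ℝ × V3, ∫ v, ff f₀ F p.1 (p.2, v) • (dt χ p + ⟪gx χ p, uu v⟫) =
      rho (ff f₀ F p.1) p.2 * dt χ p + ⟪cur (ff f₀ F p.1) p.2, gx χ p⟫ := fun p => by
    simp only [smul_add]
    rw [integral_add (int_v h.reg.cont h.spa _ _ continuous_const)
      (int_v h.reg.cont h.spa _ _ (by fun_prop)), integral_smul_const, real_inner_comm, cur,
      ← integral_inner (int_v h.reg.cont h.spa _ _ continuous_uu)]
    simp only [real_inner_smul_right, smul_eq_mul, rho]
  simp only [e, e2] at h1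
  rw [h1, h.init]
  exact congrArg Neg.neg (integral_congr_ae (Eventually.of_forall fun y =>
    integral_smul_const (fun v => f₀ (y, v)) (χ (0, y))))

end Vale.Agent.P107
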