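import Vale.Agent.P107.MainI
import Vale.Agent.P107.Gr
import Vale.Agent.P107.ContD
import Vale.Agent.P107.JC1
import Vale.Agent.P107.Clamp
import Vale.Agent.P107.Pol
import Vale.Agent.P107.O1
import Vale.Agent.P107.VI
import Vale.Agent.P107.SI
import Vale.Agent.P107.Ibp
import Vale.Agent.P107.WT
import Vale.Agent.P107.Fl1
import Vale.Agent.P107.Fl2
import Vale.Agent.P107.Fl3
import Vale.Agent.P107.Fl4
import Vale.Agent.P107.Vf
import Vale.Agent.P107.Vl
import Vale.Agent.P107.VlQ
import Vale.Agent.P107.KL
import Vale.Agent.P107.O2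
import Vale.Agent.P107.DatP
import Vale.Agent.P107.HDr
import Vale.Agent.P107.E0
import Vale.Agent.P107.CI
import Vale.Agent.P107.RepL
import Vale.Agent.P107.E1f
import Vale.Agent.P107.E1
import Vale.Agent.P107.AdvP
import Vale.Agent.P107.Fund
import Vale.Agent.P107.KD
import Vale.Agent.P107.Chi
import Vale.Agent.P107.KI
import Vale.Agent.P107.RF
import Vale.Agent.P107.WV
import Vale.Agent.P107.HP
import Vale.Agent.P107.DP
import Vale.Agent.P107.GP
import Vale.Agent.P107.M7a
import Vale.Agent.P107.M7b
import Vale.Agent.P107.M7c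
import Vale.Agent.P107.M8
import Vale.Agent.P107.N1
import Vale.Agent.P107.TL
import Vale.Agent.P107.CF
import Vale.Agent.P107.EnS
import Vale.Agent.P107.L2S
import Vale.Agent.P107.GoodS
import Vale.Agent.P107.FP1
import Vale.Agent.P107.FP2
import Vale.Agent.P107.Glob

/-! Problem P107: assembly of the existence theory. -/

namespace Vale.Agent.P107

theorem global_existence : Final := by
  have o1' := o1 contD pol
  have den := denS vI
  have f1 := fl1 gr ode
  have f2 := fl2 gr ode contD f1
  have f3 := fl3 contD jC1 f1 f2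
  have f4 := fl4 f1 f3
  have vl := vlS vF f1 f2 f3 f4
  have vq := vlQ vF f1 f2
  have o2' := o2 vI kL
  have hd := hDr o1' o2' vI kL datP vl
  have he0 := e0 pol o2' hd vl vq
  have hes := eSt pol o1' o2' hd vl vq
  have he2 := e2 pol o1' o2' hd vl vq
  have hci := cI ret1 sI vF f1 f3 vl
  have hrep := repL ret1 sI pol kL vl vq hci
  have he1f := e1f ret1 phase pol lWL
  have he1 := e1 sI pol o1' o2' hd vl vq hrep he1f
  have hadv := advP pol
  have hfund := fund sI pol hadv
  have hchi := chiS pol kD
  have hki := kI sI pol hadv kD hchi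
  have hdp1 := dP1 sI pol kD hchi
  have hrf := rF pol o1'
  have hwv := wV vF f1 vl
  have hwc := wCS den vl hwv
  have hhp := hP sI ibp contD datP hd hadv hfund hrf
  have hdp := dP sI pol ibp vI kL hd hchi hdp1 hrf
  have hgp := gP sI pol ibp kL den vl hd hadv hchi hki hrf hwv
  have hpair := pairS ibp hd o1' hhp hdp hgp
  have hmax := maxS den vl hd hpair hwc (m7a ibp datP hadv hfund) (m7b ibp datP hadv hfund)
    (m7c ibp datP hadv hfund) (m8 contD jC1 ibp wT)
  have he1t := e1t vI hd vl vq hmax
  have hn1 := n1 contD ibp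
  have hen := enS den vl vq hd hmax hn1 (n2 vl hwv) tL cF
  have hgood := goodS sI den vl vq hd hrep hen
  have hapr := apr momentum_bound vq hd hgood he0
  have hfp1 := fP1 clC vq hd he0 he1 he1t he2
  have hfp2 := fP2 lim clC hd hes hfp1
  exact final vl vq den hd hmax (l2S hn1 tL) (glob clamp clC vq hd he1t hapr hfp2)

end Vale.Agent.P107
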