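import Vale.Agent.P107.Basic2

/-! Problem P107: bounds for the Glassey-Strauss source kernel. -/

open MeasureTheory Set Filter Topology
open scoped ENNReal RealInnerProductSpace ContDiff

noncomputable section
namespace Vale.Agent.P107

namespace O2X

theorem cont_slice {X : Type} [TopologicalSpace X] {k : V3 → V3 → X}
    (h : ContinuousOn (fun p : V3 × V3 => k p.1 p.2) {p | p.1 ≠ 0}) {w : V3} (hw : w ≠ 0) :
    Continuous (k w) :=
  h.comp_continuous (continuous_const.prodMk continuous_id) (fun _ => hw)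

theorem quant (hv : VI) (hk : KL) (T R : ℝ) : ∃ C : ℝ, 1 ≤ C ∧
    ∀ (f f' : ℝ → Z → ℝ) (F F' : ℝ → V3 → Z) (w : V3) (t M : ℝ),
    w ≠ 0 → ‖w‖ ≤ T → Continuous (f t) → Continuous (f' t) →
    (∀ z, f t z ≠ 0 → ‖z‖ ≤ R) → (∀ z, f' t z ≠ 0 → ‖z‖ ≤ R) → (∀ z, |f t z| ≤ M) →
    (∀ y, ‖Gs f F w t y‖ ≤ C * M * (1 + ‖F t y‖) / ‖w‖ ^ 2) ∧
    (∀ y y' m, (∀ v, |f t (y, v) - f' t (y', v)| ≤ m) →
      ‖Gs f F w t y - Gs f' F' w t y'‖ ≤
        C * (m * (1 + ‖F' t y'‖) + M * ‖F t y - F' t y'‖) / ‖w‖ ^ 2) ∧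
    (∀ a c c', 1 ≤ a → B3 (f t) a a c → B3 (F t) a a c' →
      B3 (Gs f F w t) (C * a ^ 2 / ‖w‖ ^ 2) (C * a ^ 2 / ‖w‖ ^ 2)
        (C * a * (a + c + c') / ‖w‖ ^ 2)) := by
  obtain ⟨kB, hsplit, c0, cB, -, hbd⟩ := hk
  obtain ⟨Ck, hCk, hb⟩ := hbd T R
  obtain ⟨c, hc, hvi⟩ := hv.1 R
  refine ⟨3 * (c * Ck) + 1, by have := mul_pos hc hCk; linarith, ?_⟩
  intro f f' F F' w t M hw hwT cf cf' sf sf' hM
  have hr : 0 < ‖w‖ ^ 2 := pow_pos (norm_pos_iff.2 hw) 2
  set α : ℝ := Ck / ‖w‖ ^ 2 with hα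
  have hα0 : 0 < α := div_pos hCk hr
  have hM0 : 0 ≤ M := (abs_nonneg _).trans (hM 0)
  have k0 : Continuous (fun v => kEB w v 0) := cont_slice (k := fun w v => kEB w v 0) c0 hw
  have kb : Continuous (kB w) := cont_slice cB hw
  have kk : ∀ k : Z, Continuous (fun v => kEB w v k) := fun k => by
    simp only [hsplit w _ k]
    exact k0.add (kb.clm_apply continuous_const)
  have bB : ∀ (k : Z) v, ‖v‖ ≤ R → ‖kB w v k‖ ≤ α * ‖k‖ := fun k v hv' =>
    (kB w v).le_of_opNorm_le (hb w v hw hwT hv').2.1 k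
  have bk : ∀ (k : Z) v, ‖v‖ ≤ R → ‖kEB w v k‖ ≤ α * (1 + ‖k‖) := fun k v hv' => by
    rw [hsplit, mul_add, mul_one]
    exact norm_add_le_of_le (hb w v hw hwT hv').1 (bB k v hv')
  have sl : ∀ y, Continuous (fun v => f t (y, v)) := fun y =>
    cf.comp (continuous_const.prodMk continuous_id)
  have sl' : ∀ y, Continuous (fun v => f' t (y, v)) := fun y =>
    cf'.comp (continuous_const.prodMk continuous_id)
  have sp : ∀ y v, f t (y, v) ≠ 0 → ‖v‖ ≤ R := fun y v h => (norm_snd_le (y, v)).trans (sf _ h)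
  have sp' : ∀ y v, f' t (y, v) ≠ 0 → ‖v‖ ≤ R := fun y v h => (norm_snd_le (y, v)).trans (sf' _ h)
  have eC : ∀ x : ℝ, 0 ≤ x → 3 * (c * α) * x ≤ (3 * (c * Ck) + 1) * x / ‖w‖ ^ 2 := fun x hx => by
    rw [hα, le_div_iff₀ hr]
    have : 3 * (c * (Ck / ‖w‖ ^ 2)) * x * ‖w‖ ^ 2 = 3 * (c * Ck) * x := by field_simp
    rw [this]
    linarith
  have hcα : 0 < c * α := mul_pos hc hα0
  refine ⟨fun y => ?_, fun y y' m hm => ?_, fun a c₂ c' ha hf hF => ?_⟩
  · have h1 := ((hvi Z _ _ (kk (F t y)) (by positivity) (bk (F t y))).1 _ M (sl y) (sp y)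
      (fun v => hM _)).2
    have h2 := eC (M * (1 + ‖F t y‖)) (by positivity)
    have h3 : 0 ≤ c * α * (M * (1 + ‖F t y‖)) := by positivity
    rw [mul_assoc (3 * (c * Ck) + 1)]
    unfold Gs
    nlinarith
  · have hm0 : 0 ≤ m := (abs_nonneg _).trans (hm 0)
    have h1 := (hvi Z _ _ (kk (F' t y')) (by positivity) (bk (F' t y'))).1
      (fun v => f t (y, v) - f' t (y', v)) m ((sl y).sub (sl' y')) (fun v h => by
        by_cases h' : f t (y, v) = 0
        · exact sp' y' v (fun h'' => h (by rw [h', h'', sub_zero]))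
        · exact sp y v h') hm
    have h2 := (hvi Z (fun v => kB w v (F t y - F' t y')) _ (kb.clm_apply continuous_const)
      (by positivity) (bB (F t y - F' t y'))).1 _ M (sl y) (sp y) (fun v => hM _)
    have h3 := ((hvi Z _ _ (kk (F t y)) (by positivity) (bk (F t y))).1 _ M (sl y) (sp y)
      (fun v => hM _)).1
    have e : ∀ v, f' t (y', v) • kEB w v (F' t y') = f t (y, v) • kEB w v (F t y) -
        ((f t (y, v) - f' t (y', v)) • kEB w v (F' t y') +
          f t (y, v) • kB w v (F t y - F' t y')) := fun v => by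
      rw [hsplit w v (F t y), hsplit w v (F' t y'), map_sub]
      module
    have e2 : Gs f F w t y - Gs f' F' w t y' =
        (∫ v, (f t (y, v) - f' t (y', v)) • kEB w v (F' t y')) +
          ∫ v, f t (y, v) • kB w v (F t y - F' t y') := by
      have h12 : Integrable (fun v => (f t (y, v) - f' t (y', v)) • kEB w v (F' t y') +
          f t (y, v) • kB w v (F t y - F' t y')) := h1.1.add h2.1
      unfold Gs
      simp only [e]
      rw [integral_sub h3 h12, integral_add h1.1 h2.1, sub_sub_cancel]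
    rw [e2]
    have h4 := norm_add_le_of_le h1.2 h2.2
    have h5 := eC (m * (1 + ‖F' t y'‖) + M * ‖F t y - F' t y'‖) (by positivity)
    have h6 : 0 ≤ c * α * (m * (1 + ‖F' t y'‖) + M * ‖F t y - F' t y'‖) := by positivity
    nlinarith
  · have s2 : ∀ z, f t z ≠ 0 → ‖z.2‖ ≤ R := fun z h => (norm_snd_le z).trans (sf z h)
    have v0 := hvi Z _ α k0 hα0.le (fun v hv' => (hb w v hw hwT hv').1)
    have vB := hvi (Z →L[ℝ] Z) _ α kb hα0.le (fun v hv' => (hb w v hw hwT hv').2.1)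
    have h1 := (v0.2 _ _ _ _ hf s2).1
    have h2 := (vB.2 _ _ _ _ hf s2).1
    have hc₂ : 0 ≤ c₂ := hf.c_nonneg
    have hc' : 0 ≤ c' := hF.c_nonneg
    have h3 := h1.add (h2.bilin hF (by positivity) (ContinuousLinearMap.id ℝ (Z →L[ℝ] Z))
      ContinuousLinearMap.norm_id_le)
    have fa : ∀ z, |f t z| ≤ a := fun z => hf.b0 z
    have e : Gs f F w t = fun y => (∫ v, f t (y, v) • kEB w v 0) +
        (ContinuousLinearMap.id ℝ (Z →L[ℝ] Z)) (∫ v, f t (y, v) • kB w v) (F t y) := by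
      funext y
      have i0 := (v0.1 _ a (sl y) (sp y) (fun v => fa _)).1
      have iB := (vB.1 _ a (sl y) (sp y) (fun v => fa _)).1
      rw [ContinuousLinearMap.id_apply, ContinuousLinearMap.integral_apply iB,
        ← integral_add i0 (iB.apply_continuousLinearMap _)]
      unfold Gs
      refine integral_congr_ae (Eventually.of_forall fun v => ?_)
      simp only [_root_.smul_apply]
      rw [hsplit w v (F t y), smul_add]
    rw [e]
    have a0 : 0 ≤ a := by linarith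
    have q1 := eC (a ^ 2) (by positivity)
    have q2 := eC (a * (a + c₂ + c')) (by positivity)
    have q3 : c * α * a ≤ c * α * a ^ 2 := mul_le_mul_of_nonneg_left (by nlinarith) hcα.le
    have q4 : c * α * c₂ ≤ c * α * (a * c₂) := mul_le_mul_of_nonneg_left (by nlinarith) hcα.le
    have q5 : 0 ≤ c * α * a ^ 2 := by positivity
    have q6 : 0 ≤ c * α * (a * c₂) := by positivity
    have q7 : 0 ≤ c * α * (a * c') := by positivity
    refine h3.mono (by nlinarith) (by nlinarith) ?_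
    rw [mul_assoc (3 * (c * Ck) + 1)]
    nlinarith

end O2X

open O2X in
theorem o2 (hv : VI) (hk : KL) : O2 := by
  refine ⟨fun f F hf hs hF => ⟨?_, fun T => ?_⟩, quant hv hk⟩
  · obtain ⟨kB, hsplit, c0, cB, -, -⟩ := hk
    rw [continuousOn_iff_continuous_domRestrict]
    refine hv.2 {p : V3 × ℝ × V3 | p.1 ≠ 0} Z
      (fun p v => f p.1.2.1 (p.1.2.2, v) • kEB p.1.1 v (F p.1.2.1 p.1.2.2)) ?_ fun p => ?_
    · have p0 : Continuous (fun r : {p : V3 × ℝ × V3 | p.1 ≠ 0} × V3 => r.1.1) :=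
        continuous_subtype_val.comp continuous_fst
      have p1 : Continuous (fun r : {p : V3 × ℝ × V3 | p.1 ≠ 0} × V3 => ((r.1.1.1, r.2) : V3 × V3)) :=
        p0.fst.prodMk continuous_snd
      have a1 := c0.comp_continuous p1 (fun r => r.1.2)
      have a2 := cB.comp_continuous p1 (fun r => r.1.2)
      have a3 := hF.cont.comp p0.snd
      have a4 := hf.cont.comp (p0.snd.fst.prodMk (p0.snd.snd.prodMk continuous_snd))
      refine (a4.smul (a1.add (a2.clm_apply a3))).congr fun r => ?_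
      simp only [Function.comp_apply, Pi.add_apply, Pi.smul_apply']
      rw [hsplit r.1.1.1 r.2 (F r.1.1.2.1 r.1.1.2.2)]
    · obtain ⟨R, hR⟩ := hs (|p.1.2.1| + 1)
      refine ⟨R, ?_⟩
      have c1 : Continuous (fun r : {p : V3 × ℝ × V3 | p.1 ≠ 0} => |r.1.2.1|) :=
        (continuous_subtype_val.snd.fst).abs
      filter_upwards [c1.continuousAt.eventually (gt_mem_nhds (lt_add_one |p.1.2.1|))] with r hr v hv'
      have : f r.1.2.1 (r.1.2.2, v) = 0 := by
        by_contra h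
        exact absurd ((norm_snd_le (r.1.2.2, v)).trans (hR _ hr.le _ h)) (not_le.2 hv')
      rw [this, zero_smul]
  · obtain ⟨R, hR⟩ := hs T
    obtain ⟨C, hC, hq⟩ := quant hv hk T R
    obtain ⟨a₁, h1, hb1⟩ := hf.bd' T
    obtain ⟨a₂, -, hb2⟩ := hF.bd' T
    have ha : 1 ≤ max a₁ a₂ := h1.trans (le_max_left _ _)
    refine ⟨3 * C * max a₁ a₂ ^ 2, fun w t hw hwT ht => ?_⟩
    have b1 := (hb1 t ht).mono (le_max_left a₁ a₂) (le_max_left a₁ a₂) (le_max_left a₁ a₂)
    have b2 := (hb2 t ht).mono (le_max_right a₁ a₂) (le_max_right a₁ a₂) (le_max_right a₁ a₂)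
    have h3 := (hq f f F F w t _ hw hwT (hf.continuous t) (hf.continuous t) (hR t ht) (hR t ht)
      (fun z => b1.b0 z)).2.2 _ _ _ ha b1 b2
    have h4 : 0 ≤ C * max a₁ a₂ ^ 2 := by positivity
    have h5 : C * max a₁ a₂ ^ 2 / ‖w‖ ^ 2 ≤ 3 * C * max a₁ a₂ ^ 2 / ‖w‖ ^ 2 :=
      div_le_div_of_nonneg_right (by linarith) (by positivity)
    exact h3.mono h5 h5 (le_of_eq (by ring))

end Vale.Agent.P107
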