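import Vale.Agent.P107.Defs

/-! Problem P107: working definitions for the momentum bound (part I). -/

open MeasureTheory Set Filter Topology
open scoped ENNReal RealInnerProductSpace

noncomputable section
namespace Vale.Agent.P107

/-- phase space; also used for pairs (E,B) and for pairs (w,v) -/
abbrev Z := V3 × V3

/-- the angular distance `√(1-⟪x,y⟫)` on the closed unit ball -/
def dd (x y : V3) : ℝ := √(1 - ⟪x, y⟫)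

def hat (w : V3) : V3 := ‖w‖⁻¹ • w

/-- Lorentz force on momentum `v` in the field `k = (E,B)` -/
def frc (v : V3) (k : Z) : V3 := k.1 + cross (uu v) k.2

/-- acceleration `d(uu v)/dt` when `dv/dt = frc v k` -/
def acc (v : V3) (k : Z) : V3 := (q v)⁻¹ • (frc v k - ⟪uu v, frc v k⟫ • uu v)

/-- `b² = 1 - n·u` -/
def b2 (w v : V3) : ℝ := 1 - ⟪hat w, uu v⟫

/-- velocity part of the Lienard-Wiechert field -/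
def ET (w v : V3) : V3 := (q v ^ 2 * b2 w v ^ 3 * ‖w‖ ^ 2)⁻¹ • (hat w - uu v)

/-- acceleration part of the Lienard-Wiechert field -/
def ES (w v : V3) (k : Z) : V3 :=
  (b2 w v ^ 3 * ‖w‖)⁻¹ • (⟪hat w, acc v k⟫ • (hat w - uu v) - b2 w v • acc v k)

def ELW (w v : V3) (k : Z) : V3 := ET w v + ES w v k

def BLW (w v : V3) (k : Z) : V3 := cross (hat w) (ELW w v k)

/-- force of the field `(x, n × x)` on a particle of velocity `U` -/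
def lor (U n x : V3) : V3 := x + cross U (cross n x)

def FLW (U w v : V3) (k : Z) : V3 := lor U (hat w) (ELW w v k)

/-- good components of the field in direction `n` -/
def Kg (n : V3) (k : Z) : ℝ :=
  √(⟪k.1, n⟫ ^ 2 + ⟪k.2, n⟫ ^ 2 + ‖k.1 - ⟪k.1, n⟫ • n + cross n k.2‖ ^ 2)

def kap (n v : V3) (k : Z) : ℝ := Kg n k + dd n (uu v) ^ 2 * ‖k.2‖

def kT (U w v : V3) : ℝ :=
  (dd (hat w) U + dd (hat w) (uu v)) / (q v ^ 2 * dd (hat w) (uu v) ^ 5 * ‖w‖ ^ 2)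

def kS (U w v : V3) (k : Z) : ℝ :=
  dd (hat w) U * kap (hat w) v k / (q v * dd (hat w) (uu v) ^ 4 * ‖w‖)

/-- derivative of the retarded time along the test particle -/
def sgp (U w v : V3) : ℝ := dd (hat w) U ^ 2 / dd (hat w) (uu v) ^ 2

/-- cutoff profile: `0` on `x ≤ 1`, `1` on `x ≥ 2` -/
def eta (x : ℝ) : ℝ := Real.smoothTransition (x - 1)

def vs (δ a₀ : ℝ) (e w u : V3) : ℝ :=
  δ ^ 2 * (‖w‖ - ⟪w, e⟫) / (‖w‖ - ⟪w, u⟫ + δ ^ 2 * a₀ ^ 2 * ‖w‖)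

def GG (e w u : V3) : V3 :=
  -((‖w‖ - ⟪w, u⟫)⁻¹ • u) + ((1 - ⟪e, u⟫) / ((‖w‖ - ⟪w, e⟫) * (‖w‖ - ⟪w, u⟫))) • w

def CG (δ a₀ : ℝ) (e w u : V3) : V3 := eta (vs δ a₀ e w u) • GG e w u

open Classical in
def ph (δ a₀ : ℝ) (e w v : V3) : ℝ :=
  if dd (hat w) (uu v) ≤ δ * dd (hat w) e ∧ a₀ ≤ dd (hat w) e then
    1 / (dd (hat w) e * dd (hat w) (uu v) * ‖w‖) else 0

/-- the region I -/
def RI (δ a₀ : ℝ) (U w v : V3) : Prop :=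
  dd (hat w) (uu v) ≤ 2 * δ * dd (hat w) U ∧ a₀ / 2 ≤ dd (hat w) U

/-- the region D -/
def RD (δ a₀ : ℝ) (U w v : V3) : Prop :=
  δ * dd (hat w) U ≤ 4 * dd (hat w) (uu v) ∨ dd (hat w) U ≤ 4 * a₀

open Classical in
/-- the kernel left after the integration by parts along the test particle -/
def KK (δ a₀ ε : ℝ) (U w v : V3) (k : Z) : ℝ :=
  kT U w v
  + (if RI δ a₀ U w v then
      (1 / dd (hat w) (uu v) ^ 2 + 1 / (δ ^ 2 * dd (hat w) U * dd (hat w) (uu v))) / ‖w‖ ^ 2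
     else 0)
  + ((if RD δ a₀ U w v then 1 else 0) + (if RI δ a₀ U w v then ε / dd (hat w) U else 0))
      * kS U w v k

/-- a particle system: a measure on labels, trajectories and the field that drives them -/
structure PS where
  μ : Measure Z
  S : Set Z
  Y : ℝ → Z → V3
  V : ℝ → Z → V3
  K : ℝ → V3 → Z

namespace PS
variable (Γ : PS)

/-- retarded time of the particle `z` seen from `(s,x)`; `0` when there is none -/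
def ret (s : ℝ) (x : V3) (z : Z) : ℝ := sSup {σ | σ ∈ Icc 0 s ∧ ‖x - Γ.Y σ z‖ ≤ s - σ}

/-- particles that meet the backward cone of `(s,x)` at a positive time -/
def act (s : ℝ) (x : V3) : Set Z := {z | ‖x - Γ.Y 0 z‖ < s}

/-- retarded relative position and momentum -/
def wv (s : ℝ) (x : V3) (z : Z) : Z := (x - Γ.Y (Γ.ret s x z) z, Γ.V (Γ.ret s x z) z)

/-- field on the backward cone -/
def Kr (s : ℝ) (x w : V3) : Z := Γ.K (s - ‖w‖) (x - w)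

/-- integral over the backward cone -/
def cI (s : ℝ) (x : V3) (g : Z → ℝ≥0∞) : ℝ≥0∞ := ∫⁻ z in Γ.act s x, g (Γ.wv s x z) ∂Γ.μ

/-- velocity of the test particle -/
def U (z₀ : Z) (s : ℝ) : V3 := uu (Γ.V s z₀)

/-- the measure `ds dμ` on active pairs, pushed to the variables `(s,w,v)` -/
def lam (z₀ : Z) (s₀ τ : ℝ) : Measure (ℝ × Z) :=
  (((volume : Measure ℝ).prod Γ.μ).restrict
    {p | p.1 ∈ Icc s₀ (s₀ + τ) ∧ p.2 ∈ Γ.act p.1 (Γ.Y p.1 z₀)}).map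
      (fun p => (p.1, Γ.wv p.1 (Γ.Y p.1 z₀) p.2))

/-- retarded field in the variables `(s,w,v)` -/
def kk (z₀ : Z) (p : ℝ × Z) : Z := Γ.Kr p.1 (Γ.Y p.1 z₀) p.2.1

/-- momentum bound up to time `t` -/
def Bd (t P : ℝ) : Prop := ∀ z ∈ Γ.S, ∀ σ ∈ Icc (0 : ℝ) t, q (Γ.V σ z) ≤ P

/-- kinematics -/
structure Kin : Prop where
  fin : IsFiniteMeasure Γ.μ
  cY : Continuous (fun p : ℝ × Z => Γ.Y p.1 p.2)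
  cV : Continuous (fun p : ℝ × Z => Γ.V p.1 p.2)
  cK : Continuous (fun p : ℝ × V3 => Γ.K p.1 p.2)
  dY : ∀ σ z, HasDerivAt (fun t => Γ.Y t z) (uu (Γ.V σ z)) σ
  dV : ∀ σ z, HasDerivAt (fun t => Γ.V t z) (frc (Γ.V σ z) (Γ.K σ (Γ.Y σ z))) σ

/-- everything part I uses about a solution on `[0,T]` -/
structure Good (T Λ N : ℝ) : Prop extends Γ.Kin where
  hΛ : 8 ≤ Λ
  hT0 : 0 ≤ T
  hT : T ≤ Λ
  hN : 0 ≤ N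
  supp : ∀ᵐ z ∂Γ.μ, z ∈ Γ.S
  bK : ∀ σ ∈ Icc (0 : ℝ) T, ∀ y, ‖Γ.K σ y‖ ≤ N
  init : ∀ z ∈ Γ.S, q (Γ.V 0 z) ≤ Λ
  cone : ∀ s ∈ Icc (0 : ℝ) T, ∀ x, ∀ g : Z → ℝ≥0∞, Measurable g →
    Γ.cI s x g ≤ ENNReal.ofReal Λ *
      ∫⁻ p in {p : Z | ‖p.1‖ < s}, g p * ENNReal.ofReal (b2 p.1 p.2)
  enP : ∀ σ ∈ Icc (0 : ℝ) T, ∫⁻ z, ENNReal.ofReal (q (Γ.V σ z)) ∂Γ.μ ≤ ENNReal.ofReal Λ
  enB : ∀ σ ∈ Icc (0 : ℝ) T, ∫⁻ y, ENNReal.ofReal (‖(Γ.K σ y).2‖ ^ 2) ≤ ENNReal.ofReal Λ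
  coneP : ∀ s ∈ Icc (0 : ℝ) T, ∀ x,
    Γ.cI s x (fun p => ENNReal.ofReal (q p.2)) ≤ ENNReal.ofReal Λ
  coneK : ∀ s ∈ Icc (0 : ℝ) T, ∀ x,
    ∫⁻ w in Metric.ball (0 : V3) s, ENNReal.ofReal (Kg (hat w) (Γ.Kr s x w) ^ 2)
      ≤ ENNReal.ofReal Λ
  repE : ∀ s ∈ Icc (0 : ℝ) T, ∀ x,
    ‖(Γ.K s x).1 - ∫ z in Γ.act s x,
      ELW (Γ.wv s x z).1 (Γ.wv s x z).2 (Γ.Kr s x (Γ.wv s x z).1) ∂Γ.μ‖ ≤ Λ
  repB : ∀ s ∈ Icc (0 : ℝ) T, ∀ x,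
    ‖(Γ.K s x).2 - ∫ z in Γ.act s x,
      BLW (Γ.wv s x z).1 (Γ.wv s x z).2 (Γ.Kr s x (Γ.wv s x z).1) ∂Γ.μ‖ ≤ Λ

/-- a test particle of energy about `p'` on `[s₀, s₀+τ]` -/
structure Tst (T P : ℝ) (z₀ : Z) (s₀ τ p' : ℝ) : Prop where
  mem : z₀ ∈ Γ.S
  h0 : 0 ≤ s₀
  hτ : 0 < τ
  hT : s₀ + τ ≤ T
  bd : Γ.Bd (s₀ + τ) P
  h8 : 8 ≤ p'
  hP : p' ≤ P
  hq : ∀ s ∈ Icc s₀ (s₀ + τ), q (Γ.V s z₀) ∈ Icc (p' / 2) (2 * p')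

/-- `z` never meets the test particle up to time `t` -/
def NoHit (z₀ : Z) (t : ℝ) (z : Z) : Prop := ∀ s ∈ Icc (0 : ℝ) t, Γ.Y s z ≠ Γ.Y s z₀

end PS

/-- the dyadic box -/
def box (U : V3) (p α β θ : ℝ) : Set Z :=
  {x | q x.2 ∈ Ico p (2 * p) ∧ dd (hat x.1) U ∈ Ico α (2 * α) ∧
    dd (hat x.1) (uu x.2) ∈ Ico β (2 * β) ∧ dd U (uu x.2) ∈ Ico θ (2 * θ)}

namespace PS
variable (Γ : PS)

/-- the box in the variables `(s,w,v)` -/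
def Bx (z₀ : Z) (p α β θ : ℝ) : Set (ℝ × Z) := {x | x.2 ∈ box (Γ.U z₀ x.1) p α β θ}

/-- integral of a real function over a part of the box -/
def IB (z₀ : Z) (s₀ τ p α β θ : ℝ) (A : Set ℝ) (Φ : ℝ × Z → ℝ) : ℝ≥0∞ :=
  ∫⁻ x in Γ.Bx z₀ p α β θ ∩ {x | ‖x.2.1‖ ∈ A}, ENNReal.ofReal (Φ x) ∂Γ.lam z₀ s₀ τ

/-- `∫ 1/r²` over the part of the box with `r ∈ A` -/
def JA (z₀ : Z) (s₀ τ p α β θ : ℝ) (A : Set ℝ) : ℝ≥0∞ :=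
  Γ.IB z₀ s₀ τ p α β θ A (fun x => 1 / ‖x.2.1‖ ^ 2)

def nu (z₀ : Z) (s₀ τ p α β θ : ℝ) : ℝ≥0∞ :=
  Γ.IB z₀ s₀ τ p α β θ (Iic τ) (fun x => q x.2.2 * (1 + sgp (Γ.U z₀ x.1) x.2.1 x.2.2))

/-- simultaneous class at time `t` -/
def sim (z₀ : Z) (p θ t : ℝ) : Set Z :=
  {z | q (Γ.V t z) ∈ Icc (p / 2) (4 * p) ∧ dd (Γ.U z₀ t) (uu (Γ.V t z)) ∈ Icc (θ / 2) (4 * θ)}

def En (z₀ : Z) (s₀ τ p θ : ℝ) : ℝ≥0∞ :=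
  ∫⁻ t in Icc s₀ (s₀ + τ), ∫⁻ z in Γ.sim z₀ p θ t, ENNReal.ofReal (q (Γ.V t z)) ∂Γ.μ

/-- stability of the test velocity and of the sources of energy about `p` over windows `d` -/
structure Stb (z₀ : Z) (s₀ τ p' p θ d : ℝ) : Prop where
  hθ0 : 0 < θ
  hθ1 : θ ≤ 1
  h1 : 12 ≤ θ * p
  h2 : 12 ≤ θ * p'
  hd0 : 0 < d
  hdτ : d ≤ τ
  test : ∀ s ∈ Icc s₀ (s₀ + τ), ∀ s' ∈ Icc s₀ (s₀ + τ), |s - s'| ≤ 2 * d →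
    ‖Γ.U z₀ s - Γ.U z₀ s'‖ ≤ θ / 5
  src : ∀ z ∈ Γ.S, ∀ t₀ ∈ Icc (0 : ℝ) (s₀ + τ), ∀ t ∈ Icc (0 : ℝ) (s₀ + τ),
    q (Γ.V t₀ z) ∈ Ico p (2 * p) → |t - t₀| ≤ 3 * d → ‖Γ.V t z - Γ.V t₀ z‖ ≤ θ * p / 10

/-- the boundary term of the integration by parts -/
def GI (δ a₀ : ℝ) (z₀ : Z) (s : ℝ) (e : V3) : V3 :=
  ∫ z in Γ.act s (Γ.Y s z₀),
    CG δ a₀ e (Γ.wv s (Γ.Y s z₀) z).1 (uu (Γ.wv s (Γ.Y s z₀) z).2) ∂Γ.μ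

/-- total mass of the remaining kernel -/
def TK (δ a₀ ε : ℝ) (z₀ : Z) (s₀ τ : ℝ) : ℝ≥0∞ :=
  ∫⁻ x, ENNReal.ofReal (KK δ a₀ ε (Γ.U z₀ x.1) x.2.1 x.2.2 (Γ.kk z₀ x)) ∂Γ.lam z₀ s₀ τ

end PS

def LL (k : ℕ) : ℝ := k + 3

def cc (A : ℝ) : ℝ := 1 / (1000 * A)

/-- the size of the momentum change allowed in the induction -/
def yy (c : ℝ) (k : ℕ) (w τ : ℝ) : ℝ :=
  2 ^ k * √τ + τ * (2 ^ k) ^ 2 * LL k / (c * w ^ 6) + LL k ^ 2 * w ^ 2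

def Big (Θ : ℝ) (k : ℕ) : Prop := (Θ * LL k ^ 4) ^ 12 ≤ 2 ^ k

/-- admissible scales: `p' = w⁶ ∈ [√P, P]`, `τ ≤ τ_max` -/
structure Scl (c : ℝ) (k : ℕ) (w τ : ℝ) : Prop where
  hw : 0 < w
  lo : (2 : ℝ) ^ k ≤ w ^ 12
  hi : w ^ 6 ≤ 2 ^ k
  hτ : 0 < τ
  t1 : τ ≤ (c / LL k) ^ 2
  t2 : τ ≤ (c * w ^ 6 / 2 ^ k) ^ 2

/-- the induction hypothesis for intervals of length at most `ℓ` inside `[0,t]` -/
def PS.Hyp (Γ : PS) (t A : ℝ) (k : ℕ) (ℓ : ℝ) : Prop :=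
  ∀ z ∈ Γ.S, ∀ s₀ τ w : ℝ, 0 ≤ s₀ → s₀ + τ ≤ t → τ ≤ ℓ → Scl (cc A) k w τ →
    (∀ s ∈ Icc s₀ (s₀ + τ), q (Γ.V s z) ∈ Icc (w ^ 6 / 2) (2 * w ^ 6)) →
    ‖Γ.V (s₀ + τ) z - Γ.V s₀ z‖ ≤ A * yy (cc A) k w τ

def Xq (τ p α β θ : ℝ) : ℝ := τ * p ^ 3 * min β θ ^ 2 * β ^ 2 * α ^ 2

def Yq (p α β : ℝ) : ℝ := min 1 (β ^ 2 / α ^ 2) / p

/-- window length -/
def Dq (c : ℝ) (k : ℕ) (p' p θ : ℝ) : ℝ := (c * min p p' / 2 ^ k) ^ 2 * θ * min θ (1 / LL k)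

/-- index `(i,j,l,m)` of the box `p = 2^i`, `α = 2^{-j}`, `β = 2^{-l}`, `θ = 2^{-m}` -/
abbrev Ix := ℕ × ℕ × ℕ × ℕ

def dy (j : ℕ) : ℝ := (1 / 2) ^ j

def Ix.p (b : Ix) : ℝ := 2 ^ b.1
def Ix.α (b : Ix) : ℝ := dy b.2.1
def Ix.β (b : Ix) : ℝ := dy b.2.2.1
def Ix.θ (b : Ix) : ℝ := dy b.2.2.2

/-- constraints satisfied by nonempty boxes -/
def Adm (p α β θ : ℝ) : Prop :=
  1 ≤ 6 * p * β ∧ 1 ≤ 6 * p * θ ∧ α ≤ 2 * β + 2 * θ ∧ β ≤ 2 * α + 2 * θ ∧ θ ≤ 2 * α + 2 * β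

open Classical in
def Idx (k : ℕ) : Finset Ix :=
  (Finset.range (k + 1) ×ˢ Finset.range (k + 3) ×ˢ Finset.range (k + 3) ×ˢ
    Finset.range (k + 3)).filter (fun b => Adm b.p b.α b.β b.θ)

open Classical in
/-- pairs `(j,l)` admissible for given `(i,m)` -/
def Idx2 (k i m : ℕ) : Finset (ℕ × ℕ) :=
  (Finset.range (k + 3) ×ˢ Finset.range (k + 3)).filter
    (fun a => Adm (2 ^ i) (dy a.1) (dy a.2) (dy m))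

open Classical in
def tw (δ p α β : ℝ) : ℝ :=
  (α + β) / (p ^ 2 * β ^ 5) + if β ≤ 4 * δ * α then 1 / β ^ 2 + 1 / (δ ^ 2 * α * β) else 0

open Classical in
def sw1 (δ α β : ℝ) : ℝ := if δ * α ≤ 8 * β then 1 else 0

open Classical in
def sw2 (δ a₀ ε α β : ℝ) : ℝ :=
  if β ≤ 4 * δ * α then (if α ≤ 4 * a₀ then 1 else 0) + ε / α else 0

/-- weight of `√J` in the acceleration terms -/
def sv (τ' p α β θ : ℝ) : ℝ := (α + β ^ 2) / β ^ 3 * min β θ * √(τ' * p)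

/-- hypotheses of the purely numerical sum lemmas -/
structure SumH (D c : ℝ) (k : ℕ) (w τ : ℝ) (J E₁ : Ix → ℝ) (E₂ : ℕ → ℕ → ℝ) : Prop where
  hD : 1 ≤ D
  hc0 : 0 < c
  hc1 : c ≤ 1
  scl : Scl c k w τ
  big : D * LL k ^ 2 ≤ w
  J0 : ∀ b, 0 ≤ J b
  E10 : ∀ b, 0 ≤ E₁ b
  E20 : ∀ i m, 0 ≤ E₂ i m
  sE1 : ∑ b ∈ Idx k, E₁ b ≤ D
  sE2 : ∑ a ∈ Finset.range (k + 1) ×ˢ Finset.range (k + 3), E₂ a.1 a.2 ≤ D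
  win : ∀ b ∈ Idx k, J b ≤ D * √(Xq τ b.p b.α b.β b.θ * Yq b.p b.α b.β * ((b.β + b.θ) / b.θ) *
    (1 + τ * (E₁ b + E₂ b.1 b.2.2.2) / Dq c k (w ^ 6) b.p b.θ))
  non : ∀ b ∈ Idx k, ∀ ρ, 0 < ρ →
    J b ≤ D * (Xq τ b.p b.α b.β b.θ * ρ + Yq b.p b.α b.β * (τ / ρ ^ 2 + 1 / ρ))

end Vale.Agent.P107
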