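import Vale.Agent.P107.Basic

/-! Problem P107: working definitions for the existence theory (part II). -/

open MeasureTheory Set Filter Topology
open scoped ENNReal RealInnerProductSpace ContDiff

noncomputable section
namespace Vale.Agent.P107

section reg
variable {X W : Type} [NormedAddCommGroup X] [NormedSpace ℝ X] [NormedAddCommGroup W]
  [NormedSpace ℝ W]

/-- `g` is bounded by `a`, its derivative by `b`, and the derivative is `c`-Lipschitz -/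
structure B3 (g : X → W) (a b c : ℝ) : Prop where
  diff : Differentiable ℝ g
  b0 : ∀ x, ‖g x‖ ≤ a
  b1 : ∀ x, ‖fderiv ℝ g x‖ ≤ b
  b2 : ∀ x y, ‖fderiv ℝ g x - fderiv ℝ g y‖ ≤ c * ‖x - y‖

/-- continuous in `(t,x)`, bounded `C^{1,1}` in `x`, locally uniformly in `t` -/
structure Reg (K : ℝ → X → W) : Prop where
  cont : Continuous (fun p : ℝ × X => K p.1 p.2)
  bd : ∀ T : ℝ, ∃ C : ℝ, ∀ t, |t| ≤ T → B3 (K t) C C C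

/-- space-time Lipschitz bound `A e^{λ t}` on `[0,t]`, for `t ≤ T` -/
def STL (F : ℝ → X → W) (T A lam : ℝ) : Prop :=
  ∀ t t', 0 ≤ t' → t' ≤ t → t ≤ T → ∀ y y',
    ‖F t y - F t' y'‖ ≤ A * Real.exp (lam * t) * (|t - t'| + ‖y - y'‖)

/-- kernels that can be integrated over backward cones -/
structure Ker (G : V3 → ℝ → V3 → W) : Prop where
  cont : ContinuousOn (fun p : V3 × ℝ × V3 => G p.1 p.2.1 p.2.2) {p | p.1 ≠ 0}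
  bd : ∀ T : ℝ, ∃ C : ℝ, ∀ w t, w ≠ 0 → ‖w‖ ≤ T → |t| ≤ T →
    B3 (G w t) (C / ‖w‖ ^ 2) (C / ‖w‖ ^ 2) (C / ‖w‖ ^ 2)

/-- integral over the backward cone; zero for `s ≤ 0` -/
def RR (G : V3 → ℝ → V3 → W) (s : ℝ) (x : V3) : W :=
  ∫ w in Metric.ball (0 : V3) s, G w (s - ‖w‖) (x - w)

end reg

def ee (j : Fin 3) : V3 := EuclideanSpace.single j (1 : ℝ)

/-- Laplacian -/
def lap (A : V3 → Z) (x : V3) : Z := ∑ j, fderiv ℝ (fun y => fderiv ℝ A y (ee j)) x (ee j)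

/-- the constant `4π`; only its positivity is used -/
def om : ℝ := ∫ w : V3, deriv eta ‖w‖ / ‖w‖ ^ 2

def IsFlow (a : ℝ → Z → Z) (Φ : ℝ → ℝ → Z → Z) : Prop :=
  (∀ t z, Φ t t z = z) ∧ ∀ s t z, HasDerivAt (fun r => Φ r t z) (a s (Φ s t z)) s

open Classical in
/-- `flow a s t z` is the value at time `s` of the solution equal to `z` at time `t` -/
def flow (a : ℝ → Z → Z) : ℝ → ℝ → Z → Z :=
  if h : ∃ Φ, IsFlow a Φ then h.choose else fun _ _ z => z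

/-- characteristic vector field -/
def vf (F : ℝ → V3 → Z) (t : ℝ) (z : Z) : Z := (uu z.2, frc z.2 (F t z.1))

/-- solution of the Vlasov equation in the field `F` -/
def ff (f₀ : Z → ℝ) (F : ℝ → V3 → Z) (t : ℝ) (z : Z) : ℝ := f₀ (flow (vf F) 0 t z)

/-- support bound on `[0,T]` -/
def Sp (f : ℝ → Z → ℝ) (T R : ℝ) : Prop := ∀ t ∈ Icc (0 : ℝ) T, ∀ z, f t z ≠ 0 → ‖z‖ ≤ R

/-- support bound for all bounded times -/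
def SpA (f : ℝ → Z → ℝ) : Prop := ∀ T : ℝ, ∃ R : ℝ, ∀ t, |t| ≤ T → ∀ z, f t z ≠ 0 → ‖z‖ ≤ R

/-- Glassey-Strauss kernel -/
def kEB (w v : V3) (k : Z) : Z := (b2 w v • ELW w v k, b2 w v • BLW w v k)

def gam (w v : V3) : Z :=
  ((b2 w v * ‖w‖)⁻¹ • (hat w - uu v), cross (hat w) ((b2 w v * ‖w‖)⁻¹ • (hat w - uu v)))

def WW (j : Fin 3) (w v : V3) : Z :=
  (‖w‖⁻¹ • ee j, ‖w‖⁻¹ • cross (uu v) (ee j)) + (uu v j) • gam w v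

def Gs (f : ℝ → Z → ℝ) (F : ℝ → V3 → Z) (w : V3) (t : ℝ) (y : V3) : Z :=
  ∫ v, f t (y, v) • kEB w v (F t y)

def K0 (E₀ B₀ : V3 → V3) (x : V3) : Z := (E₀ x, B₀ x)

def K1 (E₀ B₀ : V3 → V3) (x : V3) : Z := (curl B₀ x, -curl E₀ x)

def GH (E₀ B₀ : V3 → V3) (w : V3) (t : ℝ) (y : V3) : Z :=
  ‖w‖⁻¹ • (lap (K0 E₀ B₀) y + t • lap (K1 E₀ B₀) y)

def GD (f₀ : Z → ℝ) (w : V3) (_t : ℝ) (y : V3) : Z :=
  ∫ v, (f₀ (y, v) / ‖w‖ - fderiv ℝ f₀ (y, v) (hat w, 0)) • gam w v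

/-- free wave with the data `K0`, `K1` -/
def Hom (E₀ B₀ : V3 → V3) (s : ℝ) (x : V3) : Z :=
  K0 E₀ B₀ x + max s 0 • K1 E₀ B₀ x + om⁻¹ • RR (GH E₀ B₀) s x

/-- data part of the field -/
def HD (f₀ : Z → ℝ) (E₀ B₀ : V3 → V3) (s : ℝ) (x : V3) : Z :=
  Hom E₀ B₀ s x + om⁻¹ • RR (GD f₀) s x

/-- the field generated by the particles moving in the field `F` -/
def TT (f₀ : Z → ℝ) (E₀ B₀ : V3 → V3) (F : ℝ → V3 → Z) (s : ℝ) (x : V3) : Z :=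
  HD f₀ E₀ B₀ s x + om⁻¹ • RR (Gs (ff f₀ F) F) s x

/-- the particle system attached to `F` -/
def sys (f₀ : Z → ℝ) (F : ℝ → V3 → Z) : PS where
  μ := (volume : Measure Z).withDensity (fun z => ENNReal.ofReal (f₀ z / om))
  S := Function.support f₀
  Y := fun σ z => (flow (vf F) σ 0 z).1
  V := fun σ z => (flow (vf F) σ 0 z).2
  K := F

/-- far part of the Lienard-Wiechert field -/
def PS.far (Γ : PS) (η s : ℝ) (x : V3) : Z :=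
  ∫ z in Γ.act s x ∩ {z | η ≤ ‖(Γ.wv s x z).1‖},
    (ELW (Γ.wv s x z).1 (Γ.wv s x z).2 (Γ.Kr s x (Γ.wv s x z).1),
      BLW (Γ.wv s x z).1 (Γ.wv s x z).2 (Γ.Kr s x (Γ.wv s x z).1)) ∂Γ.μ

/-- directional derivative of a function on space-time -/
def dD (v : ℝ × V3) (φ : ℝ × V3 → ℝ) (p : ℝ × V3) : ℝ := fderiv ℝ φ p v

def dt (φ : ℝ × V3 → ℝ) : ℝ × V3 → ℝ := dD (1, 0) φ

def dx (j : Fin 3) (φ : ℝ × V3 → ℝ) : ℝ × V3 → ℝ := dD (0, ee j) φ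

def gx (φ : ℝ × V3 → ℝ) (p : ℝ × V3) : V3 := WithLp.toLp 2 (fun j => dx j φ p)

structure Test (φ : ℝ × V3 → ℝ) : Prop where
  smooth : ContDiff ℝ ∞ φ
  compact : HasCompactSupport φ
  pos : tsupport φ ⊆ {p | 0 < p.1}

/-- positive times -/
def Hs : Set (ℝ × V3) := {p | 0 < p.1}

/-- support condition that is stable under differentiation -/
def Cpt (ψ : ℝ × V3 → ℝ) : Prop :=
  ∃ T R : ℝ, (∀ p, T < p.1 → ψ p = 0) ∧ ∀ p, -1 < p.1 → R < ‖p.2‖ → ψ p = 0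

/-- cone bound at time `s` -/
def PS.Cone (Γ : PS) (s M : ℝ) : Prop :=
  ∀ x, ∀ g : Z → ℝ≥0∞, Measurable g →
    Γ.cI s x g ≤ ENNReal.ofReal M * ∫⁻ p in {p : Z | ‖p.1‖ < s}, g p * ENNReal.ofReal (b2 p.1 p.2)

/-- `F` is generated by the particles it moves, on `[0,T]` -/
def Fix (f₀ : Z → ℝ) (E₀ B₀ : V3 → V3) (F : ℝ → V3 → Z) (T : ℝ) : Prop :=
  ∀ t ∈ Icc (0 : ℝ) T, F t = TT f₀ E₀ B₀ F t

/-- sup bound on `[0,T]` -/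
def Sup (F : ℝ → V3 → Z) (T N : ℝ) : Prop := ∀ t ∈ Icc (0 : ℝ) T, ∀ y, ‖F t y‖ ≤ N

/-- advanced potential -/
def adv (φ : ℝ × V3 → ℝ) (p : ℝ × V3) : ℝ := om⁻¹ * ∫ w : V3, ‖w‖⁻¹ * φ (p.1 + ‖w‖, p.2 + w)

def chi (φ : ℝ × V3 → ℝ) (p : ℝ × Z) : Z :=
  om⁻¹ • ∫ w : V3, φ (p.1 + ‖w‖, p.2.1 + w) • gam w p.2.2

/-- source term of the pairing identity -/
def src (ψ : ℝ × V3 → ℝ) (f : ℝ → Z → ℝ) (p : ℝ × V3) : Z :=
  (rho (f p.1) p.2 • gx ψ p + dt ψ p • cur (f p.1) p.2, cross (cur (f p.1) p.2) (gx ψ p))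

/-- the pairing of the field with test functions -/
def Pair (E₀ B₀ : V3 → V3) (f : ℝ → Z → ℝ) (K : ℝ → V3 → Z) : Prop :=
  ∀ φ, Test φ → ∫ p in Hs, φ p • K p.1 p.2 =
    -(∫ y, dt (adv φ) (0, y) • K0 E₀ B₀ y) + (∫ y, adv φ (0, y) • K1 E₀ B₀ y)
      + ∫ p in Hs, src (adv φ) f p

/-- weak continuity equation -/
def WCont (f : ℝ → Z → ℝ) : Prop :=
  ∀ (χ : ℝ × V3 → ℝ) (T : ℝ), ContDiff ℝ 1 χ → (∀ p, T < p.1 → χ p = 0) →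
    ∫ p in Hs, (rho (f p.1) p.2 * dt χ p + ⟪cur (f p.1) p.2, gx χ p⟫) =
      -∫ y, rho (f 0) y * χ (0, y)

/-- continuity and support of the densities -/
structure Den (f : ℝ → Z → ℝ) : Prop where
  crho : Continuous (fun p : ℝ × V3 => rho (f p.1) p.2)
  ccur : Continuous (fun p : ℝ × V3 => cur (f p.1) p.2)
  supp : ∀ T : ℝ, ∃ R : ℝ, ∀ t, |t| ≤ T → ∀ y, R ≤ ‖y‖ → rho (f t) y = 0 ∧ cur (f t) y = 0

/-- weak Maxwell equations -/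
structure WMax (f : ℝ → Z → ℝ) (K : ℝ → V3 → Z) : Prop where
  gE : ∀ φ, Test φ → ∫ p in Hs, (⟪gx φ p, (K p.1 p.2).1⟫ + φ p * rho (f p.1) p.2) = 0
  gB : ∀ φ, Test φ → ∫ p in Hs, ⟪gx φ p, (K p.1 p.2).2⟫ = 0
  amp : ∀ φ, Test φ → ∫ p in Hs,
    (dt φ p • (K p.1 p.2).1 - cross (gx φ p) (K p.1 p.2).2 - φ p • cur (f p.1) p.2) = 0
  far : ∀ φ, Test φ → ∫ p in Hs, (dt φ p • (K p.1 p.2).2 + cross (gx φ p) (K p.1 p.2).1) = 0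

/-- time derivative of the field -/
def MG (f : ℝ → Z → ℝ) (K : ℝ → V3 → Z) (t : ℝ) (x : V3) : Z :=
  (curl (fun y => (K t y).2) x - cur (f t) x, -curl (fun y => (K t y).1) x)

/-- Maxwell equations -/
structure Max (f : ℝ → Z → ℝ) (K : ℝ → V3 → Z) : Prop where
  gE : ∀ t, 0 ≤ t → ∀ x, dvg (fun y => (K t y).1) x = rho (f t) x
  gB : ∀ t, 0 ≤ t → ∀ x, dvg (fun y => (K t y).2) x = 0
  cG : Continuous (fun p : ℝ × V3 => MG f K p.1 p.2)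
  time : ∀ t, 0 ≤ t → ∀ x, K t x = K 0 x + ∫ σ in (0 : ℝ)..t, MG f K σ x
  c1 : ContDiffOn ℝ 1 (fun p : ℝ × V3 => K p.1 p.2) (Ici 0 ×ˢ univ)
  der : ∀ t, 0 ≤ t → ∀ x, HasDerivWithinAt (fun s => K s x) (MG f K t x) (Ici 0) t

/-- local conservation law with source `g` on `[0,T]` -/
def Cons (e : ℝ → V3 → ℝ) (S : ℝ → V3 → V3) (g : ℝ → V3 → ℝ) (T : ℝ) : Prop :=
  ∀ (ψ : ℝ × V3 → ℝ) (R : ℝ), ContDiff ℝ 1 ψ → ∀ t ∈ Icc (0 : ℝ) T,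
    (∀ σ ∈ Icc (-1 : ℝ) (t + 1), ∀ y, R ≤ ‖y‖ → ψ (σ, y) = 0) →
    (∫ y, e t y * ψ (t, y)) - ∫ y, e 0 y * ψ (0, y) =
      ∫ σ in (0 : ℝ)..t, ∫ y, (e σ y * dt ψ (σ, y) + ⟪S σ y, gx ψ (σ, y)⟫ + g σ y * ψ (σ, y))

def eK (K : ℝ → V3 → Z) (t : ℝ) (y : V3) : ℝ := (‖(K t y).1‖ ^ 2 + ‖(K t y).2‖ ^ 2) / 2

def SK (K : ℝ → V3 → Z) (t : ℝ) (y : V3) : V3 := cross (K t y).1 (K t y).2

def eP (f : ℝ → Z → ℝ) (t : ℝ) (y : V3) : ℝ := ∫ v, f t (y, v) * q v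

def SP (f : ℝ → Z → ℝ) (t : ℝ) (y : V3) : V3 := ∫ v, f t (y, v) • v

/-- properties of the solution of the Vlasov equation in a regular field -/
structure Vl (f₀ : Z → ℝ) (F : ℝ → V3 → Z) : Prop where
  c1 : ContDiff ℝ 1 (fun p : ℝ × Z => ff f₀ F p.1 p.2)
  reg : Reg (ff f₀ F)
  spa : SpA (ff f₀ F)
  init : ff f₀ F 0 = f₀
  eq : ∀ t z, fderiv ℝ (fun p : ℝ × Z => ff f₀ F p.1 p.2) (t, z) (1, vf F t z) = 0
  back : ∀ t z, ff f₀ F t (flow (vf F) t 0 z) = f₀ z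
  mp : ∀ s t, MeasurePreserving (flow (vf F) s t) (volume : Measure Z) volume

/-- a truncation of the fields that acts as the identity below the thresholds `n k` -/
structure ClP (n : ℕ → ℝ) (Cl : ℝ → Z → Z) : Prop where
  reg : Reg Cl
  lip : ∀ T : ℝ, ∃ C : ℝ, ∀ t t', |t| ≤ T → |t'| ≤ T → ∀ k, ‖Cl t k - Cl t' k‖ ≤ C * |t - t'|
  id : ∀ t, 0 ≤ t → ∀ m : ℕ, (m : ℝ) ≤ t + 2 → ∀ k, ‖k‖ ≤ n m → Cl t k = k

def clF (Cl : ℝ → Z → Z) (K : ℝ → V3 → Z) (t : ℝ) (x : V3) : Z := Cl t (K t x)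

/-- the iteration -/
def It (f₀ : Z → ℝ) (E₀ B₀ : V3 → V3) (Cl : ℝ → Z → Z) : ℕ → ℝ → V3 → Z
  | 0 => fun _ _ => 0
  | n + 1 => TT f₀ E₀ B₀ (clF Cl (It f₀ E₀ B₀ Cl n))

end Vale.Agent.P107
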