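import Vale.Agent.P107.Basic

/-! Problem P107: phase space volumes. -/

open MeasureTheory Set Filter Topology
open scoped ENNReal RealInnerProductSpace ContDiff

noncomputable section
namespace Vale.Agent.P107
namespace PhX

theorem tube {e : V3} (he : e ≠ 0) {R h : ℝ} (hR : 0 ≤ R) (hh : 0 ≤ h) :
    volume {v : V3 | ‖v‖ ≤ R ∧ ∃ t : ℝ, ‖v - t • e‖ ≤ h} ≤ ENNReal.ofReal (8 * h ^ 2 * R) := by
  have h1 : Orthonormal ℝ (({0} : Set (Fin 3)).domRestrict fun _ => hat e) :=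
    ⟨fun _ => norm_hat he, fun i j hij => absurd (Subsingleton.elim i j) hij⟩
  obtain ⟨b, hb⟩ := h1.exists_orthonormalBasis_extension_of_card_eq (by simp)
  have h2 : e = ‖e‖ • b 0 := by rw [hb 0 rfl, norm_smul_hat]
  have h3 : {v : V3 | ‖v‖ ≤ R ∧ ∃ t : ℝ, ‖v - t • e‖ ≤ h} ⊆
      b.repr ⁻¹' (WithLp.ofLp ⁻¹' Icc (-![R, h, h]) ![R, h, h]) := by
    rintro v ⟨k1, t, k2⟩
    have k3 : ∀ (w : V3) (i : Fin 3), |b.repr w i| ≤ ‖w‖ := fun w i =>
      (PiLp.norm_apply_le (b.repr w) i).trans (b.repr.norm_map w).le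
    have k4 : ∀ i : Fin 3, i ≠ 0 → |b.repr v i| ≤ h := fun i hi => by
      have := (k3 (v - t • e) i).trans k2
      rw [h2] at this
      simpa [hi] using this
    have k5 : ∀ i : Fin 3, |b.repr v i| ≤ ![R, h, h] i := fun i => by
      fin_cases i
      exacts [(k3 v 0).trans k1, k4 1 (by decide), k4 2 (by decide)]
    exact ⟨fun i => (abs_le.1 (k5 i)).1, fun i => (abs_le.1 (k5 i)).2⟩
  refine (measure_mono h3).trans (le_of_eq ?_)
  rw [b.measurePreserving_repr.measure_preimage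
    ((measurableSet_Icc.preimage (by fun_prop)).nullMeasurableSet),
    (PiLp.volume_preserving_ofLp (Fin 3)).measure_preimage measurableSet_Icc.nullMeasurableSet,
    Real.volume_Icc_pi, Fin.prod_univ_three]
  simp only [Pi.neg_apply, Matrix.cons_val_zero, Matrix.cons_val_one, Matrix.cons_val]
  rw [← ENNReal.ofReal_mul (by linarith), ← ENNReal.ofReal_mul (by nlinarith)]
  exact congrArg _ (by ring)

theorem cone {e : V3} (he : e ≠ 0) (he1 : ‖e‖ ≤ 1) {x y : ℝ} (hx : 0 ≤ x) (hy : 0 ≤ y)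
    {S : Set V3} (hS : ∀ v ∈ S, ∃ (t : ℝ) (u : V3), 0 ≤ t ∧ t ≤ x ∧ ‖u‖ ≤ 1 ∧ dd u e ≤ y ∧ t • u = v) :
    volume S ≤ ENNReal.ofReal (18 * x ^ 3 * y ^ 2) := by
  refine le_trans (measure_mono fun v hv => ?_)
    ((tube he hx (h := x * (3 / 2 * y)) (by positivity)).trans (le_of_eq (congrArg _ (by ring))))
  obtain ⟨t, u, h1, h2, h3, h4, rfl⟩ := hS v hv
  refine ⟨?_, t, ?_⟩
  · rw [norm_smul, Real.norm_of_nonneg h1]
    exact (mul_le_of_le_one_right h1 h3).trans h2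
  · rw [← smul_sub, norm_smul, Real.norm_of_nonneg h1]
    exact mul_le_mul h2 ((norm_sub_le_dd h3 he1).trans (by linarith)) (norm_nonneg _) hx

theorem shell {e : V3} (he : e ≠ 0) (he1 : ‖e‖ ≤ 1) {x y : ℝ} (hx : 0 < x) (hy : 0 ≤ y) :
    ∫⁻ w in {w : V3 | x / 2 < ‖w‖ ∧ ‖w‖ ≤ x ∧ dd (hat w) e ≤ y}, ENNReal.ofReal (1 / ‖w‖ ^ 2) ≤
      ENNReal.ofReal (72 * y ^ 2 * x) := by
  have hm : MeasurableSet {w : V3 | x / 2 < ‖w‖ ∧ ‖w‖ ≤ x ∧ dd (hat w) e ≤ y} :=
    (measurableSet_lt measurable_const measurable_norm).inter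
      ((measurableSet_le measurable_norm measurable_const).inter
        (measurableSet_le (Measurable.dd' measurable_hat measurable_const) measurable_const))
  refine (setLIntegral_mono' (g := fun _ => ENNReal.ofReal (1 / (x / 2) ^ 2)) hm fun w hw =>
    ENNReal.ofReal_le_ofReal (one_div_le_one_div_of_le (by positivity)
      (pow_le_pow_left₀ (by positivity) hw.1.le 2))).trans ?_
  rw [setLIntegral_const]
  refine (mul_le_mul_right (cone he he1 hx.le hy fun w hw =>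
    ⟨‖w‖, hat w, norm_nonneg _, hw.2.1, norm_hat_le w, hw.2.2, norm_smul_hat w⟩) _).trans
    (le_of_eq ?_)
  rw [← ENNReal.ofReal_mul (by positivity)]
  exact congrArg _ (by field_simp; ring)

end PhX

theorem phase : Ph := by
  refine ⟨144, by norm_num, fun e h1 h2 x y hx hy => ⟨?_, ?_⟩⟩
  all_goals have he : e ≠ 0 := norm_pos_iff.1 (by linarith)
  · refine (PhX.cone he h2 hx.le hy.le fun v hv => ⟨q v, uu v, (q_pos v).le, hv.1, norm_uu_le v,
      dd_comm e _ ▸ hv.2, q_smul_uu v⟩).trans (ENNReal.ofReal_le_ofReal ?_)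
    have : 0 ≤ x ^ 3 * y ^ 2 := by positivity
    linarith
  · have h3 : {w : V3 | ‖w‖ ≤ x ∧ dd (hat w) e ≤ y} ⊆ {0} ∪ ⋃ i : ℕ, {w : V3 |
        x * (1 / 2) ^ i / 2 < ‖w‖ ∧ ‖w‖ ≤ x * (1 / 2) ^ i ∧ dd (hat w) e ≤ y} := by
      intro w hw
      by_cases h0 : w = 0
      · exact Or.inl h0
      obtain ⟨i, k1, k2⟩ := exists_nat_pow_near_of_lt_one (div_pos (norm_pos_iff.2 h0) hx)
        ((div_le_one hx).2 hw.1) (y := 1 / 2) (by norm_num) (by norm_num)
      rw [lt_div_iff₀ hx, pow_succ] at k1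
      rw [div_le_iff₀ hx] at k2
      exact Or.inr (mem_iUnion.2 ⟨i, by linarith, by linarith, hw.2⟩)
    refine (lintegral_mono_set h3).trans ((lintegral_union_le _ _ _).trans ?_)
    rw [setLIntegral_measure_zero _ _ (measure_singleton 0), zero_add]
    refine (lintegral_iUnion_le _ _).trans ((ENNReal.tsum_le_tsum fun i =>
      PhX.shell he h2 (by positivity) hy.le).trans (le_of_eq ?_))
    have h4 := (hasSum_geometric_two.mul_left x).mul_left (72 * y ^ 2)
    rw [← ENNReal.ofReal_tsum_of_nonneg (fun i => by positivity) h4.summable, h4.tsum_eq]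
    exact congrArg _ (by ring)

end Vale.Agent.P107
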