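import Vale.Agent.P107.Obj

/-! Problem P107, part I: the statements of the steps of the momentum bound. -/

open MeasureTheory Set Filter Topology
open scoped ENNReal RealInnerProductSpace

noncomputable section
namespace Vale.Agent.P107

/-- geometric sums over dyadic numbers -/
def Geo : Prop := ∀ η : ℝ, 0 < η → ∃ C : ℝ, 0 < C ∧ ∀ (n : ℕ) (x : ℝ), 0 < x →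
  (∑ j ∈ Finset.range n, min (dy j / x) (x / dy j) ^ η ≤ C) ∧
  (∑ j ∈ Finset.range n, min ((2 : ℝ) ^ j / x) (x / 2 ^ j) ^ η ≤ C)

def A1 : Prop := ∃ C : ℝ, 0 < C ∧ ∀ (n v : V3) (k : Z), ‖n‖ = 1 →
  ‖acc v k‖ ≤ C * kap n v k / q v ∧ |⟪n, acc v k⟫| ≤ C * dd n (uu v) * kap n v k / q v

def A2 : Prop := ∃ C : ℝ, 0 < C ∧ ∀ (U w v : V3) (k : Z), ‖U‖ ≤ 1 → w ≠ 0 →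
  (∀ x, lor U (hat w) x = dd (hat w) U ^ 2 • x + ⟪U, x⟫ • hat w) ∧
  ⟪hat w, ES w v k⟫ = 0 ∧
  ‖ES w v k‖ ≤ C * kap (hat w) v k / (q v * dd (hat w) (uu v) ^ 4 * ‖w‖) ∧
  ‖lor U (hat w) (ET w v)‖ ≤ C * kT U w v ∧
  ‖lor U (hat w) (ES w v k)‖ ≤ C * kS U w v k

def A3a : Prop := ∃ C : ℝ, 0 < C ∧ ∀ (e U v : V3) (k : Z) (ε s : ℝ) (w u : ℝ → V3),
  ‖e‖ = 1 → ‖U‖ ≤ 1 → dd U e ≤ ε → w s ≠ 0 → u s = uu v →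
  16 * ε ≤ dd (hat (w s)) e → 8 * dd (hat (w s)) (uu v) ≤ dd (hat (w s)) e →
  HasDerivAt w (U - sgp U (w s) v • uu v) s → HasDerivAt u (sgp U (w s) v • acc v k) s →
  ‖GG e (w s) (u s)‖ ≤ C / (dd (hat (w s)) U * dd (hat (w s)) (uu v) * ‖w s‖) ∧
  ∃ D, HasDerivAt (fun t => GG e (w t) (u t)) D s ∧
    ‖D - lor U (hat (w s)) (ES (w s) v k)‖ ≤
      C * (kT U (w s) v + 1 / (dd (hat (w s)) (uu v) ^ 2 * ‖w s‖ ^ 2)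
        + ε / dd (hat (w s)) U * kS U (w s) v k)

def A3b : Prop := ∃ C : ℝ, 0 < C ∧ ∀ (e U v : V3) (k : Z) (δ a₀ ε s : ℝ) (w u : ℝ → V3),
  ‖e‖ = 1 → ‖U‖ ≤ 1 → dd U e ≤ ε → w s ≠ 0 → u s = uu v →
  0 < δ → δ ≤ 1 / 8 → 0 < a₀ → 16 * ε ≤ a₀ →
  HasDerivAt w (U - sgp U (w s) v • uu v) s → HasDerivAt u (sgp U (w s) v • acc v k) s →
  ∃ D, HasDerivAt (fun t => vs δ a₀ e (w t) (u t)) D s ∧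
    (1 ≤ vs δ a₀ e (w s) (u s) → vs δ a₀ e (w s) (u s) ≤ 2 →
      |D| / (dd (hat (w s)) U * dd (hat (w s)) (uu v) * ‖w s‖) ≤
        C * (kT U (w s) v + (1 / dd (hat (w s)) (uu v) ^ 2
          + 1 / (δ ^ 2 * dd (hat (w s)) U * dd (hat (w s)) (uu v))) / ‖w s‖ ^ 2 + kS U (w s) v k))

def A3 : Prop := ∃ C : ℝ, 0 < C ∧ ∀ (e U v : V3) (k : Z) (δ a₀ ε s : ℝ) (w u : ℝ → V3),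
  ‖e‖ = 1 → ‖U‖ ≤ 1 → dd U e ≤ ε → w s ≠ 0 → u s = uu v →
  0 < δ → δ ≤ 1 / 8 → 0 < a₀ → 16 * ε ≤ a₀ →
  HasDerivAt w (U - sgp U (w s) v • uu v) s → HasDerivAt u (sgp U (w s) v • acc v k) s →
  ∃ D, HasDerivAt (fun t => CG δ a₀ e (w t) (u t)) D s ∧
    ‖D - FLW U (w s) v k‖ ≤ C * KK δ a₀ ε U (w s) v k

def A4 : Prop := ∃ C : ℝ, 0 < C ∧ ∀ (δ a₀ : ℝ) (e e' w v : V3),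
  0 < δ → δ ≤ 1 / 8 → 0 < a₀ → ‖e‖ = 1 → ‖e'‖ = 1 →
  ‖CG δ a₀ e w (uu v)‖ ≤ C * ph δ a₀ e w v ∧
  ‖CG δ a₀ e w (uu v) - CG δ a₀ e' w (uu v)‖ ≤
    C * (‖e - e'‖ / a₀) * (ph δ a₀ e w v + ph δ a₀ e' w v) ∧
  (2 * δ * q v ≤ 1 → vs δ a₀ e w (uu v) ≤ 1)

/-- basic properties of the retarded time -/
structure RetP (Γ : PS) : Prop where
  speed : ∀ z t t', t ≠ t' → ‖Γ.Y t z - Γ.Y t' z‖ < |t - t'|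
  cont : Continuous (fun p : ℝ × V3 × Z => Γ.ret p.1 p.2.1 p.2.2)
  nonneg : ∀ s x z, 0 ≤ Γ.ret s x z
  le : ∀ s x z, 0 ≤ s → Γ.ret s x z ≤ s
  act : ∀ s x z, z ∈ Γ.act s x → 0 < Γ.ret s x z ∧ s - Γ.ret s x z = ‖(Γ.wv s x z).1‖
  nact : ∀ s x z, z ∉ Γ.act s x → Γ.ret s x z = 0
  char : ∀ s x z σ, 0 ≤ σ → s - σ = ‖x - Γ.Y σ z‖ → Γ.ret s x z = σ
  char' : ∀ s x z σ, 0 < σ → s - σ = ‖x - Γ.Y σ z‖ → z ∈ Γ.act s x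
  up : ∀ z₀ z s s', s ≤ s' → z ∈ Γ.act s (Γ.Y s z₀) → z ∈ Γ.act s' (Γ.Y s' z₀)
  mono : ∀ z₀ z, Monotone (fun s => Γ.ret s (Γ.Y s z₀) z)
  smono : ∀ z₀ z, StrictMonoOn (fun s => Γ.ret s (Γ.Y s z₀) z) {s | z ∈ Γ.act s (Γ.Y s z₀)}
  nohit : ∀ z₀ z t s, Γ.NoHit z₀ t z → s ∈ Icc (0 : ℝ) t → (Γ.wv s (Γ.Y s z₀) z).1 ≠ 0
  cwv : Continuous (fun p : ℝ × V3 × Z => Γ.wv p.1 p.2.1 p.2.2)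
  opn : IsOpen {p : ℝ × V3 × Z | p.2.2 ∈ Γ.act p.1 p.2.1}

def Ret1 : Prop := ∀ Γ : PS, Γ.Kin → RetP Γ

/-- derivatives along the test particle -/
def Ret2 : Prop := ∀ Γ : PS, Γ.Kin → ∀ z₀ z s, z ∈ Γ.act s (Γ.Y s z₀) →
  (Γ.wv s (Γ.Y s z₀) z).1 ≠ 0 →
  HasDerivAt (fun t => Γ.ret t (Γ.Y t z₀) z)
    (sgp (Γ.U z₀ s) (Γ.wv s (Γ.Y s z₀) z).1 (Γ.wv s (Γ.Y s z₀) z).2) s ∧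
  HasDerivAt (fun t => (Γ.wv t (Γ.Y t z₀) z).1)
    (Γ.U z₀ s - sgp (Γ.U z₀ s) (Γ.wv s (Γ.Y s z₀) z).1 (Γ.wv s (Γ.Y s z₀) z).2 •
      uu (Γ.wv s (Γ.Y s z₀) z).2) s ∧
  HasDerivAt (fun t => uu (Γ.wv t (Γ.Y t z₀) z).2)
    (sgp (Γ.U z₀ s) (Γ.wv s (Γ.Y s z₀) z).1 (Γ.wv s (Γ.Y s z₀) z).2 •
      acc (Γ.wv s (Γ.Y s z₀) z).2 (Γ.kk z₀ (s, Γ.wv s (Γ.Y s z₀) z))) s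

/-- phase space volumes -/
def Ph : Prop := ∃ C : ℝ, 0 < C ∧ ∀ e : V3, 1 / 2 ≤ ‖e‖ → ‖e‖ ≤ 1 → ∀ x y : ℝ, 0 < x → 0 < y →
  volume {v : V3 | q v ≤ x ∧ dd e (uu v) ≤ y} ≤ ENNReal.ofReal (C * x ^ 3 * y ^ 2) ∧
  ∫⁻ w in {w : V3 | ‖w‖ ≤ x ∧ dd (hat w) e ≤ y}, ENNReal.ofReal (1 / ‖w‖ ^ 2)
    ≤ ENNReal.ofReal (C * y ^ 2 * x)

def Ph2 : Prop := ∃ C : ℝ, 0 < C ∧ ∀ (n : V3) (k : ℕ), ‖n‖ = 1 →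
  ∫⁻ v in {v : V3 | q v ≤ 2 ^ k}, ENNReal.ofReal (1 / (q v ^ 3 * dd n (uu v) ^ 2))
    ≤ ENNReal.ofReal (C * LL k ^ 2)

/-- Tonelli for the measure `lam` -/
def Ton : Prop := ∀ Γ : PS, Γ.Kin → ∀ z₀ s₀ τ,
  IsFiniteMeasure (Γ.lam z₀ s₀ τ) ∧ Continuous (Γ.kk z₀) ∧ Continuous (Γ.U z₀) ∧
  (∀ p α β θ, MeasurableSet (Γ.Bx z₀ p α β θ)) ∧
  (∀ᵐ x ∂Γ.lam z₀ s₀ τ, x.1 ∈ Icc s₀ (s₀ + τ) ∧ ‖x.2.1‖ < x.1) ∧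
  ∀ Φ : ℝ × Z → ℝ≥0∞, Measurable Φ →
    (Measurable fun s => Γ.cI s (Γ.Y s z₀) (fun x => Φ (s, x))) ∧
    (∫⁻ x, Φ x ∂Γ.lam z₀ s₀ τ =
      ∫⁻ s in Icc s₀ (s₀ + τ), Γ.cI s (Γ.Y s z₀) (fun x => Φ (s, x))) ∧
    (Measurable fun z => ∫⁻ s in Icc s₀ (s₀ + τ) ∩ {s | z ∈ Γ.act s (Γ.Y s z₀)},
      Φ (s, Γ.wv s (Γ.Y s z₀) z)) ∧
    (∫⁻ x, Φ x ∂Γ.lam z₀ s₀ τ =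
      ∫⁻ z, (∫⁻ s in Icc s₀ (s₀ + τ) ∩ {s | z ∈ Γ.act s (Γ.Y s z₀)},
        Φ (s, Γ.wv s (Γ.Y s z₀) z)) ∂Γ.μ)

/-- reduction of a box integral to an integral in `(s,w)` -/
def Red : Prop := ∃ C : ℝ, 0 < C ∧ ∀ (Γ : PS) (T Λ N P : ℝ) z₀ s₀ τ p', Γ.Good T Λ N →
  Γ.Tst T P z₀ s₀ τ p' → ∀ p α β θ : ℝ, 0 < p → 0 < α → 0 < β → 0 < θ →
  ∀ φ : ℝ × V3 → ℝ≥0∞, Measurable φ →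
    ∫⁻ x in Γ.Bx z₀ p α β θ, φ (x.1, x.2.1) ∂Γ.lam z₀ s₀ τ ≤
      ENNReal.ofReal (C * Λ * p ^ 3 * min β θ ^ 2 * β ^ 2) *
        ∫⁻ s in Icc s₀ (s₀ + τ),
          ∫⁻ w in {w : V3 | ‖w‖ < s ∧ dd (hat w) (Γ.U z₀ s) ∈ Ico α (2 * α)}, φ (s, w)

def Near : Prop := ∃ C : ℝ, 0 < C ∧ ∀ (Γ : PS) (T Λ N P : ℝ) z₀ s₀ τ p', Γ.Good T Λ N →
  Γ.Tst T P z₀ s₀ τ p' → ∀ p α β θ : ℝ, 0 < p → 0 < α → 0 < β → 0 < θ →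
  (∀ ρ, 0 < ρ → Γ.JA z₀ s₀ τ p α β θ (Iic ρ) ≤ ENNReal.ofReal (C * Λ * Xq τ p α β θ * ρ)) ∧
  Γ.IB z₀ s₀ τ p α β θ univ (fun x => Kg (hat x.2.1) (Γ.kk z₀ x) ^ 2) ≤
    ENNReal.ofReal (C * Λ ^ 2 * τ * p ^ 3 * min β θ ^ 2 * β ^ 2)

/-- crude bounds that depend on everything; only finiteness matters -/
def Crude : Prop :=
  (∀ T P N : ℝ, ∃ C : ℝ, 0 < C ∧ ∀ (w v : V3) (k : Z), q v ≤ P → ‖k‖ ≤ N → ‖w‖ ≤ T →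
    ‖ELW w v k‖ ≤ C / ‖w‖ ^ 2 ∧ ‖BLW w v k‖ ≤ C / ‖w‖ ^ 2 ∧
    (∀ U, ‖U‖ ≤ 1 → ‖FLW U w v k‖ ≤ C / ‖w‖ ^ 2) ∧
    ∀ δ a₀ e, 0 < a₀ → ph δ a₀ e w v ≤ C / (a₀ * ‖w‖ ^ 2)) ∧
  (∀ Λ P : ℝ, ∃ C : ℝ, 0 < C ∧ ∀ (Γ : PS) (T N : ℝ), Γ.Good T Λ N →
    ∀ s ∈ Icc (0 : ℝ) T, Γ.Bd s P → ∀ x,
      Γ.cI s x (fun y => ENNReal.ofReal (1 / ‖y.1‖ ^ 2)) ≤ ENNReal.ofReal C ∧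
      (∀ᵐ z ∂Γ.μ, z ∈ Γ.act s x → q (Γ.wv s x z).2 ≤ P ∧ ‖(Γ.wv s x z).1‖ < s ∧
        (Γ.wv s x z).1 ≠ 0 ∧ ‖Γ.Kr s x (Γ.wv s x z).1‖ ≤ N))

def NoHitS : Prop := ∀ (Γ : PS) (T Λ N P t : ℝ) z₀, Γ.Good T Λ N → 0 < t → t ≤ T → Γ.Bd t P →
  ∀ᵐ z ∂Γ.μ, Γ.NoHit z₀ t z

/-- space-time energy and cone energy -/
def SpE : Prop := ∀ (Γ : PS) (T Λ N P : ℝ) z₀ s₀ τ p', Γ.Good T Λ N → Γ.Tst T P z₀ s₀ τ p' →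
  (∀ φ : ℝ → ℝ≥0∞, Measurable φ →
    ∫⁻ x, φ (x.1 - ‖x.2.1‖) * ENNReal.ofReal (q x.2.2 * sgp (Γ.U z₀ x.1) x.2.1 x.2.2)
      ∂Γ.lam z₀ s₀ τ ≤ ENNReal.ofReal Λ * ∫⁻ σ in Icc 0 (s₀ + τ), φ σ) ∧
  ∫⁻ x, ENNReal.ofReal (q x.2.2) ∂Γ.lam z₀ s₀ τ ≤ ENNReal.ofReal (Λ * τ) ∧
  (∀ᵐ x ∂Γ.lam z₀ s₀ τ, q x.2.2 ≤ P ∧ x.2.1 ≠ 0)

def Far : Prop := ∀ (Γ : PS) (T Λ N P : ℝ) z₀ s₀ τ p', Γ.Good T Λ N → Γ.Tst T P z₀ s₀ τ p' →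
  ∀ p α β θ : ℝ, 0 < p → 0 < α → 0 < β → 0 < θ → ∀ ρ, 0 < ρ →
    Γ.JA z₀ s₀ τ p α β θ (Ioi ρ) ≤ ENNReal.ofReal (8 * Λ * Yq p α β * (τ / ρ ^ 2 + 1 / ρ))

open Classical in
/-- window estimate for one particle and one base time -/
def Win1 : Prop := ∃ C : ℝ, 0 < C ∧ ∀ (Γ : PS) (T Λ N P : ℝ) z₀ s₀ τ p', Γ.Good T Λ N →
  Γ.Tst T P z₀ s₀ τ p' → ∀ p α β θ d ρ : ℝ, 0 < p → 0 < α → 0 < β → 0 < ρ →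
  Γ.Stb z₀ s₀ τ p' p θ d → ∀ z ∈ Γ.S, Γ.NoHit z₀ (s₀ + τ) z → ∀ t ∈ Icc s₀ (s₀ + τ),
    ∫⁻ s in {s | s ∈ Icc s₀ (s₀ + τ) ∧ |s - t| ≤ d ∧ z ∈ Γ.act s (Γ.Y s z₀) ∧
        Γ.wv s (Γ.Y s z₀) z ∈ box (Γ.U z₀ s) p α β θ ∧ ‖(Γ.wv s (Γ.Y s z₀) z).1‖ ∈ Ioc ρ d},
      ENNReal.ofReal (1 / ‖(Γ.wv s (Γ.Y s z₀) z).1‖ ^ 2) ≤
    if z ∈ Γ.sim z₀ p θ t then ENNReal.ofReal (C * ((β + θ) / θ) * min 1 (β ^ 2 / α ^ 2) / ρ)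
    else 0

def Win : Prop := ∃ C : ℝ, 0 < C ∧ ∀ (Γ : PS) (T Λ N P : ℝ) z₀ s₀ τ p', Γ.Good T Λ N →
  Γ.Tst T P z₀ s₀ τ p' → ∀ p α β θ d ρ : ℝ, 0 < p → 0 < α → 0 < β → 0 < ρ →
  Γ.Stb z₀ s₀ τ p' p θ d →
    Γ.JA z₀ s₀ τ p α β θ (Ioc ρ d) ≤
      ENNReal.ofReal (C * ((β + θ) / θ) * Yq p α β / (ρ * d)) * Γ.En z₀ s₀ τ p θ

/-- bounded overlap of the energy classes -/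
def Ov : Prop := ∀ (Γ : PS) (T Λ N P : ℝ) z₀ s₀ τ p', Γ.Good T Λ N → Γ.Tst T P z₀ s₀ τ p' →
  (∀ p α β θ, Γ.nu z₀ s₀ τ p α β θ ≤ ENNReal.ofReal (3 * Λ * τ)) ∧
  (∀ p θ, Γ.En z₀ s₀ τ p θ ≤ ENNReal.ofReal (Λ * τ)) ∧
  ∀ k : ℕ,
    (∑ b ∈ Idx k, (Γ.nu z₀ s₀ τ b.p b.α b.β b.θ).toReal ≤ 3 * Λ * τ) ∧
    (∑ a ∈ Finset.range (k + 1) ×ˢ Finset.range (k + 3),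
      (Γ.En z₀ s₀ τ (2 ^ a.1) (dy a.2)).toReal ≤ 16 * Λ * τ)

/-- the two bounds for `J` with a free radius -/
def JW : Prop := ∀ Λ : ℝ, ∃ C : ℝ, 0 < C ∧ ∀ (Γ : PS) (T N P : ℝ) z₀ s₀ τ p', Γ.Good T Λ N →
  Γ.Tst T P z₀ s₀ τ p' → ∀ p α β θ : ℝ, 0 < p → 0 < α → 0 < β → 0 < θ →
  Γ.JA z₀ s₀ τ p α β θ univ ≠ ∞ ∧ ∀ ρ, 0 < ρ →
    (Γ.JA z₀ s₀ τ p α β θ univ).toReal ≤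
      C * (Xq τ p α β θ * ρ + Yq p α β * (τ / ρ ^ 2 + 1 / ρ)) ∧
    ∀ Δ, 0 < Δ → Γ.Stb z₀ s₀ τ p' p θ (min Δ τ) →
      (Γ.JA z₀ s₀ τ p α β θ univ).toReal ≤
        C * (Xq τ p α β θ * ρ + Yq p α β * ((β + θ) / θ) *
          (1 + ((Γ.nu z₀ s₀ τ p α β θ).toReal + (Γ.En z₀ s₀ τ p θ).toReal) / Δ) / ρ)

/-- stability from the induction hypothesis -/
def Stab : Prop := ∀ (Γ : PS) (t A ℓ : ℝ) (k : ℕ) z₀ (s₀ τ w p θ : ℝ), Γ.Kin → 1 ≤ A →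
  Big (1000 * A) k → Γ.Bd t (2 ^ k) → Γ.Hyp t A k (ℓ / 2) → Γ.Tst t (2 ^ k) z₀ s₀ τ (w ^ 6) →
  τ ≤ ℓ → Scl (cc A) k w τ → 0 < p → 2 ^ k ≤ p ^ 2 → 0 < θ → θ ≤ 1 →
  1 ≤ LL k ^ 12 * min p (w ^ 6) ^ 4 * θ ^ 8 →
  Γ.Stb z₀ s₀ τ (w ^ 6) p θ (min (Dq (cc A) k (w ^ 6) p θ) τ)

/-- the square root bound for `J` -/
def JB : Prop := ∀ Λ : ℝ, ∃ C : ℝ, 0 < C ∧ ∀ (Γ : PS) (T N t A ℓ : ℝ) (k : ℕ) z₀ (s₀ τ w : ℝ),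
  Γ.Good T Λ N → t ≤ T → 1 ≤ A → Big (1000 * A) k → Γ.Bd t (2 ^ k) → Γ.Hyp t A k (ℓ / 2) →
  Γ.Tst t (2 ^ k) z₀ s₀ τ (w ^ 6) → τ ≤ ℓ → Scl (cc A) k w τ → ∀ b ∈ Idx k,
    (Γ.JA z₀ s₀ τ b.p b.α b.β b.θ univ).toReal ≤
      C * √(Xq τ b.p b.α b.β b.θ * Yq b.p b.α b.β * ((b.β + b.θ) / b.θ) *
        (1 + τ * (((Γ.nu z₀ s₀ τ b.p b.α b.β b.θ).toReal / τ + 1 / LL k ^ 4)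
          + (Γ.En z₀ s₀ τ b.p b.θ).toReal / τ) / Dq (cc A) k (w ^ 6) b.p b.θ))

/-- change of variables from the backward cones of a timelike curve to space-time -/
def Pal : Prop := ∀ (X U : ℝ → V3) (s₀ s₁ : ℝ), (∀ s, HasDerivAt X (U s) s) → Continuous U →
  (∀ s, ‖U s‖ < 1) → ∀ φ : ℝ × V3 → ℝ≥0∞, Measurable φ →
    ∫⁻ s in Icc s₀ s₁, ∫⁻ w in Metric.ball (0 : V3) s,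
      ENNReal.ofReal (dd (hat w) (U s) ^ 2) * φ (s - ‖w‖, X s - w) ≤
    ∫⁻ σ in Icc 0 s₁, ∫⁻ y, φ (σ, y)

def K2 : Prop := ∃ C : ℝ, 0 < C ∧ ∀ (Γ : PS) (T Λ N P : ℝ) z₀ s₀ τ p', Γ.Good T Λ N →
  Γ.Tst T P z₀ s₀ τ p' → ∀ p α β θ τ' : ℝ, 0 < p → 0 < α → 0 < β → 0 < θ → τ ≤ τ' →
  Γ.IB z₀ s₀ τ p α β θ (Iic τ') (fun x => ‖(Γ.kk z₀ x).2‖ ^ 2) ≤
    ENNReal.ofReal (C * Λ ^ 2 * τ' * p ^ 3 * min β θ ^ 2 * β ^ 2 / α ^ 2)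

def FarB : Prop := ∀ Λ : ℝ, ∃ C : ℝ, 0 < C ∧ ∀ (Γ : PS) (T N : ℝ) (k : ℕ) z₀ s₀ τ p' τ',
  Γ.Good T Λ N → Γ.Tst T (2 ^ k) z₀ s₀ τ p' → τ ≤ τ' → 1 / (2 ^ k) ^ 2 ≤ τ' →
  ∫⁻ x in {x : ℝ × Z | τ' < ‖x.2.1‖},
    ENNReal.ofReal (dd (hat x.2.1) (Γ.U z₀ x.1) * ‖(Γ.kk z₀ x).2‖ /
      (q x.2.2 * dd (hat x.2.1) (uu x.2.2) ^ 2 * ‖x.2.1‖)) ∂Γ.lam z₀ s₀ τ
    ≤ ENNReal.ofReal (C * LL k ^ 2)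

open Classical in
/-- pointwise decomposition of the kernel into boxes -/
def Dec0 : Prop := ∃ C : ℝ, 0 < C ∧ ∀ (k : ℕ) (δ a₀ ε τ' : ℝ) (V w v : V3) (κ : Z),
  0 < δ → 0 < a₀ → 0 ≤ ε → 16 * ε ≤ a₀ → q V ≤ 2 * 2 ^ k → q v ≤ 2 ^ k → w ≠ 0 →
  ∃ b ∈ Idx k, (w, v) ∈ box (uu V) b.p b.α b.β b.θ ∧
    KK δ a₀ ε (uu V) w v κ ≤ C * (tw δ b.p b.α b.β * (1 / ‖w‖ ^ 2)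
      + (sw1 δ b.α b.β + sw2 δ a₀ ε b.α b.β) * (b.α / (b.p * b.β ^ 4)) *
          (Kg (hat w) κ / ‖w‖ + b.β ^ 2 * (if ‖w‖ ≤ τ' then ‖κ.2‖ / ‖w‖ else 0))
      + if τ' < ‖w‖ then dd (hat w) (uu V) * ‖κ.2‖ / (q v * dd (hat w) (uu v) ^ 2 * ‖w‖) else 0)

/-- reduction of the total kernel mass to finite sums -/
def Dec : Prop := ∀ Λ : ℝ, ∃ C : ℝ, 0 < C ∧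
  ∀ (Γ : PS) (T N : ℝ) (k : ℕ) z₀ (s₀ τ p' τ' δ a₀ ε : ℝ),
  Γ.Good T Λ N → Γ.Tst T (2 ^ k) z₀ s₀ τ p' → τ ≤ τ' → 1 / (2 ^ k) ^ 2 ≤ τ' →
  0 < δ → 0 < a₀ → 0 ≤ ε → 16 * ε ≤ a₀ →
  Γ.TK δ a₀ ε z₀ s₀ τ ≤ ENNReal.ofReal (C *
    (∑ b ∈ Idx k, tw δ b.p b.α b.β * (Γ.JA z₀ s₀ τ b.p b.α b.β b.θ univ).toReal
    + ∑ b ∈ Idx k, sw1 δ b.α b.β * sv τ' b.p b.α b.β b.θ *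
        √(Γ.JA z₀ s₀ τ b.p b.α b.β b.θ univ).toReal
    + ∑ b ∈ Idx k, sw2 δ a₀ ε b.α b.β * sv τ' b.p b.α b.β b.θ *
        √(Γ.JA z₀ s₀ τ b.p b.α b.β b.θ univ).toReal
    + LL k ^ 2))

def ShT : Prop := ∃ C : ℝ, 0 < C ∧ ∀ (k i m : ℕ) (δ : ℝ), 0 < δ → δ ≤ 1 / 32 →
  ∑ a ∈ Idx2 k i m, tw δ (2 ^ i) (dy a.1) (dy a.2) * (min (dy a.2) (dy m) * dy a.2 *
    min (dy a.1) (dy a.2) * √((dy a.2 + dy m) / dy m) / dy m) ≤ C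

def ShS : Prop := ∃ C : ℝ, 0 < C ∧ ∀ (k i m : ℕ) (δ : ℝ), 0 < δ → δ ≤ 1 →
  ∑ a ∈ Idx2 k i m, sw1 δ (dy a.1) (dy a.2) *
    ((dy a.1 + dy a.2 ^ 2) / dy a.2 ^ 3 * min (dy a.2) (dy m) *
      √(min (dy a.2) (dy m) * dy a.2 * min (dy a.1) (dy a.2) * √((dy a.2 + dy m) / dy m) / dy m))
    ≤ C / √δ

def SumT : Prop := ∀ D : ℝ, ∃ C : ℝ, 0 < C ∧ ∀ (c : ℝ) (k : ℕ) (w τ δ : ℝ) J E₁ E₂,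
  SumH D c k w τ J E₁ E₂ → 0 < δ → δ ≤ 1 / 32 →
  ∑ b ∈ Idx k, tw δ b.p b.α b.β * J b ≤ C * yy c k w τ

def SumS1 : Prop := ∀ D c₀ : ℝ, 0 < c₀ → c₀ ≤ 1 → ∃ C : ℝ, 0 < C ∧
  ∀ (c : ℝ) (k : ℕ) (w τ : ℝ) J E₁ E₂, SumH D c k w τ J E₁ E₂ →
  ∑ b ∈ Idx k, sw1 (c₀ * w ^ 6 / 2 ^ k) b.α b.β *
    sv (max τ (1 / (2 ^ k) ^ 2)) b.p b.α b.β b.θ * √(J b) ≤ C * yy c k w τ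

def SumS2 : Prop := ∀ D : ℝ, ∃ C : ℝ, 0 < C ∧ ∀ (c : ℝ) (k : ℕ) (w τ δ ε : ℝ) J E₁ E₂,
  SumH D c k w τ J E₁ E₂ → 0 < δ → δ ≤ 1 / 32 → 0 ≤ ε → ε ≤ D * LL k / w ^ 4 →
  ∑ b ∈ Idx k, sw2 δ (1 / w ^ 3) ε b.α b.β *
    sv (max τ (1 / (2 ^ k) ^ 2)) b.p b.α b.β b.θ * √(J b) ≤ C * yy c k w τ

/-- size of the boundary term -/
def Amp : Prop := ∀ Λ : ℝ, ∃ C : ℝ, 0 < C ∧ ∀ (Γ : PS) (T N s δ a₀ w : ℝ) (k : ℕ) (x e : V3),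
  Γ.Good T Λ N → s ∈ Icc (0 : ℝ) T → Γ.Bd s (2 ^ k) → ‖e‖ = 1 → 0 < δ → 0 < w →
  2 ^ k * δ ≤ w ^ 6 → 1 / 2 ^ k ≤ a₀ →
  Γ.cI s x (fun y => ENNReal.ofReal (ph δ a₀ e y.1 y.2)) ≤ ENNReal.ofReal (C * LL k * w ^ 2)

open Classical in
/-- integration by parts for one particle -/
def Step1 : Prop := ∃ C : ℝ, 0 < C ∧ ∀ (Γ : PS) (T Λ N P : ℝ) z₀ (s₀ τ p' δ a₀ ε : ℝ) (e : V3),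
  Γ.Good T Λ N → Γ.Tst T P z₀ s₀ τ p' → 0 < δ → δ ≤ 1 / (4 * Λ) → 0 < a₀ → 16 * ε ≤ a₀ →
  ‖e‖ = 1 → (∀ s ∈ Icc s₀ (s₀ + τ), dd (Γ.U z₀ s) e ≤ ε) →
  ∀ z ∈ Γ.S, Γ.NoHit z₀ (s₀ + τ) z →
    (∀ s, z ∉ Γ.act s (Γ.Y s z₀) →
      CG δ a₀ e (Γ.wv s (Γ.Y s z₀) z).1 (uu (Γ.wv s (Γ.Y s z₀) z).2) = 0) ∧
    ENNReal.ofReal ‖CG δ a₀ e (Γ.wv (s₀ + τ) (Γ.Y (s₀ + τ) z₀) z).1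
          (uu (Γ.wv (s₀ + τ) (Γ.Y (s₀ + τ) z₀) z).2)
        - CG δ a₀ e (Γ.wv s₀ (Γ.Y s₀ z₀) z).1 (uu (Γ.wv s₀ (Γ.Y s₀ z₀) z).2)
        - ∫ s in Icc s₀ (s₀ + τ) ∩ {s | z ∈ Γ.act s (Γ.Y s z₀)},
            FLW (Γ.U z₀ s) (Γ.wv s (Γ.Y s z₀) z).1 (Γ.wv s (Γ.Y s z₀) z).2
              (Γ.kk z₀ (s, Γ.wv s (Γ.Y s z₀) z))‖ ≤
      ENNReal.ofReal C * ∫⁻ s in Icc s₀ (s₀ + τ) ∩ {s | z ∈ Γ.act s (Γ.Y s z₀)},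
        ENNReal.ofReal (KK δ a₀ ε (Γ.U z₀ s) (Γ.wv s (Γ.Y s z₀) z).1 (Γ.wv s (Γ.Y s z₀) z).2
          (Γ.kk z₀ (s, Γ.wv s (Γ.Y s z₀) z)))

/-- integration by parts for the test particle on one interval -/
def Step : Prop := ∃ C : ℝ, 0 < C ∧ ∀ (Γ : PS) (T Λ N P : ℝ) z₀ (s₀ τ p' δ a₀ ε : ℝ) (e : V3),
  Γ.Good T Λ N → Γ.Tst T P z₀ s₀ τ p' → 0 < δ → δ ≤ 1 / (4 * Λ) → 0 < a₀ → 16 * ε ≤ a₀ →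
  ‖e‖ = 1 → (∀ s ∈ Icc s₀ (s₀ + τ), dd (Γ.U z₀ s) e ≤ ε) →
  ENNReal.ofReal ‖Γ.V (s₀ + τ) z₀ - Γ.V s₀ z₀ - (Γ.GI δ a₀ z₀ (s₀ + τ) e - Γ.GI δ a₀ z₀ s₀ e)‖ ≤
    ENNReal.ofReal C * Γ.TK δ a₀ ε z₀ s₀ τ + ENNReal.ofReal (2 * Λ * τ)

/-- the abstract recursion that updates the direction -/
def RecAbs : Prop := ∀ (V : ℝ → V3) (G : ℝ → V3 → V3) (Θ : ℝ → ℝ) (a b N p m Ψ ε : ℝ),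
  a ≤ b → 0 < p → 0 ≤ Ψ →
  (∀ s ∈ Icc a b, ∀ s' ∈ Icc a b, ‖V s - V s'‖ ≤ N * |s - s'|) →
  (∀ s ∈ Icc a b, p / 4 ≤ ‖V s‖) →
  (∀ s ∈ Icc a b, ∀ e, ‖e‖ = 1 → ‖G s e‖ ≤ m) →
  (∀ s ∈ Icc a b, ∀ e e', ‖e‖ = 1 → ‖e'‖ = 1 → ‖G s e - G s e'‖ ≤ Ψ * ‖e - e'‖) →
  8 * (m + 1) ≤ p → 32 * Ψ ≤ p → 8 * (m + 1) / p ≤ ε →
  (∀ s₁ s₂ e, a ≤ s₁ → s₁ < s₂ → s₂ ≤ b → ‖e‖ = 1 → (∀ s ∈ Icc s₁ s₂, ‖hat (V s) - e‖ ≤ ε) →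
    ‖V s₂ - V s₁ - (G s₂ e - G s₁ e)‖ ≤ Θ s₂ - Θ s₁) →
  ‖V b - V a‖ ≤ 2 * (Θ b - Θ a) + 3 * m

def Rec : Prop := ∀ Λ : ℝ, ∃ C : ℝ, 1 ≤ C ∧ ∀ (Γ : PS) (T N : ℝ) (k : ℕ) z₀ (s₀ τ w : ℝ),
  Γ.Good T Λ N → Γ.Tst T (2 ^ k) z₀ s₀ τ (w ^ 6) → 0 < w → 16 * C * LL k ≤ w →
  ENNReal.ofReal ‖Γ.V (s₀ + τ) z₀ - Γ.V s₀ z₀‖ ≤
    ENNReal.ofReal C * Γ.TK (1 / (4 * Λ) * w ^ 6 / 2 ^ k) (1 / w ^ 3) (C * LL k / w ^ 4) z₀ s₀ τ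
      + ENNReal.ofReal (C * LL k * w ^ 2)

def TE : Prop := ∀ Λ D : ℝ, 1 ≤ D → ∃ C : ℝ, 1 ≤ C ∧
  ∀ (Γ : PS) (T N t A ℓ : ℝ) (k : ℕ) z₀ (s₀ τ w : ℝ),
  Γ.Good T Λ N → t ≤ T → C ≤ A → Big (1000 * A) k → Γ.Bd t (2 ^ k) → Γ.Hyp t A k (ℓ / 2) →
  Γ.Tst t (2 ^ k) z₀ s₀ τ (w ^ 6) → τ ≤ ℓ → Scl (cc A) k w τ →
  Γ.TK (1 / (4 * Λ) * w ^ 6 / 2 ^ k) (1 / w ^ 3) (D * LL k / w ^ 4) z₀ s₀ τ ≤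
    ENNReal.ofReal (C * yy (cc A) k w τ)

def HStep : Prop := ∀ Λ : ℝ, ∃ A : ℝ, 1 ≤ A ∧ ∀ (Γ : PS) (T N t : ℝ) (k : ℕ),
  Γ.Good T Λ N → t ≤ T → Big (1000 * A) k → Γ.Bd t (2 ^ k) → ∀ ℓ, Γ.Hyp t A k ℓ

/-- doubling takes time at least `κ / (k+4)` -/
def Dbl : Prop := ∀ Λ : ℝ, ∃ κ : ℝ, 0 < κ ∧ ∃ k₀ : ℕ, ∀ (Γ : PS) (T N t : ℝ) (k : ℕ),
  Γ.Good T Λ N → k₀ ≤ k → 0 ≤ t → t ≤ T → Γ.Bd t (2 ^ k) →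
  Γ.Bd (min T (t + κ / LL (k + 1))) (2 ^ (k + 1))

/-- the momentum bound -/
def MB : Prop := ∀ Λ : ℝ, ∃ P : ℝ, ∀ (Γ : PS) (T N : ℝ), Γ.Good T Λ N → Γ.Bd T P

end Vale.Agent.P107
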