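import Vale.Agent.P107.Basic

/-! Problem P107: the window estimate for one particle and one base time. -/

open MeasureTheory Set Filter Topology
open scoped ENNReal RealInnerProductSpace

noncomputable section
namespace Vale.Agent.P107

namespace Win1X

theorem inn {x₀ y₀ x : V3} {θ : ℝ} (hθ : 0 < θ) (h1 : ‖x₀‖ ≤ 1) (h2 : ‖y₀‖ ≤ 1)
    (hc : θ ≤ dd x₀ y₀) (hq : 1 - ‖x₀‖ ^ 2 ≤ θ ^ 2 / 32) (hx : ‖x - x₀‖ ≤ θ / 5) :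
    θ ^ 2 / 2 ≤ ⟪x₀ - y₀, x⟫ := by
  have e : ⟪x₀ - y₀, x⟫ = ‖x₀‖ ^ 2 - ⟪x₀, y₀⟫ + ⟪x₀ - y₀, x - x₀⟫ := by
    rw [inner_sub_right, inner_sub_left x₀ y₀ x₀, real_inner_self_eq_norm_sq,
      real_inner_comm x₀ y₀]
    ring
  have a1 := dd_sq h1 h2
  have a2 := norm_sub_le_dd h1 h2
  have a3 : |⟪x₀ - y₀, x - x₀⟫| ≤ 3 / 2 * dd x₀ y₀ * (θ / 5) :=
    (abs_real_inner_le_norm _ _).trans
      (mul_le_mul a2 hx (norm_nonneg _) (by have := dd_nonneg x₀ y₀; positivity))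
  have a4 := (abs_le.1 a3).1
  rw [e]
  nlinarith [mul_nonneg (sub_nonneg.2 hc) hθ.le, sq_nonneg (dd x₀ y₀ - θ)]

theorem near {x y : V3} {θ : ℝ} (hθ : 0 < θ) (h1 : ‖x‖ ≤ 1) (h2 : ‖y‖ ≤ 1)
    (hx : 1 - ‖x‖ ^ 2 ≤ θ ^ 2 / 32) (hy : 1 - ‖y‖ ^ 2 ≤ θ ^ 2 / 32) (h : ‖x - y‖ ≤ θ / 5) :
    dd x y ≤ θ / 4 := by
  refine le_of_sq_le_sq ?_ (by positivity)
  rw [dd_sq' h1 h2]
  have := pow_le_pow_left₀ (norm_nonneg _) h 2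
  nlinarith [sq_nonneg θ]

theorem bnd {x₀ y₀ y n : V3} {θ β : ℝ} (hθ : 0 < θ) (hβ : 0 < β) (h1 : ‖x₀‖ ≤ 1) (h2 : ‖y₀‖ ≤ 1)
    (h3 : ‖y‖ ≤ 1) (h4 : ‖n‖ ≤ 1) (hc : dd x₀ y₀ ≤ 2 * θ) (hq : 1 - ‖y₀‖ ^ 2 ≤ θ ^ 2 / 32)
    (hy : ‖y - y₀‖ ≤ θ / 5) (hb : dd n y ≤ 2 * β) : |⟪x₀ - y₀, n⟫| ≤ 20 * θ * (β + θ) := by
  have e : ⟪x₀ - y₀, n⟫ = ⟪x₀, y₀⟫ - ‖y₀‖ ^ 2 + ⟪x₀ - y₀, n - y₀⟫ := by
    rw [inner_sub_right, inner_sub_left x₀ y₀ y₀, real_inner_self_eq_norm_sq]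
    ring
  have a1 := dd_sq h1 h2
  have a2 : ‖x₀ - y₀‖ ≤ 3 * θ := by linarith [norm_sub_le_dd h1 h2]
  have a3 : ‖n - y₀‖ ≤ 3 * β + θ / 5 := by
    linarith [norm_sub_le_norm_sub_add_norm_sub n y y₀, norm_sub_le_dd h4 h3]
  have a4 : |⟪x₀ - y₀, n - y₀⟫| ≤ 3 * θ * (3 * β + θ / 5) :=
    (abs_real_inner_le_norm _ _).trans (mul_le_mul a2 a3 (norm_nonneg _) (by positivity))
  have a5 := pow_le_pow_left₀ (dd_nonneg x₀ y₀) hc 2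
  have a6 : ‖y₀‖ ^ 2 ≤ 1 := pow_le_one₀ (norm_nonneg _) h2
  have a7 := mul_pos hθ hβ
  rw [e, abs_le] at *
  constructor <;> nlinarith [sq_nonneg (dd x₀ y₀), sq_nonneg θ]

theorem sgp_ge {a b α β : ℝ} (hα : 0 < α) (hβ : 0 < β) (ha : α ≤ a) (hb0 : 0 < b)
    (hb : b ≤ 2 * β) : 1 ≤ 4 * min 1 (β ^ 2 / α ^ 2) * (1 + a ^ 2 / b ^ 2) := by
  have h0 : 0 ≤ a ^ 2 / b ^ 2 := by positivity
  rcases le_total 1 (β ^ 2 / α ^ 2) with h | h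
  · rw [min_eq_left h]
    linarith
  · rw [min_eq_right h]
    have h1 : α ^ 2 / (2 * β) ^ 2 ≤ a ^ 2 / b ^ 2 := by gcongr
    have h2 : 4 * (β ^ 2 / α ^ 2) * (α ^ 2 / (2 * β) ^ 2) = 1 := by
      field_simp
      norm_num
    have h3 : 0 ≤ 4 * (β ^ 2 / α ^ 2) := by positivity
    nlinarith [mul_le_mul_of_nonneg_left h1 h3]

theorem total {a : ℝ} (ha : 0 < a) :
    ∫⁻ x : ℝ, ENNReal.ofReal (1 + (x / a) ^ 2)⁻¹ = ENNReal.ofReal (a * Real.pi) := by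
  rw [← ofReal_integral_eq_lintegral_ofReal (integrable_inv_one_add_sq.comp_div ha.ne')
    (Eventually.of_forall fun x => by positivity),
    Measure.integral_comp_div (fun x : ℝ => (1 + x ^ 2)⁻¹) a, integral_univ_inv_one_add_sq,
    abs_of_pos ha, smul_eq_mul]

theorem change {Q : Set ℝ} (hQ : MeasurableSet Q) {f f' r : ℝ → ℝ} {M ρ κ : ℝ} (hM : 0 < M)
    (hρ : 0 < ρ) (hκ : 0 < κ) (hd : ∀ s ∈ Q, HasDerivAt f (f' s) s) (hi : InjOn f Q)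
    (h1 : ∀ s ∈ Q, ρ ≤ r s) (h2 : ∀ s ∈ Q, |f s| ≤ M * r s) (h3 : ∀ s ∈ Q, 1 ≤ κ * f' s) :
    ∫⁻ s in Q, ENNReal.ofReal (1 / r s ^ 2) ≤ ENNReal.ofReal (8 * κ * M / ρ) := by
  have ha : 0 < M * ρ := mul_pos hM hρ
  have e := lintegral_image_eq_lintegral_abs_deriv_mul hQ
    (fun s hs => (hd s hs).hasDerivWithinAt) hi fun x => ENNReal.ofReal (1 + (x / (M * ρ)) ^ 2)⁻¹
  calc _ ≤ ∫⁻ s in Q, ENNReal.ofReal (2 * κ / ρ ^ 2) *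
        (ENNReal.ofReal |f' s| * ENNReal.ofReal (1 + (f s / (M * ρ)) ^ 2)⁻¹) := by
        refine setLIntegral_mono' hQ fun s hs => ?_
        rw [← ENNReal.ofReal_mul (abs_nonneg _), ← ENNReal.ofReal_mul (by positivity)]
        refine ENNReal.ofReal_le_ofReal ?_
        have b1 := h1 s hs
        have b0 : 0 < r s := hρ.trans_le b1
        have b2 : (f s / (M * ρ)) ^ 2 ≤ (r s / ρ) ^ 2 := by
          rw [← sq_abs, abs_div, abs_of_pos ha, ← mul_div_mul_left (r s) ρ hM.ne']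
          gcongr
          exact h2 s hs
        have b3 : 1 ≤ (r s / ρ) ^ 2 := one_le_pow₀ ((one_le_div hρ).2 b1)
        have b4 : (2 * (r s / ρ) ^ 2)⁻¹ ≤ (1 + (f s / (M * ρ)) ^ 2)⁻¹ :=
          inv_anti₀ (by positivity) (by linarith)
        have b5 : 1 ≤ κ * |f' s| :=
          (h3 s hs).trans (mul_le_mul_of_nonneg_left (le_abs_self _) hκ.le)
        calc 1 / r s ^ 2 = 2 / ρ ^ 2 * (1 * (2 * (r s / ρ) ^ 2)⁻¹) := by field_simp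
          _ ≤ 2 / ρ ^ 2 * (κ * |f' s| * (1 + (f s / (M * ρ)) ^ 2)⁻¹) := by gcongr
          _ = _ := by ring
    _ = ENNReal.ofReal (2 * κ / ρ ^ 2) *
        ∫⁻ x in f '' Q, ENNReal.ofReal (1 + (x / (M * ρ)) ^ 2)⁻¹ := by
        rw [lintegral_const_mul' _ _ ENNReal.ofReal_ne_top, e]
    _ ≤ ENNReal.ofReal (2 * κ / ρ ^ 2) * ENNReal.ofReal (M * ρ * Real.pi) := by
        rw [← total ha]
        gcongr
        exact Measure.restrict_le_self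
    _ ≤ _ := by
        rw [← ENNReal.ofReal_mul (by positivity)]
        refine ENNReal.ofReal_le_ofReal ?_
        calc 2 * κ / ρ ^ 2 * (M * ρ * Real.pi) = 2 * κ * M / ρ * Real.pi := by field_simp
          _ ≤ 2 * κ * M / ρ * 4 := by
            gcongr
            exact Real.pi_le_four
          _ = _ := by ring

theorem gap {v : V3} {θ : ℝ} (hθ : 0 < θ) (h : 6 ≤ θ * q v) : 1 - ‖uu v‖ ^ 2 ≤ θ ^ 2 / 32 := by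
  have h0 := q_pos v
  rw [norm_uu_sq, sub_sub_cancel, div_le_div_iff₀ (by positivity) (by norm_num)]
  nlinarith

variable {Γ : PS} {T P : ℝ} {z₀ z : Z} {s₀ τ p' p θ d : ℝ}

theorem tst (hT : Γ.Tst T P z₀ s₀ τ p') (hS : Γ.Stb z₀ s₀ τ p' p θ d) {s : ℝ}
    (hs : s ∈ Icc s₀ (s₀ + τ)) : 1 - ‖Γ.U z₀ s‖ ^ 2 ≤ θ ^ 2 / 32 :=
  gap hS.hθ0 (by nlinarith [mul_le_mul_of_nonneg_left (hT.hq s hs).1 hS.hθ0.le, hS.h2])

theorem src (hS : Γ.Stb z₀ s₀ τ p' p θ d) (hp : 0 < p) (hz : z ∈ Γ.S) {t₀ t : ℝ}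
    (h0 : t₀ ∈ Icc (0 : ℝ) (s₀ + τ)) (h1 : t ∈ Icc (0 : ℝ) (s₀ + τ))
    (hq : q (Γ.V t₀ z) ∈ Ico p (2 * p)) (h : |t - t₀| ≤ 3 * d) :
    q (Γ.V t z) ∈ Icc (p / 2) (4 * p) ∧ 1 - ‖uu (Γ.V t z)‖ ^ 2 ≤ θ ^ 2 / 32 ∧
      ‖uu (Γ.V t z) - uu (Γ.V t₀ z)‖ ≤ θ / 5 := by
  have a1 := hS.src z hz t₀ h0 t h1 hq h
  have a2 := abs_le.1 ((abs_q_sub_le _ _).trans a1)
  have a3 : θ * p ≤ p := by nlinarith [hS.hθ1]
  have a4 : p / 2 ≤ q (Γ.V t z) := by linarith [hq.1]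
  refine ⟨⟨a4, by linarith [hq.2]⟩,
    gap hS.hθ0 (by nlinarith [mul_le_mul_of_nonneg_left a4 hS.hθ0.le, hS.h1]), ?_⟩
  rw [norm_sub_rev] at a1 ⊢
  refine (norm_uu_sub_le _ _).trans ?_
  rw [div_le_iff₀ (q_pos _)]
  nlinarith [mul_le_mul_of_nonneg_left hq.1 hS.hθ0.le]

/-- the convex set of times on which the test function is monotone -/
def AA (Γ : PS) (z₀ z : Z) (s₀ τ d t : ℝ) : Set ℝ :=
  {s | s ∈ Icc s₀ (s₀ + τ) ∧ |s - t| ≤ d ∧ z ∈ Γ.act s (Γ.Y s z₀) ∧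
    t - 2 * d ≤ Γ.ret s (Γ.Y s z₀) z}

theorem AA_convex (hR : RetP Γ) (t : ℝ) : Convex ℝ (AA Γ z₀ z s₀ τ d t) := by
  refine OrdConnected.convex ⟨fun a ha b hb s hs => ?_⟩
  obtain ⟨a1, a2, a3, a4⟩ := ha
  obtain ⟨b1, b2, -, -⟩ := hb
  refine ⟨⟨a1.1.trans hs.1, hs.2.trans b1.2⟩, ?_, hR.up z₀ z a s hs.1 a3,
    a4.trans (hR.mono z₀ z hs.1)⟩
  rw [abs_le] at a2 b2 ⊢
  constructor <;> linarith [hs.1, hs.2]

theorem AA_ret (hR : RetP Γ) (h0 : 0 ≤ s₀) {t s : ℝ} (hs : s ∈ AA Γ z₀ z s₀ τ d t) :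
    Γ.ret s (Γ.Y s z₀) z ∈ Icc (0 : ℝ) (s₀ + τ) ∧
      Γ.ret s (Γ.Y s z₀) z ∈ Icc (t - 2 * d) (t + d) := by
  obtain ⟨a1, a2, -, a4⟩ := hs
  have h1 := hR.le s (Γ.Y s z₀) z (h0.trans a1.1)
  exact ⟨⟨hR.nonneg _ _ _, h1.trans a1.2⟩, a4, by linarith [(abs_le.1 a2).2]⟩

theorem abs_le_three {a b t d : ℝ} (ha : a ∈ Icc (t - 2 * d) (t + d))
    (hb : b ∈ Icc (t - 2 * d) (t + d)) : |a - b| ≤ 3 * d := by
  rw [abs_le]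
  constructor <;> linarith [ha.1, ha.2, hb.1, hb.2]

theorem abs_le_two {a b t d : ℝ} (ha : |a - t| ≤ d) (hb : |b - t| ≤ d) : |a - b| ≤ 2 * d := by
  rw [abs_le] at *
  constructor <;> linarith [ha.1, ha.2, hb.1, hb.2]

theorem meas (hK : Γ.Kin) (hR : RetP Γ) (α β ρ t : ℝ) :
    MeasurableSet {s | s ∈ Icc s₀ (s₀ + τ) ∧ |s - t| ≤ d ∧ z ∈ Γ.act s (Γ.Y s z₀) ∧
      Γ.wv s (Γ.Y s z₀) z ∈ box (Γ.U z₀ s) p α β θ ∧ ‖(Γ.wv s (Γ.Y s z₀) z).1‖ ∈ Ioc ρ d} := by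
  have c1 : Continuous fun s : ℝ => Γ.Y s z₀ := hK.cY.comp (continuous_id.prodMk continuous_const)
  have c2 : Continuous fun s : ℝ => ((s, Γ.Y s z₀, z) : ℝ × V3 × Z) :=
    continuous_id.prodMk (c1.prodMk continuous_const)
  have c3 : Continuous fun s : ℝ => Γ.wv s (Γ.Y s z₀) z := hR.cwv.comp c2
  have c4 : Measurable fun s : ℝ => Γ.U z₀ s :=
    measurable_uu.comp (hK.cV.comp (continuous_id.prodMk continuous_const)).measurable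
  have c5 : MeasurableSet {s : ℝ | |s - t| ≤ d} := measurableSet_le (by fun_prop) measurable_const
  exact measurableSet_Icc.inter (c5.inter
    ((hR.opn.preimage c2).measurableSet.inter ((measurableSet_box c4 c3.measurable p α β θ).inter
      (c3.fst.norm.measurable measurableSet_Ioc))))

end Win1X

open Win1X in
theorem win1 (h1 : Ret1) (h2 : Ret2) : Win1 := by
  refine ⟨1280, by norm_num, fun Γ T Λ N P z₀ s₀ τ p' hG hT p α β θ d ρ hp hα hβ hρ hS z hz hn t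
    ht => ?_⟩
  have hR := h1 Γ hG.toKin
  have hm := meas (z₀ := z₀) (z := z) (s₀ := s₀) (τ := τ) (p := p) (θ := θ) (d := d)
    hG.toKin hR α β ρ t
  set Q := {s | s ∈ Icc s₀ (s₀ + τ) ∧ |s - t| ≤ d ∧ z ∈ Γ.act s (Γ.Y s z₀) ∧
      Γ.wv s (Γ.Y s z₀) z ∈ box (Γ.U z₀ s) p α β θ ∧ ‖(Γ.wv s (Γ.Y s z₀) z).1‖ ∈ Ioc ρ d}
  rcases Q.eq_empty_or_nonempty with h | ⟨s₁, hs₁⟩
  · rw [h, Measure.restrict_empty, lintegral_zero_measure]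
    exact zero_le
  have hθ := hS.hθ0
  have hd := hS.hd0
  have hA : Q ⊆ AA Γ z₀ z s₀ τ d t := by
    rintro s ⟨a1, a2, a3, -, a5⟩
    exact ⟨a1, a2, a3, by linarith [(hR.act _ _ _ a3).2, (abs_le.1 a2).1, a5.2]⟩
  obtain ⟨r1, r2⟩ := AA_ret hR hT.h0 (hA hs₁)
  obtain ⟨m1, m2, -, ⟨m4, -, -, m5⟩, -⟩ := hs₁
  set U₀ := Γ.U z₀ s₁
  set u₀ := uu (Γ.wv s₁ (Γ.Y s₁ z₀) z).2
  have n1 : ‖U₀‖ ≤ 1 := Γ.norm_U_le _ _
  have n2 : ‖u₀‖ ≤ 1 := norm_uu_le _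
  have g1 : 1 - ‖U₀‖ ^ 2 ≤ θ ^ 2 / 32 := tst hT hS m1
  have g2 : 1 - ‖u₀‖ ^ 2 ≤ θ ^ 2 / 32 := (src hS hp hz r1 r1 m4 (abs_le_three r2 r2)).2.1
  have hsim : z ∈ Γ.sim z₀ p θ t := by
    obtain ⟨b1, b2, b3⟩ := src hS hp hz r1 ⟨hT.h0.trans ht.1, ht.2⟩ m4
      (abs_le_three ⟨by linarith, by linarith⟩ r2)
    have n3 := Γ.norm_U_le z₀ t
    have n4 := norm_uu_le (Γ.V t z)
    have b4 : dd (Γ.U z₀ t) U₀ ≤ θ / 4 := near hθ n3 n1 (tst hT hS ht) g1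
      (hS.test t ht s₁ m1 (abs_le_two (by simpa using hd.le) m2))
    have b5 : dd (uu (Γ.V t z)) u₀ ≤ θ / 4 := near hθ n4 n2 b2 g2 b3
    refine ⟨b1, ?_, ?_⟩
    · have c1 := dd_tri n1 n3 n2
      have c2 := dd_tri n3 n4 n2
      rw [dd_comm U₀ (Γ.U z₀ t)] at c1
      linarith [m5.1]
    · have c1 := dd_tri n3 n1 n4
      have c2 := dd_tri n1 n2 n4
      rw [dd_comm u₀ (uu (Γ.V t z))] at c2
      linarith [m5.2]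
  have hu : ∀ s ∈ AA Γ z₀ z s₀ τ d t, ‖uu (Γ.wv s (Γ.Y s z₀) z).2 - u₀‖ ≤ θ / 5 := fun s hs =>
    (src hS hp hz r1 (AA_ret hR hT.h0 hs).1 m4 (abs_le_three (AA_ret hR hT.h0 hs).2 r2)).2.2
  have hD : ∀ s ∈ AA Γ z₀ z s₀ τ d t,
      HasDerivAt (fun s => ⟪U₀ - u₀, (Γ.wv s (Γ.Y s z₀) z).1⟫)
        ⟪U₀ - u₀, Γ.U z₀ s - sgp (Γ.U z₀ s) (Γ.wv s (Γ.Y s z₀) z).1 (Γ.wv s (Γ.Y s z₀) z).2 •
          uu (Γ.wv s (Γ.Y s z₀) z).2⟫ s := fun s hs =>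
    (innerSL ℝ (U₀ - u₀)).hasFDerivAt.comp_hasDerivAt s (h2 Γ hG.toKin z₀ z s hs.2.2.1
      (hR.nohit z₀ z _ s hn ⟨hT.h0.trans hs.1.1, hs.1.2⟩)).2.1
  have hL : ∀ s ∈ AA Γ z₀ z s₀ τ d t,
      θ ^ 2 / 2 * (1 + sgp (Γ.U z₀ s) (Γ.wv s (Γ.Y s z₀) z).1 (Γ.wv s (Γ.Y s z₀) z).2) ≤
        ⟪U₀ - u₀, Γ.U z₀ s - sgp (Γ.U z₀ s) (Γ.wv s (Γ.Y s z₀) z).1 (Γ.wv s (Γ.Y s z₀) z).2 •
          uu (Γ.wv s (Γ.Y s z₀) z).2⟫ := by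
    intro s hs
    have c1 := inn hθ n1 n2 m5.1 g1 (hS.test s hs.1 s₁ m1 (abs_le_two hs.2.1 m2))
    have c2 := inn hθ n2 n1 (m5.1.trans_eq (dd_comm _ _)) g2 (hu s hs)
    rw [← neg_sub, inner_neg_left] at c2
    rw [inner_sub_right, real_inner_smul_right]
    nlinarith [mul_le_mul_of_nonneg_left c2
      (sgp_nonneg (Γ.U z₀ s) (Γ.wv s (Γ.Y s z₀) z).1 (Γ.wv s (Γ.Y s z₀) z).2)]
  have hI : InjOn (fun s => ⟪U₀ - u₀, (Γ.wv s (Γ.Y s z₀) z).1⟫) Q :=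
    (strictMonoOn_of_deriv_pos (AA_convex hR t)
      (fun s hs => (hD s hs).continuousAt.continuousWithinAt) fun s hs => by
        have hs' := interior_subset hs
        rw [(hD s hs').deriv]
        have := sgp_nonneg (Γ.U z₀ s) (Γ.wv s (Γ.Y s z₀) z).1 (Γ.wv s (Γ.Y s z₀) z).2
        exact lt_of_lt_of_le (by positivity) (hL s hs')).injOn.mono hA
  have hmin : 0 < min 1 (β ^ 2 / α ^ 2) := lt_min one_pos (by positivity)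
  rw [if_pos hsim]
  refine (change hm (M := 20 * θ * (β + θ)) (κ := 8 * min 1 (β ^ 2 / α ^ 2) / θ ^ 2)
    (by positivity) hρ (by positivity) (fun s hs => hD s (hA hs)) hI (fun s hs => hs.2.2.2.2.1.le)
    (fun s hs => ?_) fun s hs => ?_).trans (le_of_eq ?_)
  · rw [real_inner_comm, inner_eq_norm_mul_hat, abs_mul, abs_norm, mul_comm, real_inner_comm]
    exact mul_le_mul_of_nonneg_right (bnd hθ hβ n1 n2 (norm_uu_le _) (norm_hat_le _) m5.2.le g2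
      (hu s (hA hs)) hs.2.2.2.1.2.2.1.2.le) (norm_nonneg _)
  · have c1 := sgp_ge hα hβ hs.2.2.2.1.2.1.1 (dd_uu_pos (norm_hat_le _) _) hs.2.2.2.1.2.2.1.2.le
    refine c1.trans (le_trans (le_of_eq ?_)
      (mul_le_mul_of_nonneg_left (hL s (hA hs)) (by positivity)))
    unfold sgp
    field_simp
    ring
  · congr 1
    field_simp
    ring

end Vale.Agent.P107
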